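import Crest.Agent.R340.Pl6_249

set_option autoImplicit false
open scoped BigOperators Topology
open Finset Filter

namespace Crest.Agent.R340.Kn249

open Crest.Agent.R340.Fock649 Crest.MathPhysics.Laughlin

theorem tendsto_sub_div (a k : ℕ) (ha : 1 ≤ a) :
    Tendsto (fun Q : ℕ => ((a * Q - k : ℕ) : ℝ) / (Q : ℝ)) atTop (𝓝 (a : ℝ)) := by
  have h1 : Tendsto (fun Q : ℕ => (a : ℝ) - (k : ℝ) / (Q : ℝ)) atTop (𝓝 ((a : ℝ) - 0)) :=
    tendsto_const_nhds.sub (tendsto_const_div_atTop_nhds_zero_nat (k : ℝ))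
  rw [sub_zero] at h1
  refine h1.congr' ?_
  filter_upwards [eventually_ge_atTop (k + 1)] with Q hQ
  have hQ0 : (Q : ℝ) ≠ 0 := by
    have : 0 < Q := by omega
    positivity
  have hk : k ≤ a * Q := by nlinarith
  rw [Nat.cast_sub hk]
  push_cast
  field_simp

theorem tendsto_choose (a j : ℕ) (ha : 1 ≤ a) :
    Tendsto (fun Q : ℕ => ((Nat.choose (a * Q) j : ℕ) : ℝ) / (Q : ℝ) ^ j) atTop
      (𝓝 ((a : ℝ) ^ j / (j.factorial : ℝ))) := by
  induction j with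
  | zero => simp
  | succ j ih =>
    have h1 := (ih.mul (tendsto_sub_div a j ha)).div_const ((j : ℝ) + 1)
    have e1 : (a : ℝ) ^ (j + 1) / ((j + 1).factorial : ℝ) =
        (a : ℝ) ^ j / (j.factorial : ℝ) * a / ((j : ℝ) + 1) := by
      rw [Nat.factorial_succ]
      push_cast
      have : (j.factorial : ℝ) ≠ 0 := by positivity
      field_simp
      try ring
    rw [e1]
    refine h1.congr fun Q => ?_
    have h2 : ((Nat.choose (a * Q) (j + 1) : ℕ) : ℝ) * ((j : ℝ) + 1) =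
        ((Nat.choose (a * Q) j : ℕ) : ℝ) * ((a * Q - j : ℕ) : ℝ) := by
      exact_mod_cast Nat.choose_succ_right_eq (a * Q) j
    have h3 : ((Nat.choose (a * Q) (j + 1) : ℕ) : ℝ) =
        ((Nat.choose (a * Q) j : ℕ) : ℝ) * ((a * Q - j : ℕ) : ℝ) / ((j : ℝ) + 1) := by
      rw [← h2]
      field_simp
    rw [h3, pow_succ, div_mul_div_comm, div_div, div_div, mul_comm ((j : ℝ) + 1)]

theorem lam_lim (k : ℕ) : Tendsto (fun Q : ℕ => lam Q k / Real.sqrt Q) atTop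
    (𝓝 (Real.sqrt ((k : ℝ) + 1))) := by
  have h1 := (tendsto_sub_div 1 k le_rfl).const_mul ((k : ℝ) + 1)
  have h2 := h1.sqrt
  simp only [Nat.cast_one, mul_one, one_mul] at h2
  refine h2.congr fun Q => ?_
  unfold lam
  rw [← Real.sqrt_div (by positivity), mul_div_assoc]

theorem mu_lim (q : ℕ) : Tendsto (fun Q : ℕ => mu Q q / Real.sqrt Q) atTop
    (𝓝 (Real.sqrt (2 * ((q : ℝ) + 1)))) := by
  have h1 := (tendsto_sub_div 2 (2 + q) (by norm_num)).const_mul ((q : ℝ) + 1)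
  have h2 := h1.sqrt
  have e : ((q : ℝ) + 1) * ((2 : ℕ) : ℝ) = 2 * ((q : ℝ) + 1) := by push_cast; ring
  rw [e] at h2
  refine h2.congr fun Q => ?_
  unfold mu
  rw [← Real.sqrt_div (by positivity), mul_div_assoc]
  have : 2 * Q - (2 + q) = 2 * Q - 2 - q := by omega
  rw [this]

theorem nu_lim (j : ℕ) : Tendsto (fun Q : ℕ => nuQ Q j) atTop
    (𝓝 (Real.sqrt (1 / (j.factorial : ℝ)))) := by
  have h1 := (tendsto_choose 1 j le_rfl).sqrt
  simp only [Nat.cast_one, one_pow, one_mul] at h1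
  exact h1

theorem pairNorm_lim (q : ℕ) : Tendsto (fun Q : ℕ => pairNorm Q (q + 1) / (Q : ℝ) ^ (q + 1)) atTop
    (𝓝 (2 ^ q / (q.factorial : ℝ))) := by
  have h1 := tendsto_choose 2 (q + 1) (by norm_num)
  have h2 : Tendsto (fun Q : ℕ => (2 * (Q : ℝ) - ((q + 1 : ℕ) : ℝ)) / (2 * (Q : ℝ) - 1)) atTop
      (𝓝 (2 / 2)) := by
    have a1 : Tendsto (fun Q : ℕ => (2 : ℝ) - ((q + 1 : ℕ) : ℝ) / (Q : ℝ)) atTop
        (𝓝 ((2 : ℝ) - 0)) :=
      tendsto_const_nhds.sub (tendsto_const_div_atTop_nhds_zero_nat _)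
    have a2 : Tendsto (fun Q : ℕ => (2 : ℝ) - (1 : ℝ) / (Q : ℝ)) atTop (𝓝 ((2 : ℝ) - 0)) :=
      tendsto_const_nhds.sub (tendsto_const_div_atTop_nhds_zero_nat _)
    have a3 := a1.div a2 (by norm_num)
    rw [sub_zero] at a3
    refine a3.congr' ?_
    filter_upwards [eventually_ge_atTop 2] with Q hQ
    have hQ0 : (0 : ℝ) < (Q : ℝ) := by
      have : 0 < Q := by omega
      positivity
    have hQ1 : (1 : ℝ) ≤ (Q : ℝ) := by
      have : 1 ≤ Q := by omega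
      exact_mod_cast this
    have n1 : (2 : ℝ) * Q - 1 ≠ 0 := by linarith
    have n2 : (2 : ℝ) - 1 / Q ≠ 0 := by
      have : 1 / (Q : ℝ) ≤ 1 := by
        rw [div_le_one hQ0]; exact hQ1
      linarith
    simp only [Pi.div_apply]
    rw [div_eq_div_iff n2 n1]
    field_simp
  have h3 := (h1.mul h2).const_mul (((q + 1 : ℕ) : ℝ) / 2)
  have e : (((q + 1 : ℕ) : ℝ) / 2) * (((2 : ℕ) : ℝ) ^ (q + 1) / ((q + 1).factorial : ℝ) * (2 / 2)) =
      2 ^ q / (q.factorial : ℝ) := by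
    rw [Nat.factorial_succ]
    push_cast
    have : (q.factorial : ℝ) ≠ 0 := by positivity
    field_simp
    ring
  rw [e] at h3
  refine h3.congr fun Q => ?_
  unfold pairNorm
  rw [div_mul_eq_div_div _ (2 : ℝ) (2 * (Q : ℝ) - 1)]
  push_cast
  ring

theorem th_lim (q : ℕ) : Tendsto (fun Q : ℕ => thQ Q q) atTop
    (𝓝 (Real.sqrt (2 ^ q / (q.factorial : ℝ)))) := (pairNorm_lim q).sqrt

theorem v0_eq (Q p : ℕ) (hQ : 1 ≤ Q) :
    v0 Q p = ((p : ℝ) + 1) * nuQ Q (p + 1) / thQ Q p := by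
  unfold v0 pv nuQ thQ
  have hQ0 : (0 : ℝ) < (Q : ℝ) := by exact_mod_cast hQ
  rw [if_pos (by omega)]
  rw [Real.sqrt_mul (by norm_num : (0 : ℝ) ≤ 2), Real.sqrt_div' _ (by positivity),
    Real.sqrt_div' _ (by positivity)]
  have h1 : Real.sqrt ((Q : ℝ) ^ (p + 1)) ≠ 0 := by positivity
  have h2 : Real.sqrt 2 ≠ 0 := by positivity
  simp only [Nat.choose_zero_right, Nat.cast_one, one_mul, Nat.cast_zero, sub_zero]
  push_cast
  by_cases h3 : Real.sqrt (pairNorm Q (p + 1)) = 0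
  · rw [h3]; simp
  · field_simp

theorem v1_eq (Q p : ℕ) (hQ : 1 ≤ Q) :
    v1 Q p = ((p : ℝ) - 1) * (nuQ Q 1 * nuQ Q p) / thQ Q p := by
  unfold v1 pv nuQ thQ
  have hQ0 : (0 : ℝ) < (Q : ℝ) := by exact_mod_cast hQ
  rw [if_pos (by omega)]
  rw [Real.sqrt_mul (by norm_num : (0 : ℝ) ≤ 2), Real.sqrt_div' _ (by positivity),
    Real.sqrt_div' _ (by positivity), Real.sqrt_div' _ (by positivity),
    Real.sqrt_mul (by positivity)]
  have h1 : Real.sqrt ((Q : ℝ) ^ (p + 1)) = Real.sqrt ((Q : ℝ) ^ 1) * Real.sqrt ((Q : ℝ) ^ p) := by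
    rw [← Real.sqrt_mul (by positivity)]; congr 1; ring
  have h1a : Real.sqrt ((Q : ℝ) ^ 1) ≠ 0 := by positivity
  have h1b : Real.sqrt ((Q : ℝ) ^ p) ≠ 0 := by positivity
  have h2 : Real.sqrt 2 ≠ 0 := by positivity
  rw [h1]
  by_cases h3 : Real.sqrt (pairNorm Q (p + 1)) = 0
  · rw [h3]; simp
  · push_cast
    field_simp

theorem v0_lim (p : ℕ) : Tendsto (fun Q : ℕ => v0 Q p) atTop
    (𝓝 (Real.sqrt (((p : ℝ) + 1) / 2 ^ p))) := by
  have hn : Real.sqrt (2 ^ p / (p.factorial : ℝ)) ≠ 0 := by positivity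
  have h1 := ((nu_lim (p + 1)).const_mul ((p : ℝ) + 1)).div (th_lim p) hn
  have e : ((p : ℝ) + 1) * Real.sqrt (1 / ((p + 1).factorial : ℝ)) /
      Real.sqrt (2 ^ p / (p.factorial : ℝ)) = Real.sqrt (((p : ℝ) + 1) / 2 ^ p) := by
    rw [div_eq_iff hn, ← Real.sqrt_mul (by positivity)]
    have h2 : ((p : ℝ) + 1) = Real.sqrt (((p : ℝ) + 1) ^ 2) := (Real.sqrt_sq (by positivity)).symm
    nth_rewrite 1 [h2]
    rw [← Real.sqrt_mul (by positivity), Nat.factorial_succ]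
    congr 1
    push_cast
    have : (p.factorial : ℝ) ≠ 0 := by positivity
    field_simp
  rw [e] at h1
  refine h1.congr' ?_
  filter_upwards [eventually_ge_atTop 1] with Q hQ
  exact (v0_eq Q p hQ).symm

theorem v1_lim (p : ℕ) : Tendsto (fun Q : ℕ => v1 Q p) atTop
    (𝓝 (((p : ℝ) - 1) / Real.sqrt (2 ^ p))) := by
  have hn : Real.sqrt (2 ^ p / (p.factorial : ℝ)) ≠ 0 := by positivity
  have h1 := (((nu_lim 1).mul (nu_lim p)).const_mul ((p : ℝ) - 1)).div (th_lim p) hn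
  have e : ((p : ℝ) - 1) * (Real.sqrt (1 / ((1 : ℕ).factorial : ℝ)) *
      Real.sqrt (1 / (p.factorial : ℝ))) / Real.sqrt (2 ^ p / (p.factorial : ℝ)) =
      ((p : ℝ) - 1) / Real.sqrt (2 ^ p) := by
    rw [Nat.factorial_one, Nat.cast_one, div_one, Real.sqrt_one, one_mul,
      Real.sqrt_div' _ (by positivity), Real.sqrt_div' _ (by positivity), Real.sqrt_one]
    have h3 : Real.sqrt (p.factorial : ℝ) ≠ 0 := by positivity
    have h4 : Real.sqrt ((2 : ℝ) ^ p) ≠ 0 := by positivity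
    field_simp
  rw [e] at h1
  refine h1.congr' ?_
  filter_upwards [eventually_ge_atTop 1] with Q hQ
  exact (v1_eq Q p hQ).symm

theorem two_pow_mul_choose_le (n k : ℕ) : 2 ^ k * n.choose k ≤ (2 * n).choose k := by
  induction k with
  | zero => simp
  | succ k ih =>
    by_cases hk : n ≤ k
    · rw [Nat.choose_eq_zero_of_lt (by omega : n < k + 1)]; simp
    · have h1 := Nat.choose_succ_right_eq n k
      have h2 := Nat.choose_succ_right_eq (2 * n) k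
      have h3 : 2 * (n - k) ≤ 2 * n - k := by omega
      have h4 : (2 ^ (k + 1) * n.choose (k + 1)) * (k + 1) ≤ (2 * n).choose (k + 1) * (k + 1) := by
        calc (2 ^ (k + 1) * n.choose (k + 1)) * (k + 1) =
              (2 ^ k * n.choose k) * (2 * (n - k)) := by
              rw [pow_succ]; linear_combination (2 ^ k * 2) * h1
          _ ≤ (2 * n).choose k * (2 * n - k) := Nat.mul_le_mul ih h3
          _ = _ := h2.symm
      exact Nat.le_of_mul_le_mul_right h4 (Nat.succ_pos k)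

/-- explicit tail bound -/
noncomputable def bT (p : ℕ) : ℝ := 4 * ((p : ℝ) + 1) * (5 / 7) ^ p

theorem bT_sum (P1 n : ℕ) : ∑ p ∈ Ico P1 n, bT p ≤ (14 * (P1 : ℝ) + 49) * (5 / 7) ^ P1 := by
  have key : ∀ n, P1 ≤ n → ∑ p ∈ Ico P1 n, bT p =
      (14 * (P1 : ℝ) + 49) * (5 / 7) ^ P1 - (14 * (n : ℝ) + 49) * (5 / 7) ^ n := by
    intro n hn
    induction n, hn using Nat.le_induction with
    | base => simp
    | succ n hn ih =>
      rw [Finset.sum_Ico_succ_top hn, ih]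
      unfold bT
      push_cast
      rw [pow_succ]
      ring
  by_cases h : P1 ≤ n
  · rw [key n h]
    have : 0 ≤ (14 * (n : ℝ) + 49) * (5 / 7) ^ n := by positivity
    linarith
  · rw [Finset.Ico_eq_empty (by omega), Finset.sum_empty]
    positivity

theorem v0_sq_le (Q p : ℕ) (hQ : 2 ≤ Q) : v0 Q p ^ 2 ≤ 2 * ((p : ℝ) + 1) / 2 ^ p := by
  by_cases hp : Q < p + 1
  · have h0 : v0 Q p = 0 := by
      unfold v0 pv
      rw [Nat.choose_eq_zero_of_lt hp]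
      simp
    rw [h0, zero_pow two_ne_zero]; positivity
  · have hp' : p + 1 ≤ Q := by omega
    have hQr : (2 : ℝ) ≤ (Q : ℝ) := by exact_mod_cast hQ
    have hpr : (p : ℝ) + 1 ≤ (Q : ℝ) := by exact_mod_cast hp'
    have hc0 : 0 < (2 * Q).choose (p + 1) := Nat.choose_pos (by omega)
    have hc : (0 : ℝ) < ((2 * Q).choose (p + 1) : ℝ) := by exact_mod_cast hc0
    have hN : 0 < pairNorm Q (p + 1) := by
      unfold pairNorm
      push_cast
      apply div_pos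
      · apply mul_pos (mul_pos (by positivity) (by linarith)) hc
      · linarith
    have h1 : v0 Q p ^ 2 = ((p : ℝ) + 1) ^ 2 * (Q.choose (p + 1) : ℝ) / pairNorm Q (p + 1) := by
      unfold v0 pv
      rw [if_pos (by omega), mul_pow, div_pow, mul_pow, Real.sq_sqrt (by norm_num),
        Real.sq_sqrt (by positivity), Real.sq_sqrt (by positivity)]
      simp only [Nat.choose_zero_right, Nat.cast_one, one_mul, Nat.cast_zero, sub_zero]
      push_cast
      field_simp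
    have h2 : (2 : ℝ) ^ (p + 1) * (Q.choose (p + 1) : ℝ) ≤ ((2 * Q).choose (p + 1) : ℝ) := by
      exact_mod_cast two_pow_mul_choose_le Q (p + 1)
    rw [h1, div_le_div_iff₀ hN (by positivity)]
    have h3 : ((2 * Q).choose (p + 1) : ℝ) * ((p : ℝ) + 1) / 4 ≤ pairNorm Q (p + 1) := by
      unfold pairNorm
      rw [div_le_div_iff₀ (by norm_num) (by linarith)]
      push_cast
      have : (2 * (Q : ℝ) - 1) * 1 ≤ 2 * (2 * (Q : ℝ) - ((p : ℝ) + 1)) := by linarith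
      have hh : 0 ≤ ((2 * Q).choose (p + 1) : ℝ) * ((p : ℝ) + 1) := by positivity
      nlinarith
    have h4 : ((p : ℝ) + 1) ^ 2 * (Q.choose (p + 1) : ℝ) * 2 ^ p =
        ((p : ℝ) + 1) ^ 2 / 2 * (2 ^ (p + 1) * (Q.choose (p + 1) : ℝ)) := by
      rw [pow_succ]; ring
    rw [h4]
    calc ((p : ℝ) + 1) ^ 2 / 2 * (2 ^ (p + 1) * (Q.choose (p + 1) : ℝ)) ≤
          ((p : ℝ) + 1) ^ 2 / 2 * ((2 * Q).choose (p + 1) : ℝ) :=
          mul_le_mul_of_nonneg_left h2 (by positivity)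
      _ = 2 * ((p : ℝ) + 1) * (((2 * Q).choose (p + 1) : ℝ) * ((p : ℝ) + 1) / 4) := by ring
      _ ≤ 2 * ((p : ℝ) + 1) * pairNorm Q (p + 1) :=
          mul_le_mul_of_nonneg_left h3 (by positivity)

theorem v1_sq_le (Q p : ℕ) (hQ : 2 ≤ Q) : v1 Q p ^ 2 ≤ 6 * ((p : ℝ) + 1) ^ 2 / 2 ^ p := by
  by_cases hp : Q < p
  · have h0 : v1 Q p = 0 := by
      unfold v1 pv
      rw [Nat.choose_eq_zero_of_lt hp]
      simp
    rw [h0, zero_pow two_ne_zero]; positivity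
  · have hp' : p ≤ Q := by omega
    have hQr : (2 : ℝ) ≤ (Q : ℝ) := by exact_mod_cast hQ
    have hpr : (p : ℝ) ≤ (Q : ℝ) := by exact_mod_cast hp'
    have hc0 : 0 < (2 * Q).choose (p + 1) := Nat.choose_pos (by omega)
    have hc : (0 : ℝ) < ((2 * Q).choose (p + 1) : ℝ) := by exact_mod_cast hc0
    have hN : 0 < pairNorm Q (p + 1) := by
      unfold pairNorm
      push_cast
      apply div_pos
      · apply mul_pos (mul_pos (by positivity) (by linarith)) hc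
      · linarith
    have h1 : v1 Q p ^ 2 = ((p : ℝ) - 1) ^ 2 * ((Q : ℝ) * (Q.choose p : ℝ)) /
        pairNorm Q (p + 1) := by
      unfold v1 pv
      rw [if_pos (by omega), mul_pow, div_pow, mul_pow, Real.sq_sqrt (by norm_num),
        Real.sq_sqrt (by positivity), Real.sq_sqrt (by positivity)]
      simp only [Nat.choose_one_right, Nat.cast_one]
      field_simp
    have h2 : (2 : ℝ) ^ p * (Q.choose p : ℝ) ≤ ((2 * Q).choose p : ℝ) := by
      exact_mod_cast two_pow_mul_choose_le Q p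
    have h5 : ((2 * Q).choose (p + 1) : ℝ) * ((p : ℝ) + 1) =
        ((2 * Q).choose p : ℝ) * (2 * (Q : ℝ) - p) := by
      have := Nat.choose_succ_right_eq (2 * Q) p
      have h6 : ((2 * Q - p : ℕ) : ℝ) = 2 * (Q : ℝ) - p := by
        rw [Nat.cast_sub (by omega)]; push_cast; ring
      rw [← h6]
      exact_mod_cast this
    rw [h1, div_le_div_iff₀ hN (by positivity)]
    -- pairNorm = C(2Q,p) (2Q-p)(2Q-p-1) / (2(2Q-1))
    have h7 : pairNorm Q (p + 1) = ((2 * Q).choose p : ℝ) * (2 * (Q : ℝ) - p) *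
        (2 * (Q : ℝ) - p - 1) / (2 * (2 * (Q : ℝ) - 1)) := by
      unfold pairNorm
      rw [← h5]
      push_cast
      ring
    have hcp : (0 : ℝ) ≤ ((2 * Q).choose p : ℝ) := by positivity
    have h8 : (Q : ℝ) * ((2 * Q).choose p : ℝ) ≤ 6 * pairNorm Q (p + 1) := by
      rw [h7, ← mul_div_assoc, le_div_iff₀ (by linarith)]
      have g1 : (Q : ℝ) * (2 * (2 * (Q : ℝ) - 1)) ≤ 6 * ((2 * (Q : ℝ) - p) * (2 * (Q : ℝ) - p - 1)) := by
        have g2 : (Q : ℝ) ≤ 2 * (Q : ℝ) - p := by linarith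
        have g3 : (Q : ℝ) - 1 ≤ 2 * (Q : ℝ) - p - 1 := by linarith
        have g4 : (Q : ℝ) * ((Q : ℝ) - 1) ≤ (2 * (Q : ℝ) - p) * (2 * (Q : ℝ) - p - 1) :=
          mul_le_mul g2 g3 (by linarith) (by linarith)
        nlinarith
      nlinarith
    have h9 : ((p : ℝ) - 1) ^ 2 ≤ ((p : ℝ) + 1) ^ 2 := by
      have : (0 : ℝ) ≤ p := by positivity
      nlinarith
    calc ((p : ℝ) - 1) ^ 2 * ((Q : ℝ) * (Q.choose p : ℝ)) * 2 ^ p =
          ((p : ℝ) - 1) ^ 2 * ((Q : ℝ) * (2 ^ p * (Q.choose p : ℝ))) := by ring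
      _ ≤ ((p : ℝ) - 1) ^ 2 * ((Q : ℝ) * ((2 * Q).choose p : ℝ)) :=
          mul_le_mul_of_nonneg_left (mul_le_mul_of_nonneg_left h2 (by positivity)) (by positivity)
      _ ≤ ((p : ℝ) - 1) ^ 2 * (6 * pairNorm Q (p + 1)) :=
          mul_le_mul_of_nonneg_left h8 (by positivity)
      _ ≤ ((p : ℝ) + 1) ^ 2 * (6 * pairNorm Q (p + 1)) :=
          mul_le_mul_of_nonneg_right h9 (by positivity)
      _ = 6 * ((p : ℝ) + 1) ^ 2 * pairNorm Q (p + 1) := by ring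

theorem tail_bound (Q p : ℕ) (hQ : 2 ≤ Q) : |v0 Q p| + |v1 Q p| ≤ bT p := by
  have hr : (1 : ℝ) / 2 ^ p ≤ ((5 / 7 : ℝ) ^ p) ^ 2 := by
    rw [← pow_mul, mul_comm, pow_mul, ← one_div_pow]
    exact pow_le_pow_left₀ (by norm_num) (by norm_num) p
  have hp0 : (0 : ℝ) ≤ (p : ℝ) := by positivity
  have hq : (0 : ℝ) < (5 / 7 : ℝ) ^ p := by positivity
  have h0 : |v0 Q p| ≤ (3 / 2) * ((p : ℝ) + 1) * (5 / 7) ^ p := by
    apply abs_le_of_sq_le_sq _ (by positivity)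
    refine (v0_sq_le Q p hQ).trans ?_
    have : 2 * ((p : ℝ) + 1) / 2 ^ p = 2 * ((p : ℝ) + 1) * (1 / 2 ^ p) := by ring
    rw [this]
    calc 2 * ((p : ℝ) + 1) * (1 / 2 ^ p) ≤ 2 * ((p : ℝ) + 1) * ((5 / 7 : ℝ) ^ p) ^ 2 :=
          mul_le_mul_of_nonneg_left hr (by positivity)
      _ ≤ ((3 / 2) * ((p : ℝ) + 1) * (5 / 7) ^ p) ^ 2 := by
          have e : ((3 / 2) * ((p : ℝ) + 1) * (5 / 7) ^ p) ^ 2 =
            (9 / 4 * ((p : ℝ) + 1) ^ 2) * ((5 / 7 : ℝ) ^ p) ^ 2 := by ring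
          rw [e]
          apply mul_le_mul_of_nonneg_right _ (by positivity)
          nlinarith
  have h1 : |v1 Q p| ≤ (5 / 2) * ((p : ℝ) + 1) * (5 / 7) ^ p := by
    apply abs_le_of_sq_le_sq _ (by positivity)
    refine (v1_sq_le Q p hQ).trans ?_
    have : 6 * ((p : ℝ) + 1) ^ 2 / 2 ^ p = 6 * ((p : ℝ) + 1) ^ 2 * (1 / 2 ^ p) := by ring
    rw [this]
    calc 6 * ((p : ℝ) + 1) ^ 2 * (1 / 2 ^ p) ≤ 6 * ((p : ℝ) + 1) ^ 2 * ((5 / 7 : ℝ) ^ p) ^ 2 :=
          mul_le_mul_of_nonneg_left hr (by positivity)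
      _ ≤ ((5 / 2) * ((p : ℝ) + 1) * (5 / 7) ^ p) ^ 2 := by
          have e : ((5 / 2) * ((p : ℝ) + 1) * (5 / 7) ^ p) ^ 2 =
            (25 / 4 * ((p : ℝ) + 1) ^ 2) * ((5 / 7 : ℝ) ^ p) ^ 2 := by ring
          rw [e]
          apply mul_le_mul_of_nonneg_right _ (by positivity)
          nlinarith
  unfold bT
  linarith

end Crest.Agent.R340.Kn249
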