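import Crest.Agent.R340.Avg_814

/-!
# R340 (helper814): the hat-box law

`t(g) = ‖g 1 0‖²` is uniformly distributed on `[0,1]` under the Haar probability measure of
`unitaryGroup (Fin 2) ℂ`; same for `‖(gᴴ h) 1 0‖²`.
-/

set_option autoImplicit false

open Matrix Finset MeasureTheory

namespace Crest.Agent.R340.Avg814

open Crest.Agent.R340.CS809 Crest.Agent.R340.Rot303 Crest.Agent.R124.Haar

noncomputable section

/-- the height variable -/
def tt (g : G2) : ℝ := ‖(g : Matrix (Fin 2) (Fin 2) ℂ) 1 0‖ ^ 2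

lemma continuous_tt : Continuous tt := by
  have h : Continuous fun g : G2 => (g : Matrix (Fin 2) (Fin 2) ℂ) 1 0 := continuous_coeff 1 0
  exact h.norm.pow 2

lemma G2_mul_ct (g : G2) :
    (g : Matrix (Fin 2) (Fin 2) ℂ) * (g : Matrix (Fin 2) (Fin 2) ℂ)ᴴ = 1 := by
  have := Matrix.mem_unitaryGroup_iff.1 g.2
  rwa [Matrix.star_eq_conjTranspose] at this

lemma G2_ct_mul (g : G2) :
    (g : Matrix (Fin 2) (Fin 2) ℂ)ᴴ * (g : Matrix (Fin 2) (Fin 2) ℂ) = 1 := by
  have := Matrix.mem_unitaryGroup_iff'.1 g.2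
  rwa [Matrix.star_eq_conjTranspose] at this

lemma norm_sq_star_mul (z : ℂ) : star z * z = ((‖z‖ ^ 2 : ℝ) : ℂ) := by
  rw [mul_comm, Complex.star_def, Complex.mul_conj, Complex.normSq_eq_norm_sq]

lemma norm_sq_mul_star (z : ℂ) : z * star z = ((‖z‖ ^ 2 : ℝ) : ℂ) := by
  rw [Complex.star_def, Complex.mul_conj, Complex.normSq_eq_norm_sq]

lemma col_norm (g : G2) (j : Fin 2) : ‖(g : Matrix (Fin 2) (Fin 2) ℂ) 0 j‖ ^ 2 +
    ‖(g : Matrix (Fin 2) (Fin 2) ℂ) 1 j‖ ^ 2 = 1 := by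
  have h := congrFun (congrFun (G2_ct_mul g) j) j
  rw [Matrix.mul_apply, Fin.sum_univ_two, Matrix.conjTranspose_apply, Matrix.conjTranspose_apply,
    Matrix.one_apply_eq, norm_sq_star_mul, norm_sq_star_mul, ← Complex.ofReal_add] at h
  exact_mod_cast h

lemma row_norm' (g : G2) (i : Fin 2) : ‖(g : Matrix (Fin 2) (Fin 2) ℂ) i 0‖ ^ 2 +
    ‖(g : Matrix (Fin 2) (Fin 2) ℂ) i 1‖ ^ 2 = 1 := by
  have h := congrFun (congrFun (G2_mul_ct g) i) i
  rw [Matrix.mul_apply, Fin.sum_univ_two, Matrix.conjTranspose_apply, Matrix.conjTranspose_apply,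
    Matrix.one_apply_eq, norm_sq_mul_star, norm_sq_mul_star, ← Complex.ofReal_add] at h
  exact_mod_cast h

lemma tt_nonneg (g : G2) : 0 ≤ tt g := by unfold tt; positivity

lemma tt_le_one (g : G2) : tt g ≤ 1 := by
  have := col_norm g 0
  unfold tt
  nlinarith [sq_nonneg ‖(g : Matrix (Fin 2) (Fin 2) ℂ) 0 0‖]

lemma norm_00 (g : G2) : ‖(g : Matrix (Fin 2) (Fin 2) ℂ) 0 0‖ ^ 2 = 1 - tt g := by
  have := col_norm g 0
  unfold tt
  linarith

lemma norm_11 (g : G2) : ‖(g : Matrix (Fin 2) (Fin 2) ℂ) 1 1‖ ^ 2 = 1 - tt g := by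
  have := row_norm' g 1
  unfold tt
  linarith

lemma norm_01 (g : G2) : ‖(g : Matrix (Fin 2) (Fin 2) ℂ) 0 1‖ ^ 2 = tt g := by
  have h1 := col_norm g 1
  have h2 := norm_11 g
  linarith

lemma norm_sq_sp_zero (Q : ℕ) (g : G2) (j : Fin (Q + 1)) :
    ‖sp Q (g : Matrix (Fin 2) (Fin 2) ℂ) j 0‖ ^ 2 =
      (Q.choose j : ℝ) * tt g ^ (j : ℕ) * (1 - tt g) ^ (Q - (j : ℕ)) := by
  rw [sp_apply_zero]
  unfold kap
  rw [norm_mul, norm_mul, norm_pow, norm_pow, Complex.norm_real, mul_pow, mul_pow, ← pow_mul,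
    ← pow_mul, mul_comm (Q - (j : ℕ)) 2, mul_comm (j : ℕ) 2, pow_mul, pow_mul, norm_00,
    Real.norm_eq_abs, sq_abs, sb_sq]
  unfold tt
  ring

/-- binomial weights integrate to `1/(Q+1)` -/
theorem integral_binomial (Q : ℕ) (j : Fin (Q + 1)) :
    ∫ g : G2, (Q.choose j : ℝ) * tt g ^ (j : ℕ) * (1 - tt g) ^ (Q - (j : ℕ)) ∂hm =
      ((Q : ℝ) + 1)⁻¹ := by
  have h := schur Q j 0 j 0
  rw [if_pos ⟨rfl, rfl⟩] at h
  have h2 : ∀ g : G2, sp Q (g : Matrix (Fin 2) (Fin 2) ℂ) j 0 *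
      star (sp Q (g : Matrix (Fin 2) (Fin 2) ℂ) j 0) =
      (((Q.choose j : ℝ) * tt g ^ (j : ℕ) * (1 - tt g) ^ (Q - (j : ℕ)) : ℝ) : ℂ) := by
    intro g
    rw [norm_sq_mul_star, norm_sq_sp_zero]
  simp only [h2] at h
  rw [integral_complex_ofReal] at h
  have h3 : ((∫ g : G2, (Q.choose j : ℝ) * tt g ^ (j : ℕ) * (1 - tt g) ^ (Q - (j : ℕ)) ∂hm : ℝ) :
      ℂ) = (((Q : ℝ) + 1)⁻¹ : ℝ) := by
    rw [h]; push_cast; rfl
  exact_mod_cast h3

theorem integral_tt_pow (n : ℕ) : ∫ g : G2, tt g ^ n ∂hm = ((n : ℝ) + 1)⁻¹ := by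
  have h := integral_binomial n (Fin.last n)
  simpa using h

theorem integrable_comp_tt {F : ℝ → ℝ} (hF : Continuous F) :
    Integrable (fun g : G2 => F (tt g)) hm :=
  integrable_of_cont (hF.comp continuous_tt)

theorem integral_poly_tt (p : Polynomial ℝ) :
    ∫ g : G2, p.eval (tt g) ∂hm = ∫ x in (0 : ℝ)..1, p.eval x := by
  induction p using Polynomial.induction_on' with
  | add p q hp hq =>
    simp only [Polynomial.eval_add]
    rw [integral_add (integrable_comp_tt p.continuous) (integrable_comp_tt q.continuous), hp, hq,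
      intervalIntegral.integral_add (p.continuous.intervalIntegrable _ _)
        (q.continuous.intervalIntegrable _ _)]
  | monomial n a =>
    simp only [Polynomial.eval_monomial]
    rw [integral_const_mul, integral_tt_pow, intervalIntegral.integral_const_mul, integral_pow]
    simp

theorem integral_cont_tt {F : ℝ → ℝ} (hF : Continuous F) :
    ∫ g : G2, F (tt g) ∂hm = ∫ x in (0 : ℝ)..1, F x := by
  rw [← sub_eq_zero]
  by_contra hne
  have hpos : 0 < |∫ g : G2, F (tt g) ∂hm - ∫ x in (0 : ℝ)..1, F x| := abs_pos.2 hne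
  set ε := |∫ g : G2, F (tt g) ∂hm - ∫ x in (0 : ℝ)..1, F x| / 3 with hε
  have hε0 : 0 < ε := by positivity
  obtain ⟨p, hp⟩ := exists_polynomial_near_of_continuousOn 0 1 F hF.continuousOn ε hε0
  have h1 : |∫ g : G2, F (tt g) ∂hm - ∫ g : G2, p.eval (tt g) ∂hm| ≤ ε := by
    rw [← integral_sub (integrable_comp_tt hF) (integrable_comp_tt p.continuous)]
    have := norm_integral_le_of_norm_le_const (μ := hm) (C := ε)
      (f := fun g : G2 => F (tt g) - p.eval (tt g)) (Filter.Eventually.of_forall fun g => by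
        rw [Real.norm_eq_abs, abs_sub_comm]
        exact (hp (tt g) ⟨tt_nonneg g, tt_le_one g⟩).le)
    simpa using this
  have h2 : |(∫ x in (0 : ℝ)..1, F x) - ∫ x in (0 : ℝ)..1, p.eval x| ≤ ε := by
    rw [← intervalIntegral.integral_sub (hF.intervalIntegrable _ _)
      (p.continuous.intervalIntegrable _ _)]
    have := intervalIntegral.norm_integral_le_of_norm_le_const (a := (0 : ℝ)) (b := 1) (C := ε)
      (f := fun x => F x - p.eval x) (fun x hx => by
        rw [Set.uIoc_of_le zero_le_one] at hx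
        rw [Real.norm_eq_abs, abs_sub_comm]
        exact (hp x ⟨hx.1.le, hx.2⟩).le)
    simpa using this
  rw [integral_poly_tt] at h1
  have h3 := abs_sub_le (∫ g : G2, F (tt g) ∂hm) (∫ x in (0 : ℝ)..1, p.eval x)
    (∫ x in (0 : ℝ)..1, F x)
  rw [abs_sub_comm (∫ x in (0 : ℝ)..1, p.eval x)] at h3
  linarith

/-- **hat-box theorem** -/
theorem map_tt : Measure.map tt hm = volume.restrict (Set.Icc (0 : ℝ) 1) := by
  have : IsProbabilityMeasure (Measure.map tt hm) :=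
    Measure.isProbabilityMeasure_map continuous_tt.aemeasurable
  refine ext_of_forall_integral_eq_of_IsFiniteMeasure fun f => ?_
  rw [integral_map continuous_tt.aemeasurable f.continuous.aestronglyMeasurable,
    integral_cont_tt f.continuous, intervalIntegral.integral_of_le zero_le_one,
    integral_Icc_eq_integral_Ioc]

theorem integral_tt {E : Type*} [NormedAddCommGroup E] [NormedSpace ℝ E] {F : ℝ → E}
    (hF : AEStronglyMeasurable F (volume.restrict (Set.Icc (0 : ℝ) 1))) :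
    ∫ g : G2, F (tt g) ∂hm = ∫ x in Set.Icc (0 : ℝ) 1, F x := by
  rw [← map_tt] at hF ⊢
  rw [integral_map continuous_tt.aemeasurable hF]

theorem lintegral_tt {F : ℝ → ENNReal} (hF : Measurable F) :
    ∫⁻ g : G2, F (tt g) ∂hm = ∫⁻ x in Set.Icc (0 : ℝ) 1, F x := by
  rw [← map_tt, lintegral_map hF continuous_tt.measurable]

/-- the same for the relative height of two elements -/
theorem integral_tt_inv_mul {E : Type*} [NormedAddCommGroup E] [NormedSpace ℝ E] (F : ℝ → E)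
    (g : G2) : ∫ h : G2, F (tt (g⁻¹ * h)) ∂hm = ∫ h : G2, F (tt h) ∂hm :=
  integral_mul_left' (fun h => F (tt h)) g⁻¹

theorem integral_tt_inv_mul' {E : Type*} [NormedAddCommGroup E] [NormedSpace ℝ E] (F : ℝ → E)
    (h : G2) : ∫ g : G2, F (tt (g⁻¹ * h)) ∂hm = ∫ g : G2, F (tt g) ∂hm := by
  rw [← integral_inv' (fun g => F (tt g)), ← integral_mul_left' (fun g => F (tt g⁻¹)) h⁻¹]
  refine integral_congr_ae (Filter.Eventually.of_forall fun g => ?_)
  simp only [_root_.mul_inv_rev, inv_inv]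

lemma tt_inv_mul (g h : G2) : tt (g⁻¹ * h) =
    ‖((g : Matrix (Fin 2) (Fin 2) ℂ)ᴴ * (h : Matrix (Fin 2) (Fin 2) ℂ)) 1 0‖ ^ 2 := rfl

end

end Crest.Agent.R340.Avg814
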