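import Mathlib

/-!
R340, block L2 (helper986), part 1: abstract min-max gap transfer in finite dimension.

`GapK D γ` : the linear map `D : E → F` satisfies `γ ‖ψ‖ ≤ ‖D ψ‖` for every `ψ` orthogonal to `ker D`.
-/

set_option autoImplicit false
open scoped InnerProductSpace

namespace Crest.Agent.R340.Geo986

variable {E F : Type*} [NormedAddCommGroup E] [InnerProductSpace ℂ E]
  [NormedAddCommGroup F] [InnerProductSpace ℂ F]

/-- `γ ‖ψ‖ ≤ ‖D ψ‖` on the orthogonal complement of the kernel. -/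
def GapK (D : E →ₗ[ℂ] F) (γ : ℝ) : Prop :=
  ∀ ψ : E, (∀ z : E, D z = 0 → ⟪z, ψ⟫_ℂ = 0) → γ * ‖ψ‖ ≤ ‖D ψ‖

theorem GapK.mono {D : E →ₗ[ℂ] F} {γ γ' : ℝ} (h : GapK D γ) (hle : γ' ≤ γ) : GapK D γ' :=
  fun ψ hψ => (mul_le_mul_of_nonneg_right hle (norm_nonneg ψ)).trans (h ψ hψ)

/-- A subspace of dimension larger than `finrank (ker D)` contains a nonzero vector orthogonal to
`ker D`. -/
theorem exists_orth [FiniteDimensional ℂ E] (K W : Submodule ℂ E)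
    (h : Module.finrank ℂ K < Module.finrank ℂ W) :
    ∃ w ∈ W, w ≠ 0 ∧ ∀ z ∈ K, ⟪z, w⟫_ℂ = 0 := by
  classical
  -- the orthogonal projection restricted to `W` has nontrivial kernel
  let P : W →ₗ[ℂ] K := (K.orthogonalProjectionOnto.toLinearMap).comp W.subtype
  have hker : LinearMap.ker P ≠ ⊥ := by
    intro hbot
    have hinj : Function.Injective P := LinearMap.ker_eq_bot.mp hbot
    have := LinearMap.finrank_le_finrank_of_injective hinj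
    omega
  obtain ⟨w, hw, hw0⟩ := Submodule.exists_mem_ne_zero_of_ne_bot hker
  refine ⟨w, w.2, fun h0 => hw0 (Subtype.ext h0), fun z hz => ?_⟩
  have hP : K.orthogonalProjectionOnto (w : E) = 0 := by
    simpa [P, LinearMap.mem_ker] using hw
  have hmem : (w : E) ∈ Kᗮ := Submodule.orthogonalProjectionOnto_eq_zero_iff.mp hP
  exact (Submodule.mem_orthogonal K (w : E)).mp hmem z hz

/-- MIN-MAX GAP TRANSFER: if `D'` is `ε`-close to `D`, has kernel of at least the same dimension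
(in applications: equal), then the gap of `D'` is at least the gap of `D` minus `ε`. -/
theorem GapK.transfer [FiniteDimensional ℂ E] {D D' : E →ₗ[ℂ] F} {γ ε : ℝ} (h : GapK D γ)
    (hε : ε < γ) (hclose : ∀ ψ, ‖D' ψ - D ψ‖ ≤ ε * ‖ψ‖)
    (hdim : Module.finrank ℂ (LinearMap.ker D) ≤ Module.finrank ℂ (LinearMap.ker D')) :
    GapK D' (γ - ε) := by
  classical
  intro ψ hψ
  by_cases hψ0 : ψ = 0
  · subst hψ0; simp
  -- the subspace spanned by `ker D'` and `ψ`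
  set W : Submodule ℂ E := LinearMap.ker D' ⊔ ℂ ∙ ψ with hW
  have hdisj : Disjoint (LinearMap.ker D') (ℂ ∙ ψ) := by
    rw [Submodule.disjoint_def]
    intro x hx hx'
    obtain ⟨a, rfl⟩ := Submodule.mem_span_singleton.mp hx'
    have h1 := hψ _ (LinearMap.mem_ker.mp hx)
    rw [inner_smul_left] at h1
    rcases mul_eq_zero.mp h1 with h2 | h2
    · have : a = 0 := by simpa using h2
      simp [this]
    · exact absurd (inner_self_eq_zero.mp h2) hψ0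
  have hfr : Module.finrank ℂ W = Module.finrank ℂ (LinearMap.ker D') + 1 := by
    have h1 := Submodule.finrank_sup_add_finrank_inf_eq (LinearMap.ker D') (ℂ ∙ ψ)
    rw [hdisj.eq_bot, finrank_bot, add_zero, finrank_span_singleton hψ0] at h1
    exact h1
  obtain ⟨w, hwW, hw0, hwK⟩ := exists_orth (LinearMap.ker D) W (by omega)
  obtain ⟨k, hk, y, hy, rfl⟩ := Submodule.mem_sup.mp hwW
  obtain ⟨a, rfl⟩ := Submodule.mem_span_singleton.mp hy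
  have hDk : D' k = 0 := LinearMap.mem_ker.mp hk
  have hD'w : D' (k + a • ψ) = a • D' ψ := by rw [map_add, hDk, zero_add, map_smul]
  have hgap : γ * ‖k + a • ψ‖ ≤ ‖D (k + a • ψ)‖ :=
    h _ fun z hz => hwK z (LinearMap.mem_ker.mpr hz)
  have hcl := hclose (k + a • ψ)
  have htri : ‖D (k + a • ψ)‖ ≤ ‖D' (k + a • ψ)‖ + ε * ‖k + a • ψ‖ := by
    have : D (k + a • ψ) = D' (k + a • ψ) - (D' (k + a • ψ) - D (k + a • ψ)) := by abel
    calc ‖D (k + a • ψ)‖ = ‖D' (k + a • ψ) - (D' (k + a • ψ) - D (k + a • ψ))‖ := by rw [← this]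
      _ ≤ ‖D' (k + a • ψ)‖ + ‖D' (k + a • ψ) - D (k + a • ψ)‖ := norm_sub_le _ _
      _ ≤ _ := by gcongr
  have hmain : (γ - ε) * ‖k + a • ψ‖ ≤ ‖a‖ * ‖D' ψ‖ := by
    have : ‖D' (k + a • ψ)‖ = ‖a‖ * ‖D' ψ‖ := by rw [hD'w, norm_smul]
    rw [this] at htri
    linarith
  have hort : ⟪k, a • ψ⟫_ℂ = 0 := by
    rw [inner_smul_right, hψ k hDk, mul_zero]
  have hpyth : ‖a‖ * ‖ψ‖ ≤ ‖k + a • ψ‖ := by
    have h2 : ‖k + a • ψ‖ * ‖k + a • ψ‖ = ‖k‖ * ‖k‖ + ‖a • ψ‖ * ‖a • ψ‖ :=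
      norm_add_sq_eq_norm_sq_add_norm_sq_of_inner_eq_zero k (a • ψ) (by exact_mod_cast hort)
    rw [← norm_smul]
    nlinarith [norm_nonneg k, norm_nonneg (a • ψ), norm_nonneg (k + a • ψ),
      abs_le_of_sq_le_sq' (by nlinarith [norm_nonneg k] :
        ‖a • ψ‖ ^ 2 ≤ ‖k + a • ψ‖ ^ 2) (norm_nonneg _)]
  have ha : a ≠ 0 := by
    rintro rfl
    simp only [zero_smul, add_zero, norm_zero, zero_mul] at hmain
    have hk0 : k ≠ 0 := by simpa using hw0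
    have : 0 < (γ - ε) * ‖k‖ := mul_pos (by linarith) (norm_pos_iff.mpr hk0)
    linarith
  have hapos : 0 < ‖a‖ := norm_pos_iff.mpr ha
  have : (γ - ε) * (‖a‖ * ‖ψ‖) ≤ ‖a‖ * ‖D' ψ‖ :=
    (mul_le_mul_of_nonneg_left hpyth (by linarith)).trans hmain
  have : ‖a‖ * ((γ - ε) * ‖ψ‖) ≤ ‖a‖ * ‖D' ψ‖ := by linarith
  exact le_of_mul_le_mul_left this hapos

/-- Conjugation step: `D2 ψ` dominates `κ ‖D1 (Γ⁻¹ ψ)‖`, `ker D2 = Γ (ker D1)`. -/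
theorem GapK.conj [FiniteDimensional ℂ E] {D1 : E →ₗ[ℂ] F} {F' : Type*} [NormedAddCommGroup F']
    [InnerProductSpace ℂ F'] {D2 : E →ₗ[ℂ] F'} {γ κ M M' : ℝ} (h : GapK D1 γ) (hγ : 0 ≤ γ)
    (hκ : 0 ≤ κ) (hM : 0 < M) (G : E ≃ₗ[ℂ] E) (hG : ∀ ψ, ‖G ψ‖ ≤ M * ‖ψ‖)
    (hM' : 0 < M')
    (hdom : ∀ ψ, κ * ‖D1 (G.symm ψ)‖ ≤ M' * ‖D2 ψ‖)
    (hker : ∀ ψ, D1 ψ = 0 → D2 (G ψ) = 0) :
    GapK D2 (κ * γ / (M * M')) := by
  classical
  intro ψ hψ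
  -- decompose `G⁻¹ ψ = z + φ` with `z ∈ ker D1`, `φ ⊥ ker D1`
  set χ := G.symm ψ with hχ
  set K := LinearMap.ker D1
  set z : E := (K.orthogonalProjectionOnto χ : E) with hz
  set φ : E := χ - z with hφ
  have hzK : D1 z = 0 := LinearMap.mem_ker.mp (K.orthogonalProjectionOnto χ).2
  have hφK : ∀ y, D1 y = 0 → ⟪y, φ⟫_ℂ = 0 := by
    intro y hy
    have : φ ∈ Kᗮ := by
      rw [hφ, hz]
      exact Submodule.sub_starProjection_mem_orthogonal χ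
    exact (Submodule.mem_orthogonal K φ).mp this y (LinearMap.mem_ker.mpr hy)
  have hψeq : ψ = G z + G φ := by
    rw [← map_add, hφ, add_sub_cancel, hχ, LinearEquiv.apply_symm_apply]
  have hD1χ : D1 χ = D1 φ := by
    rw [hφ, map_sub, hzK, sub_zero]
  -- `‖ψ‖ ≤ ‖G φ‖` since `ψ ⊥ G z`
  have hψle : ‖ψ‖ ≤ ‖G φ‖ := by
    by_cases hψ0 : ψ = 0
    · rw [hψ0, norm_zero]; exact norm_nonneg _
    have h1 : ⟪G z, ψ⟫_ℂ = 0 := hψ (G z) (hker z hzK)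
    have h2 : ⟪ψ, G z⟫_ℂ = 0 := inner_eq_zero_symm.mp h1
    have h3 : ⟪ψ, ψ⟫_ℂ = ⟪ψ, G φ⟫_ℂ := by
      conv_lhs => rw [show (⟪ψ, ψ⟫_ℂ) = ⟪ψ, G z + G φ⟫_ℂ by rw [← hψeq]]
      rw [inner_add_right, h2, zero_add]
    have h4 : ‖ψ‖ ^ 2 ≤ ‖ψ‖ * ‖G φ‖ := by
      have h5 : ‖⟪ψ, ψ⟫_ℂ‖ ≤ ‖ψ‖ * ‖G φ‖ := by rw [h3]; exact norm_inner_le_norm _ _
      rwa [inner_self_eq_norm_sq_to_K, norm_pow, RCLike.norm_ofReal, abs_of_nonneg (norm_nonneg ψ)] at h5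
    have hpos : 0 < ‖ψ‖ := norm_pos_iff.mpr hψ0
    nlinarith
  have h5 : γ * ‖φ‖ ≤ ‖D1 φ‖ := h φ hφK
  have h6 : ‖ψ‖ ≤ M * ‖φ‖ := hψle.trans (hG φ)
  have h7 : κ * ‖D1 φ‖ ≤ M' * ‖D2 ψ‖ := by rw [← hD1χ]; exact hdom ψ
  have h8 : κ * γ * ‖ψ‖ ≤ M * (κ * (γ * ‖φ‖)) := by
    have : κ * γ * ‖ψ‖ ≤ κ * γ * (M * ‖φ‖) := by gcongr
    linarith
  have h9 : κ * γ * ‖ψ‖ ≤ M * (M' * ‖D2 ψ‖) := by
    refine h8.trans (mul_le_mul_of_nonneg_left ?_ hM.le)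
    exact (mul_le_mul_of_nonneg_left h5 hκ).trans h7
  rw [div_mul_eq_mul_div, div_le_iff₀ (by positivity)]
  linarith

end Crest.Agent.R340.Geo986
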