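import Crest.Agent.R340.Fock_649
import Crest.Agent.R340.GapTr_986

/-!
R340, block L2 = GEOMETRY (helper986), part 3: radial geometries on the Fock model of helper649.

`bz ν Q p` : unnormalised pair annihilator `∑_{i<j, i+j=p} (j-i)/(ν_i ν_j) c_j c_i`,
`nz ν Q p` : sum of the squares of its coefficients, `Bg ν Q p = bz / √nz`,
`Zs ν Q` : common kernel (all sectors), `GapG ν Q γ` : `γ ‖ψ‖² ≤ ∑_p ‖Bg ν Q p ψ‖²` on `Zs^⊥`.
-/

set_option autoImplicit false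
open scoped InnerProductSpace ComplexConjugate

namespace Crest.Agent.R340.Geo986

open Fock649 Finset

/-- coefficient `(j - i) / (ν_i ν_j)` -/
noncomputable def bcoef (ν : ℕ → ℝ) (i j : ℕ) : ℝ := ((j : ℝ) - i) / (ν i * ν j)

/-- pairs of orbitals `i < j` with `i + j = p` -/
def pairs (Q p : ℕ) : Finset (Fin (Q + 1) × Fin (Q + 1)) :=
  univ.filter fun x => x.1 < x.2 ∧ (x.1 : ℕ) + (x.2 : ℕ) = p

theorem mem_pairs {Q p : ℕ} {x : Fin (Q + 1) × Fin (Q + 1)} :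
    x ∈ pairs Q p ↔ x.1 < x.2 ∧ (x.1 : ℕ) + (x.2 : ℕ) = p := by
  simp [pairs]

/-- unnormalised pair annihilator of the metric `ν`, total exponent `p` -/
noncomputable def bz (ν : ℕ → ℝ) (Q p : ℕ) : Op (Fin (Q + 1)) :=
  ∑ x ∈ pairs Q p, ((bcoef ν x.1 x.2 : ℝ) : ℂ) • (c x.2 * c x.1)

/-- sum of squares of the coefficients of `bz` -/
noncomputable def nz (ν : ℕ → ℝ) (Q p : ℕ) : ℝ := ∑ x ∈ pairs Q p, bcoef ν x.1 x.2 ^ 2

/-- normalised pair annihilator of the metric `ν` -/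
noncomputable def Bg (ν : ℕ → ℝ) (Q p : ℕ) : Op (Fin (Q + 1)) :=
  (((√(nz ν Q p))⁻¹ : ℝ) : ℂ) • bz ν Q p

/-- Hamiltonian of the metric `ν` -/
noncomputable def Hg (ν : ℕ → ℝ) (Q : ℕ) : Op (Fin (Q + 1)) :=
  ∑ p ∈ range (2 * Q), star (Bg ν Q p) * Bg ν Q p

/-- zero modes of the metric `ν` (all particle numbers) -/
def Zs (ν : ℕ → ℝ) (Q : ℕ) : Submodule ℂ (Fk (Fin (Q + 1))) where
  carrier := {ψ | ∀ p, bz ν Q p ψ = 0}
  add_mem' := fun {a b} ha hb p => by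
    have := (bz ν Q p).ap.map_add a b
    rw [this, ha p, hb p, add_zero]
  zero_mem' := fun p => (bz ν Q p).ap.map_zero
  smul_mem' := fun a ψ h p => by
    have := (bz ν Q p).ap.map_smul a ψ
    rw [this, h p, smul_zero]

theorem mem_Zs {ν : ℕ → ℝ} {Q : ℕ} {ψ : Fk (Fin (Q + 1))} :
    ψ ∈ Zs ν Q ↔ ∀ p, bz ν Q p ψ = 0 := Iff.rfl

/-- the gap inequality of the metric `ν` -/
def GapG (ν : ℕ → ℝ) (Q : ℕ) (γ : ℝ) : Prop :=
  ∀ ψ : Fk (Fin (Q + 1)), (∀ z ∈ Zs ν Q, ⟪z, ψ⟫_ℂ = 0) →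
    γ * ‖ψ‖ ^ 2 ≤ ∑ p ∈ range (2 * Q), ‖Bg ν Q p ψ‖ ^ 2

theorem GapG.mono {ν : ℕ → ℝ} {Q : ℕ} {γ γ' : ℝ} (h : GapG ν Q γ) (hle : γ' ≤ γ) :
    GapG ν Q γ' := fun ψ hψ =>
  (mul_le_mul_of_nonneg_right hle (by positivity)).trans (h ψ hψ)

/-- the metric is positive on the orbitals -/
def PosM (ν : ℕ → ℝ) (Q : ℕ) : Prop := ∀ j, j ≤ Q → 0 < ν j

theorem bcoef_pos {ν : ℕ → ℝ} {Q : ℕ} (hν : PosM ν Q) {x : Fin (Q + 1) × Fin (Q + 1)}
    {p : ℕ} (hx : x ∈ pairs Q p) : 0 < bcoef ν x.1 x.2 := by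
  have h1 := (mem_pairs.mp hx).1
  have h2 : ((x.1 : ℕ) : ℝ) < ((x.2 : ℕ) : ℝ) := by exact_mod_cast h1
  unfold bcoef
  refine div_pos (by linarith) (mul_pos (hν _ (by omega)) (hν _ (by omega)))

theorem nz_nonneg (ν : ℕ → ℝ) (Q p : ℕ) : 0 ≤ nz ν Q p :=
  sum_nonneg fun _ _ => sq_nonneg _

theorem nz_pos {ν : ℕ → ℝ} {Q p : ℕ} (hν : PosM ν Q) (h : (pairs Q p).Nonempty) :
    0 < nz ν Q p :=
  sum_pos (fun _ hx => pow_pos (bcoef_pos hν hx) 2) h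

theorem bz_eq_zero_of_empty {ν : ℕ → ℝ} {Q p : ℕ} (h : pairs Q p = ∅) : bz ν Q p = 0 := by
  unfold bz; rw [h, sum_empty]

theorem pairs_eq_empty_of_ge {Q p : ℕ} (h : 2 * Q ≤ p) : pairs Q p = ∅ := by
  refine eq_empty_of_forall_notMem fun x hx => ?_
  obtain ⟨h1, h2⟩ := mem_pairs.mp hx
  have := x.2.isLt
  have h3 : (x.1 : ℕ) < x.2 := h1
  omega

theorem Bg_apply (ν : ℕ → ℝ) (Q p : ℕ) (ψ : Fk (Fin (Q + 1))) :
    Bg ν Q p ψ = (((√(nz ν Q p))⁻¹ : ℝ) : ℂ) • bz ν Q p ψ := rfl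

theorem bz_eq_smul_Bg {ν : ℕ → ℝ} {Q : ℕ} (hν : PosM ν Q) (p : ℕ) :
    bz ν Q p = ((√(nz ν Q p) : ℝ) : ℂ) • Bg ν Q p := by
  rcases (pairs Q p).eq_empty_or_nonempty with h | h
  · rw [Bg, bz_eq_zero_of_empty h, smul_zero, smul_zero]
  · have : √(nz ν Q p) ≠ 0 := (Real.sqrt_pos.mpr (nz_pos hν h)).ne'
    rw [Bg, smul_smul, ← Complex.ofReal_mul, mul_inv_cancel₀ this, Complex.ofReal_one, one_smul]

theorem mem_Zs_iff {ν : ℕ → ℝ} {Q : ℕ} (hν : PosM ν Q) {ψ : Fk (Fin (Q + 1))} :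
    ψ ∈ Zs ν Q ↔ ∀ p ∈ range (2 * Q), Bg ν Q p ψ = 0 := by
  constructor
  · intro h p _
    rw [Bg_apply, h p, smul_zero]
  · intro h p
    rcases lt_or_ge p (2 * Q) with hp | hp
    · rw [bz_eq_smul_Bg hν p]
      show ((√(nz ν Q p) : ℝ) : ℂ) • Bg ν Q p ψ = 0
      rw [h p (mem_range.mpr hp), smul_zero]
    · rw [bz_eq_zero_of_empty (pairs_eq_empty_of_ge hp)]; rfl

/-! ### the map `D ψ = (B_p ψ)_p` -/

/-- family of operators indexed by `p < 2Q`, as a map into an `ℓ²` sum -/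
noncomputable def fam {Q : ℕ} (B : ℕ → Op (Fin (Q + 1))) :
    Fk (Fin (Q + 1)) →ₗ[ℂ] PiLp 2 (fun _ : Fin (2 * Q) => Fk (Fin (Q + 1))) where
  toFun ψ := WithLp.toLp 2 (fun p => B p ψ)
  map_add' a b := by
    ext p : 1
    exact (B p).ap.map_add a b
  map_smul' a b := by
    ext p : 1
    exact (B p).ap.map_smul a b

theorem fam_apply {Q : ℕ} (B : ℕ → Op (Fin (Q + 1))) (ψ : Fk (Fin (Q + 1))) (p : Fin (2 * Q)) :
    fam B ψ p = B p ψ := rfl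

theorem norm_fam_sq {Q : ℕ} (B : ℕ → Op (Fin (Q + 1))) (ψ : Fk (Fin (Q + 1))) :
    ‖fam B ψ‖ ^ 2 = ∑ p ∈ range (2 * Q), ‖B p ψ‖ ^ 2 := by
  rw [PiLp.norm_sq_eq_of_L2, ← Fin.sum_univ_eq_sum_range (fun p => ‖B p ψ‖ ^ 2)]
  rfl

theorem fam_eq_zero_iff {Q : ℕ} (B : ℕ → Op (Fin (Q + 1))) (ψ : Fk (Fin (Q + 1))) :
    fam B ψ = 0 ↔ ∀ p ∈ range (2 * Q), B p ψ = 0 := by
  constructor
  · intro h p hp
    have := congrArg (fun v => v ⟨p, mem_range.mp hp⟩) h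
    simpa [fam_apply] using this
  · intro h
    ext p : 1
    exact h p (mem_range.mpr p.2)

theorem ker_fam {ν : ℕ → ℝ} {Q : ℕ} (hν : PosM ν Q) :
    LinearMap.ker (fam (Bg ν Q)) = Zs ν Q := by
  ext ψ
  rw [LinearMap.mem_ker, fam_eq_zero_iff, mem_Zs_iff hν]

theorem gapK_of_gapG {ν : ℕ → ℝ} {Q : ℕ} (hν : PosM ν Q) {γ : ℝ} (h : GapG ν Q γ) :
    GapK (fam (Bg ν Q)) (√γ) := by
  intro ψ hψ
  have h1 : ∀ z ∈ Zs ν Q, ⟪z, ψ⟫_ℂ = 0 := fun z hz =>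
    hψ z (by rw [← ker_fam hν] at hz; exact LinearMap.mem_ker.mp hz)
  have h2 := h ψ h1
  rw [← norm_fam_sq] at h2
  rcases le_or_gt γ 0 with hγ | hγ
  · rw [Real.sqrt_eq_zero_of_nonpos hγ, zero_mul]; exact norm_nonneg _
  · have : (√γ * ‖ψ‖) ^ 2 ≤ ‖fam (Bg ν Q) ψ‖ ^ 2 := by
      rw [mul_pow, Real.sq_sqrt hγ.le]; exact h2
    exact le_of_sq_le_sq this (norm_nonneg _)

theorem gapG_of_gapK {ν : ℕ → ℝ} {Q : ℕ} (hν : PosM ν Q) {g : ℝ} (hg : 0 ≤ g)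
    (h : GapK (fam (Bg ν Q)) g) : GapG ν Q (g ^ 2) := by
  intro ψ hψ
  have h1 : g * ‖ψ‖ ≤ ‖fam (Bg ν Q) ψ‖ := h ψ fun z hz =>
    hψ z (by rw [← ker_fam hν]; exact LinearMap.mem_ker.mpr hz)
  rw [← norm_fam_sq, ← mul_pow]
  exact pow_le_pow_left₀ (by positivity) h1 2

/-! ### diagonal second quantisation and change of metric -/

theorem c_mul_c_mul_Gd {ι : Type*} [Fintype ι] [LinearOrder ι] (u : ι → ℂ) (i j : ι) :
    c j * c i * Gd u = (u i * u j) • (Gd u * (c j * c i)) := by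
  rw [mul_assoc, c_mul_Gd, mul_smul_comm, ← mul_assoc, c_mul_Gd, smul_mul_assoc, smul_smul,
    mul_assoc]

/-- the restriction of a real function on `ℕ` to the orbitals, with complex values -/
noncomputable def res (Q : ℕ) (r : ℕ → ℝ) : Fin (Q + 1) → ℂ := fun j => ((r j : ℝ) : ℂ)

/-- CHANGE OF METRIC: `bz (ν·r) ∘ Gd r = Gd r ∘ bz ν`. -/
theorem bz_mul_Gd {ν r : ℕ → ℝ} {Q : ℕ} (hr : PosM r Q) (p : ℕ) :
    bz (ν * r) Q p * Gd (res Q r) = Gd (res Q r) * bz ν Q p := by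
  unfold bz
  rw [sum_mul, mul_sum]
  refine sum_congr rfl fun x hx => ?_
  rw [smul_mul_assoc, c_mul_c_mul_Gd, mul_smul_comm, smul_smul]
  congr 1
  have h1 : r x.1 ≠ 0 := (hr _ (by omega)).ne'
  have h2 : r x.2 ≠ 0 := (hr _ (by omega)).ne'
  simp only [res, ← Complex.ofReal_mul]
  congr 1
  simp only [bcoef, Pi.mul_apply]
  rcases eq_or_ne (ν x.1) 0 with h3 | h3
  · simp [h3]
  rcases eq_or_ne (ν x.2) 0 with h4 | h4
  · simp [h4]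
  field_simp

theorem Gd_mem_Zs {ν r : ℕ → ℝ} {Q : ℕ} (hr : PosM r Q) {ψ : Fk (Fin (Q + 1))}
    (h : ψ ∈ Zs ν Q) : Gd (res Q r) ψ ∈ Zs (ν * r) Q := by
  intro p
  have := congrArg (fun A : Op (Fin (Q + 1)) => A ψ) (bz_mul_Gd (ν := ν) hr p)
  simp only [mul_ap] at this
  rw [this, h p]
  exact (Gd (res Q r)).ap.map_zero

/-- `Gd r` as a linear equivalence -/
noncomputable def GdE (Q : ℕ) (r : ℕ → ℝ) (hr : PosM r Q) :
    Fk (Fin (Q + 1)) ≃ₗ[ℂ] Fk (Fin (Q + 1)) :=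
  LinearEquiv.ofLinearMap (Gd (res Q r)).ap.toLinearMap (Gd (res Q r⁻¹)).ap.toLinearMap
    (by
      have : Gd (res Q r) * Gd (res Q r⁻¹) = 1 := by
        rw [← Gd_mul, ← Gd_one]
        congr 1
        funext j
        have := (hr j (by omega)).ne'
        simp [res, this]
      ext1 ψ
      exact congrArg (fun A : Op (Fin (Q + 1)) => A ψ) this)
    (by
      have : Gd (res Q r⁻¹) * Gd (res Q r) = 1 := by
        rw [← Gd_mul, ← Gd_one]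
        congr 1
        funext j
        have := (hr j (by omega)).ne'
        simp [res, this]
      ext1 ψ
      exact congrArg (fun A : Op (Fin (Q + 1)) => A ψ) this)

theorem GdE_apply (Q : ℕ) (r : ℕ → ℝ) (hr : PosM r Q) (ψ : Fk (Fin (Q + 1))) :
    GdE Q r hr ψ = Gd (res Q r) ψ := rfl

theorem GdE_symm_apply (Q : ℕ) (r : ℕ → ℝ) (hr : PosM r Q) (ψ : Fk (Fin (Q + 1))) :
    (GdE Q r hr).symm ψ = Gd (res Q r⁻¹) ψ := rfl

theorem PosM.inv {r : ℕ → ℝ} {Q : ℕ} (hr : PosM r Q) : PosM r⁻¹ Q := fun j hj => by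
  simpa using hr j hj

theorem PosM.mul {r r' : ℕ → ℝ} {Q : ℕ} (hr : PosM r Q) (hr' : PosM r' Q) : PosM (r * r') Q :=
  fun j hj => mul_pos (hr j hj) (hr' j hj)

theorem Zs_congr {ν ν' : ℕ → ℝ} {Q : ℕ} (h : ∀ j ≤ Q, ν j = ν' j) : Zs ν Q = Zs ν' Q := by
  have : ∀ p, bz ν Q p = bz ν' Q p := fun p => by
    unfold bz
    refine sum_congr rfl fun x _ => ?_
    simp only [bcoef]
    rw [h x.1 (by omega), h x.2 (by omega)]
  ext ψ
  simp only [mem_Zs, this]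

theorem map_Zs {ν r : ℕ → ℝ} {Q : ℕ} (hr : PosM r Q) :
    (Zs ν Q).map (GdE Q r hr).toLinearMap = Zs (ν * r) Q := by
  apply le_antisymm
  · rintro _ ⟨ψ, hψ, rfl⟩
    exact Gd_mem_Zs hr hψ
  · intro ψ hψ
    refine ⟨(GdE Q r hr).symm ψ, ?_, LinearEquiv.apply_symm_apply _ _⟩
    have h := Gd_mem_Zs hr.inv hψ
    rw [GdE_symm_apply]
    have e : Zs (ν * r * r⁻¹) Q = Zs ν Q := Zs_congr fun j hj => by
      have := (hr j hj).ne'
      simp [this]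
    rw [e] at h
    exact h

/-- the number of zero modes does not depend on the metric -/
theorem finrank_Zs {ν r : ℕ → ℝ} {Q : ℕ} (hr : PosM r Q) :
    Module.finrank ℂ (Zs (ν * r) Q) = Module.finrank ℂ (Zs ν Q) := by
  rw [← map_Zs hr]
  exact LinearEquiv.finrank_map_eq (GdE Q r hr) (Zs ν Q)

end Crest.Agent.R340.Geo986
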