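import Mathlib.Data.Complex.Basic
import Mathlib.Data.Fin.Tuple.Sort
import Mathlib.Algebra.BigOperators.NatAntidiagonal
import Mathlib.Algebra.Order.BigOperators.Group.Finset
import Mathlib.Algebra.Order.Chebyshev
import Mathlib.Data.Finset.Max
import Mathlib.Tactic

/-!
R340 (S0532), leaf L4 of doc 1149 (helper735): dominance for zero modes.

A zero mode of the pair interaction is described by the coefficients `c : (ι → ℕ) → ℂ` of its
polynomial (monomial basis): `c` is antisymmetric and for all `a ≠ b`, all `s`,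
`∑_{i+j=s} (j - i) c(m; a ↦ i, b ↦ j) = 0` (divisibility by `(z_a - z_b)^3`).

* `dom` : if `c m ≠ 0` then `3 |S| (|S|-1) ≤ 2 ∑_{a ∈ S} m a` for every `S : Finset ι`;
* `sum_le_of_dom` : for a convex antitone `g : ℕ → ℝ` this implies
  `∑ a, g (m a) ≤ ∑ k ∈ range n, g (3 k)`;
* `base_bound` : `3 (w ∑_{j≤Q} f j - ∑ a, f (m a)) ≥ K f Q - 2 (f 0 - f Q)` with `w = (Q+3)/(3(Q+1))`
  and `K = Q - 3 (n - 1)`.
-/

set_option autoImplicit false

open scoped BigOperators
open Finset

namespace Crest.Agent.R340.Dom735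

variable {ι : Type*} [DecidableEq ι]

/-- `m` with the values at `a`, `b` replaced by `i`, `j`. -/
def up (m : ι → ℕ) (a b : ι) (i j : ℕ) : ι → ℕ := Function.update (Function.update m a i) b j

theorem up_left {a b : ι} (h : a ≠ b) (m : ι → ℕ) (i j : ℕ) : up m a b i j a = i := by
  simp [up, Function.update_of_ne h]

theorem up_right (a b : ι) (m : ι → ℕ) (i j : ℕ) : up m a b i j b = j := by
  simp [up]

theorem up_of_ne {a b c : ι} (ha : c ≠ a) (hb : c ≠ b) (m : ι → ℕ) (i j : ℕ) :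
    up m a b i j c = m c := by
  simp [up, Function.update_of_ne ha, Function.update_of_ne hb]

theorem up_self (a b : ι) (m : ι → ℕ) : up m a b (m a) (m b) = m := by
  funext c
  by_cases hb : c = b
  · subst hb; simp [up]
  · by_cases ha : c = a
    · subst ha; simp [up, Function.update_of_ne hb]
    · rw [up_of_ne ha hb]

theorem up_swap {a b : ι} (h : a ≠ b) (m : ι → ℕ) :
    up m a b (m b) (m a) = m ∘ (Equiv.swap a b) := by
  funext c
  by_cases hb : c = b
  · subst hb; rw [up_right]; simp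
  · by_cases ha : c = a
    · subst ha; rw [up_left h]; simp
    · rw [up_of_ne ha hb]; simp [Equiv.swap_apply_of_ne_of_ne ha hb]

/-- Antisymmetry of the coefficients. -/
def Anti (c : (ι → ℕ) → ℂ) : Prop :=
  ∀ a b, a ≠ b → ∀ m, c (m ∘ (Equiv.swap a b)) = - c m

/-- The zero mode condition. -/
def ZM (c : (ι → ℕ) → ℂ) : Prop :=
  ∀ a b, a ≠ b → ∀ (s : ℕ) (m : ι → ℕ),
    ∑ p ∈ antidiagonal s, ((p.2 : ℂ) - (p.1 : ℂ)) * c (up m a b p.1 p.2) = 0

theorem arith_gap {A B I J : ℕ} (hs : I + J = A + B) (hAB : A ≠ B) (h1 : B < A + 3)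
    (h2 : A < B + 3) (hIJ : I ≠ J) (h4 : ¬ ((I = A ∧ J = B) ∨ (I = B ∧ J = A))) :
    A ^ 2 + B ^ 2 < I ^ 2 + J ^ 2 := by
  have hd : I + 3 ≤ J ∨ J + 3 ≤ I := by omega
  have hAB' : (A : ℤ) - B ≤ 2 ∧ -2 ≤ (A : ℤ) - B := by omega
  have hs' : (I : ℤ) + J = A + B := by exact_mod_cast hs
  have h5 : ((A : ℤ) - B) ^ 2 ≤ 4 := by nlinarith [hAB'.1, hAB'.2]
  have h6 : (9 : ℤ) ≤ ((I : ℤ) - J) ^ 2 := by
    rcases hd with h | h
    · have : (I : ℤ) - J ≤ -3 := by omega
      nlinarith
    · have : (3 : ℤ) ≤ (I : ℤ) - J := by omega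
      nlinarith
  have h7 : ((I : ℤ) + J) ^ 2 = ((A : ℤ) + B) ^ 2 := by rw [hs']
  have : ((A : ℤ)) ^ 2 + (B : ℤ) ^ 2 < (I : ℤ) ^ 2 + (J : ℤ) ^ 2 := by nlinarith
  exact_mod_cast this

theorem sum_up {S : Finset ι} {a b : ι} (ha : a ∈ S) (hb : b ∈ S) (h : a ≠ b) (m : ι → ℕ)
    (i j : ℕ) (F : ℕ → ℕ) :
    ∑ c ∈ S, F (up m a b i j c) + (F (m a) + F (m b)) = ∑ c ∈ S, F (m c) + (F i + F j) := by
  have hb' : b ∈ S.erase a := Finset.mem_erase.2 ⟨h.symm, hb⟩
  rw [← Finset.add_sum_erase S (fun c => F (up m a b i j c)) ha,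
    ← Finset.add_sum_erase S (fun c => F (m c)) ha,
    ← Finset.add_sum_erase (S.erase a) (fun c => F (up m a b i j c)) hb',
    ← Finset.add_sum_erase (S.erase a) (fun c => F (m c)) hb', up_left h, up_right]
  have h1 : ∑ c ∈ (S.erase a).erase b, F (up m a b i j c) =
      ∑ c ∈ (S.erase a).erase b, F (m c) := by
    refine Finset.sum_congr rfl fun c hc => ?_
    rw [up_of_ne]
    · exact fun h => by simp [h] at hc
    · exact fun h => by simp [h] at hc
  rw [h1]
  ring

/-- Distinct naturals with pairwise distance at least three. -/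
theorem sum_ge_of_gap {m : ι → ℕ} : ∀ (k : ℕ) (S : Finset ι), S.card = k + 1 →
    (∀ a ∈ S, ∀ b ∈ S, a ≠ b → m a + 3 ≤ m b ∨ m b + 3 ≤ m a) →
    (∃ a ∈ S, 3 * k ≤ m a ∧ ∀ b ∈ S, m b ≤ m a) ∧ 3 * ((k + 1) * k) ≤ 2 * ∑ a ∈ S, m a := by
  intro k
  induction k with
  | zero =>
    intro S hS _
    obtain ⟨a, rfl⟩ := Finset.card_eq_one.1 hS
    exact ⟨⟨a, by simp, by simp, by simp⟩, by simp⟩
  | succ k ih =>
    intro S hS hgap
    have hne : S.Nonempty := by
      rw [← Finset.card_pos]; omega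
    obtain ⟨a, ha, hmax⟩ := Finset.exists_max_image S m hne
    have hcard : (S.erase a).card = k + 1 := by
      rw [Finset.card_erase_of_mem ha]; omega
    obtain ⟨⟨b, hb, hb1, hb2⟩, hsum⟩ := ih (S.erase a) hcard fun x hx y hy hxy =>
      hgap x (Finset.mem_of_mem_erase hx) y (Finset.mem_of_mem_erase hy) hxy
    have hba : b ≠ a := Finset.ne_of_mem_erase hb
    have hbS := Finset.mem_of_mem_erase hb
    have h1 : m b + 3 ≤ m a := by
      rcases hgap b hbS a ha hba with h | h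
      · exact h
      · have := hmax b hbS
        omega
    refine ⟨⟨a, ha, by omega, hmax⟩, ?_⟩
    rw [← Finset.add_sum_erase S m ha]
    have : 3 * ((k + 1 + 1) * (k + 1)) = 3 * ((k + 1) * k) + 2 * (3 * (k + 1)) := by ring
    omega

variable [Fintype ι]

/-- **Dominance.** -/
theorem dom {c : (ι → ℕ) → ℂ} (hA : Anti c) (hZ : ZM c) {m : ι → ℕ} (hm : c m ≠ 0)
    (S : Finset ι) : 3 * (S.card * (S.card - 1)) ≤ 2 * ∑ a ∈ S, m a := by
  classical
  rcases Nat.eq_zero_or_pos S.card with h0 | hpos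
  · simp [h0]
  obtain ⟨k, hk⟩ : ∃ k, S.card = k + 1 := ⟨S.card - 1, by omega⟩
  -- the finite set of competitors
  set t := ∑ a ∈ S, m a with ht
  set M := t + ∑ a, m a with hM
  let T : Finset (ι → ℕ) := (Fintype.piFinset fun _ : ι => Finset.range (M + 1)).filter fun m' =>
    (∀ a, a ∉ S → m' a = m a) ∧ ∑ a ∈ S, m' a = t ∧ c m' ≠ 0
  have memT : ∀ m' : ι → ℕ, (∀ a, a ∉ S → m' a = m a) → ∑ a ∈ S, m' a = t → c m' ≠ 0 →
      m' ∈ T := by
    intro m' h1 h2 h3
    refine Finset.mem_filter.2 ⟨?_, h1, h2, h3⟩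
    rw [Fintype.mem_piFinset]
    intro a
    rw [Finset.mem_range]
    by_cases ha : a ∈ S
    · have : m' a ≤ ∑ a ∈ S, m' a := Finset.single_le_sum (f := m') (fun _ _ => Nat.zero_le _) ha
      omega
    · rw [h1 a ha]
      have : m a ≤ ∑ a, m a :=
        Finset.single_le_sum (f := m) (fun _ _ => Nat.zero_le _) (Finset.mem_univ a)
      omega
  have hne : T.Nonempty := ⟨m, memT m (fun _ _ => rfl) rfl hm⟩
  obtain ⟨m', hm', hmax⟩ := Finset.exists_max_image T (fun m' => ∑ a ∈ S, (m' a) ^ 2) hne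
  obtain ⟨-, hout, hsum, hc⟩ := Finset.mem_filter.1 hm'
  have hgap : ∀ a ∈ S, ∀ b ∈ S, a ≠ b → m' a + 3 ≤ m' b ∨ m' b + 3 ≤ m' a := by
    intro a ha b hb hab
    by_contra hcon
    push Not at hcon
    obtain ⟨h1, h2⟩ := hcon
    have hAB : m' a ≠ m' b := by
      intro he
      apply hc
      have h3 := hA a b hab m'
      have h4 : m' ∘ (Equiv.swap a b) = m' := by
        rw [← up_swap hab m', ← he]
        conv_lhs => rw [show up m' a b (m' a) (m' a) = up m' a b (m' a) (m' b) by rw [he]]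
        exact up_self a b m'
      rw [h4] at h3
      have h5 : (2 : ℂ) * c m' = 0 := by linear_combination h3
      simpa using h5
    have hz := hZ a b hab (m' a + m' b) m'
    have hne2 : (m' a, m' b) ≠ ((m' b, m' a) : ℕ × ℕ) := fun h => hAB (Prod.ext_iff.1 h).1
    have hmem1 : (m' a, m' b) ∈ antidiagonal (m' a + m' b) := by simp
    have hmem2 : (m' b, m' a) ∈ (antidiagonal (m' a + m' b)).erase (m' a, m' b) := by
      rw [Finset.mem_erase]
      exact ⟨hne2.symm, by simp [add_comm]⟩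
    rw [← Finset.add_sum_erase _ _ hmem1, ← Finset.add_sum_erase _ _ hmem2] at hz
    have hrest : ∑ p ∈ ((antidiagonal (m' a + m' b)).erase (m' a, m' b)).erase (m' b, m' a),
        ((p.2 : ℂ) - (p.1 : ℂ)) * c (up m' a b p.1 p.2) = 0 := by
      refine Finset.sum_eq_zero fun p hp => ?_
      obtain ⟨hp2, hp1, hp0⟩ : p ≠ (m' b, m' a) ∧ p ≠ (m' a, m' b) ∧
          p ∈ antidiagonal (m' a + m' b) := by
        rw [Finset.mem_erase, Finset.mem_erase] at hp
        exact ⟨hp.1, hp.2.1, hp.2.2⟩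
      have hps : p.1 + p.2 = m' a + m' b := by simpa using hp0
      by_cases hIJ : p.1 = p.2
      · rw [hIJ]; simp
      · have h4 : ¬ ((p.1 = m' a ∧ p.2 = m' b) ∨ (p.1 = m' b ∧ p.2 = m' a)) := by
          rintro (h | h)
          · exact hp1 (Prod.ext h.1 h.2)
          · exact hp2 (Prod.ext h.1 h.2)
        have hlt := arith_gap hps hAB (by omega) (by omega) hIJ h4
        have hz0 : c (up m' a b p.1 p.2) = 0 := by
          by_contra hcne
          have hsq := sum_up ha hb hab m' p.1 p.2 (fun x => x ^ 2)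
          have hs1 := sum_up ha hb hab m' p.1 p.2 (fun x => x)
          have hin : up m' a b p.1 p.2 ∈ T := by
            refine memT _ ?_ ?_ hcne
            · intro x hx
              have hxa : x ≠ a := by rintro rfl; exact hx ha
              have hxb : x ≠ b := by rintro rfl; exact hx hb
              rw [up_of_ne hxa hxb]
              exact hout x hx
            · have hs1' : ∑ c ∈ S, up m' a b p.1 p.2 c + (m' a + m' b) =
                  ∑ c ∈ S, m' c + (p.1 + p.2) := hs1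
              omega
          have hle := hmax _ hin
          have hle' : ∑ c ∈ S, up m' a b p.1 p.2 c ^ 2 ≤ ∑ c ∈ S, m' c ^ 2 := hle
          have hsq' : ∑ c ∈ S, up m' a b p.1 p.2 c ^ 2 + (m' a ^ 2 + m' b ^ 2) =
              ∑ c ∈ S, m' c ^ 2 + (p.1 ^ 2 + p.2 ^ 2) := hsq
          omega
        rw [hz0, mul_zero]
    have e1 : up m' a b (m' a) (m' b) = m' := up_self a b m'
    have e2 : up m' a b (m' b) (m' a) = m' ∘ (Equiv.swap a b) := up_swap hab m'
    rw [hrest, e1, e2, hA a b hab m'] at hz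
    have h6 : (2 : ℂ) * (((m' b : ℕ) : ℂ) - ((m' a : ℕ) : ℂ)) * c m' = 0 := by
      linear_combination hz
    have h7 : (((m' b : ℕ) : ℂ) - ((m' a : ℕ) : ℂ)) ≠ 0 := by
      rw [sub_ne_zero]
      exact_mod_cast hAB.symm
    rcases mul_eq_zero.1 h6 with h8 | h8
    · rcases mul_eq_zero.1 h8 with h9 | h9
      · norm_num at h9
      · exact h7 h9
    · exact hc h8
  have := (sum_ge_of_gap k S hk hgap).2
  rw [hk, ← hsum]
  simpa using this

/-! ### Weak majorisation -/

/-- Abel summation with antitone nonnegative weights. -/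
theorem abel_nonneg {w x : ℕ → ℝ} (n : ℕ) (hw : ∀ i < n, 0 ≤ w i)
    (hanti : ∀ i, i + 1 < n → w (i + 1) ≤ w i) (hx : ∀ k ≤ n, 0 ≤ ∑ i ∈ range k, x i) :
    0 ≤ ∑ i ∈ range n, w i * x i := by
  have key : ∀ k, k < n → w k * ∑ i ∈ range (k + 1), x i ≤ ∑ i ∈ range (k + 1), w i * x i := by
    intro k
    induction k with
    | zero => intro _; simp
    | succ k ih =>
      intro hk
      have h1 := ih (by omega)
      have h2 := hanti k (by omega)
      have h3 := hx (k + 1) (by omega)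
      rw [Finset.sum_range_succ (fun i => x i), Finset.sum_range_succ (fun i => w i * x i)]
      have h4 : w (k + 1) * ∑ i ∈ range (k + 1), x i ≤ w k * ∑ i ∈ range (k + 1), x i :=
        mul_le_mul_of_nonneg_right h2 h3
      rw [mul_add]
      linarith
  rcases Nat.eq_zero_or_pos n with h0 | hpos
  · simp [h0]
  · obtain ⟨k, rfl⟩ : ∃ k, n = k + 1 := ⟨n - 1, by omega⟩
    exact le_trans (mul_nonneg (hw k (by omega)) (hx (k + 1) le_rfl)) (key k (by omega))

/-- Convexity of a sequence. -/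
def Cvx (g : ℕ → ℝ) : Prop := ∀ j, g (j + 1) - g j ≤ g (j + 2) - g (j + 1)

theorem Cvx.diff_mono {g : ℕ → ℝ} (hg : Cvx g) : Monotone fun j => g (j + 1) - g j :=
  monotone_nat_of_le_succ fun j => hg j

/-- The subgradient inequality for convex sequences. -/
theorem Cvx.subgrad {g : ℕ → ℝ} (hg : Cvx g) (x y : ℕ) :
    g x + (g (x + 1) - g x) * ((y : ℝ) - x) ≤ g y := by
  rcases le_total x y with h | h
  · obtain ⟨d, rfl⟩ := Nat.exists_eq_add_of_le h
    induction d with
    | zero => simp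
    | succ d ih =>
      have h1 := ih (by omega)
      have h2 : g (x + 1) - g x ≤ g (x + d + 1) - g (x + d) := hg.diff_mono (by omega)
      have h3 : x + (d + 1) = x + d + 1 := rfl
      rw [h3]
      push_cast at h1 ⊢
      linarith
  · obtain ⟨d, rfl⟩ := Nat.exists_eq_add_of_le h
    -- `x = y + d`
    have key : ∀ e ≤ d, g (y + d) - g (y + d - e) ≤ (g (y + d + 1) - g (y + d)) * e := by
      intro e
      induction e with
      | zero => intro _; simp
      | succ e ih =>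
        intro he
        have h1 := ih (by omega)
        have h2 : g (y + d - (e + 1) + 1) - g (y + d - (e + 1)) ≤
            g (y + d + 1) - g (y + d) := hg.diff_mono (by omega)
        have h3 : y + d - (e + 1) + 1 = y + d - e := by omega
        rw [h3] at h2
        push_cast
        linarith
    have h1 := key d le_rfl
    have h2 : y + d - d = y := by omega
    rw [h2] at h1
    push_cast
    linarith

/-- Weak majorisation for a monotone sequence. -/
theorem sum_le_of_partial {g : ℕ → ℝ} (hg : Cvx g) (hanti : Antitone g) (n : ℕ) {e : ℕ → ℕ}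
    (he : ∀ i, i + 1 < n → e i ≤ e (i + 1))
    (hs : ∀ k ≤ n, 3 * (k * (k - 1)) ≤ 2 * ∑ i ∈ range k, e i) :
    ∑ i ∈ range n, g (e i) ≤ ∑ i ∈ range n, g (3 * i) := by
  have h1 : ∀ i, g (e i) + (g (e i + 1) - g (e i)) * (((3 * i : ℕ) : ℝ) - e i) ≤ g (3 * i) :=
    fun i => hg.subgrad _ _
  have h2 : 0 ≤ ∑ i ∈ range n, (g (e i) - g (e i + 1)) * ((e i : ℝ) - ((3 * i : ℕ) : ℝ)) := by
    refine abel_nonneg n (fun i _ => sub_nonneg.2 (hanti (Nat.le_succ _))) (fun i hi => ?_) ?_
    · have := hg.diff_mono (he i hi)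
      simp only at this
      linarith
    · intro k hk
      have h3 : ∀ k : ℕ, (2 : ℝ) * ∑ i ∈ range k, ((3 * i : ℕ) : ℝ) = 3 * ((k : ℝ) * (k - 1)) := by
        intro k
        induction k with
        | zero => simp
        | succ k ih =>
          rw [Finset.sum_range_succ, mul_add, ih]
          push_cast
          ring
      have h4 : (3 : ℝ) * ((k : ℝ) * (k - 1)) ≤ 2 * ∑ i ∈ range k, (e i : ℝ) := by
        have h5 := hs k hk
        rcases Nat.eq_zero_or_pos k with h0 | hpos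
        · subst h0; simp
        · have h6 : ((3 * (k * (k - 1)) : ℕ) : ℝ) ≤ ((2 * ∑ i ∈ range k, e i : ℕ) : ℝ) := by
            exact_mod_cast h5
          push_cast [Nat.cast_sub hpos] at h6
          linarith
      rw [Finset.sum_sub_distrib]
      linarith [h3 k]
  have h3 : ∑ i ∈ range n, g (3 * i) - ∑ i ∈ range n, g (e i) ≥
      ∑ i ∈ range n, (g (e i) - g (e i + 1)) * ((e i : ℝ) - ((3 * i : ℕ) : ℝ)) := by
    rw [← Finset.sum_sub_distrib]
    refine Finset.sum_le_sum fun i _ => ?_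
    have := h1 i
    nlinarith
  linarith

/-- Weak majorisation, unsorted. -/
theorem sum_le_of_dom {g : ℕ → ℝ} (hg : Cvx g) (hanti : Antitone g) {n : ℕ} {m : Fin n → ℕ}
    (hs : ∀ S : Finset (Fin n), 3 * (S.card * (S.card - 1)) ≤ 2 * ∑ a ∈ S, m a) :
    ∑ a, g (m a) ≤ ∑ i ∈ range n, g (3 * i) := by
  classical
  set σ := Tuple.sort m with hσ
  have hmono : Monotone (m ∘ σ) := Tuple.monotone_sort m
  let e : ℕ → ℕ := fun i => if h : i < n then m (σ ⟨i, h⟩) else 0
  have he : ∀ (i : ℕ) (h : i < n), e i = m (σ ⟨i, h⟩) := fun i h => by simp [e, h]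
  have h1 : ∑ a, g (m a) = ∑ i ∈ range n, g (e i) := by
    rw [Finset.sum_range]
    rw [← Equiv.sum_comp σ (fun a => g (m a))]
    exact Finset.sum_congr rfl fun i _ => by rw [he i i.isLt]
  rw [h1]
  refine sum_le_of_partial hg hanti n (fun i hi => ?_) (fun k hk => ?_)
  · rw [he i (by omega), he (i + 1) hi]
    exact hmono (by simp [Fin.le_def])
  · have hinj : Set.InjOn (fun i : Fin k => σ ⟨i, by omega⟩) Set.univ := by
      intro x _ y _ hxy
      have := σ.injective hxy
      simpa [Fin.ext_iff] using this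
    have h2 := hs (Finset.univ.image fun i : Fin k => σ ⟨i, by omega⟩)
    rw [Finset.card_image_of_injOn (by simpa using hinj), Finset.card_univ, Fintype.card_fin,
      Finset.sum_image (by simpa using hinj)] at h2
    rw [Finset.sum_range]
    refine h2.trans (le_of_eq ?_)
    congr 1
    exact Finset.sum_congr rfl fun i _ => (he i (by omega)).symm

/-- `3 ∑_{k<n} g(3k) ≤ ∑_{j≤Q} g j + 2 g 0` for nonnegative antitone `g`, `3(n-1) ≤ Q`. -/
theorem three_sum_le {g : ℕ → ℝ} (hanti : Antitone g) {n Q : ℕ} (hpos : ∀ j ≤ Q, 0 ≤ g j)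
    (hn : 3 * n ≤ Q + 3) :
    3 * ∑ k ∈ range n, g (3 * k) ≤ ∑ j ∈ range (Q + 1), g j + 2 * g 0 := by
  have key : ∀ n, 3 * n ≤ Q + 3 → 0 < n →
      3 * ∑ k ∈ range n, g (3 * k) ≤ ∑ j ∈ range (3 * n - 2), g j + 2 * g 0 := by
    intro n
    induction n with
    | zero => intro _ h; omega
    | succ n ih =>
      intro hn _
      rcases Nat.eq_zero_or_pos n with h0 | h0
      · subst h0
        simp
        linarith
      · have h1 := ih (by omega) h0
        rw [Finset.sum_range_succ]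
        have h2 : 3 * (n + 1) - 2 = (3 * n - 2) + 1 + 1 + 1 := by omega
        rw [h2, Finset.sum_range_succ, Finset.sum_range_succ, Finset.sum_range_succ]
        have h3 : g (3 * n) ≤ g (3 * n - 2) := hanti (by omega)
        have h4 : g (3 * n) ≤ g (3 * n - 2 + 1) := hanti (by omega)
        have h5 : g (3 * n) ≤ g (3 * n - 2 + 1 + 1) := hanti (by omega)
        linarith
  rcases Nat.eq_zero_or_pos n with h0 | h0
  · subst h0
    have h1 : 0 ≤ ∑ j ∈ range (Q + 1), g j :=
      Finset.sum_nonneg fun j hj => hpos j (by simpa [Nat.lt_succ_iff] using hj)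
    have h2 := hpos 0 (Nat.zero_le _)
    simp
    linarith
  · refine (key n hn h0).trans ?_
    have h1 : ∑ j ∈ range (3 * n - 2), g j ≤ ∑ j ∈ range (Q + 1), g j := by
      refine Finset.sum_le_sum_of_subset_of_nonneg ?_ fun j hj _ => hpos j ?_
      · intro j hj
        rw [Finset.mem_range] at hj ⊢
        omega
      · simpa [Nat.lt_succ_iff] using hj
    linarith

/-- **Base bound** for the weighted hole number (Sec 6 of doc 1094): with
`w = (Q+3)/(3(Q+1))`, `K = Q + 3 - 3 n`. -/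
theorem base_bound {f : ℕ → ℝ} (hf : Cvx f) (hanti : Antitone f) {n Q : ℕ} {m : Fin n → ℕ}
    (hn : 3 * n ≤ Q + 3)
    (hs : ∀ S : Finset (Fin n), 3 * (S.card * (S.card - 1)) ≤ 2 * ∑ a ∈ S, m a) :
    ((Q : ℝ) + 3 - 3 * n) * f Q - 2 * (f 0 - f Q) ≤
      3 * (((Q : ℝ) + 3) / (3 * (Q + 1)) * ∑ j ∈ range (Q + 1), f j - ∑ a, f (m a)) := by
  have h1 := sum_le_of_dom hf hanti hs
  set g : ℕ → ℝ := fun j => f j - f Q with hg
  have hganti : Antitone g := fun x y hxy => sub_le_sub_right (hanti hxy) _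
  have hgpos : ∀ j ≤ Q, 0 ≤ g j := fun j hj => sub_nonneg.2 (hanti hj)
  have h2 := three_sum_le hganti hgpos hn
  have h3 : ∑ k ∈ range n, g (3 * k) = ∑ k ∈ range n, f (3 * k) - n * f Q := by
    simp [hg, Finset.sum_sub_distrib]
  have h4 : ∑ j ∈ range (Q + 1), g j = ∑ j ∈ range (Q + 1), f j - (Q + 1) * f Q := by
    simp [hg, Finset.sum_sub_distrib]
  have hG : 0 ≤ ∑ j ∈ range (Q + 1), g j :=
    Finset.sum_nonneg fun j hj => hgpos j (by simpa [Nat.lt_succ_iff] using hj)
  have hQ : (0 : ℝ) < (Q : ℝ) + 1 := by positivity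
  have h5 : 3 * (((Q : ℝ) + 3) / (3 * (Q + 1)) * ∑ j ∈ range (Q + 1), f j) =
      ((Q : ℝ) + 3) * f Q + (∑ j ∈ range (Q + 1), g j + 2 / (Q + 1) * ∑ j ∈ range (Q + 1), g j) := by
    have h6 : ∑ j ∈ range (Q + 1), f j = ∑ j ∈ range (Q + 1), g j + (Q + 1) * f Q := by
      rw [h4]; ring
    rw [h6]
    field_simp
    ring
  have h7 : 0 ≤ 2 / ((Q : ℝ) + 1) * ∑ j ∈ range (Q + 1), g j := by positivity
  rw [h3] at h2
  have h8 : g 0 = f 0 - f Q := rfl
  rw [h8] at h2
  have h9 : 3 * (((Q : ℝ) + 3) / (3 * (Q + 1)) * ∑ j ∈ range (Q + 1), f j - ∑ a, f (m a)) =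
      3 * (((Q : ℝ) + 3) / (3 * (Q + 1)) * ∑ j ∈ range (Q + 1), f j) - 3 * ∑ a, f (m a) := by
    ring
  rw [h9, h5]
  nlinarith

end Crest.Agent.R340.Dom735
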