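import Mathlib.Analysis.SpecialFunctions.Pow.Real
import Mathlib.Analysis.Convex.SpecificFunctions.Basic
import Mathlib.Analysis.Convex.SpecificFunctions.Deriv
import Mathlib.Tactic
import Crest.Agent.R340.Dom_735

/-!
R340 (S0532), scalar facts for Secs 6/7 of doc 1094 (helper725).

`prof a R j = ∏_{i<j} (1 - a/(R+i+1))` : a discrete version of `(1+j/R)^(-a)` for which all scalar
facts are exact identities.

`w Q = (Q+3)/(3(Q+1))`, `cs f Q = w Q * ∑_{j ≤ Q} f j`.
-/

set_option autoImplicit false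

open Finset

namespace Crest.Agent.R340.Scal725

open Crest.Agent.R340.Dom735 (Cvx)

/-! ### The profile -/

/-- Discrete power law profile. -/
noncomputable def prof (a R : ℝ) (j : ℕ) : ℝ := ∏ i ∈ range j, (1 - a / (R + i + 1))

@[simp] theorem prof_zero (a R : ℝ) : prof a R 0 = 1 := by simp [prof]

theorem prof_succ (a R : ℝ) (j : ℕ) : prof a R (j + 1) = prof a R j * (1 - a / (R + j + 1)) := by
  simp [prof, prod_range_succ]

theorem prof_add (a R : ℝ) (i j : ℕ) : prof a R (i + j) = prof a R i * prof a (R + i) j := by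
  induction j with
  | zero => simp
  | succ j ih =>
    rw [← add_assoc, prof_succ, ih, prof_succ, mul_assoc]
    congr 3
    push_cast
    ring

theorem fac_pos {a R : ℝ} (hR : 0 ≤ R) (ha : a < R + 1) (i : ℕ) : 0 < 1 - a / (R + i + 1) := by
  have h : (0 : ℝ) < R + i + 1 := by positivity
  rw [sub_pos, div_lt_one h]
  have : (0 : ℝ) ≤ i := Nat.cast_nonneg i
  linarith

theorem prof_pos {a R : ℝ} (hR : 0 ≤ R) (ha : a < R + 1) (j : ℕ) : 0 < prof a R j :=
  prod_pos fun i _ => fac_pos hR ha i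

theorem prof_diff {a R : ℝ} (j : ℕ) :
    prof a R j - prof a R (j + 1) = a * prof a R j / (R + j + 1) := by
  rw [prof_succ]; ring

theorem prof_mul_succ {a R : ℝ} (hR : 0 ≤ R) (j : ℕ) :
    (R + j + 1) * prof a R (j + 1) = (R + j + 1 - a) * prof a R j := by
  have h : (R + j + 1 : ℝ) ≠ 0 := by positivity
  rw [prof_succ]; field_simp

theorem prof_diff2 {a R : ℝ} (hR : 0 ≤ R) (j : ℕ) :
    prof a R j - 2 * prof a R (j + 1) + prof a R (j + 2) =
      a * (1 + a) * prof a R j / ((R + j + 1) * (R + j + 2)) := by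
  have h : (R + j + 1 : ℝ) ≠ 0 := by positivity
  have h2 : (R + j + 2 : ℝ) ≠ 0 := by positivity
  have e2 : prof a R (j + 2) = prof a R j * (1 - a / (R + j + 1)) * (1 - a / (R + j + 2)) := by
    rw [show j + 2 = (j + 1) + 1 from rfl, prof_succ, prof_succ]
    congr 3
    push_cast; ring
  rw [e2, prof_succ]
  field_simp
  ring

theorem prof_antitone {a R : ℝ} (hR : 0 ≤ R) (ha0 : 0 ≤ a) (ha : a < R + 1) :
    Antitone (prof a R) := by
  apply antitone_nat_of_succ_le
  intro j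
  have h := prof_diff (a := a) (R := R) j
  have : 0 ≤ a * prof a R j / (R + j + 1) := by
    have := prof_pos hR ha j
    positivity
  linarith

theorem prof_cvx {a R : ℝ} (hR : 0 ≤ R) (ha0 : 0 ≤ a) (ha : a < R + 1) : Cvx (prof a R) := by
  intro j
  have h := prof_diff2 (a := a) hR j
  have : 0 ≤ a * (1 + a) * prof a R j / ((R + j + 1) * (R + j + 2)) := by
    have := prof_pos hR ha j
    positivity
  linarith

theorem prof_le_one {a R : ℝ} (hR : 0 ≤ R) (ha0 : 0 ≤ a) (ha : a < R + 1) (j : ℕ) :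
    prof a R j ≤ 1 := by
  simpa using prof_antitone hR ha0 ha (Nat.zero_le j)

theorem prof_mono_exp {a b R : ℝ} (hR : 0 ≤ R) (hab : a ≤ b) (hb : b < R + 1) (j : ℕ) :
    prof b R j ≤ prof a R j := by
  apply prod_le_prod
  · intro i _; exact (fac_pos hR hb i).le
  · intro i _
    have : (0 : ℝ) ≤ R + i + 1 := by positivity
    have := div_le_div_of_nonneg_right hab this
    linarith

theorem prof_mono_R {a R S : ℝ} (hR : 0 ≤ R) (ha0 : 0 ≤ a) (ha : a < R + 1) (hRS : R ≤ S) (j : ℕ) :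
    prof a R j ≤ prof a S j := by
  apply prod_le_prod
  · intro i _; exact (fac_pos hR ha i).le
  · intro i _
    have h1 : (0 : ℝ) < R + i + 1 := by positivity
    have : a / (S + i + 1) ≤ a / (R + i + 1) := by
      apply div_le_div_of_nonneg_left ha0 h1; linarith
    linarith

/-- log-convexity -/
theorem prof_sq_le {a R : ℝ} (hR : 0 ≤ R) (ha0 : 0 ≤ a) (ha : a < R + 1) (j : ℕ) :
    prof a R (j + 1) ^ 2 ≤ prof a R j * prof a R (j + 2) := by
  have hp := prof_pos hR ha j
  have h1 : (0 : ℝ) < R + j + 1 := by positivity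
  have e2 : prof a R (j + 2) = prof a R j * (1 - a / (R + j + 1)) * (1 - a / (R + j + 2)) := by
    rw [show j + 2 = (j + 1) + 1 from rfl, prof_succ, prof_succ]
    congr 3
    push_cast; ring
  rw [e2, prof_succ]
  have h3 : a / (R + j + 2) ≤ a / (R + j + 1) := by
    apply div_le_div_of_nonneg_left ha0 h1; linarith
  have h4 := fac_pos hR ha j
  have h5 : prof a R j * (prof a R j * (1 - a / (R + j + 1)) * (1 - a / (R + j + 2))) -
      (prof a R j * (1 - a / (R + j + 1))) ^ 2 =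
      prof a R j ^ 2 * (1 - a / (R + j + 1)) * (a / (R + j + 1) - a / (R + j + 2)) := by ring
  have h6 : 0 ≤ prof a R j ^ 2 * (1 - a / (R + j + 1)) * (a / (R + j + 1) - a / (R + j + 2)) := by
    apply mul_nonneg (mul_nonneg (sq_nonneg _) h4.le); linarith
  linarith

/-! ### Second difference -/

/-- Second difference `f''_{j+1} = f_j - 2 f_{j+1} + f_{j+2}`. -/
def dd (f : ℕ → ℝ) (j : ℕ) : ℝ := f j - 2 * f (j + 1) + f (j + 2)

theorem dd_prof {a R : ℝ} (hR : 0 ≤ R) (j : ℕ) :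
    dd (prof a R) j = a * (1 + a) * prof a R j / ((R + j + 1) * (R + j + 2)) := prof_diff2 hR j

theorem dd_prof_nonneg {a R : ℝ} (hR : 0 ≤ R) (ha0 : 0 ≤ a) (ha : a < R + 1) (j : ℕ) :
    0 ≤ dd (prof a R) j := by
  rw [dd_prof hR]
  have := prof_pos hR ha j
  positivity

/-- exact ratio of consecutive second differences -/
theorem dd_prof_succ {a R : ℝ} (hR : 0 ≤ R) (j : ℕ) :
    (R + j + 3) * dd (prof a R) (j + 1) = (R + j + 1 - a) * dd (prof a R) j := by
  rw [dd_prof hR, dd_prof hR, prof_succ]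
  have h1 : (R + j + 1 : ℝ) ≠ 0 := by positivity
  have h2 : (R + j + 2 : ℝ) ≠ 0 := by positivity
  have h3 : (R + j + 3 : ℝ) ≠ 0 := by positivity
  have h2' : (R + (j : ℝ) + 1 + 1 : ℝ) ≠ 0 := by positivity
  have h3' : (R + (j : ℝ) + 1 + 2 : ℝ) ≠ 0 := by positivity
  push_cast
  rw [show R + ((j : ℝ) + 1) + 1 = R + j + 2 by ring, show R + ((j : ℝ) + 1) + 2 = R + j + 3 by ring]
  field_simp

theorem dd_prof_antitone {a R : ℝ} (hR : 0 ≤ R) (ha0 : 0 ≤ a) (ha : a < R + 1) :
    Antitone (dd (prof a R)) := by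
  apply antitone_nat_of_succ_le
  intro j
  have h := dd_prof_succ (a := a) hR j
  have h3 : (0 : ℝ) < R + j + 3 := by positivity
  have h0 := dd_prof_nonneg hR ha0 ha j
  have : (R + j + 3) * dd (prof a R) (j + 1) ≤ (R + j + 3) * dd (prof a R) j := by
    rw [h]; apply mul_le_mul_of_nonneg_right _ h0; linarith
  exact le_of_mul_le_mul_left this h3

/-! ### Sums -/

theorem sum_prof {a R : ℝ} (hR : 0 ≤ R) (Q : ℕ) :
    (1 - a) * ∑ j ∈ range Q, prof a R j = (R + Q) * prof a R Q - R := by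
  induction Q with
  | zero => simp
  | succ Q ih =>
    rw [sum_range_succ, mul_add, ih]
    have := prof_mul_succ (a := a) hR Q
    push_cast
    linarith

theorem sum_prof_le_of_one_lt {A R : ℝ} (hR : 0 ≤ R) (hA : 1 < A) (hA' : A < R + 1) (Q : ℕ) :
    ∑ j ∈ range Q, prof A R j ≤ R / (A - 1) := by
  have h := sum_prof (a := A) hR Q
  rw [le_div_iff₀ (by linarith)]
  have hp := prof_pos hR hA' Q
  have : 0 ≤ (R + Q) * prof A R Q := by positivity
  linarith

theorem prof_mul_le_one {a R : ℝ} (hR : 0 < R) (ha0 : 0 ≤ a) (ha : a < R + 1) (Q : ℕ) :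
    prof a R Q * (1 + a * Q / (Q + R)) ≤ 1 := by
  induction Q with
  | zero => simp
  | succ Q ih =>
    have hx : (0 : ℝ) < Q + R := by positivity
    have hy : (0 : ℝ) < R + Q + 1 := by positivity
    have hp := prof_pos hR.le ha Q
    refine le_trans ?_ ih
    rw [prof_succ, mul_assoc]
    apply mul_le_mul_of_nonneg_left _ hp.le
    push_cast
    rw [show ((Q : ℝ) + 1 + R) = R + Q + 1 by ring]
    rw [show a * Q / (Q + R) = a - a * R / (Q + R) by field_simp; ring,
      show a * ((Q : ℝ) + 1) / (R + Q + 1) = a - a * R / (R + Q + 1) by field_simp; ring]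
    have e1 : a * R / (Q + R) - a * R / (R + Q + 1) ≤ a / (R + Q + 1) := by
      rw [div_sub_div _ _ hx.ne' hy.ne', div_le_div_iff₀ (by positivity) hy]
      have : a * R * (R + Q + 1) - (Q + R) * (a * R) = a * R := by ring
      rw [this]
      have h0 : 0 ≤ a * Q * (R + Q + 1) := by positivity
      nlinarith
    have e2 : 0 ≤ a * R / (R + Q + 1) := by positivity
    have e3 : a * R / (R + Q + 1) ≤ a := by
      rw [div_le_iff₀ hy]
      have : 0 ≤ a * (Q + 1) := by positivity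
      nlinarith
    have e4 : 0 ≤ a / (R + Q + 1) := by positivity
    have e5 : 0 ≤ a / (R + Q + 1) * (a - a * R / (R + Q + 1)) := mul_nonneg e4 (by linarith)
    nlinarith

theorem sum_prof_sub_le {a R : ℝ} (hR : 0 < R) (ha0 : 0 ≤ a) (ha1 : a < 1) (Q : ℕ) :
    ∑ j ∈ range Q, (prof a R j - prof a R Q) ≤
      a / (1 - a) * (Q ^ 2 * prof a R Q / (Q + R)) := by
  have h := sum_prof (a := a) hR.le Q
  have ha : a < R + 1 := by linarith
  have h1 := prof_mul_le_one hR ha0 ha Q
  have hx : (0 : ℝ) < Q + R := by positivity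
  rw [sum_sub_distrib, sum_const, card_range, nsmul_eq_mul]
  have h2 : (1 - a) * (∑ j ∈ range Q, prof a R j - Q * prof a R Q) =
      (R + a * Q) * prof a R Q - R := by
    rw [mul_sub, h]; ring
  have h3 : (R + a * Q) * prof a R Q - R ≤ a * (Q ^ 2 * prof a R Q / (Q + R)) := by
    have h4 : R * (prof a R Q * (1 + a * Q / (Q + R))) ≤ R * 1 :=
      mul_le_mul_of_nonneg_left h1 hR.le
    have h5 : a * (Q ^ 2 * prof a R Q / (Q + R)) =
        (R + a * Q) * prof a R Q - R * (prof a R Q * (1 + a * Q / (Q + R))) := by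
      field_simp
      ring
    rw [h5]; linarith
  have h6 : 0 < 1 - a := by linarith
  rw [div_mul_eq_mul_div, le_div_iff₀ h6, mul_comm, h2]
  exact h3

theorem prof_sub_ge {a R : ℝ} (hR : 0 ≤ R) (ha0 : 0 ≤ a) (ha : a < R + 1) (Q : ℕ) (k : ℕ) :
    k * (a * prof a R (Q + k) / (R + Q + k)) ≤ prof a R Q - prof a R (Q + k) := by
  induction k with
  | zero => simp
  | succ k ih =>
    have hd := prof_diff (a := a) (R := R) (Q + k)
    have hm : prof a R (Q + (k + 1)) ≤ prof a R (Q + k) :=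
      prof_antitone hR ha0 ha (by omega)
    have hp := prof_pos hR ha (Q + (k + 1))
    have e1 : a * prof a R (Q + (k + 1)) / (R + Q + (k + 1 : ℕ)) ≤
        a * prof a R (Q + k) / (R + (Q + k : ℕ) + 1) := by
      push_cast
      rw [show R + (Q : ℝ) + (k + 1) = R + (Q + k) + 1 by ring]
      apply div_le_div_of_nonneg_right _ (by positivity)
      exact mul_le_mul_of_nonneg_left hm ha0
    rcases Nat.eq_zero_or_pos k with h0 | h0
    · subst h0
      simp only [Nat.cast_one, zero_add, one_mul] at *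
      have : Q + 1 = Q + 0 + 1 := rfl
      rw [this] at *
      linarith
    · have e2 : a * prof a R (Q + (k + 1)) / (R + Q + (k + 1 : ℕ)) ≤
          a * prof a R (Q + k) / (R + Q + k) := by
        have hk : (0 : ℝ) < R + Q + k := by
          have : (0 : ℝ) < k := by exact_mod_cast h0
          positivity
        apply div_le_div₀ _ _ hk _
        · have := prof_pos hR ha (Q + k); positivity
        · exact mul_le_mul_of_nonneg_left hm ha0
        · push_cast; linarith
      have e3 : (k : ℝ) * (a * prof a R (Q + (k + 1)) / (R + Q + (k + 1 : ℕ))) ≤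
          k * (a * prof a R (Q + k) / (R + Q + k)) :=
        mul_le_mul_of_nonneg_left e2 (Nat.cast_nonneg k)
      have e4 : ((k + 1 : ℕ) : ℝ) * (a * prof a R (Q + (k + 1)) / (R + Q + (k + 1 : ℕ))) =
          k * (a * prof a R (Q + (k + 1)) / (R + Q + (k + 1 : ℕ))) +
          a * prof a R (Q + (k + 1)) / (R + Q + (k + 1 : ℕ)) := by
        push_cast; ring
      rw [e4]
      have : prof a R (Q + (k + 1)) = prof a R (Q + k + 1) := rfl
      linarith

theorem one_sub_prof_le {a R : ℝ} (hR : 0 ≤ R) (ha0 : 0 ≤ a) (ha : a < R + 1) (Q : ℕ) :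
    1 - prof a R Q ≤ a * Q / (R + 1) := by
  induction Q with
  | zero => simp
  | succ Q ih =>
    have hd := prof_diff (a := a) (R := R) Q
    have h1 := prof_le_one hR ha0 ha Q
    have h0 := prof_pos hR ha Q
    have : a * prof a R Q / (R + Q + 1) ≤ a / (R + 1) := by
      apply div_le_div₀ ha0 _ (by positivity) (by linarith [(Nat.cast_nonneg Q : (0 : ℝ) ≤ Q)])
      nlinarith
    have e : a * ((Q + 1 : ℕ) : ℝ) / (R + 1) = a * Q / (R + 1) + a / (R + 1) := by
      push_cast; ring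
    rw [e]; linarith

/-! ### Power law bounds -/

/-- `(R/(R+j))^a ≤ prof a R j` for `0 ≤ a ≤ 1`. -/
theorem rpow_le_prof {a R : ℝ} (hR : 0 < R) (ha0 : 0 ≤ a) (ha1 : a ≤ 1) (j : ℕ) :
    (R / (R + j)) ^ a ≤ prof a R j := by
  induction j with
  | zero => simp [div_self hR.ne']
  | succ j ih =>
    have hx : (0 : ℝ) < R + j := by positivity
    have hy : (0 : ℝ) < R + j + 1 := by positivity
    rw [prof_succ]
    have e : R / (R + ((j + 1 : ℕ) : ℝ)) = R / (R + j) * (1 + -(1 / (R + j + 1))) := by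
      push_cast
      rw [show R + ((j : ℝ) + 1) = R + j + 1 by ring]
      field_simp
      ring
    have hz : 0 ≤ 1 + -(1 / (R + j + 1)) := by
      have : 1 / (R + j + 1) ≤ 1 := by rw [div_le_one hy]; linarith
      linarith
    rw [e, Real.mul_rpow (by positivity) hz]
    apply mul_le_mul ih _ (by positivity) (le_trans (by positivity) ih)
    have hb := rpow_one_add_le_one_add_mul_self (s := -(1 / (R + j + 1))) (by linarith) ha0 ha1
    calc _ ≤ 1 + a * -(1 / (R + j + 1)) := hb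
      _ = _ := by ring

/-- `prof a R j ≤ ((R+1)/(R+1+j))^a` for `0 ≤ a < R + 1`. -/
theorem prof_le_rpow {a R : ℝ} (hR : 0 ≤ R) (ha0 : 0 ≤ a) (ha : a < R + 1) (j : ℕ) :
    prof a R j ≤ ((R + 1) / (R + 1 + j)) ^ a := by
  induction j with
  | zero =>
    have : (R + 1) ≠ 0 := by positivity
    simp [div_self this]
  | succ j ih =>
    have hx : (0 : ℝ) < R + j + 1 := by positivity
    have hx' : (0 : ℝ) < R + j + 2 := by positivity
    rw [prof_succ]
    have e : (R + 1) / (R + 1 + ((j + 1 : ℕ) : ℝ)) =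
        (R + 1) / (R + 1 + j) * ((R + j + 1) / (R + j + 2)) := by
      push_cast
      rw [show R + 1 + ((j : ℝ) + 1) = R + j + 2 by ring, show R + 1 + (j : ℝ) = R + j + 1 by ring]
      field_simp
    rw [e, Real.mul_rpow (by positivity) (by positivity)]
    have h4 := fac_pos hR ha j
    apply mul_le_mul ih _ h4.le (by positivity)
    have h1 : 1 - a / (R + j + 1) ≤ Real.exp (-(a / (R + j + 1))) := by
      have := Real.add_one_le_exp (-(a / (R + j + 1)))
      linarith
    refine h1.trans ?_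
    have h2 : ((R + j + 1) / (R + j + 2)) = ((R + j + 2) / (R + j + 1))⁻¹ := by
      rw [inv_div]
    rw [h2, Real.inv_rpow (by positivity), Real.exp_neg]
    apply inv_anti₀ (by positivity)
    have h3 : (R + j + 2) / (R + j + 1) ≤ Real.exp (1 / (R + j + 1)) := by
      have := Real.add_one_le_exp (1 / (R + j + 1))
      have e5 : (R + j + 2) / (R + j + 1) = 1 / (R + j + 1) + 1 := by field_simp; ring
      rw [e5]; exact this
    calc ((R + j + 2) / (R + j + 1)) ^ a ≤ (Real.exp (1 / (R + j + 1))) ^ a :=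
          Real.rpow_le_rpow (by positivity) h3 ha0
      _ = Real.exp (a / (R + j + 1)) := by
          rw [← Real.exp_mul]; congr 1; ring

/-- `((R+1-A)/(R+1-A+j))^A ≤ prof A R j` for `1 ≤ A < R + 1`. -/
theorem rpow_le_prof_of_one_le {A R : ℝ} (hA : 1 ≤ A) (hAR : A < R + 1) (j : ℕ) :
    ((R + 1 - A) / (R + 1 - A + j)) ^ A ≤ prof A R j := by
  have hz : 0 < R + 1 - A := by linarith
  have hR : 0 ≤ R := by linarith
  induction j with
  | zero => simp [div_self hz.ne']
  | succ j ih =>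
    have hx : (0 : ℝ) < R + 1 - A + j := by positivity
    have hx1 : (0 : ℝ) < R + 1 - A + j + 1 := by positivity
    rw [prof_succ]
    have e : (R + 1 - A) / (R + 1 - A + ((j + 1 : ℕ) : ℝ)) =
        (R + 1 - A) / (R + 1 - A + j) * ((R + 1 - A + j) / (R + 1 - A + j + 1)) := by
      push_cast
      rw [show R + 1 - A + ((j : ℝ) + 1) = R + 1 - A + j + 1 by ring]
      field_simp
    rw [e, Real.mul_rpow (by positivity) (by positivity)]
    apply mul_le_mul ih _ (by positivity) (le_trans (by positivity) ih)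
    -- with z = R+1-A+j : (z/(z+1))^A ≤ z/(z+A)
    set z : ℝ := R + 1 - A + j with hzdef
    have e1 : 1 - A / (R + j + 1) = z / (z + A) := by
      have : R + j + 1 = z + A := by rw [hzdef]; ring
      rw [this]
      have : z + A ≠ 0 := by linarith
      field_simp
      ring
    rw [e1]
    have hb := one_add_mul_self_le_rpow_one_add (s := 1 / z) (p := A)
      (by have : 0 < 1 / z := by positivity
          linarith) hA
    have e2 : z / (z + 1) = (1 + 1 / z)⁻¹ := by field_simp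
    have e3 : z / (z + A) = (1 + A * (1 / z))⁻¹ := by
      have : z + A ≠ 0 := by linarith
      field_simp
    rw [e2, e3, Real.inv_rpow (by positivity)]
    apply inv_anti₀ (by positivity) hb

/-! ### The vacuum constant -/

/-- `w Q = (Q+3)/(3(Q+1))`. -/
noncomputable def w (Q : ℕ) : ℝ := (Q + 3) / (3 * (Q + 1))

/-- `cs f Q = w Q * ∑_{j ≤ Q} f j` : the vacuum value of `dΓ(f)`. -/
noncomputable def cs (f : ℕ → ℝ) (Q : ℕ) : ℝ := w Q * ∑ j ∈ range (Q + 1), f j

theorem w_pos (Q : ℕ) : 0 < w Q := by unfold w; positivity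

theorem three_w (Q : ℕ) : 3 * w Q = 1 + 2 / (Q + 1) := by
  unfold w
  field_simp
  ring

theorem one_le_three_w (Q : ℕ) : 1 ≤ 3 * w Q := by
  rw [three_w]
  have : (0 : ℝ) ≤ 2 / (Q + 1) := by positivity
  linarith

/-- `h_1 = K`. -/
theorem cs_one (Q : ℕ) : 3 * cs (fun _ => 1) Q = Q + 3 := by
  unfold cs w
  simp
  field_simp

theorem cs_add (f g : ℕ → ℝ) (Q : ℕ) : cs (fun j => f j + g j) Q = cs f Q + cs g Q := by
  unfold cs
  rw [sum_add_distrib, mul_add]

theorem cs_smul (c : ℝ) (f : ℕ → ℝ) (Q : ℕ) : cs (fun j => c * f j) Q = c * cs f Q := by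
  unfold cs
  rw [← mul_sum]; ring

theorem cs_mono {f g : ℕ → ℝ} {Q : ℕ} (h : ∀ j ≤ Q, f j ≤ g j) : cs f Q ≤ cs g Q := by
  unfold cs
  apply mul_le_mul_of_nonneg_left _ (w_pos Q).le
  apply sum_le_sum
  intro j hj
  exact h j (by simpa [Nat.lt_succ_iff] using hj)

/-- The exact scalar of the A-step `(Q+3) → Q`. -/
theorem cs_step (f : ℕ → ℝ) (Q : ℕ) :
    cs f (Q + 3) - f (Q + 3) - cs f Q =
      -(2 / ((Q + 4) * (Q + 1))) * ∑ j ∈ range (Q + 1), (f j - f (Q + 3)) +
        w (Q + 3) * ((f (Q + 1) - f (Q + 3)) + (f (Q + 2) - f (Q + 3))) := by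
  have h1 : ((Q : ℝ) + 1) ≠ 0 := by positivity
  have h4 : ((Q : ℝ) + 4) ≠ 0 := by positivity
  have h4' : ((Q : ℝ) + 3 + 1) ≠ 0 := by positivity
  unfold cs
  rw [show Q + 3 + 1 = (Q + 1) + 1 + 1 + 1 from rfl, sum_range_succ, sum_range_succ, sum_range_succ,
    sum_sub_distrib, sum_const, card_range, nsmul_eq_mul]
  unfold w
  push_cast
  rw [show (Q : ℝ) + 3 + 1 = Q + 4 by ring]
  field_simp
  ring

/-- The exact scalar of the B-step `(Q+1) → Q`. -/
theorem cs_step_one (f : ℕ → ℝ) (Q : ℕ) :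
    3 * (cs f (Q + 1) - cs f Q) =
      f (Q + 1) - 2 / ((Q + 1) * (Q + 2)) * ∑ j ∈ range (Q + 1), (f j - f (Q + 1)) := by
  have h1 : ((Q : ℝ) + 1) ≠ 0 := by positivity
  have h2 : ((Q : ℝ) + 2) ≠ 0 := by positivity
  unfold cs
  rw [sum_range_succ, sum_sub_distrib, sum_const, card_range, nsmul_eq_mul]
  unfold w
  push_cast
  rw [show (Q : ℝ) + 1 + 1 = Q + 2 by ring]
  field_simp
  ring

/-- Lower bound of the scalar of the A-step for a convex antitone profile. -/
theorem cs_step_ge {f : ℕ → ℝ} (hf : Cvx f) (hanti : Antitone f) (Q : ℕ) :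
    -(2 / ((Q + 4) * (Q + 1))) * ∑ j ∈ range (Q + 1), (f j - f (Q + 3)) + (f (Q + 2) - f (Q + 3)) ≤
      cs f (Q + 3) - f (Q + 3) - cs f Q := by
  rw [cs_step]
  have h0 : 0 ≤ f (Q + 2) - f (Q + 3) := sub_nonneg.2 (hanti (by omega))
  have h1 : f (Q + 2) - f (Q + 3) ≤ f (Q + 1) - f (Q + 2) := by
    have := hf (Q + 1)
    have e1 : f (Q + 1 + 1) = f (Q + 2) := rfl
    have e2 : f (Q + 1 + 2) = f (Q + 3) := rfl
    rw [e1, e2] at this
    linarith
  have h2 := one_le_three_w (Q + 3)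
  have h3 : 3 * (f (Q + 2) - f (Q + 3)) ≤
      (f (Q + 1) - f (Q + 3)) + (f (Q + 2) - f (Q + 3)) := by linarith
  have h4 : w (Q + 3) * (3 * (f (Q + 2) - f (Q + 3))) ≤
      w (Q + 3) * ((f (Q + 1) - f (Q + 3)) + (f (Q + 2) - f (Q + 3))) :=
    mul_le_mul_of_nonneg_left h3 (w_pos _).le
  nlinarith

/-- Sum over `j ≤ Q` of `f j - f (Q+3)` for the profile, `0 ≤ a < 1`. -/
theorem sum_prof_sub_le' {a R : ℝ} (hR : 0 < R) (ha0 : 0 ≤ a) (ha1 : a < 1) (Q : ℕ) :
    ∑ j ∈ range (Q + 1), (prof a R j - prof a R (Q + 3)) ≤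
      a / (1 - a) * ((Q + 3) ^ 2 * prof a R (Q + 3) / (Q + 3 + R)) := by
  have h := sum_prof_sub_le hR ha0 ha1 (Q + 3)
  push_cast at h
  refine le_trans ?_ h
  apply sum_le_sum_of_subset_of_nonneg
  · intro j hj
    simp only [mem_range] at hj ⊢
    omega
  · intro j hj _
    exact sub_nonneg.2 (prof_antitone hR.le ha0 (by linarith) (by simp only [mem_range] at hj; omega))

/-- **A-step scalar, weak pass** (`0 ≤ a < 1`):
`3 (c(Q+3) - f_{Q+3} - c(Q)) ≥ - (a f_{Q+3} / (Q+3+R)) (6/(1-a) (Q+3)^2/((Q+4)(Q+1)) - 3)`. -/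
theorem A_step_weak {a R : ℝ} (hR : 0 < R) (ha0 : 0 ≤ a) (ha1 : a < 1) (Q : ℕ) :
    -(a * prof a R (Q + 3) / (Q + 3 + R) *
      (6 / (1 - a) * ((Q + 3) ^ 2 / ((Q + 4) * (Q + 1))) - 3)) ≤
      3 * (cs (prof a R) (Q + 3) - prof a R (Q + 3) - cs (prof a R) Q) := by
  have ha : a < R + 1 := by linarith
  have h1 := cs_step_ge (prof_cvx hR.le ha0 ha) (prof_antitone hR.le ha0 ha) Q
  have h2 := sum_prof_sub_le' hR ha0 ha1 Q
  have h3 : a * prof a R (Q + 3) / (Q + 3 + R) ≤ prof a R (Q + 2) - prof a R (Q + 3) := by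
    have := prof_sub_ge hR.le ha0 ha (Q + 2) 1
    push_cast at this
    rw [one_mul] at this
    have e : prof a R (Q + 2 + 1) = prof a R (Q + 3) := rfl
    rw [e] at this
    refine le_trans (le_of_eq ?_) this
    congr 1
    ring
  have h4 : (0 : ℝ) < 2 / ((Q + 4) * (Q + 1)) := by positivity
  have h5 := mul_le_mul_of_nonneg_left h2 h4.le
  have e5 : 3 * (2 / (((Q : ℝ) + 4) * (Q + 1)) *
      (a / (1 - a) * ((Q + 3) ^ 2 * prof a R (Q + 3) / (Q + 3 + R)))) =
      a * prof a R (Q + 3) / (Q + 3 + R) * (6 / (1 - a) * ((Q + 3) ^ 2 / ((Q + 4) * (Q + 1)))) := by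
    have hne : (1 - a) ≠ 0 := by linarith
    field_simp
    ring
  have h6 : 3 * (2 / (((Q : ℝ) + 4) * (Q + 1)) *
      ∑ j ∈ range (Q + 1), (prof a R j - prof a R (Q + 3))) ≤
      a * prof a R (Q + 3) / (Q + 3 + R) * (6 / (1 - a) * ((Q + 3) ^ 2 / ((Q + 4) * (Q + 1)))) := by
    rw [← e5]; linarith
  have e7 : a * prof a R (Q + 3) / (Q + 3 + R) *
      (6 / (1 - a) * ((Q + 3) ^ 2 / ((Q + 4) * (Q + 1))) - 3) =
      a * prof a R (Q + 3) / (Q + 3 + R) * (6 / (1 - a) * ((Q + 3) ^ 2 / ((Q + 4) * (Q + 1)))) -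
      3 * (a * prof a R (Q + 3) / (Q + 3 + R)) := by ring
  rw [e7]
  linarith

/-- **A-step scalar, any exponent**, for `A > 1`: `∑ ≤ R/(A-1)`. -/
theorem A_step_strong {A R : ℝ} (hA : 1 < A) (hAR : A < R + 1) (Q : ℕ) :
    -(6 / ((Q + 4) * (Q + 1)) * (R / (A - 1))) + 3 * (A * prof A R (Q + 3) / (Q + 3 + R)) ≤
      3 * (cs (prof A R) (Q + 3) - prof A R (Q + 3) - cs (prof A R) Q) := by
  have hR : 0 < R := by linarith
  have hA0 : 0 ≤ A := by linarith
  have h1 := cs_step_ge (prof_cvx hR.le hA0 hAR) (prof_antitone hR.le hA0 hAR) Q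
  have h2 : ∑ j ∈ range (Q + 1), (prof A R j - prof A R (Q + 3)) ≤ R / (A - 1) := by
    refine le_trans ?_ (sum_prof_le_of_one_lt hR.le hA hAR (Q + 1))
    apply sum_le_sum
    intro j _
    have := prof_pos hR.le hAR (Q + 3)
    linarith
  have h3 : A * prof A R (Q + 3) / (Q + 3 + R) ≤ prof A R (Q + 2) - prof A R (Q + 3) := by
    have := prof_sub_ge hR.le hA0 hAR (Q + 2) 1
    push_cast at this
    rw [one_mul] at this
    have e : prof A R (Q + 2 + 1) = prof A R (Q + 3) := rfl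
    rw [e] at this
    refine le_trans (le_of_eq ?_) this
    congr 1
    ring
  have h4 : (0 : ℝ) < 2 / ((Q + 4) * (Q + 1)) := by positivity
  have h5 := mul_le_mul_of_nonneg_left h2 h4.le
  have e5 : 3 * (2 / (((Q : ℝ) + 4) * (Q + 1)) * (R / (A - 1))) =
      6 / ((Q + 4) * (Q + 1)) * (R / (A - 1)) := by ring
  nlinarith

/-- **B-step scalar, weak pass**. -/
theorem B_step_weak {a R : ℝ} (hR : 0 < R) (ha0 : 0 ≤ a) (ha1 : a < 1) (Q : ℕ) :
    prof a R (Q + 1) * (1 - 2 * a / (1 - a) / (Q + 1 + R)) ≤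
      3 * (cs (prof a R) (Q + 1) - cs (prof a R) Q) := by
  rw [cs_step_one]
  have h2 := sum_prof_sub_le hR ha0 ha1 (Q + 1)
  push_cast at h2
  have hp := prof_pos hR.le (by linarith : a < R + 1) (Q + 1)
  have h4 : (0 : ℝ) < 2 / ((Q + 1) * (Q + 2)) := by positivity
  have h5 := mul_le_mul_of_nonneg_left h2 h4.le
  have h1a : 0 < 1 - a := by linarith
  have h6 : 2 / (((Q : ℝ) + 1) * (Q + 2)) *
      (a / (1 - a) * ((Q + 1) ^ 2 * prof a R (Q + 1) / (Q + 1 + R))) ≤
      prof a R (Q + 1) * (2 * a / (1 - a) / (Q + 1 + R)) := by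
    have e : 2 / (((Q : ℝ) + 1) * (Q + 2)) *
        (a / (1 - a) * ((Q + 1) ^ 2 * prof a R (Q + 1) / (Q + 1 + R))) =
        prof a R (Q + 1) * (2 * a / (1 - a) / (Q + 1 + R)) * ((Q + 1) / (Q + 2)) := by
      field_simp
    rw [e]
    have : ((Q : ℝ) + 1) / (Q + 2) ≤ 1 := by rw [div_le_one (by positivity)]; linarith
    have h7 : 0 ≤ prof a R (Q + 1) * (2 * a / (1 - a) / (Q + 1 + R)) := by positivity
    nlinarith
  have e8 : prof a R (Q + 1) * (1 - 2 * a / (1 - a) / (Q + 1 + R)) =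
      prof a R (Q + 1) - prof a R (Q + 1) * (2 * a / (1 - a) / (Q + 1 + R)) := by ring
  rw [e8]
  linarith

end Crest.Agent.R340.Scal725
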