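import Crest.Agent.R340.Dom_735
import Crest.Agent.R340.Scal_725
import Crest.Agent.R340.GeoA_986

/-!
R340 (S0532), block L4 on the Fock model (helper735): every occupation set in the support of a zero
mode satisfies the dominance inequalities, hence `3 (c(Q) - dΓ(f)) ≥ K f_Q - 2 (f_0 - f_Q)` on the
zero modes of any radial metric, for convex antitone `f`.
-/

set_option autoImplicit false

open Finset

namespace Crest.Agent.R340.DomF735

open Fock649 Geo986 Dom735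

variable {Q : ℕ}

/-- linear annihilation field -/
noncomputable def af (Q : ℕ) : (Fin (Q + 1) → ℂ) →ₗ[ℂ] Op (Fin (Q + 1)) :=
  ∑ i, (LinearMap.proj i).smulRight (c i)

theorem af_apply (v : Fin (Q + 1) → ℂ) : af Q v = ∑ i, v i • c i := by
  simp [af]

theorem af_sq (v : Fin (Q + 1) → ℂ) : af Q v * af Q v = 0 := by
  have h := an_mul_self (WithLp.toLp 2 (star v) : L (Fin (Q + 1)))
  have e : an (WithLp.toLp 2 (star v) : L (Fin (Q + 1))) = af Q v := by
    rw [af_apply]; unfold an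
    refine sum_congr rfl fun i _ => ?_
    simp
  rwa [e] at h

/-- products of annihilators as an alternating map -/
noncomputable def wd (Q n : ℕ) : (Fin (Q + 1) → ℂ) [⋀^Fin n]→ₗ[ℂ] Op (Fin (Q + 1)) :=
  (ExteriorAlgebra.lift ℂ ⟨af Q, af_sq⟩).toLinearMap.compAlternatingMap
    (ExteriorAlgebra.ιMulti ℂ n)

theorem wd_apply {n : ℕ} (v : Fin n → Fin (Q + 1) → ℂ) :
    wd Q n v = (List.ofFn fun a => af Q (v a)).prod := by
  unfold wd
  rw [LinearMap.compAlternatingMap_apply, ExteriorAlgebra.ιMulti_apply]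
  rw [AlgHom.toLinearMap_apply, map_list_prod, List.map_ofFn]
  congr 1
  congr 1
  funext a
  simp

/-- scaled basis vector -/
noncomputable def ev (Q : ℕ) (ν : ℕ → ℝ) (j : ℕ) : Fin (Q + 1) → ℂ :=
  fun i => if (i : ℕ) = j then (((ν j)⁻¹ : ℝ) : ℂ) else 0

theorem af_ev (ν : ℕ → ℝ) (i : Fin (Q + 1)) :
    af Q (ev Q ν i) = (((ν i)⁻¹ : ℝ) : ℂ) • c i := by
  rw [af_apply, sum_eq_single i]
  · simp [ev]
  · intro b _ hb
    have : (b : ℕ) ≠ i := fun h => hb (Fin.ext h)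
    simp [ev, this]
  · simp

/-- polynomial coefficients of a Fock vector -/
noncomputable def cf (ν : ℕ → ℝ) (ψ : Fk (Fin (Q + 1))) {n : ℕ} (m : Fin n → ℕ) : ℂ :=
  (wd Q n (fun a => ev Q ν (m a)) ψ) ∅

theorem cf_anti (ν : ℕ → ℝ) (ψ : Fk (Fin (Q + 1))) (n : ℕ) : Anti (cf ν ψ (n := n)) := by
  intro a b hab m
  have h := (wd Q n).map_swap (fun a => ev Q ν (m a)) hab
  unfold cf
  have e : (fun x => ev Q ν ((m ∘ Equiv.swap a b) x)) = (fun x => ev Q ν (m x)) ∘ Equiv.swap a b :=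
    rfl
  rw [e, h, neg_ap]
  rfl

/-- the pair identity -/
theorem sum_pair (ν : ℕ → ℝ) (s : ℕ) :
    ∑ p ∈ antidiagonal s, ((p.2 : ℂ) - (p.1 : ℂ)) • (af Q (ev Q ν p.1) * af Q (ev Q ν p.2)) =
      (-2 : ℂ) • bz ν Q s := by
  -- expand in the orbitals
  have h1 : ∀ p ∈ antidiagonal s,
      ((p.2 : ℂ) - (p.1 : ℂ)) • (af Q (ev Q ν p.1) * af Q (ev Q ν p.2)) =
      ∑ x : Fin (Q + 1) × Fin (Q + 1), if ((x.1 : ℕ), (x.2 : ℕ)) = p then
        ((bcoef ν x.1 x.2 : ℝ) : ℂ) • (c x.1 * c x.2) else 0 := by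
    intro p _
    rw [af_apply, af_apply, sum_mul_sum, ← univ_product_univ, sum_product, smul_sum]
    refine sum_congr rfl fun x _ => ?_
    rw [smul_sum]
    refine sum_congr rfl fun y _ => ?_
    simp only [ev]
    by_cases hx : (x : ℕ) = p.1
    · by_cases hy : (y : ℕ) = p.2
      · simp only [Prod.ext_iff, hx, hy, and_self, if_true]
        rw [smul_mul_smul_comm, smul_smul]
        congr 1
        unfold bcoef
        push_cast
        rw [div_eq_mul_inv, mul_inv]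
      · simp [hy, Prod.ext_iff]
    · simp [hx, Prod.ext_iff]
  rw [sum_congr rfl h1, sum_comm]
  have h2 : ∀ x : Fin (Q + 1) × Fin (Q + 1),
      (∑ p ∈ antidiagonal s, if ((x.1 : ℕ), (x.2 : ℕ)) = p then
        ((bcoef ν x.1 x.2 : ℝ) : ℂ) • (c x.1 * c x.2) else (0 : Op (Fin (Q + 1)))) =
      if (x.1 : ℕ) + x.2 = s then ((bcoef ν x.1 x.2 : ℝ) : ℂ) • (c x.1 * c x.2) else 0 := by
    intro x
    rw [sum_ite_eq]
    simp only [HasAntidiagonal.mem_antidiagonal]
  rw [sum_congr rfl fun x _ => h2 x]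
  -- split into x.1 < x.2, x.1 > x.2, x.1 = x.2
  have h3 : ∀ x : Fin (Q + 1) × Fin (Q + 1),
      (if (x.1 : ℕ) + x.2 = s then ((bcoef ν x.1 x.2 : ℝ) : ℂ) • (c x.1 * c x.2) else
        (0 : Op (Fin (Q + 1)))) =
      (if x.1 < x.2 ∧ (x.1 : ℕ) + x.2 = s then
        -(((bcoef ν x.1 x.2 : ℝ) : ℂ) • (c x.2 * c x.1)) else 0) +
      (if x.2 < x.1 ∧ (x.1 : ℕ) + x.2 = s then
        ((bcoef ν x.1 x.2 : ℝ) : ℂ) • (c x.1 * c x.2) else 0) := by
    intro x
    by_cases hs : (x.1 : ℕ) + x.2 = s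
    · rcases lt_trichotomy x.1 x.2 with h | h | h
      · have hc : (c x.1 * c x.2 : Op (Fin (Q + 1))) = -(c x.2 * c x.1) := by
          rw [eq_neg_iff_add_eq_zero]; exact c_c _ _
        rw [if_pos hs, if_pos ⟨h, hs⟩, if_neg (fun h' => absurd h'.1 (not_lt.2 h.le)), add_zero,
          hc, smul_neg]
      · have hb : bcoef ν x.1 x.2 = 0 := by rw [h]; simp [bcoef]
        rw [if_pos hs, if_neg (fun h' => absurd h'.1 (by rw [h]; exact lt_irrefl _)),
          if_neg (fun h' => absurd h'.1 (by rw [h]; exact lt_irrefl _)), hb]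
        simp
      · rw [if_pos hs, if_neg (fun h' => absurd h'.1 (not_lt.2 h.le)), if_pos ⟨h, hs⟩, zero_add]
    · simp [hs]
  rw [sum_congr rfl fun x _ => h3 x, sum_add_distrib]
  have h4 : (∑ x : Fin (Q + 1) × Fin (Q + 1), if x.2 < x.1 ∧ (x.1 : ℕ) + x.2 = s then
        ((bcoef ν x.1 x.2 : ℝ) : ℂ) • (c x.1 * c x.2) else (0 : Op (Fin (Q + 1)))) =
      ∑ x : Fin (Q + 1) × Fin (Q + 1), if x.1 < x.2 ∧ (x.1 : ℕ) + x.2 = s then
        -(((bcoef ν x.1 x.2 : ℝ) : ℂ) • (c x.2 * c x.1)) else 0 := by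
    rw [← (Equiv.prodComm (Fin (Q + 1)) (Fin (Q + 1))).sum_comp]
    refine sum_congr rfl fun x _ => ?_
    simp only [Equiv.prodComm_apply, Prod.fst_swap, Prod.snd_swap]
    have e : (x.2 : ℕ) + x.1 = x.1 + x.2 := add_comm _ _
    rw [e]
    have hb : bcoef ν x.2 x.1 = - bcoef ν x.1 x.2 := by
      unfold bcoef; rw [mul_comm (ν x.2)]; ring
    rw [hb]
    push_cast
    rw [neg_smul]
  rw [h4]
  unfold bz pairs
  rw [sum_filter, ← sum_add_distrib, smul_sum]
  refine sum_congr rfl fun x _ => ?_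
  split_ifs
  · rw [← two_smul ℂ, smul_neg, neg_smul]
  · simp

theorem exists_perm {α : Type*} [DecidableEq α] {x y a b : α} (hxy : x ≠ y) (hab : a ≠ b) :
    ∃ σ : Equiv.Perm α, σ x = a ∧ σ y = b := by
  refine ⟨(Equiv.swap x a).trans (Equiv.swap (Equiv.swap x a y) b), ?_, ?_⟩
  · rw [Equiv.trans_apply, Equiv.swap_apply_left]
    apply Equiv.swap_apply_of_ne_of_ne _ hab
    intro h
    have h2 : Equiv.swap x a x = Equiv.swap x a y := by rw [Equiv.swap_apply_left]; exact h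
    exact hxy ((Equiv.swap x a).injective h2)
  · rw [Equiv.trans_apply, Equiv.swap_apply_left]

theorem wd_perm {n : ℕ} (v : Fin n → Fin (Q + 1) → ℂ) (σ : Equiv.Perm (Fin n)) :
    wd Q n v = (((Equiv.Perm.sign σ : ℤ)) : ℂ) • wd Q n (v ∘ σ) := by
  rw [(wd Q n).map_perm v σ]
  rcases Int.units_eq_one_or (Equiv.Perm.sign σ) with h | h <;> simp [h]

theorem wd_last_two {k : ℕ} (v : Fin (k + 2) → Fin (Q + 1) → ℂ) :
    wd Q (k + 2) v = wd Q k (fun i => v i.castSucc.castSucc) *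
      (af Q (v (Fin.last k).castSucc) * af Q (v (Fin.last (k + 1)))) := by
  rw [wd_apply, wd_apply, List.ofFn_succ', List.concat_eq_append, List.prod_append,
    List.ofFn_succ', List.concat_eq_append, List.prod_append, mul_assoc]
  simp

theorem cf_zm {ν : ℕ → ℝ} {ψ : Fk (Fin (Q + 1))} (hψ : ψ ∈ Zs ν Q) (n : ℕ) :
    ZM (cf ν ψ (n := n)) := by
  intro a b hab s m
  obtain ⟨k, rfl⟩ : ∃ k, n = k + 2 := by
    have h1 := a.2
    have h2 := b.2
    have h3 : (a : ℕ) ≠ b := fun h => hab (Fin.ext h)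
    exact ⟨n - 2, by omega⟩
  have hne : (Fin.last k).castSucc ≠ Fin.last (k + 1) := (Fin.castSucc_lt_last _).ne
  obtain ⟨σ, hσ1, hσ2⟩ := exists_perm hne hab
  set P0 : Op (Fin (Q + 1)) := wd Q k (fun i => ev Q ν (m (σ i.castSucc.castSucc))) with hP0
  have h1 : ∀ i j : ℕ, wd Q (k + 2) (fun x => ev Q ν (up m a b i j x)) =
      (((Equiv.Perm.sign σ : ℤ)) : ℂ) • (P0 * (af Q (ev Q ν i) * af Q (ev Q ν j))) := by
    intro i j
    rw [wd_perm _ σ, wd_last_two]
    congr 1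
    congr 1
    · rw [hP0]
      congr 1
      funext x
      simp only [Function.comp]
      rw [up_of_ne]
      · rw [← hσ1]
        intro h
        have := σ.injective h
        have h2 := Fin.castSucc_injective _ this
        exact (Fin.castSucc_lt_last x).ne h2
      · rw [← hσ2]
        intro h
        have := σ.injective h
        exact (Fin.castSucc_lt_last x.castSucc).ne this
    · simp only [Function.comp]
      rw [hσ1, hσ2, up_left hab, up_right]
  have h2 : ∀ p ∈ antidiagonal s, ((p.2 : ℂ) - (p.1 : ℂ)) * cf ν ψ (up m a b p.1 p.2) =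
      (((((Equiv.Perm.sign σ : ℤ)) : ℂ) • (P0 * (((p.2 : ℂ) - (p.1 : ℂ)) •
        (af Q (ev Q ν p.1) * af Q (ev Q ν p.2))))) ψ) ∅ := by
    intro p _
    unfold cf
    rw [h1, mul_smul_comm, smul_ap, smul_ap, smul_ap]
    simp only [PiLp.smul_apply, smul_eq_mul]
    ring
  rw [sum_congr rfl h2]
  have h3 : ∀ F : ℕ × ℕ → Op (Fin (Q + 1)),
      (∑ p ∈ antidiagonal s, ((((Equiv.Perm.sign σ : ℤ)) : ℂ) • (P0 * F p)) ψ ∅) =
      ((((Equiv.Perm.sign σ : ℤ)) : ℂ) • (P0 * ∑ p ∈ antidiagonal s, F p)) ψ ∅ := by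
    intro F
    rw [mul_sum, smul_sum, sum_ap]
    simp only [WithLp.ofLp_sum, Finset.sum_apply]
  rw [h3, sum_pair, mul_smul_comm, smul_ap, smul_ap, mul_ap, hψ s]
  have : P0 (0 : Fk (Fin (Q + 1))) = 0 := P0.ap.map_zero
  rw [this]
  simp

/-- non vanishing of the coefficient -/
theorem prod_apply {t : Fin (Q + 1) → ℂ} (ht : ∀ i, t i ≠ 0) (ψ : Fk (Fin (Q + 1))) :
    ∀ (l : List (Fin (Q + 1))) (T : Finset (Fin (Q + 1))), l.Nodup → Disjoint T l.toFinset →
      ∃ ε : ℂ, ε ≠ 0 ∧ ((l.map fun i => t i • c i).prod ψ) T = ε * ψ (T ∪ l.toFinset) := by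
  intro l
  induction l with
  | nil => intro T _ _; exact ⟨1, one_ne_zero, by simp [one_ap]⟩
  | cons i l ih =>
    intro T hl hT
    rw [List.nodup_cons] at hl
    rw [List.toFinset_cons, disjoint_insert_right] at hT
    obtain ⟨ε, hε, he⟩ := ih (insert i T) hl.2 (by
      rw [disjoint_insert_left]
      exact ⟨by simpa using hl.1, hT.2⟩)
    refine ⟨t i * sg i T * ε, mul_ne_zero (mul_ne_zero (ht i) ?_) hε, ?_⟩
    · intro h
      have := norm_sg i T
      rw [h, norm_zero] at this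
      exact zero_ne_one this
    · rw [List.map_cons, List.prod_cons, smul_mul_assoc, smul_ap, mul_ap]
      simp only [PiLp.smul_apply, smul_eq_mul]
      rw [c_apply, if_neg hT.1, he, List.toFinset_cons]
      have e : insert i T ∪ l.toFinset = T ∪ insert i l.toFinset := by
        rw [insert_union, union_insert]
      rw [e]
      ring

/-- the polynomial coefficient of an occupied configuration does not vanish -/
theorem dom_enum_ne {ν : ℕ → ℝ} (hν : PosM ν Q) {ψ : Fk (Fin (Q + 1))}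
    {S : Finset (Fin (Q + 1))} (hS : ψ S ≠ 0) {n : ℕ} (hn : S.card = n) :
    cf ν ψ (fun a => ((S.orderEmbOfFin hn a : Fin (Q + 1)) : ℕ)) ≠ 0 := by
  classical
  unfold cf
  rw [wd_apply]
  have e1 : (List.ofFn fun a => af Q (ev Q ν ((S.orderEmbOfFin hn a : Fin (Q + 1)) : ℕ))) =
      (List.ofFn (S.orderEmbOfFin hn)).map
        fun i : Fin (Q + 1) => ((((ν i)⁻¹ : ℝ) : ℂ)) • (c i : Op (Fin (Q + 1))) := by
    rw [List.map_ofFn]
    congr 1
    funext a
    simp only [Function.comp]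
    exact af_ev ν _
  rw [e1]
  obtain ⟨ε, hε, he⟩ := prod_apply (t := fun i : Fin (Q + 1) => (((ν i)⁻¹ : ℝ) : ℂ))
    (fun i => by
      have := (hν i (by omega)).ne'
      exact_mod_cast inv_ne_zero this) ψ (List.ofFn (S.orderEmbOfFin hn)) ∅
    (List.nodup_ofFn.2 (S.orderEmbOfFin hn).injective) (disjoint_empty_left _)
  have e2 : (List.ofFn (S.orderEmbOfFin hn)).toFinset = S := by
    ext i
    have h := Finset.ext_iff.1 (image_orderEmbOfFin_univ S hn) i
    rw [List.mem_toFinset, List.mem_ofFn, ← h]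
    simp only [mem_image, mem_univ, true_and]
  rw [he, e2, empty_union]
  exact mul_ne_zero hε hS

/-- **Dominance on the support of a zero mode** (parametrised by the increasing enumeration). -/
theorem dom_enum {ν : ℕ → ℝ} (hν : PosM ν Q) {ψ : Fk (Fin (Q + 1))} (hψ : ψ ∈ Zs ν Q)
    {S : Finset (Fin (Q + 1))} (hS : ψ S ≠ 0) {n : ℕ} (hn : S.card = n) (A : Finset (Fin n)) :
    3 * (A.card * (A.card - 1)) ≤ 2 * ∑ a ∈ A, ((S.orderEmbOfFin hn a : Fin (Q + 1)) : ℕ) :=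
  dom (cf_anti ν ψ n) (cf_zm hψ n) (dom_enum_ne hν hS hn) A

theorem sum_enum {S : Finset (Fin (Q + 1))} {n : ℕ} (hn : S.card = n) (g : ℕ → ℝ) :
    ∑ a, g ((S.orderEmbOfFin hn a : Fin (Q + 1)) : ℕ) = ∑ i ∈ S, g (i : ℕ) := by
  classical
  conv_rhs => rw [← image_orderEmbOfFin_univ S hn]
  rw [sum_image]
  intro a _ b _ h
  exact (S.orderEmbOfFin hn).injective h

/-- **Dominance on the support of a zero mode**. -/
theorem dom_support {ν : ℕ → ℝ} (hν : PosM ν Q) {ψ : Fk (Fin (Q + 1))} (hψ : ψ ∈ Zs ν Q)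
    {S : Finset (Fin (Q + 1))} (hS : ψ S ≠ 0) {T : Finset (Fin (Q + 1))} (hT : T ⊆ S) :
    3 * (T.card * (T.card - 1)) ≤ 2 * ∑ i ∈ T, (i : ℕ) := by
  classical
  set o := S.orderEmbOfFin rfl
  set A : Finset (Fin S.card) := univ.filter fun a => o a ∈ T with hA
  have h := dom_enum hν hψ hS rfl A
  have himg : A.image o = T := by
    ext i
    simp only [hA, mem_image, mem_filter, mem_univ, true_and]
    constructor
    · rintro ⟨a, ha, rfl⟩; exact ha
    · intro hi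
      have : i ∈ univ.image o := by rw [image_orderEmbOfFin_univ]; exact hT hi
      obtain ⟨a, _, rfl⟩ := mem_image.1 this
      exact ⟨a, hi, rfl⟩
  have hinj : Set.InjOn o A := fun a _ b _ h => o.injective h
  have hc : A.card = T.card := by rw [← himg, card_image_of_injOn hinj]
  have hs : ∑ a ∈ A, ((o a : Fin (Q + 1)) : ℕ) = ∑ i ∈ T, (i : ℕ) := by
    rw [← himg, sum_image (fun a ha b hb h => hinj ha hb h)]
  rw [hc] at h
  rw [← hs]
  exact h

/-- one-body bound on a basis configuration in the support of a zero mode -/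
theorem base_config {ν : ℕ → ℝ} (hν : PosM ν Q) {ψ : Fk (Fin (Q + 1))} (hψ : ψ ∈ Zs ν Q)
    {S : Finset (Fin (Q + 1))} (hS : ψ S ≠ 0) {f : ℕ → ℝ} (hf : Cvx f) (hanti : Antitone f)
    (hn : 3 * S.card ≤ Q + 3) :
    ((Q : ℝ) + 3 - 3 * S.card) * f Q - 2 * (f 0 - f Q) ≤
      3 * (Scal725.cs f Q - ∑ i ∈ S, f (i : ℕ)) := by
  have h := base_bound hf hanti (n := S.card) (Q := Q)
    (m := fun a => ((S.orderEmbOfFin rfl a : Fin (Q + 1)) : ℕ)) hn
    (fun A => dom_enum hν hψ hS rfl A)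
  rw [sum_enum rfl f] at h
  exact h

/-- `dΓ(f)` for a real radial profile -/
noncomputable def dGf (f : ℕ → ℝ) (Q : ℕ) : Op (Fin (Q + 1)) :=
  dG (Matrix.diagonal (res Q f))

theorem inner_dGf (f : ℕ → ℝ) (ψ : Fk (Fin (Q + 1))) :
    (inner ℂ ψ (dGf f Q ψ) : ℂ).re =
      ∑ S : Finset (Fin (Q + 1)), (∑ i ∈ S, f (i : ℕ)) * ‖ψ S‖ ^ 2 := by
  unfold dGf
  rw [dG_diagonal, PiLp.inner_apply, Complex.re_sum]
  refine sum_congr rfl fun S _ => ?_
  rw [diag_apply]
  have e : (∑ i ∈ S, res Q f i) = ((∑ i ∈ S, f (i : ℕ) : ℝ) : ℂ) := by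
    simp [res]
  rw [e, RCLike.inner_apply, mul_assoc, Complex.re_ofReal_mul, Complex.mul_conj,
    Complex.ofReal_re, Complex.normSq_eq_norm_sq]

theorem norm_sq_eq_sum (ψ : Fk (Fin (Q + 1))) : ‖ψ‖ ^ 2 = ∑ S, ‖ψ S‖ ^ 2 := by
  rw [EuclideanSpace.norm_sq_eq]

/-- **Base case**: on the zero modes with `n` particles,
`3 (c(Q) - dΓ(f)) ≥ K f_Q - 2 (f_0 - f_Q)`, `K = Q + 3 - 3 n`. -/
theorem base_fock {ν : ℕ → ℝ} (hν : PosM ν Q) {ψ : Fk (Fin (Q + 1))} (hψ : ψ ∈ Zs ν Q) {n : ℕ}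
    (hN : ∀ S, ψ S ≠ 0 → S.card = n) {f : ℕ → ℝ} (hf : Cvx f) (hanti : Antitone f)
    (hn : 3 * n ≤ Q + 3) :
    (((Q : ℝ) + 3 - 3 * n) * f Q - 2 * (f 0 - f Q)) * ‖ψ‖ ^ 2 ≤
      3 * (Scal725.cs f Q * ‖ψ‖ ^ 2 - (inner ℂ ψ (dGf f Q ψ) : ℂ).re) := by
  rw [inner_dGf, norm_sq_eq_sum, mul_sum, mul_sum, ← sum_sub_distrib, mul_sum]
  refine sum_le_sum fun S _ => ?_
  by_cases hS : ψ S = 0
  · simp [hS]
  · have hc := hN S hS
    have h := base_config hν hψ hS hf hanti (by rw [hc]; exact hn)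
    rw [hc] at h
    have h2 := mul_le_mul_of_nonneg_right h (sq_nonneg ‖ψ S‖)
    refine h2.trans (le_of_eq ?_)
    ring

theorem card_of_Nh {ψ : Fk (Fin (Q + 1))} {n : ℕ} (h : Nh ψ = (n : ℂ) • ψ) :
    ∀ S, ψ S ≠ 0 → S.card = n := by
  intro S hS
  rw [Nh_eq] at h
  have h2 := congrArg (fun v : Fk (Fin (Q + 1)) => v S) h
  simp only [diag_apply, PiLp.smul_apply, smul_eq_mul] at h2
  have h3 := mul_right_cancel₀ hS h2
  exact Nat.cast_injective (R := ℂ) h3

/-! ### Reflection: no zero modes with `K < 0` -/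

section Rev
variable {ι : Type*} [DecidableEq ι] [Fintype ι]

/-- reflected coefficients -/
noncomputable def rev (Q : ℕ) (c : (ι → ℕ) → ℂ) (m : ι → ℕ) : ℂ :=
  if ∀ a, m a ≤ Q then c (fun a => Q - m a) else 0

theorem rev_anti {Q : ℕ} {c : (ι → ℕ) → ℂ} (hA : Anti c) : Anti (rev Q c) := by
  intro a b hab m
  unfold rev
  by_cases h : ∀ x, m x ≤ Q
  · have h' : ∀ x, (m ∘ Equiv.swap a b) x ≤ Q := fun x => h _
    rw [if_pos h, if_pos h']
    exact hA a b hab (fun x => Q - m x)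
  · have h' : ¬ ∀ x, (m ∘ Equiv.swap a b) x ≤ Q := by
      intro h2
      apply h
      intro x
      have := h2 (Equiv.swap a b x)
      simpa using this
    rw [if_neg h, if_neg h', neg_zero]

theorem rev_zm {Q : ℕ} {c : (ι → ℕ) → ℂ} (hs : ∀ m, c m ≠ 0 → ∀ a, m a ≤ Q) (hZ : ZM c) :
    ZM (rev Q c) := by
  intro a b hab s m
  by_cases hm : ∀ x, x ≠ a → x ≠ b → m x ≤ Q
  swap
  · push Not at hm
    obtain ⟨x, hxa, hxb, hx⟩ := hm
    refine sum_eq_zero fun p _ => ?_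
    unfold rev
    rw [if_neg, mul_zero]
    intro h
    have := h x
    rw [up_of_ne hxa hxb] at this
    omega
  have h1 : ∀ i j, rev Q c (up m a b i j) =
      if i ≤ Q ∧ j ≤ Q then c (up (fun x => Q - m x) a b (Q - i) (Q - j)) else 0 := by
    intro i j
    unfold rev
    by_cases h : i ≤ Q ∧ j ≤ Q
    · have h2 : ∀ x, up m a b i j x ≤ Q := by
        intro x
        by_cases hxb : x = b
        · subst hxb; rw [up_right]; exact h.2
        · by_cases hxa : x = a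
          · subst hxa; rw [up_left hab]; exact h.1
          · rw [up_of_ne hxa hxb]; exact hm x hxa hxb
      rw [if_pos h, if_pos h2]
      congr 1
      funext x
      by_cases hxb : x = b
      · subst hxb; rw [up_right, up_right]
      · by_cases hxa : x = a
        · subst hxa; rw [up_left hab, up_left hab]
        · rw [up_of_ne hxa hxb, up_of_ne hxa hxb]
    · rw [if_neg h, if_neg]
      intro h2
      apply h
      have ha := h2 a
      have hb := h2 b
      rw [up_left hab] at ha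
      rw [up_right] at hb
      exact ⟨ha, hb⟩
  rcases Nat.lt_or_ge (2 * Q) s with hsQ | hsQ
  · refine sum_eq_zero fun p hp => ?_
    rw [HasAntidiagonal.mem_antidiagonal] at hp
    rw [h1, if_neg (by omega), mul_zero]
  have h2 := hZ a b hab (2 * Q - s) (fun x => Q - m x)
  have h3 : ∀ p : ℕ × ℕ, ((p.2 : ℂ) - (p.1 : ℂ)) * c (up (fun x => Q - m x) a b p.1 p.2) =
      if p.1 ≤ Q ∧ p.2 ≤ Q then
        ((p.2 : ℂ) - (p.1 : ℂ)) * c (up (fun x => Q - m x) a b p.1 p.2) else 0 := by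
    intro p
    by_cases h : p.1 ≤ Q ∧ p.2 ≤ Q
    · rw [if_pos h]
    · rw [if_neg h]
      by_cases hc : c (up (fun x => Q - m x) a b p.1 p.2) = 0
      · rw [hc, mul_zero]
      · exfalso
        have h4 := hs _ hc
        apply h
        have ha := h4 a
        have hb := h4 b
        rw [up_left hab] at ha
        rw [up_right] at hb
        exact ⟨ha, hb⟩
  rw [sum_congr rfl fun p _ => h3 p, ← sum_filter] at h2
  have h5 : ∀ p : ℕ × ℕ, ((p.2 : ℂ) - (p.1 : ℂ)) * rev Q c (up m a b p.1 p.2) =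
      if p.1 ≤ Q ∧ p.2 ≤ Q then
        ((p.2 : ℂ) - (p.1 : ℂ)) * c (up (fun x => Q - m x) a b (Q - p.1) (Q - p.2)) else 0 := by
    intro p
    rw [h1, mul_ite, mul_zero]
  rw [sum_congr rfl fun p _ => h5 p, ← sum_filter]
  rw [← neg_eq_zero, ← h2, ← sum_neg_distrib]
  refine sum_nbij' (fun p => (Q - p.1, Q - p.2)) (fun p => (Q - p.1, Q - p.2)) ?_ ?_ ?_ ?_ ?_
  · intro p hp
    simp only [mem_filter, HasAntidiagonal.mem_antidiagonal] at hp ⊢
    omega
  · intro p hp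
    simp only [mem_filter, HasAntidiagonal.mem_antidiagonal] at hp ⊢
    omega
  · intro p hp
    simp only [mem_filter, HasAntidiagonal.mem_antidiagonal] at hp
    ext <;> simp only <;> omega
  · intro p hp
    simp only [mem_filter, HasAntidiagonal.mem_antidiagonal] at hp
    ext <;> simp only <;> omega
  · intro p hp
    simp only [mem_filter, HasAntidiagonal.mem_antidiagonal] at hp
    simp only
    rw [Nat.cast_sub hp.2.1, Nat.cast_sub hp.2.2]
    ring

end Rev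

theorem cf_supp (ν : ℕ → ℝ) (ψ : Fk (Fin (Q + 1))) {n : ℕ} (m : Fin n → ℕ)
    (h : cf ν ψ m ≠ 0) : ∀ a, m a ≤ Q := by
  intro a
  by_contra hlt
  apply h
  unfold cf
  have h0 : ev Q ν (m a) = 0 := by
    funext i
    have : (i : ℕ) ≠ m a := by omega
    simp [ev, this]
  have h1 : wd Q n (fun a => ev Q ν (m a)) = 0 :=
    (wd Q n).map_coord_zero a h0
  rw [h1]
  rfl

/-- **No zero modes with `K < 0`**: a nonzero component with occupation set `S` forces
`3 |S| ≤ Q + 3`. -/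
theorem card_le {ν : ℕ → ℝ} (hν : PosM ν Q) {ψ : Fk (Fin (Q + 1))} (hψ : ψ ∈ Zs ν Q)
    {S : Finset (Fin (Q + 1))} (hS : ψ S ≠ 0) : 3 * S.card ≤ Q + 3 := by
  classical
  have h1 := dom_enum hν hψ hS rfl univ
  have hne := dom_enum_ne hν hS rfl
  have h2 := dom (rev_anti (Q := Q) (cf_anti ν ψ S.card))
    (rev_zm (cf_supp ν ψ) (cf_zm hψ S.card))
    (m := fun a => Q - ((S.orderEmbOfFin rfl a : Fin (Q + 1)) : ℕ)) (by
      unfold rev
      rw [if_pos (fun a => Nat.sub_le _ _)]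
      have e : (fun a => Q - (Q - ((S.orderEmbOfFin rfl a : Fin (Q + 1)) : ℕ))) =
          fun a => ((S.orderEmbOfFin rfl a : Fin (Q + 1)) : ℕ) := by
        funext a
        have := (S.orderEmbOfFin rfl a).2
        omega
      rw [e]
      exact hne) univ
  rw [card_univ, Fintype.card_fin] at h1 h2
  have h3 : ∑ a : Fin S.card, (((S.orderEmbOfFin rfl a : Fin (Q + 1)) : ℕ) +
      (Q - ((S.orderEmbOfFin rfl a : Fin (Q + 1)) : ℕ))) = S.card * Q := by
    rw [sum_congr rfl fun a _ => by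
      show _ = Q
      have := (S.orderEmbOfFin rfl a).2
      omega]
    simp
  rw [sum_add_distrib] at h3
  rcases Nat.eq_zero_or_pos S.card with h0 | h0
  · omega
  · have h4 : 6 * (S.card * (S.card - 1)) ≤ 2 * (S.card * Q) := by
      rw [← h3]; omega
    have h5 : S.card * (3 * (S.card - 1)) ≤ S.card * Q := by
      have : S.card * (3 * (S.card - 1)) = 3 * (S.card * (S.card - 1)) := by ring
      omega
    have h6 := Nat.le_of_mul_le_mul_left h5 h0
    omega

/-- base case without the hypothesis `3 n ≤ Q + 3` -/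
theorem base_fock' {ν : ℕ → ℝ} (hν : PosM ν Q) {ψ : Fk (Fin (Q + 1))} (hψ : ψ ∈ Zs ν Q) {n : ℕ}
    (hN : ∀ S, ψ S ≠ 0 → S.card = n) {f : ℕ → ℝ} (hf : Cvx f) (hanti : Antitone f) :
    (((Q : ℝ) + 3 - 3 * n) * f Q - 2 * (f 0 - f Q)) * ‖ψ‖ ^ 2 ≤
      3 * (Scal725.cs f Q * ‖ψ‖ ^ 2 - (inner ℂ ψ (dGf f Q ψ) : ℂ).re) := by
  by_cases h : ∃ S, ψ S ≠ 0
  · obtain ⟨S, hS⟩ := h
    have h1 := card_le hν hψ hS
    rw [hN S hS] at h1
    exact base_fock hν hψ hN hf hanti h1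
  · push Not at h
    have h0 : ψ = 0 := by
      ext S
      exact h S
    subst h0
    have : dGf f Q (0 : Fk (Fin (Q + 1))) = 0 := (dGf f Q).ap.map_zero
    rw [this]
    simp

/-- no zero modes with more than `(Q + 3) / 3` particles -/
theorem eq_zero_of_card {ν : ℕ → ℝ} (hν : PosM ν Q) {ψ : Fk (Fin (Q + 1))} (hψ : ψ ∈ Zs ν Q)
    {n : ℕ} (hN : ∀ S, ψ S ≠ 0 → S.card = n) (hn : Q + 3 < 3 * n) : ψ = 0 := by
  ext S
  by_contra hS
  have h1 := card_le hν hψ hS
  rw [hN S hS] at h1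
  omega

end Crest.Agent.R340.DomF735
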