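import Mathlib

/-!
# Fermionic Fock space over a finite linearly ordered set of orbitals (helper649, R340)

`Fk ι = EuclideanSpace ℂ (Finset ι)`, annihilation operators `c i`, CAR, smeared operators,
one-body operators, diagonal second quantisation, pair annihilators.
-/

set_option autoImplicit false
set_option linter.unusedSectionVars false

namespace Crest.Agent.R340.Fock649

open Finset

variable {ι : Type*} [LinearOrder ι]

/-- Fock space. -/
abbrev Fk (ι : Type*) [Fintype ι] : Type _ := EuclideanSpace ℂ (Finset ι)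

/-- Operators on Fock space: a sealed copy of `Fk ι →L[ℂ] Fk ι`, with its C*-algebra structure
(sealed because `rw [star_add]`, `rw [add_smul]` ... fail on the abbreviation). Use `Op.ap A` (or just
`A v`, there is a function coercion) to apply, `Op.of` / `Op.ofLin` to build operators. -/
def Op (ι : Type*) [Fintype ι] : Type _ := Fk ι →L[ℂ] Fk ι

section OpInst
variable {κ : Type*} [Fintype κ]

noncomputable instance : CStarAlgebra (Op κ) := inferInstanceAs (CStarAlgebra (Fk κ →L[ℂ] Fk κ))
instance : FiniteDimensional ℂ (Op κ) := inferInstanceAs (FiniteDimensional ℂ (Fk κ →L[ℂ] Fk κ))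
instance : Nontrivial (Op κ) := inferInstanceAs (Nontrivial (Fk κ →L[ℂ] Fk κ))
noncomputable instance : PartialOrder (Op κ) := inferInstanceAs (PartialOrder (Fk κ →L[ℂ] Fk κ))
instance : StarOrderedRing (Op κ) := inferInstanceAs (StarOrderedRing (Fk κ →L[ℂ] Fk κ))

/-- the underlying continuous linear map -/
def Op.ap (A : Op κ) : Fk κ →L[ℂ] Fk κ := A

/-- operator from a continuous linear map -/
def Op.of (A : Fk κ →L[ℂ] Fk κ) : Op κ := A

/-- operator from a linear map -/
noncomputable def Op.ofLin (A : Fk κ →ₗ[ℂ] Fk κ) : Op κ := LinearMap.toContinuousLinearMap A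

noncomputable instance : CoeFun (Op κ) (fun _ => Fk κ → Fk κ) := ⟨fun A => Op.ap A⟩

theorem Op.ofLin_ap (A : Fk κ →ₗ[ℂ] Fk κ) (v : Fk κ) : (Op.ofLin A) v = A v := rfl
theorem Op.of_ap (A : Fk κ →L[ℂ] Fk κ) (v : Fk κ) : (Op.of A) v = A v := rfl
theorem mul_ap (A B : Op κ) (v : Fk κ) : (A * B) v = A (B v) := rfl
theorem add_ap (A B : Op κ) (v : Fk κ) : (A + B) v = A v + B v := rfl
theorem sub_ap (A B : Op κ) (v : Fk κ) : (A - B) v = A v - B v := rfl
theorem neg_ap (A : Op κ) (v : Fk κ) : (-A) v = -(A v) := rfl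
theorem smul_ap (a : ℂ) (B : Op κ) (v : Fk κ) : (a • B) v = a • B v := rfl
theorem zero_ap (v : Fk κ) : (0 : Op κ) v = 0 := rfl
theorem one_ap (v : Fk κ) : (1 : Op κ) v = v := rfl

theorem Op.ext {A B : Op κ} (h : ∀ v, A v = B v) : A = B :=
  ContinuousLinearMap.ext (f := A.ap) (g := B.ap) h

theorem sum_ap {σ : Type*} (s : Finset σ) (A : σ → Op κ) (v : Fk κ) :
    (∑ k ∈ s, A k) v = ∑ k ∈ s, A k v := by
  classical
  induction s using Finset.induction_on with
  | empty => simp [zero_ap]
  | insert a s ha ih => rw [Finset.sum_insert ha, Finset.sum_insert ha, add_ap, ih]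

theorem Op.norm_eq (A : Op κ) : ‖A‖ = ‖A.ap‖ := rfl

theorem Op.norm_ap_le (A : Op κ) (v : Fk κ) : ‖A v‖ ≤ ‖A‖ * ‖v‖ := A.ap.le_opNorm v

theorem Op.norm_le_of {A : Op κ} {M : ℝ} (hM : 0 ≤ M) (h : ∀ v, ‖A v‖ ≤ M * ‖v‖) : ‖A‖ ≤ M :=
  A.ap.opNorm_le_bound hM h

theorem Op.ap_star (A : Op κ) : (star A).ap = ContinuousLinearMap.adjoint A.ap := rfl

theorem inner_star_right (A : Op κ) (v w : Fk κ) : inner ℂ v (star A w) = inner ℂ (A v) w :=
  ContinuousLinearMap.adjoint_inner_right A.ap v w

theorem inner_star_left (A : Op κ) (v w : Fk κ) : inner ℂ (star A v) w = inner ℂ v (A w) :=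
  ContinuousLinearMap.adjoint_inner_left A.ap w v

theorem Op.nonneg_iff (A : Op κ) :
    0 ≤ A ↔ IsSelfAdjoint A ∧ ∀ v, 0 ≤ (inner ℂ v (A v) : ℂ).re := by
  have h1 : 0 ≤ A ↔ (A.ap).IsPositive := ContinuousLinearMap.nonneg_iff_isPositive A.ap
  rw [h1, ContinuousLinearMap.isPositive_def']
  have h2 : IsSelfAdjoint A.ap ↔ IsSelfAdjoint A := Iff.rfl
  rw [h2]
  refine and_congr_right fun _ => forall_congr' fun v => ?_
  rw [ContinuousLinearMap.reApplyInnerSelf_apply]
  have h3 : RCLike.re (inner ℂ (A v) v : ℂ) = (inner ℂ v (A v) : ℂ).re :=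
    inner_re_symm (𝕜 := ℂ) (A v) v
  rw [h3]

theorem Op.le_iff {A B : Op κ} (hA : IsSelfAdjoint A) (hB : IsSelfAdjoint B) :
    A ≤ B ↔ ∀ v, (inner ℂ v (A v) : ℂ).re ≤ (inner ℂ v (B v) : ℂ).re := by
  rw [← sub_nonneg, Op.nonneg_iff]
  simp only [hB.sub hA, true_and, sub_ap, inner_sub_right, Complex.sub_re, sub_nonneg]

/-- `⟪v, star A (A v)⟫ = ‖A v‖²` -/
theorem inner_star_mul_self (A : Op κ) (v : Fk κ) :
    inner ℂ v ((star A * A) v) = ((‖A v‖ : ℂ)) ^ 2 := by
  rw [mul_ap, inner_star_right, inner_self_eq_norm_sq_to_K]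
  rfl

end OpInst

/-- Jordan-Wigner sign. -/
noncomputable def sg (i : ι) (S : Finset ι) : ℂ := (-1) ^ (S.filter (· < i)).card

theorem sg_mul_self (i : ι) (S : Finset ι) : sg i S * sg i S = 1 := by
  unfold sg
  rw [← pow_add, ← two_mul, pow_mul]; norm_num

theorem sg_conj (i : ι) (S : Finset ι) : (starRingEnd ℂ) (sg i S) = sg i S := by
  unfold sg; simp

theorem norm_sg (i : ι) (S : Finset ι) : ‖sg i S‖ = 1 := by
  unfold sg; simp

theorem sg_insert_self (i : ι) (S : Finset ι) : sg i (insert i S) = sg i S := by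
  unfold sg
  rw [Finset.filter_insert, if_neg (lt_irrefl i)]

theorem sg_erase_self (i : ι) (S : Finset ι) : sg i (S.erase i) = sg i S := by
  unfold sg
  rw [Finset.filter_erase, Finset.erase_eq_of_notMem]
  simp

theorem sg_insert_of_lt {i j : ι} (h : j < i) {S : Finset ι} (hj : j ∉ S) :
    sg i (insert j S) = - sg i S := by
  unfold sg
  rw [Finset.filter_insert, if_pos h, Finset.card_insert_of_notMem (by simp [hj]), pow_succ]
  ring

theorem sg_insert_of_gt {i j : ι} (h : i < j) (S : Finset ι) :
    sg i (insert j S) = sg i S := by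
  unfold sg
  rw [Finset.filter_insert, if_neg (not_lt.2 h.le)]

theorem sg_erase_of_lt {i j : ι} (h : j < i) {S : Finset ι} (hj : j ∈ S) :
    sg i (S.erase j) = - sg i S := by
  have h1 := sg_insert_of_lt h (S := S.erase j) (by simp)
  rw [Finset.insert_erase hj] at h1
  rw [h1]; ring

theorem sg_erase_of_gt {i j : ι} (h : i < j) (S : Finset ι) :
    sg i (S.erase j) = sg i S := by
  unfold sg
  rw [Finset.filter_erase, Finset.erase_eq_of_notMem]
  simp [not_lt.2 h.le]

/-- exchange relation of the signs -/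
theorem sg_swap {i j : ι} (h : i ≠ j) {S : Finset ι} (hi : i ∉ S) (hj : j ∉ S) :
    sg i S * sg j (insert i S) = - (sg j S * sg i (insert j S)) := by
  rcases lt_or_gt_of_ne h with h | h
  · rw [sg_insert_of_lt h hi, sg_insert_of_gt h]; ring
  · rw [sg_insert_of_gt h, sg_insert_of_lt h hj]; ring

variable [Fintype ι]

/-- Occupation basis vector. -/
noncomputable def ket (S : Finset ι) : Fk ι := EuclideanSpace.single S (1 : ℂ)

/-- annihilation operator, as a linear map on coordinates -/
noncomputable def cLin (i : ι) : Fk ι →ₗ[ℂ] Fk ι where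
  toFun v := WithLp.toLp 2 fun T => if i ∈ T then 0 else sg i T * v (insert i T)
  map_add' v w := by
    ext T
    simp only [PiLp.add_apply]
    split_ifs <;> simp [mul_add]
  map_smul' a v := by
    ext T
    simp only [PiLp.smul_apply, smul_eq_mul, RingHom.id_apply]
    split_ifs
    · simp
    · ring

/-- creation operator, as a linear map on coordinates -/
noncomputable def dLin (i : ι) : Fk ι →ₗ[ℂ] Fk ι where
  toFun v := WithLp.toLp 2 fun T => if i ∈ T then sg i T * v (T.erase i) else 0
  map_add' v w := by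
    ext T
    simp only [PiLp.add_apply]
    split_ifs <;> simp [mul_add]
  map_smul' a v := by
    ext T
    simp only [PiLp.smul_apply, smul_eq_mul, RingHom.id_apply]
    split_ifs
    · ring
    · simp

/-- annihilation operator of orbital `i` -/
noncomputable def c (i : ι) : Op ι := Op.ofLin (cLin i)

/-- creation operator of orbital `i` (equal to `star (c i)`, see `star_c`) -/
noncomputable def d (i : ι) : Op ι := Op.ofLin (dLin i)

theorem c_apply (i : ι) (v : Fk ι) (T : Finset ι) :
    c i v T = if i ∈ T then 0 else sg i T * v (insert i T) := rfl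

theorem d_apply (i : ι) (v : Fk ι) (T : Finset ι) :
    d i v T = if i ∈ T then sg i T * v (T.erase i) else 0 := rfl

theorem ket_apply (S T : Finset ι) : ket S T = if T = S then 1 else 0 := by
  unfold ket
  rw [EuclideanSpace.single, PiLp.single_apply]

theorem c_ket (i : ι) (S : Finset ι) :
    c i (ket S) = if i ∈ S then sg i S • ket (S.erase i) else 0 := by
  ext T
  rw [c_apply]
  by_cases hS : i ∈ S
  · rw [if_pos hS]
    by_cases hT : i ∈ T
    · rw [if_pos hT]
      simp only [PiLp.smul_apply, smul_eq_mul, ket_apply]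
      rw [if_neg, mul_zero]
      rintro rfl
      simp at hT
    · rw [if_neg hT]
      simp only [PiLp.smul_apply, smul_eq_mul, ket_apply]
      by_cases h : insert i T = S
      · rw [if_pos h, if_pos (by rw [← h, Finset.erase_insert hT]), ← h, sg_insert_self]
      · rw [if_neg h, if_neg]
        · simp
        · rintro rfl
          exact h (Finset.insert_erase hS)
  · rw [if_neg hS]
    split_ifs with hT
    · rfl
    · rw [ket_apply, if_neg]
      · simp
      · rintro rfl
        simp at hS

theorem d_ket (i : ι) (S : Finset ι) :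
    d i (ket S) = if i ∈ S then 0 else sg i S • ket (insert i S) := by
  ext T
  rw [d_apply]
  by_cases hS : i ∈ S
  · rw [if_pos hS]
    split_ifs with hT
    · rw [ket_apply, if_neg]
      · simp
      · rintro rfl
        simp at hS
    · rfl
  · rw [if_neg hS]
    by_cases hT : i ∈ T
    · rw [if_pos hT]
      simp only [PiLp.smul_apply, smul_eq_mul, ket_apply]
      by_cases h : T.erase i = S
      · rw [if_pos h, if_pos (by rw [← h, Finset.insert_erase hT]), ← h, sg_erase_self]
      · rw [if_neg h, if_neg]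
        · simp
        · rintro rfl
          exact h (Finset.erase_insert hS)
    · rw [if_neg hT]
      simp only [PiLp.smul_apply, smul_eq_mul, ket_apply]
      rw [if_neg, mul_zero]
      rintro rfl
      simp at hT

/-- the creation operator is the adjoint of the annihilation operator -/
theorem star_c (i : ι) : star (c i) = d i := by
  symm
  refine (ContinuousLinearMap.eq_adjoint_iff (d i).ap (c i).ap).2 ?_
  intro v w
  rw [EuclideanSpace.inner_eq_star_dotProduct, EuclideanSpace.inner_eq_star_dotProduct]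
  unfold dotProduct
  have h1 : ∀ T : Finset ι, (c i w).ofLp T * star (v.ofLp) T =
      if i ∉ T then (sg i T * w (insert i T)) * star (v T) else 0 := by
    intro T
    rw [c_apply]
    by_cases h : i ∈ T <;> simp [h]
  have h2 : ∀ T : Finset ι, w.ofLp T * star ((d i v).ofLp) T =
      if i ∈ T then w T * star (sg i T * v (T.erase i)) else 0 := by
    intro T
    rw [Pi.star_apply, d_apply]
    by_cases h : i ∈ T <;> simp [h]
  rw [Finset.sum_congr rfl fun T _ => h2 T, Finset.sum_congr rfl fun T _ => h1 T]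
  rw [← Finset.sum_filter, ← Finset.sum_filter]
  refine Finset.sum_nbij' (fun T => T.erase i) (fun T => insert i T) ?_ ?_ ?_ ?_ ?_
  · intro T _; simp
  · intro T _; simp
  · intro T hT
    simp only [Finset.mem_filter, Finset.mem_univ, true_and] at hT
    exact Finset.insert_erase hT
  · intro T hT
    simp only [Finset.mem_filter, Finset.mem_univ, true_and] at hT
    exact Finset.erase_insert hT
  · intro T hT
    simp only [Finset.mem_filter, Finset.mem_univ, true_and] at hT
    rw [Finset.insert_erase hT, sg_erase_self, star_mul']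
    have : star (sg i T) = sg i T := sg_conj i T
    rw [this]
    ring

theorem star_d (i : ι) : star (d i) = c i := by
  rw [← star_c, star_star]

/-! ### CAR -/


theorem c_c (i j : ι) : c i * c j + c j * c i = 0 := by
  refine Op.ext fun v => ?_
  ext T
  simp only [add_ap, mul_ap, PiLp.add_apply, zero_ap, PiLp.zero_apply, c_apply]
  by_cases hij : i = j
  · subst hij
    by_cases hi : i ∈ T <;> simp [hi]
  · by_cases hi : i ∈ T
    · by_cases hj : j ∈ T <;> simp [hi, hj]
    · by_cases hj : j ∈ T
      · simp [hi, hj]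
      · have h1 : j ∉ insert i T := by simp [hj, Ne.symm hij]
        have h2 : i ∉ insert j T := by simp [hi, hij]
        simp only [hi, hj, h1, h2, if_false]
        rw [Finset.insert_comm j i T, ← mul_assoc, ← mul_assoc, sg_swap hij hi hj]
        ring

theorem c_d (i j : ι) : c i * d j + d j * c i = if i = j then 1 else 0 := by
  refine Op.ext fun v => ?_
  ext T
  simp only [add_ap, mul_ap, PiLp.add_apply, c_apply, d_apply]
  by_cases hij : i = j
  · subst hij
    by_cases hi : i ∈ T
    · simp only [hi, if_true, if_false, Finset.mem_erase, ne_eq, not_true_eq_false, false_and,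
        Finset.insert_erase hi, sg_erase_self, zero_add, one_ap]
      rw [← mul_assoc, sg_mul_self, one_mul]
    · simp only [hi, if_false, Finset.mem_insert_self, if_true, Finset.erase_insert hi,
        sg_insert_self, add_zero, one_ap]
      rw [← mul_assoc, sg_mul_self, one_mul]
  · rw [if_neg hij]
    simp only [zero_ap, PiLp.zero_apply]
    by_cases hi : i ∈ T
    · have h1 : i ∈ T.erase j := by simp [hi, hij]
      by_cases hj : j ∈ T <;> simp [hi, hj, h1]
    · by_cases hj : j ∈ T
      · have h1 : j ∈ insert i T := by simp [hj]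
        have h2 : i ∉ T.erase j := by simp [hi]
        simp only [hi, hj, h1, h2, if_false, if_true]
        have h3 : (insert i T).erase j = insert i (T.erase j) := by
          rw [Finset.erase_insert_of_ne hij]
        rw [h3, ← mul_assoc, ← mul_assoc]
        have h4 : sg i T * sg j (insert i T) = - (sg j T * sg i (T.erase j)) := by
          rcases lt_or_gt_of_ne hij with h | h
          · rw [sg_insert_of_lt h hi, sg_erase_of_gt h]; ring
          · rw [sg_insert_of_gt h, sg_erase_of_lt h hj]; ring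
        rw [h4]; ring
      · have h1 : j ∉ insert i T := by simp [hj, Ne.symm hij]
        simp [hi, hj, h1]

theorem d_d (i j : ι) : d i * d j + d j * d i = 0 := by
  have h : star (c i * c j + c j * c i) = star (0 : Op ι) := by rw [c_c]
  rw [star_add, star_mul, star_mul, star_c, star_c, star_zero] at h
  rw [add_comm]; exact h

theorem d_c (i j : ι) : d i * c j + c j * d i = if i = j then 1 else 0 := by
  rw [add_comm, c_d]
  by_cases h : i = j
  · simp [h]
  · simp [h, Ne.symm h]

theorem c_mul_self (i : ι) : c i * c i = 0 := by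
  have h := c_c i i
  rw [← two_smul ℂ] at h
  exact (smul_eq_zero.1 h).resolve_left (by norm_num)

theorem d_mul_self (i : ι) : d i * d i = 0 := by
  have h := d_d i i
  rw [← two_smul ℂ] at h
  exact (smul_eq_zero.1 h).resolve_left (by norm_num)

/-! ### Extensionality on kets -/

theorem fk_eq_sum (v : Fk ι) : v = ∑ S, v S • ket S := by
  ext T
  rw [WithLp.ofLp_sum, Finset.sum_apply]
  simp only [PiLp.smul_apply, smul_eq_mul, ket_apply]
  simp

theorem op_ext {A B : Op ι} (h : ∀ S, A (ket S) = B (ket S)) : A = B := by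
  refine Op.ext fun v => ?_
  rw [fk_eq_sum v, map_sum, map_sum]
  refine Finset.sum_congr rfl fun S _ => ?_
  rw [map_smul, map_smul, h]

theorem inner_ket (S : Finset ι) (v : Fk ι) : inner ℂ (ket S) v = v S := by
  unfold ket
  rw [EuclideanSpace.inner_single_left]; simp

theorem ket_orthonormal : Orthonormal ℂ (ket : Finset ι → Fk ι) := by
  rw [orthonormal_iff_ite]
  intro S T
  rw [inner_ket, ket_apply]

theorem norm_ket (S : Finset ι) : ‖ket S‖ = 1 := ket_orthonormal.1 S

/-! ### Diagonal operators -/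

/-- multiplication by a function of the occupation set -/
noncomputable def diagLin (f : Finset ι → ℂ) : Fk ι →ₗ[ℂ] Fk ι where
  toFun v := WithLp.toLp 2 fun T => f T * v T
  map_add' v w := by
    ext T
    simp [mul_add]
  map_smul' a v := by
    ext T
    simp only [PiLp.smul_apply, smul_eq_mul, RingHom.id_apply]
    ring

noncomputable def diag (f : Finset ι → ℂ) : Op ι := Op.ofLin (diagLin f)

theorem diag_apply (f : Finset ι → ℂ) (v : Fk ι) (T : Finset ι) : diag f v T = f T * v T := rfl

theorem diag_ket (f : Finset ι → ℂ) (S : Finset ι) : diag f (ket S) = f S • ket S := by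
  ext T
  rw [diag_apply]
  simp only [PiLp.smul_apply, smul_eq_mul, ket_apply]
  by_cases h : T = S
  · simp [h]
  · simp [h]

theorem diag_add (f g : Finset ι → ℂ) : diag (f + g) = diag f + diag g := by
  refine Op.ext fun v => ?_
  ext T
  simp [diag_apply, add_ap, add_mul]

theorem diag_mul (f g : Finset ι → ℂ) : diag (f * g) = diag f * diag g := by
  refine Op.ext fun v => ?_
  ext T
  simp [diag_apply, mul_ap, mul_assoc]

theorem diag_smul (a : ℂ) (f : Finset ι → ℂ) : diag (a • f) = a • diag f := by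
  refine Op.ext fun v => ?_
  ext T
  simp [diag_apply, smul_ap, mul_assoc]

theorem diag_one : diag (1 : Finset ι → ℂ) = 1 := by
  refine Op.ext fun v => ?_
  ext T
  simp [diag_apply, one_ap]

theorem star_diag (f : Finset ι → ℂ) : star (diag f) = diag (star f) := by
  symm
  refine (ContinuousLinearMap.eq_adjoint_iff (diag (star f)).ap (diag f).ap).2 ?_
  intro v w
  rw [EuclideanSpace.inner_eq_star_dotProduct, EuclideanSpace.inner_eq_star_dotProduct]
  unfold dotProduct
  refine Finset.sum_congr rfl fun T _ => ?_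
  simp only [Pi.star_apply, diag_apply, star_mul', star_star]
  ring

/-- occupation number -/
theorem d_mul_c (i : ι) : d i * c i = diag fun S => if i ∈ S then 1 else 0 := by
  refine Op.ext fun v => ?_
  ext T
  simp only [mul_ap, d_apply, c_apply, diag_apply]
  by_cases h : i ∈ T
  · simp only [h, if_true, Finset.mem_erase, ne_eq, not_true_eq_false, false_and, if_false,
      Finset.insert_erase h, sg_erase_self, one_mul]
    rw [← mul_assoc, sg_mul_self, one_mul]
  · simp [h]

/-! ### One-particle space, smeared operators -/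

/-- one-particle space -/
abbrev L (ι : Type*) [Fintype ι] : Type _ := EuclideanSpace ℂ ι

/-- annihilator of the one-particle vector `v` -/
noncomputable def an (v : L ι) : Op ι := ∑ i, (starRingEnd ℂ) (v i) • c i

/-- creator of the one-particle vector `v` -/
noncomputable def cr (v : L ι) : Op ι := ∑ i, v i • d i

theorem star_an (v : L ι) : star (an v) = cr v := by
  unfold an cr
  rw [star_sum]
  refine Finset.sum_congr rfl fun i _ => ?_
  rw [star_smul, star_c]
  simp

theorem star_cr (v : L ι) : star (cr v) = an v := by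
  rw [← star_an, star_star]

theorem cr_add (v w : L ι) : cr (v + w) = cr v + cr w := by
  simp [cr, add_smul, Finset.sum_add_distrib]

theorem cr_smul (a : ℂ) (v : L ι) : cr (a • v) = a • cr v := by
  simp [cr, Finset.smul_sum, smul_smul]

theorem cr_zero : cr (0 : L ι) = 0 := by
  simp [cr]

theorem cr_sub (v w : L ι) : cr (v - w) = cr v - cr w := by
  simp [cr, sub_smul, Finset.sum_sub_distrib]

theorem cr_sum {κ : Type*} (s : Finset κ) (v : κ → L ι) : cr (∑ k ∈ s, v k) = ∑ k ∈ s, cr (v k) := by
  classical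
  induction s using Finset.induction_on with
  | empty => simp [cr_zero]
  | insert a s ha ih => rw [Finset.sum_insert ha, Finset.sum_insert ha, cr_add, ih]

theorem an_add (v w : L ι) : an (v + w) = an v + an w := by
  simp [an, add_smul, Finset.sum_add_distrib]

theorem an_smul (a : ℂ) (v : L ι) : an (a • v) = (starRingEnd ℂ) a • an v := by
  simp [an, Finset.smul_sum, smul_smul]

theorem an_zero : an (0 : L ι) = 0 := by
  simp [an]

theorem an_sub (v w : L ι) : an (v - w) = an v - an w := by
  simp [an, sub_smul, Finset.sum_sub_distrib]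

theorem an_sum {κ : Type*} (s : Finset κ) (v : κ → L ι) : an (∑ k ∈ s, v k) = ∑ k ∈ s, an (v k) := by
  classical
  induction s using Finset.induction_on with
  | empty => simp [an_zero]
  | insert a s ha ih => rw [Finset.sum_insert ha, Finset.sum_insert ha, an_add, ih]

/-- the one-particle basis vector -/
noncomputable def e (i : ι) : L ι := EuclideanSpace.single i (1 : ℂ)

theorem e_apply (i j : ι) : e i j = if j = i then 1 else 0 := by
  unfold e
  rw [EuclideanSpace.single, PiLp.single_apply]

theorem cr_e (i : ι) : cr (e i) = d i := by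
  unfold cr
  simp [e_apply]

theorem an_e (i : ι) : an (e i) = c i := by
  unfold an
  simp [e_apply]

theorem an_an (v w : L ι) : an v * an w + an w * an v = 0 := by
  unfold an
  rw [Finset.sum_mul_sum, Finset.sum_mul_sum, Finset.sum_comm (s := univ) (t := univ)
    (f := fun i j => ((starRingEnd ℂ) (w i) • c i) * ((starRingEnd ℂ) (v j) • c j)),
    ← Finset.sum_add_distrib]
  refine Finset.sum_eq_zero fun i _ => ?_
  rw [← Finset.sum_add_distrib]
  refine Finset.sum_eq_zero fun j _ => ?_
  rw [smul_mul_smul_comm, smul_mul_smul_comm, mul_comm ((starRingEnd ℂ) (w j)), ← smul_add, c_c,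
    smul_zero]

theorem cr_cr (v w : L ι) : cr v * cr w + cr w * cr v = 0 := by
  have h : star (an w * an v + an v * an w) = star (0 : Op ι) := by rw [an_an]
  rw [star_add, star_mul, star_mul, star_an, star_an, star_zero] at h
  exact h

theorem inner_eq_sum (v w : L ι) : inner ℂ v w = ∑ i, (starRingEnd ℂ) (v i) * w i := by
  rw [PiLp.inner_apply]
  refine Finset.sum_congr rfl fun i _ => ?_
  rw [RCLike.inner_apply, mul_comm]

theorem an_cr (v w : L ι) : an v * cr w + cr w * an v = (inner ℂ v w : ℂ) • (1 : Op ι) := by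
  unfold an cr
  rw [Finset.sum_mul_sum, Finset.sum_mul_sum, Finset.sum_comm (s := univ) (t := univ)
    (f := fun i j => (w i • d i) * ((starRingEnd ℂ) (v j) • c j)),
    ← Finset.sum_add_distrib]
  have h1 : ∀ i, ∑ j, ((starRingEnd ℂ) (v i) • c i) * (w j • d j) +
      ∑ j, (w j • d j) * ((starRingEnd ℂ) (v i) • c i) = ((starRingEnd ℂ) (v i) * w i) • (1 : Op ι) := by
    intro i
    rw [← Finset.sum_add_distrib]
    have h2 : ∀ j, ((starRingEnd ℂ) (v i) • c i) * (w j • d j) +
        (w j • d j) * ((starRingEnd ℂ) (v i) • c i) =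
        ((starRingEnd ℂ) (v i) * w j) • (if i = j then (1 : Op ι) else 0) := by
      intro j
      rw [smul_mul_smul_comm, smul_mul_smul_comm, mul_comm (w j), ← smul_add, c_d]
    rw [Finset.sum_congr rfl fun j _ => h2 j]
    simp
  rw [Finset.sum_congr rfl fun i _ => h1 i, ← Finset.sum_smul, inner_eq_sum]

theorem cr_an (v w : L ι) : cr v * an w + an w * cr v = (inner ℂ w v : ℂ) • (1 : Op ι) := by
  rw [add_comm]; exact an_cr w v

theorem an_mul_self (v : L ι) : an v * an v = 0 := by
  have h := an_an v v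
  rw [← two_smul ℂ] at h
  exact (smul_eq_zero.1 h).resolve_left (by norm_num)

theorem cr_mul_self (v : L ι) : cr v * cr v = 0 := by
  have h := cr_cr v v
  rw [← two_smul ℂ] at h
  exact (smul_eq_zero.1 h).resolve_left (by norm_num)

/-- norm of a smeared annihilator -/
theorem norm_an (v : L ι) : ‖an v‖ = ‖v‖ := by
  have h1 : an v * cr v + cr v * an v = ((‖v‖ : ℂ) ^ 2) • (1 : Op ι) := by
    rw [an_cr, inner_self_eq_norm_sq_to_K]; rfl
  set P : Op ι := star (an v) * an v with hP
  have hPP : P * P = ((‖v‖ : ℂ) ^ 2) • P := by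
    have h2 : an v * cr v = ((‖v‖ : ℂ) ^ 2) • (1 : Op ι) - cr v * an v := by
      rw [← h1]; abel
    rw [hP, star_an, mul_assoc, ← mul_assoc (an v), h2, sub_mul, smul_mul_assoc, one_mul,
      mul_assoc (cr v) (an v) (an v), an_mul_self, mul_zero, sub_zero, mul_smul_comm]
  have hn : ‖P‖ * ‖P‖ = ‖v‖ ^ 2 * ‖P‖ := by
    have hs : star P = P := by rw [hP, star_mul, star_star]
    have h3 : ‖star P * P‖ = ‖P‖ * ‖P‖ := CStarRing.norm_star_mul_self
    rw [hs, hPP, norm_smul] at h3
    rw [← h3]
    simp
  have hPn : ‖P‖ = ‖an v‖ * ‖an v‖ := CStarRing.norm_star_mul_self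
  by_cases hv : v = 0
  · subst hv; simp [an_zero]
  have hvn : 0 < ‖v‖ := norm_pos_iff.2 hv
  have hP0 : ‖P‖ ≠ 0 := by
    intro h0
    have h4 : ‖an v‖ = 0 := by
      rw [hPn] at h0
      exact mul_self_eq_zero.1 h0
    have h5 : an v = 0 := norm_eq_zero.1 h4
    have h6 : cr v = 0 := by rw [← star_an, h5, star_zero]
    rw [h5, h6] at h1
    simp only [mul_zero, add_zero] at h1
    have h7 : ((‖v‖ : ℂ) ^ 2) ≠ 0 := by
      apply pow_ne_zero; exact_mod_cast hvn.ne'
    exact (smul_ne_zero h7 one_ne_zero) h1.symm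
  have h8 : ‖P‖ = ‖v‖ ^ 2 := mul_right_cancel₀ hP0 hn
  have h9 : ‖an v‖ ^ 2 = ‖v‖ ^ 2 := by rw [sq, ← hPn, h8]
  exact (sq_eq_sq₀ (norm_nonneg _) (norm_nonneg _)).1 h9

theorem norm_cr (v : L ι) : ‖cr v‖ = ‖v‖ := by
  rw [← star_an, norm_star, norm_an]

theorem norm_e (i : ι) : ‖e i‖ = 1 := by
  unfold e; simp

theorem norm_c (i : ι) : ‖(c i : Op ι)‖ = 1 := by
  rw [← an_e, norm_an, norm_e]

theorem norm_d (i : ι) : ‖(d i : Op ι)‖ = 1 := by
  rw [← cr_e, norm_cr, norm_e]

/-! ### One-body operators -/

/-- action of a one-particle matrix -/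
noncomputable def mv (A : Matrix ι ι ℂ) (v : L ι) : L ι := WithLp.toLp 2 (A.mulVec v.ofLp)

theorem mv_apply (A : Matrix ι ι ℂ) (v : L ι) (i : ι) : mv A v i = ∑ j, A i j * v j := rfl

/-- second quantisation of a one-particle matrix -/
noncomputable def dG (A : Matrix ι ι ℂ) : Op ι := ∑ i, ∑ j, A i j • (d i * c j)

theorem dG_add (A B : Matrix ι ι ℂ) : dG (A + B) = dG A + dG B := by
  simp only [dG, Matrix.add_apply, add_smul, Finset.sum_add_distrib]

theorem dG_smul (a : ℂ) (A : Matrix ι ι ℂ) : dG (a • A) = a • dG A := by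
  simp only [dG, Matrix.smul_apply, smul_eq_mul, ← smul_smul, Finset.smul_sum]

theorem dG_zero : dG (0 : Matrix ι ι ℂ) = 0 := by
  simp [dG]

theorem dG_sub (A B : Matrix ι ι ℂ) : dG (A - B) = dG A - dG B := by
  simp only [dG, Matrix.sub_apply, sub_smul, Finset.sum_sub_distrib]

theorem dG_neg (A : Matrix ι ι ℂ) : dG (-A) = - dG A := by
  rw [← zero_sub, dG_sub, dG_zero, zero_sub]

theorem star_dG (A : Matrix ι ι ℂ) : star (dG A) = dG A.conjTranspose := by
  simp only [dG, star_sum, star_smul, star_mul, star_c, star_d, Matrix.conjTranspose_apply]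
  rw [Finset.sum_comm]

theorem dc_d (i j k : ι) : d i * c j * d k - d k * (d i * c j) = if j = k then d i else 0 := by
  have h1 : c j * d k = (if j = k then (1 : Op ι) else 0) - d k * c j := by
    rw [← c_d j k]; abel
  have h2 : d k * d i = - (d i * d k) := by
    rw [eq_neg_iff_add_eq_zero]; exact d_d k i
  rw [mul_assoc, h1, mul_sub, ← mul_assoc (d k), h2]
  split_ifs
  · rw [mul_one, neg_mul, mul_assoc]; abel
  · rw [mul_zero, neg_mul, mul_assoc]; abel

theorem dc_c (i j k : ι) : d i * c j * c k - c k * (d i * c j) = - if i = k then c j else 0 := by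
  have h1 : c k * d i = (if k = i then (1 : Op ι) else 0) - d i * c k := by
    rw [← c_d k i]; abel
  have h2 : c k * c j = - (c j * c k) := by
    rw [eq_neg_iff_add_eq_zero]; exact c_c k j
  rw [← mul_assoc (c k), h1, sub_mul, mul_assoc (d i) (c k), h2]
  by_cases h : i = k
  · simp [h, mul_assoc]
  · simp [h, Ne.symm h, mul_assoc]

theorem dG_comm_d (A : Matrix ι ι ℂ) (k : ι) : dG A * d k - d k * dG A = ∑ i, A i k • d i := by
  unfold dG
  rw [Finset.sum_mul, Finset.mul_sum, ← Finset.sum_sub_distrib]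
  refine Finset.sum_congr rfl fun i _ => ?_
  rw [Finset.sum_mul, Finset.mul_sum, ← Finset.sum_sub_distrib]
  have h : ∀ j, A i j • (d i * c j) * d k - d k * A i j • (d i * c j) =
      A i j • (if j = k then d i else 0) := by
    intro j
    rw [smul_mul_assoc, mul_smul_comm, ← smul_sub, dc_d]
  rw [Finset.sum_congr rfl fun j _ => h j]
  simp

theorem dG_comm_c (A : Matrix ι ι ℂ) (k : ι) : dG A * c k - c k * dG A = - ∑ j, A k j • c j := by
  unfold dG
  rw [Finset.sum_mul, Finset.mul_sum, ← Finset.sum_sub_distrib]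
  have h0 : ∀ i, (∑ j, A i j • (d i * c j)) * c k - c k * (∑ j, A i j • (d i * c j)) =
      - ∑ j, if i = k then A i j • c j else 0 := by
    intro i
    rw [Finset.sum_mul, Finset.mul_sum, ← Finset.sum_sub_distrib, ← Finset.sum_neg_distrib]
    refine Finset.sum_congr rfl fun j _ => ?_
    rw [smul_mul_assoc, mul_smul_comm, ← smul_sub, dc_c]
    split_ifs <;> simp
  rw [Finset.sum_congr rfl fun i _ => h0 i, Finset.sum_neg_distrib, Finset.sum_comm]
  simp

theorem dG_comm_cr (A : Matrix ι ι ℂ) (v : L ι) : dG A * cr v - cr v * dG A = cr (mv A v) := by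
  have h : dG A * cr v - cr v * dG A = ∑ k, v k • (dG A * d k - d k * dG A) := by
    unfold cr
    rw [Finset.mul_sum, Finset.sum_mul, ← Finset.sum_sub_distrib]
    refine Finset.sum_congr rfl fun k _ => ?_
    rw [mul_smul_comm, smul_mul_assoc, smul_sub]
  rw [h]
  simp only [dG_comm_d, Finset.smul_sum, smul_smul]
  rw [Finset.sum_comm]
  unfold cr
  refine Finset.sum_congr rfl fun i _ => ?_
  rw [mv_apply, Finset.sum_smul]
  refine Finset.sum_congr rfl fun j _ => ?_
  rw [mul_comm]

theorem dG_comm_an (A : Matrix ι ι ℂ) (v : L ι) :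
    dG A * an v - an v * dG A = - an (mv A.conjTranspose v) := by
  have h := dG_comm_cr A.conjTranspose v
  have h2 := congrArg star h
  rw [star_sub, star_mul, star_mul, star_cr, star_cr, star_dG, Matrix.conjTranspose_conjTranspose]
    at h2
  rw [← h2]; abel

theorem dG_comm_dc (A : Matrix ι ι ℂ) (k l : ι) :
    dG A * (d k * c l) - (d k * c l) * dG A =
      (∑ i, A i k • (d i * c l)) - ∑ j, A l j • (d k * c j) := by
  have h : dG A * (d k * c l) - (d k * c l) * dG A =
      (dG A * d k - d k * dG A) * c l + d k * (dG A * c l - c l * dG A) := by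
    noncomm_ring
  rw [h, dG_comm_d, dG_comm_c, Finset.sum_mul, mul_neg, Finset.mul_sum, ← sub_eq_add_neg]
  simp only [smul_mul_assoc, mul_smul_comm]

theorem dG_comm (A B : Matrix ι ι ℂ) : dG A * dG B - dG B * dG A = dG (A * B - B * A) := by
  have h : dG A * dG B - dG B * dG A =
      ∑ k, ∑ l, B k l • (dG A * (d k * c l) - (d k * c l) * dG A) := by
    conv_lhs => rw [show dG B = ∑ k, ∑ l, B k l • (d k * c l) from rfl]
    rw [Finset.mul_sum, Finset.sum_mul, ← Finset.sum_sub_distrib]
    refine Finset.sum_congr rfl fun k _ => ?_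
    rw [Finset.mul_sum, Finset.sum_mul, ← Finset.sum_sub_distrib]
    refine Finset.sum_congr rfl fun l _ => ?_
    rw [mul_smul_comm, smul_mul_assoc, smul_sub]
  rw [h, dG_sub]
  simp only [dG_comm_dc, smul_sub, Finset.sum_sub_distrib]
  congr 1
  · unfold dG
    simp only [Matrix.mul_apply, Finset.smul_sum, Finset.sum_smul, smul_smul]
    -- ∑ k, ∑ l, ∑ i, (B k l * A i k) • (d i * c l) = ∑ i, ∑ l, ∑ k, (A i k * B k l) • (d i * c l)
    rw [Finset.sum_comm]
    conv_lhs => enter [2, l]; rw [Finset.sum_comm]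
    rw [Finset.sum_comm]
    refine Finset.sum_congr rfl fun i _ => Finset.sum_congr rfl fun l _ =>
      Finset.sum_congr rfl fun k _ => ?_
    rw [mul_comm]
  · unfold dG
    simp only [Matrix.mul_apply, Finset.smul_sum, Finset.sum_smul, smul_smul]
    refine Finset.sum_congr rfl fun k _ => ?_
    rw [Finset.sum_comm]

theorem dG_diagonal (f : ι → ℂ) : dG (Matrix.diagonal f) = diag fun S => ∑ i ∈ S, f i := by
  unfold dG
  have h : ∀ i, (∑ j, Matrix.diagonal f i j • (d i * c j)) =
      diag fun S => if i ∈ S then f i else 0 := by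
    intro i
    rw [Finset.sum_eq_single i]
    · rw [Matrix.diagonal_apply_eq, d_mul_c, ← diag_smul]
      congr 1
      funext S
      simp
    · intro j _ hj
      rw [Matrix.diagonal_apply_ne _ (Ne.symm hj), zero_smul]
    · simp
  rw [Finset.sum_congr rfl fun i _ => h i]
  refine Op.ext fun v => ?_
  ext T
  rw [sum_ap, diag_apply]
  simp only [WithLp.ofLp_sum, Finset.sum_apply, diag_apply]
  rw [← Finset.sum_mul]
  congr 1
  rw [← Finset.sum_filter]
  congr 1
  ext i; simp

theorem dG_diagonal_ket (f : ι → ℂ) (S : Finset ι) :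
    dG (Matrix.diagonal f) (ket S) = (∑ i ∈ S, f i) • ket S := by
  rw [dG_diagonal, diag_ket]

/-- number operator -/
noncomputable def Nh : Op ι := dG (1 : Matrix ι ι ℂ)

theorem Nh_eq : (Nh : Op ι) = diag fun S => (S.card : ℂ) := by
  unfold Nh
  rw [← Matrix.diagonal_one, dG_diagonal]
  congr 1
  funext S
  simp

theorem Nh_ket (S : Finset ι) : Nh (ket S) = (S.card : ℂ) • ket S := by
  rw [Nh_eq, diag_ket]

theorem mv_one (v : L ι) : mv 1 v = v := by
  unfold mv; simp

theorem Nh_comm_cr (v : L ι) : Nh * cr v - cr v * Nh = cr v := by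
  unfold Nh; rw [dG_comm_cr, mv_one]

theorem Nh_comm_an (v : L ι) : Nh * an v - an v * Nh = - an v := by
  unfold Nh; rw [dG_comm_an, Matrix.conjTranspose_one, mv_one]

theorem Nh_comm_dG (A : Matrix ι ι ℂ) : Nh * dG A = dG A * Nh := by
  rw [← sub_eq_zero]
  unfold Nh
  rw [dG_comm]
  simp [dG_zero]

/-! ### Diagonal second quantisation -/

/-- multiplicative second quantisation of the diagonal matrix `u` -/
noncomputable def Gd (u : ι → ℂ) : Op ι := diag fun S => ∏ i ∈ S, u i

theorem Gd_ket (u : ι → ℂ) (S : Finset ι) : Gd u (ket S) = (∏ i ∈ S, u i) • ket S := diag_ket _ _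

theorem Gd_mul (u v : ι → ℂ) : Gd (u * v) = Gd u * Gd v := by
  unfold Gd
  rw [← diag_mul]
  congr 1
  funext S
  simp [Finset.prod_mul_distrib]

theorem Gd_one : Gd (1 : ι → ℂ) = 1 := by
  unfold Gd
  rw [← diag_one]
  congr 1
  funext S
  simp

theorem star_Gd (u : ι → ℂ) : star (Gd u) = Gd (star u) := by
  unfold Gd
  rw [star_diag]
  congr 1
  funext S
  simp

theorem Gd_mul_d (u : ι → ℂ) (i : ι) : Gd u * d i = u i • (d i * Gd u) := by
  refine op_ext fun S => ?_
  rw [mul_ap, smul_ap, mul_ap, Gd_ket, d_ket, map_smul, d_ket]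
  split_ifs with h
  · simp
  · rw [map_smul, Gd_ket, Finset.prod_insert h, smul_smul, smul_smul, smul_smul]
    congr 1; ring

theorem c_mul_Gd (u : ι → ℂ) (i : ι) : c i * Gd u = u i • (Gd u * c i) := by
  refine op_ext fun S => ?_
  rw [mul_ap, smul_ap, mul_ap, Gd_ket, c_ket, map_smul, c_ket]
  split_ifs with h
  · rw [map_smul, Gd_ket, ← Finset.mul_prod_erase S u h, smul_smul, smul_smul, smul_smul]
    congr 1; ring
  · simp

theorem Gd_mul_cr (u : ι → ℂ) (v : L ι) :
    Gd u * cr v = cr (WithLp.toLp 2 fun i => u i * v i) * Gd u := by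
  unfold cr
  rw [Finset.mul_sum, Finset.sum_mul]
  refine Finset.sum_congr rfl fun i _ => ?_
  rw [mul_smul_comm, Gd_mul_d, smul_smul, smul_mul_assoc, mul_comm]

theorem an_mul_Gd (u : ι → ℂ) (v : L ι) :
    an v * Gd u = Gd u * an (WithLp.toLp 2 fun i => (starRingEnd ℂ) (u i) * v i) := by
  unfold an
  rw [Finset.mul_sum, Finset.sum_mul]
  refine Finset.sum_congr rfl fun i _ => ?_
  rw [mul_smul_comm, smul_mul_assoc, c_mul_Gd, smul_smul]
  simp [mul_comm]

/-! ### Pair annihilators -/

/-- pair annihilator of the two-particle tensor `w` -/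
noncomputable def pa (w : Matrix ι ι ℂ) : Op ι :=
  ((Real.sqrt 2 : ℂ)⁻¹) • ∑ i, ∑ j, (starRingEnd ℂ) (w i j) • (c j * c i)

theorem pa_add (w w' : Matrix ι ι ℂ) : pa (w + w') = pa w + pa w' := by
  simp only [pa, Matrix.add_apply, map_add, add_smul, Finset.sum_add_distrib, smul_add]

theorem pa_smul (a : ℂ) (w : Matrix ι ι ℂ) : pa (a • w) = (starRingEnd ℂ) a • pa w := by
  simp only [pa, Matrix.smul_apply, smul_eq_mul, map_mul, ← smul_smul, ← Finset.smul_sum]
  rw [smul_comm]

theorem cc_cc (i j k l : ι) : (c i * c j) * (c k * c l) = (c k * c l) * (c i * c j) := by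
  have h1 : ∀ a b : ι, c a * c b = - (c b * c a) := by
    intro a b
    rw [eq_neg_iff_add_eq_zero]; exact c_c a b
  calc (c i * c j) * (c k * c l) = c i * (c j * c k) * c l := by noncomm_ring
    _ = - (c i * c k) * (c j * c l) := by rw [h1 j k]; noncomm_ring
    _ = (c k * c i) * (c j * c l) := by rw [h1 i k, neg_neg]
    _ = - (c k * c i) * (c l * c j) := by rw [h1 j l]; noncomm_ring
    _ = - c k * (c i * c l) * c j := by noncomm_ring
    _ = (c k * c l) * (c i * c j) := by rw [h1 i l]; noncomm_ring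

theorem pa_comm (w w' : Matrix ι ι ℂ) : pa w * pa w' = pa w' * pa w := by
  unfold pa
  rw [smul_mul_smul_comm, smul_mul_smul_comm]
  congr 1
  have h : ∀ x y : Matrix ι ι ℂ,
      (∑ i, ∑ j, (starRingEnd ℂ) (x i j) • (c j * c i)) *
        (∑ k, ∑ l, (starRingEnd ℂ) (y k l) • (c l * c k)) =
      ∑ k, ∑ l, ∑ i, ∑ j, ((starRingEnd ℂ) (x i j) * (starRingEnd ℂ) (y k l)) •
        ((c j * c i) * (c l * c k)) := by
    intro x y
    simp only [Finset.sum_mul, Finset.mul_sum, smul_mul_smul_comm]
  rw [h, h]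
  have h2 : ∀ f : ι → ι → ι → ι → Op ι,
      (∑ i, ∑ j, ∑ k, ∑ l, f i j k l) = ∑ k, ∑ l, ∑ i, ∑ j, f i j k l := by
    intro f
    have e1 : ∀ i, (∑ j, ∑ k, ∑ l, f i j k l) = ∑ k, ∑ l, ∑ j, f i j k l := by
      intro i
      rw [Finset.sum_comm]
      refine Finset.sum_congr rfl fun k _ => ?_
      rw [Finset.sum_comm]
    rw [Finset.sum_congr rfl fun i _ => e1 i, Finset.sum_comm]
    refine Finset.sum_congr rfl fun k _ => ?_
    rw [Finset.sum_comm]
  rw [h2]
  refine Finset.sum_congr rfl fun i _ => Finset.sum_congr rfl fun j _ =>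
    Finset.sum_congr rfl fun k _ => Finset.sum_congr rfl fun l _ => ?_
  rw [cc_cc, mul_comm]

theorem dG_comm_cc (A : Matrix ι ι ℂ) (i j : ι) :
    dG A * (c j * c i) - (c j * c i) * dG A =
      - (∑ k, A j k • (c k * c i)) - ∑ k, A i k • (c j * c k) := by
  have h : dG A * (c j * c i) - (c j * c i) * dG A =
      (dG A * c j - c j * dG A) * c i + c j * (dG A * c i - c i * dG A) := by
    noncomm_ring
  rw [h, dG_comm_c, dG_comm_c, neg_mul, mul_neg, Finset.sum_mul, Finset.mul_sum, ← sub_eq_add_neg]
  simp only [smul_mul_assoc, mul_smul_comm]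

theorem dG_comm_pa (A w : Matrix ι ι ℂ) :
    dG A * pa w - pa w * dG A = - pa (A.conjTranspose * w + w * A.map (starRingEnd ℂ)) := by
  have h : dG A * pa w - pa w * dG A = ((Real.sqrt 2 : ℂ)⁻¹) •
      ∑ i, ∑ j, (starRingEnd ℂ) (w i j) • (dG A * (c j * c i) - (c j * c i) * dG A) := by
    unfold pa
    rw [mul_smul_comm, smul_mul_assoc, ← smul_sub]
    congr 1
    rw [Finset.mul_sum, Finset.sum_mul, ← Finset.sum_sub_distrib]
    refine Finset.sum_congr rfl fun i _ => ?_
    rw [Finset.mul_sum, Finset.sum_mul, ← Finset.sum_sub_distrib]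
    refine Finset.sum_congr rfl fun j _ => ?_
    rw [mul_smul_comm, smul_mul_assoc, smul_sub]
  rw [h]
  simp only [dG_comm_cc]
  unfold pa
  rw [← smul_neg]
  congr 1
  have h1 : ∀ i j : ι, (starRingEnd ℂ) (w i j) •
      (-(∑ k, A j k • (c k * c i)) - ∑ k, A i k • (c j * c k)) =
      -(∑ k, ((starRingEnd ℂ) (w i j) * A j k) • (c k * c i)) -
        ∑ k, ((starRingEnd ℂ) (w i j) * A i k) • (c j * c k) := by
    intro i j
    rw [smul_sub, smul_neg, Finset.smul_sum, Finset.smul_sum]
    simp only [smul_smul]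
  simp only [h1, Finset.sum_sub_distrib, Finset.sum_neg_distrib]
  simp only [Matrix.add_apply, map_add, add_smul, Finset.sum_add_distrib, neg_add]
  rw [add_comm (-∑ i, ∑ j, (starRingEnd ℂ) ((A.conjTranspose * w) i j) • (c j * c i)),
    sub_eq_add_neg]
  congr 1
  · congr 1
    refine Finset.sum_congr rfl fun i _ => ?_
    rw [Finset.sum_comm]
    refine Finset.sum_congr rfl fun k _ => ?_
    rw [← Finset.sum_smul]
    congr 1
    rw [Matrix.mul_apply, map_sum]
    refine Finset.sum_congr rfl fun j _ => ?_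
    simp
  · congr 1
    -- ∑ i, ∑ j, ∑ k, (conj w i j * A i k) • (c j * c k) = ∑ k, ∑ j, conj((Aᴴ w) k j) • (c j * c k)
    have h3 : ∀ f : ι → ι → ι → Op ι, (∑ i, ∑ j, ∑ k, f i j k) = ∑ k, ∑ j, ∑ i, f i j k := by
      intro f
      rw [Finset.sum_comm]
      conv_lhs => enter [2, j]; rw [Finset.sum_comm]
      rw [Finset.sum_comm]
    rw [h3]
    refine Finset.sum_congr rfl fun k _ => Finset.sum_congr rfl fun j _ => ?_
    rw [← Finset.sum_smul]
    congr 1
    rw [Matrix.mul_apply, map_sum]
    refine Finset.sum_congr rfl fun i _ => ?_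
    simp [Matrix.conjTranspose_apply, mul_comm]

end Crest.Agent.R340.Fock649
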