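import Crest.Agent.R340.Br_320
import Crest.Agent.R340.Fock_649

/-!
# Bridge between N-particle coefficient functions and Fock space (helper320, R340)
-/

set_option autoImplicit false

open Crest.MathPhysics.Laughlin
open scoped BigOperators

namespace Crest.Agent.R340.Br320

open Fock649

/-- The pair tensor `w_p` as a complex matrix. -/
noncomputable def wM (Q : ℕ) (p : Fin (2 * Q - 1)) : Matrix (Fin (Q + 1)) (Fin (Q + 1)) ℂ :=
  fun i j => (pairVec Q p i j : ℂ)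

theorem wM_apply (Q : ℕ) (p : Fin (2 * Q - 1)) (i j : Fin (Q + 1)) :
    wM Q p i j = (pairVec Q p i j : ℂ) := rfl

/-- The pair annihilator `B_p`. -/
noncomputable def Bp (Q : ℕ) (p : Fin (2 * Q - 1)) : Op (Fin (Q + 1)) := pa (wM Q p)

/-- The Hamiltonian on Fock space. -/
noncomputable def HH (Q : ℕ) : Op (Fin (Q + 1)) := ∑ p, star (Bp Q p) * Bp Q p

section Sector

variable {κ : Type*} [Fintype κ]

/-- The `N`-particle sector. -/
def sector (κ : Type*) [Fintype κ] (N : ℕ) : Submodule ℂ (Fk κ) where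
  carrier := {v | ∀ S : Finset κ, S.card ≠ N → v S = 0}
  add_mem' := by
    intro v w hv hw S hS
    rw [PiLp.add_apply, hv S hS, hw S hS, add_zero]
  zero_mem' := by
    intro S _
    rfl
  smul_mem' := by
    intro a v hv S hS
    rw [PiLp.smul_apply, hv S hS, smul_zero]

theorem mem_sector {N : ℕ} {v : Fk κ} : v ∈ sector κ N ↔ ∀ S : Finset κ, S.card ≠ N → v S = 0 :=
  Iff.rfl

theorem inner_eq_zero_of_sector {M N : ℕ} (h : M ≠ N) {v w : Fk κ} (hv : v ∈ sector κ M)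
    (hw : w ∈ sector κ N) : (inner ℂ v w : ℂ) = 0 := by
  rw [PiLp.inner_apply]
  refine Finset.sum_eq_zero fun S _ => ?_
  by_cases hS : S.card = M
  · rw [hw S (by omega)]; simp
  · rw [hv S hS]; simp

/-- The component of a vector in the sector `N`. -/
noncomputable def comp (N : ℕ) (v : Fk κ) : Fk κ :=
  WithLp.toLp 2 fun S => if S.card = N then v S else 0

theorem comp_apply (N : ℕ) (v : Fk κ) (S : Finset κ) :
    comp N v S = if S.card = N then v S else 0 := rfl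

theorem comp_mem (N : ℕ) (v : Fk κ) : comp N v ∈ sector κ N := by
  intro S hS
  rw [comp_apply, if_neg hS]

theorem sum_comp (v : Fk κ) : ∑ N ∈ Finset.range (Fintype.card κ + 1), comp N v = v := by
  ext S
  simp only [WithLp.ofLp_sum, Finset.sum_apply, comp_apply]
  rw [Finset.sum_ite_eq]
  rw [if_pos]
  rw [Finset.mem_range]
  have := Finset.card_le_univ S
  omega

end Sector

section Ord

variable {ι : Type*} [LinearOrder ι] [Fintype ι]

theorem ket_mem_sector (S : Finset ι) : ket S ∈ sector ι S.card := by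
  intro T hT
  rw [ket_apply, if_neg]
  rintro rfl
  exact hT rfl

theorem mem_sector_iff_Nh {N : ℕ} {v : Fk ι} : v ∈ sector ι N ↔ Nh v = (N : ℂ) • v := by
  rw [Nh_eq]
  constructor
  · intro hv
    ext S
    rw [diag_apply, PiLp.smul_apply, smul_eq_mul]
    by_cases hS : S.card = N
    · rw [hS]
    · rw [hv S hS]; simp
  · intro h S hS
    have h1 : (S.card : ℂ) * v S = (N : ℂ) * v S := by
      have := congrArg (fun w : Fk ι => w S) h
      simpa [diag_apply] using this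
    have h2 : ((S.card : ℂ) - N) * v S = 0 := by linear_combination h1
    rcases mul_eq_zero.1 h2 with h3 | h3
    · exact absurd (by exact_mod_cast sub_eq_zero.1 h3) hS
    · exact h3

theorem c_mem_sector {N : ℕ} {v : Fk ι} (hv : v ∈ sector ι (N + 1)) (i : ι) :
    c i v ∈ sector ι N := by
  intro S hS
  rw [c_apply]
  split_ifs with hi
  · rfl
  · rw [hv, mul_zero]
    rw [Finset.card_insert_of_notMem hi]
    omega

theorem c_sector_zero {v : Fk ι} (hv : v ∈ sector ι 0) (i : ι) : c i v = 0 := by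
  ext S
  rw [c_apply]
  split_ifs with hi
  · rfl
  · rw [hv, mul_zero]
    · rfl
    · rw [Finset.card_insert_of_notMem hi]
      omega

theorem d_mem_sector {N : ℕ} {v : Fk ι} (hv : v ∈ sector ι N) (i : ι) :
    d i v ∈ sector ι (N + 1) := by
  intro S hS
  rw [d_apply]
  split_ifs with hi
  · rw [hv, mul_zero]
    rw [Finset.card_erase_of_mem hi]
    have := Finset.card_pos.2 ⟨i, hi⟩
    omega
  · rfl

theorem dG_ap (A : Matrix ι ι ℂ) (v : Fk ι) : dG A v = ∑ i, ∑ j, A i j • d i (c j v) := by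
  unfold dG
  rw [sum_ap]
  refine Finset.sum_congr rfl fun i _ => ?_
  rw [sum_ap]
  refine Finset.sum_congr rfl fun j _ => ?_
  rw [smul_ap, mul_ap]

theorem inner_dG (A : Matrix ι ι ℂ) (v w : Fk ι) :
    (inner ℂ v (dG A w) : ℂ) = ∑ i, ∑ j, A i j * inner ℂ (c i v) (c j w) := by
  rw [dG_ap, inner_sum]
  refine Finset.sum_congr rfl fun i _ => ?_
  rw [inner_sum]
  refine Finset.sum_congr rfl fun j _ => ?_
  rw [inner_smul_right, ← star_c, inner_star_right]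

theorem dG_mem_sector {N : ℕ} {v : Fk ι} (hv : v ∈ sector ι N) (A : Matrix ι ι ℂ) :
    dG A v ∈ sector ι N := by
  rw [dG_ap]
  refine Submodule.sum_mem _ fun i _ => Submodule.sum_mem _ fun j _ => Submodule.smul_mem _ _ ?_
  rcases N with _ | N
  · rw [c_sector_zero hv, map_zero]
    exact Submodule.zero_mem _
  · exact d_mem_sector (c_mem_sector hv j) i

theorem pa_ap (w : Matrix ι ι ℂ) (v : Fk ι) :
    pa w v = ((Real.sqrt 2 : ℂ)⁻¹) • ∑ i, ∑ j, (starRingEnd ℂ) (w i j) • c j (c i v) := by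
  unfold pa
  rw [smul_ap, sum_ap]
  congr 1
  refine Finset.sum_congr rfl fun i _ => ?_
  rw [sum_ap]
  refine Finset.sum_congr rfl fun j _ => ?_
  rw [smul_ap, mul_ap]

theorem pa_mem_sector {N : ℕ} {v : Fk ι} (hv : v ∈ sector ι (N + 2)) (w : Matrix ι ι ℂ) :
    pa w v ∈ sector ι N := by
  rw [pa_ap]
  refine Submodule.smul_mem _ _ (Submodule.sum_mem _ fun i _ => Submodule.sum_mem _ fun j _ =>
    Submodule.smul_mem _ _ ?_)
  exact c_mem_sector (c_mem_sector hv i) j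

theorem pa_sector_zero {v : Fk ι} (hv : v ∈ sector ι 0) (w : Matrix ι ι ℂ) : pa w v = 0 := by
  rw [pa_ap, Finset.sum_eq_zero, smul_zero]
  intro i _
  refine Finset.sum_eq_zero fun j _ => ?_
  rw [c_sector_zero hv, map_zero, smul_zero]

theorem pa_sector_one {v : Fk ι} (hv : v ∈ sector ι 1) (w : Matrix ι ι ℂ) : pa w v = 0 := by
  rw [pa_ap, Finset.sum_eq_zero, smul_zero]
  intro i _
  refine Finset.sum_eq_zero fun j _ => ?_
  rw [c_sector_zero (c_mem_sector hv i), smul_zero]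

/-- two vectors of the sector `N` with the same inner products against the sector are equal -/
theorem sector_ext {N : ℕ} {v w : Fk ι} (hv : v ∈ sector ι N) (hw : w ∈ sector ι N)
    (h : ∀ u ∈ sector ι N, (inner ℂ u v : ℂ) = inner ℂ u w) : v = w := by
  have h1 : v - w ∈ sector ι N := Submodule.sub_mem _ hv hw
  have h2 : (inner ℂ (v - w) (v - w) : ℂ) = 0 := by
    rw [inner_sub_right, h _ h1, sub_self]
  exact sub_eq_zero.1 (inner_self_eq_zero.1 h2)

/-- `star (pa w) * pa w'` preserves sectors -/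
theorem star_pa_mul_pa_mem_sector {N : ℕ} {v : Fk ι} (hv : v ∈ sector ι N)
    (w w' : Matrix ι ι ℂ) : (star (pa w) * pa w') v ∈ sector ι N := by
  intro S hS
  rw [mul_ap, ← inner_ket S, inner_star_right]
  have hket := ket_mem_sector S
  rcases N with _ | _ | N
  · rw [pa_sector_zero hv, inner_zero_right]
  · rw [pa_sector_one hv, inner_zero_right]
  · have h1 := pa_mem_sector hv w'
    rcases hcard : S.card with _ | _ | M
    · rw [hcard] at hket
      rw [pa_sector_zero hket, inner_zero_left]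
    · rw [hcard] at hket
      rw [pa_sector_one hket, inner_zero_left]
    · rw [hcard] at hket
      exact inner_eq_zero_of_sector (by omega) (pa_mem_sector hket w) h1

end Ord

/-! ## The map `toFk` -/

variable {q N : ℕ}

/-- Fock vector of an `N`-particle coefficient function. -/
noncomputable def toFk (ψ : (Fin N → Fin (q + 1)) → ℂ) : Fk (Fin (q + 1)) :=
  WithLp.toLp 2 fun S => if h : S.card = N then
    ((Real.sqrt (N.factorial : ℝ) : ℝ) : ℂ) * ψ (srt S h) else 0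

theorem toFk_apply (ψ : (Fin N → Fin (q + 1)) → ℂ) (S : Finset (Fin (q + 1))) :
    toFk ψ S = if h : S.card = N then
      ((Real.sqrt (N.factorial : ℝ) : ℝ) : ℂ) * ψ (srt S h) else 0 := rfl

theorem toFk_mem (ψ : (Fin N → Fin (q + 1)) → ℂ) : toFk ψ ∈ sector (Fin (q + 1)) N := by
  intro S hS
  rw [toFk_apply, dif_neg hS]

theorem toFk_add (χ ψ : (Fin N → Fin (q + 1)) → ℂ) : toFk (χ + ψ) = toFk χ + toFk ψ := by
  ext S
  rw [PiLp.add_apply, toFk_apply, toFk_apply, toFk_apply]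
  split_ifs
  · rw [Pi.add_apply]; ring
  · simp

theorem toFk_smul (a : ℂ) (ψ : (Fin N → Fin (q + 1)) → ℂ) : toFk (a • ψ) = a • toFk ψ := by
  ext S
  rw [PiLp.smul_apply, toFk_apply, toFk_apply]
  split_ifs
  · rw [Pi.smul_apply, smul_eq_mul, smul_eq_mul]; ring
  · simp

theorem toFk_zero : toFk (0 : (Fin N → Fin (q + 1)) → ℂ) = 0 := by
  have := toFk_smul (0 : ℂ) (0 : (Fin N → Fin (q + 1)) → ℂ)
  rwa [zero_smul, zero_smul] at this

theorem toFk_sum {σ : Type*} (s : Finset σ) (f : σ → (Fin N → Fin (q + 1)) → ℂ) :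
    toFk (∑ k ∈ s, f k) = ∑ k ∈ s, toFk (f k) := by
  classical
  induction s using Finset.induction_on with
  | empty => simp [toFk_zero]
  | insert a s ha ih => rw [Finset.sum_insert ha, Finset.sum_insert ha, toFk_add, ih]

theorem sqrt_fact_mul_self (N : ℕ) : ((Real.sqrt (N.factorial : ℝ) : ℝ) : ℂ) *
    ((Real.sqrt (N.factorial : ℝ) : ℝ) : ℂ) = (N.factorial : ℂ) := by
  rw [← Complex.ofReal_mul, Real.mul_self_sqrt (by positivity)]
  simp

theorem sqrt_fact_ne_zero (N : ℕ) : ((Real.sqrt (N.factorial : ℝ) : ℝ) : ℂ) ≠ 0 := by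
  have : (0 : ℝ) < Real.sqrt (N.factorial : ℝ) := Real.sqrt_pos.2 (by positivity)
  exact_mod_cast this.ne'

/-- `toFk` is isometric on antisymmetric functions. -/
theorem inner_toFk {χ ψ : (Fin N → Fin (q + 1)) → ℂ} (hχ : IsAntisymmetric χ)
    (hψ : IsAntisymmetric ψ) : (inner ℂ (toFk χ) (toFk ψ) : ℂ) = star χ ⬝ᵥ ψ := by
  rw [dot_eq_sum_srt hχ hψ, PiLp.inner_apply, Finset.mul_sum]
  refine Finset.sum_congr rfl fun S _ => ?_
  rw [RCLike.inner_apply, toFk_apply, toFk_apply]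
  split_ifs with h
  · rw [map_mul, Complex.conj_ofReal, ← sqrt_fact_mul_self]
    simp only [Complex.star_def]
    ring
  · simp

theorem norm_toFk_sq {ψ : (Fin N → Fin (q + 1)) → ℂ} (hψ : IsAntisymmetric ψ) :
    ‖toFk ψ‖ ^ 2 = (star ψ ⬝ᵥ ψ).re := by
  rw [← inner_toFk hψ hψ, inner_self_eq_norm_sq_to_K]
  norm_cast

/-- surjectivity onto the sector -/
theorem toFk_fromFk {v : Fk (Fin (q + 1))} (hv : v ∈ sector (Fin (q + 1)) N) :
    toFk (fromFk N (fun S => v S)) = v := by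
  ext S
  rw [toFk_apply]
  split_ifs with h
  · rw [fromFk_srt, mul_inv_cancel_left₀ (sqrt_fact_ne_zero N)]
  · exact (hv S h).symm

theorem exists_toFk {v : Fk (Fin (q + 1))} (hv : v ∈ sector (Fin (q + 1)) N) :
    ∃ ψ : (Fin N → Fin (q + 1)) → ℂ, IsAntisymmetric ψ ∧ toFk ψ = v :=
  ⟨fromFk N (fun S => v S), fromFk_anti N _, toFk_fromFk hv⟩

theorem toFk_inj {χ ψ : (Fin N → Fin (q + 1)) → ℂ} (hχ : IsAntisymmetric χ)
    (hψ : IsAntisymmetric ψ) (h : toFk χ = toFk ψ) : χ = ψ := by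
  have h1 : IsAntisymmetric (χ - ψ) := by
    intro π m
    rw [Pi.sub_apply, Pi.sub_apply, hχ, hψ]; ring
  have h2 : toFk (χ - ψ) = 0 := by
    have : χ - ψ = χ + (-1 : ℂ) • ψ := by
      rw [neg_one_smul, sub_eq_add_neg]
    rw [this, toFk_add, toFk_smul, h, neg_one_smul, add_neg_cancel]
  have h3 : star (χ - ψ) ⬝ᵥ (χ - ψ) = 0 := by
    rw [← inner_toFk h1 h1, h2, inner_zero_left]
  have h4 : (inner ℂ (WithLp.toLp 2 (χ - ψ) : EuclideanSpace ℂ (Fin N → Fin (q + 1)))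
      (WithLp.toLp 2 (χ - ψ)) : ℂ) = 0 := by
    rw [inner_eq_dot]; exact h3
  have h5 := inner_self_eq_zero.1 h4
  have h6 : χ - ψ = 0 := by
    have := congrArg WithLp.ofLp h5
    simpa using this
  exact sub_eq_zero.1 h6

/-- annihilation removes the first particle -/
theorem c_toFk {ψ : (Fin (N + 1) → Fin (q + 1)) → ℂ} (hψ : IsAntisymmetric ψ)
    (i : Fin (q + 1)) :
    c i (toFk ψ) = ((Real.sqrt ((N : ℝ) + 1) : ℝ) : ℂ) • toFk (rem i ψ) := by
  have hs : ((Real.sqrt ((N + 1).factorial : ℝ) : ℝ) : ℂ) =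
      ((Real.sqrt ((N : ℝ) + 1) : ℝ) : ℂ) * ((Real.sqrt (N.factorial : ℝ) : ℝ) : ℂ) := by
    rw [← Complex.ofReal_mul, ← Real.sqrt_mul (by positivity), Nat.factorial_succ]
    push_cast
    ring_nf
  ext S
  rw [c_apply, PiLp.smul_apply, smul_eq_mul, toFk_apply (rem i ψ)]
  by_cases hS : S.card = N
  · rw [dif_pos hS]
    unfold rem
    split_ifs with hi
    · rw [anti_cons_mem hψ hS hi]; simp
    · have h' : (insert i S).card = N + 1 := by rw [Finset.card_insert_of_notMem hi, hS]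
      rw [toFk_apply, dif_pos h', anti_cons_srt hψ hS hi h', hs]
      unfold sg
      ring
  · rw [dif_neg hS, mul_zero]
    split_ifs with hi
    · rfl
    · rw [toFk_apply, dif_neg, mul_zero]
      rw [Finset.card_insert_of_notMem hi]
      omega

theorem sqrt_mul_self' (x : ℝ) (hx : 0 ≤ x) :
    ((Real.sqrt x : ℝ) : ℂ) * ((Real.sqrt x : ℝ) : ℂ) = (x : ℂ) := by
  rw [← Complex.ofReal_mul, Real.mul_self_sqrt hx]

/-- matrix elements of the one-body operator -/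
theorem inner_oneBody {χ ψ : (Fin N → Fin (q + 1)) → ℂ} (hχ : IsAntisymmetric χ)
    (hψ : IsAntisymmetric ψ) (A : Matrix (Fin (q + 1)) (Fin (q + 1)) ℂ) :
    (inner ℂ (toFk χ) (dG A (toFk ψ)) : ℂ) = star χ ⬝ᵥ (oneBody N A).mulVec ψ := by
  rw [inner_dG]
  rcases N with _ | N
  · have h0 : (oneBody 0 A : Matrix (Fin 0 → Fin (q + 1)) (Fin 0 → Fin (q + 1)) ℂ) = 0 := by
      simp [oneBody]
    rw [h0, Matrix.zero_mulVec, dotProduct_zero]
    refine Finset.sum_eq_zero fun i _ => Finset.sum_eq_zero fun j _ => ?_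
    rw [c_sector_zero (toFk_mem ψ), inner_zero_right, mul_zero]
  · rw [dot_oneBody hχ hψ, Finset.mul_sum]
    refine Finset.sum_congr rfl fun i _ => ?_
    rw [Finset.mul_sum]
    refine Finset.sum_congr rfl fun j _ => ?_
    rw [c_toFk hχ, c_toFk hψ, inner_smul_left, inner_smul_right,
      inner_toFk (rem_anti hχ i) (rem_anti hψ j), Complex.conj_ofReal]
    have := sqrt_mul_self' ((N : ℝ) + 1) (by positivity)
    push_cast at this
    linear_combination (A i j * (star (rem i χ) ⬝ᵥ rem j ψ)) * this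

/-- `toFk` intertwines one-body operators. -/
theorem toFk_oneBody {ψ : (Fin N → Fin (q + 1)) → ℂ} (hψ : IsAntisymmetric ψ)
    (A : Matrix (Fin (q + 1)) (Fin (q + 1)) ℂ) :
    toFk ((oneBody N A).mulVec ψ) = dG A (toFk ψ) := by
  refine sector_ext (toFk_mem _) (dG_mem_sector (toFk_mem ψ) A) ?_
  intro u hu
  obtain ⟨χ, hχ, rfl⟩ := exists_toFk hu
  rw [inner_oneBody hχ hψ, inner_toFk hχ (oneBody_antisymm A hψ)]

/-- the pair annihilators on `toFk` -/
theorem Bp_toFk {ψ : (Fin (N + 2) → Fin (q + 1)) → ℂ} (hψ : IsAntisymmetric ψ)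
    (p : Fin (2 * q - 1)) :
    Bp q p (toFk ψ) = ((Real.sqrt 2 : ℂ)⁻¹ * (((Real.sqrt ((N : ℝ) + 2) : ℝ) : ℂ) *
      ((Real.sqrt ((N : ℝ) + 1) : ℝ) : ℂ))) • toFk (rem2 p ψ) := by
  unfold Bp
  rw [pa_ap, mul_smul]
  congr 1
  unfold rem2
  rw [toFk_sum, Finset.smul_sum]
  refine Finset.sum_congr rfl fun i _ => ?_
  rw [toFk_sum, Finset.smul_sum]
  refine Finset.sum_congr rfl fun j _ => ?_
  rw [c_toFk hψ, map_smul, c_toFk (rem_anti hψ i), toFk_smul, wM_apply, Complex.conj_ofReal]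
  rw [smul_smul, smul_smul, smul_smul]
  congr 1
  push_cast
  have : ((N : ℝ) + 1 + 1) = (N : ℝ) + 2 := by ring
  rw [this]
  ring

theorem HH_ap (Q : ℕ) (v : Fk (Fin (Q + 1))) :
    HH Q v = ∑ p, (star (Bp Q p) * Bp Q p) v := by
  unfold HH
  rw [sum_ap]

theorem inner_HH (Q : ℕ) (v w : Fk (Fin (Q + 1))) :
    (inner ℂ v (HH Q w) : ℂ) = ∑ p, inner ℂ (Bp Q p v) (Bp Q p w) := by
  rw [HH_ap, inner_sum]
  refine Finset.sum_congr rfl fun p _ => ?_
  rw [mul_ap, inner_star_right]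

theorem HH_mem_sector {Q : ℕ} {v : Fk (Fin (Q + 1))} (hv : v ∈ sector (Fin (Q + 1)) N) :
    HH Q v ∈ sector (Fin (Q + 1)) N := by
  rw [HH_ap]
  exact Submodule.sum_mem _ fun p _ => star_pa_mul_pa_mem_sector hv _ _

theorem star_HH (Q : ℕ) : star (HH Q) = HH Q := by
  unfold HH
  rw [star_sum]
  refine Finset.sum_congr rfl fun p _ => ?_
  rw [star_mul, star_star]

/-- matrix elements of the interaction -/
theorem inner_interaction {χ ψ : (Fin N → Fin (q + 1)) → ℂ} (hχ : IsAntisymmetric χ)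
    (hψ : IsAntisymmetric ψ) :
    (inner ℂ (toFk χ) (HH q (toFk ψ)) : ℂ) = star χ ⬝ᵥ (interaction q N).mulVec ψ := by
  rw [inner_HH]
  rcases N with _ | _ | N
  · have h0 : interaction q 0 = 0 := by simp [interaction]
    rw [h0, Matrix.zero_mulVec, dotProduct_zero]
    refine Finset.sum_eq_zero fun p _ => ?_
    rw [Bp, pa_sector_zero (toFk_mem ψ), inner_zero_right]
  · have h0 : interaction q (0 + 1) = 0 := by
      simp [interaction]
    rw [h0, Matrix.zero_mulVec, dotProduct_zero]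
    refine Finset.sum_eq_zero fun p _ => ?_
    rw [Bp, pa_sector_one (toFk_mem ψ), inner_zero_right]
  · rw [dot_interaction_rem hχ hψ, Finset.mul_sum]
    refine Finset.sum_congr rfl fun p _ => ?_
    have ha : ∀ φ : (Fin (N + 1 + 1) → Fin (q + 1)) → ℂ, IsAntisymmetric φ →
        IsAntisymmetric (rem2 p φ) := by
      intro φ hφ π m
      unfold rem2
      simp only [Finset.sum_apply, Pi.smul_apply, smul_eq_mul, Finset.mul_sum]
      refine Finset.sum_congr rfl fun i _ => Finset.sum_congr rfl fun j _ => ?_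
      rw [rem_anti (rem_anti hφ i) j π m]
      ring
    rw [Bp_toFk hχ, Bp_toFk hψ, inner_smul_left, inner_smul_right, inner_toFk (ha χ hχ) (ha ψ hψ)]
    simp only [map_mul, map_inv₀, Complex.conj_ofReal]
    have h1 := sqrt_mul_self' ((N : ℝ) + 1) (by positivity)
    have h2 := sqrt_mul_self' ((N : ℝ) + 2) (by positivity)
    have h3 := sqrt_mul_self' 2 (by norm_num)
    have h4 : ((Real.sqrt 2 : ℝ) : ℂ)⁻¹ * ((Real.sqrt 2 : ℝ) : ℂ)⁻¹ = 1 / 2 := by
      rw [← mul_inv, h3]; norm_num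
    push_cast at h1 h2
    calc _ = (((Real.sqrt 2 : ℝ) : ℂ)⁻¹ * ((Real.sqrt 2 : ℝ) : ℂ)⁻¹) *
          (((Real.sqrt ((N : ℝ) + 2) : ℝ) : ℂ) * ((Real.sqrt ((N : ℝ) + 2) : ℝ) : ℂ)) *
          (((Real.sqrt ((N : ℝ) + 1) : ℝ) : ℂ) * ((Real.sqrt ((N : ℝ) + 1) : ℝ) : ℂ)) *
          (star (rem2 p χ) ⬝ᵥ rem2 p ψ) := by ring
      _ = _ := by rw [h4, h1, h2]; ring

/-- `toFk` intertwines the interaction with the Fock space Hamiltonian. -/
theorem toFk_interaction {ψ : (Fin N → Fin (q + 1)) → ℂ} (hψ : IsAntisymmetric ψ) :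
    toFk ((interaction q N).mulVec ψ) = HH q (toFk ψ) := by
  refine sector_ext (toFk_mem _) (HH_mem_sector (toFk_mem ψ)) ?_
  intro u hu
  obtain ⟨χ, hχ, rfl⟩ := exists_toFk hu
  rw [inner_interaction hχ hψ, inner_toFk hχ (interaction_antisymm hψ)]

/-! ## Final reductions -/

/-- `γ H ≤ H²` on the sector gives the coefficient form. -/
theorem sq_ge_of_sector {Q N : ℕ} {γ : ℝ}
    (h : ∀ v ∈ sector (Fin (Q + 1)) N, γ * (inner ℂ v (HH Q v) : ℂ).re ≤ ‖HH Q v‖ ^ 2)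
    {ψ : (Fin N → Fin (Q + 1)) → ℂ} (hψ : IsAntisymmetric ψ) :
    γ * (star ψ ⬝ᵥ (interaction Q N).mulVec ψ).re ≤
      (star ψ ⬝ᵥ (interaction Q N).mulVec ((interaction Q N).mulVec ψ)).re := by
  have h1 := h (toFk ψ) (toFk_mem ψ)
  have h2 := interaction_antisymm (q := Q) hψ
  rw [inner_interaction hψ hψ] at h1
  rw [← inner_interaction hψ h2, toFk_interaction hψ]
  refine h1.trans (le_of_eq ?_)
  have h3 : (inner ℂ (toFk ψ) (HH Q (HH Q (toFk ψ))) : ℂ) =
      inner ℂ (HH Q (toFk ψ)) (HH Q (toFk ψ)) := by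
    rw [← inner_star_right, star_HH]
  rw [h3, inner_self_eq_norm_sq_to_K]
  norm_cast

/-- the converse: the coefficient form gives `γ H ≤ H²` on the sector -/
theorem sector_of_sq_ge {Q N : ℕ} {γ : ℝ}
    (h : ∀ ψ : (Fin N → Fin (Q + 1)) → ℂ, IsAntisymmetric ψ →
      γ * (star ψ ⬝ᵥ (interaction Q N).mulVec ψ).re ≤
      (star ψ ⬝ᵥ (interaction Q N).mulVec ((interaction Q N).mulVec ψ)).re)
    {v : Fk (Fin (Q + 1))} (hv : v ∈ sector (Fin (Q + 1)) N) :
    γ * (inner ℂ v (HH Q v) : ℂ).re ≤ ‖HH Q v‖ ^ 2 := by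
  obtain ⟨ψ, hψ, rfl⟩ := exists_toFk hv
  have h1 := h ψ hψ
  have h2 := interaction_antisymm (q := Q) hψ
  rw [← inner_interaction hψ hψ, ← inner_interaction hψ h2, toFk_interaction hψ] at h1
  refine h1.trans (le_of_eq ?_)
  have h3 : (inner ℂ (toFk ψ) (HH Q (HH Q (toFk ψ))) : ℂ) =
      inner ℂ (HH Q (toFk ψ)) (HH Q (toFk ψ)) := by
    rw [← inner_star_right, star_HH]
  rw [h3, inner_self_eq_norm_sq_to_K]
  norm_cast

/-- **Reduction of S0533 to Fock space.** -/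
theorem s0533_of_fock
    (h : ∀ γ : ℝ, 0 < γ → γ < 4616733319001 / 10 ^ 14 →
      ∃ Q₀ : ℕ, ∀ Q : ℕ, Q₀ ≤ Q → ∀ N : ℕ, ∀ v ∈ sector (Fin (Q + 1)) N,
        γ * (inner ℂ v (HH Q v) : ℂ).re ≤ ‖HH Q v‖ ^ 2) :
    ∀ γ : ℝ, 0 < γ → γ < 4616733319001 / 10 ^ 14 →
      ∃ Q₀ : ℕ, ∀ Q : ℕ, Q₀ ≤ Q → ∀ N : ℕ,
        ∀ ψ : (Fin N → Fin (Q + 1)) → ℂ, IsAntisymmetric ψ →
          γ * (star ψ ⬝ᵥ (interaction Q N).mulVec ψ).re ≤
            (star ψ ⬝ᵥ (interaction Q N).mulVec ((interaction Q N).mulVec ψ)).re := by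
  intro γ h0 h1
  obtain ⟨Q₀, hQ⟩ := h γ h0 h1
  exact ⟨Q₀, fun Q hQQ N ψ hψ => sq_ge_of_sector (hQ Q hQQ N) hψ⟩

/-- **Reduction of S0533 to an operator inequality on Fock space**: `γ H ≤ H²` as quadratic
forms on the whole Fock space. -/
theorem s0533_of_fock'
    (h : ∀ γ : ℝ, 0 < γ → γ < 4616733319001 / 10 ^ 14 →
      ∃ Q₀ : ℕ, ∀ Q : ℕ, Q₀ ≤ Q → ∀ v : Fk (Fin (Q + 1)),
        γ * (inner ℂ v (HH Q v) : ℂ).re ≤ (inner ℂ v (HH Q (HH Q v)) : ℂ).re) :
    ∀ γ : ℝ, 0 < γ → γ < 4616733319001 / 10 ^ 14 →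
      ∃ Q₀ : ℕ, ∀ Q : ℕ, Q₀ ≤ Q → ∀ N : ℕ,
        ∀ ψ : (Fin N → Fin (Q + 1)) → ℂ, IsAntisymmetric ψ →
          γ * (star ψ ⬝ᵥ (interaction Q N).mulVec ψ).re ≤
            (star ψ ⬝ᵥ (interaction Q N).mulVec ((interaction Q N).mulVec ψ)).re := by
  refine s0533_of_fock fun γ h0 h1 => ?_
  obtain ⟨Q₀, hQ⟩ := h γ h0 h1
  refine ⟨Q₀, fun Q hQQ N v _ => (hQ Q hQQ v).trans (le_of_eq ?_)⟩
  have h3 : (inner ℂ v (HH Q (HH Q v)) : ℂ) = inner ℂ (HH Q v) (HH Q v) := by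
    rw [← inner_star_right, star_HH]
  rw [h3, inner_self_eq_norm_sq_to_K]
  norm_cast

/-- The perturbed Hamiltonian on Fock space. -/
noncomputable def HT (Q : ℕ) (c : ℝ) (T : Matrix (Fin (Q + 1)) (Fin (Q + 1)) ℂ) :
    Op (Fin (Q + 1)) := HH Q + (c : ℂ) • dG T

theorem HT_ap (Q : ℕ) (c : ℝ) (T : Matrix (Fin (Q + 1)) (Fin (Q + 1)) ℂ)
    (v : Fk (Fin (Q + 1))) : HT Q c T v = HH Q v + (c : ℂ) • dG T v := by
  unfold HT
  rw [add_ap, smul_ap]

theorem HT_mem_sector {Q N : ℕ} {v : Fk (Fin (Q + 1))} (hv : v ∈ sector (Fin (Q + 1)) N)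
    (c : ℝ) (T : Matrix (Fin (Q + 1)) (Fin (Q + 1)) ℂ) :
    HT Q c T v ∈ sector (Fin (Q + 1)) N := by
  rw [HT_ap]
  exact Submodule.add_mem _ (HH_mem_sector hv) (Submodule.smul_mem _ _ (dG_mem_sector hv T))

theorem perturbed_antisymm {Q N : ℕ} {ψ : (Fin N → Fin (Q + 1)) → ℂ} (hψ : IsAntisymmetric ψ)
    (c : ℝ) (T : Matrix (Fin (Q + 1)) (Fin (Q + 1)) ℂ) :
    IsAntisymmetric ((interaction Q N + (c : ℂ) • oneBody N T).mulVec ψ) := by
  rw [Matrix.add_mulVec, Matrix.smul_mulVec]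
  intro π m
  rw [Pi.add_apply, Pi.add_apply, Pi.smul_apply, Pi.smul_apply, interaction_antisymm hψ π m,
    oneBody_antisymm T hψ π m, smul_eq_mul, smul_eq_mul]
  ring

theorem toFk_perturbed {Q N : ℕ} {ψ : (Fin N → Fin (Q + 1)) → ℂ} (hψ : IsAntisymmetric ψ)
    (c : ℝ) (T : Matrix (Fin (Q + 1)) (Fin (Q + 1)) ℂ) :
    toFk ((interaction Q N + (c : ℂ) • oneBody N T).mulVec ψ) = HT Q c T (toFk ψ) := by
  rw [Matrix.add_mulVec, Matrix.smul_mulVec, toFk_add, toFk_smul, toFk_interaction hψ,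
    toFk_oneBody hψ, HT_ap]

/-- **Reduction of `HasFermionicGap` to the sector of Fock space.** -/
theorem hasFermionicGap_of_sector {Q N : ℕ} {c Δ : ℝ}
    {T : Matrix (Fin (Q + 1)) (Fin (Q + 1)) ℂ}
    (h : ∃ (E₀ : ℝ) (v₀ : Fk (Fin (Q + 1))), v₀ ∈ sector (Fin (Q + 1)) N ∧ v₀ ≠ 0 ∧
      HT Q c T v₀ = (E₀ : ℂ) • v₀ ∧
      ∀ v ∈ sector (Fin (Q + 1)) N, (inner ℂ v₀ v : ℂ) = 0 →
        (E₀ + Δ) * ‖v‖ ^ 2 ≤ (inner ℂ v (HT Q c T v) : ℂ).re) :
    HasFermionicGap (interaction Q N + (c : ℂ) • oneBody N T) Δ := by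
  obtain ⟨E₀, v₀, hv₀, hne, hev, hgap⟩ := h
  obtain ⟨ψ₀, hψ₀, rfl⟩ := exists_toFk hv₀
  refine ⟨E₀, ψ₀, hψ₀, ?_, ?_, ?_⟩
  · rintro rfl
    exact hne toFk_zero
  · refine toFk_inj (perturbed_antisymm hψ₀ c T) ?_ ?_
    · intro π m
      rw [Pi.smul_apply, Pi.smul_apply, hψ₀ π m, smul_eq_mul, smul_eq_mul]
      ring
    · rw [toFk_perturbed hψ₀, hev, toFk_smul]
  · intro ψ hψ horth
    have h1 := hgap (toFk ψ) (toFk_mem ψ) (by rw [inner_toFk hψ₀ hψ]; exact horth)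
    rw [norm_toFk_sq hψ, ← toFk_perturbed hψ, inner_toFk hψ (perturbed_antisymm hψ c T)] at h1
    exact h1

end Crest.Agent.R340.Br320
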