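import Crest.Agent.R340.Fock_649

/-!
# R340 (helper303): multiplicative second quantisation `Gam U` of a one-particle matrix

On helper649's Fock model. For EVERY matrix `U : Matrix ι ι ℂ`:
`Gam_cr : Gam U * cr v = cr (mv U v) * Gam U`, `an_Gam : an v * Gam U = Gam U * an (mv Uᴴ v)`,
`Gam_vac`, `Gam_mul`, `Gam_one`, `star_Gam`, `pa_Gam`, `Gam_dG`, `Gam_Nh`, `continuous_Gam`,
`Gam_diagonal`, uniqueness `op_eq_of_cr`. For unitary `U`: conjugation formulas.
-/

set_option autoImplicit false
set_option linter.unusedSectionVars false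

namespace Crest.Agent.R340.Gam303

open Finset Crest.Agent.R340.Fock649

variable {ι : Type*} [LinearOrder ι] [Fintype ι]

/-! ### one-particle action -/

theorem mv_mul (A B : Matrix ι ι ℂ) (v : L ι) : mv (A * B) v = mv A (mv B v) := by
  unfold mv
  simp [Matrix.mulVec_mulVec]

theorem mv_add (A : Matrix ι ι ℂ) (v w : L ι) : mv A (v + w) = mv A v + mv A w := by
  unfold mv
  simp [Matrix.mulVec_add]

theorem mv_smul (A : Matrix ι ι ℂ) (a : ℂ) (v : L ι) : mv A (a • v) = a • mv A v := by
  unfold mv
  simp [Matrix.mulVec_smul]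

theorem mv_zero (A : Matrix ι ι ℂ) : mv A (0 : L ι) = 0 := by
  unfold mv
  simp

theorem mv_sum (A : Matrix ι ι ℂ) {κ : Type*} (s : Finset κ) (v : κ → L ι) :
    mv A (∑ k ∈ s, v k) = ∑ k ∈ s, mv A (v k) := by
  classical
  induction s using Finset.induction_on with
  | empty => simp [mv_zero]
  | insert a s ha ih => rw [Finset.sum_insert ha, Finset.sum_insert ha, mv_add, ih]

theorem mv_e (A : Matrix ι ι ℂ) (i j : ι) : mv A (e i) j = A j i := by
  rw [mv_apply]
  simp [e_apply]

theorem l_eq_sum (v : L ι) : v = ∑ i, v i • e i := by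
  ext j
  rw [WithLp.ofLp_sum, Finset.sum_apply]
  simp [e_apply]

theorem inner_mv (A : Matrix ι ι ℂ) (v w : L ι) :
    inner ℂ v (mv A w) = (inner ℂ (mv A.conjTranspose v) w : ℂ) := by
  rw [inner_eq_sum, inner_eq_sum]
  simp only [mv_apply, Finset.mul_sum, map_sum, map_mul, Finset.sum_mul,
    Matrix.conjTranspose_apply]
  rw [Finset.sum_comm]
  refine Finset.sum_congr rfl fun j _ => Finset.sum_congr rfl fun i _ => ?_
  have : (starRingEnd ℂ) (star (A i j)) = A i j := star_star _
  rw [this]
  ring

theorem continuous_mv_left (v : L ι) : Continuous fun A : Matrix ι ι ℂ => mv A v := by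
  unfold mv
  refine (PiLp.continuous_toLp 2 _).comp ?_
  exact continuous_pi fun i => continuous_finsetSum _ fun j _ =>
    ((continuous_apply_apply i j)).mul continuous_const

theorem continuous_cr : Continuous (cr : L ι → Op ι) := by
  unfold cr
  refine continuous_finsetSum _ fun i _ => ?_
  exact ((continuous_apply i).comp (PiLp.continuous_ofLp 2 _)).smul continuous_const

theorem continuous_an : Continuous (an : L ι → Op ι) := by
  have : (an : L ι → Op ι) = fun v => star (cr v) := by
    funext v; rw [star_cr]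
  rw [this]
  exact continuous_star.comp continuous_cr

/-! ### the vacuum -/

/-- vacuum vector -/
noncomputable def vac : Fk ι := ket ∅

theorem an_vac (v : L ι) : an v (vac : Fk ι) = 0 := by
  unfold an vac
  rw [sum_ap]
  refine Finset.sum_eq_zero fun i _ => ?_
  rw [smul_ap, c_ket]
  simp

/-- `ket (insert m S) = d m (ket S)` for `m` below `S` -/
theorem ket_insert_min {m : ι} {S : Finset ι} (h : ∀ x ∈ S, m < x) :
    ket (insert m S) = d m (ket S) := by
  have hm : m ∉ S := fun hm => lt_irrefl _ (h m hm)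
  rw [d_ket, if_neg hm]
  have : sg m S = 1 := by
    unfold sg
    rw [Finset.filter_eq_empty_iff.2]
    · simp
    · intro x hx
      exact not_lt.2 (h x hx).le
  rw [this, one_smul]

/-- **Uniqueness.** An operator is determined by its value on the vacuum and an exchange relation
with the creators. -/
theorem op_eq_of_cr {A B : Op ι} {X : ι → Op ι} (h0 : A vac = B vac)
    (hA : ∀ i, A * d i = X i * A) (hB : ∀ i, B * d i = X i * B) : A = B := by
  refine op_ext fun S => ?_
  induction S using Finset.induction_on_min with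
  | empty => exact h0
  | insert a S h ih =>
    rw [ket_insert_min h, ← mul_ap, ← mul_ap, hA, hB, mul_ap, mul_ap, ih]

/-! ### definition -/

/-- ordered product of creators -/
noncomputable def prodCr (U : Matrix ι ι ℂ) (S : Finset ι) : Op ι :=
  ((S.sort).map fun i => cr (mv U (e i))).prod

/-- `toVac S v = v S • vac` -/
noncomputable def toVac (S : Finset ι) : Op ι := Op.ofLin
  { toFun := fun v => v S • vac
    map_add' := fun v w => by simp [add_smul]
    map_smul' := fun a v => by simp [smul_smul] }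

theorem toVac_apply (S : Finset ι) (v : Fk ι) : toVac S v = v S • vac := rfl

/-- multiplicative second quantisation -/
noncomputable def Gam (U : Matrix ι ι ℂ) : Op ι := ∑ S, prodCr U S * toVac S

theorem Gam_ket (U : Matrix ι ι ℂ) (S : Finset ι) : Gam U (ket S) = prodCr U S vac := by
  unfold Gam
  rw [sum_ap, Finset.sum_eq_single S]
  · rw [mul_ap, toVac_apply, ket_apply, if_pos rfl, one_smul]
  · intro T _ hT
    rw [mul_ap, toVac_apply, ket_apply, if_neg hT, zero_smul, map_zero]
  · intro h; exact absurd (Finset.mem_univ S) h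

theorem prodCr_insert_min (U : Matrix ι ι ℂ) {m : ι} {S : Finset ι} (h : ∀ x ∈ S, m < x) :
    prodCr U (insert m S) = cr (mv U (e m)) * prodCr U S := by
  unfold prodCr
  rw [Finset.sort_insert _ (fun b hb => (h b hb).le) (fun hm => lt_irrefl _ (h m hm))]
  simp

theorem Gam_vac (U : Matrix ι ι ℂ) : Gam U (vac : Fk ι) = vac := by
  unfold vac
  rw [Gam_ket]
  unfold prodCr vac
  simp [one_ap]

theorem Gam_ket_insert_min (U : Matrix ι ι ℂ) {m : ι} {S : Finset ι} (h : ∀ x ∈ S, m < x) :
    Gam U (ket (insert m S)) = cr (mv U (e m)) (Gam U (ket S)) := by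
  rw [Gam_ket, Gam_ket, prodCr_insert_min U h, mul_ap]

/-- exchange relation on kets -/
theorem cr_Gam_ket (U : Matrix ι ι ℂ) (i : ι) (S : Finset ι) :
    cr (mv U (e i)) (Gam U (ket S)) = Gam U (d i (ket S)) := by
  induction S using Finset.induction_on_min with
  | empty =>
    have h : ket (insert i (∅ : Finset ι)) = d i (ket ∅) := ket_insert_min (by simp)
    rw [← h, Gam_ket_insert_min U (by simp)]
  | insert a S h ih =>
    have ha : a ∉ S := fun hm => lt_irrefl _ (h a hm)
    rw [Gam_ket_insert_min U h, ket_insert_min h]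
    rcases lt_trichotomy i a with hi | rfl | hi
    · -- i below everything
      have h2 : ∀ x ∈ insert a S, i < x := by
        intro x hx
        rcases Finset.mem_insert.1 hx with rfl | hx
        · exact hi
        · exact hi.trans (h x hx)
      rw [← ket_insert_min h, ← ket_insert_min h2, Gam_ket_insert_min U h2,
        Gam_ket_insert_min U h]
    · rw [← mul_ap (cr (mv U (e i))) (cr (mv U (e i))), cr_mul_self, ← mul_ap (d i) (d i),
        d_mul_self, zero_ap, zero_ap, map_zero]
    · -- i above a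
      have e1 : cr (mv U (e i)) * cr (mv U (e a)) = - (cr (mv U (e a)) * cr (mv U (e i))) := by
        rw [eq_neg_iff_add_eq_zero]; exact cr_cr _ _
      have e2 : d i * d a = - (d a * d i) := by
        rw [eq_neg_iff_add_eq_zero]; exact d_d _ _
      rw [← mul_ap, e1, neg_ap, mul_ap, ih, ← mul_ap (d i), e2, neg_ap, map_neg, mul_ap (d a),
        d_ket]
      split_ifs with hiS
      · simp
      · rw [map_smul, map_smul, map_smul, map_smul]
        have h2 : ∀ x ∈ insert i S, a < x := by
          intro x hx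
          rcases Finset.mem_insert.1 hx with rfl | hx
          · exact hi
          · exact h x hx
        rw [← ket_insert_min h2, Gam_ket_insert_min U h2]

theorem Gam_mul_d (U : Matrix ι ι ℂ) (i : ι) : Gam U * d i = cr (mv U (e i)) * Gam U := by
  refine op_ext fun S => ?_
  rw [mul_ap, mul_ap, cr_Gam_ket]

theorem Gam_mul_cr (U : Matrix ι ι ℂ) (v : L ι) : Gam U * cr v = cr (mv U v) * Gam U := by
  have h1 : cr v = ∑ i, v i • d i := rfl
  have h2 : mv U v = ∑ i, v i • mv U (e i) := by
    conv_lhs => rw [l_eq_sum v]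
    rw [mv_sum]
    exact Finset.sum_congr rfl fun i _ => mv_smul _ _ _
  rw [h1, h2, cr_sum, Finset.mul_sum, Finset.sum_mul]
  refine Finset.sum_congr rfl fun i _ => ?_
  rw [mul_smul_comm, Gam_mul_d, cr_smul, smul_mul_assoc]

/-- **Uniqueness of the second quantisation.** -/
theorem eq_Gam {A : Op ι} {U : Matrix ι ι ℂ} (h0 : A vac = vac)
    (hA : ∀ i, A * d i = cr (mv U (e i)) * A) : A = Gam U :=
  op_eq_of_cr (by rw [h0, Gam_vac]) hA (Gam_mul_d U)

theorem Gam_mul (U V : Matrix ι ι ℂ) : Gam (U * V) = Gam U * Gam V := by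
  symm
  refine eq_Gam ?_ fun i => ?_
  · rw [mul_ap, Gam_vac, Gam_vac]
  · rw [mul_assoc, Gam_mul_d, ← mul_assoc, Gam_mul_cr, mul_assoc, mv_mul]

theorem Gam_one : Gam (1 : Matrix ι ι ℂ) = 1 := by
  symm
  refine eq_Gam ?_ fun i => ?_
  · rw [one_ap]
  · rw [mv_one, cr_e, one_mul, mul_one]

theorem an_mul_Gam (U : Matrix ι ι ℂ) (v : L ι) :
    an v * Gam U = Gam U * an (mv U.conjTranspose v) := by
  refine op_ext fun S => ?_
  induction S using Finset.induction_on_min with
  | empty =>
    have h1 := Gam_vac U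
    have h2 := an_vac (mv U.conjTranspose v)
    have h3 := an_vac v
    unfold vac at h1 h2 h3
    rw [mul_ap, mul_ap, h1, h2, h3, map_zero]
  | insert a S h ih =>
    rw [ket_insert_min h]
    have e1 : an v * Gam U * d a = (inner ℂ v (mv U (e a)) : ℂ) • Gam U -
        cr (mv U (e a)) * (an v * Gam U) := by
      have e2 : an v * cr (mv U (e a)) = (inner ℂ v (mv U (e a)) : ℂ) • (1 : Op ι) -
          cr (mv U (e a)) * an v := by
        rw [← an_cr]; abel
      rw [mul_assoc, Gam_mul_d, ← mul_assoc, e2, sub_mul, smul_mul_assoc, one_mul, mul_assoc]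
    have e3 : Gam U * an (mv U.conjTranspose v) * d a = (inner ℂ v (mv U (e a)) : ℂ) • Gam U -
        cr (mv U (e a)) * (Gam U * an (mv U.conjTranspose v)) := by
      have e4 : an (mv U.conjTranspose v) * d a =
          (inner ℂ v (mv U (e a)) : ℂ) • (1 : Op ι) - d a * an (mv U.conjTranspose v) := by
        rw [inner_mv, ← an_cr, cr_e]; abel
      rw [mul_assoc, e4, mul_sub, mul_smul_comm, mul_one, ← mul_assoc, Gam_mul_d, mul_assoc]
    rw [← mul_ap, ← mul_ap, e1, e3, sub_ap, sub_ap, mul_ap (cr _), mul_ap (cr _), ih]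

theorem c_mul_Gam (U : Matrix ι ι ℂ) (i : ι) :
    c i * Gam U = Gam U * an (mv U.conjTranspose (e i)) := by
  rw [← an_e, an_mul_Gam]

theorem star_Gam (U : Matrix ι ι ℂ) : star (Gam U) = Gam U.conjTranspose := by
  refine eq_Gam ?_ fun i => ?_
  · -- the vacuum
    have h1 : ∀ S, inner ℂ (ket S) (star (Gam U) (vac : Fk ι)) = (inner ℂ (ket S) vac : ℂ) := by
      intro S
      rw [inner_star_right]
      induction S using Finset.induction_on_min with
      | empty =>
        have h1 := Gam_vac U
        unfold vac at h1 ⊢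
        rw [h1]
      | insert a S h ih =>
        rw [Gam_ket_insert_min U h, ket_insert_min h, ← star_an, inner_star_left, an_vac,
          inner_zero_right, ← star_c, inner_star_left, ← an_e, an_vac, inner_zero_right]
    ext S
    have := h1 S
    rwa [inner_ket, inner_ket] at this
  · have h := an_mul_Gam U (e i)
    have h2 := congrArg star h
    rw [star_mul, star_mul, star_an, star_an, cr_e] at h2
    exact h2

theorem Gam_diagonal (u : ι → ℂ) : Gam (Matrix.diagonal u) = Gd u := by
  symm
  refine eq_Gam ?_ fun i => ?_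
  · unfold vac
    rw [Gd_ket]
    simp
  · rw [Gd_mul_d]
    have : mv (Matrix.diagonal u) (e i) = u i • e i := by
      ext j
      rw [mv_e, Matrix.diagonal_apply]
      by_cases h : j = i
      · subst h; simp [e_apply]
      · simp [e_apply, h]
    rw [this, cr_smul, cr_e, smul_mul_assoc]

/-! ### one-body operators -/

theorem Gam_mul_dG (U A : Matrix ι ι ℂ) : Gam U * dG (A * U) = dG (U * A) * Gam U := by
  have h1 : dG (A * U) = ∑ i, ∑ k, A i k • (d i * an (mv U.conjTranspose (e k))) := by
    have h2 : ∀ k, an (mv U.conjTranspose (e k)) = ∑ j, U k j • c j := by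
      intro k
      unfold an
      refine Finset.sum_congr rfl fun j _ => ?_
      rw [mv_e, Matrix.conjTranspose_apply]
      have : (starRingEnd ℂ) (star (U k j)) = U k j := star_star _
      rw [this]
    simp only [h2, Finset.mul_sum, mul_smul_comm, Finset.smul_sum, smul_smul]
    unfold dG
    refine Finset.sum_congr rfl fun i _ => ?_
    rw [Finset.sum_comm]
    refine Finset.sum_congr rfl fun j _ => ?_
    rw [Matrix.mul_apply, Finset.sum_smul]
  have h3 : dG (U * A) = ∑ i, ∑ k, A i k • (cr (mv U (e i)) * c k) := by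
    unfold dG cr
    simp only [Finset.sum_mul, smul_mul_assoc, Finset.smul_sum, smul_smul, mv_e,
      Matrix.mul_apply, Finset.sum_smul]
    -- ∑ l, ∑ k, ∑ i, (U l i * A i k) • _ = ∑ i, ∑ k, ∑ l, (A i k * U l i) • _
    have h4 : ∀ f : ι → ι → ι → Op ι, (∑ l, ∑ k, ∑ i, f l k i) = ∑ i, ∑ k, ∑ l, f l k i := by
      intro f
      rw [Finset.sum_comm]
      conv_lhs => enter [2, k]; rw [Finset.sum_comm]
      rw [Finset.sum_comm]
    rw [h4]
    refine Finset.sum_congr rfl fun i _ => Finset.sum_congr rfl fun k _ =>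
      Finset.sum_congr rfl fun l _ => ?_
    rw [mul_comm]
  rw [h1, h3, Finset.mul_sum, Finset.sum_mul]
  refine Finset.sum_congr rfl fun i _ => ?_
  rw [Finset.mul_sum, Finset.sum_mul]
  refine Finset.sum_congr rfl fun k _ => ?_
  rw [mul_smul_comm, smul_mul_assoc, ← mul_assoc, Gam_mul_d, mul_assoc, mul_assoc, ← c_mul_Gam]

theorem Gam_mul_Nh (U : Matrix ι ι ℂ) : Gam U * Nh = Nh * Gam U := by
  refine op_ext fun S => ?_
  rw [mul_ap, mul_ap, Nh_ket, map_smul]
  induction S using Finset.induction_on_min with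
  | empty =>
    have h1 := Gam_vac U
    unfold vac at h1
    rw [h1, Nh_ket]
  | insert a S h ih =>
    have ha : a ∉ S := fun hm => lt_irrefl _ (h a hm)
    rw [Gam_ket_insert_min U h]
    have h2 := Nh_comm_cr (mv U (e a))
    have h3 : Nh * cr (mv U (e a)) = cr (mv U (e a)) * Nh + cr (mv U (e a)) :=
      sub_eq_iff_eq_add'.1 h2
    rw [← mul_ap Nh (cr (mv U (e a))), h3, add_ap, mul_ap, ← ih,
      Finset.card_insert_of_notMem ha, map_smul]
    push_cast
    rw [add_smul, one_smul]

/-! ### pair annihilators -/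

theorem an_eq_sum (U : Matrix ι ι ℂ) (k : ι) :
    an (mv U.conjTranspose (e k)) = ∑ j, U k j • c j := by
  unfold an
  refine Finset.sum_congr rfl fun j _ => ?_
  rw [mv_e, Matrix.conjTranspose_apply]
  have : (starRingEnd ℂ) (star (U k j)) = U k j := star_star _
  rw [this]

theorem pa_mul_Gam (U w : Matrix ι ι ℂ) :
    pa w * Gam U = Gam U * pa (U.conjTranspose * w * U.map (starRingEnd ℂ)) := by
  have h1 : ∀ i j, (c j * c i) * Gam U =
      Gam U * ∑ k, ∑ l, (U j k * U i l) • (c k * c l) := by
    intro i j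
    rw [mul_assoc, c_mul_Gam, ← mul_assoc, c_mul_Gam, an_eq_sum, an_eq_sum, mul_assoc,
      Finset.sum_mul_sum]
    congr 1
    refine Finset.sum_congr rfl fun k _ => Finset.sum_congr rfl fun l _ => ?_
    rw [smul_mul_smul_comm]
  have h2 : pa w * Gam U = Gam U * (((Real.sqrt 2 : ℂ)⁻¹) •
      ∑ i, ∑ j, ∑ k, ∑ l, ((starRingEnd ℂ) (w i j) * (U j k * U i l)) • (c k * c l)) := by
    unfold pa
    rw [smul_mul_assoc, mul_smul_comm]
    congr 1
    rw [Finset.sum_mul, Finset.mul_sum]
    refine Finset.sum_congr rfl fun i _ => ?_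
    rw [Finset.sum_mul, Finset.mul_sum]
    refine Finset.sum_congr rfl fun j _ => ?_
    rw [smul_mul_assoc, h1, ← mul_smul_comm]
    congr 1
    simp only [Finset.smul_sum, smul_smul]
  rw [h2]
  congr 1
  unfold pa
  congr 1
  have h3 : ∀ f : ι → ι → ι → ι → Op ι,
      (∑ i, ∑ j, ∑ k, ∑ l, f i j k l) = ∑ l, ∑ k, ∑ i, ∑ j, f i j k l := by
    intro f
    have e1 : ∀ i, (∑ j, ∑ k, ∑ l, f i j k l) = ∑ l, ∑ k, ∑ j, f i j k l := by
      intro i
      rw [Finset.sum_comm]
      conv_lhs => enter [2, k]; rw [Finset.sum_comm]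
      rw [Finset.sum_comm]
    rw [Finset.sum_congr rfl fun i _ => e1 i, Finset.sum_comm]
    refine Finset.sum_congr rfl fun l _ => ?_
    rw [Finset.sum_comm]
  rw [h3]
  refine Finset.sum_congr rfl fun l _ => Finset.sum_congr rfl fun k _ => ?_
  have h4 : (starRingEnd ℂ) ((U.conjTranspose * w * U.map (starRingEnd ℂ)) l k) =
      ∑ i, ∑ j, (starRingEnd ℂ) (w i j) * (U j k * U i l) := by
    rw [Matrix.mul_apply]
    simp only [Matrix.mul_apply, map_sum, map_mul, Finset.sum_mul]
    rw [Finset.sum_comm]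
    refine Finset.sum_congr rfl fun i _ => Finset.sum_congr rfl fun j _ => ?_
    rw [Matrix.conjTranspose_apply, Matrix.map_apply]
    have e1 : (starRingEnd ℂ) (star (U i l)) = U i l := star_star _
    have e2 : (starRingEnd ℂ) ((starRingEnd ℂ) (U j k)) = U j k := star_star _
    rw [e1, e2]
    ring
  rw [h4]
  simp only [Finset.sum_smul]

/-! ### unitary one-particle matrices -/

theorem Gam_mul_star_self {U : Matrix ι ι ℂ} (hU : U * U.conjTranspose = 1) :
    Gam U * star (Gam U) = 1 := by
  rw [star_Gam, ← Gam_mul, hU, Gam_one]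

theorem star_Gam_mul_self {U : Matrix ι ι ℂ} (hU : U.conjTranspose * U = 1) :
    star (Gam U) * Gam U = 1 := by
  rw [star_Gam, ← Gam_mul, hU, Gam_one]

theorem conj_cr {U : Matrix ι ι ℂ} (hU : U * U.conjTranspose = 1) (v : L ι) :
    Gam U * cr v * star (Gam U) = cr (mv U v) := by
  rw [Gam_mul_cr, mul_assoc, Gam_mul_star_self hU, mul_one]

theorem conj_an {U : Matrix ι ι ℂ} (hU : U * U.conjTranspose = 1) (v : L ι) :
    Gam U * an v * star (Gam U) = an (mv U v) := by
  have h := congrArg star (conj_cr hU v)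
  rw [star_mul, star_mul, star_cr, star_cr, star_star, ← mul_assoc] at h
  exact h

theorem conj_dG {U : Matrix ι ι ℂ} (hU : U * U.conjTranspose = 1) (A : Matrix ι ι ℂ) :
    Gam U * dG A * star (Gam U) = dG (U * A * U.conjTranspose) := by
  have hU' : U.conjTranspose * U = 1 := mul_eq_one_comm.1 hU
  have h := Gam_mul_dG U (A * U.conjTranspose)
  rw [mul_assoc A, hU', mul_one] at h
  rw [h, mul_assoc, Gam_mul_star_self hU, mul_one, mul_assoc U]

theorem conj_pa {U : Matrix ι ι ℂ} (hU : U * U.conjTranspose = 1) (w : Matrix ι ι ℂ) :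
    Gam U * pa w * star (Gam U) = pa (U * w * U.transpose) := by
  have hU' : U.conjTranspose * U = 1 := mul_eq_one_comm.1 hU
  have hT : U.transpose * U.map (starRingEnd ℂ) = 1 := by
    have : U.transpose * U.map (starRingEnd ℂ) = (U.conjTranspose * U).transpose := by
      rw [Matrix.transpose_mul]; rfl
    rw [this, hU', Matrix.transpose_one]
  have h := pa_mul_Gam U (U * w * U.transpose)
  have h2 : U.conjTranspose * (U * w * U.transpose) * U.map (starRingEnd ℂ) = w := by
    calc U.conjTranspose * (U * w * U.transpose) * U.map (starRingEnd ℂ) =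
        (U.conjTranspose * U) * w * (U.transpose * U.map (starRingEnd ℂ)) := by
          simp only [Matrix.mul_assoc]
      _ = w := by rw [hU', hT, one_mul, mul_one]
  rw [h2] at h
  rw [← h, mul_assoc, Gam_mul_star_self hU, mul_one]

theorem conj_Nh {U : Matrix ι ι ℂ} (hU : U * U.conjTranspose = 1) :
    Gam U * Nh * star (Gam U) = Nh := by
  rw [Gam_mul_Nh, mul_assoc, Gam_mul_star_self hU, mul_one]

theorem norm_Gam {U : Matrix ι ι ℂ} (hU : U * U.conjTranspose = 1) : ‖Gam U‖ = 1 := by
  have h : ‖Gam U * star (Gam U)‖ = ‖Gam U‖ * ‖Gam U‖ := CStarRing.norm_self_mul_star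
  rw [Gam_mul_star_self hU, CStarRing.norm_one] at h
  nlinarith [norm_nonneg (Gam U)]

theorem norm_Gam_ap {U : Matrix ι ι ℂ} (hU : U.conjTranspose * U = 1) (v : Fk ι) :
    ‖Gam U v‖ = ‖v‖ := by
  have h := inner_star_mul_self (Gam U) v
  rw [star_Gam_mul_self hU, one_ap, inner_self_eq_norm_sq_to_K] at h
  have h2 : ‖v‖ ^ 2 = ‖Gam U v‖ ^ 2 := by
    have h3 : ((‖v‖ ^ 2 : ℝ) : ℂ) = ((‖Gam U v‖ ^ 2 : ℝ) : ℂ) := by
      rw [Complex.ofReal_pow, Complex.ofReal_pow]; exact h
    exact Complex.ofReal_injective h3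
  exact ((sq_eq_sq₀ (norm_nonneg _) (norm_nonneg _)).1 h2).symm

/-! ### continuity -/

theorem continuous_prodCr (S : Finset ι) : Continuous fun U : Matrix ι ι ℂ => prodCr U S := by
  unfold prodCr
  generalize S.sort = l
  induction l with
  | nil => simp only [List.map_nil, List.prod_nil]; exact continuous_const
  | cons a l ih =>
    simp only [List.map_cons, List.prod_cons]
    exact (continuous_cr.comp (continuous_mv_left _)).mul ih

theorem continuous_Gam : Continuous (Gam : Matrix ι ι ℂ → Op ι) := by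
  unfold Gam
  exact continuous_finsetSum _ fun S _ => (continuous_prodCr S).mul continuous_const

end Crest.Agent.R340.Gam303
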