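import Crest.Agent.R340.Rot2_303
import Crest.Agent.R340.Gam_303
import Crest.Agent.R340.Bridge_320

/-!
# R340 (helper303), rotation layer 3: rotations on Fock space

`Rg Q g = Gam (sp Q g)`; `Bg Q g p = Rg Q g * Bp Q p * star (Rg Q g)` the pair annihilators about
the rotated north pole; `qf M X = ∑ q r, M q r • (star (B q) * X * B r)`.
-/

set_option autoImplicit false

open Matrix

namespace Crest.Agent.R340.Rot303

open Crest.Agent.R340.CS809 Crest.MathPhysics.Laughlin Crest.Agent.R340.Fock649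
  Crest.Agent.R340.Gam303 Crest.Agent.R340.Br320

noncomputable section

variable {Q : ℕ}

/-! ## the unitary group acting on Fock space -/

/-- second quantised rotation -/
def Rg (Q : ℕ) (g : Matrix (Fin 2) (Fin 2) ℂ) : Op (Fin (Q + 1)) := Gam (sp Q g)

theorem Rg_mul (g h : Matrix (Fin 2) (Fin 2) ℂ) : Rg Q (g * h) = Rg Q g * Rg Q h := by
  unfold Rg; rw [sp_mul, Gam_mul]

theorem Rg_one : Rg Q 1 = 1 := by
  unfold Rg; rw [sp_one, Gam_one]

theorem star_Rg (g : Matrix (Fin 2) (Fin 2) ℂ) : star (Rg Q g) = Rg Q gᴴ := by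
  unfold Rg; rw [star_Gam, sp_conjTranspose]

theorem sp_mul_conjTranspose {g : Matrix (Fin 2) (Fin 2) ℂ} (hg : g * gᴴ = 1) :
    sp Q g * (sp Q g)ᴴ = 1 := sp_unitary' Q hg

theorem Rg_mul_star {g : Matrix (Fin 2) (Fin 2) ℂ} (hg : g * gᴴ = 1) :
    Rg Q g * star (Rg Q g) = 1 := Gam_mul_star_self (sp_unitary' Q hg)

theorem star_Rg_mul {g : Matrix (Fin 2) (Fin 2) ℂ} (hg : g * gᴴ = 1) :
    star (Rg Q g) * Rg Q g = 1 := star_Gam_mul_self (sp_unitary Q (mul_eq_one_comm.1 hg))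

theorem continuous_Rg : Continuous (Rg Q) := continuous_Gam.comp (continuous_sp Q)

theorem Rg_vac (g : Matrix (Fin 2) (Fin 2) ℂ) : Rg Q g (vac : Fk (Fin (Q + 1))) = vac := Gam_vac _

/-- conjugation by a rotation -/
def cj (g : Matrix (Fin 2) (Fin 2) ℂ) (X : Op (Fin (Q + 1))) : Op (Fin (Q + 1)) :=
  Rg Q g * X * star (Rg Q g)

theorem cj_add (g : Matrix (Fin 2) (Fin 2) ℂ) (X Y : Op (Fin (Q + 1))) :
    cj g (X + Y) = cj g X + cj g Y := by
  unfold cj; rw [mul_add, add_mul]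

theorem cj_sub (g : Matrix (Fin 2) (Fin 2) ℂ) (X Y : Op (Fin (Q + 1))) :
    cj g (X - Y) = cj g X - cj g Y := by
  unfold cj; rw [mul_sub, sub_mul]

theorem cj_smul (g : Matrix (Fin 2) (Fin 2) ℂ) (a : ℂ) (X : Op (Fin (Q + 1))) :
    cj g (a • X) = a • cj g X := by
  unfold cj; rw [mul_smul_comm, smul_mul_assoc]

theorem cj_sum (g : Matrix (Fin 2) (Fin 2) ℂ) {κ : Type*} (s : Finset κ)
    (X : κ → Op (Fin (Q + 1))) : cj g (∑ k ∈ s, X k) = ∑ k ∈ s, cj g (X k) := by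
  unfold cj; rw [Finset.mul_sum, Finset.sum_mul]

theorem cj_zero (g : Matrix (Fin 2) (Fin 2) ℂ) : cj g (0 : Op (Fin (Q + 1))) = 0 := by
  unfold cj; rw [mul_zero, zero_mul]

theorem cj_star (g : Matrix (Fin 2) (Fin 2) ℂ) (X : Op (Fin (Q + 1))) :
    star (cj g X) = cj g (star X) := by
  unfold cj; rw [star_mul, star_mul, star_star, mul_assoc]

theorem cj_mul {g : Matrix (Fin 2) (Fin 2) ℂ} (hg : g * gᴴ = 1) (X Y : Op (Fin (Q + 1))) :
    cj g (X * Y) = cj g X * cj g Y := by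
  unfold cj
  calc Rg Q g * (X * Y) * star (Rg Q g) = Rg Q g * X * 1 * Y * star (Rg Q g) := by
        rw [mul_one]; noncomm_ring
    _ = _ := by rw [← star_Rg_mul hg]; noncomm_ring

theorem cj_one {g : Matrix (Fin 2) (Fin 2) ℂ} (hg : g * gᴴ = 1) :
    cj g (1 : Op (Fin (Q + 1))) = 1 := by
  unfold cj; rw [mul_one, Rg_mul_star hg]

theorem cj_cj (g h : Matrix (Fin 2) (Fin 2) ℂ) (X : Op (Fin (Q + 1))) :
    cj g (cj h X) = cj (g * h) X := by
  unfold cj; rw [Rg_mul, star_mul]; noncomm_ring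

theorem cj_id (X : Op (Fin (Q + 1))) : cj 1 X = X := by
  unfold cj; rw [Rg_one, star_one, one_mul, mul_one]

theorem cj_cr {g : Matrix (Fin 2) (Fin 2) ℂ} (hg : g * gᴴ = 1) (v : L (Fin (Q + 1))) :
    cj g (cr v) = cr (mv (sp Q g) v) := conj_cr (sp_unitary' Q hg) v

theorem cj_an {g : Matrix (Fin 2) (Fin 2) ℂ} (hg : g * gᴴ = 1) (v : L (Fin (Q + 1))) :
    cj g (an v) = an (mv (sp Q g) v) := conj_an (sp_unitary' Q hg) v

theorem cj_dG {g : Matrix (Fin 2) (Fin 2) ℂ} (hg : g * gᴴ = 1)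
    (A : Matrix (Fin (Q + 1)) (Fin (Q + 1)) ℂ) :
    cj g (dG A) = dG (sp Q g * A * (sp Q g)ᴴ) := conj_dG (sp_unitary' Q hg) A

theorem cj_pa {g : Matrix (Fin 2) (Fin 2) ℂ} (hg : g * gᴴ = 1)
    (w : Matrix (Fin (Q + 1)) (Fin (Q + 1)) ℂ) :
    cj g (pa w) = pa (sp Q g * w * (sp Q g)ᵀ) := conj_pa (sp_unitary' Q hg) w

theorem cj_Nh {g : Matrix (Fin 2) (Fin 2) ℂ} (hg : g * gᴴ = 1) :
    cj g (Nh : Op (Fin (Q + 1))) = Nh := conj_Nh (sp_unitary' Q hg)

theorem norm_cj {g : Matrix (Fin 2) (Fin 2) ℂ} (hg : g * gᴴ = 1) (X : Op (Fin (Q + 1))) :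
    ‖cj g X‖ = ‖X‖ := by
  have h1 : ∀ (h : Matrix (Fin 2) (Fin 2) ℂ) (_ : h * hᴴ = 1) (Y : Op (Fin (Q + 1))),
      ‖cj h Y‖ ≤ ‖Y‖ := by
    intro h hh Y
    unfold cj
    calc ‖Rg Q h * Y * star (Rg Q h)‖ ≤ ‖Rg Q h‖ * ‖Y‖ * ‖star (Rg Q h)‖ :=
          (norm_mul_le _ _).trans (mul_le_mul_of_nonneg_right (norm_mul_le _ _) (norm_nonneg _))
      _ = ‖Y‖ := by
          have h2 : ‖Rg Q h‖ = 1 := norm_Gam (sp_unitary' Q hh)
          rw [norm_star, h2]; ring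
  refine le_antisymm (h1 g hg X) ?_
  have h3 : gᴴ * (gᴴ)ᴴ = 1 := by
    rw [Matrix.conjTranspose_conjTranspose]; exact mul_eq_one_comm.1 hg
  have h2 := h1 gᴴ h3 (cj g X)
  rwa [cj_cj, mul_eq_one_comm.1 hg, cj_id] at h2

theorem continuous_cj (X : Op (Fin (Q + 1))) :
    Continuous fun g : Matrix (Fin 2) (Fin 2) ℂ => cj g X := by
  unfold cj
  exact (continuous_Rg.mul continuous_const).mul (continuous_star.comp continuous_Rg)

/-! ## pair annihilators -/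

theorem wM_eq (p : Fin (2 * Q - 1)) : wM Q p = PV Q p := rfl

theorem pa_sum {ι : Type*} [LinearOrder ι] [Fintype ι] {κ : Type*} (s : Finset κ)
    (w : κ → Matrix ι ι ℂ) : pa (∑ k ∈ s, w k) = ∑ k ∈ s, pa (w k) := by
  classical
  have h0 : pa (0 : Matrix ι ι ℂ) = 0 := by
    have := pa_smul (0 : ℂ) (0 : Matrix ι ι ℂ)
    simpa using this
  induction s using Finset.induction_on with
  | empty => simp [h0]
  | insert a s ha ih => rw [Finset.sum_insert ha, Finset.sum_insert ha, pa_add, ih]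

/-- the pair annihilator number `p` in the rotated frame -/
def Bg (Q : ℕ) (g : Matrix (Fin 2) (Fin 2) ℂ) (p : Fin (2 * Q - 1)) : Op (Fin (Q + 1)) :=
  cj g (Bp Q p)

/-- **Covariance of the pair annihilators.** -/
theorem Bg_eq {g : Matrix (Fin 2) (Fin 2) ℂ} (hg : g * gᴴ = 1) (p : Fin (2 * Q - 1)) :
    Bg Q g p = star g.det • ∑ q, star (D2 Q g q p) • Bp Q q := by
  unfold Bg Bp
  rw [cj_pa hg, wM_eq, PV_cov, pa_smul, pa_sum]
  congr 1
  refine Finset.sum_congr rfl fun q _ => ?_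
  rw [pa_smul]
  rfl

theorem star_Bg_eq {g : Matrix (Fin 2) (Fin 2) ℂ} (hg : g * gᴴ = 1) (p : Fin (2 * Q - 1)) :
    star (Bg Q g p) = g.det • ∑ q, D2 Q g q p • star (Bp Q q) := by
  rw [Bg_eq hg, star_smul, star_star, star_sum]
  congr 1
  refine Finset.sum_congr rfl fun q _ => ?_
  rw [star_smul, star_star]

theorem det_mul_star {g : Matrix (Fin 2) (Fin 2) ℂ} (hg : g * gᴴ = 1) : g.det * star g.det = 1 := by
  rw [← Matrix.det_conjTranspose, ← Matrix.det_mul, hg, Matrix.det_one]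

/-- `∑ q r, M q r • (star (B q) * X * B r)` -/
def qf (M : Matrix (Fin (2 * Q - 1)) (Fin (2 * Q - 1)) ℂ) (X : Op (Fin (Q + 1))) :
    Op (Fin (Q + 1)) := ∑ q, ∑ r, M q r • (star (Bp Q q) * X * Bp Q r)

theorem qf_add (M N : Matrix (Fin (2 * Q - 1)) (Fin (2 * Q - 1)) ℂ) (X : Op (Fin (Q + 1))) :
    qf (M + N) X = qf M X + qf N X := by
  unfold qf
  simp only [Matrix.add_apply, add_smul, Finset.sum_add_distrib]

theorem qf_smul (a : ℂ) (M : Matrix (Fin (2 * Q - 1)) (Fin (2 * Q - 1)) ℂ)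
    (X : Op (Fin (Q + 1))) : qf (a • M) X = a • qf M X := by
  unfold qf
  simp only [Matrix.smul_apply, smul_eq_mul, Finset.smul_sum, smul_smul]

theorem qf_diagonal (h : Fin (2 * Q - 1) → ℂ) (X : Op (Fin (Q + 1))) :
    qf (Matrix.diagonal h) X = ∑ p, h p • (star (Bp Q p) * X * Bp Q p) := by
  unfold qf
  refine Finset.sum_congr rfl fun q _ => ?_
  rw [Finset.sum_eq_single q]
  · rw [Matrix.diagonal_apply_eq]
  · intro r _ hr
    rw [Matrix.diagonal_apply_ne _ (Ne.symm hr), zero_smul]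
  · intro h; exact absurd (Finset.mem_univ _) h

theorem qf_one (X : Op (Fin (Q + 1))) :
    qf 1 X = ∑ p, star (Bp Q p) * X * Bp Q p := by
  rw [← Matrix.diagonal_one, qf_diagonal]
  simp only [one_smul]

theorem qf_one_one : qf (1 : Matrix (Fin (2 * Q - 1)) (Fin (2 * Q - 1)) ℂ) 1 = HH Q := by
  rw [qf_one]
  simp only [mul_one]
  rfl

theorem star_qf (M : Matrix (Fin (2 * Q - 1)) (Fin (2 * Q - 1)) ℂ) (X : Op (Fin (Q + 1))) :
    star (qf M X) = qf Mᴴ (star X) := by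
  unfold qf
  rw [star_sum]
  conv_lhs => enter [2, q]; rw [star_sum]
  rw [Finset.sum_comm]
  refine Finset.sum_congr rfl fun r _ => Finset.sum_congr rfl fun q _ => ?_
  rw [star_smul, star_mul, star_mul, star_star, Matrix.conjTranspose_apply, mul_assoc]

/-- weighted sums of rotated pair operators with a fixed operator in the middle -/
theorem sum_Bg (g : Matrix (Fin 2) (Fin 2) ℂ) (hg : g * gᴴ = 1)
    (M : Matrix (Fin (2 * Q - 1)) (Fin (2 * Q - 1)) ℂ) (X : Op (Fin (Q + 1))) :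
    ∑ p, ∑ p', M p p' • (star (Bg Q g p) * X * Bg Q g p') = qf (D2 Q g * M * (D2 Q g)ᴴ) X := by
  have h1 : ∀ p p', star (Bg Q g p) * X * Bg Q g p' =
      ∑ q, ∑ r, (D2 Q g q p * star (D2 Q g r p')) • (star (Bp Q q) * X * Bp Q r) := by
    intro p p'
    rw [star_Bg_eq hg, Bg_eq hg, smul_mul_assoc, smul_mul_smul_comm, det_mul_star hg, one_smul,
      Finset.sum_mul, Finset.sum_mul_sum]
    refine Finset.sum_congr rfl fun q _ => Finset.sum_congr rfl fun r _ => ?_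
    rw [smul_mul_assoc, smul_mul_smul_comm]
  simp only [h1, Finset.smul_sum, smul_smul]
  unfold qf
  have h3 : ∀ f : Fin (2 * Q - 1) → Fin (2 * Q - 1) → Fin (2 * Q - 1) → Fin (2 * Q - 1) →
      Op (Fin (Q + 1)),
      (∑ i, ∑ j, ∑ k, ∑ l, f i j k l) = ∑ k, ∑ l, ∑ i, ∑ j, f i j k l := by
    intro f
    have e1 : ∀ i, (∑ j, ∑ k, ∑ l, f i j k l) = ∑ k, ∑ l, ∑ j, f i j k l := by
      intro i
      rw [Finset.sum_comm]
      refine Finset.sum_congr rfl fun k _ => ?_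
      rw [Finset.sum_comm]
    rw [Finset.sum_congr rfl fun i _ => e1 i, Finset.sum_comm]
    refine Finset.sum_congr rfl fun k _ => ?_
    rw [Finset.sum_comm]
  rw [h3]
  refine Finset.sum_congr rfl fun q _ => Finset.sum_congr rfl fun r _ => ?_
  rw [Matrix.mul_apply]
  simp only [Matrix.mul_apply, Matrix.conjTranspose_apply, Finset.sum_mul, Finset.sum_smul]
  rw [Finset.sum_comm]
  refine Finset.sum_congr rfl fun p' _ => Finset.sum_congr rfl fun p _ => ?_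
  congr 1
  ring

/-- conjugation of `qf` -/
theorem cj_qf {g : Matrix (Fin 2) (Fin 2) ℂ} (hg : g * gᴴ = 1)
    (M : Matrix (Fin (2 * Q - 1)) (Fin (2 * Q - 1)) ℂ) (X : Op (Fin (Q + 1))) :
    cj g (qf M X) = qf (D2 Q g * M * (D2 Q g)ᴴ) (cj g X) := by
  rw [← sum_Bg g hg]
  unfold qf
  rw [cj_sum]
  refine Finset.sum_congr rfl fun p _ => ?_
  rw [cj_sum]
  refine Finset.sum_congr rfl fun p' _ => ?_
  rw [cj_smul, cj_mul hg, cj_mul hg, ← cj_star]
  rfl

theorem D2_mul_conjTranspose {g : Matrix (Fin 2) (Fin 2) ℂ} (hg : g * gᴴ = 1) :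
    D2 Q g * (D2 Q g)ᴴ = 1 := by
  rw [D2_conjTranspose, ← D2_mul, hg, D2_one]

/-- **Invariance of the pair sum with an arbitrary operator in the middle.** -/
theorem sum_star_Bg_mul_Bg {g : Matrix (Fin 2) (Fin 2) ℂ} (hg : g * gᴴ = 1)
    (X : Op (Fin (Q + 1))) :
    ∑ p, star (Bg Q g p) * X * Bg Q g p = ∑ p, star (Bp Q p) * X * Bp Q p := by
  have h := sum_Bg g hg (1 : Matrix (Fin (2 * Q - 1)) (Fin (2 * Q - 1)) ℂ) X
  rw [mul_one, D2_mul_conjTranspose hg, qf_one] at h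
  rw [← h]
  refine Finset.sum_congr rfl fun p _ => ?_
  rw [Finset.sum_eq_single p]
  · rw [Matrix.one_apply_eq, one_smul]
  · intro q _ hq
    rw [Matrix.one_apply_ne (Ne.symm hq), zero_smul]
  · intro h; exact absurd (Finset.mem_univ _) h

/-- **Rotation invariance of the Hamiltonian.** -/
theorem cj_HH {g : Matrix (Fin 2) (Fin 2) ℂ} (hg : g * gᴴ = 1) : cj g (HH Q) = HH Q := by
  rw [← qf_one_one, cj_qf hg, mul_one, D2_mul_conjTranspose hg, cj_one hg]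

theorem sum_star_Bg {g : Matrix (Fin 2) (Fin 2) ℂ} (hg : g * gᴴ = 1) :
    ∑ p, star (Bg Q g p) * Bg Q g p = HH Q := by
  have h := sum_star_Bg_mul_Bg (Q := Q) hg 1
  simp only [mul_one] at h
  exact h

theorem Rg_mul_HH {g : Matrix (Fin 2) (Fin 2) ℂ} (hg : g * gᴴ = 1) :
    Rg Q g * HH Q = HH Q * Rg Q g := by
  have h := cj_HH (Q := Q) hg
  unfold cj at h
  calc Rg Q g * HH Q = Rg Q g * HH Q * (star (Rg Q g) * Rg Q g) := by
        rw [star_Rg_mul hg, mul_one]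
    _ = HH Q * Rg Q g := by rw [← mul_assoc, h]

/-- zero modes are rotation invariant -/
theorem Bp_Rg_eq_zero {g : Matrix (Fin 2) (Fin 2) ℂ} (hg : g * gᴴ = 1) {v : Fk (Fin (Q + 1))}
    (hv : ∀ p, Bp Q p v = 0) (p : Fin (2 * Q - 1)) : Bp Q p (Rg Q g v) = 0 := by
  have hg' : gᴴ * (gᴴ)ᴴ = 1 := by
    rw [Matrix.conjTranspose_conjTranspose]; exact mul_eq_one_comm.1 hg
  have h1 : Bp Q p * Rg Q g = Rg Q g * Bg Q gᴴ p := by
    unfold Bg cj
    rw [star_Rg, Matrix.conjTranspose_conjTranspose, ← mul_assoc, ← mul_assoc, ← Rg_mul, hg,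
      Rg_one, one_mul]
  rw [← mul_ap, h1, mul_ap, Bg_eq hg', smul_ap, sum_ap]
  have h2 : ∑ q, (star (D2 Q gᴴ q p) • Bp Q q) v = 0 := by
    refine Finset.sum_eq_zero fun q _ => ?_
    rw [smul_ap, hv, smul_zero]
  rw [h2, smul_zero, map_zero]

theorem continuous_Bg (p : Fin (2 * Q - 1)) :
    Continuous fun g : Matrix (Fin 2) (Fin 2) ℂ => Bg Q g p := continuous_cj _

theorem Bg_mul (g h : Matrix (Fin 2) (Fin 2) ℂ) (p : Fin (2 * Q - 1)) :
    Bg Q (g * h) p = cj g (Bg Q h p) := by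
  unfold Bg; rw [cj_cj]

theorem Bg_diagonal {d : Fin 2 → ℂ} (hd : Matrix.diagonal d * (Matrix.diagonal d)ᴴ = 1)
    (p : Fin (2 * Q - 1)) : Bg Q (Matrix.diagonal d) p =
      (star (d 0 * d 1) * star (d 0 ^ (2 * Q - 2 - (p : ℕ)) * d 1 ^ (p : ℕ))) • Bp Q p := by
  rw [Bg_eq hd, D2_diagonal, Finset.sum_eq_single p]
  · rw [Matrix.diagonal_apply_eq, smul_smul, Matrix.det_diagonal, Fin.prod_univ_two]
  · intro q _ hq
    rw [Matrix.diagonal_apply_ne _ hq, star_zero, zero_smul]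
  · intro h; exact absurd (Finset.mem_univ _) h

/-! ## the first pair vector -/

theorem Bp_zero (hQ : 1 ≤ Q) :
    Bp Q ⟨0, by omega⟩ = c (⟨1, by omega⟩ : Fin (Q + 1)) * c (0 : Fin (Q + 1)) := by
  obtain ⟨n, rfl⟩ : ∃ n, Q = n + 1 := ⟨Q - 1, by omega⟩
  unfold Bp
  have h2 : (0 : ℝ) < Real.sqrt 2 := Real.sqrt_pos.2 (by norm_num)
  have hval : ∀ i j : Fin (n + 1 + 1), (wM (n + 1) ⟨0, by omega⟩ i j) =
      if (i : ℕ) = 0 ∧ (j : ℕ) = 1 then ((Real.sqrt 2 : ℝ) : ℂ)⁻¹ else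
        if (i : ℕ) = 1 ∧ (j : ℕ) = 0 then -((Real.sqrt 2 : ℝ) : ℂ)⁻¹ else 0 := by
    intro i j
    rw [wM_apply, pairVec]
    have hn : pairNorm (n + 1) (0 + 1) = (n + 1 : ℝ) := by
      rw [pairNorm_succ n 0 (Nat.zero_le _)]; simp
    have hs : Real.sqrt (2 * ((n : ℝ) + 1)) = Real.sqrt 2 * Real.sqrt ((n : ℝ) + 1) :=
      Real.sqrt_mul (by norm_num) _
    have hpos : (0 : ℝ) < Real.sqrt ((n : ℝ) + 1) := Real.sqrt_pos.2 (by positivity)
    have hsum : (i : ℕ) + j = ((⟨0, by omega⟩ : Fin (2 * (n + 1) - 1)) : ℕ) + 1 ↔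
        ((i : ℕ) = 0 ∧ (j : ℕ) = 1) ∨ ((i : ℕ) = 1 ∧ (j : ℕ) = 0) := by
      simp only
      omega
    simp only [hsum]
    by_cases h01 : (i : ℕ) = 0 ∧ (j : ℕ) = 1
    · rw [if_pos (Or.inl h01), if_pos h01, h01.1, h01.2]
      simp only [zero_add] at hn ⊢
      rw [hn, hs]
      have : ((1 : ℕ) - (0 : ℕ) : ℝ) * Real.sqrt ((Nat.choose (n + 1) 0 : ℝ) *
          (Nat.choose (n + 1) 1 : ℝ)) / (Real.sqrt 2 * Real.sqrt ((n : ℝ) + 1)) =
          (Real.sqrt 2)⁻¹ := by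
        rw [Nat.choose_zero_right, Nat.choose_one_right]
        push_cast
        rw [one_mul]
        field_simp
        ring
      rw [this]
      push_cast; rfl
    · rw [if_neg h01]
      by_cases h10 : (i : ℕ) = 1 ∧ (j : ℕ) = 0
      · rw [if_pos (Or.inr h10), if_pos h10, h10.1, h10.2]
        simp only [zero_add] at hn ⊢
        rw [hn, hs]
        have : ((0 : ℕ) - (1 : ℕ) : ℝ) * Real.sqrt ((Nat.choose (n + 1) 1 : ℝ) *
            (Nat.choose (n + 1) 0 : ℝ)) / (Real.sqrt 2 * Real.sqrt ((n : ℝ) + 1)) =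
            -(Real.sqrt 2)⁻¹ := by
          rw [Nat.choose_zero_right, Nat.choose_one_right]
          push_cast
          rw [mul_one]
          field_simp
          ring
        rw [this]
        push_cast; rfl
      · rw [if_neg h10, if_neg (by tauto)]
        simp
  have h0 : ((0 : Fin (n + 1 + 1)) : ℕ) = 0 := rfl
  have h1 : ((⟨1, by omega⟩ : Fin (n + 1 + 1)) : ℕ) = 1 := rfl
  have hne : (0 : Fin (n + 1 + 1)) ≠ ⟨1, by omega⟩ := by
    intro h; exact absurd (congrArg Fin.val h) (by simp)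
  unfold pa
  have hsum : ∑ i : Fin (n + 1 + 1), ∑ j : Fin (n + 1 + 1),
      (starRingEnd ℂ) (wM (n + 1) ⟨0, by omega⟩ i j) • (c j * c i) =
      (((Real.sqrt 2 : ℝ) : ℂ)⁻¹) • (c (⟨1, by omega⟩ : Fin (n + 1 + 1)) * c 0) +
      (-((Real.sqrt 2 : ℝ) : ℂ)⁻¹) • (c 0 * c (⟨1, by omega⟩ : Fin (n + 1 + 1))) := by
    rw [Finset.sum_eq_add (0 : Fin (n + 1 + 1)) ⟨1, by omega⟩ hne]
    · congr 1
      · rw [Finset.sum_eq_single (⟨1, by omega⟩ : Fin (n + 1 + 1))]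
        · rw [hval, if_pos ⟨rfl, rfl⟩]
          congr 1
          rw [map_inv₀, Complex.conj_ofReal]
        · intro j _ hj
          have hj1 : (j : ℕ) ≠ 1 := fun h => hj (Fin.ext h)
          rw [hval, if_neg (fun h => hj1 h.2), if_neg (fun h => by simp at h)]
          simp
        · intro h; exact absurd (Finset.mem_univ _) h
      · rw [Finset.sum_eq_single (0 : Fin (n + 1 + 1))]
        · rw [hval, if_neg (fun h => by simp at h), if_pos ⟨rfl, rfl⟩]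
          congr 1
          rw [map_neg, map_inv₀, Complex.conj_ofReal]
        · intro j _ hj
          have hj1 : (j : ℕ) ≠ 0 := fun h => hj (Fin.ext h)
          rw [hval, if_neg (fun h => by simp at h), if_neg (fun h => hj1 h.2)]
          simp
        · intro h; exact absurd (Finset.mem_univ _) h
    · intro i _ hi
      have hi0 : (i : ℕ) ≠ 0 := fun h => hi.1 (Fin.ext h)
      have hi1 : (i : ℕ) ≠ 1 := fun h => hi.2 (Fin.ext h)
      refine Finset.sum_eq_zero fun j _ => ?_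
      rw [hval, if_neg (fun h => hi0 h.1), if_neg (fun h => hi1 h.1)]
      simp
    · intro h; exact absurd (Finset.mem_univ _) h
    · intro h; exact absurd (Finset.mem_univ _) h
  rw [hsum]
  have hanti : c (0 : Fin (n + 1 + 1)) * c ⟨1, by omega⟩ = - (c ⟨1, by omega⟩ * c 0) := by
    rw [eq_neg_iff_add_eq_zero]; exact c_c _ _
  rw [hanti, smul_neg, neg_smul, neg_neg, ← add_smul, smul_smul]
  have hc : ((Real.sqrt 2 : ℝ) : ℂ)⁻¹ * (((Real.sqrt 2 : ℝ) : ℂ)⁻¹ + ((Real.sqrt 2 : ℝ) : ℂ)⁻¹) =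
      1 := by
    have h3 : ((Real.sqrt 2 : ℝ) : ℂ) * ((Real.sqrt 2 : ℝ) : ℂ) = 2 := by
      rw [← Complex.ofReal_mul, Real.mul_self_sqrt (by norm_num)]; norm_num
    have h4 : ((Real.sqrt 2 : ℝ) : ℂ) ≠ 0 := by exact_mod_cast h2.ne'
    field_simp
    rw [pow_two, h3]
    norm_num
  rw [hc, one_smul]

/-- **The local pair annihilator is a product of two annihilators.** -/
theorem Bg_zero (hQ : 1 ≤ Q) {g : Matrix (Fin 2) (Fin 2) ℂ} (hg : g * gᴴ = 1) :
    Bg Q g ⟨0, by omega⟩ =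
      an (mv (sp Q g) (e (⟨1, by omega⟩ : Fin (Q + 1)))) *
        an (mv (sp Q g) (e (0 : Fin (Q + 1)))) := by
  unfold Bg
  rw [Bp_zero hQ, cj_mul hg, ← an_e, ← an_e, cj_an hg, cj_an hg]

end

end Crest.Agent.R340.Rot303
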