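import Crest.Agent.R340.Avg_814
import Crest.Agent.R340.Rot3_303
import Crest.Agent.R340.DomF_735

/-!
R340 (S0532), averaging glue of Sec 7 (helper725).

`hf f Q ψ = 3 (cs f Q ‖ψ‖² - re ⟪ψ, dGf f Q ψ⟫)`.

* `w_average` : from the estimate (W) at the centre, `|re⟪φ, X φ⟫ - x ‖φ‖²| ≤ C hf f Q φ` for
  `X = cj g⁻¹ (T g)`, `φ ∈ Z`, to `|re⟪ψ, ∫ s g • T g ψ⟫ - (∫ s g * t g)‖ψ‖²| ≤ C hf Φ Q ψ`,
  `|s g| ≤ cw g`, `∫ cw g • cj g (dGf f Q) = dGf Φ Q`;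
* `f1_final` : the same with constant weight: bound by `C (∑ f/(Q+1)) K ‖ψ‖²`.
-/

set_option autoImplicit false

open Matrix Finset MeasureTheory

namespace Crest.Agent.R340.AvgG725

open Crest.Agent.R340.Fock649 Crest.Agent.R340.Gam303 Crest.Agent.R340.Rot303
open Crest.Agent.R340.Avg814 Crest.Agent.R340.CS809 Crest.Agent.R124.Haar
open Crest.Agent.R340.DomF735 Crest.Agent.R340.Scal725

noncomputable section

variable {Q : ℕ}

/-- `3 (c(Q) ‖ψ‖² - ⟨ψ, dΓ(f) ψ⟩)` -/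
def hf (f : ℕ → ℝ) (Q : ℕ) (ψ : Fk (Fin (Q + 1))) : ℝ :=
  3 * (cs f Q * ‖ψ‖ ^ 2 - (inner ℂ ψ (dGf f Q ψ) : ℂ).re)

lemma g2_mul_ct (g : G2) : (g : Matrix (Fin 2) (Fin 2) ℂ) * (g : Matrix (Fin 2) (Fin 2) ℂ)ᴴ = 1 := by
  have := Matrix.mem_unitaryGroup_iff.1 g.2
  rwa [Matrix.star_eq_conjTranspose] at this

lemma g2_ct_mul (g : G2) : (g : Matrix (Fin 2) (Fin 2) ℂ)ᴴ * (g : Matrix (Fin 2) (Fin 2) ℂ) = 1 :=
  mul_eq_one_comm.1 (g2_mul_ct g)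

/-- norm is preserved by the adjoint rotation -/
lemma norm_star_Rg (g : G2) (ψ : Fk (Fin (Q + 1))) :
    ‖star (Rg Q (g : Matrix (Fin 2) (Fin 2) ℂ)) ψ‖ = ‖ψ‖ := by
  rw [star_Rg]
  have h : ((sp Q ((g : Matrix (Fin 2) (Fin 2) ℂ)ᴴ))).conjTranspose *
      sp Q ((g : Matrix (Fin 2) (Fin 2) ℂ)ᴴ) = 1 := by
    rw [sp_conjTranspose, conjTranspose_conjTranspose, ← sp_mul, g2_mul_ct, sp_one]
  exact norm_Gam_ap h ψ

/-- form of a conjugated operator -/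
lemma inner_cj (g : G2) (X : Op (Fin (Q + 1))) (ψ : Fk (Fin (Q + 1))) :
    (inner ℂ ψ (cj (g : Matrix (Fin 2) (Fin 2) ℂ) X ψ) : ℂ) =
      inner ℂ (star (Rg Q (g : Matrix (Fin 2) (Fin 2) ℂ)) ψ)
        (X (star (Rg Q (g : Matrix (Fin 2) (Fin 2) ℂ)) ψ)) := by
  unfold cj
  rw [mul_ap, mul_ap]
  exact (inner_star_left (Rg Q (g : Matrix (Fin 2) (Fin 2) ℂ)) ψ
    (X (star (Rg Q (g : Matrix (Fin 2) (Fin 2) ℂ)) ψ))).symm

/-- the form of the conjugated `h_f` -/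
lemma hf_rot (f : ℕ → ℝ) (g : G2) (ψ : Fk (Fin (Q + 1))) :
    hf f Q (star (Rg Q (g : Matrix (Fin 2) (Fin 2) ℂ)) ψ) =
      3 * (cs f Q * ‖ψ‖ ^ 2 -
        (inner ℂ ψ (cj (g : Matrix (Fin 2) (Fin 2) ℂ) (dGf f Q) ψ) : ℂ).re) := by
  unfold hf
  rw [norm_star_Rg, inner_cj]

lemma continuous_cj_coe (X : Op (Fin (Q + 1))) :
    Continuous fun g : G2 => cj (g : Matrix (Fin 2) (Fin 2) ℂ) X :=
  (continuous_cj X).comp continuous_subtype_val

lemma secondCountable_G2 : SecondCountableTopology G2 := secondCountable (N := Fin 2)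

/-- **(W) averaged with a radial weight.** -/
theorem w_average {Z : Submodule ℂ (Fk (Fin (Q + 1)))}
    (hZ : ∀ g : G2, ∀ ψ ∈ Z, star (Rg Q (g : Matrix (Fin 2) (Fin 2) ℂ)) ψ ∈ Z)
    {T : G2 → Op (Fin (Q + 1))} (hT : Continuous T) {t : G2 → ℝ} {f : ℕ → ℝ} {C : ℝ}
    (hW : ∀ g : G2, ∀ φ ∈ Z, |(inner ℂ φ (cj (g : Matrix (Fin 2) (Fin 2) ℂ)ᴴ (T g) φ) : ℂ).re -
      t g * ‖φ‖ ^ 2| ≤ C * hf f Q φ)
    {s cw : G2 → ℝ} (hs : AEStronglyMeasurable s hm) (hsc : ∀ g, |s g| ≤ cw g)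
    (hcw : Continuous cw) (hst : Integrable (fun g => s g * t g) hm) {Φ : ℕ → ℝ}
    (hΦ : ∫ g : G2, (cw g : ℂ) • cj (g : Matrix (Fin 2) (Fin 2) ℂ) (dGf f Q) ∂hm = dGf Φ Q)
    (hcs : cs Φ Q = (∫ g, cw g ∂hm) * cs f Q)
    {ψ : Fk (Fin (Q + 1))} (hψ : ψ ∈ Z) :
    |(inner ℂ ψ ((∫ g, (s g : ℂ) • T g ∂hm) ψ) : ℂ).re - (∫ g, s g * t g ∂hm) * ‖ψ‖ ^ 2| ≤
      C * hf Φ Q ψ := by
  have := secondCountable_G2
  have hcwi : Integrable cw hm := integrable_of_cont hcw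
  obtain ⟨K, hK⟩ := isCompact_univ.exists_bound_of_continuousOn (f := cw) hcw.continuousOn
  have hsK : ∀ g, |s g| ≤ K := fun g => (hsc g).trans ((le_abs_self _).trans (hK g trivial))
  have hTi : Integrable (fun g => (s g : ℂ) • T g) hm := integrable_smul_of_bdd hT hs hsK
  -- pointwise bound
  have hpt : ∀ g : G2, |(inner ℂ ψ (T g ψ) : ℂ).re - t g * ‖ψ‖ ^ 2| ≤
      C * (3 * (cs f Q * ‖ψ‖ ^ 2 -
        (inner ℂ ψ (cj (g : Matrix (Fin 2) (Fin 2) ℂ) (dGf f Q) ψ) : ℂ).re)) := by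
    intro g
    have h1 := hW g _ (hZ g ψ hψ)
    rw [hf_rot, norm_star_Rg] at h1
    have e1 : (inner ℂ (star (Rg Q (g : Matrix (Fin 2) (Fin 2) ℂ)) ψ)
        (cj (g : Matrix (Fin 2) (Fin 2) ℂ)ᴴ (T g)
          (star (Rg Q (g : Matrix (Fin 2) (Fin 2) ℂ)) ψ)) : ℂ) = inner ℂ ψ (T g ψ) := by
      rw [← inner_cj, cj_cj, g2_mul_ct, cj_id]
    rw [e1] at h1
    exact h1
  -- the operator integral
  have e2 : (inner ℂ ψ ((∫ g, (s g : ℂ) • T g ∂hm) ψ) : ℂ).re =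
      ∫ g, s g * (inner ℂ ψ (T g ψ) : ℂ).re ∂hm := by
    rw [re_inner_integral_ap hTi]
    refine integral_congr_ae (Filter.Eventually.of_forall fun g => ?_)
    simp only
    rw [smul_ap, inner_smul_right, Complex.re_ofReal_mul]
  have hcj : Continuous fun g : G2 => cj (g : Matrix (Fin 2) (Fin 2) ℂ) (dGf f Q) :=
    continuous_cj_coe _
  have hTf : Integrable (fun g : G2 => (cw g : ℂ) • cj (g : Matrix (Fin 2) (Fin 2) ℂ) (dGf f Q)) hm :=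
    integrable_of_cont ((Complex.continuous_ofReal.comp hcw).smul hcj)
  have e3 : (inner ℂ ψ (dGf Φ Q ψ) : ℂ).re =
      ∫ g, cw g * (inner ℂ ψ (cj (g : Matrix (Fin 2) (Fin 2) ℂ) (dGf f Q) ψ) : ℂ).re ∂hm := by
    rw [← hΦ, re_inner_integral_ap hTf]
    refine integral_congr_ae (Filter.Eventually.of_forall fun g => ?_)
    simp only
    rw [smul_ap, inner_smul_right, Complex.re_ofReal_mul]
  have hcont1 : Continuous fun g : G2 => (inner ℂ ψ (T g ψ) : ℂ).re :=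
    Complex.continuous_re.comp ((innerSL ℂ ψ).continuous.comp ((evL ψ).continuous.comp hT))
  have hcont2 : Continuous fun g : G2 =>
      (inner ℂ ψ (cj (g : Matrix (Fin 2) (Fin 2) ℂ) (dGf f Q) ψ) : ℂ).re :=
    Complex.continuous_re.comp ((innerSL ℂ ψ).continuous.comp ((evL ψ).continuous.comp hcj))
  have hi1 : Integrable (fun g => s g * (inner ℂ ψ (T g ψ) : ℂ).re) hm := by
    obtain ⟨M, hM⟩ := isCompact_univ.exists_bound_of_continuousOn hcont1.continuousOn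
    refine Integrable.of_bound (C := K * M) (hs.mul hcont1.aestronglyMeasurable)
      (Filter.Eventually.of_forall fun g => ?_)
    rw [norm_mul, Real.norm_eq_abs]
    exact mul_le_mul (hsK g) (hM g trivial) (norm_nonneg _) ((abs_nonneg _).trans (hsK g))
  have hi2 : Integrable (fun g => cw g *
      (inner ℂ ψ (cj (g : Matrix (Fin 2) (Fin 2) ℂ) (dGf f Q) ψ) : ℂ).re) hm :=
    integrable_of_cont (hcw.mul hcont2)
  have e4 : (∫ g, s g * (inner ℂ ψ (T g ψ) : ℂ).re ∂hm) - (∫ g, s g * t g ∂hm) * ‖ψ‖ ^ 2 =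
      ∫ g, s g * ((inner ℂ ψ (T g ψ) : ℂ).re - t g * ‖ψ‖ ^ 2) ∂hm := by
    rw [← integral_mul_const, ← integral_sub hi1 (hst.mul_const _)]
    refine integral_congr_ae (Filter.Eventually.of_forall fun g => ?_)
    simp only
    ring
  rw [e2, e4]
  have e5 : C * hf Φ Q ψ = ∫ g, cw g * (C * (3 * (cs f Q * ‖ψ‖ ^ 2 -
        (inner ℂ ψ (cj (g : Matrix (Fin 2) (Fin 2) ℂ) (dGf f Q) ψ) : ℂ).re))) ∂hm := by
    unfold hf
    rw [hcs, e3]
    have e6 : ∀ g : G2, cw g * (C * (3 * (cs f Q * ‖ψ‖ ^ 2 -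
        (inner ℂ ψ (cj (g : Matrix (Fin 2) (Fin 2) ℂ) (dGf f Q) ψ) : ℂ).re))) =
        (3 * C * (cs f Q * ‖ψ‖ ^ 2)) * cw g - (3 * C) * (cw g *
          (inner ℂ ψ (cj (g : Matrix (Fin 2) (Fin 2) ℂ) (dGf f Q) ψ) : ℂ).re) := by
      intro g; ring
    simp only [e6]
    rw [integral_sub (hcwi.const_mul _) (hi2.const_mul _), integral_const_mul, integral_const_mul]
    ring
  rw [e5]
  have hi3 : Integrable (fun g => cw g * (C * (3 * (cs f Q * ‖ψ‖ ^ 2 -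
      (inner ℂ ψ (cj (g : Matrix (Fin 2) (Fin 2) ℂ) (dGf f Q) ψ) : ℂ).re)))) hm :=
    integrable_of_cont (hcw.mul (continuous_const.mul (continuous_const.mul
      (continuous_const.sub hcont2))))
  refine (abs_integral_le_integral_abs).trans ?_
  apply integral_mono_of_nonneg (Filter.Eventually.of_forall fun g => abs_nonneg _) hi3
    (Filter.Eventually.of_forall fun g => ?_)
  simp only
  rw [abs_mul]
  exact mul_le_mul (hsc g) (hpt g) (abs_nonneg _) ((abs_nonneg _).trans (hsc g))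

/-- The average of `dGf f Q`. -/
theorem avg_dGf (f : ℕ → ℝ) :
    ∫ g : G2, cj (g : Matrix (Fin 2) (Fin 2) ℂ) (dGf f Q) ∂hm =
      (((∑ j ∈ range (Q + 1), f j) / (Q + 1) : ℝ) : ℂ) • (Nh : Op (Fin (Q + 1))) := by
  have h := avg_Gam_dG Q (diagonal (Geo986.res Q f))
  have e : ((diagonal (Geo986.res Q f)).trace / ((Q : ℂ) + 1)) =
      (((∑ j ∈ range (Q + 1), f j) / (Q + 1) : ℝ) : ℂ) := by
    rw [trace_diagonal]
    unfold Geo986.res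
    rw [Fin.sum_univ_eq_sum_range (fun j => ((f j : ℝ) : ℂ)) (Q + 1)]
    push_cast
    rfl
  rw [e] at h
  exact h

/-- **(F1), final form**: from `|re⟪φ, X φ⟫ - x‖φ‖²| ≤ C hf f Q φ` at the centre for all
`X = cj g⁻¹ (T g)` to the integrated bound on the `n`-particle sector of `Z`. -/
theorem f1_final {Z : Submodule ℂ (Fk (Fin (Q + 1)))} {n : ℕ}
    (hZ : ∀ g : G2, ∀ ψ ∈ Z, star (Rg Q (g : Matrix (Fin 2) (Fin 2) ℂ)) ψ ∈ Z)
    (hZn : ∀ ψ ∈ Z, (Nh : Op (Fin (Q + 1))) ψ = (n : ℂ) • ψ)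
    {T : G2 → Op (Fin (Q + 1))} (hT : Continuous T) {t : G2 → ℝ} {f : ℕ → ℝ} {C : ℝ}
    (hW : ∀ g : G2, ∀ φ ∈ Z, |(inner ℂ φ (cj (g : Matrix (Fin 2) (Fin 2) ℂ)ᴴ (T g) φ) : ℂ).re -
      t g * ‖φ‖ ^ 2| ≤ C * hf f Q φ)
    {s : G2 → ℝ} (hs : AEStronglyMeasurable s hm) (hsc : ∀ g, |s g| ≤ 1)
    (hst : Integrable (fun g => s g * t g) hm)
    {ψ : Fk (Fin (Q + 1))} (hψ : ψ ∈ Z) :
    |(inner ℂ ψ ((∫ g, (s g : ℂ) • T g ∂hm) ψ) : ℂ).re - (∫ g, s g * t g ∂hm) * ‖ψ‖ ^ 2| ≤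
      C * ((∑ j ∈ range (Q + 1), f j) / (Q + 1) * ((Q : ℝ) + 3 - 3 * n)) * ‖ψ‖ ^ 2 := by
  have := secondCountable_G2
  have hTi : Integrable (fun g => (s g : ℂ) • T g) hm := integrable_smul_of_bdd hT hs hsc
  have hpt : ∀ g : G2, |(inner ℂ ψ (T g ψ) : ℂ).re - t g * ‖ψ‖ ^ 2| ≤
      C * (3 * (cs f Q * ‖ψ‖ ^ 2 -
        (inner ℂ ψ (cj (g : Matrix (Fin 2) (Fin 2) ℂ) (dGf f Q) ψ) : ℂ).re)) := by
    intro g
    have h1 := hW g _ (hZ g ψ hψ)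
    rw [hf_rot, norm_star_Rg] at h1
    have e1 : (inner ℂ (star (Rg Q (g : Matrix (Fin 2) (Fin 2) ℂ)) ψ)
        (cj (g : Matrix (Fin 2) (Fin 2) ℂ)ᴴ (T g)
          (star (Rg Q (g : Matrix (Fin 2) (Fin 2) ℂ)) ψ)) : ℂ) = inner ℂ ψ (T g ψ) := by
      rw [← inner_cj, cj_cj, g2_mul_ct, cj_id]
    rw [e1] at h1
    exact h1
  have e2 : (inner ℂ ψ ((∫ g, (s g : ℂ) • T g ∂hm) ψ) : ℂ).re =
      ∫ g, s g * (inner ℂ ψ (T g ψ) : ℂ).re ∂hm := by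
    rw [re_inner_integral_ap hTi]
    refine integral_congr_ae (Filter.Eventually.of_forall fun g => ?_)
    simp only
    rw [smul_ap, inner_smul_right, Complex.re_ofReal_mul]
  have hcj : Continuous fun g : G2 => cj (g : Matrix (Fin 2) (Fin 2) ℂ) (dGf f Q) :=
    continuous_cj_coe _
  have hcont1 : Continuous fun g : G2 => (inner ℂ ψ (T g ψ) : ℂ).re :=
    Complex.continuous_re.comp ((innerSL ℂ ψ).continuous.comp ((evL ψ).continuous.comp hT))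
  have hcont2 : Continuous fun g : G2 =>
      (inner ℂ ψ (cj (g : Matrix (Fin 2) (Fin 2) ℂ) (dGf f Q) ψ) : ℂ).re :=
    Complex.continuous_re.comp ((innerSL ℂ ψ).continuous.comp ((evL ψ).continuous.comp hcj))
  have e3 : ∫ g : G2, (inner ℂ ψ (cj (g : Matrix (Fin 2) (Fin 2) ℂ) (dGf f Q) ψ) : ℂ).re ∂hm =
      (∑ j ∈ range (Q + 1), f j) / (Q + 1) * n * ‖ψ‖ ^ 2 := by
    rw [← re_inner_integral_ap (integrable_of_cont hcj), avg_dGf, smul_ap, hZn ψ hψ, smul_smul,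
      inner_smul_right, inner_self_eq_norm_sq_to_K]
    have : ((((∑ j ∈ range (Q + 1), f j) / (Q + 1) : ℝ) : ℂ) * (n : ℂ)) =
        (((∑ j ∈ range (Q + 1), f j) / (Q + 1) * n : ℝ) : ℂ) := by push_cast; rfl
    rw [this, Complex.re_ofReal_mul]
    norm_cast
  have hi1 : Integrable (fun g => s g * (inner ℂ ψ (T g ψ) : ℂ).re) hm := by
    obtain ⟨M, hM⟩ := isCompact_univ.exists_bound_of_continuousOn hcont1.continuousOn
    refine Integrable.of_bound (C := 1 * M) (hs.mul hcont1.aestronglyMeasurable)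
      (Filter.Eventually.of_forall fun g => ?_)
    rw [norm_mul, Real.norm_eq_abs]
    exact mul_le_mul (hsc g) (hM g trivial) (norm_nonneg _) zero_le_one
  have e4 : (∫ g, s g * (inner ℂ ψ (T g ψ) : ℂ).re ∂hm) - (∫ g, s g * t g ∂hm) * ‖ψ‖ ^ 2 =
      ∫ g, s g * ((inner ℂ ψ (T g ψ) : ℂ).re - t g * ‖ψ‖ ^ 2) ∂hm := by
    rw [← integral_mul_const, ← integral_sub hi1 (hst.mul_const _)]
    refine integral_congr_ae (Filter.Eventually.of_forall fun g => ?_)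
    simp only
    ring
  rw [e2, e4]
  have e5 : C * ((∑ j ∈ range (Q + 1), f j) / (Q + 1) * ((Q : ℝ) + 3 - 3 * n)) * ‖ψ‖ ^ 2 =
      ∫ g : G2, C * (3 * (cs f Q * ‖ψ‖ ^ 2 -
        (inner ℂ ψ (cj (g : Matrix (Fin 2) (Fin 2) ℂ) (dGf f Q) ψ) : ℂ).re)) ∂hm := by
    rw [integral_const_mul, integral_const_mul, integral_sub (integrable_const _)
      (integrable_of_cont hcont2), e3, integral_const]
    simp only [probReal_univ, one_smul]
    unfold cs w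
    field_simp
  rw [e5]
  refine (abs_integral_le_integral_abs).trans ?_
  apply integral_mono_of_nonneg (Filter.Eventually.of_forall fun g => abs_nonneg _)
    (integrable_of_cont (continuous_const.mul (continuous_const.mul
      (continuous_const.sub hcont2)))) (Filter.Eventually.of_forall fun g => ?_)
  simp only
  rw [abs_mul]
  calc |s g| * |(inner ℂ ψ (T g ψ) : ℂ).re - t g * ‖ψ‖ ^ 2| ≤
      1 * |(inner ℂ ψ (T g ψ) : ℂ).re - t g * ‖ψ‖ ^ 2| :=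
        mul_le_mul_of_nonneg_right (hsc g) (abs_nonneg _)
    _ ≤ _ := by rw [one_mul]; exact hpt g

end

end Crest.Agent.R340.AvgG725
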