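import Crest.Agent.R340.Rot1_303
import Crest.Agent.R340.Kernel

/-!
# R340 (helper303), rotation layer 2: covariance of the pair vectors

`PV Q p` = the pair vector `w_p` as a complex matrix. `PV_cov`:
`sp Q g * PV Q p' * (sp Q g)ᵀ = det g • ∑ p, D2 Q g p p' • PV Q p` for every `2 × 2` matrix `g`,
where `D2 Q g` is the spin-`(Q-1)` matrix `sp (2Q-2) g` on the index type `Fin (2Q-1)`.
-/

set_option autoImplicit false

open Matrix Polynomial

namespace Crest.Agent.R340.Rot303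

open Crest.Agent.R340.CS809 Crest.MathPhysics.Laughlin

noncomputable section

/-! ## the index type of pairs -/

/-- index change -/
def cst {Q : ℕ} (p : Fin (2 * Q - 1)) : Fin (2 * Q - 2 + 1) := ⟨p, by omega⟩

@[simp] lemma coe_cst {Q : ℕ} (p : Fin (2 * Q - 1)) : ((cst p : Fin _) : ℕ) = p := rfl

lemma cst_injective {Q : ℕ} : Function.Injective (cst (Q := Q)) := by
  intro p q h
  exact Fin.ext (congrArg (fun x : Fin (2 * Q - 2 + 1) => (x : ℕ)) h)

lemma cst_bijective {Q : ℕ} (hQ : 1 ≤ Q) : Function.Bijective (cst (Q := Q)) := by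
  refine ⟨cst_injective, fun p => ⟨⟨p, by omega⟩, rfl⟩⟩

lemma sum_cst {M : Type*} [AddCommMonoid M] {Q : ℕ} (hQ : 1 ≤ Q) (f : Fin (2 * Q - 2 + 1) → M) :
    ∑ p : Fin (2 * Q - 1), f (cst p) = ∑ p, f p :=
  (cst_bijective hQ).sum_comp f

/-- coherent vectors of the pair multiplet -/
def kp (Q : ℕ) (a : Fin 2 → ℂ) (p : Fin (2 * Q - 1)) : ℂ := kap (2 * Q - 2) a (cst p)

/-- the spin-`(Q-1)` matrices on the index type of pairs -/
def D2 (Q : ℕ) (g : Matrix (Fin 2) (Fin 2) ℂ) : Matrix (Fin (2 * Q - 1)) (Fin (2 * Q - 1)) ℂ :=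
  (sp (2 * Q - 2) g).submatrix cst cst

lemma D2_apply (Q : ℕ) (g : Matrix (Fin 2) (Fin 2) ℂ) (p q : Fin (2 * Q - 1)) :
    D2 Q g p q = sp (2 * Q - 2) g (cst p) (cst q) := rfl

lemma pair_index_cases (Q : ℕ) : 1 ≤ Q ∨ IsEmpty (Fin (2 * Q - 1)) := by
  rcases Nat.eq_zero_or_pos Q with rfl | h
  · right; exact (inferInstance : IsEmpty (Fin 0))
  · exact Or.inl h

theorem D2_mul (Q : ℕ) (g h : Matrix (Fin 2) (Fin 2) ℂ) : D2 Q (g * h) = D2 Q g * D2 Q h := by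
  rcases pair_index_cases Q with hQ | hQ
  · ext p q
    rw [D2_apply, sp_mul, Matrix.mul_apply, Matrix.mul_apply, ← sum_cst hQ]
    rfl
  · exact Subsingleton.elim _ _

theorem D2_one (Q : ℕ) : D2 Q 1 = 1 := by
  ext p q
  rw [D2_apply, sp_one, Matrix.one_apply, Matrix.one_apply]
  simp only [cst_injective.eq_iff]

theorem D2_conjTranspose (Q : ℕ) (g : Matrix (Fin 2) (Fin 2) ℂ) : (D2 Q g)ᴴ = D2 Q gᴴ := by
  ext p q
  rw [Matrix.conjTranspose_apply, D2_apply, D2_apply, ← sp_conjTranspose,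
    Matrix.conjTranspose_apply]

theorem D2_transpose (Q : ℕ) (g : Matrix (Fin 2) (Fin 2) ℂ) : (D2 Q g)ᵀ = D2 Q gᵀ := by
  ext p q
  rw [Matrix.transpose_apply, D2_apply, D2_apply, ← sp_transpose, Matrix.transpose_apply]

theorem D2_mulVec_kp (Q : ℕ) (g : Matrix (Fin 2) (Fin 2) ℂ) (a : Fin 2 → ℂ) :
    D2 Q g *ᵥ kp Q a = kp Q (g *ᵥ a) := by
  rcases pair_index_cases Q with hQ | hQ
  · funext p
    have h := congrFun (sp_mulVec_kap (2 * Q - 2) g a) (cst p)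
    rw [mulVec, dotProduct, ← sum_cst hQ] at h
    exact h
  · funext p; exact hQ.elim p

theorem D2_mem_unitary (Q : ℕ) {g : Matrix (Fin 2) (Fin 2) ℂ}
    (hg : g ∈ Matrix.unitaryGroup (Fin 2) ℂ) :
    D2 Q g ∈ Matrix.unitaryGroup (Fin (2 * Q - 1)) ℂ := by
  rw [Matrix.mem_unitaryGroup_iff'] at hg ⊢
  rw [Matrix.star_eq_conjTranspose] at hg ⊢
  rw [D2_conjTranspose, ← D2_mul, hg, D2_one]

theorem D2_diagonal (Q : ℕ) (d : Fin 2 → ℂ) :
    D2 Q (Matrix.diagonal d) =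
      Matrix.diagonal fun p : Fin (2 * Q - 1) => d 0 ^ (2 * Q - 2 - (p : ℕ)) * d 1 ^ (p : ℕ) := by
  ext p q
  rw [D2_apply, sp_diagonal, Matrix.diagonal_apply, Matrix.diagonal_apply]
  simp only [cst_injective.eq_iff, coe_cst]

theorem continuous_D2 (Q : ℕ) : Continuous fun g : Matrix (Fin 2) (Fin 2) ℂ => D2 Q g := by
  refine continuous_matrix fun p q => ?_
  exact (continuous_apply_apply (cst p) (cst q)).comp (continuous_sp (2 * Q - 2))

theorem kp_sep {Q : ℕ} {f : Fin (2 * Q - 1) → ℂ} (h : ∀ a, ∑ p, kp Q a p * f p = 0) : f = 0 := by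
  rcases pair_index_cases Q with hQ | hQ
  · have h1 : (fun p : Fin (2 * Q - 2 + 1) => f ⟨p, by omega⟩) = 0 := by
      refine kap_sep fun a => ?_
      rw [← h a, dotProduct, ← sum_cst hQ]
      refine Finset.sum_congr rfl fun p _ => ?_
      rw [mul_comm]
      rfl
    funext p
    exact congrFun h1 (cst p)
  · funext p; exact hQ.elim p

/-! ## the normalisation of the pair vectors -/

theorem pairNorm_succ (n p : ℕ) (hp : p ≤ 2 * n) :
    pairNorm (n + 1) (p + 1) = (n + 1 : ℝ) * (Nat.choose (2 * n) p : ℝ) := by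
  unfold pairNorm
  have h1 : ((2 * n + 2 : ℕ) : ℝ) * (Nat.choose (2 * n + 1) p : ℝ) =
      (Nat.choose (2 * n + 2) (p + 1) : ℝ) * ((p + 1 : ℕ) : ℝ) := by
    exact_mod_cast Nat.add_one_mul_choose_eq (2 * n + 1) p
  have h2 : (Nat.choose (2 * n) p : ℝ) * ((2 * n + 1 : ℕ) : ℝ) =
      (Nat.choose (2 * n + 1) p : ℝ) * (((2 * n + 1 - p : ℕ)) : ℝ) := by
    exact_mod_cast Nat.choose_mul_succ_eq (2 * n) p
  have h3 : ((2 * n + 1 - p : ℕ) : ℝ) = 2 * n + 1 - p := by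
    rw [Nat.cast_sub (by omega)]; push_cast; ring
  rw [h3] at h2
  have h4 : 2 * (n + 1) = 2 * n + 2 := by ring
  rw [h4]
  push_cast at h1 h2 ⊢
  have h5 : (2 : ℝ) * (2 * (n + 1) - 1) ≠ 0 := by
    have : (0 : ℝ) ≤ n := Nat.cast_nonneg n
    nlinarith
  rw [div_eq_iff h5]
  have h6 : ((p : ℝ) + 1) * (2 * (n + 1) - (p + 1)) * (Nat.choose (2 * n + 2) (p + 1) : ℝ) =
      (2 * n + 2) * ((Nat.choose (2 * n + 1) p : ℝ) * (2 * n + 1 - p)) := by
    linear_combination (-(2 * (n + 1) - (p + 1)) : ℝ) * h1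
  rw [h6, ← h2]
  ring

/-- the pair vector as a complex matrix -/
def PV (Q : ℕ) (p : Fin (2 * Q - 1)) : Matrix (Fin (Q + 1)) (Fin (Q + 1)) ℂ :=
  Matrix.of fun i j => (pairVec Q p i j : ℂ)

lemma PV_apply (Q : ℕ) (p : Fin (2 * Q - 1)) (i j : Fin (Q + 1)) :
    PV Q p i j = (pairVec Q p i j : ℂ) := rfl

lemma PV_transpose (Q : ℕ) (p : Fin (2 * Q - 1)) : (PV Q p)ᵀ = - PV Q p := by
  ext i j
  rw [Matrix.transpose_apply, Matrix.neg_apply, PV_apply, PV_apply, pairVec_swap]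
  push_cast; ring

lemma PV_map_star (Q : ℕ) (p : Fin (2 * Q - 1)) : (PV Q p).map star = PV Q p := by
  ext i j
  rw [Matrix.map_apply, PV_apply]
  exact Complex.conj_ofReal _

theorem sum_kp_PV (n : ℕ) (a : Fin 2 → ℂ) (i j : Fin (n + 1 + 1)) :
    ∑ p, kp (n + 1) a p * PV (n + 1) p i j =
      ((j : ℕ) - (i : ℕ) : ℂ) * (sb (n + 1) i : ℂ) * (sb (n + 1) j : ℂ) *
        (Real.sqrt (2 * (n + 1)) : ℂ)⁻¹ *
        (a 0 ^ (2 * n + 1 - ((i : ℕ) + j)) * a 1 ^ ((i : ℕ) + j - 1)) := by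
  have hi := i.2
  have hj := j.2
  by_cases h0 : (i : ℕ) + j = 0
  · have h1 : (i : ℕ) = 0 := by omega
    have h2 : (j : ℕ) = 0 := by omega
    rw [Finset.sum_eq_zero]
    · simp [h1, h2]
    · intro p _
      rw [PV_apply, pairVec, if_neg (by omega)]
      simp
  by_cases h3 : (i : ℕ) + j = 2 * n + 2
  · have h1 : (i : ℕ) = n + 1 := by omega
    have h2 : (j : ℕ) = n + 1 := by omega
    rw [Finset.sum_eq_zero]
    · simp [h1, h2]
    · intro p _
      have := p.2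
      rw [PV_apply, pairVec, if_neg (by omega)]
      simp
  have hp : (i : ℕ) + j - 1 < 2 * (n + 1) - 1 := by omega
  rw [Finset.sum_eq_single (⟨(i : ℕ) + j - 1, hp⟩ : Fin (2 * (n + 1) - 1))]
  · rw [PV_apply, pairVec]
    have e1 : (i : ℕ) + j = ((i : ℕ) + j - 1) + 1 := by omega
    rw [if_pos e1]
    simp only
    rw [pairNorm_succ n ((i : ℕ) + j - 1) (by omega)]
    have e2 : Real.sqrt (2 * ((n + 1 : ℝ) * (Nat.choose (2 * n) ((i : ℕ) + j - 1) : ℝ))) =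
        Real.sqrt (2 * (n + 1)) * sb (2 * n) ((i : ℕ) + j - 1) := by
      rw [← mul_assoc, Real.sqrt_mul (by positivity)]
      rfl
    have e3 : Real.sqrt ((Nat.choose (n + 1) i : ℝ) * (Nat.choose (n + 1) j : ℝ)) =
        sb (n + 1) i * sb (n + 1) j := by
      rw [Real.sqrt_mul (by positivity)]
      rfl
    rw [e2, e3]
    have e4 : (sb (2 * n) ((i : ℕ) + j - 1) : ℂ) ≠ 0 := by
      exact_mod_cast (sb_pos (by omega)).ne'
    have e5 : (Real.sqrt (2 * (n + 1)) : ℂ) ≠ 0 := by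
      have : 0 < Real.sqrt (2 * ((n : ℝ) + 1)) := Real.sqrt_pos.2 (by positivity)
      exact_mod_cast this.ne'
    have e6 : kp (n + 1) a ⟨(i : ℕ) + j - 1, hp⟩ =
        (sb (2 * n) ((i : ℕ) + j - 1) : ℂ) *
          (a 0 ^ (2 * n + 1 - ((i : ℕ) + j)) * a 1 ^ ((i : ℕ) + j - 1)) := by
      unfold kp kap
      simp only [coe_cst]
      have e7 : 2 * (n + 1) - 2 = 2 * n := by omega
      have e8 : 2 * n - ((i : ℕ) + j - 1) = 2 * n + 1 - ((i : ℕ) + j) := by omega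
      rw [e7, e8]
    rw [e6]
    push_cast
    field_simp
  · intro p _ hne
    rw [PV_apply, pairVec, if_neg]
    · simp
    · intro h
      apply hne
      apply Fin.ext
      simp only
      omega
  · intro h; exact absurd (Finset.mem_univ _) h

lemma choose_pow_aux (n m k : ℕ) (hm : m ≤ n) (hk : k ≤ n) (a0 z0 : ℂ) :
    (Nat.choose n (m + 1) : ℂ) * (a0 ^ (2 * n - 1 - (m + k)) * z0 ^ (n - m)) =
      (Nat.choose n (m + 1) : ℂ) * (z0 * (a0 * z0) ^ (n - (m + 1)) * a0 ^ (n - k)) := by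
  rcases Nat.lt_or_ge m n with h | h
  · have e1 : n - m = (n - (m + 1)) + 1 := by omega
    have e2 : 2 * n - 1 - (m + k) = (n - (m + 1)) + (n - k) := by omega
    rw [e1, e2, mul_pow, pow_add, pow_succ]
    ring
  · rw [Nat.choose_eq_zero_of_lt (by omega)]
    simp

/-- first binomial factor -/
def bF (n : ℕ) (u v : ℂ) (i : ℕ) : ℂ := (Nat.choose n i : ℂ) * u ^ (n - i) * v ^ i

/-- second binomial factor -/
def bG (n : ℕ) (u v : ℂ) (i : ℕ) : ℂ :=
  if i = 0 then 0 else (Nat.choose n (i - 1) : ℂ) * u ^ (n - (i - 1)) * v ^ (i - 1)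

lemma sum_bF (n : ℕ) (u v : ℂ) : ∑ i : Fin (n + 1 + 1), bF n u v i = (u + v) ^ n := by
  rw [Fin.sum_univ_castSucc]
  have h1 : bF n u v ((Fin.last (n + 1) : Fin (n + 1 + 1)) : ℕ) = 0 := by
    simp [bF]
  rw [h1, add_zero, add_comm u v, add_pow]
  rw [← Fin.sum_univ_eq_sum_range (fun m => v ^ m * u ^ (n - m) * (Nat.choose n m : ℂ)) (n + 1)]
  refine Finset.sum_congr rfl fun i _ => ?_
  simp only [bF, Fin.val_castSucc]
  ring

lemma sum_bG (n : ℕ) (u v : ℂ) : ∑ i : Fin (n + 1 + 1), bG n u v i = (u + v) ^ n := by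
  rw [Fin.sum_univ_succ]
  have h1 : bG n u v ((0 : Fin (n + 1 + 1)) : ℕ) = 0 := by
    simp [bG]
  rw [h1, zero_add, add_comm u v, add_pow]
  rw [← Fin.sum_univ_eq_sum_range (fun m => v ^ m * u ^ (n - m) * (Nat.choose n m : ℂ)) (n + 1)]
  refine Finset.sum_congr rfl fun i _ => ?_
  simp only [bG, Fin.val_succ, Nat.succ_ne_zero, if_false, Nat.add_sub_cancel]
  ring

lemma cast_succ_mul_choose (n k : ℕ) :
    ((k : ℂ) + 1) * (Nat.choose (n + 1) (k + 1) : ℂ) = ((n : ℂ) + 1) * (Nat.choose n k : ℂ) := by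
  have h : ((n + 1 : ℕ) : ℂ) * (Nat.choose n k : ℂ) =
      (Nat.choose (n + 1) (k + 1) : ℂ) * ((k + 1 : ℕ) : ℂ) := by
    exact_mod_cast Nat.add_one_mul_choose_eq n k
  push_cast at h
  rw [h]; ring

lemma cast_choose_succ (n k : ℕ) :
    (Nat.choose (n + 1) (k + 1) : ℂ) = (Nat.choose n k : ℂ) + (Nat.choose n (k + 1) : ℂ) := by
  exact_mod_cast Nat.choose_succ_succ n k

lemma pair_term (n i j : ℕ) (hi : i ≤ n + 1) (hj : j ≤ n + 1) (a0 a1 z0 z1 y0 y1 : ℂ) :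
    ((j : ℂ) - i) * (Nat.choose (n + 1) i : ℂ) * (Nat.choose (n + 1) j : ℂ) *
      (a0 ^ (2 * n + 1 - (i + j)) * a1 ^ (i + j - 1)) *
      (z0 ^ (n + 1 - i) * z1 ^ i) * (y0 ^ (n + 1 - j) * y1 ^ j) =
    ((n : ℂ) + 1) * (z0 * y1 * (bF n (a0 * z0) (a1 * z1) i * bG n (a0 * y0) (a1 * y1) j) -
      z1 * y0 * (bG n (a0 * z0) (a1 * z1) i * bF n (a0 * y0) (a1 * y1) j)) := by
  rcases Nat.eq_zero_or_pos i with rfl | hi0
  · rcases Nat.eq_zero_or_pos j with rfl | hj0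
    · simp [bG]
    · obtain ⟨k, rfl⟩ : ∃ k, j = k + 1 := ⟨j - 1, by omega⟩
      have h1 := cast_succ_mul_choose n k
      have e1 : 2 * n + 1 - (0 + (k + 1)) = n + (n - k) := by omega
      have e2 : 0 + (k + 1) - 1 = k := by omega
      have e3 : n + 1 - (k + 1) = n - k := by omega
      rw [e1, e2, e3]
      simp only [bF, bG, Nat.add_sub_cancel, if_true, Nat.succ_ne_zero, if_false,
        Nat.choose_zero_right, Nat.cast_one, Nat.sub_zero, pow_zero, mul_pow, pow_succ, pow_add]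
      push_cast
      linear_combination (a0 ^ n * a0 ^ (n - k) * a1 ^ k * (z0 ^ n * z0) *
        (y0 ^ (n - k) * (y1 ^ k * y1))) * h1
  · obtain ⟨m, rfl⟩ : ∃ m, i = m + 1 := ⟨i - 1, by omega⟩
    rcases Nat.eq_zero_or_pos j with rfl | hj0
    · have h1 := cast_succ_mul_choose n m
      have e1 : 2 * n + 1 - (m + 1 + 0) = n + (n - m) := by omega
      have e2 : m + 1 + 0 - 1 = m := by omega
      have e3 : n + 1 - (m + 1) = n - m := by omega
      rw [e1, e2, e3]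
      simp only [bF, bG, Nat.add_sub_cancel, if_true, Nat.succ_ne_zero, if_false,
        Nat.choose_zero_right, Nat.cast_one, Nat.sub_zero, pow_zero, mul_pow, pow_succ, pow_add]
      push_cast
      linear_combination (-(a0 ^ n * a0 ^ (n - m) * a1 ^ m * (z0 ^ (n - m) * (z1 ^ m * z1)) *
        (y0 ^ n * y0))) * h1
    · obtain ⟨k, rfl⟩ : ∃ k, j = k + 1 := ⟨j - 1, by omega⟩
      have hm : m ≤ n := by omega
      have hk : k ≤ n := by omega
      have h1 := cast_succ_mul_choose n k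
      have h2 := cast_succ_mul_choose n m
      have h3 := cast_choose_succ n k
      have h4 := cast_choose_succ n m
      have t1 := choose_pow_aux n m k hm hk a0 z0
      have t2 := choose_pow_aux n k m hk hm a0 y0
      have e1 : 2 * n + 1 - (m + 1 + (k + 1)) = 2 * n - 1 - (m + k) := by omega
      have e1' : 2 * n - 1 - (k + m) = 2 * n - 1 - (m + k) := by omega
      have e2 : m + 1 + (k + 1) - 1 = m + k + 1 := by omega
      have e3 : n + 1 - (m + 1) = n - m := by omega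
      have e4 : n + 1 - (k + 1) = n - k := by omega
      rw [e1'] at t2
      rw [e1, e2, e3, e4]
      have hc : (((k : ℂ) + 1) - (m + 1)) * (Nat.choose (n + 1) (m + 1) : ℂ) *
          (Nat.choose (n + 1) (k + 1) : ℂ) =
          ((n : ℂ) + 1) * ((Nat.choose n (m + 1) : ℂ) * (Nat.choose n k : ℂ) -
            (Nat.choose n m : ℂ) * (Nat.choose n (k + 1) : ℂ)) := by
        linear_combination (Nat.choose (n + 1) (m + 1) : ℂ) * h1 -
          (Nat.choose (n + 1) (k + 1) : ℂ) * h2 +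
          ((n : ℂ) + 1) * (Nat.choose n k : ℂ) * h4 - ((n : ℂ) + 1) * (Nat.choose n m : ℂ) * h3
      push_cast
      rw [hc]
      simp only [bF, bG, Nat.add_sub_cancel, Nat.succ_ne_zero, if_false]
      have hA : ((Nat.choose n (m + 1) : ℂ) * (Nat.choose n k : ℂ)) *
          (a0 ^ (2 * n - 1 - (m + k)) * a1 ^ (m + k + 1)) *
          (z0 ^ (n - m) * z1 ^ (m + 1)) * (y0 ^ (n - k) * y1 ^ (k + 1)) =
          z0 * y1 * ((Nat.choose n (m + 1) : ℂ) * (a0 * z0) ^ (n - (m + 1)) *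
            (a1 * z1) ^ (m + 1) *
            ((Nat.choose n k : ℂ) * (a0 * y0) ^ (n - k) * (a1 * y1) ^ k)) := by
        rw [mul_pow a1 z1, mul_pow a1 y1, mul_pow a0 y0, pow_succ y1 k, pow_succ a1 (m + k),
          pow_add a1 m k, pow_succ a1 m]
        linear_combination ((Nat.choose n k : ℂ) * (a1 ^ m * a1 ^ k * a1) * z1 ^ (m + 1) *
          (y0 ^ (n - k) * (y1 ^ k * y1))) * t1
      have hB : ((Nat.choose n m : ℂ) * (Nat.choose n (k + 1) : ℂ)) *
          (a0 ^ (2 * n - 1 - (m + k)) * a1 ^ (m + k + 1)) *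
          (z0 ^ (n - m) * z1 ^ (m + 1)) * (y0 ^ (n - k) * y1 ^ (k + 1)) =
          z1 * y0 * ((Nat.choose n m : ℂ) * (a0 * z0) ^ (n - m) * (a1 * z1) ^ m *
            ((Nat.choose n (k + 1) : ℂ) * (a0 * y0) ^ (n - (k + 1)) *
            (a1 * y1) ^ (k + 1))) := by
        rw [mul_pow a1 z1, mul_pow a1 y1, mul_pow a0 z0, pow_succ z1 m, pow_succ a1 (m + k),
          pow_add a1 m k, pow_succ a1 k]
        linear_combination ((Nat.choose n m : ℂ) * (a1 ^ m * a1 ^ k * a1) * y1 ^ (k + 1) *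
          (z0 ^ (n - m) * (z1 ^ m * z1))) * t2
      linear_combination ((n : ℂ) + 1) * hA - ((n : ℂ) + 1) * hB

/-- **Generating function of the pair vectors.** -/
theorem sum_kp_PV_kap (n : ℕ) (a z y : Fin 2 → ℂ) :
    ∑ p, kp (n + 1) a p * (kap (n + 1) z ⬝ᵥ (PV (n + 1) p *ᵥ kap (n + 1) y)) =
      ((n : ℂ) + 1) * (Real.sqrt (2 * (n + 1)) : ℂ)⁻¹ * (z 0 * y 1 - z 1 * y 0) *
        ((a 0 * z 0 + a 1 * z 1) ^ n * (a 0 * y 0 + a 1 * y 1) ^ n) := by
  have h1 : ∑ p, kp (n + 1) a p * (kap (n + 1) z ⬝ᵥ (PV (n + 1) p *ᵥ kap (n + 1) y)) =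
      ∑ i, ∑ j, (∑ p, kp (n + 1) a p * PV (n + 1) p i j) *
        (kap (n + 1) z i * kap (n + 1) y j) := by
    simp only [mulVec, dotProduct, Finset.mul_sum, Finset.sum_mul]
    rw [Finset.sum_comm]
    refine Finset.sum_congr rfl fun i _ => ?_
    rw [Finset.sum_comm]
    refine Finset.sum_congr rfl fun j _ => ?_
    refine Finset.sum_congr rfl fun p _ => ?_
    ring
  have h2 : ∀ i j : Fin (n + 1 + 1), (∑ p, kp (n + 1) a p * PV (n + 1) p i j) *
        (kap (n + 1) z i * kap (n + 1) y j) =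
      (Real.sqrt (2 * (n + 1)) : ℂ)⁻¹ * (((n : ℂ) + 1) * (z 0 * y 1 *
        (bF n (a 0 * z 0) (a 1 * z 1) i * bG n (a 0 * y 0) (a 1 * y 1) j) -
      z 1 * y 0 * (bG n (a 0 * z 0) (a 1 * z 1) i * bF n (a 0 * y 0) (a 1 * y 1) j))) := by
    intro i j
    have hs : ∀ k : ℕ, (sb (n + 1) k : ℂ) * (sb (n + 1) k : ℂ) = (Nat.choose (n + 1) k : ℂ) := by
      intro k
      rw [← Complex.ofReal_mul, sb_mul_self, Complex.ofReal_natCast]
    rw [sum_kp_PV, ← pair_term n i j (by have := i.2; omega) (by have := j.2; omega)]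
    unfold kap
    rw [← hs i, ← hs j]
    ring
  rw [h1]
  simp only [h2]
  simp only [← Finset.mul_sum, Finset.sum_sub_distrib]
  simp only [← Finset.sum_mul]
  rw [sum_bF, sum_bG, sum_bF, sum_bG]
  ring

/-- separation by coherent vectors on both sides -/
theorem mat_sep {Q : ℕ} {M : Matrix (Fin (Q + 1)) (Fin (Q + 1)) ℂ}
    (h : ∀ z y, kap Q z ⬝ᵥ (M *ᵥ kap Q y) = 0) : M = 0 := by
  refine ext_kap fun y => ?_
  rw [Matrix.zero_mulVec]
  refine eq_of_sum_kap fun z => ?_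
  have := h z y
  rw [dotProduct] at this
  simp only [Pi.zero_apply, zero_mul, Finset.sum_const_zero]
  rw [← this]
  exact Finset.sum_congr rfl fun j _ => mul_comm _ _

/-- **Covariance of the pair vectors.** -/
theorem PV_cov (Q : ℕ) (g : Matrix (Fin 2) (Fin 2) ℂ) (p' : Fin (2 * Q - 1)) :
    sp Q g * PV Q p' * (sp Q g)ᵀ = g.det • ∑ p, D2 Q g p p' • PV Q p := by
  rcases Nat.eq_zero_or_pos Q with rfl | hQ
  · exact (IsEmpty.elim (inferInstance : IsEmpty (Fin 0)) p')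
  obtain ⟨n, rfl⟩ : ∃ n, Q = n + 1 := ⟨Q - 1, by omega⟩
  rw [← sub_eq_zero]
  refine mat_sep fun z y => ?_
  have key : (fun q : Fin (2 * (n + 1) - 1) => kap (n + 1) z ⬝ᵥ
      ((sp (n + 1) g * PV (n + 1) q * (sp (n + 1) g)ᵀ -
        g.det • ∑ p, D2 (n + 1) g p q • PV (n + 1) p) *ᵥ kap (n + 1) y)) = 0 := by
    refine kp_sep fun a => ?_
    have hL : ∀ q, kap (n + 1) z ⬝ᵥ
        ((sp (n + 1) g * PV (n + 1) q * (sp (n + 1) g)ᵀ) *ᵥ kap (n + 1) y) =
        kap (n + 1) (gᵀ *ᵥ z) ⬝ᵥ (PV (n + 1) q *ᵥ kap (n + 1) (gᵀ *ᵥ y)) := by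
      intro q
      rw [sp_transpose, ← Matrix.mulVec_mulVec, sp_mulVec_kap, ← Matrix.mulVec_mulVec,
        Matrix.dotProduct_mulVec, ← Matrix.mulVec_transpose, sp_transpose, sp_mulVec_kap]
    have hR : ∀ q, kap (n + 1) z ⬝ᵥ
        ((g.det • ∑ p, D2 (n + 1) g p q • PV (n + 1) p) *ᵥ kap (n + 1) y) =
        g.det * ∑ p, D2 (n + 1) g p q * (kap (n + 1) z ⬝ᵥ (PV (n + 1) p *ᵥ kap (n + 1) y)) := by
      intro q
      rw [Matrix.smul_mulVec, dotProduct_smul, smul_eq_mul, Matrix.sum_mulVec, dotProduct_sum]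
      congr 1
      refine Finset.sum_congr rfl fun p _ => ?_
      rw [Matrix.smul_mulVec, dotProduct_smul, smul_eq_mul]
    have hsum : ∑ q, kp (n + 1) a q * (g.det * ∑ p, D2 (n + 1) g p q *
        (kap (n + 1) z ⬝ᵥ (PV (n + 1) p *ᵥ kap (n + 1) y))) =
        g.det * ∑ p, kp (n + 1) (g *ᵥ a) p *
          (kap (n + 1) z ⬝ᵥ (PV (n + 1) p *ᵥ kap (n + 1) y)) := by
      rw [← D2_mulVec_kp]
      simp only [mulVec, dotProduct, Finset.mul_sum, Finset.sum_mul]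
      rw [Finset.sum_comm]
      refine Finset.sum_congr rfl fun p _ => ?_
      rw [Finset.sum_comm]
      refine Finset.sum_congr rfl fun i _ => ?_
      rw [Finset.sum_comm]
      refine Finset.sum_congr rfl fun j _ => ?_
      refine Finset.sum_congr rfl fun q _ => ?_
      ring
    have hsplit : ∑ q, kp (n + 1) a q * (kap (n + 1) z ⬝ᵥ
      ((sp (n + 1) g * PV (n + 1) q * (sp (n + 1) g)ᵀ -
        g.det • ∑ p, D2 (n + 1) g p q • PV (n + 1) p) *ᵥ kap (n + 1) y)) =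
        ∑ q, kp (n + 1) a q * (kap (n + 1) (gᵀ *ᵥ z) ⬝ᵥ
          (PV (n + 1) q *ᵥ kap (n + 1) (gᵀ *ᵥ y))) -
        ∑ q, kp (n + 1) a q * (g.det * ∑ p, D2 (n + 1) g p q *
        (kap (n + 1) z ⬝ᵥ (PV (n + 1) p *ᵥ kap (n + 1) y))) := by
      rw [← Finset.sum_sub_distrib]
      refine Finset.sum_congr rfl fun q _ => ?_
      rw [Matrix.sub_mulVec, dotProduct_sub, hL, hR, mul_sub]
    rw [hsplit, hsum, sum_kp_PV_kap, sum_kp_PV_kap]
    have d1 : (gᵀ *ᵥ z) 0 = g 0 0 * z 0 + g 1 0 * z 1 := by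
      simp [Matrix.mulVec, dotProduct, Fin.sum_univ_two]
    have d2 : (gᵀ *ᵥ z) 1 = g 0 1 * z 0 + g 1 1 * z 1 := by
      simp [Matrix.mulVec, dotProduct, Fin.sum_univ_two]
    have d3 : (gᵀ *ᵥ y) 0 = g 0 0 * y 0 + g 1 0 * y 1 := by
      simp [Matrix.mulVec, dotProduct, Fin.sum_univ_two]
    have d4 : (gᵀ *ᵥ y) 1 = g 0 1 * y 0 + g 1 1 * y 1 := by
      simp [Matrix.mulVec, dotProduct, Fin.sum_univ_two]
    have d5 : (g *ᵥ a) 0 = g 0 0 * a 0 + g 0 1 * a 1 := by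
      simp [Matrix.mulVec, dotProduct, Fin.sum_univ_two]
    have d6 : (g *ᵥ a) 1 = g 1 0 * a 0 + g 1 1 * a 1 := by
      simp [Matrix.mulVec, dotProduct, Fin.sum_univ_two]
    have d7 : a 0 * (gᵀ *ᵥ z) 0 + a 1 * (gᵀ *ᵥ z) 1 =
        (g *ᵥ a) 0 * z 0 + (g *ᵥ a) 1 * z 1 := by
      rw [d1, d2, d5, d6]; ring
    have d8 : a 0 * (gᵀ *ᵥ y) 0 + a 1 * (gᵀ *ᵥ y) 1 =
        (g *ᵥ a) 0 * y 0 + (g *ᵥ a) 1 * y 1 := by
      rw [d3, d4, d5, d6]; ring
    rw [d7, d8, d1, d2, d3, d4, Matrix.det_fin_two]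
    ring
  exact congrFun key p'

end

end Crest.Agent.R340.Rot303
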