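import Crest.Agent.R340.Bridge2_649
import Crest.Agent.R340.Bridge_320

/-!
# The two bridges agree (helper649, R340)

`Bridge649` and `Br320` define the same pair matrices, pair annihilators, Hamiltonian and
particle-number sectors, and (on antisymmetric functions) the same map to Fock space.
-/

set_option autoImplicit false

namespace Crest.Agent.R340.BrEq649

open Finset Crest.Agent.R340.Fock649 Crest.MathPhysics.Laughlin

theorem wM_eq (Q : ℕ) (p : Fin (2 * Q - 1)) : Bridge649.wM Q p = Br320.wM Q p := rfl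

theorem Bp_eq (Q : ℕ) (p : Fin (2 * Q - 1)) : Bridge649.Bp Q p = Br320.Bp Q p := rfl

theorem HH_eq (Q : ℕ) : Bridge649.HH Q = Br320.HH Q := rfl

theorem sector_eq (ι : Type*) [LinearOrder ι] [Fintype ι] (N : ℕ) :
    Bridge649.sector ι N = Br320.sector ι N := by
  ext v
  rw [Bridge649.mem_sector, Br320.mem_sector_iff_Nh]

theorem mem_sector_eq {ι : Type*} [LinearOrder ι] [Fintype ι] {N : ℕ} {v : Fk ι} :
    v ∈ Bridge649.sector ι N ↔ v ∈ Br320.sector ι N := by
  rw [sector_eq]

/-- a vector of a sector with positive particle number is determined by its annihilations -/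
theorem sector_ext_c {ι : Type*} [LinearOrder ι] [Fintype ι] {N : ℕ} {v w : Fk ι}
    (hv : v ∈ Bridge649.sector ι (N + 1)) (hw : w ∈ Bridge649.sector ι (N + 1))
    (h : ∀ i, c i v = c i w) : v = w := by
  have h1 : Nh v = Nh w := by
    rw [Bridge649.Nh_eq_sum, sum_ap, sum_ap]
    refine Finset.sum_congr rfl fun i _ => ?_
    rw [mul_ap, mul_ap, h i]
  rw [Bridge649.mem_sector.1 hv, Bridge649.mem_sector.1 hw] at h1
  have h2 : ((N + 1 : ℕ) : ℂ) ≠ 0 := by exact_mod_cast Nat.succ_ne_zero N
  exact smul_right_injective _ h2 h1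

/-- the two maps to Fock space agree on antisymmetric functions -/
theorem toFk_eq {q : ℕ} : ∀ {N : ℕ} {ψ : (Fin N → Fin (q + 1)) → ℂ}, IsAntisymmetric ψ →
    Bridge649.toFk ψ = Br320.toFk ψ
  | 0, ψ, _ => by
    have h1 := Bridge649.sector_zero (Bridge649.toFk_mem_sector ψ)
    have h2 := Bridge649.sector_zero (mem_sector_eq.2 (Br320.toFk_mem ψ))
    rw [h1, h2]
    congr 1
    rw [Br320.toFk_apply, dif_pos (by simp)]
    unfold Bridge649.toFk
    simp only [Finset.univ_unique, Finset.sum_singleton, Bridge649.kt_zero]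
    rw [PiLp.smul_apply, PiLp.smul_apply, ket_apply]
    simp only [Nat.factorial_zero, Nat.cast_one, Real.sqrt_one, Complex.ofReal_one, if_true,
      smul_eq_mul, mul_one, one_mul]
    rw [inv_one, one_mul]
    exact congrArg ψ (Subsingleton.elim _ _)
  | N + 1, ψ, hψ => by
    refine sector_ext_c (Bridge649.toFk_mem_sector ψ) (mem_sector_eq.2 (Br320.toFk_mem ψ)) ?_
    intro i
    have hψ' : Bridge649.AS ψ := hψ
    have hs : Bridge649.slot i ψ = Br320.rem i ψ := rfl
    have h3 := toFk_eq (Br320.rem_anti hψ i)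
    rw [Bridge649.c_toFk hψ', Br320.c_toFk hψ, hs, h3]

end Crest.Agent.R340.BrEq649
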