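import Crest.Agent.R340.Gap

set_option autoImplicit false

open Crest.MathPhysics.Laughlin
open scoped BigOperators

namespace Crest.Agent.R340.Br320

/-! ## Antisymmetric functions and sorted configurations -/

variable {q N : ℕ}

/-- The increasing enumeration of a finset of orbitals with `N` elements. -/
noncomputable def srt (S : Finset (Fin (q + 1))) (h : S.card = N) : Fin N → Fin (q + 1) :=
  fun a => S.orderEmbOfFin h a

theorem srt_inj (S : Finset (Fin (q + 1))) (h : S.card = N) : Function.Injective (srt S h) :=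
  (S.orderEmbOfFin h).injective

theorem range_srt (S : Finset (Fin (q + 1))) (h : S.card = N) :
    Finset.univ.image (srt S h) = S := by
  ext x
  simp only [Finset.mem_image, Finset.mem_univ, true_and]
  have := Finset.range_orderEmbOfFin S h
  constructor
  · rintro ⟨a, rfl⟩
    exact Finset.orderEmbOfFin_mem S h a
  · intro hx
    have : x ∈ Set.range (S.orderEmbOfFin h) := by rw [this]; exact hx
    exact this

/-- Every injective configuration is a permutation of the sorted one. -/
theorem exists_perm (m : Fin N → Fin (q + 1)) (hm : Function.Injective m) :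
    ∃ (h : (Finset.univ.image m).card = N) (π : Equiv.Perm (Fin N)),
      m = srt (Finset.univ.image m) h ∘ π := by
  have h : (Finset.univ.image m).card = N := by
    rw [Finset.card_image_of_injective _ hm]; simp
  refine ⟨h, ?_⟩
  have hex : ∀ a, ∃ b, srt (Finset.univ.image m) h b = m a := by
    intro a
    have h1 : m a ∈ Finset.univ.image (srt (Finset.univ.image m) h) := by
      rw [range_srt]; exact Finset.mem_image_of_mem _ (Finset.mem_univ _)
    simpa using h1
  choose f hf using hex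
  have finj : Function.Injective f := by
    intro a b hab
    apply hm
    rw [← hf a, ← hf b, hab]
  refine ⟨Equiv.ofBijective f ((Finite.injective_iff_bijective).1 finj), ?_⟩
  funext a
  exact (hf a).symm

theorem srt_comp_perm_inj {S T : Finset (Fin (q + 1))} {hS : S.card = N} {hT : T.card = N}
    {π ρ : Equiv.Perm (Fin N)} (h : srt S hS ∘ π = srt T hT ∘ ρ) : S = T ∧ π = ρ := by
  have hST : S = T := by
    rw [← range_srt S hS, ← range_srt T hT]
    ext x
    simp only [Finset.mem_image, Finset.mem_univ, true_and]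
    constructor
    · rintro ⟨a, rfl⟩
      refine ⟨ρ (π.symm a), ?_⟩
      have := congrFun h (π.symm a)
      simpa using this.symm
    · rintro ⟨a, rfl⟩
      refine ⟨π (ρ.symm a), ?_⟩
      have := congrFun h (ρ.symm a)
      simpa using this
  subst hST
  refine ⟨rfl, ?_⟩
  ext a
  have := congrFun h a
  simp only [Function.comp] at this
  exact congrArg Fin.val (srt_inj S hS this)

theorem anti_not_inj {ψ : (Fin N → Fin (q + 1)) → ℂ} (hψ : IsAntisymmetric ψ)
    {m : Fin N → Fin (q + 1)} (hm : ¬ Function.Injective m) : ψ m = 0 := by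
  simp only [Function.Injective, not_forall] at hm
  obtain ⟨a, b, hab, hne⟩ := hm
  exact anti_eq_zero hψ hne hab

/-- Sum over all configurations of a function which is permutation invariant and vanishes on
non injective configurations. -/
theorem sum_symm (f : (Fin N → Fin (q + 1)) → ℂ) (h0 : ∀ m, ¬ Function.Injective m → f m = 0)
    (hs : ∀ (π : Equiv.Perm (Fin N)) m, f (m ∘ π) = f m) :
    ∑ m, f m = (N.factorial : ℂ) * ∑ S : Finset (Fin (q + 1)),
      if h : S.card = N then f (srt S h) else 0 := by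
  have h1 : ∑ m, f m = ∑ m ∈ Finset.univ.filter (fun m : Fin N → Fin (q + 1) =>
      Function.Injective m), f m := by
    rw [Finset.sum_filter]
    refine Finset.sum_congr rfl fun m _ => ?_
    split_ifs with h
    · rfl
    · exact h0 m h
  have h2 : (N.factorial : ℂ) * ∑ S : Finset (Fin (q + 1)),
      (if h : S.card = N then f (srt S h) else 0) =
      ∑ x ∈ (Finset.univ.filter (fun S : Finset (Fin (q + 1)) => S.card = N)).attach ×ˢ
        (Finset.univ : Finset (Equiv.Perm (Fin N))),
        f (srt x.1.1 (Finset.mem_filter.1 x.1.2).2 ∘ x.2) := by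
    rw [Finset.sum_product]
    have h3 : ∀ x : {x // x ∈ Finset.univ.filter (fun S : Finset (Fin (q + 1)) => S.card = N)},
        (∑ y : Equiv.Perm (Fin N), f (srt x.1 (Finset.mem_filter.1 x.2).2 ∘ y)) =
          (N.factorial : ℂ) * f (srt x.1 (Finset.mem_filter.1 x.2).2) := by
      intro x
      rw [Finset.sum_congr rfl (fun y _ => hs y _), Finset.sum_const, Finset.card_univ,
        Fintype.card_perm, Fintype.card_fin, nsmul_eq_mul]
    rw [Finset.sum_congr rfl (fun x _ => h3 x), ← Finset.mul_sum]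
    congr 1
    rw [← Finset.sum_filter_add_sum_filter_not Finset.univ
      (fun S : Finset (Fin (q + 1)) => S.card = N)]
    rw [show (∑ S ∈ Finset.univ.filter (fun S : Finset (Fin (q + 1)) => ¬ S.card = N),
      if h : S.card = N then f (srt S h) else 0) = 0 from Finset.sum_eq_zero fun S hS => by
        rw [dif_neg (Finset.mem_filter.1 hS).2], add_zero]
    rw [← Finset.sum_attach]
    refine Finset.sum_congr rfl fun S _ => ?_
    rw [dif_pos (Finset.mem_filter.1 S.2).2]
  rw [h1, h2]
  symm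
  refine Finset.sum_bij (fun x _ => srt x.1.1 (Finset.mem_filter.1 x.1.2).2 ∘ x.2) ?_ ?_ ?_ ?_
  · rintro ⟨S, π⟩ _
    simp only [Finset.mem_filter, Finset.mem_univ, true_and]
    exact (srt_inj _ _).comp π.injective
  · rintro ⟨⟨S, hS⟩, π⟩ _ ⟨⟨T, hT⟩, ρ⟩ _ h
    obtain ⟨h1, h2⟩ := srt_comp_perm_inj h
    simp only at h1
    subst h1
    subst h2
    rfl
  · intro m hm
    obtain ⟨h, π, hπ⟩ := exists_perm m (Finset.mem_filter.1 hm).2
    refine ⟨(⟨Finset.univ.image m, Finset.mem_filter.2 ⟨Finset.mem_univ _, h⟩⟩, π), ?_, hπ.symm⟩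
    simp
  · intro x _
    rfl

theorem star_mul_symm {χ ψ : (Fin N → Fin (q + 1)) → ℂ} (hχ : IsAntisymmetric χ)
    (hψ : IsAntisymmetric ψ) (π : Equiv.Perm (Fin N)) (m : Fin N → Fin (q + 1)) :
    star (χ (m ∘ π)) * ψ (m ∘ π) = star (χ m) * ψ m := by
  rw [hχ π, hψ π]
  rcases Int.units_eq_one_or (Equiv.Perm.sign π) with h | h <;> simp [h]

theorem dot_eq_sum_srt {χ ψ : (Fin N → Fin (q + 1)) → ℂ} (hχ : IsAntisymmetric χ)
    (hψ : IsAntisymmetric ψ) :
    star χ ⬝ᵥ ψ = (N.factorial : ℂ) * ∑ S : Finset (Fin (q + 1)),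
      if h : S.card = N then star (χ (srt S h)) * ψ (srt S h) else 0 := by
  have := sum_symm (fun m => star (χ m) * ψ m) (fun m hm => by
    simp [anti_not_inj hψ hm]) (fun π m => star_mul_symm hχ hψ π m)
  simpa [dotProduct] using this


/-! ## Removing a particle -/

/-- Position of `i` in the sorted list of `S`. -/
theorem srt_lt_iff (S : Finset (Fin (q + 1))) (h : S.card = N) (i : Fin (q + 1)) (j : Fin N) :
    srt S h j < i ↔ (j : ℕ) < (S.filter (fun x => x < i)).card := by
  have hmono : StrictMono (srt S h) := (S.orderEmbOfFin h).strictMono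
  have hcard : (S.filter (fun x => x < i)).card =
      (Finset.univ.filter (fun j : Fin N => srt S h j < i)).card := by
    rw [← Finset.card_image_of_injective (Finset.univ.filter (fun j : Fin N => srt S h j < i))
      (srt_inj S h)]
    congr 1
    ext x
    simp only [Finset.mem_filter, Finset.mem_image, Finset.mem_univ, true_and]
    constructor
    · rintro ⟨hx, hxi⟩
      rw [← range_srt S h] at hx
      obtain ⟨a, _, rfl⟩ := Finset.mem_image.1 hx
      exact ⟨a, hxi, rfl⟩
    · rintro ⟨a, ha, rfl⟩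
      exact ⟨Finset.orderEmbOfFin_mem S h a, ha⟩
  rw [hcard]
  constructor
  · intro hj
    have hsub : (Finset.univ.filter (fun k : Fin N => (k : ℕ) ≤ j)) ⊆
        Finset.univ.filter (fun j : Fin N => srt S h j < i) := by
      intro k hk
      simp only [Finset.mem_filter, Finset.mem_univ, true_and] at hk ⊢
      exact lt_of_le_of_lt (hmono.monotone (show k ≤ j from hk)) hj
    have h2 := Finset.card_le_card hsub
    have h3 : (Finset.univ.filter (fun k : Fin N => (k : ℕ) ≤ j)).card = j + 1 := by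
      have : (Finset.univ.filter (fun k : Fin N => (k : ℕ) ≤ j)) = Finset.Iic j := by
        ext k; simp only [Finset.mem_filter, Finset.mem_univ, true_and, Finset.mem_Iic]; rfl
      rw [this, Fin.card_Iic]
    omega
  · intro hj
    by_contra hcon
    have hsub : Finset.univ.filter (fun j : Fin N => srt S h j < i) ⊆
        (Finset.univ.filter (fun k : Fin N => (k : ℕ) < j)) := by
      intro k hk
      simp only [Finset.mem_filter, Finset.mem_univ, true_and] at hk ⊢
      by_contra hkj
      push Not at hkj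
      exact hcon (lt_of_le_of_lt (hmono.monotone (show j ≤ k from hkj)) hk)
    have h2 := Finset.card_le_card hsub
    have h3 : (Finset.univ.filter (fun k : Fin N => (k : ℕ) < j)).card = j := by
      have : (Finset.univ.filter (fun k : Fin N => (k : ℕ) < j)) = Finset.Iio j := by
        ext k; simp only [Finset.mem_filter, Finset.mem_univ, true_and, Finset.mem_Iio]; rfl
      rw [this, Fin.card_Iio]
    omega

theorem card_filter_lt_le (S : Finset (Fin (q + 1))) (h : S.card = N) (i : Fin (q + 1)) :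
    (S.filter (fun x => x < i)).card < N + 1 := by
  have := Finset.card_filter_le S (fun x => x < i)
  omega

/-- The sorted list of `insert i S`. -/
theorem srt_insert {S : Finset (Fin (q + 1))} (h : S.card = N) {i : Fin (q + 1)} (hi : i ∉ S)
    (h' : (insert i S).card = N + 1) :
    srt (insert i S) h' = (Fin.cons i (srt S h) : Fin (N + 1) → Fin (q + 1)) ∘
      (Fin.cycleRange ⟨(S.filter (fun x => x < i)).card, card_filter_lt_le S h i⟩) := by
  set k : Fin (N + 1) := ⟨(S.filter (fun x => x < i)).card, card_filter_lt_le S h i⟩ with hk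
  symm
  have hmono : StrictMono (srt S h) := (S.orderEmbOfFin h).strictMono
  set f : Fin (N + 1) → Fin (q + 1) :=
    (Fin.cons i (srt S h) : Fin (N + 1) → Fin (q + 1)) ∘ (Fin.cycleRange k) with hf
  have hfk : f k = i := by
    simp only [hf, Function.comp]
    rw [Fin.cycleRange_self, Fin.cons_zero]
  have hfs : ∀ j : Fin N, f (k.succAbove j) = srt S h j := by
    intro j
    simp only [hf, Function.comp]
    rw [Fin.cycleRange_succAbove, Fin.cons_succ]
  have hlt : ∀ j : Fin N, srt S h j < i ↔ j.castSucc < k := by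
    intro j
    rw [srt_lt_iff, Fin.lt_def]
    rfl
  have hmf : StrictMono f := by
    intro x y hxy
    rcases Fin.eq_self_or_eq_succAbove k x with hx | ⟨a, hx⟩
    · rcases Fin.eq_self_or_eq_succAbove k y with hy | ⟨b, hy⟩
      · rw [hx, hy] at hxy; exact absurd hxy (lt_irrefl _)
      · rw [hx, hy, hfk, hfs]
        rw [hx, hy] at hxy
        have h1 : ¬ srt S h b < i := by
          rw [hlt]
          intro hb
          rw [Fin.succAbove_of_castSucc_lt _ _ hb] at hxy
          exact absurd hxy (not_lt.2 hb.le)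
        have h2 : srt S h b ≠ i := fun h2 => hi (h2 ▸ Finset.orderEmbOfFin_mem S h b)
        exact lt_of_le_of_ne (not_lt.1 h1) (Ne.symm h2)
    · rcases Fin.eq_self_or_eq_succAbove k y with hy | ⟨b, hy⟩
      · rw [hx, hy, hfk, hfs]
        rw [hx, hy] at hxy
        rw [hlt]
        by_contra hb
        rw [Fin.succAbove_of_le_castSucc _ _ (not_lt.1 hb)] at hxy
        have h3 : a.castSucc < k := lt_trans (Fin.castSucc_lt_succ) hxy
        exact hb h3
      · rw [hx, hy, hfs, hfs]
        rw [hx, hy] at hxy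
        exact hmono ((Fin.strictMono_succAbove k).lt_iff_lt.1 hxy)
  have := Finset.orderEmbOfFin_unique h' (f := f) (by
    intro x
    rcases Fin.eq_self_or_eq_succAbove k x with hx | ⟨a, hx⟩
    · rw [hx, hfk]; exact Finset.mem_insert_self _ _
    · rw [hx, hfs]; exact Finset.mem_insert_of_mem (Finset.orderEmbOfFin_mem S h a)) hmf
  rw [this]
  rfl

/-- The sign rule. -/
theorem anti_cons_srt {ψ : (Fin (N + 1) → Fin (q + 1)) → ℂ} (hψ : IsAntisymmetric ψ)
    {S : Finset (Fin (q + 1))} (h : S.card = N) {i : Fin (q + 1)} (hi : i ∉ S)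
    (h' : (insert i S).card = N + 1) :
    ψ (Fin.cons i (srt S h)) = (-1) ^ (S.filter (fun x => x < i)).card * ψ (srt (insert i S) h') := by
  rw [srt_insert h hi h', hψ, Fin.sign_cycleRange]
  rw [← mul_assoc]
  push_cast
  rw [← pow_add, ← two_mul, pow_mul]
  simp

theorem anti_cons_mem {ψ : (Fin (N + 1) → Fin (q + 1)) → ℂ} (hψ : IsAntisymmetric ψ)
    {S : Finset (Fin (q + 1))} (h : S.card = N) {i : Fin (q + 1)} (hi : i ∈ S) :
    ψ (Fin.cons i (srt S h)) = 0 := by
  apply anti_not_inj hψ
  intro hinj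
  rw [← range_srt S h] at hi
  obtain ⟨a, _, ha⟩ := Finset.mem_image.1 hi
  have : (0 : Fin (N + 1)) = a.succ := by
    apply hinj
    simp [ha]
  exact absurd this (Fin.succ_ne_zero a).symm

/-- Fix the first orbital. -/
def rem (i : Fin (q + 1)) (ψ : (Fin (N + 1) → Fin (q + 1)) → ℂ) : (Fin N → Fin (q + 1)) → ℂ :=
  fun m => ψ (Fin.cons i m)

theorem rem_anti {ψ : (Fin (N + 1) → Fin (q + 1)) → ℂ} (hψ : IsAntisymmetric ψ)
    (i : Fin (q + 1)) : IsAntisymmetric (rem i ψ) := by
  intro π m
  have h1 : (Fin.cons i (m ∘ π) : Fin (N + 1) → Fin (q + 1)) =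
      (Fin.cons i m : Fin (N + 1) → Fin (q + 1)) ∘
        (Equiv.Perm.decomposeFin.symm (0, π)) := by
    funext a
    refine Fin.cases ?_ (fun b => ?_) a
    · simp
    · simp
  unfold rem
  rw [h1, hψ]
  congr 2
  rw [Equiv.Perm.decomposeFin.symm_sign]
  simp

theorem sum_cons (f : (Fin (N + 1) → Fin (q + 1)) → ℂ) :
    ∑ m, f m = ∑ i, ∑ m : Fin N → Fin (q + 1), f (Fin.cons i m) := by
  rw [← (Fin.consEquiv (fun _ : Fin (N + 1) => Fin (q + 1))).sum_comp, Fintype.sum_prod_type]
  rfl

theorem dot_rem (χ ψ : (Fin (N + 1) → Fin (q + 1)) → ℂ) :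
    star χ ⬝ᵥ ψ = ∑ i, star (rem i χ) ⬝ᵥ rem i ψ := by
  simp only [dotProduct, Pi.star_apply, rem]
  exact sum_cons (fun m => star (χ m) * ψ m)

/-! ## One-body operators -/

theorem sum_agree1 {M : Type*} [AddCommMonoid M] (a : Fin N)
    (m : Fin N → Fin (q + 1)) (F : (Fin N → Fin (q + 1)) → M) :
    (∑ m', if (∀ c, c ≠ a → m c = m' c) then F m' else 0) =
      ∑ i, F (Function.update m a i) := by
  rw [← Finset.sum_filter]
  refine Finset.sum_nbij' (fun m' => m' a) (fun i => Function.update m a i) ?_ ?_ ?_ ?_ ?_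
  · intro m' _; simp
  · intro i _
    simp only [Finset.mem_filter, Finset.mem_univ, true_and]
    intro c hca
    rw [Function.update_of_ne hca]
  · intro m' hm'
    simp only [Finset.mem_filter, Finset.mem_univ, true_and] at hm'
    funext c
    by_cases ha : c = a
    · subst ha; simp
    · rw [Function.update_of_ne ha]
      exact hm' c ha
  · intro i _
    simp
  · intro m' hm'
    simp only [Finset.mem_filter, Finset.mem_univ, true_and] at hm'
    congr 1
    funext c
    by_cases ha : c = a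
    · subst ha; simp
    · rw [Function.update_of_ne ha]
      exact (hm' c ha).symm

theorem embedSite_mulVec (A : Matrix (Fin (q + 1)) (Fin (q + 1)) ℂ) (a : Fin N)
    (ψ : (Fin N → Fin (q + 1)) → ℂ) (m : Fin N → Fin (q + 1)) :
    (embedSite A a).mulVec ψ m = ∑ i, A (m a) i * ψ (Function.update m a i) := by
  have h1 : (embedSite A a).mulVec ψ m =
      ∑ m', if (∀ c, c ≠ a → m c = m' c) then A (m a) (m' a) * ψ m' else 0 := by
    simp only [Matrix.mulVec, dotProduct, embedSite, Matrix.of_apply]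
    refine Finset.sum_congr rfl fun m' _ => ?_
    split_ifs <;> simp
  rw [h1, sum_agree1 a m (fun m' => A (m a) (m' a) * ψ m')]
  simp

theorem oneBody_mulVec (A : Matrix (Fin (q + 1)) (Fin (q + 1)) ℂ)
    (ψ : (Fin N → Fin (q + 1)) → ℂ) (m : Fin N → Fin (q + 1)) :
    (oneBody N A).mulVec ψ m = ∑ a, ∑ i, A (m a) i * ψ (Function.update m a i) := by
  simp only [oneBody, Matrix.sum_mulVec, Finset.sum_apply, embedSite_mulVec]

theorem update_comp_perm (π : Equiv.Perm (Fin N)) (m : Fin N → Fin (q + 1)) (a : Fin N)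
    (i : Fin (q + 1)) :
    Function.update (m ∘ π) a i = (Function.update m (π a) i) ∘ π := by
  funext c
  simp only [Function.update_apply, Function.comp, EmbeddingLike.apply_eq_iff_eq]

theorem oneBody_antisymm (A : Matrix (Fin (q + 1)) (Fin (q + 1)) ℂ)
    {ψ : (Fin N → Fin (q + 1)) → ℂ} (hψ : IsAntisymmetric ψ) :
    IsAntisymmetric ((oneBody N A).mulVec ψ) := by
  intro π m
  rw [oneBody_mulVec, oneBody_mulVec, Finset.mul_sum]
  rw [← Equiv.sum_comp π (fun a => ((Equiv.Perm.sign π : ℤ) : ℂ) *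
    ∑ i, A (m a) i * ψ (Function.update m a i))]
  refine Finset.sum_congr rfl fun a _ => ?_
  rw [Finset.mul_sum]
  refine Finset.sum_congr rfl fun i _ => ?_
  rw [update_comp_perm, hψ π]
  simp only [Function.comp]
  ring

theorem sum_comp_perm (π : Equiv.Perm (Fin N)) (g : (Fin N → Fin (q + 1)) → ℂ) :
    ∑ m, g m = ∑ m, g (m ∘ π) := by
  rw [← Equiv.sum_comp (Equiv.arrowCongr π.symm (Equiv.refl (Fin (q + 1)))) g]
  rfl

theorem sign_sq_mul (π : Equiv.Perm (Fin N)) (x y : ℂ) :
    star (((Equiv.Perm.sign π : ℤ) : ℂ) * x) * (((Equiv.Perm.sign π : ℤ) : ℂ) * y) = star x * y := by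
  rcases Int.units_eq_one_or (Equiv.Perm.sign π) with h | h <;> simp [h]

theorem dot_embedSite {χ ψ : (Fin (N + 1) → Fin (q + 1)) → ℂ} (hχ : IsAntisymmetric χ)
    (hψ : IsAntisymmetric ψ) (A : Matrix (Fin (q + 1)) (Fin (q + 1)) ℂ) (a : Fin (N + 1)) :
    star χ ⬝ᵥ (embedSite A a).mulVec ψ =
      ∑ i, ∑ j, A i j * (star (rem i χ) ⬝ᵥ rem j ψ) := by
  have h1 : star χ ⬝ᵥ (embedSite A a).mulVec ψ =
      ∑ m, star (χ m) * ∑ i, A (m a) i * ψ (Function.update m a i) := by
    simp only [dotProduct, Pi.star_apply, embedSite_mulVec]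
  rw [h1, sum_comp_perm (Equiv.swap 0 a)]
  have h2 : ∀ m : Fin (N + 1) → Fin (q + 1),
      star (χ (m ∘ (Equiv.swap 0 a))) * ∑ i, A ((m ∘ (Equiv.swap 0 a)) a) i *
        ψ (Function.update (m ∘ (Equiv.swap 0 a)) a i) =
      star (χ m) * ∑ i, A (m 0) i * ψ (Function.update m 0 i) := by
    intro m
    rw [Finset.mul_sum, Finset.mul_sum]
    refine Finset.sum_congr rfl fun i _ => ?_
    rw [update_comp_perm, hψ, hχ]
    simp only [Function.comp, Equiv.swap_apply_right]
    have := sign_sq_mul (Equiv.swap (0 : Fin (N + 1)) a) (χ m) (ψ (Function.update m 0 i))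
    linear_combination A (m 0) i * this
  rw [Finset.sum_congr rfl (fun m _ => h2 m), sum_cons]
  refine Finset.sum_congr rfl fun i _ => ?_
  simp only [Fin.cons_zero, Fin.update_cons_zero, dotProduct, Pi.star_apply, rem, Finset.mul_sum]
  rw [Finset.sum_comm]
  refine Finset.sum_congr rfl fun j _ => Finset.sum_congr rfl fun m _ => ?_
  ring

theorem dot_oneBody {χ ψ : (Fin (N + 1) → Fin (q + 1)) → ℂ} (hχ : IsAntisymmetric χ)
    (hψ : IsAntisymmetric ψ) (A : Matrix (Fin (q + 1)) (Fin (q + 1)) ℂ) :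
    star χ ⬝ᵥ (oneBody (N + 1) A).mulVec ψ =
      ((N : ℂ) + 1) * ∑ i, ∑ j, A i j * (star (rem i χ) ⬝ᵥ rem j ψ) := by
  simp only [oneBody, Matrix.sum_mulVec, dotProduct_sum, dot_embedSite hχ hψ, Finset.sum_const,
    Finset.card_univ, Fintype.card_fin, nsmul_eq_mul]
  push_cast
  ring

/-! ## The interaction -/

/-- Pair amplitude of the first two particles. -/
noncomputable def rem2 (p : Fin (2 * q - 1)) (ψ : (Fin (N + 2) → Fin (q + 1)) → ℂ) :
    (Fin N → Fin (q + 1)) → ℂ :=
  ∑ i, ∑ j, (pairVec q p i j : ℂ) • rem j (rem i ψ)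

theorem amp_zero_one (p : Fin (2 * q - 1)) (ψ : (Fin (N + 2) → Fin (q + 1)) → ℂ)
    (i₀ j₀ : Fin (q + 1)) (m : Fin N → Fin (q + 1)) :
    amp 0 1 p ψ (Fin.cons i₀ (Fin.cons j₀ m)) = rem2 p ψ m := by
  simp only [amp, rem2, Finset.sum_apply, Pi.smul_apply, smul_eq_mul]
  refine Finset.sum_congr rfl fun i _ => Finset.sum_congr rfl fun j _ => ?_
  congr 1
  simp only [rem]
  congr 1
  funext a
  refine Fin.cases ?_ (fun b => ?_) a
  · rw [upd2_left (by simp)]; rfl
  · refine Fin.cases ?_ (fun c => ?_) b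
    · rw [show (Fin.succ (0 : Fin (N + 1))) = 1 from rfl, upd2_right]; rfl
    · rw [upd2_of_ne (Fin.succ_ne_zero _) (by
        intro h
        have := congrArg Fin.val h
        simp at this)]
      simp only [Fin.cons_succ]

theorem sum_amp {χ ψ : (Fin (N + 2) → Fin (q + 1)) → ℂ} (hχ : IsAntisymmetric χ)
    (hψ : IsAntisymmetric ψ) {a b : Fin (N + 2)} (hab : a ≠ b) (p : Fin (2 * q - 1)) :
    ∑ m, star (amp a b p χ m) * amp a b p ψ m =
      ((q : ℂ) + 1) ^ 2 * (star (rem2 p χ) ⬝ᵥ rem2 p ψ) := by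
  obtain ⟨π, h0, h1⟩ : ∃ π : Equiv.Perm (Fin (N + 2)), π 0 = a ∧ π 1 = b := by
    have h01 : (0 : Fin (N + 2)) ≠ 1 := by simp
    refine ⟨(Equiv.swap 0 a).trans (Equiv.swap (Equiv.swap 0 a 1) b), ?_, ?_⟩
    · simp only [Equiv.trans_apply, Equiv.swap_apply_left]
      rw [Equiv.swap_apply_of_ne_of_ne _ hab]
      intro h
      have h2 : Equiv.swap 0 a a = Equiv.swap 0 a (Equiv.swap 0 a 1) := congrArg _ h
      rw [Equiv.swap_apply_right, Equiv.swap_apply_self] at h2
      exact h01 h2
    · simp only [Equiv.trans_apply, Equiv.swap_apply_left]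
  subst h0
  subst h1
  have h3 : ∀ m : Fin (N + 2) → Fin (q + 1),
      star (amp (π 0) (π 1) p χ m) * amp (π 0) (π 1) p ψ m =
      star (amp 0 1 p χ (m ∘ π)) * amp 0 1 p ψ (m ∘ π) := by
    intro m
    rw [amp_comp π hχ, amp_comp π hψ, sign_sq_mul]
  rw [Finset.sum_congr rfl (fun m _ => h3 m)]
  rw [← sum_comp_perm π (fun m => star (amp 0 1 p χ m) * amp 0 1 p ψ m)]
  rw [sum_cons, Finset.sum_congr rfl (fun i _ => sum_cons _)]
  simp only [amp_zero_one, Finset.sum_const, Finset.card_univ, Fintype.card_fin, nsmul_eq_mul,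
    dotProduct, Pi.star_apply]
  push_cast
  ring

theorem sum_lt_one (N : ℕ) :
    (∑ a : Fin (N + 2), ∑ b : Fin (N + 2), if a < b then (1 : ℂ) else 0) =
      ((N : ℂ) + 2) * (N + 1) / 2 := by
  have h := two_mul_sum_lt (N := N + 2) (fun _ _ => (1 : ℂ)) (fun _ _ _ => rfl)
  have h2 : (∑ a : Fin (N + 2), ∑ b : Fin (N + 2), if a ≠ b then (1 : ℂ) else 0) =
      ((N : ℂ) + 2) * (N + 1) := by
    have h3 : ∀ a : Fin (N + 2), (∑ b : Fin (N + 2), if a ≠ b then (1 : ℂ) else 0) = (N + 1) := by
      intro a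
      have h4 : (∑ b : Fin (N + 2), if a ≠ b then (1 : ℂ) else 0) =
          (∑ b : Fin (N + 2), (1 : ℂ)) - ∑ b : Fin (N + 2), if a = b then (1 : ℂ) else 0 := by
        rw [← Finset.sum_sub_distrib]
        refine Finset.sum_congr rfl fun b _ => ?_
        by_cases h : a = b <;> simp [h]
      rw [h4]
      simp
      ring
    rw [Finset.sum_congr rfl (fun a _ => h3 a)]
    simp
    ring
  linear_combination (1 / 2 : ℂ) * h + (1 / 2 : ℂ) * h2

theorem dot_interaction_rem {χ ψ : (Fin (N + 2) → Fin (q + 1)) → ℂ} (hχ : IsAntisymmetric χ)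
    (hψ : IsAntisymmetric ψ) :
    star χ ⬝ᵥ (interaction q (N + 2)).mulVec ψ =
      ((N : ℂ) + 2) * (N + 1) / 2 * ∑ p, star (rem2 p χ) ⬝ᵥ rem2 p ψ := by
  have hq : (((q : ℂ) + 1) ^ 2) ≠ 0 := by
    have : ((q : ℂ) + 1) ≠ 0 := by exact_mod_cast Nat.succ_ne_zero q
    positivity
  rw [dot_interaction]
  have h1 : ∀ a b : Fin (N + 2), (if a < b then
        (((q : ℂ) + 1) ^ 2)⁻¹ *
        ∑ p : Fin (2 * q - 1), ∑ m, star (amp a b p χ m) * amp a b p ψ m else 0) =
      (if a < b then (1 : ℂ) else 0) * ∑ p, star (rem2 p χ) ⬝ᵥ rem2 p ψ := by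
    intro a b
    split_ifs with h
    · rw [Finset.sum_congr rfl (fun p _ => sum_amp hχ hψ h.ne p), ← Finset.mul_sum,
        inv_mul_cancel_left₀ hq, one_mul]
    · simp
  simp only [h1, ← Finset.sum_mul, sum_lt_one]

/-! ## Slater determinants -/

/-- The antisymmetric function of a Fock vector. -/
noncomputable def fromFk (N : ℕ) (Φ : Finset (Fin (q + 1)) → ℂ) (m : Fin N → Fin (q + 1)) : ℂ :=
  (((Real.sqrt (N.factorial : ℝ) : ℝ) : ℂ))⁻¹ * ∑ S : Finset (Fin (q + 1)),
    if h : S.card = N then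
      Φ S * Matrix.det (Matrix.of fun a b : Fin N => if m a = srt S h b then (1 : ℂ) else 0) else 0

theorem fromFk_anti (N : ℕ) (Φ : Finset (Fin (q + 1)) → ℂ) : IsAntisymmetric (fromFk N Φ) := by
  intro π m
  unfold fromFk
  rw [mul_left_comm]
  congr 1
  rw [Finset.mul_sum]
  refine Finset.sum_congr rfl fun S _ => ?_
  split_ifs with h
  · rw [mul_left_comm]
    congr 1
    exact Matrix.det_permute π (Matrix.of fun a b : Fin N => if m a = srt S h b then (1 : ℂ) else 0)
  · simp

theorem det_srt {S T : Finset (Fin (q + 1))} (hS : S.card = N) (hT : T.card = N) :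
    Matrix.det (Matrix.of fun a b : Fin N => if srt T hT a = srt S hS b then (1 : ℂ) else 0) =
      if S = T then 1 else 0 := by
  split_ifs with h
  · subst h
    have : (Matrix.of fun a b : Fin N => if srt S hT a = srt S hS b then (1 : ℂ) else 0) = 1 := by
      ext a b
      simp only [Matrix.of_apply, Matrix.one_apply]
      congr 1
      exact propext (srt_inj S hS).eq_iff
    rw [this, Matrix.det_one]
  · have hex : ∃ x ∈ T, x ∉ S := by
      by_contra hcon
      push Not at hcon
      exact h (Finset.eq_of_subset_of_card_le hcon (by rw [hS, hT])).symm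
    obtain ⟨x, hxT, hxS⟩ := hex
    rw [← range_srt T hT] at hxT
    obtain ⟨a, _, rfl⟩ := Finset.mem_image.1 hxT
    apply Matrix.det_eq_zero_of_row_eq_zero a
    intro b
    simp only [Matrix.of_apply]
    rw [if_neg]
    intro hab
    exact hxS (hab ▸ Finset.orderEmbOfFin_mem S hS b)

theorem fromFk_srt (Φ : Finset (Fin (q + 1)) → ℂ) {T : Finset (Fin (q + 1))} (hT : T.card = N) :
    fromFk N Φ (srt T hT) = (((Real.sqrt (N.factorial : ℝ) : ℝ) : ℂ))⁻¹ * Φ T := by
  unfold fromFk
  congr 1
  have : ∀ S : Finset (Fin (q + 1)), (if h : S.card = N then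
      Φ S * Matrix.det (Matrix.of fun a b : Fin N =>
        if srt T hT a = srt S h b then (1 : ℂ) else 0) else 0) =
      if S = T then Φ S else 0 := by
    intro S
    split_ifs with h1 h2 h2
    · rw [det_srt h1 hT, if_pos h2, mul_one]
    · rw [det_srt h1 hT, if_neg h2, mul_zero]
    · exact absurd (h2 ▸ hT) h1
    · rfl
  simp only [this]
  simp

end Crest.Agent.R340.Br320
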