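import Crest.Agent.R340.Fock_649

/-!
# Antisymmetric functions versus Fock space (helper649, R340), part 1: general orbitals
-/

set_option autoImplicit false
set_option linter.unusedSectionVars false

namespace Crest.Agent.R340.Bridge649

open Finset Crest.Agent.R340.Fock649

variable {ι : Type*} [LinearOrder ι] [Fintype ι]

/-- antisymmetric functions -/
def AS {N : ℕ} (ψ : (Fin N → ι) → ℂ) : Prop :=
  ∀ (π : Equiv.Perm (Fin N)) (m : Fin N → ι), ψ (m ∘ π) = ((Equiv.Perm.sign π : ℤ) : ℂ) * ψ m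

/-- product state `d (m 0) * d (m 1) * ... |0⟩` -/
noncomputable def kt : (N : ℕ) → (Fin N → ι) → Fk ι
  | 0, _ => ket ∅
  | (N + 1), m => d (m 0) (kt N (Fin.tail m))

theorem kt_zero (m : Fin 0 → ι) : kt 0 m = ket ∅ := rfl

theorem kt_succ {N : ℕ} (m : Fin (N + 1) → ι) : kt (N + 1) m = d (m 0) (kt N (Fin.tail m)) := rfl

theorem kt_cons {N : ℕ} (j : ι) (m : Fin N → ι) :
    kt (N + 1) (Fin.cons j m : Fin (N + 1) → ι) = d j (kt N m) := by
  rw [kt_succ, Fin.cons_zero, Fin.tail_cons]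

/-- the Fock vector of a function of `N` orbitals -/
noncomputable def toFk {N : ℕ} (ψ : (Fin N → ι) → ℂ) : Fk ι :=
  ((Real.sqrt (N.factorial) : ℂ)⁻¹) • ∑ m, ψ m • kt N m

theorem toFk_add {N : ℕ} (ψ φ : (Fin N → ι) → ℂ) : toFk (ψ + φ) = toFk ψ + toFk φ := by
  simp only [toFk, Pi.add_apply, add_smul, Finset.sum_add_distrib, smul_add]

theorem toFk_smul {N : ℕ} (a : ℂ) (ψ : (Fin N → ι) → ℂ) : toFk (a • ψ) = a • toFk ψ := by
  simp only [toFk, Pi.smul_apply, smul_eq_mul, ← smul_smul, ← Finset.smul_sum]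
  rw [smul_comm]

theorem toFk_zero {N : ℕ} : toFk (0 : (Fin N → ι) → ℂ) = 0 := by
  simp [toFk]

theorem toFk_sub {N : ℕ} (ψ φ : (Fin N → ι) → ℂ) : toFk (ψ - φ) = toFk ψ - toFk φ := by
  simp only [toFk, Pi.sub_apply, sub_smul, Finset.sum_sub_distrib, smul_sub]

theorem toFk_sum {N : ℕ} {κ : Type*} (s : Finset κ) (ψ : κ → (Fin N → ι) → ℂ) :
    toFk (∑ k ∈ s, ψ k) = ∑ k ∈ s, toFk (ψ k) := by
  classical
  induction s using Finset.induction_on with
  | empty => simp [toFk_zero]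
  | insert a s ha ih => rw [Finset.sum_insert ha, Finset.sum_insert ha, toFk_add, ih]

/-- the `N`-particle sector -/
def sector (ι : Type*) [LinearOrder ι] [Fintype ι] (N : ℕ) : Submodule ℂ (Fk ι) where
  carrier := {v | Nh v = (N : ℂ) • v}
  add_mem' := by
    intro a b ha hb
    simp only [Set.mem_ofPred_eq] at *
    rw [map_add, ha, hb, smul_add]
  zero_mem' := by simp
  smul_mem' := by
    intro a v hv
    simp only [Set.mem_ofPred_eq] at *
    rw [map_smul, hv, smul_comm]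

theorem mem_sector {N : ℕ} {v : Fk ι} : v ∈ sector ι N ↔ Nh v = (N : ℂ) • v := Iff.rfl

theorem mem_sector_iff {N : ℕ} {v : Fk ι} :
    v ∈ sector ι N ↔ ∀ T : Finset ι, T.card ≠ N → v T = 0 := by
  rw [mem_sector, Nh_eq]
  constructor
  · intro h T hT
    have h1 := congrArg (fun w : Fk ι => w T) h
    simp only [diag_apply, PiLp.smul_apply, smul_eq_mul] at h1
    have h2 : ((T.card : ℂ) - (N : ℂ)) * v T = 0 := by rw [sub_mul, h1, sub_self]
    rcases mul_eq_zero.1 h2 with h3 | h3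
    · exfalso
      apply hT
      have : (T.card : ℂ) = (N : ℂ) := sub_eq_zero.1 h3
      exact_mod_cast this
    · exact h3
  · intro h
    ext T
    simp only [diag_apply, PiLp.smul_apply, smul_eq_mul]
    by_cases hT : T.card = N
    · rw [hT]
    · rw [h T hT]; simp

theorem d_mem_sector {N : ℕ} {v : Fk ι} (hv : v ∈ sector ι N) (j : ι) :
    d j v ∈ sector ι (N + 1) := by
  rw [mem_sector] at *
  have h := Nh_comm_cr (e j : L ι)
  rw [cr_e] at h
  have h1 : Nh * d j = d j * Nh + d j := by rw [← sub_eq_iff_eq_add']; exact h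
  rw [← mul_ap, h1, add_ap, mul_ap, hv, map_smul]
  push_cast
  rw [add_smul, one_smul]

theorem c_mem_sector {N : ℕ} {v : Fk ι} (hv : v ∈ sector ι (N + 1)) (j : ι) :
    c j v ∈ sector ι N := by
  rw [mem_sector] at *
  have h := Nh_comm_an (e j : L ι)
  rw [an_e] at h
  have h1 : Nh * c j = c j * Nh - c j := by
    rw [sub_eq_iff_eq_add] at h
    rw [h]; abel
  rw [← mul_ap, h1, sub_ap, mul_ap, hv, map_smul]
  push_cast
  rw [add_smul, one_smul, add_sub_cancel_right]

theorem kt_mem_sector : ∀ (N : ℕ) (m : Fin N → ι), kt N m ∈ sector ι N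
  | 0, m => by
    rw [kt_zero, mem_sector, Nh_ket]; simp
  | (N + 1), m => by
    rw [kt_succ]
    exact d_mem_sector (kt_mem_sector N _) _

theorem toFk_mem_sector {N : ℕ} (ψ : (Fin N → ι) → ℂ) : toFk ψ ∈ sector ι N := by
  unfold toFk
  refine Submodule.smul_mem _ _ (Submodule.sum_mem _ fun m _ => Submodule.smul_mem _ _ ?_)
  exact kt_mem_sector N m

theorem c_ket_empty (j : ι) : c j (ket ∅) = 0 := by
  rw [c_ket]; simp

theorem dG_ket_empty (A : Matrix ι ι ℂ) : dG A (ket ∅) = 0 := by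
  unfold dG
  rw [sum_ap]
  refine Finset.sum_eq_zero fun i _ => ?_
  rw [sum_ap]
  refine Finset.sum_eq_zero fun j _ => ?_
  rw [smul_ap, mul_ap, c_ket_empty, map_zero, smul_zero]

/-- action of an annihilator on a product state -/
theorem c_kt : ∀ (N : ℕ) (m : Fin (N + 1) → ι) (j : ι),
    c j (kt (N + 1) m) = ∑ k : Fin (N + 1), (if m k = j then (-1 : ℂ) ^ (k : ℕ) else 0) •
      kt N (k.removeNth m)
  | 0, m, j => by
    rw [kt_succ, kt_zero, Fin.sum_univ_one]
    have h := c_d j (m 0)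
    have h1 : c j * d (m 0) = (if j = m 0 then (1 : Op ι) else 0) - d (m 0) * c j := by
      rw [← h]; abel
    rw [← mul_ap, h1, sub_ap, mul_ap, c_ket_empty, map_zero, sub_zero]
    by_cases hj : m 0 = j
    · rw [if_pos hj, if_pos hj.symm, one_ap]; simp [kt_zero]
    · rw [if_neg hj, if_neg (Ne.symm hj), zero_ap]; simp
  | (N + 1), m, j => by
    rw [kt_succ]
    have h := c_d j (m 0)
    have h1 : c j * d (m 0) = (if j = m 0 then (1 : Op ι) else 0) - d (m 0) * c j := by
      rw [← h]; abel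
    rw [← mul_ap, h1, sub_ap, mul_ap, c_kt N (Fin.tail m) j, map_sum]
    conv_rhs => rw [Fin.sum_univ_succ]
    have h2 : (if j = m 0 then (1 : Op ι) else 0) (kt (N + 1) (Fin.tail m)) =
        (if m 0 = j then (-1 : ℂ) ^ ((0 : Fin (N + 2)) : ℕ) else 0) •
          kt (N + 1) ((0 : Fin (N + 2)).removeNth m) := by
      have h0 : (0 : Fin (N + 2)).removeNth m = Fin.tail m := by
        funext i
        simp [Fin.removeNth, Fin.tail]
      rw [h0]
      by_cases hj : m 0 = j
      · rw [if_pos hj, if_pos hj.symm, one_ap]; simp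
      · rw [if_neg hj, if_neg (Ne.symm hj), zero_ap]; simp
    rw [h2, sub_eq_add_neg, ← Finset.sum_neg_distrib]
    congr 1
    refine Finset.sum_congr rfl fun k _ => ?_
    have h3 : (k.succ).removeNth m = Fin.cons (m 0) (k.removeNth (Fin.tail m)) := by
      funext i
      refine Fin.cases ?_ (fun i => ?_) i
      · simp [Fin.removeNth]
      · simp [Fin.removeNth, Fin.tail, Fin.succ_succAbove_succ]
    rw [h3, kt_cons, map_smul, ← neg_smul]
    congr 1
    have h4 : Fin.tail m k = m k.succ := rfl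
    rw [h4]
    by_cases hj : m k.succ = j
    · rw [if_pos hj, if_pos hj, Fin.val_succ, pow_succ]; ring
    · rw [if_neg hj, if_neg hj, neg_zero]

/-- freeze the first argument -/
def slot {N : ℕ} (j : ι) (ψ : (Fin (N + 1) → ι) → ℂ) : (Fin N → ι) → ℂ :=
  fun m => ψ (Fin.cons j m : Fin (N + 1) → ι)

theorem AS.insertNth {N : ℕ} {ψ : (Fin (N + 1) → ι) → ℂ} (hψ : AS ψ) (k : Fin (N + 1)) (j : ι)
    (m : Fin N → ι) : ψ (k.insertNth j m : Fin (N + 1) → ι) = (-1 : ℂ) ^ (k : ℕ) * slot j ψ m := by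
  rw [← Fin.cons_comp_cycleRange (α := ι) j m k, hψ]
  rw [Fin.sign_cycleRange]
  simp [slot]

theorem AS.slot {N : ℕ} {ψ : (Fin (N + 1) → ι) → ℂ} (hψ : AS ψ) (j : ι) : AS (slot j ψ) := by
  intro π m
  have h1 : (Fin.cons j (m ∘ π) : Fin (N + 1) → ι) =
      (Fin.cons j m : Fin (N + 1) → ι) ∘ (Equiv.Perm.decomposeFin.symm (0, π)) := by
    funext i
    refine Fin.cases ?_ (fun i => ?_) i
    · simp
    · simp
  unfold Bridge649.slot
  rw [h1, hψ]
  congr 2
  simp

/-- annihilator on the Fock vector of an antisymmetric function -/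
theorem c_toFk {N : ℕ} {ψ : (Fin (N + 1) → ι) → ℂ} (hψ : AS ψ) (j : ι) :
    c j (toFk ψ) = (Real.sqrt (N + 1) : ℂ) • toFk (slot j ψ) := by
  unfold toFk
  rw [map_smul, map_sum]
  have h1 : ∀ m : Fin (N + 1) → ι, c j (ψ m • kt (N + 1) m) =
      ∑ k : Fin (N + 1), (ψ m * (if m k = j then (-1 : ℂ) ^ (k : ℕ) else 0)) •
        kt N (k.removeNth m) := by
    intro m
    rw [map_smul, c_kt, Finset.smul_sum]
    refine Finset.sum_congr rfl fun k _ => ?_
    rw [smul_smul]
  rw [Finset.sum_congr rfl fun m _ => h1 m, Finset.sum_comm]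
  have h2 : ∀ k : Fin (N + 1), (∑ m : Fin (N + 1) → ι,
      (ψ m * (if m k = j then (-1 : ℂ) ^ (k : ℕ) else 0)) • kt N (k.removeNth m)) =
      ∑ m : Fin N → ι, slot j ψ m • kt N m := by
    intro k
    have e := (Fin.insertNthEquiv (fun _ : Fin (N + 1) => ι) k)
    rw [← (Fin.insertNthEquiv (fun _ : Fin (N + 1) => ι) k).sum_comp, Fintype.sum_prod_type]
    rw [Finset.sum_eq_single j]
    · refine Finset.sum_congr rfl fun m _ => ?_
      have e1 : (Fin.insertNthEquiv (fun _ : Fin (N + 1) => ι) k) (j, m) = k.insertNth j m := rfl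
      rw [e1, hψ.insertNth, Fin.insertNth_apply_same, if_pos rfl, Fin.removeNth_insertNth]
      congr 1
      rw [mul_comm, ← mul_assoc, ← mul_pow]
      norm_num
    · intro i _ hi
      refine Finset.sum_eq_zero fun m _ => ?_
      have e1 : (Fin.insertNthEquiv (fun _ : Fin (N + 1) => ι) k) (i, m) = k.insertNth i m := rfl
      rw [e1, Fin.insertNth_apply_same, if_neg hi, mul_zero, zero_smul]
    · simp
  rw [Finset.sum_congr rfl fun k _ => h2 k, Finset.sum_const, Finset.card_univ, Fintype.card_fin,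
    ← Nat.cast_smul_eq_nsmul ℂ, smul_smul, smul_smul]
  congr 1
  rw [Nat.factorial_succ]
  have h3 : (0 : ℝ) < N.factorial := by exact_mod_cast Nat.factorial_pos N
  have h4 : (0 : ℝ) < (N : ℝ) + 1 := by positivity
  have h5 : Real.sqrt (((N + 1) * N.factorial : ℕ) : ℝ) =
      Real.sqrt (N + 1) * Real.sqrt N.factorial := by
    push_cast
    rw [Real.sqrt_mul h4.le]
  rw [h5]
  have h6 : (Real.sqrt ((N : ℝ) + 1) : ℂ) ≠ 0 := by
    exact_mod_cast (Real.sqrt_pos.2 h4).ne'
  have h7 : (Real.sqrt (N.factorial : ℝ) : ℂ) ≠ 0 := by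
    exact_mod_cast (Real.sqrt_pos.2 h3).ne'
  have h8 : (Real.sqrt ((N : ℝ) + 1) : ℂ) * (Real.sqrt ((N : ℝ) + 1) : ℂ) = (N : ℂ) + 1 := by
    rw [← Complex.ofReal_mul, Real.mul_self_sqrt h4.le]; push_cast; ring
  push_cast
  rw [mul_inv]
  field_simp
  rw [sq, h8]

/-- product states are antisymmetric -/
theorem kt_swap : ∀ (N : ℕ) (i : Fin N) (m : Fin (N + 1) → ι),
    kt (N + 1) (m ∘ (Equiv.swap i.castSucc i.succ)) = - kt (N + 1) m
  | 0, i, _ => i.elim0
  | (N + 1), i, m => by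
    refine Fin.cases ?_ (fun i => ?_) i
    · -- swap the first two
      have e0 : (m ∘ (Equiv.swap (Fin.castSucc (0 : Fin (N + 1))) (Fin.succ 0))) 0 = m 1 := by
        simp
      have e1 : Fin.tail (m ∘ (Equiv.swap (Fin.castSucc (0 : Fin (N + 1))) (Fin.succ 0))) =
          Fin.cons (m 0) (Fin.tail (Fin.tail m)) := by
        funext k
        refine Fin.cases ?_ (fun k => ?_) k
        · simp [Fin.tail]
        · simp only [Fin.tail, Function.comp, Fin.cons_succ]
          rw [Equiv.swap_apply_of_ne_of_ne]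
          · simp [Fin.ext_iff]
          · simp [Fin.ext_iff]
      rw [kt_succ, e0, e1, kt_cons, kt_succ m, kt_succ (Fin.tail m)]
      have e2 : Fin.tail m 0 = m 1 := rfl
      rw [e2, ← mul_ap, ← mul_ap]
      have h := d_d (m 1) (m 0)
      have h' : d (m 1) * d (m 0) = - (d (m 0) * d (m 1)) := by
        rw [eq_neg_iff_add_eq_zero]; exact h
      rw [h', neg_ap]
    · have e0 : (m ∘ (Equiv.swap (Fin.castSucc i.succ) (Fin.succ i.succ))) 0 = m 0 := by
        simp only [Function.comp]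
        rw [Equiv.swap_apply_of_ne_of_ne]
        · simp [Fin.ext_iff]
        · simp [Fin.ext_iff]
      have e1 : Fin.tail (m ∘ (Equiv.swap (Fin.castSucc i.succ) (Fin.succ i.succ))) =
          (Fin.tail m) ∘ (Equiv.swap i.castSucc i.succ) := by
        funext k
        simp only [Fin.tail, Function.comp]
        congr 1
        have h1 : Fin.castSucc i.succ = Fin.succ i.castSucc := rfl
        rw [h1]
        by_cases hk1 : k = i.castSucc
        · rw [hk1, Equiv.swap_apply_left, Equiv.swap_apply_left]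
        · by_cases hk2 : k = i.succ
          · rw [hk2, Equiv.swap_apply_right, Equiv.swap_apply_right]
          · rw [Equiv.swap_apply_of_ne_of_ne hk1 hk2, Equiv.swap_apply_of_ne_of_ne]
            · exact fun h => hk1 (Fin.succ_injective _ h)
            · exact fun h => hk2 (Fin.succ_injective _ h)
      rw [kt_succ, e0, e1, kt_swap N i, kt_succ m, map_neg]

theorem kt_comp {N : ℕ} (π : Equiv.Perm (Fin N)) (m : Fin N → ι) :
    kt N (m ∘ π) = ((Equiv.Perm.sign π : ℤ) : ℂ) • kt N m := by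
  cases N with
  | zero =>
    have h1 : π = 1 := Subsingleton.elim _ _
    subst h1; simp
  | succ N =>
    have hmem : π ∈ Submonoid.closure
        (Set.range fun i : Fin N => Equiv.swap i.castSucc i.succ) := by
      rw [Equiv.Perm.mclosure_swap_castSucc_succ]; trivial
    induction hmem using Submonoid.closure_induction generalizing m with
    | mem x hx =>
      obtain ⟨i, rfl⟩ := hx
      simp only
      rw [kt_swap, Equiv.Perm.sign_swap (by simp [Fin.ext_iff])]
      simp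
    | one => simp
    | mul x y _ _ hx hy =>
      rw [Equiv.Perm.coe_mul, ← Function.comp_assoc, hy, hx, smul_smul, map_mul]
      congr 1
      push_cast
      ring

theorem Nh_eq_sum : (Nh : Op ι) = ∑ j, d j * c j := by
  unfold Nh dG
  refine Finset.sum_congr rfl fun i _ => ?_
  rw [Finset.sum_eq_single i]
  · simp
  · intro j _ hj
    rw [Matrix.one_apply_ne (Ne.symm hj), zero_smul]
  · simp

theorem inner_d_right (j : ι) (v w : Fk ι) : inner ℂ v (d j w) = inner ℂ (c j v) w := by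
  rw [← star_c, inner_star_right]

theorem inner_d_left (j : ι) (v w : Fk ι) : inner ℂ (d j v) w = inner ℂ v (c j w) := by
  rw [← star_c, inner_star_left]

theorem sum_cons {M : Type*} [AddCommMonoid M] {N : ℕ} (F : (Fin (N + 1) → ι) → M) :
    ∑ m, F m = ∑ j, ∑ m : Fin N → ι, F (Fin.cons j m : Fin (N + 1) → ι) := by
  rw [← (Fin.consEquiv (fun _ : Fin (N + 1) => ι)).sum_comp, Fintype.sum_prod_type]
  rfl

theorem dot_cons {N : ℕ} (χ ψ : (Fin (N + 1) → ι) → ℂ) :
    star χ ⬝ᵥ ψ = ∑ j, star (slot j χ) ⬝ᵥ (slot j ψ) := by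
  unfold dotProduct
  rw [sum_cons]
  rfl

/-- the Fock vector map is isometric on antisymmetric functions -/
theorem inner_toFk : ∀ {N : ℕ} {χ ψ : (Fin N → ι) → ℂ}, AS χ → AS ψ →
    inner ℂ (toFk χ) (toFk ψ) = star χ ⬝ᵥ ψ
  | 0, χ, ψ, _, _ => by
    unfold toFk dotProduct
    rw [inner_smul_left, inner_smul_right]
    simp only [Fintype.sum_unique, kt_zero, inner_smul_left, inner_smul_right]
    have h1 : inner ℂ (ket (∅ : Finset ι)) (ket ∅) = (1 : ℂ) := by
      rw [inner_ket, ket_apply, if_pos rfl]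
    rw [h1]
    simp [mul_comm]
  | (N + 1), χ, ψ, hχ, hψ => by
    have h1 : inner ℂ (toFk χ) (Nh (toFk ψ)) = ((N : ℂ) + 1) * inner ℂ (toFk χ) (toFk ψ) := by
      rw [mem_sector.1 (toFk_mem_sector ψ), inner_smul_right]
      push_cast
      rfl
    have h2 : inner ℂ (toFk χ) (Nh (toFk ψ)) = ((N : ℂ) + 1) * (star χ ⬝ᵥ ψ) := by
      rw [Nh_eq_sum, sum_ap, inner_sum, dot_cons, Finset.mul_sum]
      refine Finset.sum_congr rfl fun j _ => ?_
      rw [mul_ap, inner_d_right, c_toFk hχ, c_toFk hψ, inner_smul_left, inner_smul_right,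
        inner_toFk (hχ.slot j) (hψ.slot j), ← mul_assoc]
      congr 1
      rw [Complex.conj_ofReal, ← Complex.ofReal_mul, Real.mul_self_sqrt (by positivity)]
      push_cast
      rfl
    have h3 : ((N : ℂ) + 1) ≠ 0 := by exact_mod_cast Nat.succ_ne_zero N
    exact mul_left_cancel₀ h3 (h1.symm.trans h2)

theorem norm_toFk_sq {N : ℕ} {ψ : (Fin N → ι) → ℂ} (hψ : AS ψ) :
    ‖toFk ψ‖ ^ 2 = (star ψ ⬝ᵥ ψ).re := by
  rw [← inner_toFk hψ hψ, inner_self_eq_norm_sq_to_K]
  norm_cast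

theorem sector_zero {v : Fk ι} (hv : v ∈ sector ι 0) : v = v ∅ • ket ∅ := by
  rw [mem_sector_iff] at hv
  ext T
  simp only [PiLp.smul_apply, smul_eq_mul, ket_apply]
  by_cases hT : T = ∅
  · simp [hT]
  · rw [if_neg hT, mul_zero]
    exact hv T (by rw [Ne, Finset.card_eq_zero]; exact hT)

/-- resolution of the identity on a sector -/
theorem sum_kt : ∀ {N : ℕ} {v : Fk ι}, v ∈ sector ι N →
    ∑ m : Fin N → ι, (inner ℂ (kt N m) v : ℂ) • kt N m = (N.factorial : ℂ) • v
  | 0, v, hv => by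
    rw [Fintype.sum_unique, kt_zero, inner_ket]
    conv_rhs => rw [sector_zero hv]
    simp
  | (N + 1), v, hv => by
    rw [sum_cons]
    have h1 : ∀ j : ι, (∑ m : Fin N → ι,
        (inner ℂ (kt (N + 1) (Fin.cons j m : Fin (N + 1) → ι)) v : ℂ) •
          kt (N + 1) (Fin.cons j m : Fin (N + 1) → ι)) = (N.factorial : ℂ) • d j (c j v) := by
      intro j
      rw [← map_smul, ← sum_kt (c_mem_sector hv j), map_sum]
      refine Finset.sum_congr rfl fun m _ => ?_
      rw [kt_cons, inner_d_left, map_smul]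
    rw [Finset.sum_congr rfl fun j _ => h1 j, ← Finset.smul_sum]
    have h2 : ∑ j, d j (c j v) = Nh v := by
      rw [Nh_eq_sum, sum_ap]
      rfl
    rw [h2, mem_sector.1 hv, smul_smul, Nat.factorial_succ]
    congr 1
    push_cast
    ring

/-- the antisymmetric function of a Fock vector -/
noncomputable def ofFk (N : ℕ) (v : Fk ι) : (Fin N → ι) → ℂ :=
  fun m => ((Real.sqrt (N.factorial) : ℂ)⁻¹) * inner ℂ (kt N m) v

theorem ofFk_AS (N : ℕ) (v : Fk ι) : AS (ofFk N v) := by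
  intro π m
  unfold ofFk
  rw [kt_comp, inner_smul_left]
  simp only [map_intCast]
  ring

theorem toFk_ofFk {N : ℕ} {v : Fk ι} (hv : v ∈ sector ι N) : toFk (ofFk N v) = v := by
  unfold toFk ofFk
  simp only [← smul_smul, ← Finset.smul_sum]
  rw [sum_kt hv, smul_smul, smul_smul]
  have h3 : (0 : ℝ) < N.factorial := by exact_mod_cast Nat.factorial_pos N
  have h7 : (Real.sqrt (N.factorial : ℝ) : ℂ) ≠ 0 := by
    exact_mod_cast (Real.sqrt_pos.2 h3).ne'
  have h8 : (Real.sqrt (N.factorial : ℝ) : ℂ) * (Real.sqrt (N.factorial : ℝ) : ℂ) =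
      (N.factorial : ℂ) := by
    rw [← Complex.ofReal_mul, Real.mul_self_sqrt h3.le]; push_cast; ring
  rw [← h8]
  have h9 : (Real.sqrt (N.factorial : ℝ) : ℂ)⁻¹ * (Real.sqrt (N.factorial : ℝ) : ℂ)⁻¹ *
      ((Real.sqrt (N.factorial : ℝ) : ℂ) * (Real.sqrt (N.factorial : ℝ) : ℂ)) = 1 := by
    field_simp
  rw [h9, one_smul]

theorem AS.sub {N : ℕ} {χ ψ : (Fin N → ι) → ℂ} (hχ : AS χ) (hψ : AS ψ) : AS (χ - ψ) := by
  intro π m
  simp only [Pi.sub_apply, hχ π m, hψ π m]
  ring

open scoped ComplexOrder in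
theorem eq_zero_of_toFk {N : ℕ} {ψ : (Fin N → ι) → ℂ} (hψ : AS ψ) (h : toFk ψ = 0) : ψ = 0 := by
  have h1 := norm_toFk_sq hψ
  rw [h, norm_zero] at h1
  have h2 : star ψ ⬝ᵥ ψ = 0 := by
    apply Complex.ext
    · simpa using h1.symm
    · have h3 := inner_toFk hψ hψ
      rw [h, inner_zero_left] at h3
      rw [← h3]
  exact dotProduct_star_self_eq_zero.1 h2

theorem ofFk_toFk {N : ℕ} {ψ : (Fin N → ι) → ℂ} (hψ : AS ψ) : ofFk N (toFk ψ) = ψ := by
  have h1 : AS (ofFk N (toFk ψ) - ψ) := (ofFk_AS N _).sub hψ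
  have h2 : toFk (ofFk N (toFk ψ) - ψ) = 0 := by
    rw [toFk_sub, toFk_ofFk (toFk_mem_sector ψ), sub_self]
  exact sub_eq_zero.1 (eq_zero_of_toFk h1 h2)

theorem toFk_injective {N : ℕ} {χ ψ : (Fin N → ι) → ℂ} (hχ : AS χ) (hψ : AS ψ)
    (h : toFk χ = toFk ψ) : χ = ψ := by
  rw [← ofFk_toFk hχ, h, ofFk_toFk hψ]

/-! ### one-body operators -/

theorem dG_kt : ∀ (N : ℕ) (A : Matrix ι ι ℂ) (m : Fin N → ι),
    dG A (kt N m) = ∑ a, ∑ i, A i (m a) • kt N (Function.update m a i)
  | 0, A, m => by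
    rw [kt_zero, dG_ket_empty]; simp
  | (N + 1), A, m => by
    have h := dG_comm_d A (m 0)
    have h1 : dG A * d (m 0) = (∑ i, A i (m 0) • (d i : Op ι)) + d (m 0) * dG A := by
      rw [← h]; abel
    rw [kt_succ, ← mul_ap, h1, add_ap, mul_ap, dG_kt N A (Fin.tail m), Fin.sum_univ_succ,
      sum_ap]
    refine congrArg₂ (· + ·) ?_ ?_
    · refine Finset.sum_congr rfl fun i _ => ?_
      have e1 : Function.update m 0 i = Fin.cons i (Fin.tail m) := by
        conv_lhs => rw [← Fin.cons_self_tail m]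
        rw [Fin.update_cons_zero]
      rw [smul_ap, e1, kt_cons]
    · rw [map_sum]
      refine Finset.sum_congr rfl fun a _ => ?_
      rw [map_sum]
      refine Finset.sum_congr rfl fun i _ => ?_
      have e1 : Function.update m a.succ i =
          Fin.cons (m 0) (Function.update (Fin.tail m) a i) := by
        conv_lhs => rw [← Fin.cons_self_tail m]
        rw [← Fin.cons_update]
      rw [map_smul, e1, kt_cons]
      rfl

/-- one-body operator on functions -/
def ob {N : ℕ} (A : Matrix ι ι ℂ) (ψ : (Fin N → ι) → ℂ) : (Fin N → ι) → ℂ :=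
  fun m => ∑ a, ∑ j, A (m a) j * ψ (Function.update m a j)

theorem toFk_ob {N : ℕ} (A : Matrix ι ι ℂ) (ψ : (Fin N → ι) → ℂ) :
    toFk (ob A ψ) = dG A (toFk ψ) := by
  unfold toFk
  rw [map_smul, map_sum]
  congr 1
  have h1 : ∀ m : Fin N → ι, dG A (ψ m • kt N m) =
      ∑ a, ∑ i, (ψ m * A i (m a)) • kt N (Function.update m a i) := by
    intro m
    rw [map_smul, dG_kt, Finset.smul_sum]
    refine Finset.sum_congr rfl fun a _ => ?_
    rw [Finset.smul_sum]
    refine Finset.sum_congr rfl fun i _ => ?_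
    rw [smul_smul]
  rw [Finset.sum_congr rfl fun m _ => h1 m, Finset.sum_comm]
  have h2 : ∀ m : Fin N → ι, ob A ψ m • kt N m =
      ∑ a, ∑ j, (A (m a) j * ψ (Function.update m a j)) • kt N m := by
    intro m
    unfold ob
    rw [Finset.sum_smul]
    refine Finset.sum_congr rfl fun a _ => ?_
    rw [Finset.sum_smul]
  rw [Finset.sum_congr rfl fun m _ => h2 m, Finset.sum_comm (s := univ) (t := univ)
    (f := fun m a => ∑ j, (A (m a) j * ψ (Function.update m a j)) • kt N m)]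
  refine Finset.sum_congr rfl fun a _ => ?_
  rw [← Finset.sum_product', ← Finset.sum_product']
  refine Finset.sum_nbij' (fun x => (Function.update x.1 a x.2, x.1 a))
    (fun x => (Function.update x.1 a x.2, x.1 a)) ?_ ?_ ?_ ?_ ?_
  · intro x _; simp
  · intro x _; simp
  · intro x _; simp
  · intro x _; simp
  · intro x _
    simp only [Function.update_idem, Function.update_self, Function.update_eq_self]
    rw [mul_comm]

/-! ### contraction with a pair vector -/

/-- contraction of the first two arguments with a pair tensor -/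
noncomputable def ctr {N : ℕ} (w : Matrix ι ι ℂ) (ψ : (Fin (N + 2) → ι) → ℂ) : (Fin N → ι) → ℂ :=
  fun m => ∑ i, ∑ j, (starRingEnd ℂ) (w i j) *
    ψ (Fin.cons i (Fin.cons j m : Fin (N + 1) → ι) : Fin (N + 2) → ι)

theorem ctr_eq {N : ℕ} (w : Matrix ι ι ℂ) (ψ : (Fin (N + 2) → ι) → ℂ) :
    ctr w ψ = ∑ i, ∑ j, (starRingEnd ℂ) (w i j) • slot j (slot i ψ) := by
  funext m
  simp only [ctr, Finset.sum_apply, Pi.smul_apply, smul_eq_mul]
  rfl

theorem AS.sum {κ : Type*} {N : ℕ} (s : Finset κ) {ψ : κ → (Fin N → ι) → ℂ}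
    (h : ∀ k ∈ s, AS (ψ k)) : AS (∑ k ∈ s, ψ k) := by
  intro π m
  rw [Finset.sum_apply, Finset.sum_apply, Finset.mul_sum]
  exact Finset.sum_congr rfl fun k hk => h k hk π m

theorem AS.smul {N : ℕ} {ψ : (Fin N → ι) → ℂ} (h : AS ψ) (a : ℂ) : AS (a • ψ) := by
  intro π m
  simp only [Pi.smul_apply, smul_eq_mul, h π m]
  ring

theorem AS.ctr {N : ℕ} (w : Matrix ι ι ℂ) {ψ : (Fin (N + 2) → ι) → ℂ} (h : AS ψ) :
    AS (ctr w ψ) := by
  rw [ctr_eq]
  exact AS.sum _ fun i _ => AS.sum _ fun j _ => ((h.slot i).slot j).smul _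

theorem pa_toFk {N : ℕ} (w : Matrix ι ι ℂ) {ψ : (Fin (N + 2) → ι) → ℂ} (hψ : AS ψ) :
    pa w (toFk ψ) = ((Real.sqrt 2 : ℂ)⁻¹ * Real.sqrt ((N : ℝ) + 2) * Real.sqrt ((N : ℝ) + 1)) •
      toFk (ctr w ψ) := by
  have h1 : ∀ i j, (c j * c i) (toFk ψ) =
      ((Real.sqrt ((N : ℝ) + 2) : ℂ) * Real.sqrt ((N : ℝ) + 1)) • toFk (slot j (slot i ψ)) := by
    intro i j
    rw [mul_ap, c_toFk hψ, map_smul, c_toFk (hψ.slot i), smul_smul]
    have e : ((N + 1 : ℕ) : ℝ) + 1 = (N : ℝ) + 2 := by push_cast; ring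
    rw [e]
  unfold pa
  rw [smul_ap, sum_ap, ctr_eq, toFk_sum, Finset.smul_sum, Finset.smul_sum]
  refine Finset.sum_congr rfl fun i _ => ?_
  rw [sum_ap, toFk_sum, Finset.smul_sum, Finset.smul_sum]
  refine Finset.sum_congr rfl fun j _ => ?_
  rw [smul_ap, h1, toFk_smul, smul_smul, smul_smul, smul_smul]
  congr 1
  ring

theorem c_sector_zero {v : Fk ι} (hv : v ∈ sector ι 0) (j : ι) : c j v = 0 := by
  rw [sector_zero hv, map_smul, c_ket_empty, smul_zero]

theorem pa_sector_zero {v : Fk ι} (hv : v ∈ sector ι 0) (w : Matrix ι ι ℂ) : pa w v = 0 := by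
  unfold pa
  rw [smul_ap, sum_ap]
  rw [Finset.sum_eq_zero, smul_zero]
  intro i _
  rw [sum_ap]
  refine Finset.sum_eq_zero fun j _ => ?_
  rw [smul_ap, mul_ap, c_sector_zero hv, map_zero, smul_zero]

theorem pa_sector_one {v : Fk ι} (hv : v ∈ sector ι 1) (w : Matrix ι ι ℂ) : pa w v = 0 := by
  unfold pa
  rw [smul_ap, sum_ap]
  rw [Finset.sum_eq_zero, smul_zero]
  intro i _
  rw [sum_ap]
  refine Finset.sum_eq_zero fun j _ => ?_
  rw [smul_ap, mul_ap, c_sector_zero (c_mem_sector hv i), smul_zero]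

end Crest.Agent.R340.Bridge649
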