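import Crest.Agent.R340.GapLaughlin
import Crest.Agent.R340.Bridge_649

/-!
# Antisymmetric functions versus Fock space (helper649, R340), part 2: the Laughlin Hamiltonian
-/

set_option autoImplicit false
set_option linter.unusedSectionVars false

namespace Crest.Agent.R340.Bridge649

open Finset Crest.Agent.R340.Fock649 Crest.MathPhysics.Laughlin

/-- pair matrix of `pairVec` -/
noncomputable def wM (Q : ℕ) (p : Fin (2 * Q - 1)) : Matrix (Fin (Q + 1)) (Fin (Q + 1)) ℂ :=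
  Matrix.of fun i j => (pairVec Q p i j : ℂ)

theorem wM_apply (Q : ℕ) (p : Fin (2 * Q - 1)) (i j : Fin (Q + 1)) :
    wM Q p i j = (pairVec Q p i j : ℂ) := rfl

/-- the pair annihilators -/
noncomputable def Bp (Q : ℕ) (p : Fin (2 * Q - 1)) : Op (Fin (Q + 1)) := pa (wM Q p)

/-- the Hamiltonian on Fock space -/
noncomputable def HH (Q : ℕ) : Op (Fin (Q + 1)) := ∑ p, star (Bp Q p) * Bp Q p

theorem Bp_comm (Q : ℕ) (p p' : Fin (2 * Q - 1)) : Bp Q p * Bp Q p' = Bp Q p' * Bp Q p :=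
  pa_comm _ _

theorem HH_selfAdjoint (Q : ℕ) : IsSelfAdjoint (HH Q) := by
  unfold HH
  rw [isSelfAdjoint_iff, star_sum]
  refine Finset.sum_congr rfl fun p _ => ?_
  rw [star_mul, star_star]

theorem HH_ap (Q : ℕ) (v : Fk (Fin (Q + 1))) : HH Q v = ∑ p, star (Bp Q p) (Bp Q p v) := by
  unfold HH
  rw [sum_ap]
  rfl

theorem inner_HH (Q : ℕ) (v w : Fk (Fin (Q + 1))) :
    inner ℂ v (HH Q w) = ∑ p, inner ℂ (Bp Q p v) (Bp Q p w) := by
  rw [HH_ap, inner_sum]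
  refine Finset.sum_congr rfl fun p _ => ?_
  rw [inner_star_right]

theorem inner_HH_self (Q : ℕ) (v : Fk (Fin (Q + 1))) :
    (inner ℂ v (HH Q v) : ℂ).re = ∑ p, ‖Bp Q p v‖ ^ 2 := by
  rw [inner_HH, Complex.re_sum]
  refine Finset.sum_congr rfl fun p _ => ?_
  rw [inner_self_eq_norm_sq_to_K]
  norm_cast

theorem HH_nonneg (Q : ℕ) : 0 ≤ HH Q := by
  rw [Op.nonneg_iff]
  refine ⟨HH_selfAdjoint Q, fun v => ?_⟩
  rw [inner_HH_self]
  positivity

theorem Nh_comm_pa {ι : Type*} [LinearOrder ι] [Fintype ι] (w : Matrix ι ι ℂ) :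
    Nh * pa w - pa w * Nh = - ((2 : ℂ) • pa w) := by
  unfold Nh
  rw [dG_comm_pa]
  congr 1
  have h1 : (1 : Matrix ι ι ℂ).map (starRingEnd ℂ) = 1 := by
    ext i j
    by_cases h : i = j <;> simp [Matrix.one_apply, h]
  rw [Matrix.conjTranspose_one, one_mul, h1, mul_one, ← two_smul ℂ w, pa_smul, map_ofNat]

theorem Nh_selfAdjoint {ι : Type*} [LinearOrder ι] [Fintype ι] : star (Nh : Op ι) = Nh := by
  unfold Nh
  rw [star_dG, Matrix.conjTranspose_one]

theorem Nh_comm_HH (Q : ℕ) : Nh * HH Q = HH Q * Nh := by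
  unfold HH
  rw [Finset.mul_sum, Finset.sum_mul]
  refine Finset.sum_congr rfl fun p _ => ?_
  have h1 : Nh * Bp Q p = Bp Q p * Nh - (2 : ℂ) • Bp Q p := by
    have := Nh_comm_pa (wM Q p)
    unfold Bp
    rw [sub_eq_iff_eq_add] at this
    rw [this]; abel
  have h2 : Nh * star (Bp Q p) = star (Bp Q p) * Nh + (2 : ℂ) • star (Bp Q p) := by
    have h3 := congrArg star h1
    rw [star_mul, star_sub, star_mul, star_smul, Nh_selfAdjoint] at h3
    rw [h3]
    simp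
  rw [← mul_assoc, h2, add_mul, mul_assoc, h1, mul_sub, smul_mul_assoc, mul_smul_comm]
  simp only [mul_assoc]
  abel

theorem HH_mem_sector {Q N : ℕ} {v : Fk (Fin (Q + 1))} (hv : v ∈ sector (Fin (Q + 1)) N) :
    HH Q v ∈ sector (Fin (Q + 1)) N := by
  rw [mem_sector] at *
  rw [← mul_ap, Nh_comm_HH, mul_ap, hv, map_smul]

theorem dG_mem_sector {ι : Type*} [LinearOrder ι] [Fintype ι] {N : ℕ} {v : Fk ι}
    (hv : v ∈ sector ι N) (A : Matrix ι ι ℂ) : dG A v ∈ sector ι N := by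
  rw [mem_sector] at *
  rw [← mul_ap, Nh_comm_dG, mul_ap, hv, map_smul]

/-! ### interaction -/

theorem AS_iff {q N : ℕ} {ψ : (Fin N → Fin (q + 1)) → ℂ} : AS ψ ↔ IsAntisymmetric ψ := Iff.rfl

theorem amp_zero_one {q N : ℕ} (p : Fin (2 * q - 1)) (ψ : (Fin (N + 2) → Fin (q + 1)) → ℂ)
    (m : Fin (N + 2) → Fin (q + 1)) :
    amp 0 1 p ψ m = ctr (wM q p) ψ (Fin.tail (Fin.tail m)) := by
  unfold amp ctr
  refine Finset.sum_congr rfl fun i _ => Finset.sum_congr rfl fun j _ => ?_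
  have h1 : upd2 m 0 1 i j =
      (Fin.cons i (Fin.cons j (Fin.tail (Fin.tail m)) : Fin (N + 1) → Fin (q + 1)) :
        Fin (N + 2) → Fin (q + 1)) := by
    funext k
    refine Fin.cases ?_ (fun k => ?_) k
    · rw [upd2_left (by simp)]; simp
    · refine Fin.cases ?_ (fun k => ?_) k
      · have : (Fin.succ (0 : Fin (N + 1))) = 1 := rfl
        rw [this, upd2_right]; rfl
      · rw [upd2_of_ne]
        · rfl
        · simp [Fin.ext_iff]
        · simp [Fin.ext_iff]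
  rw [h1, wM_apply, Complex.conj_ofReal]

theorem exists_perm {N : ℕ} {a b : Fin (N + 2)} (h : a ≠ b) :
    ∃ π : Equiv.Perm (Fin (N + 2)), π 0 = a ∧ π 1 = b := by
  set σ1 : Equiv.Perm (Fin (N + 2)) := Equiv.swap 0 a with hσ1
  have h1 : σ1 0 = a := Equiv.swap_apply_left _ _
  have h2 : σ1 1 ≠ a := by
    intro h3
    have h4 : σ1 1 = σ1 0 := by rw [h3, h1]
    have h5 : (1 : Fin (N + 2)) = 0 := σ1.injective h4
    simp at h5
  refine ⟨Equiv.swap (σ1 1) b * σ1, ?_, ?_⟩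
  · rw [Equiv.Perm.mul_apply, h1, Equiv.swap_apply_of_ne_of_ne (Ne.symm h2) h]
  · rw [Equiv.Perm.mul_apply, Equiv.swap_apply_left]

theorem sum_amp_zero_one {q N : ℕ} (p : Fin (2 * q - 1))
    (χ ψ : (Fin (N + 2) → Fin (q + 1)) → ℂ) :
    ∑ m, star (amp 0 1 p χ m) * amp 0 1 p ψ m =
      ((q : ℂ) + 1) ^ 2 * (star (ctr (wM q p) χ) ⬝ᵥ ctr (wM q p) ψ) := by
  simp only [amp_zero_one]
  rw [sum_cons]
  simp only [Fin.tail_cons]
  rw [Finset.sum_const, Finset.card_univ, Fintype.card_fin, sum_cons]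
  simp only [Fin.tail_cons]
  rw [Finset.sum_const, Finset.card_univ, Fintype.card_fin]
  unfold dotProduct
  simp only [nsmul_eq_mul, Pi.star_apply]
  push_cast
  ring

theorem sum_amp {q N : ℕ} (p : Fin (2 * q - 1))
    {χ ψ : (Fin (N + 2) → Fin (q + 1)) → ℂ} (hχ : AS χ) (hψ : AS ψ) {a b : Fin (N + 2)}
    (hab : a ≠ b) :
    ∑ m, star (amp a b p χ m) * amp a b p ψ m =
      ((q : ℂ) + 1) ^ 2 * (star (ctr (wM q p) χ) ⬝ᵥ ctr (wM q p) ψ) := by
  obtain ⟨π, h0, h1⟩ := exists_perm hab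
  rw [← sum_amp_zero_one]
  rw [← (Equiv.arrowCongr π.symm (Equiv.refl (Fin (q + 1)))).sum_comp
    (fun m => star (amp 0 1 p χ m) * amp 0 1 p ψ m)]
  refine Finset.sum_congr rfl fun m _ => ?_
  have e : (Equiv.arrowCongr π.symm (Equiv.refl (Fin (q + 1)))) m = m ∘ π := by
    funext k
    simp [Equiv.arrowCongr]
  rw [e, amp_comp π (AS_iff.1 hχ), amp_comp π (AS_iff.1 hψ), h0, h1, star_mul']
  have h2 : star (((Equiv.Perm.sign π : ℤ) : ℂ)) * ((Equiv.Perm.sign π : ℤ) : ℂ) = 1 := by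
    rcases Int.units_eq_one_or (Equiv.Perm.sign π) with h | h <;> simp [h]
  calc star (amp a b p χ m) * amp a b p ψ m
      = (star (((Equiv.Perm.sign π : ℤ) : ℂ)) * ((Equiv.Perm.sign π : ℤ) : ℂ)) *
        (star (amp a b p χ m) * amp a b p ψ m) := by rw [h2, one_mul]
    _ = _ := by ring

theorem sum_pairs {N : ℕ} (t : ℂ) :
    (∑ a : Fin N, ∑ b : Fin N, if a < b then t else 0) = ((N : ℂ) * ((N : ℂ) - 1) / 2) * t := by
  have h1 := two_mul_sum_lt (N := N) (fun _ _ => t) (fun _ _ _ => rfl)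
  have h2 : (∑ a : Fin N, ∑ b : Fin N, if a ≠ b then t else 0) = (N : ℂ) * ((N : ℂ) - 1) * t := by
    have h3 : ∀ a : Fin N, (∑ b : Fin N, if a ≠ b then t else 0) = ((N : ℂ) - 1) * t := by
      intro a
      have h4 : (∑ b : Fin N, if a ≠ b then t else 0) = (∑ b : Fin N, t) -
          ∑ b : Fin N, if a = b then t else 0 := by
        rw [← Finset.sum_sub_distrib]
        refine Finset.sum_congr rfl fun b _ => ?_
        by_cases h : a = b <;> simp [h]
      rw [h4]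
      simp
      ring
    rw [Finset.sum_congr rfl fun a _ => h3 a]
    simp
    ring
  rw [h2] at h1
  have h5 : (∑ a : Fin N, ∑ b : Fin N, if a < b then t else 0) =
      (2 * ∑ a : Fin N, ∑ b : Fin N, if a < b then t else 0) / 2 := by ring
  rw [h5, h1]; ring

/-- matrix elements of the interaction between antisymmetric functions -/
theorem inner_toFk_HH {Q N : ℕ} {χ ψ : (Fin N → Fin (Q + 1)) → ℂ} (hχ : AS χ) (hψ : AS ψ) :
    inner ℂ (toFk χ) (HH Q (toFk ψ)) = star χ ⬝ᵥ (interaction Q N).mulVec ψ := by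
  rw [inner_HH]
  match N, χ, ψ, hχ, hψ with
  | 0, χ, ψ, hχ, hψ =>
    have h1 : interaction Q 0 = 0 := by
      unfold interaction; simp
    rw [h1, Matrix.zero_mulVec, dotProduct_zero]
    refine Finset.sum_eq_zero fun p _ => ?_
    unfold Bp
    rw [pa_sector_zero (toFk_mem_sector ψ), inner_zero_right]
  | 1, χ, ψ, hχ, hψ =>
    have h1 : interaction Q 1 = 0 := by
      unfold interaction; simp
    rw [h1, Matrix.zero_mulVec, dotProduct_zero]
    refine Finset.sum_eq_zero fun p _ => ?_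
    unfold Bp
    rw [pa_sector_one (toFk_mem_sector ψ), inner_zero_right]
  | (N + 2), χ, ψ, hχ, hψ =>
    rw [dot_interaction]
    have h1 : ∀ a b : Fin (N + 2), (if a < b then (((Q : ℂ) + 1) ^ 2)⁻¹ *
        ∑ p : Fin (2 * Q - 1), ∑ m, star (amp a b p χ m) * amp a b p ψ m else 0) =
        if a < b then ∑ p : Fin (2 * Q - 1), (star (ctr (wM Q p) χ) ⬝ᵥ ctr (wM Q p) ψ) else 0 := by
      intro a b
      split_ifs with hab
      · rw [Finset.sum_congr rfl fun p _ => sum_amp p hχ hψ hab.ne, ← Finset.mul_sum, ← mul_assoc,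
          inv_mul_cancel₀, one_mul]
        have : ((Q : ℂ) + 1) ≠ 0 := by exact_mod_cast Nat.succ_ne_zero Q
        exact pow_ne_zero _ this
      · rfl
    rw [Finset.sum_congr rfl fun a _ => Finset.sum_congr rfl fun b _ => h1 a b, sum_pairs,
      Finset.mul_sum]
    refine Finset.sum_congr rfl fun p _ => ?_
    unfold Bp
    rw [pa_toFk _ hχ, pa_toFk _ hψ, inner_smul_left, inner_smul_right,
      inner_toFk (hχ.ctr _) (hψ.ctr _), ← mul_assoc]
    congr 1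
    have h2 : (0 : ℝ) ≤ (N : ℝ) + 2 := by positivity
    have h3 : (0 : ℝ) ≤ (N : ℝ) + 1 := by positivity
    have h4 : (Real.sqrt ((N : ℝ) + 2) : ℂ) * (Real.sqrt ((N : ℝ) + 2) : ℂ) = (N : ℂ) + 2 := by
      rw [← Complex.ofReal_mul, Real.mul_self_sqrt h2]; push_cast; ring
    have h5 : (Real.sqrt ((N : ℝ) + 1) : ℂ) * (Real.sqrt ((N : ℝ) + 1) : ℂ) = (N : ℂ) + 1 := by
      rw [← Complex.ofReal_mul, Real.mul_self_sqrt h3]; push_cast; ring
    have h6 : (Real.sqrt 2 : ℂ)⁻¹ * (Real.sqrt 2 : ℂ)⁻¹ = 1 / 2 := by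
      rw [← mul_inv, ← Complex.ofReal_mul, Real.mul_self_sqrt (by norm_num)]; simp
    simp only [map_mul, map_inv₀, Complex.conj_ofReal]
    calc (Real.sqrt 2 : ℂ)⁻¹ * Real.sqrt ((N : ℝ) + 2) * Real.sqrt ((N : ℝ) + 1) *
          ((Real.sqrt 2 : ℂ)⁻¹ * Real.sqrt ((N : ℝ) + 2) * Real.sqrt ((N : ℝ) + 1))
        = ((Real.sqrt 2 : ℂ)⁻¹ * (Real.sqrt 2 : ℂ)⁻¹) *
          ((Real.sqrt ((N : ℝ) + 2) : ℂ) * (Real.sqrt ((N : ℝ) + 2) : ℂ)) *
          ((Real.sqrt ((N : ℝ) + 1) : ℂ) * (Real.sqrt ((N : ℝ) + 1) : ℂ)) := by ring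
      _ = _ := by
        rw [h4, h5, h6]; push_cast; ring

/-- the Fock image of the interaction -/
theorem toFk_interaction {Q N : ℕ} {ψ : (Fin N → Fin (Q + 1)) → ℂ} (hψ : AS ψ) :
    toFk ((interaction Q N).mulVec ψ) = HH Q (toFk ψ) := by
  set D := toFk ((interaction Q N).mulVec ψ) - HH Q (toFk ψ) with hD
  have h1 : D ∈ sector (Fin (Q + 1)) N :=
    Submodule.sub_mem _ (toFk_mem_sector _) (HH_mem_sector (toFk_mem_sector _))
  have h2 : ∀ χ : (Fin N → Fin (Q + 1)) → ℂ, AS χ → inner ℂ (toFk χ) D = 0 := by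
    intro χ hχ
    rw [hD, inner_sub_right, inner_toFk hχ (AS_iff.2 (interaction_antisymm (AS_iff.1 hψ))),
      inner_toFk_HH hχ hψ, sub_self]
  have h3 : inner ℂ D D = (0 : ℂ) := by
    have h4 := h2 (ofFk N D) (ofFk_AS N D)
    rwa [toFk_ofFk h1] at h4
  exact sub_eq_zero.1 (inner_self_eq_zero.1 h3)

/-! ### one-body operators -/

theorem embedSite_mulVec {Q N : ℕ} (A : Matrix (Fin (Q + 1)) (Fin (Q + 1)) ℂ) (a : Fin N)
    (ψ : (Fin N → Fin (Q + 1)) → ℂ) (m : Fin N → Fin (Q + 1)) :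
    (embedSite A a).mulVec ψ m = ∑ j, A (m a) j * ψ (Function.update m a j) := by
  unfold Matrix.mulVec dotProduct embedSite
  simp only [Matrix.of_apply, ite_mul, zero_mul]
  rw [← Finset.sum_filter]
  refine Finset.sum_nbij' (fun m' => m' a) (fun j => Function.update m a j) ?_ ?_ ?_ ?_ ?_
  · intro m' _; simp
  · intro j _
    simp only [Finset.mem_filter, Finset.mem_univ, true_and]
    intro c hc
    rw [Function.update_of_ne hc]
  · intro m' hm'
    simp only [Finset.mem_filter, Finset.mem_univ, true_and] at hm'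
    funext c
    by_cases hc : c = a
    · subst hc; simp
    · rw [Function.update_of_ne hc]; exact hm' c hc
  · intro j _; simp
  · intro m' hm'
    simp only [Finset.mem_filter, Finset.mem_univ, true_and] at hm'
    have : Function.update m a (m' a) = m' := by
      funext c
      by_cases hc : c = a
      · subst hc; simp
      · rw [Function.update_of_ne hc]; exact hm' c hc
    rw [this]

theorem oneBody_mulVec {Q N : ℕ} (A : Matrix (Fin (Q + 1)) (Fin (Q + 1)) ℂ)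
    (ψ : (Fin N → Fin (Q + 1)) → ℂ) : (oneBody N A).mulVec ψ = ob A ψ := by
  funext m
  unfold oneBody ob
  rw [Matrix.sum_mulVec, Finset.sum_apply]
  refine Finset.sum_congr rfl fun a _ => ?_
  rw [embedSite_mulVec]

theorem toFk_oneBody {Q N : ℕ} (A : Matrix (Fin (Q + 1)) (Fin (Q + 1)) ℂ)
    (ψ : (Fin N → Fin (Q + 1)) → ℂ) : toFk ((oneBody N A).mulVec ψ) = dG A (toFk ψ) := by
  rw [oneBody_mulVec, toFk_ob]

theorem ob_AS {ι : Type*} [LinearOrder ι] [Fintype ι] {N : ℕ} (A : Matrix ι ι ℂ)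
    {ψ : (Fin N → ι) → ℂ} (hψ : AS ψ) : AS (ob A ψ) := by
  intro π m
  unfold ob
  rw [Finset.mul_sum]
  conv_rhs => rw [← (Equiv.sum_comp π)]
  refine Finset.sum_congr rfl fun a _ => ?_
  rw [Finset.mul_sum]
  refine Finset.sum_congr rfl fun j _ => ?_
  have h1 : Function.update (m ∘ π) a j = (Function.update m (π a) j) ∘ π := by
    funext k
    by_cases hk : k = a
    · subst hk; simp
    · simp [hk]
  rw [h1, hψ]
  simp only [Function.comp]
  ring

/-! ### final reductions -/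

/-- reduction of the statement S0533 to Fock space -/
theorem sq_ge_of_fock {Q N : ℕ} {γ : ℝ}
    (h : ∀ v ∈ sector (Fin (Q + 1)) N, γ * (inner ℂ v (HH Q v) : ℂ).re ≤ ‖HH Q v‖ ^ 2)
    {ψ : (Fin N → Fin (Q + 1)) → ℂ} (hψ : IsAntisymmetric ψ) :
    γ * (star ψ ⬝ᵥ (interaction Q N).mulVec ψ).re ≤
      (star ψ ⬝ᵥ (interaction Q N).mulVec ((interaction Q N).mulVec ψ)).re := by
  have hψ' : AS ψ := hψ
  have hI : AS ((interaction Q N).mulVec ψ) := interaction_antisymm hψ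
  have h1 := h (toFk ψ) (toFk_mem_sector ψ)
  rw [inner_toFk_HH hψ' hψ'] at h1
  have h2 : (star ψ ⬝ᵥ (interaction Q N).mulVec ((interaction Q N).mulVec ψ)).re =
      ‖HH Q (toFk ψ)‖ ^ 2 := by
    rw [← inner_toFk_HH hψ' hI, toFk_interaction hψ']
    have h3 : inner ℂ (toFk ψ) (HH Q (HH Q (toFk ψ))) =
        inner ℂ (HH Q (toFk ψ)) (HH Q (toFk ψ)) := by
      conv_lhs => rw [← (HH_selfAdjoint Q).star_eq]
      rw [inner_star_right]
      rw [(HH_selfAdjoint Q).star_eq]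
    rw [h3, inner_self_eq_norm_sq_to_K]
    norm_cast
  rw [h2]
  exact h1

/-- reduction of the statement S0533 to Fock space -/
theorem s0533_of_fock
    (h : ∀ γ : ℝ, 0 < γ → γ < 4616733319001 / 10 ^ 14 → ∃ Q₀ : ℕ, ∀ Q : ℕ, Q₀ ≤ Q → ∀ N : ℕ,
      ∀ v ∈ sector (Fin (Q + 1)) N, γ * (inner ℂ v (HH Q v) : ℂ).re ≤ ‖HH Q v‖ ^ 2) :
    ∀ γ : ℝ, 0 < γ → γ < 4616733319001 / 10 ^ 14 →
      ∃ Q₀ : ℕ, ∀ Q : ℕ, Q₀ ≤ Q → ∀ N : ℕ,
        ∀ ψ : (Fin N → Fin (Q + 1)) → ℂ, IsAntisymmetric ψ →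
          γ * (star ψ ⬝ᵥ (interaction Q N).mulVec ψ).re ≤
            (star ψ ⬝ᵥ (interaction Q N).mulVec ((interaction Q N).mulVec ψ)).re := by
  intro γ h0 h1
  obtain ⟨Q₀, hQ⟩ := h γ h0 h1
  exact ⟨Q₀, fun Q hQQ N ψ hψ => sq_ge_of_fock (hQ Q hQQ N) hψ⟩

/-- the gap statement in Fock space -/
def FockGap (Q N : ℕ) (H : Op (Fin (Q + 1))) (Δ : ℝ) : Prop :=
  ∃ (E₀ : ℝ) (v₀ : Fk (Fin (Q + 1))), v₀ ∈ sector (Fin (Q + 1)) N ∧ v₀ ≠ 0 ∧
    H v₀ = (E₀ : ℂ) • v₀ ∧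
    ∀ v ∈ sector (Fin (Q + 1)) N, inner ℂ v₀ v = (0 : ℂ) →
      (E₀ + Δ) * ‖v‖ ^ 2 ≤ (inner ℂ v (H v) : ℂ).re

/-- transfer of the gap from Fock space -/
theorem hasFermionicGap_of_fock {Q N : ℕ} {t : ℂ} {T : Matrix (Fin (Q + 1)) (Fin (Q + 1)) ℂ}
    {Δ : ℝ} (h : FockGap Q N (HH Q + t • dG T) Δ) :
    HasFermionicGap (interaction Q N + t • oneBody N T) Δ := by
  obtain ⟨E₀, v₀, hv₀, hne, heig, hgap⟩ := h
  have key : ∀ ψ : (Fin N → Fin (Q + 1)) → ℂ, AS ψ →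
      toFk ((interaction Q N + t • oneBody N T).mulVec ψ) = (HH Q + t • dG T) (toFk ψ) := by
    intro ψ hψ
    rw [Matrix.add_mulVec, Matrix.smul_mulVec, toFk_add, toFk_smul, toFk_interaction hψ,
      toFk_oneBody]
    rfl
  have keyAS : ∀ ψ : (Fin N → Fin (Q + 1)) → ℂ, AS ψ →
      AS ((interaction Q N + t • oneBody N T).mulVec ψ) := by
    intro ψ hψ
    have h1 : AS ((interaction Q N).mulVec ψ) := interaction_antisymm hψ
    have h2 : AS ((oneBody N T).mulVec ψ) := by rw [oneBody_mulVec]; exact ob_AS T hψ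
    rw [Matrix.add_mulVec, Matrix.smul_mulVec]
    intro π m
    have h3 := h1 π m
    have h4 := (h2.smul t) π m
    simp only [Pi.add_apply] at *
    rw [h3, h4]; ring
  refine ⟨E₀, ofFk N v₀, ofFk_AS N v₀, ?_, ?_, ?_⟩
  · intro h0
    apply hne
    rw [← toFk_ofFk hv₀, h0, toFk_zero]
  · apply toFk_injective (keyAS _ (ofFk_AS N v₀)) ((ofFk_AS N v₀).smul _)
    rw [key _ (ofFk_AS N v₀), toFk_ofFk hv₀, heig, toFk_smul, toFk_ofFk hv₀]
  · intro ψ hψ horth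
    have hψ' : AS ψ := hψ
    have h1 := hgap (toFk ψ) (toFk_mem_sector ψ) (by
      rw [← toFk_ofFk hv₀, inner_toFk (ofFk_AS N v₀) hψ']
      exact horth)
    rw [norm_toFk_sq hψ', ← key ψ hψ', inner_toFk hψ' (keyAS ψ hψ')] at h1
    exact h1

end Crest.Agent.R340.Bridge649
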