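import Mathlib

set_option autoImplicit false

/-!
# Row 340: the spin-`Q/2` representation and coherent vectors (helper809)

* `sp Q g` : the matrix of the `Q`-th symmetric power of `g : Matrix (Fin 2) (Fin 2) ℂ` in the
  orthonormal basis `e_j = binom(Q,j)^(1/2) z₀^(Q-j) z₁^j`;
* `kap Q ζ` : the coherent vector of the spinor `ζ`;
* `sp_mulVec_kap`, `sp_mul`, `sp_one`, `sp_conjTranspose`, `kap_inner`.
-/

namespace Crest.Agent.R340.CS809

open Polynomial Matrix Finset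

/-! ## homogenised evaluation of a polynomial of degree `≤ n` -/

/-- degree-`n` homogenised evaluation -/
noncomputable def hev (n : ℕ) (p : ℂ[X]) (a b : ℂ) : ℂ :=
  ∑ k ∈ range (n + 1), p.coeff k * a ^ (n - k) * b ^ k

lemma hev_of_ne {n : ℕ} {p : ℂ[X]} (hp : p.natDegree ≤ n) {a : ℂ} (ha : a ≠ 0) (b : ℂ) :
    hev n p a b = a ^ n * p.eval (b / a) := by
  rw [hev, eval_eq_sum_range' (Nat.lt_succ_of_le hp), mul_sum]
  refine sum_congr rfl fun k hk => ?_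
  have hk' : k ≤ n := Nat.lt_succ_iff.1 (mem_range.1 hk)
  have : a ^ n = a ^ (n - k) * a ^ k := by rw [← pow_add, Nat.sub_add_cancel hk']
  rw [this, div_pow]
  field_simp

lemma hev_zero_left (n : ℕ) (p : ℂ[X]) (b : ℂ) : hev n p 0 b = p.coeff n * b ^ n := by
  rw [hev, sum_eq_single n]
  · simp
  · intro k hk hkn
    have hk' : k ≤ n := Nat.lt_succ_iff.1 (mem_range.1 hk)
    have : n - k ≠ 0 := by omega
    simp [zero_pow this]
  · intro h
    exact absurd (mem_range.2 (Nat.lt_succ_self n)) h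

lemma hev_mul {m n : ℕ} {p q : ℂ[X]} (hp : p.natDegree ≤ m) (hq : q.natDegree ≤ n) (a b : ℂ) :
    hev (m + n) (p * q) a b = hev m p a b * hev n q a b := by
  rcases eq_or_ne a 0 with rfl | ha
  · rw [hev_zero_left, hev_zero_left, hev_zero_left, coeff_mul_add_eq_of_natDegree_le hp hq, pow_add]
    ring
  · rw [hev_of_ne (natDegree_mul_le_of_le hp hq) ha, hev_of_ne hp ha, hev_of_ne hq ha, eval_mul,
      pow_add]
    ring

lemma hev_one_zero (a b : ℂ) : hev 0 1 a b = 1 := by simp [hev]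

lemma hev_pow {p : ℂ[X]} (hp : p.natDegree ≤ 1) (a b : ℂ) (n : ℕ) :
    hev n (p ^ n) a b = hev 1 p a b ^ n := by
  induction n with
  | zero => simp [hev]
  | succ n ih =>
    rw [pow_succ, hev_mul (by simpa using natDegree_pow_le_of_le n hp) hp, ih, pow_succ]

/-- the linear form `g i 0 + g i 1 X` -/
noncomputable def lf (g : Matrix (Fin 2) (Fin 2) ℂ) (i : Fin 2) : ℂ[X] :=
  C (g i 0) + C (g i 1) * X

lemma natDegree_lf (g : Matrix (Fin 2) (Fin 2) ℂ) (i : Fin 2) : (lf g i).natDegree ≤ 1 := by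
  rw [lf, add_comm]
  exact natDegree_linear_le

lemma hev_lf (g : Matrix (Fin 2) (Fin 2) ℂ) (i : Fin 2) (ζ : Fin 2 → ℂ) :
    hev 1 (lf g i) (ζ 0) (ζ 1) = (g *ᵥ ζ) i := by
  simp [hev, lf, sum_range_succ, mulVec, dotProduct, Fin.sum_univ_two, coeff_X, coeff_C]

/-- the polynomial of the `j`-th row of `sp` -/
noncomputable def rp (Q : ℕ) (g : Matrix (Fin 2) (Fin 2) ℂ) (j : ℕ) : ℂ[X] :=
  lf g 0 ^ (Q - j) * lf g 1 ^ j

lemma hev_rp {Q j : ℕ} (hj : j ≤ Q) (g : Matrix (Fin 2) (Fin 2) ℂ) (ζ : Fin 2 → ℂ) :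
    hev Q (rp Q g j) (ζ 0) (ζ 1) = (g *ᵥ ζ) 0 ^ (Q - j) * (g *ᵥ ζ) 1 ^ j := by
  have h1 : ((lf g 0) ^ (Q - j)).natDegree ≤ Q - j := by
    simpa using natDegree_pow_le_of_le (Q - j) (natDegree_lf g 0)
  have h2 : ((lf g 1) ^ j).natDegree ≤ j := by
    simpa using natDegree_pow_le_of_le j (natDegree_lf g 1)
  have h3 := hev_mul h1 h2 (ζ 0) (ζ 1)
  rw [Nat.sub_add_cancel hj] at h3
  rw [rp, h3, hev_pow (natDegree_lf g 0), hev_pow (natDegree_lf g 1), hev_lf, hev_lf]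

/-! ## the representation -/

/-- the normalisation `binom(Q,j)^(1/2)` -/
noncomputable def sb (Q j : ℕ) : ℝ := Real.sqrt (Nat.choose Q j)

lemma sb_pos {Q j : ℕ} (hj : j ≤ Q) : 0 < sb Q j :=
  Real.sqrt_pos.2 (by exact_mod_cast Nat.choose_pos hj)

lemma sb_sq (Q j : ℕ) : sb Q j ^ 2 = (Nat.choose Q j : ℝ) := Real.sq_sqrt (Nat.cast_nonneg _)

lemma sb_mul_self (Q j : ℕ) : sb Q j * sb Q j = (Nat.choose Q j : ℝ) :=
  Real.mul_self_sqrt (Nat.cast_nonneg _)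

@[simp] lemma sb_zero (Q : ℕ) : sb Q 0 = 1 := by simp [sb]

@[simp] lemma sb_self (Q : ℕ) : sb Q Q = 1 := by simp [sb]

lemma sb_ne {Q : ℕ} (j : Fin (Q + 1)) : ((sb Q j : ℝ) : ℂ) ≠ 0 := by
  have := sb_pos (Nat.lt_succ_iff.1 j.2)
  exact_mod_cast this.ne'

/-- the matrix of the `Q`-th symmetric power of `g` in the orthonormal monomial basis -/
noncomputable def sp (Q : ℕ) (g : Matrix (Fin 2) (Fin 2) ℂ) :
    Matrix (Fin (Q + 1)) (Fin (Q + 1)) ℂ :=
  Matrix.of fun j k => ((sb Q j : ℝ) : ℂ) / ((sb Q k : ℝ) : ℂ) * (rp Q g j).coeff k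

/-- the coherent vector of the spinor `ζ` -/
noncomputable def kap (Q : ℕ) (ζ : Fin 2 → ℂ) : Fin (Q + 1) → ℂ :=
  fun j => ((sb Q j : ℝ) : ℂ) * (ζ 0 ^ (Q - (j : ℕ)) * ζ 1 ^ (j : ℕ))

theorem sp_mulVec_kap (Q : ℕ) (g : Matrix (Fin 2) (Fin 2) ℂ) (ζ : Fin 2 → ℂ) :
    sp Q g *ᵥ kap Q ζ = kap Q (g *ᵥ ζ) := by
  ext j
  have hj : (j : ℕ) ≤ Q := Nat.lt_succ_iff.1 j.2
  rw [kap, ← hev_rp hj, hev, mulVec, dotProduct, Finset.sum_range fun k =>
    (rp Q g j).coeff k * ζ 0 ^ (Q - k) * ζ 1 ^ k, mul_sum]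
  refine sum_congr rfl fun k _ => ?_
  have := sb_ne k
  simp only [sp, of_apply, kap]
  field_simp

/-- the coherent vectors separate linear functionals -/
theorem kap_sep {Q : ℕ} {v : Fin (Q + 1) → ℂ} (h : ∀ ζ, v ⬝ᵥ kap Q ζ = 0) : v = 0 := by
  set p : ℂ[X] := ∑ j : Fin (Q + 1), C (v j * ((sb Q j : ℝ) : ℂ)) * X ^ (j : ℕ) with hp
  have h0 : p = 0 := by
    apply Polynomial.funext
    intro t
    have := h ![1, t]
    simp only [dotProduct, kap, cons_val_zero, one_pow, one_mul, cons_val_one] at this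
    rw [hp, eval_finsetSum, eval_zero, ← this]
    refine sum_congr rfl fun j _ => ?_
    simp
    ring
  ext j
  have h1 : p.coeff j = v j * ((sb Q j : ℝ) : ℂ) := by
    rw [hp, finsetSum_coeff, sum_eq_single j]
    · rw [coeff_C_mul, coeff_X_pow, if_pos rfl, mul_one]
    · intro k _ hk
      rw [coeff_C_mul, coeff_X_pow, if_neg, mul_zero]
      intro h
      exact hk (Fin.ext h.symm)
    · simp
  rw [h0, coeff_zero] at h1
  have := sb_ne j
  simpa [this] using h1.symm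

theorem ext_kap {Q : ℕ} {m : Type*} {M N : Matrix m (Fin (Q + 1)) ℂ}
    (h : ∀ ζ, M *ᵥ kap Q ζ = N *ᵥ kap Q ζ) : M = N := by
  ext i k
  have : (M - N) i = 0 := by
    apply kap_sep
    intro ζ
    have := congrFun (h ζ) i
    simp only [mulVec] at this
    rw [show (M - N) i = M i - N i from rfl, sub_dotProduct, this, sub_self]
  have := congrFun this k
  simpa [sub_eq_zero] using this

/-- two vectors with the same coherent amplitudes are equal -/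
theorem ext_star_kap {Q : ℕ} {v w : Fin (Q + 1) → ℂ}
    (h : ∀ ζ, star (kap Q ζ) ⬝ᵥ v = star (kap Q ζ) ⬝ᵥ w) : v = w := by
  have : star (v - w) = 0 := by
    apply kap_sep
    intro ζ
    have := congrArg star (h ζ)
    rw [← star_dotProduct v (kap Q ζ), ← star_dotProduct w (kap Q ζ)] at this
    rw [star_sub, sub_dotProduct, this, sub_self]
  rw [star_eq_zero] at this
  exact sub_eq_zero.1 this

theorem sp_mul (Q : ℕ) (g h : Matrix (Fin 2) (Fin 2) ℂ) : sp Q (g * h) = sp Q g * sp Q h := by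
  apply ext_kap
  intro ζ
  rw [sp_mulVec_kap, ← mulVec_mulVec ζ g h, ← mulVec_mulVec _ (sp Q g), sp_mulVec_kap,
    sp_mulVec_kap]

theorem sp_one (Q : ℕ) : sp Q 1 = 1 := by
  apply ext_kap
  intro ζ
  rw [sp_mulVec_kap, one_mulVec, one_mulVec]

/-- overlap of coherent vectors -/
theorem kap_inner (Q : ℕ) (ζ η : Fin 2 → ℂ) :
    star (kap Q ζ) ⬝ᵥ kap Q η = (star ζ ⬝ᵥ η) ^ Q := by
  have h0 := add_pow (star ζ 1 * η 1) (star ζ 0 * η 0) Q
  rw [Finset.sum_range] at h0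
  rw [dotProduct, dotProduct, Fin.sum_univ_two, add_comm (star ζ 0 * η 0), h0]
  refine sum_congr rfl fun j _ => ?_
  have h : ((sb Q j : ℝ) : ℂ) * ((sb Q j : ℝ) : ℂ) = (Nat.choose Q j : ℂ) := by
    rw [← Complex.ofReal_mul, sb_mul_self, Complex.ofReal_natCast]
  simp only [kap, Pi.star_apply, star_mul', star_pow, Complex.star_def, Complex.conj_ofReal]
  rw [mul_pow, mul_pow, ← h]
  ring

theorem sp_conjTranspose (Q : ℕ) (g : Matrix (Fin 2) (Fin 2) ℂ) : (sp Q g)ᴴ = sp Q gᴴ := by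
  apply ext_kap
  intro η
  apply ext_star_kap
  intro ζ
  rw [sp_mulVec_kap, kap_inner, dotProduct_mulVec, ← star_mulVec, sp_mulVec_kap, kap_inner,
    star_mulVec, dotProduct_mulVec]

theorem sp_unitary (Q : ℕ) {g : Matrix (Fin 2) (Fin 2) ℂ} (hg : gᴴ * g = 1) :
    (sp Q g)ᴴ * sp Q g = 1 := by
  rw [sp_conjTranspose, ← sp_mul, hg, sp_one]

theorem sp_unitary' (Q : ℕ) {g : Matrix (Fin 2) (Fin 2) ℂ} (hg : g * gᴴ = 1) :
    sp Q g * (sp Q g)ᴴ = 1 := by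
  rw [sp_conjTranspose, ← sp_mul, hg, sp_one]

theorem kap_smul (Q : ℕ) (c : ℂ) (ζ : Fin 2 → ℂ) : kap Q (c • ζ) = c ^ Q • kap Q ζ := by
  ext j
  have hj : (j : ℕ) ≤ Q := Nat.lt_succ_iff.1 j.2
  have : c ^ Q = c ^ (Q - (j : ℕ)) * c ^ (j : ℕ) := by rw [← pow_add, Nat.sub_add_cancel hj]
  simp only [kap, Pi.smul_apply, smul_eq_mul, mul_pow]
  rw [this]
  ring

end Crest.Agent.R340.CS809
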