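import Mathlib

/-!
# Row 340, leaf L7 (helper421): amplitude damping channels of a CAR family

`E` is a complex Hilbert space, `c : ι → (E →L[ℂ] E)` a family satisfying the canonical anticommutation
relations. For `t ∈ [0,1]` the one-mode amplitude damping channel is
`phi t c A = k0 A k0 + (1-t²) c* A c`, `k0 = 1 - (1-t) c* c`; it is unital and completely positive; its inverse is
`psi t c A = g0 A g0 - (t⁻²-1) c* A c`, `g0 = 1 + (t⁻¹-1) c* c`. `Phi`, `Psi` are the compositions over a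
list of modes.
-/

set_option autoImplicit false

noncomputable section

namespace Crest.Agent.R340.Ch421

open ContinuousLinearMap

variable {E : Type*} [NormedAddCommGroup E] [InnerProductSpace ℂ E] [CompleteSpace E]

local notation "⟪" x ", " y "⟫" => inner ℂ x y

/-! ### one mode -/

/-- a fermionic mode -/
structure IsMode (c : E →L[ℂ] E) : Prop where
  sq : c * c = 0
  car : c * star c + star c * c = 1

variable {c : E →L[ℂ] E}

/-- occupation number of a mode -/
def num (c : E →L[ℂ] E) : E →L[ℂ] E := star c * c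

theorem IsMode.star_sq (h : IsMode c) : star c * star c = 0 := by
  rw [← star_mul, h.sq, star_zero]

theorem IsMode.c_star (h : IsMode c) : c * star c = 1 - star c * c := eq_sub_of_add_eq h.car

theorem IsMode.c_num (h : IsMode c) : c * num c = c := by
  unfold num
  rw [← mul_assoc, h.c_star, sub_mul, one_mul, mul_assoc, h.sq, mul_zero, sub_zero]

theorem IsMode.num_c (h : IsMode c) : num c * c = 0 := by
  unfold num
  rw [mul_assoc, h.sq, mul_zero]

theorem star_num (c : E →L[ℂ] E) : star (num c) = num c := by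
  unfold num
  rw [star_mul, star_star]

theorem IsMode.star_num' (h : IsMode c) : num c * star c = star c := by
  have := congrArg star h.c_num
  rwa [star_mul, star_num] at this

theorem IsMode.star_num_zero (h : IsMode c) : star c * num c = 0 := by
  have := congrArg star h.num_c
  rwa [star_mul, star_num, star_zero] at this

theorem IsMode.num_num (h : IsMode c) : num c * num c = num c := by
  have h1 : num c * num c = star c * (c * num c) := by
    rw [← mul_assoc]; rfl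
  rw [h1, h.c_num]
  rfl

theorem IsMode.norm_sq (h : IsMode c) (v : E) : ‖c v‖ ^ 2 + ‖star c v‖ ^ 2 = ‖v‖ ^ 2 := by
  have h1 : ⟪c v, c v⟫ + ⟪star c v, star c v⟫ = ⟪v, v⟫ := by
    rw [ContinuousLinearMap.star_eq_adjoint, ← ContinuousLinearMap.adjoint_inner_right,
      ContinuousLinearMap.adjoint_inner_left, ← inner_add_right]
    have := congrArg (fun A : E →L[ℂ] E => A v) h.car
    simp only [add_apply, mul_apply_eq_comp,
      one_apply_eq_self, ContinuousLinearMap.star_eq_adjoint] at this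
    rw [add_comm, this]
  have h2 := congrArg Complex.re h1
  simpa [inner_self_eq_norm_sq_to_K, ← Complex.ofReal_pow] using h2

theorem IsMode.norm_le (h : IsMode c) (v : E) : ‖c v‖ ≤ ‖v‖ := by
  have := h.norm_sq v
  nlinarith [norm_nonneg (c v), norm_nonneg v, sq_nonneg ‖star c v‖]

theorem IsMode.opNorm_le (h : IsMode c) : ‖c‖ ≤ 1 :=
  ContinuousLinearMap.opNorm_le_bound _ zero_le_one fun v => by simpa using h.norm_le v

theorem IsMode.star_opNorm_le (h : IsMode c) : ‖star c‖ ≤ 1 := by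
  rw [norm_star]
  exact h.opNorm_le

theorem IsMode.num_opNorm_le (h : IsMode c) : ‖num c‖ ≤ 1 := by
  refine (norm_mul_le _ _).trans ?_
  have h1 := h.opNorm_le
  have h2 := h.star_opNorm_le
  nlinarith [norm_nonneg c, norm_nonneg (star c)]

/-- `1 + (s-1) n` : multiplication by `s` on the occupied states -/
def gg (s : ℝ) (c : E →L[ℂ] E) : E →L[ℂ] E := 1 + ((s - 1 : ℝ) : ℂ) • num c

theorem star_gg (s : ℝ) (c : E →L[ℂ] E) : star (gg s c) = gg s c := by
  unfold gg
  rw [star_add, star_one, star_smul, star_num]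
  congr 2
  exact Complex.conj_ofReal _

theorem IsMode.gg_c (h : IsMode c) (s : ℝ) : gg s c * c = c := by
  unfold gg
  rw [add_mul, one_mul, smul_mul_assoc, h.num_c, smul_zero, add_zero]

theorem IsMode.c_gg (h : IsMode c) (s : ℝ) : c * gg s c = (s : ℂ) • c := by
  unfold gg
  rw [mul_add, mul_one, mul_smul_comm, h.c_num]
  conv_lhs => enter [1]; rw [← one_smul ℂ c]
  rw [← add_smul]
  congr 1
  push_cast
  ring

theorem IsMode.star_gg_c (h : IsMode c) (s : ℝ) : star c * gg s c = star c := by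
  have := congrArg star (h.gg_c s)
  rwa [star_mul, star_gg] at this

theorem IsMode.gg_star (h : IsMode c) (s : ℝ) : gg s c * star c = (s : ℂ) • star c := by
  have := congrArg star (h.c_gg s)
  rw [star_mul, star_gg, star_smul] at this
  rw [this]
  congr 1
  exact Complex.conj_ofReal _

theorem IsMode.gg_gg (h : IsMode c) (s t : ℝ) : gg s c * gg t c = gg (s * t) c := by
  unfold gg
  rw [mul_add, mul_one, mul_smul_comm, add_mul, one_mul, smul_mul_assoc, h.num_num, add_assoc,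
    smul_add, smul_smul, ← add_smul, ← add_smul]
  congr 2
  push_cast
  ring

theorem gg_one (c : E →L[ℂ] E) : gg 1 c = 1 := by
  unfold gg
  simp

theorem IsMode.gg_sq_add (h : IsMode c) (t : ℝ) :
    gg t c * gg t c + ((1 - t ^ 2 : ℝ) : ℂ) • num c = 1 := by
  rw [h.gg_gg]
  unfold gg
  rw [add_assoc, ← add_smul]
  have : ((t * t - 1 : ℝ) : ℂ) + ((1 - t ^ 2 : ℝ) : ℂ) = 0 := by
    push_cast
    ring
  rw [this, zero_smul, add_zero]

/-- one-mode amplitude damping channel -/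
def phi (t : ℝ) (c A : E →L[ℂ] E) : E →L[ℂ] E :=
  gg t c * A * gg t c + ((1 - t ^ 2 : ℝ) : ℂ) • (star c * A * c)

/-- inverse of the one-mode amplitude damping channel -/
def psi (t : ℝ) (c A : E →L[ℂ] E) : E →L[ℂ] E :=
  gg t⁻¹ c * A * gg t⁻¹ c - (((t⁻¹) ^ 2 - 1 : ℝ) : ℂ) • (star c * A * c)

theorem phi_add (t : ℝ) (A A' : E →L[ℂ] E) : phi t c (A + A') = phi t c A + phi t c A' := by
  unfold phi
  simp only [mul_add, add_mul, smul_add]
  abel

theorem phi_smul (t : ℝ) (z : ℂ) (A : E →L[ℂ] E) : phi t c (z • A) = z • phi t c A := by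
  unfold phi
  simp only [mul_smul_comm, smul_mul_assoc, smul_add]
  rw [smul_comm]

theorem star_phi (t : ℝ) (A : E →L[ℂ] E) : star (phi t c A) = phi t c (star A) := by
  unfold phi
  rw [star_add, star_mul, star_mul, star_gg, star_smul, star_mul, star_mul, star_star, mul_assoc,
    mul_assoc (star c)]
  congr 2
  exact Complex.conj_ofReal _

theorem star_psi (t : ℝ) (A : E →L[ℂ] E) : star (psi t c A) = psi t c (star A) := by
  unfold psi
  rw [star_sub, star_mul, star_mul, star_gg, star_smul, star_mul, star_mul, star_star, mul_assoc,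
    mul_assoc (star c)]
  congr 2
  exact Complex.conj_ofReal _

theorem IsMode.phi_one (h : IsMode c) (t : ℝ) : phi t c 1 = 1 := by
  unfold phi
  rw [mul_one, mul_one]
  exact h.gg_sq_add t

theorem IsMode.phi_of_commute (h : IsMode c) (t : ℝ) {A : E →L[ℂ] E} (h1 : Commute A c)
    (h2 : Commute A (star c)) : phi t c A = A := by
  have hn : Commute A (num c) := h2.mul_right h1
  have hg : Commute A (gg t c) := (Commute.one_right A).add_right (hn.smul_right _)
  unfold phi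
  rw [← hg.eq, mul_assoc, ← h2.eq, mul_assoc A]
  rw [← mul_smul_comm, ← mul_add]
  have := h.gg_sq_add t
  unfold num at this
  rw [this, mul_one]

theorem IsMode.psi_of_commute (h : IsMode c) {t : ℝ} {A : E →L[ℂ] E} (h1 : Commute A c)
    (h2 : Commute A (star c)) : psi t c A = A := by
  have hn : Commute A (num c) := h2.mul_right h1
  have hg : Commute A (gg t⁻¹ c) := (Commute.one_right A).add_right (hn.smul_right _)
  unfold psi
  rw [← hg.eq, mul_assoc, ← h2.eq, mul_assoc A]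
  rw [← mul_smul_comm, ← mul_sub]
  have := h.gg_sq_add t⁻¹
  unfold num at this
  have h3 : gg t⁻¹ c * gg t⁻¹ c - (((t⁻¹) ^ 2 - 1 : ℝ) : ℂ) • (star c * c) = 1 := by
    rw [← this, sub_eq_add_neg, ← neg_smul]
    congr 2
    push_cast
    ring
  rw [h3, mul_one]

theorem IsMode.phi_psi (h : IsMode c) {t : ℝ} (ht : t ≠ 0) (A : E →L[ℂ] E) :
    phi t c (psi t c A) = A := by
  have e1 : gg t c * gg t⁻¹ c = 1 := by rw [h.gg_gg, mul_inv_cancel₀ ht, gg_one]
  have e2 : gg t⁻¹ c * gg t c = 1 := by rw [h.gg_gg, inv_mul_cancel₀ ht, gg_one]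
  have h1 : gg t c * psi t c A * gg t c =
      A - ((((t⁻¹) ^ 2 - 1) * t ^ 2 : ℝ) : ℂ) • (star c * A * c) := by
    unfold psi
    rw [mul_sub, sub_mul]
    congr 1
    · calc gg t c * (gg t⁻¹ c * A * gg t⁻¹ c) * gg t c =
          (gg t c * gg t⁻¹ c) * A * (gg t⁻¹ c * gg t c) := by simp only [mul_assoc]
        _ = A := by rw [e1, e2, one_mul, mul_one]
    · rw [mul_smul_comm, smul_mul_assoc]
      calc (((t⁻¹) ^ 2 - 1 : ℝ) : ℂ) • (gg t c * (star c * A * c) * gg t c) =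
          (((t⁻¹) ^ 2 - 1 : ℝ) : ℂ) • ((gg t c * star c) * A * (c * gg t c)) := by
            simp only [mul_assoc]
        _ = _ := by
            rw [h.gg_star, h.c_gg, smul_mul_assoc, smul_mul_assoc, mul_smul_comm, smul_smul,
              smul_smul]
            congr 1
            push_cast
            ring
  have h2 : star c * psi t c A * c = star c * A * c := by
    unfold psi
    rw [mul_sub, sub_mul]
    have e3 : star c * (gg t⁻¹ c * A * gg t⁻¹ c) * c = star c * A * c := by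
      calc star c * (gg t⁻¹ c * A * gg t⁻¹ c) * c = (star c * gg t⁻¹ c) * A * (gg t⁻¹ c * c) := by
            simp only [mul_assoc]
        _ = _ := by rw [h.star_gg_c, h.gg_c]
    have e4 : star c * ((((t⁻¹) ^ 2 - 1 : ℝ) : ℂ) • (star c * A * c)) * c = 0 := by
      rw [mul_smul_comm, smul_mul_assoc, ← mul_assoc, ← mul_assoc, h.star_sq]
      simp
    rw [e3, e4, sub_zero]
  unfold phi
  rw [h1, h2, sub_add_eq_add_sub, ← sub_eq_zero]
  have h3 : ((((t⁻¹) ^ 2 - 1) * t ^ 2 : ℝ) : ℂ) = ((1 - t ^ 2 : ℝ) : ℂ) := by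
    congr 1
    field_simp
  rw [h3]
  abel

theorem adj_gg (s : ℝ) (c : E →L[ℂ] E) : adjoint (gg s c) = gg s c := by
  rw [← ContinuousLinearMap.star_eq_adjoint, star_gg]

theorem inner_phi (t : ℝ) (A : E →L[ℂ] E) (u v : E) :
    ⟪u, phi t c A v⟫ = ⟪gg t c u, A (gg t c v)⟫ + ((1 - t ^ 2 : ℝ) : ℂ) * ⟪c u, A (c v)⟫ := by
  unfold phi
  simp only [add_apply, mul_apply_eq_comp,
    smul_apply, inner_add_right, inner_smul_right]
  rw [ContinuousLinearMap.star_eq_adjoint, ContinuousLinearMap.adjoint_inner_right]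
  congr 1
  conv_lhs => rw [← adj_gg t c]
  rw [ContinuousLinearMap.adjoint_inner_right, adj_gg]

theorem inner_psi (t : ℝ) (A : E →L[ℂ] E) (u v : E) :
    ⟪u, psi t c A v⟫ = ⟪gg t⁻¹ c u, A (gg t⁻¹ c v)⟫ -
      (((t⁻¹) ^ 2 - 1 : ℝ) : ℂ) * ⟪c u, A (c v)⟫ := by
  unfold psi
  simp only [sub_apply, mul_apply_eq_comp,
    smul_apply, inner_sub_right, inner_smul_right]
  rw [ContinuousLinearMap.star_eq_adjoint, ContinuousLinearMap.adjoint_inner_right]
  congr 1
  conv_lhs => rw [← adj_gg t⁻¹ c]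
  rw [ContinuousLinearMap.adjoint_inner_right, adj_gg]

theorem IsMode.split_norm (h : IsMode c) (t : ℝ) (v : E) :
    ‖gg t c v‖ ^ 2 + (1 - t ^ 2) * ‖c v‖ ^ 2 = ‖v‖ ^ 2 := by
  have h1 := inner_phi (c := c) t 1 v v
  rw [h.phi_one] at h1
  simp only [one_apply_eq_self] at h1
  have h2 := congrArg Complex.re h1
  rw [Complex.add_re, Complex.re_ofReal_mul] at h2
  simpa [inner_self_eq_norm_sq_to_K, ← Complex.ofReal_pow] using h2.symm

/-- form order -/
def FLe (A A' : E →L[ℂ] E) : Prop := ∀ v : E, (⟪v, A v⟫).re ≤ (⟪v, A' v⟫).re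

theorem FLe.phi {t : ℝ} (ht0 : 0 ≤ t) (ht1 : t ≤ 1) {A A' : E →L[ℂ] E} (h : FLe A A') :
    FLe (phi t c A) (phi t c A') := by
  intro v
  rw [inner_phi, inner_phi, Complex.add_re, Complex.add_re, Complex.re_ofReal_mul,
    Complex.re_ofReal_mul]
  have h1 := h (gg t c v)
  have h2 := h (c v)
  have h3 : 0 ≤ 1 - t ^ 2 := by nlinarith
  have := mul_le_mul_of_nonneg_left h2 h3
  linarith

omit [CompleteSpace E] in
theorem opNorm_le_of_inner {A : E →L[ℂ] E} {C : ℝ} (hC : 0 ≤ C)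
    (h : ∀ u v : E, ‖⟪u, A v⟫‖ ≤ C * ‖u‖ * ‖v‖) : ‖A‖ ≤ C := by
  refine ContinuousLinearMap.opNorm_le_bound _ hC fun v => ?_
  by_cases h0 : ‖A v‖ = 0
  · rw [h0]; positivity
  have h1 := h (A v) v
  rw [inner_self_eq_norm_sq_to_K] at h1
  have h2 : ‖((‖A v‖ : ℂ)) ^ 2‖ = ‖A v‖ ^ 2 := by
    rw [norm_pow, Complex.norm_real, norm_norm]
  have h3 : ‖A v‖ ^ 2 ≤ C * ‖A v‖ * ‖v‖ := by
    rw [← h2]
    exact h1
  have h4 : 0 < ‖A v‖ := lt_of_le_of_ne (norm_nonneg _) (Ne.symm h0)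
  nlinarith

theorem IsMode.norm_phi_le (h : IsMode c) {t : ℝ} (ht0 : 0 ≤ t) (ht1 : t ≤ 1) (A : E →L[ℂ] E) :
    ‖phi t c A‖ ≤ ‖A‖ := by
  refine opNorm_le_of_inner (norm_nonneg _) fun u v => ?_
  rw [inner_phi]
  have h3 : 0 ≤ 1 - t ^ 2 := by nlinarith
  have b1 : ∀ x y : E, ‖⟪x, A y⟫‖ ≤ ‖A‖ * (‖x‖ * ‖y‖) := by
    intro x y
    refine (norm_inner_le_norm _ _).trans ?_
    calc ‖x‖ * ‖A y‖ ≤ ‖x‖ * (‖A‖ * ‖y‖) :=
          mul_le_mul_of_nonneg_left (A.le_opNorm y) (norm_nonneg _)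
      _ = _ := by ring
  have e1 := h.split_norm t u
  have e2 := h.split_norm t v
  set a := ‖gg t c u‖
  set b := ‖c u‖
  set a' := ‖gg t c v‖
  set b' := ‖c v‖
  have ha : 0 ≤ a := norm_nonneg _
  have hb : 0 ≤ b := norm_nonneg _
  have ha' : 0 ≤ a' := norm_nonneg _
  have hb' : 0 ≤ b' := norm_nonneg _
  have key : a * a' + (1 - t ^ 2) * (b * b') ≤ ‖u‖ * ‖v‖ := by
    have h5 : (a * a' + (1 - t ^ 2) * (b * b')) ^ 2 ≤ (‖u‖ * ‖v‖) ^ 2 := by
      rw [mul_pow, ← e1, ← e2]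
      nlinarith [mul_nonneg h3 (sq_nonneg (a * b' - a' * b))]
    exact abs_le_of_sq_le_sq' h5 (by positivity) |>.2
  calc ‖⟪gg t c u, A (gg t c v)⟫ + ((1 - t ^ 2 : ℝ) : ℂ) * ⟪c u, A (c v)⟫‖
      ≤ ‖⟪gg t c u, A (gg t c v)⟫‖ + ‖((1 - t ^ 2 : ℝ) : ℂ) * ⟪c u, A (c v)⟫‖ := norm_add_le _ _
    _ ≤ ‖A‖ * (a * a') + (1 - t ^ 2) * (‖A‖ * (b * b')) := by
        refine add_le_add (b1 _ _) ?_
        rw [norm_mul, Complex.norm_real, Real.norm_of_nonneg h3]
        exact mul_le_mul_of_nonneg_left (b1 _ _) h3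
    _ = ‖A‖ * (a * a' + (1 - t ^ 2) * (b * b')) := by ring
    _ ≤ ‖A‖ * (‖u‖ * ‖v‖) := mul_le_mul_of_nonneg_left key (norm_nonneg _)
    _ = _ := by ring

theorem IsMode.norm_gg_le (h : IsMode c) {s : ℝ} (hs : 1 ≤ s) : ‖gg s c‖ ≤ s := by
  unfold gg
  refine (norm_add_le _ _).trans ?_
  rw [norm_smul, Complex.norm_real, Real.norm_of_nonneg (by linarith)]
  have h1 : ‖(1 : E →L[ℂ] E)‖ ≤ 1 := ContinuousLinearMap.norm_id_le
  have h2 := mul_le_mul_of_nonneg_left h.num_opNorm_le (by linarith : (0 : ℝ) ≤ s - 1)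
  linarith

theorem IsMode.norm_gg_le_one (h : IsMode c) {s : ℝ} (hs0 : 0 ≤ s) (hs : s ≤ 1) : ‖gg s c‖ ≤ 1 := by
  refine ContinuousLinearMap.opNorm_le_bound _ zero_le_one fun v => ?_
  have h1 := h.split_norm s v
  have h3 : 0 ≤ 1 - s ^ 2 := by nlinarith
  have := mul_nonneg h3 (sq_nonneg ‖c v‖)
  rw [one_mul]
  exact abs_le_of_sq_le_sq' (by linarith) (norm_nonneg _) |>.2

theorem IsMode.norm_psi_le (h : IsMode c) {t : ℝ} (ht0 : 0 < t) (ht1 : t ≤ 1) (A : E →L[ℂ] E) :
    ‖psi t c A‖ ≤ (2 * (t⁻¹) ^ 2 - 1) * ‖A‖ := by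
  have h1 : 1 ≤ t⁻¹ := (one_le_inv₀ ht0).2 ht1
  have h2 : 0 ≤ (t⁻¹) ^ 2 - 1 := by nlinarith
  unfold psi
  refine (norm_sub_le _ _).trans ?_
  have b1 : ‖gg t⁻¹ c * A * gg t⁻¹ c‖ ≤ (t⁻¹) ^ 2 * ‖A‖ := by
    refine (norm_mul_le _ _).trans ?_
    have e1 := norm_mul_le (gg t⁻¹ c) A
    have e2 := h.norm_gg_le h1
    calc ‖gg t⁻¹ c * A‖ * ‖gg t⁻¹ c‖ ≤ (t⁻¹ * ‖A‖) * t⁻¹ := by
          refine mul_le_mul (e1.trans ?_) e2 (norm_nonneg _) (by positivity)
          exact mul_le_mul_of_nonneg_right e2 (norm_nonneg _)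
      _ = _ := by ring
  have b2 : ‖((((t⁻¹) ^ 2 - 1 : ℝ)) : ℂ) • (star c * A * c)‖ ≤ ((t⁻¹) ^ 2 - 1) * ‖A‖ := by
    rw [norm_smul, Complex.norm_real, Real.norm_of_nonneg h2]
    refine mul_le_mul_of_nonneg_left ?_ h2
    refine (norm_mul_le _ _).trans ?_
    have e1 := norm_mul_le (star c) A
    have e2 := h.opNorm_le
    have e3 := h.star_opNorm_le
    calc ‖star c * A‖ * ‖c‖ ≤ (1 * ‖A‖) * 1 := by
          refine mul_le_mul (e1.trans ?_) e2 (norm_nonneg _) (by positivity)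
          exact mul_le_mul_of_nonneg_right e3 (norm_nonneg _)
      _ = _ := by ring
  calc _ ≤ (t⁻¹) ^ 2 * ‖A‖ + ((t⁻¹) ^ 2 - 1) * ‖A‖ := add_le_add b1 b2
    _ = _ := by ring

theorem IsMode.norm_sub_phi_le (h : IsMode c) {t : ℝ} (ht0 : 0 ≤ t) (ht1 : t ≤ 1)
    (A : E →L[ℂ] E) : ‖A - phi t c A‖ ≤ 4 * (1 - t) * ‖A‖ := by
  have h3 : 0 ≤ 1 - t ^ 2 := by nlinarith
  have hk : ‖(1 : E →L[ℂ] E) - gg t c‖ ≤ 1 - t := by
    have : (1 : E →L[ℂ] E) - gg t c = ((1 - t : ℝ) : ℂ) • num c := by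
      unfold gg
      rw [sub_add_cancel_left, ← neg_smul]
      congr 1
      push_cast
      ring
    rw [this, norm_smul, Complex.norm_real, Real.norm_of_nonneg (by linarith)]
    have := mul_le_mul_of_nonneg_left h.num_opNorm_le (by linarith : (0 : ℝ) ≤ 1 - t)
    linarith
  have hg := h.norm_gg_le_one ht0 ht1
  have e : A - phi t c A = (1 - gg t c) * A + gg t c * A * (1 - gg t c) -
      ((1 - t ^ 2 : ℝ) : ℂ) • (star c * A * c) := by
    unfold phi
    rw [mul_sub, mul_one, sub_mul, one_mul]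
    abel
  rw [e]
  have b1 : ‖(1 - gg t c) * A‖ ≤ (1 - t) * ‖A‖ :=
    (norm_mul_le _ _).trans (mul_le_mul_of_nonneg_right hk (norm_nonneg _))
  have b2 : ‖gg t c * A * (1 - gg t c)‖ ≤ ‖A‖ * (1 - t) := by
    refine (norm_mul_le _ _).trans (mul_le_mul ?_ hk (norm_nonneg _) (norm_nonneg _))
    refine (norm_mul_le _ _).trans ?_
    calc ‖gg t c‖ * ‖A‖ ≤ 1 * ‖A‖ := mul_le_mul_of_nonneg_right hg (norm_nonneg _)
      _ = _ := one_mul _
  have b3 : ‖(((1 - t ^ 2 : ℝ)) : ℂ) • (star c * A * c)‖ ≤ (1 - t ^ 2) * ‖A‖ := by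
    rw [norm_smul, Complex.norm_real, Real.norm_of_nonneg h3]
    refine mul_le_mul_of_nonneg_left ?_ h3
    refine (norm_mul_le _ _).trans ?_
    have e1 := norm_mul_le (star c) A
    have e2 := h.opNorm_le
    have e3 := h.star_opNorm_le
    calc ‖star c * A‖ * ‖c‖ ≤ (1 * ‖A‖) * 1 := by
          refine mul_le_mul (e1.trans ?_) e2 (norm_nonneg _) (by positivity)
          exact mul_le_mul_of_nonneg_right e3 (norm_nonneg _)
      _ = _ := by ring
  refine (norm_sub_le _ _).trans ((add_le_add ((norm_add_le _ _).trans (add_le_add b1 b2)) b3).trans ?_)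
  have h6 : 1 - t ^ 2 ≤ 2 * (1 - t) := by nlinarith
  have := mul_le_mul_of_nonneg_right h6 (norm_nonneg A)
  linarith

/-- If `X, Y` commute with `c` and `X k0 = k0 X'`, `c X = c X'` (same for `Y`), then
`phi (X* Y) = X'* Y'`. -/
theorem IsMode.phi_normal (h : IsMode c) (t : ℝ) {X X' Y Y' : E →L[ℂ] E}
    (hX : Commute X c) (hY : Commute Y c) (hX1 : X * gg t c = gg t c * X')
    (hY1 : Y * gg t c = gg t c * Y') (hX2 : c * X = c * X') (hY2 : c * Y = c * Y') :
    phi t c (star X * Y) = star X' * Y' := by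
  unfold phi
  have e1 : gg t c * (star X * Y) * gg t c = star X' * (gg t c * gg t c) * Y' := by
    have : gg t c * star X = star X' * gg t c := by
      have := congrArg star hX1
      rwa [star_mul, star_mul, star_gg] at this
    calc gg t c * (star X * Y) * gg t c = (gg t c * star X) * (Y * gg t c) := by
          simp only [mul_assoc]
      _ = (star X' * gg t c) * (gg t c * Y') := by rw [this, hY1]
      _ = _ := by simp only [mul_assoc]
  have e2 : star c * (star X * Y) * c = star X' * num c * Y' := by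
    calc star c * (star X * Y) * c = star (X * c) * (Y * c) := by
          rw [star_mul]; simp only [mul_assoc]
      _ = star (c * X') * (c * Y') := by rw [hX.eq, hY.eq, hX2, hY2]
      _ = _ := by rw [star_mul, num]; simp only [mul_assoc]
  rw [e1, e2]
  calc star X' * (gg t c * gg t c) * Y' + ((1 - t ^ 2 : ℝ) : ℂ) • (star X' * num c * Y') =
      star X' * (gg t c * gg t c + ((1 - t ^ 2 : ℝ) : ℂ) • num c) * Y' := by
        rw [mul_add, add_mul, mul_smul_comm, smul_mul_assoc]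
    _ = _ := by rw [h.gg_sq_add, mul_one]

end Crest.Agent.R340.Ch421
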