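import Crest.Agent.R340.Ch1_421

/-!
# Row 340, leaf L7 (helper421): multi-mode damping channels, pair annihilators, (R1) for local operators

`IsCAR c`; `Phi t c l`, `Psi t c l` compositions of the one-mode maps over a list of modes; `pr c w` the pair
annihilator with tensor `w`. Main theorem `R1a`: a self-adjoint operator local in the modes of position `< M`
that kills all zero modes is bounded by `(e² ‖A‖ / γ) ∑ₚ exp(-2 mₚ / M²) Bₚ* Bₚ`.
-/

set_option autoImplicit false

noncomputable section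

namespace Crest.Agent.R340.Ch421

open ContinuousLinearMap

variable {E : Type*} [NormedAddCommGroup E] [InnerProductSpace ℂ E] [CompleteSpace E]

local notation "⟪" x ", " y "⟫" => inner ℂ x y

variable {ι : Type*}

/-- canonical anticommutation relations -/
structure IsCAR (c : ι → E →L[ℂ] E) : Prop where
  mode : ∀ i, IsMode (c i)
  anti : ∀ i j, i ≠ j → c i * c j = -(c j * c i)
  anti_star : ∀ i j, i ≠ j → c i * star (c j) = -(star (c j) * c i)

variable {c : ι → E →L[ℂ] E}

theorem IsCAR.anti_star' (h : IsCAR c) {i j : ι} (hij : i ≠ j) :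
    star (c i) * c j = -(c j * star (c i)) := by
  have := h.anti_star j i hij.symm
  rw [this, neg_neg]

theorem IsCAR.num_comm (h : IsCAR c) {i j : ι} (hij : i ≠ j) : Commute (num (c i)) (c j) := by
  unfold num
  show star (c i) * c i * c j = c j * (star (c i) * c i)
  rw [mul_assoc, h.anti i j hij, mul_neg, ← mul_assoc, h.anti_star' hij, neg_mul, neg_neg, mul_assoc]

theorem IsCAR.gg_comm (h : IsCAR c) {i j : ι} (hij : i ≠ j) (s : ℝ) : Commute (gg s (c i)) (c j) :=
  (Commute.one_left _).add_left ((h.num_comm hij).smul_left _)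

theorem IsCAR.gg_comm_star (h : IsCAR c) {i j : ι} (hij : i ≠ j) (s : ℝ) :
    Commute (gg s (c i)) (star (c j)) := by
  have h1 : star (gg s (c i) * c j) = star (c j * gg s (c i)) := congrArg star (h.gg_comm hij s)
  rw [star_mul, star_mul, star_gg] at h1
  exact h1.symm

theorem IsCAR.gg_gg_comm (h : IsCAR c) {i j : ι} (hij : i ≠ j) (s s' : ℝ) :
    Commute (gg s (c i)) (gg s' (c j)) :=
  (Commute.one_right _).add_right
    (((h.gg_comm_star hij s).mul_right (h.gg_comm hij s)).smul_right _)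

/-- composition of the damping channels over a list of modes -/
def Phi (t : ι → ℝ) (c : ι → E →L[ℂ] E) : List ι → (E →L[ℂ] E) → (E →L[ℂ] E)
  | [], A => A
  | j :: l, A => phi (t j) (c j) (Phi t c l A)

/-- composition of the inverse maps -/
def Psi (t : ι → ℝ) (c : ι → E →L[ℂ] E) : List ι → (E →L[ℂ] E) → (E →L[ℂ] E)
  | [], A => A
  | j :: l, A => Psi t c l (psi (t j) (c j) A)

variable {t : ι → ℝ}

theorem Phi_add (l : List ι) (A A' : E →L[ℂ] E) :
    Phi t c l (A + A') = Phi t c l A + Phi t c l A' := by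
  induction l with
  | nil => rfl
  | cons j l ih => simp only [Phi, ih, phi_add]

theorem Phi_smul (l : List ι) (z : ℂ) (A : E →L[ℂ] E) : Phi t c l (z • A) = z • Phi t c l A := by
  induction l with
  | nil => rfl
  | cons j l ih => simp only [Phi, ih, phi_smul]

theorem Phi_zero (l : List ι) : Phi t c l (0 : E →L[ℂ] E) = 0 := by
  have := Phi_smul (t := t) (c := c) l 0 0
  simpa using this

theorem Phi_sub (l : List ι) (A A' : E →L[ℂ] E) :
    Phi t c l (A - A') = Phi t c l A - Phi t c l A' := by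
  have h := Phi_smul (t := t) (c := c) l (-1) A'
  rw [sub_eq_add_neg, Phi_add]
  rw [neg_smul, one_smul, neg_smul, one_smul] at h
  rw [h, ← sub_eq_add_neg]

theorem Phi_sum {κ : Type*} (s : Finset κ) (l : List ι) (A : κ → E →L[ℂ] E) :
    Phi t c l (∑ p ∈ s, A p) = ∑ p ∈ s, Phi t c l (A p) := by
  classical
  induction s using Finset.induction_on with
  | empty => simp [Phi_zero]
  | insert a s ha ih => rw [Finset.sum_insert ha, Finset.sum_insert ha, Phi_add, ih]

theorem star_Phi (l : List ι) (A : E →L[ℂ] E) : star (Phi t c l A) = Phi t c l (star A) := by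
  induction l with
  | nil => rfl
  | cons j l ih => simp only [Phi, star_phi, ih]

theorem star_Psi (l : List ι) (A : E →L[ℂ] E) : star (Psi t c l A) = Psi t c l (star A) := by
  induction l generalizing A with
  | nil => rfl
  | cons j l ih => simp only [Psi, star_psi, ih]

theorem IsCAR.Phi_one (h : IsCAR c) (l : List ι) : Phi t c l 1 = 1 := by
  induction l with
  | nil => rfl
  | cons j l ih => simp only [Phi, ih, (h.mode j).phi_one]

theorem FLe.Phi {l : List ι} (ht0 : ∀ j ∈ l, 0 ≤ t j) (ht1 : ∀ j ∈ l, t j ≤ 1)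
    {A A' : E →L[ℂ] E} (h : FLe A A') : FLe (Phi t c l A) (Phi t c l A') := by
  induction l with
  | nil => exact h
  | cons j l ih =>
    exact FLe.phi (ht0 j (by simp)) (ht1 j (by simp))
      (ih (fun i hi => ht0 i (by simp [hi])) (fun i hi => ht1 i (by simp [hi])))

theorem IsCAR.norm_Phi_le (h : IsCAR c) {l : List ι} (ht0 : ∀ j ∈ l, 0 ≤ t j)
    (ht1 : ∀ j ∈ l, t j ≤ 1) (A : E →L[ℂ] E) : ‖Phi t c l A‖ ≤ ‖A‖ := by
  induction l with
  | nil => exact le_rfl
  | cons j l ih =>
    exact ((h.mode j).norm_phi_le (ht0 j (by simp)) (ht1 j (by simp)) _).trans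
      (ih (fun i hi => ht0 i (by simp [hi])) (fun i hi => ht1 i (by simp [hi])))

theorem IsCAR.Phi_Psi (h : IsCAR c) {l : List ι} (ht : ∀ j ∈ l, t j ≠ 0) (A : E →L[ℂ] E) :
    Phi t c l (Psi t c l A) = A := by
  induction l generalizing A with
  | nil => rfl
  | cons j l ih =>
    simp only [Phi, Psi]
    rw [ih (fun i hi => ht i (by simp [hi])), (h.mode j).phi_psi (ht j (by simp))]

/-! ### locality -/

/-- `A` commutes with the modes in `S` (and their adjoints) -/
def Off (c : ι → E →L[ℂ] E) (S : Set ι) (A : E →L[ℂ] E) : Prop :=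
  ∀ j ∈ S, Commute A (c j) ∧ Commute A (star (c j))

theorem Off.mono {S S' : Set ι} (hS : S' ⊆ S) {A : E →L[ℂ] E} (h : Off c S A) : Off c S' A :=
  fun j hj => h j (hS hj)

theorem Off.star {S : Set ι} {A : E →L[ℂ] E} (h : Off c S A) : Off c S (star A) := by
  intro j hj
  obtain ⟨h1, h2⟩ := h j hj
  refine ⟨?_, ?_⟩
  · have := congrArg Star.star h2
    rw [star_mul, star_mul, star_star] at this
    exact this.symm
  · have := congrArg Star.star h1
    rw [star_mul, star_mul] at this
    exact this.symm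

theorem Off.mul {S : Set ι} {A A' : E →L[ℂ] E} (h : Off c S A) (h' : Off c S A') :
    Off c S (A * A') :=
  fun j hj => ⟨(h j hj).1.mul_left (h' j hj).1, (h j hj).2.mul_left (h' j hj).2⟩

theorem Off.add {S : Set ι} {A A' : E →L[ℂ] E} (h : Off c S A) (h' : Off c S A') :
    Off c S (A + A') :=
  fun j hj => ⟨(h j hj).1.add_left (h' j hj).1, (h j hj).2.add_left (h' j hj).2⟩

theorem Off.sub {S : Set ι} {A A' : E →L[ℂ] E} (h : Off c S A) (h' : Off c S A') :
    Off c S (A - A') :=
  fun j hj => ⟨(h j hj).1.sub_left (h' j hj).1, (h j hj).2.sub_left (h' j hj).2⟩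

theorem Off.smul {S : Set ι} {A : E →L[ℂ] E} (h : Off c S A) (z : ℂ) : Off c S (z • A) :=
  fun j hj => ⟨(h j hj).1.smul_left z, (h j hj).2.smul_left z⟩

theorem off_one (S : Set ι) : Off c S (1 : E →L[ℂ] E) :=
  fun _ _ => ⟨Commute.one_left _, Commute.one_left _⟩

theorem IsCAR.conj_comm (h : IsCAR c) {i j : ι} (hij : i ≠ j) {A : E →L[ℂ] E}
    (hA : Commute A (c j)) : Commute (Star.star (c i) * A * c i) (c j) := by
  show Star.star (c i) * A * c i * c j = c j * (Star.star (c i) * A * c i)
  calc Star.star (c i) * A * c i * c j = Star.star (c i) * A * (c i * c j) := by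
        simp only [mul_assoc]
    _ = -(Star.star (c i) * (A * c j) * c i) := by
        rw [h.anti i j hij, mul_neg]; simp only [mul_assoc]
    _ = -((Star.star (c i) * c j) * A * c i) := by rw [hA.eq]; simp only [mul_assoc]
    _ = _ := by rw [h.anti_star' hij, neg_mul, neg_mul, neg_neg]; simp only [mul_assoc]

theorem IsCAR.conj_comm_star (h : IsCAR c) {i j : ι} (hij : i ≠ j) {A : E →L[ℂ] E}
    (hA : Commute A (Star.star (c j))) :
    Commute (Star.star (c i) * A * c i) (Star.star (c j)) := by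
  have h1 : Commute (Star.star A) (c j) := by
    have := congrArg Star.star hA
    rw [star_mul, star_mul, star_star] at this
    exact this.symm
  have h2 := congrArg Star.star (h.conj_comm hij h1)
  simp only [star_mul, star_star, ← mul_assoc] at h2
  show Star.star (c i) * A * c i * Star.star (c j) = Star.star (c j) * (Star.star (c i) * A * c i)
  simp only [← mul_assoc]
  exact h2.symm

theorem IsCAR.off_phi (h : IsCAR c) {S : Set ι} {A : E →L[ℂ] E} (hA : Off c S A) (i : ι) (s : ℝ) :
    Off c S (phi s (c i) A) := by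
  by_cases hi : i ∈ S
  · rw [(h.mode i).phi_of_commute s (hA i hi).1 (hA i hi).2]
    exact hA
  · intro j hj
    have hij : i ≠ j := fun h => hi (h ▸ hj)
    unfold phi
    exact ⟨(((h.gg_comm hij s).mul_left (hA j hj).1).mul_left (h.gg_comm hij s)).add_left
      ((h.conj_comm hij (hA j hj).1).smul_left _),
      (((h.gg_comm_star hij s).mul_left (hA j hj).2).mul_left (h.gg_comm_star hij s)).add_left
      ((h.conj_comm_star hij (hA j hj).2).smul_left _)⟩

theorem IsCAR.off_psi (h : IsCAR c) {S : Set ι} {A : E →L[ℂ] E} (hA : Off c S A) (i : ι) (s : ℝ) :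
    Off c S (psi s (c i) A) := by
  by_cases hi : i ∈ S
  · rw [(h.mode i).psi_of_commute (hA i hi).1 (hA i hi).2]
    exact hA
  · intro j hj
    have hij : i ≠ j := fun h => hi (h ▸ hj)
    unfold psi
    exact ⟨(((h.gg_comm hij _).mul_left (hA j hj).1).mul_left (h.gg_comm hij _)).sub_left
      ((h.conj_comm hij (hA j hj).1).smul_left _),
      (((h.gg_comm_star hij _).mul_left (hA j hj).2).mul_left (h.gg_comm_star hij _)).sub_left
      ((h.conj_comm_star hij (hA j hj).2).smul_left _)⟩

theorem IsCAR.off_Phi (h : IsCAR c) {S : Set ι} {A : E →L[ℂ] E} (hA : Off c S A) (l : List ι) :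
    Off c S (Phi t c l A) := by
  induction l with
  | nil => exact hA
  | cons j l ih => exact h.off_phi ih j _

open Classical in
theorem IsCAR.norm_Psi_le (h : IsCAR c) {S : Set ι} {A : E →L[ℂ] E} (hA : Off c S A) {l : List ι}
    (ht0 : ∀ j ∈ l, 0 < t j) (ht1 : ∀ j ∈ l, t j ≤ 1) :
    ‖Psi t c l A‖ ≤ (l.map fun j => if j ∈ S then (1 : ℝ) else 2 * (t j)⁻¹ ^ 2 - 1).prod * ‖A‖ := by
  induction l generalizing A with
  | nil => simp [Psi]
  | cons j l ih =>
    have h1 : ∀ i ∈ l, 0 < t i := fun i hi => ht0 i (by simp [hi])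
    have h2 : ∀ i ∈ l, t i ≤ 1 := fun i hi => ht1 i (by simp [hi])
    have h3 := ih (h.off_psi hA j (t j)) h1 h2
    have hpos : 0 ≤ (l.map fun j => if j ∈ S then (1 : ℝ) else 2 * (t j)⁻¹ ^ 2 - 1).prod := by
      refine List.prod_nonneg ?_
      intro x hx
      rw [List.mem_map] at hx
      obtain ⟨i, hi, rfl⟩ := hx
      split_ifs
      · exact zero_le_one
      · have : 1 ≤ (t i)⁻¹ := (one_le_inv₀ (h1 i hi)).2 (h2 i hi)
        nlinarith
    rw [List.map_cons, List.prod_cons]
    refine h3.trans ?_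
    rw [mul_comm (ite _ _ _), mul_assoc]
    refine mul_le_mul_of_nonneg_left ?_ hpos
    split_ifs with hj
    · rw [(h.mode j).psi_of_commute (hA j hj).1 (hA j hj).2, one_mul]
    · exact (h.mode j).norm_psi_le (ht0 j (by simp)) (ht1 j (by simp)) A

open Classical in
theorem IsCAR.norm_sub_Phi_le (h : IsCAR c) {S : Set ι} {A : E →L[ℂ] E} (hA : Off c S A)
    {l : List ι} (ht0 : ∀ j ∈ l, 0 ≤ t j) (ht1 : ∀ j ∈ l, t j ≤ 1) :
    ‖A - Phi t c l A‖ ≤ (l.map fun j => if j ∈ S then (0 : ℝ) else 4 * (1 - t j)).sum * ‖A‖ := by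
  induction l with
  | nil => simp [Phi]
  | cons j l ih =>
    have h1 : ∀ i ∈ l, 0 ≤ t i := fun i hi => ht0 i (by simp [hi])
    have h2 : ∀ i ∈ l, t i ≤ 1 := fun i hi => ht1 i (by simp [hi])
    have h3 := ih h1 h2
    rw [List.map_cons, List.sum_cons, add_mul]
    have h4 : ‖Phi t c l A - phi (t j) (c j) (Phi t c l A)‖ ≤
        (if j ∈ S then (0 : ℝ) else 4 * (1 - t j)) * ‖A‖ := by
      split_ifs with hj
      · have := h.off_Phi (t := t) hA l
        rw [(h.mode j).phi_of_commute _ (this j hj).1 (this j hj).2]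
        simp
      · refine ((h.mode j).norm_sub_phi_le (ht0 j (by simp)) (ht1 j (by simp)) _).trans ?_
        refine mul_le_mul_of_nonneg_left (h.norm_Phi_le h1 h2 A) ?_
        have := ht1 j (by simp)
        linarith
    simp only [Phi]
    calc ‖A - phi (t j) (c j) (Phi t c l A)‖ =
        ‖(Phi t c l A - phi (t j) (c j) (Phi t c l A)) + (A - Phi t c l A)‖ := by congr 1; abel
      _ ≤ _ := (norm_add_le _ _).trans (add_le_add h4 h3)

/-! ### pair annihilators -/

variable [Fintype ι] [DecidableEq ι]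

/-- pair annihilator with tensor `w` -/
def pr (c : ι → E →L[ℂ] E) (w : ι → ι → ℂ) : E →L[ℂ] E := ∑ a, ∑ b, w a b • (c a * c b)

/-- tensor scaled in the mode `j` -/
def scl (s : ℝ) (j : ι) (w : ι → ι → ℂ) : ι → ι → ℂ := fun a b =>
  ((if a = j then (s : ℂ) else 1) * (if b = j then (s : ℂ) else 1)) * w a b

omit [Fintype ι] in
theorem IsCAR.pair_comm (h : IsCAR c) (a b j : ι) : Commute (c a * c b) (c j) := by
  show c a * c b * c j = c j * (c a * c b)
  by_cases hb : b = j
  · subst hb
    by_cases ha : a = b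
    · subst ha
      rw [mul_assoc]
    · rw [mul_assoc, (h.mode b).sq, mul_zero, h.anti a b ha, mul_neg, ← mul_assoc,
        (h.mode b).sq, zero_mul, neg_zero]
  · by_cases ha : a = j
    · subst ha
      rw [mul_assoc, h.anti b a hb, mul_neg, ← mul_assoc, (h.mode a).sq, zero_mul, neg_zero]
    · rw [mul_assoc, h.anti b j hb, mul_neg, ← mul_assoc, h.anti a j ha, neg_mul, neg_neg,
        mul_assoc]

theorem IsCAR.pr_comm (h : IsCAR c) (w : ι → ι → ℂ) (j : ι) : Commute (pr c w) (c j) := by
  unfold pr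
  refine Commute.sum_left _ _ _ fun a _ => Commute.sum_left _ _ _ fun b _ => ?_
  exact (h.pair_comm a b j).smul_left _

theorem IsCAR.pr_gg (h : IsCAR c) (w : ι → ι → ℂ) (j : ι) (s : ℝ) :
    pr c w * gg s (c j) = gg s (c j) * pr c (scl s j w) := by
  unfold pr
  rw [Finset.sum_mul, Finset.mul_sum]
  refine Finset.sum_congr rfl fun a _ => ?_
  rw [Finset.sum_mul, Finset.mul_sum]
  refine Finset.sum_congr rfl fun b _ => ?_
  rw [smul_mul_assoc, mul_smul_comm]
  unfold scl
  by_cases ha : a = j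
  · subst ha
    by_cases hb : b = a
    · subst hb
      rw [(h.mode b).sq]
      simp
    · rw [if_pos rfl, if_neg hb, mul_one, mul_assoc (c a), ← (h.gg_comm (Ne.symm hb) s).eq,
        ← mul_assoc (c a), (h.mode a).c_gg, ← mul_assoc (gg s (c a)), (h.mode a).gg_c,
        smul_mul_assoc, smul_smul, mul_comm]
  · by_cases hb : b = j
    · subst hb
      rw [if_neg ha, if_pos rfl, one_mul, mul_assoc (c a), (h.mode b).c_gg,
        ← mul_assoc (gg s (c b)), (h.gg_comm (Ne.symm ha) s).eq, mul_assoc (c a),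
        (h.mode b).gg_c, mul_smul_comm, smul_smul, mul_comm]
    · rw [if_neg ha, if_neg hb, one_mul, one_mul]
      have : Commute (gg s (c j)) (c a * c b) :=
        (h.gg_comm (Ne.symm ha) s).mul_right (h.gg_comm (Ne.symm hb) s)
      rw [this.eq]

theorem IsCAR.c_pr (h : IsCAR c) (w : ι → ι → ℂ) (j : ι) (s : ℝ) :
    c j * pr c w = c j * pr c (scl s j w) := by
  unfold pr
  rw [Finset.mul_sum, Finset.mul_sum]
  refine Finset.sum_congr rfl fun a _ => ?_
  rw [Finset.mul_sum, Finset.mul_sum]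
  refine Finset.sum_congr rfl fun b _ => ?_
  rw [mul_smul_comm, mul_smul_comm]
  unfold scl
  by_cases ha : a = j
  · subst ha
    rw [← mul_assoc, (h.mode a).sq]
    simp
  · by_cases hb : b = j
    · subst hb
      rw [← mul_assoc, h.anti b a (Ne.symm ha), neg_mul, mul_assoc, (h.mode b).sq]
      simp
    · rw [if_neg ha, if_neg hb, one_mul, one_mul]

/-- tensor scaled in all the modes of a list -/
def scls (t : ι → ℝ) (l : List ι) (w : ι → ι → ℂ) : ι → ι → ℂ :=
  l.foldl (fun w j => scl (t j) j w) w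

theorem IsCAR.phi_pr (h : IsCAR c) (w w' : ι → ι → ℂ) (j : ι) (s : ℝ) :
    phi s (c j) (star (pr c w) * pr c w') = star (pr c (scl s j w)) * pr c (scl s j w') :=
  (h.mode j).phi_normal s (h.pr_comm w j) (h.pr_comm w' j) (h.pr_gg w j s) (h.pr_gg w' j s)
    (h.c_pr w j s) (h.c_pr w' j s)

/-- scaling over a list, recursively from the inside -/
def scr (t : ι → ℝ) : List ι → (ι → ι → ℂ) → (ι → ι → ℂ)
  | [], w => w
  | j :: l, w => scl (t j) j (scr t l w)

theorem IsCAR.Phi_pr (h : IsCAR c) (w w' : ι → ι → ℂ) (l : List ι) :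
    Phi t c l (star (pr c w) * pr c w') = star (pr c (scr t l w)) * pr c (scr t l w') := by
  induction l with
  | nil => rfl
  | cons j l ih => simp only [Phi, scr, ih, h.phi_pr]

omit [Fintype ι] in
theorem scr_apply (l : List ι) (hl : l.Nodup) (w : ι → ι → ℂ) (a b : ι) :
    scr t l w a b = ((if a ∈ l then (t a : ℂ) else 1) * (if b ∈ l then (t b : ℂ) else 1)) * w a b := by
  induction l with
  | nil => simp [scr]
  | cons j l ih =>
    rw [List.nodup_cons] at hl
    simp only [scr, scl, ih hl.2]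
    have key : ∀ x : ι, (if x = j then (t j : ℂ) else 1) * (if x ∈ l then (t x : ℂ) else 1) =
        if x ∈ j :: l then (t x : ℂ) else 1 := by
      intro x
      by_cases hx : x = j
      · subst hx
        simp [hl.1]
      · simp [hx]
    rw [← key a, ← key b]
    ring

/-- product of the boosts -/
def GG (s : ι → ℝ) (c : ι → E →L[ℂ] E) : List ι → (E →L[ℂ] E)
  | [] => 1
  | j :: l => gg (s j) (c j) * GG s c l

theorem IsCAR.pr_GG (h : IsCAR c) (s : ι → ℝ) (w : ι → ι → ℂ) (l : List ι) (hl : l.Nodup) :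
    pr c w * GG s c l = GG s c l * pr c (fun a b =>
      ((if a ∈ l then (s a : ℂ) else 1) * (if b ∈ l then (s b : ℂ) else 1)) * w a b) := by
  induction l generalizing w with
  | nil => simp [GG]
  | cons j l ih =>
    rw [List.nodup_cons] at hl
    simp only [GG]
    rw [← mul_assoc, h.pr_gg, mul_assoc, ih _ hl.2, ← mul_assoc]
    congr 2
    funext a b
    have key : ∀ x : ι, (if x = j then (s j : ℂ) else 1) * (if x ∈ l then (s x : ℂ) else 1) =
        if x ∈ j :: l then (s x : ℂ) else 1 := by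
      intro x
      by_cases hx : x = j
      · subst hx
        simp [hl.1]
      · simp [hx]
    rw [← key a, ← key b]
    unfold scl
    ring

/-- word of annihilators applied to a vector -/
def wd (c : ι → E →L[ℂ] E) : List ι → E → E
  | [], v => v
  | j :: J, v => c j (wd c J v)

omit [Fintype ι] [DecidableEq ι] in
theorem IsCAR.GG_comm (h : IsCAR c) (s : ι → ℝ) {l : List ι} {j : ι} (hj : j ∉ l) :
    Commute (GG s c l) (c j) := by
  induction l with
  | nil => exact Commute.one_left _
  | cons i l ih =>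
    rw [List.mem_cons, not_or] at hj
    exact (h.gg_comm (Ne.symm hj.1) _).mul_left (ih hj.2)

omit [Fintype ι] [DecidableEq ι] in
theorem IsCAR.GG_gg_comm (h : IsCAR c) (s : ι → ℝ) {l : List ι} {j : ι} (hj : j ∉ l) (r : ℝ) :
    Commute (GG s c l) (gg r (c j)) := by
  induction l with
  | nil => exact Commute.one_left _
  | cons i l ih =>
    rw [List.mem_cons, not_or] at hj
    exact (h.gg_gg_comm (Ne.symm hj.1) _ _).mul_left (ih hj.2)

omit [Fintype ι] [DecidableEq ι] in
/-- The inverse channel preserves annihilation of a set of vectors stable under boosted words. -/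
theorem IsCAR.Psi_kernel (h : IsCAR c) {l : List ι} (hl : l.Nodup) {A : E →L[ℂ] E} {v : E}
    (hv : ∀ J : List ι, A (GG (fun j => (t j)⁻¹) c l (wd c J v)) = 0) : Psi t c l A v = 0 := by
  induction l generalizing A with
  | nil => simpa [Psi, GG, wd] using hv []
  | cons j l ih =>
    rw [List.nodup_cons] at hl
    refine ih hl.2 fun J => ?_
    unfold psi
    have e1 : A (gg (t j)⁻¹ (c j) (GG (fun j => (t j)⁻¹) c l (wd c J v))) = 0 := by
      have := hv J
      simpa [GG] using this
    have e2 : A (c j (GG (fun j => (t j)⁻¹) c l (wd c J v))) = 0 := by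
      have h1 := hv (j :: J)
      have h2 : GG (fun j => (t j)⁻¹) c (j :: l) (wd c (j :: J) v) =
          c j (GG (fun j => (t j)⁻¹) c l (wd c J v)) := by
        have h3 : GG (fun j => (t j)⁻¹) c (j :: l) * c j = c j * GG (fun j => (t j)⁻¹) c l := by
          simp only [GG]
          rw [mul_assoc, (h.GG_comm _ hl.1).eq, ← mul_assoc, (h.mode j).gg_c]
        have h4 := congrArg (fun B : E →L[ℂ] E => B (wd c J v)) h3
        simpa [wd] using h4
      rw [h2] at h1
      exact h1
    simp only [sub_apply, mul_apply_eq_comp, smul_apply, e1, e2, map_zero, smul_zero, sub_zero]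

/-! ### (R1) for local operators -/

/-- zero modes of a family of operators -/
def IsZero {κ : Type*} (B : κ → E →L[ℂ] E) (z : E) : Prop := ∀ p, B p z = 0

/-- spectral gap: distance to the zero modes controlled by the energy -/
def GapH {κ : Type*} [Fintype κ] (B : κ → E →L[ℂ] E) (γ : ℝ) : Prop :=
  ∀ v : E, ∃ z : E, IsZero B z ∧ γ * ‖v - z‖ ^ 2 ≤ ∑ p, ‖B p v‖ ^ 2

theorem inner_star_mul_self (X : E →L[ℂ] E) (v : E) : (⟪v, (star X * X) v⟫).re = ‖X v‖ ^ 2 := by
  rw [mul_apply_eq_comp, ContinuousLinearMap.star_eq_adjoint,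
    ContinuousLinearMap.adjoint_inner_right, inner_self_eq_norm_sq_to_K]
  norm_cast

/-- a self-adjoint operator killing the zero modes is bounded by the energy -/
theorem le_energy {κ : Type*} [Fintype κ] {B : κ → E →L[ℂ] E} {γ : ℝ} (hγ : 0 < γ)
    (hgap : GapH B γ) {A : E →L[ℂ] E} (hA : star A = A) (h0 : ∀ z, IsZero B z → A z = 0) :
    FLe A (((‖A‖ / γ : ℝ) : ℂ) • ∑ p, star (B p) * B p) := by
  intro v
  obtain ⟨z, hz, h1⟩ := hgap v
  have e1 : ⟪v, A v⟫ = ⟪v - z, A (v - z)⟫ := by
    rw [map_sub, h0 z hz, sub_zero, inner_sub_left]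
    have : ⟪z, A v⟫ = 0 := by
      rw [← hA, ContinuousLinearMap.star_eq_adjoint, ContinuousLinearMap.adjoint_inner_right,
        h0 z hz, inner_zero_left]
    rw [this, sub_zero]
  have e2 : (⟪v, (((‖A‖ / γ : ℝ) : ℂ) • ∑ p, star (B p) * B p) v⟫).re =
      ‖A‖ / γ * ∑ p, ‖B p v‖ ^ 2 := by
    rw [smul_apply, inner_smul_right, Complex.re_ofReal_mul]
    congr 1
    rw [show (∑ p, star (B p) * B p) v = ∑ p, (star (B p) * B p) v from by
      simp, inner_sum, Complex.re_sum]
    exact Finset.sum_congr rfl fun p _ => inner_star_mul_self (B p) v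
  rw [e1, e2]
  calc (⟪v - z, A (v - z)⟫).re ≤ ‖⟪v - z, A (v - z)⟫‖ := Complex.re_le_norm _
    _ ≤ ‖v - z‖ * ‖A (v - z)‖ := norm_inner_le_norm _ _
    _ ≤ ‖v - z‖ * (‖A‖ * ‖v - z‖) :=
        mul_le_mul_of_nonneg_left (A.le_opNorm _) (norm_nonneg _)
    _ = ‖A‖ / γ * (γ * ‖v - z‖ ^ 2) := by field_simp
    _ ≤ _ := mul_le_mul_of_nonneg_left h1 (by positivity)

theorem IsCAR.wd_zero (h : IsCAR c) {κ : Type*} {w : κ → ι → ι → ℂ} {z : E}
    (hz : IsZero (fun p => pr c (w p)) z) (J : List ι) : IsZero (fun p => pr c (w p)) (wd c J z) := by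
  induction J with
  | nil => exact hz
  | cons j J ih =>
    intro p
    have h1 := congrArg (fun X : E →L[ℂ] E => X (wd c J z)) (h.pr_comm (w p) j)
    simp only [mul_apply_eq_comp] at h1
    simp only [wd]
    rw [h1, ih p, map_zero]

/-- **(R1), local operators.** -/
theorem IsCAR.R1a (h : IsCAR c) {κ : Type*} [Fintype κ] {w : κ → ι → ι → ℂ} {pos : ι → ℕ}
    (hpos : Function.Injective pos) {m : κ → ℕ} (hw : ∀ p a b, w p a b ≠ 0 → pos a + pos b = m p)
    {γ : ℝ} (hγ : 0 < γ) (hgap : GapH (fun p => pr c (w p)) γ) {M : ℕ} (hM : 1 ≤ M)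
    {A : E →L[ℂ] E} (hA : star A = A) (hloc : Off c {j | M ≤ pos j} A)
    (h0 : ∀ z, IsZero (fun p => pr c (w p)) z → A z = 0) (v : E) :
    (⟪v, A v⟫).re ≤ Real.exp 2 * ‖A‖ / γ *
      ∑ p, Real.exp (-(2 * m p) / (M : ℝ) ^ 2) * ‖pr c (w p) v‖ ^ 2 := by
  classical
  obtain ⟨S, hS⟩ : ∃ S : Set ι, S = {j | M ≤ pos j} := ⟨_, rfl⟩
  rw [← hS] at hloc
  have hmS : ∀ j, j ∈ S ↔ M ≤ pos j := fun j => by rw [hS]; rfl
  set k : ℝ := ((M : ℝ) ^ 2)⁻¹ with hk
  have hM0 : (0 : ℝ) < M := by exact_mod_cast hM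
  have hk0 : 0 < k := by positivity
  set t : ι → ℝ := fun j => Real.exp (-(k * pos j)) with ht
  have ht0 : ∀ j, 0 < t j := fun j => Real.exp_pos _
  have ht1 : ∀ j, t j ≤ 1 := fun j => by
    rw [ht]
    exact Real.exp_le_one_iff.2 (by simp only [Left.neg_nonpos_iff]; positivity)
  obtain ⟨l, hlnd, hl⟩ : ∃ l : List ι, l.Nodup ∧ ∀ j, j ∈ l :=
    ⟨(Finset.univ : Finset ι).toList, Finset.nodup_toList _, fun j => by simp⟩
  -- the inverse channel
  set A' := Psi t c l A with hA'
  have hA's : star A' = A' := by rw [hA', star_Psi, hA]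
  have hA'0 : ∀ z, IsZero (fun p => pr c (w p)) z → A' z = 0 := by
    intro z hz
    refine h.Psi_kernel hlnd fun J => h0 _ ?_
    intro p
    have h1 := h.pr_GG (fun j => (t j)⁻¹) (w p) l hlnd
    have h2 : (fun a b : ι => ((if a ∈ l then (((t a)⁻¹ : ℝ) : ℂ) else 1) *
        (if b ∈ l then (((t b)⁻¹ : ℝ) : ℂ) else 1)) * w p a b) =
        fun a b => ((Real.exp (k * m p) : ℝ) : ℂ) * w p a b := by
      funext a b
      by_cases hab : w p a b = 0
      · simp [hab]
      · rw [if_pos (hl a), if_pos (hl b)]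
        congr 1
        rw [← Complex.ofReal_mul]
        congr 1
        rw [ht]
        simp only
        rw [← Real.exp_neg, ← Real.exp_neg, ← Real.exp_add, neg_neg, neg_neg, ← hw p a b hab]
        congr 1
        push_cast
        ring
    rw [h2] at h1
    have h3 : pr c (fun a b => ((Real.exp (k * m p) : ℝ) : ℂ) * w p a b) =
        ((Real.exp (k * m p) : ℝ) : ℂ) • pr c (w p) := by
      unfold pr
      simp only [Finset.smul_sum, smul_smul]
    rw [h3] at h1
    have h4 := congrArg (fun X : E →L[ℂ] E => X (wd c J z)) h1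
    simp only [mul_apply_eq_comp, smul_apply] at h4
    simp only
    rw [h4, h.wd_zero hz J p, smul_zero, map_zero]
  -- norm of the inverse
  have hnorm : ‖A'‖ ≤ Real.exp 2 * ‖A‖ := by
    refine (h.norm_Psi_le hloc (fun j _ => ht0 j) (fun j _ => ht1 j)).trans ?_
    refine mul_le_mul_of_nonneg_right ?_ (norm_nonneg _)
    have e1 : (l.map fun j => if j ∈ S then (1 : ℝ) else 2 * (t j)⁻¹ ^ 2 - 1).prod ≤
        (l.map fun j => Real.exp (if M ≤ pos j then 0 else 4 * (k * pos j))).prod := by
      refine List.prod_map_le_prod_map₀ _ _ ?_ ?_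
      · intro j _
        split_ifs
        · exact zero_le_one
        · have : 1 ≤ (t j)⁻¹ := (one_le_inv₀ (ht0 j)).2 (ht1 j)
          nlinarith
      · intro j _
        by_cases hj : M ≤ pos j
        · simp [hmS, hj]
        · simp only [hmS, hj, if_false]
          rw [ht]
          simp only
          rw [← Real.exp_neg, neg_neg]
          have : Real.exp (4 * (k * pos j)) = (Real.exp (k * pos j) ^ 2) ^ 2 := by
            rw [← pow_mul, ← Real.exp_nat_mul]
            norm_num
          rw [this]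
          nlinarith [sq_nonneg (Real.exp (k * pos j) ^ 2 - 1)]
    refine e1.trans ?_
    rw [show (l.map fun j => Real.exp (if M ≤ pos j then 0 else 4 * (k * pos j))).prod =
      Real.exp ((l.map fun j => (if M ≤ pos j then 0 else 4 * (k * pos j))).sum) from by
        clear e1 hlnd hl hA's hA'0 hA' A'
        induction l with
        | nil => simp
        | cons j l ih => simp [Real.exp_add, ih]]
    refine Real.exp_le_exp.2 ?_
    have e2 : (l.map fun j => (if M ≤ pos j then 0 else 4 * (k * (pos j : ℝ)))).sum =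
        ∑ j, (if M ≤ pos j then 0 else 4 * (k * (pos j : ℝ))) := by
      rw [← List.sum_toFinset _ hlnd]
      congr 1
      ext j
      simp [hl j]
    rw [e2]
    have e3 : ∑ j, (if M ≤ pos j then 0 else 4 * (k * (pos j : ℝ))) ≤
        ∑ n ∈ Finset.range M, 4 * (k * (n : ℝ)) := by
      rw [← Finset.sum_filter_add_sum_filter_not Finset.univ (fun j => M ≤ pos j)]
      rw [Finset.sum_congr rfl (g := fun _ => (0 : ℝ)) (fun j hj => by
        rw [Finset.mem_filter] at hj; simp [hj.2]), Finset.sum_const_zero, zero_add]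
      rw [Finset.sum_congr rfl (g := fun j => 4 * (k * ((pos j : ℕ) : ℝ))) (fun j hj => by
        rw [Finset.mem_filter] at hj; simp [hj.2])]
      rw [← Finset.sum_image (f := fun n : ℕ => 4 * (k * (n : ℝ))) (g := pos)
        (fun a _ b _ hab => hpos hab)]
      refine Finset.sum_le_sum_of_subset_of_nonneg ?_ ?_
      · intro n hn
        rw [Finset.mem_image] at hn
        obtain ⟨j, hj, rfl⟩ := hn
        rw [Finset.mem_filter] at hj
        rw [Finset.mem_range]
        omega
      · intro n _ _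
        positivity
    refine e3.trans ?_
    rw [← Finset.mul_sum, ← Finset.mul_sum]
    have e4 : (∑ n ∈ Finset.range M, (n : ℝ)) * 2 = M * (M - 1) := by
      have := Finset.sum_range_id_mul_two M
      have h5 : ((∑ n ∈ Finset.range M, n : ℕ) : ℝ) * 2 = (M : ℝ) * ((M - 1 : ℕ) : ℝ) := by
        exact_mod_cast this
      rw [Nat.cast_sub hM] at h5
      push_cast at h5
      exact h5
    have e5 : (∑ n ∈ Finset.range M, (n : ℝ)) ≤ (M : ℝ) ^ 2 / 2 := by nlinarith
    calc 4 * (k * ∑ n ∈ Finset.range M, (n : ℝ)) ≤ 4 * (k * ((M : ℝ) ^ 2 / 2)) := by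
          gcongr
      _ = 2 := by rw [hk]; field_simp; norm_num
  -- apply the channel
  have h1 := FLe.Phi (c := c) (t := t) (l := l) (fun j _ => (ht0 j).le) (fun j _ => ht1 j)
    (le_energy hγ hgap hA's hA'0)
  rw [h.Phi_Psi (fun j _ => (ht0 j).ne'), Phi_smul, Phi_sum] at h1
  have h2 := h1 v
  have h3 : ∀ p, Phi t c l (star (pr c (w p)) * pr c (w p)) =
      ((Real.exp (-(2 * m p) / (M : ℝ) ^ 2) : ℝ) : ℂ) • (star (pr c (w p)) * pr c (w p)) := by
    intro p
    rw [h.Phi_pr]
    have h4 : scr t l (w p) = fun a b => ((Real.exp (-(k * m p)) : ℝ) : ℂ) * w p a b := by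
      funext a b
      rw [scr_apply l hlnd, if_pos (hl a), if_pos (hl b)]
      by_cases hab : w p a b = 0
      · simp [hab]
      · congr 1
        rw [← Complex.ofReal_mul]
        congr 1
        rw [ht]
        simp only
        rw [← Real.exp_add, ← hw p a b hab]
        congr 1
        push_cast
        ring
    have h5 : pr c (fun a b => ((Real.exp (-(k * m p)) : ℝ) : ℂ) * w p a b) =
        ((Real.exp (-(k * m p)) : ℝ) : ℂ) • pr c (w p) := by
      unfold pr
      simp only [Finset.smul_sum, smul_smul]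
    rw [h4, h5, star_smul, smul_mul_assoc, mul_smul_comm, smul_smul]
    congr 1
    rw [show (star ((Real.exp (-(k * m p)) : ℝ) : ℂ)) = ((Real.exp (-(k * m p)) : ℝ) : ℂ) from
      Complex.conj_ofReal _, ← Complex.ofReal_mul, ← Real.exp_add]
    congr 2
    rw [hk]
    field_simp
    ring
  simp only [h3] at h2
  refine h2.trans ?_
  rw [smul_apply, inner_smul_right, Complex.re_ofReal_mul]
  have h6 : (⟪v, (∑ p, ((Real.exp (-(2 * m p) / (M : ℝ) ^ 2) : ℝ) : ℂ) •
      (star (pr c (w p)) * pr c (w p))) v⟫).re =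
      ∑ p, Real.exp (-(2 * m p) / (M : ℝ) ^ 2) * ‖pr c (w p) v‖ ^ 2 := by
    rw [show (∑ p, ((Real.exp (-(2 * m p) / (M : ℝ) ^ 2) : ℝ) : ℂ) •
      (star (pr c (w p)) * pr c (w p))) v = ∑ p, ((((Real.exp (-(2 * m p) / (M : ℝ) ^ 2) : ℝ) : ℂ) •
      (star (pr c (w p)) * pr c (w p))) v) from by simp,
      inner_sum, Complex.re_sum]
    refine Finset.sum_congr rfl fun p _ => ?_
    rw [smul_apply, inner_smul_right, Complex.re_ofReal_mul, inner_star_mul_self]
  rw [h6]
  refine mul_le_mul_of_nonneg_right ?_ (Finset.sum_nonneg fun p _ => by positivity)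
  exact div_le_div_of_nonneg_right hnorm hγ.le

end Crest.Agent.R340.Ch421
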