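import Crest.Agent.R340.Ch2_421

/-!
# Row 340, leaf L7 (helper421): local kernels, Richardson extrapolation, (R1) for quasi-local operators

* `KL B m L`: vectors killed by the pair annihilators of total position `< L`; `one_sub_KL`:
  `1 - P_(L) ≤ (e²/γ) ∑ exp(-2m/L²) B* B`.
* `richardson`: a local operator almost killing the zero modes almost kills `KL`.
* `R1q`: a quasi-local operator killing the zero modes satisfies `A* A ≤ C ∑ (1+m)⁻² B* B`.
-/

set_option autoImplicit false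

noncomputable section

namespace Crest.Agent.R340.Ch421

open ContinuousLinearMap

variable {E : Type*} [NormedAddCommGroup E] [InnerProductSpace ℂ E] [FiniteDimensional ℂ E]

local notation "⟪" x ", " y "⟫" => inner ℂ x y

instance complete_of_fd : CompleteSpace E := FiniteDimensional.complete ℂ E

variable {ι : Type*} [Fintype ι] [DecidableEq ι] {c : ι → E →L[ℂ] E}
variable {κ : Type*} [Fintype κ]

/-- vectors killed by the operators of label `< L` -/
def KL (B : κ → E →L[ℂ] E) (m : κ → ℕ) (L : ℕ) : Submodule ℂ E where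
  carrier := {v | ∀ p, m p < L → B p v = 0}
  add_mem' := by
    intro a b ha hb p hp
    rw [map_add, ha p hp, hb p hp, add_zero]
  zero_mem' := by
    intro p _
    exact map_zero _
  smul_mem' := by
    intro z v hv p hp
    rw [map_smul, hv p hp, smul_zero]

omit [FiniteDimensional ℂ E] [Fintype κ] in
theorem mem_KL {B : κ → E →L[ℂ] E} {m : κ → ℕ} {L : ℕ} {v : E} :
    v ∈ KL B m L ↔ ∀ p, m p < L → B p v = 0 := Iff.rfl

omit [FiniteDimensional ℂ E] [Fintype κ] in
theorem KL_mono {B : κ → E →L[ℂ] E} {m : κ → ℕ} {L L' : ℕ} (h : L ≤ L') :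
    KL B m L' ≤ KL B m L := fun _ hv p hp => hv p (hp.trans_le h)

omit [FiniteDimensional ℂ E] [Fintype κ] in
theorem zero_mem_KL {B : κ → E →L[ℂ] E} {m : κ → ℕ} {L : ℕ} {z : E} (hz : IsZero B z) :
    z ∈ KL B m L := fun p _ => hz p

theorem comm_starProjection (K : Submodule ℂ E) {T : E →L[ℂ] E} (h1 : ∀ v ∈ K, T v ∈ K)
    (h2 : ∀ v ∈ K, star T v ∈ K) : Commute K.starProjection T := by
  show K.starProjection * T = T * K.starProjection
  ext v
  simp only [mul_apply_eq_comp]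
  refine Submodule.eq_starProjection_of_mem_of_inner_eq_zero
    (h1 _ (Submodule.starProjection_apply_mem K v)) ?_
  intro w hw
  rw [← map_sub, ← ContinuousLinearMap.adjoint_inner_right, ← ContinuousLinearMap.star_eq_adjoint]
  exact Submodule.starProjection_inner_eq_zero v _ (h2 w hw)

theorem star_starProjection (K : Submodule ℂ E) : star K.starProjection = K.starProjection := by
  rw [ContinuousLinearMap.star_eq_adjoint]
  refine ContinuousLinearMap.ext fun v => ?_
  refine ext_inner_left ℂ fun u => ?_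
  rw [ContinuousLinearMap.adjoint_inner_right]
  exact Submodule.inner_starProjection_left_eq_right K u v

omit [Fintype ι] [DecidableEq ι] in
theorem IsCAR.pair_comm_star (h : IsCAR c) {a b j : ι} (ha : a ≠ j) (hb : b ≠ j) :
    Commute (c a * c b) (star (c j)) := by
  show c a * c b * star (c j) = star (c j) * (c a * c b)
  rw [mul_assoc, h.anti_star b j hb, mul_neg, ← mul_assoc, h.anti_star a j ha, neg_mul, neg_neg,
    mul_assoc]

omit [DecidableEq ι] in
theorem IsCAR.pr_comm_star (h : IsCAR c) {w : ι → ι → ℂ} {j : ι}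
    (hw : ∀ a b, w a b ≠ 0 → a ≠ j ∧ b ≠ j) : Commute (pr c w) (star (c j)) := by
  unfold pr
  refine Commute.sum_left _ _ _ fun a _ => Commute.sum_left _ _ _ fun b _ => ?_
  by_cases hab : w a b = 0
  · rw [hab, zero_smul]
    exact Commute.zero_left _
  · exact (h.pair_comm_star (hw a b hab).1 (hw a b hab).2).smul_left _

variable {w : κ → ι → ι → ℂ} {pos : ι → ℕ} {m : κ → ℕ}

omit [Fintype κ] in
/-- the projection onto `KL` is local -/
theorem IsCAR.off_KL (h : IsCAR c) (hw : ∀ p a b, w p a b ≠ 0 → pos a + pos b = m p) (L : ℕ) :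
    Off c {j | L ≤ pos j} (KL (fun p => pr c (w p)) m L).starProjection := by
  intro j hj
  have hj' : L ≤ pos j := hj
  have h1 : ∀ v ∈ KL (fun p => pr c (w p)) m L, c j v ∈ KL (fun p => pr c (w p)) m L := by
    intro v hv p hp
    have h1 := congrArg (fun X : E →L[ℂ] E => X v) (h.pr_comm (w p) j)
    simp only [mul_apply_eq_comp] at h1
    show pr c (w p) (c j v) = 0
    rw [h1, hv p hp, map_zero]
  have h2 : ∀ v ∈ KL (fun p => pr c (w p)) m L,
      star (c j) v ∈ KL (fun p => pr c (w p)) m L := by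
    intro v hv p hp
    have hne : ∀ a b, w p a b ≠ 0 → a ≠ j ∧ b ≠ j := by
      intro a b hab
      have := hw p a b hab
      constructor
      · rintro rfl; omega
      · rintro rfl; omega
    have h1 := congrArg (fun X : E →L[ℂ] E => X v) (h.pr_comm_star hne)
    simp only [mul_apply_eq_comp] at h1
    show pr c (w p) (star (c j) v) = 0
    rw [h1, hv p hp, map_zero]
  exact ⟨comm_starProjection _ h1 h2, comm_starProjection _ h2 (by rwa [star_star])⟩

/-- `1 - P_(L)` is bounded by the thinned energy. -/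
theorem IsCAR.one_sub_KL (h : IsCAR c) (hpos : Function.Injective pos)
    (hw : ∀ p a b, w p a b ≠ 0 → pos a + pos b = m p) {γ : ℝ} (hγ : 0 < γ)
    (hgap : GapH (fun p => pr c (w p)) γ) {L : ℕ} (hL : 1 ≤ L) (v : E) :
    ‖v - (KL (fun p => pr c (w p)) m L).starProjection v‖ ^ 2 ≤ Real.exp 2 / γ *
      ∑ p, Real.exp (-(2 * m p) / (L : ℝ) ^ 2) * ‖pr c (w p) v‖ ^ 2 := by
  set K := KL (fun p => pr c (w p)) m L with hK
  set A : E →L[ℂ] E := 1 - K.starProjection with hA
  have hAs : star A = A := by rw [hA, star_sub, star_one, star_starProjection]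
  have hloc : Off c {j | L ≤ pos j} A := (off_one _).sub (h.off_KL hw L)
  have h0 : ∀ z, IsZero (fun p => pr c (w p)) z → A z = 0 := by
    intro z hz
    have : K.starProjection z = z := Submodule.starProjection_eq_self_iff.2 (zero_mem_KL hz)
    rw [hA, sub_apply, one_apply_eq_self, this, sub_self]
  have hn : ‖A‖ ≤ 1 := by
    refine ContinuousLinearMap.opNorm_le_bound _ zero_le_one fun u => ?_
    rw [hA, sub_apply, one_apply_eq_self, one_mul]
    have h1 := Submodule.norm_sq_eq_add_norm_sq_starProjection u K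
    have h2 : Kᗮ.starProjection u = u - K.starProjection u := Submodule.starProjection_orthogonal_val u
    rw [h2] at h1
    nlinarith [norm_nonneg (u - K.starProjection u), norm_nonneg u, sq_nonneg ‖K.starProjection u‖]
  have h1 := h.R1a hpos hw hγ hgap hL hAs hloc h0 v
  have h2 : ‖v - K.starProjection v‖ ^ 2 = (⟪v, A v⟫).re := by
    have h3 : ⟪v, A v⟫ = ⟪v - K.starProjection v, v - K.starProjection v⟫ := by
      rw [hA, sub_apply, one_apply_eq_self]
      have h4 := Submodule.starProjection_inner_eq_zero v (K.starProjection v)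
        (Submodule.starProjection_apply_mem K v)
      rw [inner_sub_left (v) (K.starProjection v)]
      have h5 : ⟪K.starProjection v, v - K.starProjection v⟫ = 0 := by
        rw [← inner_conj_symm, h4, map_zero]
      rw [h5, sub_zero]
    rw [h3, inner_self_eq_norm_sq_to_K]
    norm_cast
  rw [h2]
  refine h1.trans (mul_le_mul_of_nonneg_right ?_ (Finset.sum_nonneg fun p _ => by positivity))
  refine div_le_div_of_nonneg_right ?_ hγ.le
  calc Real.exp 2 * ‖A‖ ≤ Real.exp 2 * 1 := mul_le_mul_of_nonneg_left hn (Real.exp_pos _).le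
    _ = _ := mul_one _

/-! ### energy after damping -/

theorem gapH_norm {B : κ → E →L[ℂ] E} {γ : ℝ} (hγ : 0 < γ) (hgap : GapH B γ) (v : E) :
    ∃ z : E, IsZero B z ∧ ‖z‖ ≤ ‖v‖ ∧ γ * ‖v - z‖ ^ 2 ≤ ∑ p, ‖B p v‖ ^ 2 := by
  obtain ⟨z, hz, h1⟩ := hgap v
  set K := KL B (fun _ => 0) 1 with hK
  have hKz : ∀ u, u ∈ K ↔ IsZero B u := fun u => ⟨fun hu p => hu p (by simp), fun hu p _ => hu p⟩
  refine ⟨K.starProjection v, (hKz _).1 (Submodule.starProjection_apply_mem K v), ?_, ?_⟩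
  · exact Submodule.norm_starProjection_apply_le K v
  · refine le_trans ?_ h1
    refine mul_le_mul_of_nonneg_left ?_ hγ.le
    have h2 : ‖v - K.starProjection v‖ ≤ ‖v - z‖ := by
      rw [Submodule.starProjection_minimal]
      exact ciInf_le ⟨0, by rintro _ ⟨u, rfl⟩; exact norm_nonneg _⟩ (⟨z, (hKz z).2 hz⟩ : K)
    gcongr

/-- form bound of `A* A` by the energy when `A` is small on the zero modes -/
theorem sq_le_energy {B : κ → E →L[ℂ] E} {γ : ℝ} (hγ : 0 < γ) (hgap : GapH B γ)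
    {A : E →L[ℂ] E} {τ : ℝ} (h0 : ∀ z, IsZero B z → ‖A z‖ ≤ τ * ‖z‖) :
    FLe (star A * A) (((2 * ‖A‖ ^ 2 / γ : ℝ) : ℂ) • (∑ p, star (B p) * B p) +
      ((2 * τ ^ 2 : ℝ) : ℂ) • 1) := by
  intro v
  obtain ⟨z, hz, hzn, h1⟩ := gapH_norm hγ hgap v
  rw [inner_star_mul_self]
  have e2 : (⟪v, (((2 * ‖A‖ ^ 2 / γ : ℝ) : ℂ) • (∑ p, star (B p) * B p) +
      ((2 * τ ^ 2 : ℝ) : ℂ) • (1 : E →L[ℂ] E)) v⟫).re =
      2 * ‖A‖ ^ 2 / γ * ∑ p, ‖B p v‖ ^ 2 + 2 * τ ^ 2 * ‖v‖ ^ 2 := by
    rw [add_apply, inner_add_right, Complex.add_re, smul_apply, inner_smul_right,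
      Complex.re_ofReal_mul, smul_apply, inner_smul_right, Complex.re_ofReal_mul,
      one_apply_eq_self]
    congr 2
    · rw [show (∑ p, star (B p) * B p) v = ∑ p, (star (B p) * B p) v from by simp,
        inner_sum, Complex.re_sum]
      exact Finset.sum_congr rfl fun p _ => inner_star_mul_self (B p) v
    · rw [inner_self_eq_norm_sq_to_K]
      norm_cast
  rw [e2]
  have hτ : ‖A z‖ ^ 2 ≤ τ ^ 2 * ‖v‖ ^ 2 := by
    by_cases hz0 : ‖z‖ = 0
    · have : z = 0 := norm_eq_zero.1 hz0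
      rw [this, map_zero, norm_zero, zero_pow two_ne_zero]
      positivity
    · have h2 := h0 z hz
      have h3 : 0 < ‖z‖ := lt_of_le_of_ne (norm_nonneg _) (Ne.symm hz0)
      have h4 : 0 ≤ τ := by
        by_contra hneg
        push Not at hneg
        nlinarith [norm_nonneg (A z)]
      calc ‖A z‖ ^ 2 ≤ (τ * ‖z‖) ^ 2 := by gcongr
        _ ≤ (τ * ‖v‖) ^ 2 := by gcongr
        _ = _ := by ring
  have h5 : ‖A v‖ ≤ ‖A‖ * ‖v - z‖ + ‖A z‖ := by
    calc ‖A v‖ = ‖A (v - z) + A z‖ := by rw [← map_add, sub_add_cancel]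
      _ ≤ _ := (norm_add_le _ _).trans (by gcongr; exact A.le_opNorm _)
  have h6 : ‖A v‖ ^ 2 ≤ 2 * (‖A‖ * ‖v - z‖) ^ 2 + 2 * ‖A z‖ ^ 2 := by
    have : ‖A v‖ ^ 2 ≤ (‖A‖ * ‖v - z‖ + ‖A z‖) ^ 2 := by gcongr
    nlinarith [sq_nonneg (‖A‖ * ‖v - z‖ - ‖A z‖)]
  have h7 : (‖A‖ * ‖v - z‖) ^ 2 ≤ ‖A‖ ^ 2 / γ * ∑ p, ‖B p v‖ ^ 2 := by
    calc (‖A‖ * ‖v - z‖) ^ 2 = ‖A‖ ^ 2 / γ * (γ * ‖v - z‖ ^ 2) := by field_simp
      _ ≤ _ := by gcongr
  have h8 : 2 * ‖A‖ ^ 2 / γ * ∑ p, ‖B p v‖ ^ 2 = 2 * (‖A‖ ^ 2 / γ * ∑ p, ‖B p v‖ ^ 2) := by ring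
  rw [h8]
  linarith

/-- damping parameters -/
def tk (k : ℝ) (pos : ι → ℕ) : ι → ℝ := fun j => Real.exp (-(k * pos j))

/-- the full damping channel -/
def Dk (k : ℝ) (pos : ι → ℕ) (c : ι → E →L[ℂ] E) : (E →L[ℂ] E) → (E →L[ℂ] E) :=
  Phi (tk k pos) c (Finset.univ : Finset ι).toList

omit [Fintype ι] [DecidableEq ι] in
theorem tk_pos (k : ℝ) (pos : ι → ℕ) (j : ι) : 0 < tk k pos j := Real.exp_pos _

omit [Fintype ι] [DecidableEq ι] in
theorem tk_le_one {k : ℝ} (hk : 0 ≤ k) (pos : ι → ℕ) (j : ι) : tk k pos j ≤ 1 := by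
  refine Real.exp_le_one_iff.2 ?_
  have : 0 ≤ k * pos j := by positivity
  linarith

omit [Fintype κ] in
theorem IsCAR.Dk_pair (h : IsCAR c) (hw : ∀ p a b, w p a b ≠ 0 → pos a + pos b = m p) (k : ℝ)
    (p : κ) : Dk k pos c (star (pr c (w p)) * pr c (w p)) =
      ((Real.exp (-(2 * k * m p)) : ℝ) : ℂ) • (star (pr c (w p)) * pr c (w p)) := by
  unfold Dk
  rw [h.Phi_pr]
  have h4 : scr (tk k pos) (Finset.univ : Finset ι).toList (w p) =
      fun a b => ((Real.exp (-(k * m p)) : ℝ) : ℂ) * w p a b := by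
    funext a b
    rw [scr_apply _ (Finset.nodup_toList _), if_pos (by simp), if_pos (by simp)]
    by_cases hab : w p a b = 0
    · simp [hab]
    · congr 1
      rw [← Complex.ofReal_mul]
      congr 1
      unfold tk
      rw [← Real.exp_add, ← hw p a b hab]
      congr 1
      push_cast
      ring
  have h5 : pr c (fun a b => ((Real.exp (-(k * m p)) : ℝ) : ℂ) * w p a b) =
      ((Real.exp (-(k * m p)) : ℝ) : ℂ) • pr c (w p) := by
    unfold pr
    simp only [Finset.smul_sum, smul_smul]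
  rw [h4, h5, star_smul, smul_mul_assoc, mul_smul_comm, smul_smul]
  congr 1
  rw [show (star ((Real.exp (-(k * m p)) : ℝ) : ℂ)) = ((Real.exp (-(k * m p)) : ℝ) : ℂ) from
    Complex.conj_ofReal _, ← Complex.ofReal_mul, ← Real.exp_add]
  congr 2
  ring

/-- iterated damping of the form bound -/
theorem IsCAR.iter_bound (h : IsCAR c) (hw : ∀ p a b, w p a b ≠ 0 → pos a + pos b = m p) {γ : ℝ}
    (hγ : 0 < γ) (hgap : GapH (fun p => pr c (w p)) γ) {A : E →L[ℂ] E} {τ : ℝ}
    (h0 : ∀ z, IsZero (fun p => pr c (w p)) z → ‖A z‖ ≤ τ * ‖z‖) {k : ℝ} (hk : 0 ≤ k) (i : ℕ) :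
    FLe ((Dk k pos c)^[i] (star A * A))
      (((2 * ‖A‖ ^ 2 / γ : ℝ) : ℂ) • (∑ p, ((Real.exp (-(2 * k * m p)) ^ i : ℝ) : ℂ) •
        (star (pr c (w p)) * pr c (w p))) + ((2 * τ ^ 2 : ℝ) : ℂ) • 1) := by
  induction i with
  | zero => simpa using sq_le_energy hγ hgap h0
  | succ i ih =>
    rw [Function.iterate_succ_apply']
    have h1 := FLe.Phi (c := c) (t := tk k pos) (l := (Finset.univ : Finset ι).toList)
      (fun j _ => (tk_pos k pos j).le) (fun j _ => tk_le_one hk pos j) ih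
    rw [Phi_add, Phi_smul, Phi_sum, Phi_smul, h.Phi_one] at h1
    have h2 : ∀ p, Phi (tk k pos) c (Finset.univ : Finset ι).toList
        (((Real.exp (-(2 * k * m p)) ^ i : ℝ) : ℂ) • (star (pr c (w p)) * pr c (w p))) =
        ((Real.exp (-(2 * k * m p)) ^ (i + 1) : ℝ) : ℂ) • (star (pr c (w p)) * pr c (w p)) := by
      intro p
      rw [Phi_smul]
      have := h.Dk_pair hw k p
      unfold Dk at this
      rw [this, smul_smul, ← Complex.ofReal_mul, pow_succ]
    simp only [h2] at h1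
    exact h1

omit [DecidableEq ι] in
theorem iter_nonneg {X : E →L[ℂ] E} (hX : FLe 0 X) {k : ℝ} (hk : 0 ≤ k)
    (i : ℕ) : FLe 0 ((Dk k pos c)^[i] X) := by
  induction i with
  | zero => exact hX
  | succ i ih =>
    rw [Function.iterate_succ_apply']
    have h1 := FLe.Phi (c := c) (t := tk k pos) (l := (Finset.univ : Finset ι).toList)
      (fun j _ => (tk_pos k pos j).le) (fun j _ => tk_le_one hk pos j) ih
    rw [Phi_zero] at h1
    exact h1

/-! ### Richardson -/

/-- difference operator -/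
def Df (k : ℝ) (pos : ι → ℕ) (c : ι → E →L[ℂ] E) (X : E →L[ℂ] E) : E →L[ℂ] E := X - Dk k pos c X

omit [DecidableEq ι] in
theorem Dk_sub (k : ℝ) (X Y : E →L[ℂ] E) : Dk k pos c (X - Y) = Dk k pos c X - Dk k pos c Y :=
  Phi_sub _ _ _

omit [DecidableEq ι] in
theorem Df_comm (k : ℝ) (i : ℕ) (X : E →L[ℂ] E) :
    (Df k pos c)^[i] (Dk k pos c X) = Dk k pos c ((Df k pos c)^[i] X) := by
  induction i generalizing X with
  | zero => rfl
  | succ i ih =>
    rw [Function.iterate_succ_apply, Function.iterate_succ_apply]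
    have : Df k pos c (Dk k pos c X) = Dk k pos c (Df k pos c X) := by
      unfold Df
      rw [Dk_sub]
    rw [this, ih]

omit [DecidableEq ι] in
theorem Df_sub (k : ℝ) (i : ℕ) (X Y : E →L[ℂ] E) :
    (Df k pos c)^[i] (X - Y) = (Df k pos c)^[i] X - (Df k pos c)^[i] Y := by
  induction i generalizing X Y with
  | zero => rfl
  | succ i ih =>
    rw [Function.iterate_succ_apply, Function.iterate_succ_apply, Function.iterate_succ_apply]
    have : Df k pos c (X - Y) = Df k pos c X - Df k pos c Y := by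
      unfold Df
      rw [Dk_sub]
      abel
    rw [this, ih]

omit [DecidableEq ι] in
/-- bound of the iterated differences by the damped expectations -/
theorem Df_bound (k : ℝ) (v : E) {S : ℝ} (i : ℕ) (Y : E →L[ℂ] E)
    (hY : ∀ j, ‖⟪v, ((Dk k pos c)^[j] Y) v⟫‖ ≤ S) :
    ‖⟪v, ((Df k pos c)^[i] Y) v⟫‖ ≤ 2 ^ i * S := by
  induction i generalizing Y with
  | zero => simpa using hY 0
  | succ i ih =>
    rw [Function.iterate_succ_apply]
    have e : (Df k pos c)^[i] (Df k pos c Y) =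
        (Df k pos c)^[i] Y - (Df k pos c)^[i] (Dk k pos c Y) := by
      conv_lhs => rw [Df, Df_sub]
    rw [e, sub_apply, inner_sub_right]
    refine (norm_sub_le _ _).trans ?_
    have h1 := ih Y hY
    have h2 := ih (Dk k pos c Y) (fun j => by
      have := hY (j + 1)
      rwa [Function.iterate_succ_apply] at this)
    calc _ ≤ 2 ^ i * S + 2 ^ i * S := add_le_add h1 h2
      _ = _ := by ring

omit [DecidableEq ι] in
theorem richardson_id (k : ℝ) (n : ℕ) (v : E) {S : ℝ} (X : E →L[ℂ] E)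
    (hX : ∀ j, ‖⟪v, ((Dk k pos c)^[j + 1] X) v⟫‖ ≤ S) :
    ‖⟪v, X v⟫‖ ≤ ‖(Df k pos c)^[n] X‖ * ‖v‖ ^ 2 + 2 ^ n * S := by
  have key : ∀ n : ℕ, ‖⟪v, X v⟫‖ ≤ ‖⟪v, ((Df k pos c)^[n] X) v⟫‖ + (2 ^ n - 1) * S := by
    intro n
    induction n with
    | zero => simp
    | succ n ih =>
      have e : (Df k pos c)^[n] X = (Df k pos c)^[n + 1] X + (Df k pos c)^[n] (Dk k pos c X) := by
        rw [Function.iterate_succ_apply, ← sub_eq_iff_eq_add, ← Df_sub]
        rfl
      have h1 : ‖⟪v, ((Df k pos c)^[n] X) v⟫‖ ≤ ‖⟪v, ((Df k pos c)^[n + 1] X) v⟫‖ +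
          ‖⟪v, ((Df k pos c)^[n] (Dk k pos c X)) v⟫‖ := by
        conv_lhs => rw [e, add_apply, inner_add_right]
        exact norm_add_le _ _
      have h2 := Df_bound (c := c) (pos := pos) k v n (Dk k pos c X) (S := S) (fun j => by
        have := hX j
        rwa [Function.iterate_succ_apply] at this)
      calc _ ≤ ‖⟪v, ((Df k pos c)^[n] X) v⟫‖ + (2 ^ n - 1) * S := ih
        _ ≤ (‖⟪v, ((Df k pos c)^[n + 1] X) v⟫‖ + 2 ^ n * S) + (2 ^ n - 1) * S := by
            gcongr
            exact h1.trans (by gcongr)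
        _ = _ := by ring
  have hS : 0 ≤ S := (norm_nonneg _).trans (hX 0)
  refine (key n).trans (add_le_add ?_ ?_)
  · refine (norm_inner_le_norm _ _).trans ?_
    calc ‖v‖ * ‖((Df k pos c)^[n] X) v‖ ≤ ‖v‖ * (‖(Df k pos c)^[n] X‖ * ‖v‖) :=
          mul_le_mul_of_nonneg_left (ContinuousLinearMap.le_opNorm _ _) (norm_nonneg _)
      _ = _ := by ring
  · nlinarith

theorem IsCAR.norm_Df_le (h : IsCAR c) (hpos : Function.Injective pos) {k : ℝ} (hk : 0 ≤ k) {M : ℕ}
    {X : E →L[ℂ] E} (hX : Off c {j | M ≤ pos j} X) (n : ℕ) :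
    ‖(Df k pos c)^[n] X‖ ≤ (2 * k * (M : ℝ) ^ 2) ^ n * ‖X‖ := by
  classical
  induction n generalizing X with
  | zero => simp
  | succ n ih =>
    rw [Function.iterate_succ_apply]
    have h1 : Off c {j | M ≤ pos j} (Df k pos c X) := hX.sub (h.off_Phi hX _)
    obtain ⟨S, hS⟩ : ∃ S : Set ι, S = {j | M ≤ pos j} := ⟨_, rfl⟩
    have hXS : Off c S X := by rw [hS]; exact hX
    have hmS : ∀ j, j ∈ S ↔ M ≤ pos j := fun j => by rw [hS]; rfl
    refine (ih h1).trans ?_
    have h2 : ‖Df k pos c X‖ ≤ 2 * k * (M : ℝ) ^ 2 * ‖X‖ := by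
      refine (h.norm_sub_Phi_le hXS (fun j _ => (tk_pos k pos j).le)
        (fun j _ => tk_le_one hk pos j)).trans ?_
      refine mul_le_mul_of_nonneg_right ?_ (norm_nonneg _)
      rw [← List.sum_toFinset _ (Finset.nodup_toList _), Finset.toList_toFinset]
      have h3 : ∀ j, (if j ∈ S then (0 : ℝ) else 4 * (1 - tk k pos j)) ≤
          if M ≤ pos j then 0 else 4 * (k * (pos j : ℝ)) := by
        intro j
        by_cases hj : M ≤ pos j
        · simp [hmS, hj]
        · have : ¬ (j ∈ S) := by rw [hmS]; exact hj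
          rw [if_neg this, if_neg hj]
          unfold tk
          have := Real.add_one_le_exp (-(k * pos j))
          linarith
      refine (Finset.sum_le_sum fun j _ => h3 j).trans ?_
      have e3 : ∑ j, (if M ≤ pos j then 0 else 4 * (k * (pos j : ℝ))) ≤
          ∑ n ∈ Finset.range M, 4 * (k * (n : ℝ)) := by
        rw [← Finset.sum_filter_add_sum_filter_not Finset.univ (fun j => M ≤ pos j)]
        rw [Finset.sum_congr rfl (g := fun _ => (0 : ℝ)) (fun j hj => by
          rw [Finset.mem_filter] at hj; simp [hj.2]), Finset.sum_const_zero, zero_add]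
        rw [Finset.sum_congr rfl (g := fun j => 4 * (k * ((pos j : ℕ) : ℝ))) (fun j hj => by
          rw [Finset.mem_filter] at hj; simp [hj.2])]
        rw [← Finset.sum_image (f := fun n : ℕ => 4 * (k * (n : ℝ))) (g := pos)
          (fun a _ b _ hab => hpos hab)]
        refine Finset.sum_le_sum_of_subset_of_nonneg ?_ ?_
        · intro n hn
          rw [Finset.mem_image] at hn
          obtain ⟨j, hj, rfl⟩ := hn
          rw [Finset.mem_filter] at hj
          rw [Finset.mem_range]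
          omega
        · intro n _ _
          positivity
      refine e3.trans ?_
      rw [← Finset.mul_sum, ← Finset.mul_sum]
      have e5 : (∑ n ∈ Finset.range M, (n : ℝ)) ≤ (M : ℝ) ^ 2 / 2 := by
        have h5 : ((∑ n ∈ Finset.range M, n : ℕ) : ℝ) * 2 = (M : ℝ) * ((M - 1 : ℕ) : ℝ) := by
          exact_mod_cast Finset.sum_range_id_mul_two M
        push_cast at h5
        have h6 : ((M - 1 : ℕ) : ℝ) ≤ M := by exact_mod_cast Nat.sub_le M 1
        have : (M : ℝ) * ((M - 1 : ℕ) : ℝ) ≤ M * M := by gcongr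
        nlinarith
      calc 4 * (k * ∑ n ∈ Finset.range M, (n : ℝ)) ≤ 4 * (k * ((M : ℝ) ^ 2 / 2)) := by gcongr
        _ = _ := by ring
    calc (2 * k * (M : ℝ) ^ 2) ^ n * ‖Df k pos c X‖ ≤
        (2 * k * (M : ℝ) ^ 2) ^ n * (2 * k * (M : ℝ) ^ 2 * ‖X‖) := by gcongr
      _ = _ := by ring

/-- **Richardson bound**: a local operator almost killing the zero modes almost kills `KL`. -/
theorem IsCAR.richardson (h : IsCAR c) (hpos : Function.Injective pos)
    (hw : ∀ p a b, w p a b ≠ 0 → pos a + pos b = m p) {γ : ℝ} (hγ : 0 < γ)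
    (hgap : GapH (fun p => pr c (w p)) γ) {M : ℕ} {A : E →L[ℂ] E}
    (hloc : Off c {j | M ≤ pos j} A) {τ : ℝ}
    (h0 : ∀ z, IsZero (fun p => pr c (w p)) z → ‖A z‖ ≤ τ * ‖z‖) {k : ℝ} (hk : 0 ≤ k) (n L : ℕ)
    {v : E} (hv : v ∈ KL (fun p => pr c (w p)) m L) {CB : ℝ}
    (hB : ∀ p, ‖pr c (w p) v‖ ^ 2 ≤ CB * (m p + 1) * ‖v‖ ^ 2) :
    ‖A v‖ ^ 2 ≤ ((2 * k * (M : ℝ) ^ 2) ^ n * ‖A‖ ^ 2 + 2 ^ n * (2 * ‖A‖ ^ 2 / γ *
      (∑ p ∈ Finset.univ.filter (fun p => L ≤ m p), Real.exp (-(2 * k * m p)) * (CB * (m p + 1))) +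
        2 * τ ^ 2)) * ‖v‖ ^ 2 := by
  set X : E →L[ℂ] E := star A * A with hX
  have hXloc : Off c {j | M ≤ pos j} X := hloc.star.mul hloc
  have hX0 : FLe 0 X := by
    intro u
    rw [hX, inner_star_mul_self]
    simp
  have hCB : ∀ p, 0 ≤ ‖pr c (w p) v‖ ^ 2 := fun p => sq_nonneg _
  have hS : ∀ j : ℕ, ‖⟪v, ((Dk k pos c)^[j + 1] X) v⟫‖ ≤ (2 * ‖A‖ ^ 2 / γ *
      (∑ p ∈ Finset.univ.filter (fun p => L ≤ m p), Real.exp (-(2 * k * m p)) * (CB * (m p + 1))) +
        2 * τ ^ 2) * ‖v‖ ^ 2 := by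
    intro j
    -- the expectation is real and nonnegative
    have hsa : ∀ i : ℕ, star ((Dk k pos c)^[i] X) = (Dk k pos c)^[i] X := by
      intro i
      induction i with
      | zero => rw [Function.iterate_zero_apply, hX, star_mul, star_star]
      | succ i ih =>
        rw [Function.iterate_succ_apply']
        unfold Dk at ih ⊢
        rw [star_Phi, ih]
    have him : (⟪v, ((Dk k pos c)^[j + 1] X) v⟫).im = 0 := by
      have h1 : ⟪v, ((Dk k pos c)^[j + 1] X) v⟫ = ⟪((Dk k pos c)^[j + 1] X) v, v⟫ := by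
        conv_lhs => rw [← hsa (j + 1), ContinuousLinearMap.star_eq_adjoint,
          ContinuousLinearMap.adjoint_inner_right]
      have h2 := inner_conj_symm (𝕜 := ℂ) v (((Dk k pos c)^[j + 1] X) v)
      rw [← h1] at h2
      exact Complex.conj_eq_iff_im.1 h2
    have hre := iter_nonneg (c := c) (pos := pos) hX0 hk (j + 1) v
    rw [zero_apply, inner_zero_right, Complex.zero_re] at hre
    have h3 : ‖⟪v, ((Dk k pos c)^[j + 1] X) v⟫‖ = (⟪v, ((Dk k pos c)^[j + 1] X) v⟫).re := by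
      rw [← Complex.re_add_im (⟪v, ((Dk k pos c)^[j + 1] X) v⟫), him]
      simp only [Complex.ofReal_zero, zero_mul, add_zero, Complex.norm_real, Complex.ofReal_re]
      exact Real.norm_of_nonneg hre
    rw [h3]
    refine (h.iter_bound hw hγ hgap h0 hk (j + 1) v).trans ?_
    rw [add_apply, inner_add_right, Complex.add_re, smul_apply, inner_smul_right,
      Complex.re_ofReal_mul, smul_apply, inner_smul_right, Complex.re_ofReal_mul,
      one_apply_eq_self, inner_self_eq_norm_sq_to_K, add_mul]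
    refine add_le_add ?_ (le_of_eq ?_)
    · rw [show (∑ p, ((Real.exp (-(2 * k * m p)) ^ (j + 1) : ℝ) : ℂ) •
        (star (pr c (w p)) * pr c (w p))) v = ∑ p, (((Real.exp (-(2 * k * m p)) ^ (j + 1) : ℝ) : ℂ) •
        (star (pr c (w p)) * pr c (w p))) v from by simp, inner_sum, Complex.re_sum, mul_assoc]
      refine mul_le_mul_of_nonneg_left ?_ (by positivity)
      rw [Finset.sum_filter, Finset.sum_mul]
      refine Finset.sum_le_sum fun p _ => ?_
      rw [smul_apply, inner_smul_right, Complex.re_ofReal_mul, inner_star_mul_self]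
      by_cases hp : L ≤ m p
      · rw [if_pos hp]
        have e1 : Real.exp (-(2 * k * m p)) ^ (j + 1) ≤ Real.exp (-(2 * k * m p)) := by
          have h5 : Real.exp (-(2 * k * m p)) ≤ 1 := by
            refine Real.exp_le_one_iff.2 ?_
            have : 0 ≤ 2 * k * (m p : ℝ) := by positivity
            linarith
          calc Real.exp (-(2 * k * m p)) ^ (j + 1) ≤ Real.exp (-(2 * k * m p)) ^ 1 :=
                pow_le_pow_of_le_one (Real.exp_pos _).le h5 (by omega)
            _ = _ := pow_one _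
        calc Real.exp (-(2 * k * m p)) ^ (j + 1) * ‖pr c (w p) v‖ ^ 2 ≤
            Real.exp (-(2 * k * m p)) * (CB * (m p + 1) * ‖v‖ ^ 2) := by
              gcongr
              exact hB p
          _ = _ := by ring
      · rw [if_neg hp, hv p (by omega)]
        simp
    · norm_cast
  have h4 := richardson_id (c := c) (pos := pos) k n v X hS
  have h5 : ‖A v‖ ^ 2 ≤ ‖⟪v, X v⟫‖ := by
    rw [← inner_star_mul_self]
    exact Complex.re_le_norm _
  refine h5.trans (h4.trans ?_)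
  have h6 : ‖X‖ ≤ ‖A‖ ^ 2 := by
    rw [hX]
    refine (norm_mul_le _ _).trans ?_
    rw [norm_star, sq]
  have h7 := h.norm_Df_le hpos hk hXloc n
  calc ‖(Df k pos c)^[n] X‖ * ‖v‖ ^ 2 + 2 ^ n * ((2 * ‖A‖ ^ 2 / γ *
      (∑ p ∈ Finset.univ.filter (fun p => L ≤ m p), Real.exp (-(2 * k * m p)) * (CB * (m p + 1))) +
        2 * τ ^ 2) * ‖v‖ ^ 2) ≤ ((2 * k * (M : ℝ) ^ 2) ^ n * ‖A‖ ^ 2) * ‖v‖ ^ 2 + 2 ^ n *
      ((2 * ‖A‖ ^ 2 / γ *
      (∑ p ∈ Finset.univ.filter (fun p => L ≤ m p), Real.exp (-(2 * k * m p)) * (CB * (m p + 1))) +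
        2 * τ ^ 2) * ‖v‖ ^ 2) := by
        gcongr
        exact h7.trans (by gcongr)
    _ = _ := by ring

end Crest.Agent.R340.Ch421
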