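import Crest.Agent.R340.Ch3_421

/-!
# Row 340, leaf L7 (helper421): (R1) for quasi-local operators

`R1q`: if `A` kills the zero modes, `‖A‖ ≤ C0`, and for every `s` there is a truncation `A'` commuting with the
modes of position `≥ 2^s` with `‖A - A'‖ ≤ C0 2^(-9 s)`, then `‖A v‖² ≤ R1C γ CB * C0² ∑ₚ (1 + mₚ)⁻² ‖Bₚ v‖²`,
with an explicit constant depending only on the gap `γ` and on `CB` (`‖Bₚ v‖² ≤ CB (mₚ + 1) ‖v‖²`).
-/

set_option autoImplicit false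

noncomputable section

namespace Crest.Agent.R340.Ch421

open ContinuousLinearMap

variable {E : Type*} [NormedAddCommGroup E] [InnerProductSpace ℂ E] [FiniteDimensional ℂ E]

local notation "⟪" x ", " y "⟫" => inner ℂ x y

variable {ι : Type*} [Fintype ι] [DecidableEq ι] {c : ι → E →L[ℂ] E}
variable {κ : Type*} [Fintype κ]
variable {w : κ → ι → ι → ℂ} {pos : ι → ℕ} {m : κ → ℕ}

theorem exp_neg_le (n : ℕ) {x : ℝ} (hx : 0 < x) : Real.exp (-x) ≤ n.factorial / x ^ n := by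
  have h1 := Real.pow_div_factorial_le_exp x hx.le n
  rw [Real.exp_neg, le_div_iff₀ (by positivity), ← div_eq_inv_mul, div_le_iff₀ (Real.exp_pos _)]
  rw [div_le_iff₀ (by positivity)] at h1
  linarith

/-- tail of the damped energy -/
theorem tail_bound (hm : Function.Injective m) (s : ℕ) :
    ∑ p ∈ Finset.univ.filter (fun p => 16 ^ s ≤ m p),
      Real.exp (-(2 * ((8 : ℝ) ^ s)⁻¹ * m p)) * (m p + 1 : ℝ) ≤
      96 * (Nat.factorial 30 : ℝ) * ((2 : ℝ) ^ (18 * s))⁻¹ := by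
  set k : ℝ := ((8 : ℝ) ^ s)⁻¹ with hk
  have hk0 : 0 < k := by positivity
  have hterm : ∀ p ∈ Finset.univ.filter (fun p => 16 ^ s ≤ m p),
      Real.exp (-(2 * k * m p)) * (m p + 1 : ℝ) ≤
        (48 * (Nat.factorial 30 : ℝ) * ((2 : ℝ) ^ (18 * s))⁻¹) * (((m p : ℕ) : ℝ) ^ 2)⁻¹ := by
    intro p hp
    rw [Finset.mem_filter] at hp
    have hn : (16 : ℝ) ^ s ≤ m p := by exact_mod_cast hp.2
    have hn1 : (1 : ℝ) ≤ m p := le_trans (one_le_pow₀ (by norm_num)) hn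
    have hn0 : (0 : ℝ) < m p := by linarith
    have e1 : Real.exp (-(2 * k * m p)) = Real.exp (-(k * m p)) * Real.exp (-(k * m p)) := by
      rw [← Real.exp_add]
      congr 1
      ring
    have e2 : Real.exp (-(k * m p)) ≤ Real.exp (-((2 : ℝ) ^ s)) := by
      refine Real.exp_le_exp.2 (neg_le_neg ?_)
      have : k * (16 : ℝ) ^ s = 2 ^ s := by
        rw [hk, show (16 : ℝ) ^ s = 8 ^ s * 2 ^ s by rw [← mul_pow]; norm_num]
        field_simp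
      calc (2 : ℝ) ^ s = k * (16 : ℝ) ^ s := this.symm
        _ ≤ k * m p := by gcongr
    have e3 := exp_neg_le 30 (x := (2 : ℝ) ^ s) (by positivity)
    have e4 := exp_neg_le 4 (x := k * m p) (by positivity)
    have e5 : ((m p : ℝ) + 1) ≤ 2 * m p := by linarith
    calc Real.exp (-(2 * k * m p)) * ((m p : ℝ) + 1) =
        Real.exp (-(k * m p)) * (Real.exp (-(k * m p)) * ((m p : ℝ) + 1)) := by rw [e1]; ring
      _ ≤ ((Nat.factorial 30 : ℝ) / ((2 : ℝ) ^ s) ^ 30) *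
          (((Nat.factorial 4 : ℝ) / (k * m p) ^ 4) * (2 * m p)) := by
          gcongr
          exact e2.trans e3
      _ = 48 * (Nat.factorial 30 : ℝ) * ((2 : ℝ) ^ (18 * s))⁻¹ * (((m p : ℝ)) ^ 3)⁻¹ := by
          rw [hk]
          have h6 : ((2 : ℝ) ^ s) ^ 30 = 2 ^ (18 * s) * 8 ^ (4 * s) := by
            rw [← pow_mul, show (8 : ℝ) = 2 ^ 3 by norm_num, ← pow_mul, ← pow_add]
            congr 1
            ring
          rw [h6, show (Nat.factorial 4 : ℝ) = 24 by norm_num [Nat.factorial], pow_mul (8 : ℝ),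
            show ((8 : ℝ) ^ 4) ^ s = ((8 : ℝ) ^ s) ^ 4 by rw [← pow_mul, ← pow_mul]; ring_nf]
          field_simp
          norm_num
      _ ≤ _ := by
          gcongr
          norm_num
  refine (Finset.sum_le_sum hterm).trans ?_
  rw [← Finset.mul_sum]
  have h2 : ∑ p ∈ Finset.univ.filter (fun p => 16 ^ s ≤ m p), (((m p : ℕ) : ℝ) ^ 2)⁻¹ ≤ 2 := by
    rw [← Finset.sum_image (f := fun n : ℕ => ((n : ℝ) ^ 2)⁻¹) (g := m) (fun a _ b _ hab => hm hab)]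
    set N := (Finset.univ.sup m) + 1 with hN
    have h3 : (Finset.univ.filter (fun p => 16 ^ s ≤ m p)).image m ⊆ Finset.Ioo 0 N := by
      intro n hn
      rw [Finset.mem_image] at hn
      obtain ⟨p, hp, rfl⟩ := hn
      rw [Finset.mem_filter] at hp
      rw [Finset.mem_Ioo]
      have h4 : m p ≤ Finset.univ.sup m := Finset.le_sup (Finset.mem_univ p)
      have h5 : 0 < 16 ^ s := by positivity
      omega
    refine (Finset.sum_le_sum_of_subset_of_nonneg h3 (fun _ _ _ => by positivity)).trans ?_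
    have := sum_Ioo_inv_sq_le (α := ℝ) 0 N
    simpa using this
  calc 48 * (Nat.factorial 30 : ℝ) * ((2 : ℝ) ^ (18 * s))⁻¹ *
      ∑ p ∈ Finset.univ.filter (fun p => 16 ^ s ≤ m p), (((m p : ℕ) : ℝ) ^ 2)⁻¹ ≤
      48 * (Nat.factorial 30 : ℝ) * ((2 : ℝ) ^ (18 * s))⁻¹ * 2 := by gcongr
    _ = _ := by ring

/-- intermediate constant -/
def KC (γ CB : ℝ) : ℝ := 2 ^ 19 * (6 + 768 * (Nat.factorial 30 : ℝ) * CB / γ) + 2

/-- the constant of (R1) -/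
def R1C (γ CB : ℝ) : ℝ := 2 ^ 21 * KC γ CB * Real.exp 2 / γ

theorem KC_ge {γ CB : ℝ} (hγ : 0 < γ) (hCB : 0 ≤ CB) : 1 ≤ KC γ CB := by
  unfold KC
  have : 0 ≤ 768 * (Nat.factorial 30 : ℝ) * CB / γ := by positivity
  nlinarith

theorem R1C_nonneg {γ CB : ℝ} (hγ : 0 < γ) (hCB : 0 ≤ CB) : 0 ≤ R1C γ CB := by
  have := KC_ge hγ hCB
  unfold R1C
  positivity

/-- hypothesis: dyadic truncations -/
def Trunc (c : ι → E →L[ℂ] E) (pos : ι → ℕ) (C0 : ℝ) (A : E →L[ℂ] E) : Prop :=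
  ∀ s : ℕ, ∃ A' : E →L[ℂ] E, Off c {j | 2 ^ s ≤ pos j} A' ∧ ‖A - A'‖ ≤ C0 * ((2 : ℝ) ^ (9 * s))⁻¹

/-- a quasi-local operator killing the zero modes is small on `KL` -/
theorem IsCAR.small_on_KL (h : IsCAR c) (hpos : Function.Injective pos)
    (hw : ∀ p a b, w p a b ≠ 0 → pos a + pos b = m p) (hm : Function.Injective m) {γ : ℝ}
    (hγ : 0 < γ) (hgap : GapH (fun p => pr c (w p)) γ) {CB : ℝ} (hCB : 0 ≤ CB)
    (hB : ∀ p v, ‖pr c (w p) v‖ ^ 2 ≤ CB * (m p + 1) * ‖v‖ ^ 2) {A : E →L[ℂ] E} {C0 : ℝ}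
    (hC0 : 0 ≤ C0) (hA : ‖A‖ ≤ C0) (htr : Trunc c pos C0 A)
    (h0 : ∀ z, IsZero (fun p => pr c (w p)) z → A z = 0) (s : ℕ) {v : E}
    (hv : v ∈ KL (fun p => pr c (w p)) m (16 ^ s)) :
    ‖A v‖ ^ 2 ≤ KC γ CB * C0 ^ 2 * ((2 : ℝ) ^ (18 * s))⁻¹ * ‖v‖ ^ 2 := by
  obtain ⟨A', hloc, hd⟩ := htr s
  set q : ℝ := ((2 : ℝ) ^ (18 * s))⁻¹ with hq
  have hq0 : 0 < q := by positivity
  have hq9 : (((2 : ℝ) ^ (9 * s))⁻¹) ^ 2 = q := by
    rw [hq, inv_pow, ← pow_mul]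
    congr 2
    ring
  have h9le : ((2 : ℝ) ^ (9 * s))⁻¹ ≤ 1 := inv_le_one_of_one_le₀ (one_le_pow₀ (by norm_num))
  have hA' : ‖A'‖ ≤ 2 * C0 := by
    calc ‖A'‖ = ‖A - (A - A')‖ := by congr 1; abel
      _ ≤ ‖A‖ + ‖A - A'‖ := norm_sub_le _ _
      _ ≤ C0 + C0 * 1 := by
          refine add_le_add hA (hd.trans ?_)
          gcongr
      _ = _ := by ring
  have h0' : ∀ z, IsZero (fun p => pr c (w p)) z → ‖A' z‖ ≤ (C0 * ((2 : ℝ) ^ (9 * s))⁻¹) * ‖z‖ := by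
    intro z hz
    have e : A' z = -((A - A') z) := by rw [sub_apply, h0 z hz]; simp
    rw [e, norm_neg]
    exact ((A - A').le_opNorm z).trans (by gcongr)
  have h1 := h.richardson hpos hw hγ hgap hloc h0' (k := ((8 : ℝ) ^ s)⁻¹) (by positivity) 18
    (16 ^ s) hv (CB := CB) (fun p => hB p v)
  have e1 : (2 * ((8 : ℝ) ^ s)⁻¹ * (((2 ^ s : ℕ) : ℝ)) ^ 2) ^ 18 = 2 ^ 18 * q := by
    have : 2 * ((8 : ℝ) ^ s)⁻¹ * (((2 ^ s : ℕ) : ℝ)) ^ 2 = 2 * ((2 : ℝ) ^ s)⁻¹ := by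
      push_cast
      rw [show (8 : ℝ) ^ s = (2 ^ s) * (2 ^ s) ^ 2 by rw [← pow_mul, ← pow_add,
        show (8 : ℝ) = 2 ^ 3 by norm_num, ← pow_mul]; congr 1; ring]
      field_simp
    rw [this, mul_pow, hq, inv_pow, ← pow_mul]
    congr 3
    ring
  have e2 : ∑ p ∈ Finset.univ.filter (fun p => 16 ^ s ≤ m p),
      Real.exp (-(2 * ((8 : ℝ) ^ s)⁻¹ * m p)) * (CB * (m p + 1)) ≤
      CB * (96 * (Nat.factorial 30 : ℝ) * q) := by
    have h2 := mul_le_mul_of_nonneg_left (tail_bound hm s) hCB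
    refine le_trans (le_of_eq ?_) h2
    rw [Finset.mul_sum]
    exact Finset.sum_congr rfl fun p _ => by ring
  rw [e1] at h1
  have h3 : ‖A' v‖ ^ 2 ≤ (2 ^ 18 * q * (4 * C0 ^ 2) + 2 ^ 18 * (2 * (4 * C0 ^ 2) / γ *
      (CB * (96 * (Nat.factorial 30 : ℝ) * q)) + 2 * (C0 ^ 2 * q))) * ‖v‖ ^ 2 := by
    refine h1.trans ?_
    have hA2 : ‖A'‖ ^ 2 ≤ 4 * C0 ^ 2 := by
      calc ‖A'‖ ^ 2 ≤ (2 * C0) ^ 2 := by gcongr
        _ = _ := by ring
    have hτ : (C0 * ((2 : ℝ) ^ (9 * s))⁻¹) ^ 2 = C0 ^ 2 * q := by rw [mul_pow, hq9]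
    rw [hτ]
    have hsum : 0 ≤ ∑ p ∈ Finset.univ.filter (fun p => 16 ^ s ≤ m p),
        Real.exp (-(2 * ((8 : ℝ) ^ s)⁻¹ * m p)) * (CB * (m p + 1)) :=
      Finset.sum_nonneg fun p _ => by positivity
    gcongr
  have h4 : ‖(A - A') v‖ ^ 2 ≤ C0 ^ 2 * q * ‖v‖ ^ 2 := by
    calc ‖(A - A') v‖ ^ 2 ≤ (‖A - A'‖ * ‖v‖) ^ 2 := by
          gcongr
          exact (A - A').le_opNorm v
      _ ≤ ((C0 * ((2 : ℝ) ^ (9 * s))⁻¹) * ‖v‖) ^ 2 := by gcongr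
      _ = _ := by rw [mul_pow, mul_pow, hq9]
  have h5 : ‖A v‖ ^ 2 ≤ 2 * ‖A' v‖ ^ 2 + 2 * ‖(A - A') v‖ ^ 2 := by
    have e : A v = A' v + (A - A') v := by rw [sub_apply]; abel
    have h6 : ‖A v‖ ≤ ‖A' v‖ + ‖(A - A') v‖ := by
      conv_lhs => rw [e]
      exact norm_add_le _ _
    have h7 : ‖A v‖ ^ 2 ≤ (‖A' v‖ + ‖(A - A') v‖) ^ 2 := by gcongr
    nlinarith [sq_nonneg (‖A' v‖ - ‖(A - A') v‖)]
  refine h5.trans ?_
  calc 2 * ‖A' v‖ ^ 2 + 2 * ‖(A - A') v‖ ^ 2 ≤ 2 * ((2 ^ 18 * q * (4 * C0 ^ 2) +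
      2 ^ 18 * (2 * (4 * C0 ^ 2) / γ * (CB * (96 * (Nat.factorial 30 : ℝ) * q)) +
        2 * (C0 ^ 2 * q))) * ‖v‖ ^ 2) + 2 * (C0 ^ 2 * q * ‖v‖ ^ 2) := by gcongr
    _ = _ := by unfold KC; ring

theorem weight_bound (mm S : ℕ) :
    ∑ s ∈ Finset.range S, ((2 : ℝ) ^ (17 * s))⁻¹ *
      Real.exp (-(2 * mm) / (((16 ^ s : ℕ) : ℝ)) ^ 2) ≤ 4 * (((1 : ℝ) + mm) ^ 2)⁻¹ := by
  have hgeo : ∑ s ∈ Finset.range S, ((1 : ℝ) / 2) ^ s ≤ 2 := sum_geometric_two_le S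
  by_cases h0 : mm = 0
  · subst h0
    have h1 : ∀ s ∈ Finset.range S, ((2 : ℝ) ^ (17 * s))⁻¹ *
        Real.exp (-(2 * ((0 : ℕ) : ℝ)) / (((16 ^ s : ℕ) : ℝ)) ^ 2) ≤ ((1 : ℝ) / 2) ^ s := by
      intro s _
      simp only [Nat.cast_zero, mul_zero, neg_zero, zero_div, Real.exp_zero, mul_one]
      rw [one_div, inv_pow]
      refine inv_anti₀ (by positivity) ?_
      exact pow_le_pow_right₀ (by norm_num) (by omega)
    refine (Finset.sum_le_sum h1).trans (hgeo.trans ?_)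
    norm_num
  · have hm1 : (1 : ℝ) ≤ mm := by exact_mod_cast Nat.one_le_iff_ne_zero.2 h0
    have hm0 : (0 : ℝ) < mm := by linarith
    have h1 : ∀ s ∈ Finset.range S, ((2 : ℝ) ^ (17 * s))⁻¹ *
        Real.exp (-(2 * mm) / (((16 ^ s : ℕ) : ℝ)) ^ 2) ≤
        (((mm : ℝ) ^ 2)⁻¹ / 2) * ((1 : ℝ) / 2) ^ s := by
      intro s _
      have e1 := exp_neg_le 2 (x := 2 * mm / (((16 ^ s : ℕ) : ℝ)) ^ 2) (by positivity)
      rw [neg_div] at *
      calc ((2 : ℝ) ^ (17 * s))⁻¹ * Real.exp (-(2 * mm / (((16 ^ s : ℕ) : ℝ)) ^ 2)) ≤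
          ((2 : ℝ) ^ (17 * s))⁻¹ * ((Nat.factorial 2 : ℕ) / (2 * mm / (((16 ^ s : ℕ) : ℝ)) ^ 2) ^ 2) := by
            gcongr
        _ = _ := by
            push_cast
            have h6 : ((16 : ℝ) ^ s) ^ 4 = 2 ^ (16 * s) := by
              rw [show (16 : ℝ) = 2 ^ 4 by norm_num, ← pow_mul, ← pow_mul]
              congr 1
              ring
            have h7 : (2 : ℝ) ^ (17 * s) = 2 ^ (16 * s) * 2 ^ s := by
              rw [← pow_add]; congr 1; ring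
            rw [h7, one_div, inv_pow, ← h6]
            rw [show (Nat.factorial 2 : ℝ) = 2 by norm_num [Nat.factorial]]
            field_simp
    refine (Finset.sum_le_sum h1).trans ?_
    rw [← Finset.mul_sum]
    calc (((mm : ℝ) ^ 2)⁻¹ / 2) * ∑ s ∈ Finset.range S, ((1 : ℝ) / 2) ^ s ≤
        (((mm : ℝ) ^ 2)⁻¹ / 2) * 2 := by gcongr
      _ = ((mm : ℝ) ^ 2)⁻¹ := by ring
      _ ≤ 4 * (((1 : ℝ) + mm) ^ 2)⁻¹ := by
          rw [← div_eq_mul_inv, le_div_iff₀ (by positivity), ← div_eq_inv_mul,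
            div_le_iff₀ (by positivity)]
          nlinarith

/-- **(R1), quasi-local operators.** -/
theorem IsCAR.R1q (h : IsCAR c) (hpos : Function.Injective pos)
    (hw : ∀ p a b, w p a b ≠ 0 → pos a + pos b = m p) (hm : Function.Injective m) {γ : ℝ}
    (hγ : 0 < γ) (hgap : GapH (fun p => pr c (w p)) γ) {CB : ℝ} (hCB : 0 ≤ CB)
    (hB : ∀ p v, ‖pr c (w p) v‖ ^ 2 ≤ CB * (m p + 1) * ‖v‖ ^ 2) {A : E →L[ℂ] E} {C0 : ℝ}
    (hC0 : 0 ≤ C0) (hA : ‖A‖ ≤ C0) (htr : Trunc c pos C0 A)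
    (h0 : ∀ z, IsZero (fun p => pr c (w p)) z → A z = 0) (v : E) :
    ‖A v‖ ^ 2 ≤ R1C γ CB * C0 ^ 2 * ∑ p, (((1 : ℝ) + m p) ^ 2)⁻¹ * ‖pr c (w p) v‖ ^ 2 := by
  set K : ℕ → Submodule ℂ E := fun s => KL (fun p => pr c (w p)) m (16 ^ s) with hK
  set P : ℕ → E := fun s => (K s).starProjection v with hP
  set KK := KC γ CB with hKK
  have hKK1 : 1 ≤ KK := KC_ge hγ hCB
  have hKmono : ∀ s, K (s + 1) ≤ K s := fun s =>
    KL_mono (Nat.pow_le_pow_right (by norm_num) (Nat.le_succ s))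
  -- the increments
  have hinc : ∀ s, ‖P s - P (s + 1)‖ ≤ ‖v - P (s + 1)‖ := by
    intro s
    have e : P s - P (s + 1) = (K s).starProjection (v - P (s + 1)) := by
      rw [map_sub]
      congr 1
      exact (Submodule.starProjection_eq_self_iff.2
        (hKmono s (Submodule.starProjection_apply_mem _ _))).symm
    rw [e]
    exact Submodule.norm_starProjection_apply_le _ _
  have hmem : ∀ s, P s - P (s + 1) ∈ K s := fun s =>
    (K s).sub_mem (Submodule.starProjection_apply_mem _ _)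
      (hKmono s (Submodule.starProjection_apply_mem _ _))
  have hAinc : ∀ s, ‖A (P s - P (s + 1))‖ ≤
      Real.sqrt KK * C0 * ((2 : ℝ) ^ (9 * s))⁻¹ * ‖v - P (s + 1)‖ := by
    intro s
    have h1 := h.small_on_KL hpos hw hm hγ hgap hCB hB hC0 hA htr h0 s (hmem s)
    have h2 : ‖A (P s - P (s + 1))‖ ^ 2 ≤
        (Real.sqrt KK * C0 * ((2 : ℝ) ^ (9 * s))⁻¹ * ‖v - P (s + 1)‖) ^ 2 := by
      refine h1.trans ?_
      have h9 : (((2 : ℝ) ^ (9 * s))⁻¹) ^ 2 = ((2 : ℝ) ^ (18 * s))⁻¹ := by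
        rw [inv_pow, ← pow_mul]
        congr 2
        ring
      rw [mul_pow, mul_pow, mul_pow, Real.sq_sqrt (by linarith), h9]
      have := hinc s
      gcongr
    exact abs_le_of_sq_le_sq' h2 (by positivity) |>.2
  -- termination
  obtain ⟨S, hS⟩ : ∃ S : ℕ, ∀ p, m p < 16 ^ S := by
    obtain ⟨S, hS⟩ := pow_unbounded_of_one_lt (Finset.univ.sup m : ℕ) (by norm_num : 1 < 16)
    exact ⟨S, fun p => lt_of_le_of_lt (Finset.le_sup (Finset.mem_univ p)) hS⟩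
  have hPS : A (P S) = 0 := by
    refine h0 _ fun p => ?_
    have h1 : P S ∈ K S := Submodule.starProjection_apply_mem _ _
    exact h1 p (hS p)
  have htel : ∀ n, v - P n = (v - P 0) + ∑ s ∈ Finset.range n, (P s - P (s + 1)) := by
    intro n
    rw [Finset.sum_range_sub']
    abel
  have hAv : A v = A (v - P 0) + ∑ s ∈ Finset.range S, A (P s - P (s + 1)) := by
    have h1 : v = (v - P 0) + ∑ s ∈ Finset.range S, (P s - P (s + 1)) + P S := by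
      rw [← htel S]; abel
    conv_lhs => rw [h1]
    rw [map_add, map_add, map_sum, hPS, add_zero]
  set x : ℕ → ℝ := fun s => ‖v - P s‖ with hx
  have hx0 : ∀ s, 0 ≤ x s := fun s => norm_nonneg _
  set D : ℝ := 2 ^ 9 * Real.sqrt KK * C0 with hD
  have hsq1 : 1 ≤ Real.sqrt KK := Real.one_le_sqrt.2 hKK1
  have hnorm : ‖A v‖ ≤ D * ∑ s ∈ Finset.range (S + 1), ((2 : ℝ) ^ (9 * s))⁻¹ * x s := by
    rw [hAv, Finset.sum_range_succ', mul_add]
    refine (norm_add_le _ _).trans ?_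
    rw [add_comm]
    refine add_le_add ?_ ?_
    · refine (norm_sum_le _ _).trans ?_
      rw [Finset.mul_sum]
      refine Finset.sum_le_sum fun s _ => (hAinc s).trans (le_of_eq ?_)
      rw [hD, mul_add 9 s 1, pow_add, mul_inv]
      ring
    · simp only [mul_zero, pow_zero, inv_one, one_mul]
      refine (A.le_opNorm _).trans ?_
      rw [hD]
      have : C0 ≤ 2 ^ 9 * Real.sqrt KK * C0 := by nlinarith
      exact mul_le_mul_of_nonneg_right (hA.trans this) (hx0 0)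
  have hcs : (∑ s ∈ Finset.range (S + 1), ((2 : ℝ) ^ (9 * s))⁻¹ * x s) ^ 2 ≤
      2 * ∑ s ∈ Finset.range (S + 1), ((2 : ℝ) ^ (17 * s))⁻¹ * x s ^ 2 := by
    have h1 : ∀ s ∈ Finset.range (S + 1), (((2 : ℝ) ^ (9 * s))⁻¹ * x s) ^ 2 =
        ((1 : ℝ) / 2) ^ s * (((2 : ℝ) ^ (17 * s))⁻¹ * x s ^ 2) := by
      intro s _
      rw [mul_pow, inv_pow, ← pow_mul, one_div, inv_pow, ← mul_assoc, ← mul_inv, ← pow_add]
      congr 3
      ring
    have h2 := Finset.sum_sq_le_sum_mul_sum_of_sq_le_mul (Finset.range (S + 1))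
      (r := fun s => ((2 : ℝ) ^ (9 * s))⁻¹ * x s) (f := fun s => ((1 : ℝ) / 2) ^ s)
      (g := fun s => ((2 : ℝ) ^ (17 * s))⁻¹ * x s ^ 2) (fun s _ => by positivity)
      (fun s _ => by positivity) (fun s hs => (h1 s hs).le)
    refine h2.trans ?_
    gcongr
    exact sum_geometric_two_le _
  have hxs : ∀ s, x s ^ 2 ≤ Real.exp 2 / γ *
      ∑ p, Real.exp (-(2 * m p) / (((16 ^ s : ℕ) : ℝ)) ^ 2) * ‖pr c (w p) v‖ ^ 2 := fun s =>
    h.one_sub_KL hpos hw hγ hgap (Nat.one_le_iff_ne_zero.2 (by positivity)) v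
  have hsum : ∑ s ∈ Finset.range (S + 1), ((2 : ℝ) ^ (17 * s))⁻¹ * x s ^ 2 ≤
      Real.exp 2 / γ * (4 * ∑ p, (((1 : ℝ) + m p) ^ 2)⁻¹ * ‖pr c (w p) v‖ ^ 2) := by
    calc ∑ s ∈ Finset.range (S + 1), ((2 : ℝ) ^ (17 * s))⁻¹ * x s ^ 2 ≤
        ∑ s ∈ Finset.range (S + 1), ((2 : ℝ) ^ (17 * s))⁻¹ * (Real.exp 2 / γ *
          ∑ p, Real.exp (-(2 * m p) / (((16 ^ s : ℕ) : ℝ)) ^ 2) * ‖pr c (w p) v‖ ^ 2) := by
          refine Finset.sum_le_sum fun s _ => ?_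
          have := hxs s
          gcongr
      _ = Real.exp 2 / γ * ∑ p, (∑ s ∈ Finset.range (S + 1), ((2 : ℝ) ^ (17 * s))⁻¹ *
          Real.exp (-(2 * m p) / (((16 ^ s : ℕ) : ℝ)) ^ 2)) * ‖pr c (w p) v‖ ^ 2 := by
          simp only [Finset.mul_sum, Finset.sum_mul]
          rw [Finset.sum_comm]
          refine Finset.sum_congr rfl fun p _ => Finset.sum_congr rfl fun s _ => ?_
          ring
      _ ≤ Real.exp 2 / γ * ∑ p, (4 * (((1 : ℝ) + m p) ^ 2)⁻¹) * ‖pr c (w p) v‖ ^ 2 := by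
          have hγ' : 0 ≤ Real.exp 2 / γ := by positivity
          refine mul_le_mul_of_nonneg_left (Finset.sum_le_sum fun p _ => ?_) hγ'
          exact mul_le_mul_of_nonneg_right (weight_bound (m p) (S + 1)) (sq_nonneg _)
      _ = _ := by
          rw [Finset.mul_sum (s := Finset.univ) (a := (4 : ℝ))]
          congr 1
          exact Finset.sum_congr rfl fun p _ => by ring
  have hD0 : 0 ≤ D := by positivity
  calc ‖A v‖ ^ 2 ≤ (D * ∑ s ∈ Finset.range (S + 1), ((2 : ℝ) ^ (9 * s))⁻¹ * x s) ^ 2 := by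
        gcongr
    _ = D ^ 2 * (∑ s ∈ Finset.range (S + 1), ((2 : ℝ) ^ (9 * s))⁻¹ * x s) ^ 2 := by ring
    _ ≤ D ^ 2 * (2 * (Real.exp 2 / γ * (4 * ∑ p, (((1 : ℝ) + m p) ^ 2)⁻¹ *
        ‖pr c (w p) v‖ ^ 2))) := by
        gcongr
        exact hcs.trans (by gcongr)
    _ = _ := by
        rw [hD, mul_pow, mul_pow, Real.sq_sqrt (by linarith)]
        unfold R1C
        rw [← hKK]
        ring

end Crest.Agent.R340.Ch421
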