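import Mathlib.Tactic
import Crest.Agent.R340.Scal_725

/-!
R340 (S0532), orphan O3 = sphere convolutions, part 1 (helper102): pure real / combinatorial part.

* `EE Q l j = binom (Q-j) l / binom Q l`: the sequences spanning the cone of absolutely monotone
  functions of `Q - j`; `AM Q f`: `f` is a nonnegative combination of them (on `0..Q`).
* `AM` sequences are nonnegative, antitone and convex on `0..Q`; `prof a R` is `AM`.
* `Ker Q K`: the properties of the convolution kernels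
  `K m j k = ∫ |g₀₀|^(2m) |(sp Q g) j k|² dg` that are used;
* `Phi K Q Q2 A f` the convolution with the explicit weight `cw Q Q2 A` and its bounds.
-/

set_option autoImplicit false

open Finset

namespace Crest.Agent.R340.Conv102

open Crest.Agent.R340.Scal725

/-! ### The cone of absolutely monotone sequences -/

/-- `EE Q l j = binom (Q-j) l / binom Q l`. -/
noncomputable def EE (Q l j : ℕ) : ℝ := (Nat.choose (Q - j) l : ℝ) / (Nat.choose Q l : ℝ)

theorem EE_zero {Q l : ℕ} (hl : l ≤ Q) : EE Q l 0 = 1 := by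
  have : (Nat.choose Q l : ℝ) ≠ 0 := by exact_mod_cast (Nat.choose_pos hl).ne'
  rw [EE, Nat.sub_zero, div_self this]

theorem EE_nonneg (Q l j : ℕ) : 0 ≤ EE Q l j := by unfold EE; positivity

theorem EE_one {Q l : ℕ} (hl : l ≤ Q) (hQ : 1 ≤ Q) : EE Q l 1 = 1 - (l : ℝ) / Q := by
  obtain ⟨n, rfl⟩ : ∃ n, Q = n + 1 := ⟨Q - 1, by omega⟩
  have h0 : (Nat.choose (n + 1) l : ℝ) ≠ 0 := by exact_mod_cast (Nat.choose_pos hl).ne'
  have h1 : ((n + 1 : ℕ) : ℝ) ≠ 0 := by positivity
  rw [EE, Nat.add_sub_cancel]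
  have h : (Nat.choose n l : ℝ) * ((n + 1 : ℕ) : ℝ) =
      Nat.choose (n + 1) l * (((n + 1 : ℕ) : ℝ) - l) := by
    rw [← Nat.cast_sub hl]
    exact_mod_cast Nat.choose_mul_succ_eq n l
  rw [div_eq_iff h0]
  field_simp
  linarith

/-- iterated differences `D⁰ f = f`, `D^(l+1) f j = D^l f j - D^l f (j+1)`. -/
def DD (f : ℕ → ℝ) : ℕ → ℕ → ℝ
  | 0, j => f j
  | (l + 1), j => DD f l j - DD f l (j + 1)

@[simp] theorem DD_zero (f : ℕ → ℝ) (j : ℕ) : DD f 0 j = f j := rfl

theorem DD_succ (f : ℕ → ℝ) (l j : ℕ) : DD f (l + 1) j = DD f l j - DD f l (j + 1) := rfl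

theorem DD_succ' (f : ℕ → ℝ) (l j : ℕ) :
    DD (fun i => f i - f (i + 1)) l j = DD f (l + 1) j := by
  induction l generalizing j with
  | zero => rfl
  | succ l ih => rw [DD, ih, ih]; rfl

theorem DD_two (f : ℕ → ℝ) (j : ℕ) : DD f 2 j = dd f j := by
  simp only [DD, dd]
  rw [show j + 1 + 1 = j + 2 from rfl]
  ring

theorem DD_sum {ι : Type*} (s : Finset ι) (β : ι → ℝ) (f : ι → ℕ → ℝ) (r j : ℕ) :
    DD (fun j => ∑ i ∈ s, β i * f i j) r j = ∑ i ∈ s, β i * DD (f i) r j := by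
  induction r generalizing j with
  | zero => rfl
  | succ r ih =>
    rw [DD, ih, ih, ← sum_sub_distrib]
    exact sum_congr rfl fun i _ => by rw [DD]; ring

theorem DD_smul (β : ℝ) (f : ℕ → ℝ) (r j : ℕ) :
    DD (fun j => β * f j) r j = β * DD f r j := by
  induction r generalizing j with
  | zero => rfl
  | succ r ih => rw [DD, ih, ih, DD]; ring

theorem DD_congr {Q : ℕ} {f g : ℕ → ℝ} (h : ∀ j, j ≤ Q → f j = g j) (r j : ℕ) (hj : j + r ≤ Q) :
    DD f r j = DD g r j := by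
  induction r generalizing j with
  | zero => exact h j hj
  | succ r ih => rw [DD, DD, ih j (by omega), ih (j + 1) (by omega)]

theorem DD_EE (Q l r j : ℕ) (hj : j + r ≤ Q) :
    DD (EE Q l) r j =
      if r ≤ l then (Nat.choose (Q - j - r) (l - r) : ℝ) / Nat.choose Q l else 0 := by
  induction r generalizing j with
  | zero => simp [EE]
  | succ r ih =>
    rw [DD, ih j (by omega), ih (j + 1) (by omega)]
    by_cases h : r + 1 ≤ l
    · rw [if_pos h, if_pos (by omega), if_pos (by omega), ← sub_div]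
      congr 1
      rw [show Q - j - r = (Q - j - (r + 1)) + 1 by omega, show l - r = (l - (r + 1)) + 1 by omega,
        show Q - (j + 1) - r = Q - j - (r + 1) by omega, Nat.choose_succ_succ]
      push_cast
      ring
    · rw [if_neg h]
      by_cases h2 : r ≤ l
      · have : l - r = 0 := by omega
        rw [if_pos h2, if_pos h2, this]
        simp
      · rw [if_neg h2, if_neg h2, sub_zero]

theorem DD_EE_nonneg (Q l r j : ℕ) (hj : j + r ≤ Q) : 0 ≤ DD (EE Q l) r j := by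
  rw [DD_EE Q l r j hj]
  split_ifs <;> positivity

/-- nonnegative combination of the `EE Q l` on `0..Q`. -/
def AM (Q : ℕ) (f : ℕ → ℝ) : Prop :=
  ∃ α : ℕ → ℝ, (∀ l, 0 ≤ α l) ∧ ∀ j, j ≤ Q → f j = ∑ l ∈ range (Q + 1), α l * EE Q l j

theorem AM.nonneg {Q : ℕ} {f : ℕ → ℝ} (h : AM Q f) {j : ℕ} (hj : j ≤ Q) : 0 ≤ f j := by
  obtain ⟨α, h0, h1⟩ := h
  rw [h1 j hj]
  exact sum_nonneg fun l _ => mul_nonneg (h0 l) (EE_nonneg Q l j)

theorem AM.DD_nonneg {Q : ℕ} {f : ℕ → ℝ} (h : AM Q f) {r j : ℕ} (hj : j + r ≤ Q) :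
    0 ≤ DD f r j := by
  obtain ⟨α, h0, h1⟩ := h
  rw [DD_congr h1 r j hj, DD_sum]
  exact sum_nonneg fun l _ => mul_nonneg (h0 l) (DD_EE_nonneg Q l r j hj)

theorem AM.DD_antitone {Q : ℕ} {f : ℕ → ℝ} (h : AM Q f) {r i j : ℕ} (hij : i ≤ j)
    (hj : j + r ≤ Q) : DD f r j ≤ DD f r i := by
  induction j, hij using Nat.le_induction with
  | base => exact le_rfl
  | succ j hj' ih =>
    have h1 := h.DD_nonneg (r := r + 1) (j := j) (by omega)
    rw [DD] at h1
    exact (sub_nonneg.1 h1).trans (ih (by omega))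

theorem AM.antitone {Q : ℕ} {f : ℕ → ℝ} (h : AM Q f) {i j : ℕ} (hij : i ≤ j) (hj : j ≤ Q) :
    f j ≤ f i := h.DD_antitone (r := 0) hij hj

/-- For absolutely monotone sequences `k D^(r+1) f_j ≤ D^r f_(j-k) - D^r f_j`. -/
theorem AM.mul_DD_le {Q : ℕ} {f : ℕ → ℝ} (h : AM Q f) {r j : ℕ} (hj : j + (r + 1) ≤ Q) (k : ℕ)
    (hk : k ≤ j) : (k : ℝ) * DD f (r + 1) j ≤ DD f r (j - k) - DD f r j := by
  induction k with
  | zero => simp
  | succ k ih =>
    have h1 := ih (by omega)
    have h2 := h.DD_antitone (r := r + 1) (show j - (k + 1) ≤ j by omega) (by omega)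
    rw [DD_succ f r (j - (k + 1)), show j - (k + 1) + 1 = j - k by omega] at h2
    push_cast
    linarith

theorem AM.mul_DD_le' {Q : ℕ} {f : ℕ → ℝ} (h : AM Q f) {r j : ℕ} (hj : j + (r + 1) ≤ Q) (k : ℕ)
    (hk : k ≤ j) : (k : ℝ) * DD f (r + 1) j ≤ DD f r (j - k) := by
  have h1 := h.mul_DD_le hj k hk
  have h2 := h.DD_nonneg (r := r) (j := j) (by omega)
  linarith

theorem AM.add {Q : ℕ} {f g : ℕ → ℝ} (hf : AM Q f) (hg : AM Q g) : AM Q (fun j => f j + g j) := by
  obtain ⟨α, h0, h1⟩ := hf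
  obtain ⟨β, k0, k1⟩ := hg
  refine ⟨fun l => α l + β l, fun l => add_nonneg (h0 l) (k0 l), fun j hj => ?_⟩
  simp only
  rw [h1 j hj, k1 j hj, ← sum_add_distrib]
  exact sum_congr rfl fun l _ => by ring

theorem AM.smul {Q : ℕ} {f : ℕ → ℝ} (hf : AM Q f) {c : ℝ} (hc : 0 ≤ c) :
    AM Q (fun j => c * f j) := by
  obtain ⟨α, h0, h1⟩ := hf
  refine ⟨fun l => c * α l, fun l => mul_nonneg hc (h0 l), fun j hj => ?_⟩
  simp only
  rw [h1 j hj, mul_sum]
  exact sum_congr rfl fun l _ => by ring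

theorem AM.zero (Q : ℕ) : AM Q (fun _ => 0) :=
  ⟨fun _ => 0, fun _ => le_rfl, fun j _ => by simp⟩

theorem AM.sum {Q : ℕ} {ι : Type*} (s : Finset ι) {f : ι → ℕ → ℝ} (hf : ∀ i ∈ s, AM Q (f i)) :
    AM Q (fun j => ∑ i ∈ s, f i j) := by
  classical
  induction s using Finset.induction_on with
  | empty => simpa using AM.zero Q
  | insert i s hi ih =>
    simp only [sum_insert hi]
    exact (hf i (mem_insert_self i s)).add (ih fun k hk => hf k (mem_insert_of_mem hk))

theorem AM_EE {Q l : ℕ} (hl : l ≤ Q) : AM Q (EE Q l) := by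
  refine ⟨fun k => if k = l then 1 else 0, fun k => by dsimp only; split_ifs <;> norm_num,
    fun j _ => ?_⟩
  simp only [ite_mul, one_mul, zero_mul]
  rw [sum_ite_eq', if_pos (mem_range.2 (by omega))]

theorem AM.congr {Q : ℕ} {f g : ℕ → ℝ} (hf : AM Q f) (h : ∀ j, j ≤ Q → g j = f j) : AM Q g := by
  obtain ⟨α, h0, h1⟩ := hf
  exact ⟨α, h0, fun j hj => by rw [h j hj, h1 j hj]⟩

/-! ### Newton expansion -/

theorem newton (i : ℕ) : ∀ (f : ℕ → ℝ) (J : ℕ), i ≤ J →
    f (J - i) = ∑ l ∈ range (i + 1), (Nat.choose i l : ℝ) * DD f l (J - l) := by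
  induction i with
  | zero => intro f J _; simp [DD]
  | succ i ih =>
    intro f J hJ
    have h1 := ih f J (by omega)
    have h2 := ih (fun i => f i - f (i + 1)) (J - 1) (by omega)
    rw [show J - 1 - i = J - (i + 1) by omega, show J - (i + 1) + 1 = J - i by omega] at h2
    have h3 : f (J - (i + 1)) = f (J - i) + (f (J - (i + 1)) - f (J - i)) := by ring
    rw [h3, h2, h1, sum_range_succ' (fun l => (Nat.choose (i + 1) l : ℝ) * DD f l (J - l)),
      sum_range_succ' (fun l => (Nat.choose i l : ℝ) * DD f l (J - l))]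
    have h4 : ∀ l ∈ range (i + 1), (Nat.choose (i + 1) (l + 1) : ℝ) * DD f (l + 1) (J - (l + 1)) =
        (Nat.choose i (l + 1) : ℝ) * DD f (l + 1) (J - (l + 1)) +
        (Nat.choose i l : ℝ) * DD (fun i => f i - f (i + 1)) l (J - 1 - l) := by
      intro l _
      rw [DD_succ', show J - 1 - l = J - (l + 1) by omega, Nat.choose_succ_succ]
      push_cast
      ring
    rw [sum_congr rfl h4, sum_add_distrib, sum_range_succ (fun l => (Nat.choose i (l + 1) : ℝ) *
      DD f (l + 1) (J - (l + 1))) i]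
    simp [Nat.choose_succ_self]
    ring

theorem AM_of_DD {Q : ℕ} {f : ℕ → ℝ} (h : ∀ l j, 0 ≤ DD f l j) : AM Q f := by
  refine ⟨fun l => if l ≤ Q then (Nat.choose Q l : ℝ) * DD f l (Q - l) else 0, fun l => ?_,
    fun j hj => ?_⟩
  · simp only
    split_ifs
    · exact mul_nonneg (by positivity) (h l _)
    · exact le_rfl
  · have h1 := newton (Q - j) f Q (by omega)
    rw [show Q - (Q - j) = j by omega] at h1
    rw [h1]
    have h2 : range (Q - j + 1) ⊆ range (Q + 1) := range_subset_range.2 (by omega)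
    rw [← sum_subset h2]
    · refine sum_congr rfl fun l hl => ?_
      have hl' : l ≤ Q := by have := mem_range.1 hl; omega
      have h0 : (Nat.choose Q l : ℝ) ≠ 0 := by exact_mod_cast (Nat.choose_pos hl').ne'
      dsimp only
      rw [if_pos hl', EE]
      field_simp
    · intro l _ hl'
      have : Q - j < l := by simpa using hl'
      rw [EE, Nat.choose_eq_zero_of_lt this]
      simp

/-- iterated differences of the profile -/
theorem DD_prof {a R : ℝ} (hR : 0 ≤ R) (l j : ℕ) :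
    DD (prof a R) l j = (∏ i ∈ range l, (a + i)) * prof a R j / ∏ i ∈ range l, (R + j + 1 + i) := by
  induction l generalizing j with
  | zero => simp [DD]
  | succ l ih =>
    rw [DD, ih, ih]
    have hp : ∀ k : ℕ, (∏ i ∈ range k, (R + (j : ℝ) + 1 + i)) ≠ 0 := fun k =>
      prod_ne_zero_iff.2 fun i _ => by positivity
    have e1 : (∏ i ∈ range (l + 1), (R + (j : ℝ) + 1 + i)) =
        (∏ i ∈ range l, (R + (j : ℝ) + 1 + i)) * (R + j + 1 + l) := prod_range_succ _ _
    have e2 : (∏ i ∈ range (l + 1), (R + (j : ℝ) + 1 + i)) =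
        (∏ i ∈ range l, (R + ((j + 1 : ℕ) : ℝ) + 1 + i)) * (R + j + 1) := by
      rw [prod_range_succ']
      congr 1
      · exact prod_congr rfl fun i _ => by push_cast; ring
      · simp
    have hx : (R + j + 1 : ℝ) ≠ 0 := by positivity
    have hy : (R + j + 1 + l : ℝ) ≠ 0 := by positivity
    have e3 : (∏ i ∈ range l, (R + (j : ℝ) + 1 + i)) =
        (∏ i ∈ range (l + 1), (R + (j : ℝ) + 1 + i)) / (R + j + 1 + l) := by
      rw [e1, mul_div_cancel_right₀ _ hy]
    have e4 : (∏ i ∈ range l, (R + ((j + 1 : ℕ) : ℝ) + 1 + i)) =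
        (∏ i ∈ range (l + 1), (R + (j : ℝ) + 1 + i)) / (R + j + 1) := by
      rw [e2, mul_div_cancel_right₀ _ hx]
    rw [e3, e4, prof_succ, prod_range_succ (fun i => a + (i : ℝ))]
    have := hp (l + 1)
    field_simp
    ring

theorem AM_prof {a R : ℝ} (hR : 0 ≤ R) (ha0 : 0 ≤ a) (ha : a < R + 1) (Q : ℕ) :
    AM Q (prof a R) := by
  apply AM_of_DD
  intro l j
  rw [DD_prof hR]
  have h1 : 0 ≤ ∏ i ∈ range l, (a + (i : ℝ)) := prod_nonneg fun i _ => by positivity
  have h2 : 0 ≤ ∏ i ∈ range l, (R + (j : ℝ) + 1 + i) := prod_nonneg fun i _ => by positivity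
  have h3 := prof_pos hR ha j
  positivity

end Crest.Agent.R340.Conv102
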