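import Mathlib.Tactic
import Crest.Agent.R340.Conv1_102

/-!
R340 (S0532), orphan O3 = sphere convolutions, part 2 (helper102): bounds for the convolution of
`prof a R` with the explicit weight `cw`, from the abstract properties `Ker` of the kernels
`K m j k = ∫ |g₀₀|^(2m) |(sp Q g) j k|² dg` (verified for the group in part 3).
-/

set_option autoImplicit false

open Finset

namespace Crest.Agent.R340.Conv102

open Crest.Agent.R340.Scal725

/-- the properties of the kernels that are used -/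
structure Ker (Q : ℕ) (K : ℕ → ℕ → ℕ → ℝ) : Prop where
  nonneg : ∀ m j k, j ≤ Q → k ≤ Q → 0 ≤ K m j k
  row : ∀ m j, j ≤ Q → ∑ k ∈ range (Q + 1), K m j k = 1 / ((m : ℝ) + 1)
  col : ∀ m k, k ≤ Q → ∑ j ∈ range (Q + 1), K m j k = 1 / ((m : ℝ) + 1)
  zero_le : ∀ m k, k ≤ Q → K m 0 k ≤ 1 / ((Q : ℝ) + 1)
  conv : ∀ m l, l ≤ Q → ∃ β : ℕ → ℝ, (∀ p, 0 ≤ β p) ∧ ∀ j, j ≤ Q →
    ∑ k ∈ range (Q + 1), K m j k * EE Q l k = ∑ p ∈ range (min m l + 1), β p * EE Q p j

/-- the convolution with `(1-t)^m` -/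
noncomputable def AA (K : ℕ → ℕ → ℕ → ℝ) (Q m : ℕ) (f : ℕ → ℝ) (j : ℕ) : ℝ :=
  ∑ k ∈ range (Q + 1), K m j k * f k

variable {Q : ℕ} {K : ℕ → ℕ → ℕ → ℝ}

theorem Ker.struct (hK : Ker Q K) {f : ℕ → ℝ} (hf : AM Q f) (m : ℕ) :
    ∃ β : ℕ → ℝ, (∀ p, 0 ≤ β p) ∧ ∀ j, j ≤ Q →
      AA K Q m f j = ∑ p ∈ range (min m Q + 1), β p * EE Q p j := by
  obtain ⟨α, h0, h1⟩ := hf
  choose β hβ0 hβ using fun (l : ℕ) (hl : l ≤ Q) => hK.conv m l hl
  refine ⟨fun p => ∑ l ∈ (range (Q + 1)).attach,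
    if p ≤ l.1 then α l.1 * β l.1 (Nat.lt_succ_iff.1 (mem_range.1 l.2)) p else 0, fun p => ?_,
    fun j hj => ?_⟩
  · refine sum_nonneg fun l _ => ?_
    split_ifs
    · exact mul_nonneg (h0 _) (hβ0 _ _ _)
    · exact le_rfl
  · have e1 : AA K Q m f j = ∑ l ∈ range (Q + 1), α l * ∑ k ∈ range (Q + 1), K m j k * EE Q l k := by
      unfold AA
      simp only [mul_sum]
      rw [sum_comm]
      refine sum_congr rfl fun k hk => ?_
      rw [h1 k (Nat.lt_succ_iff.1 (mem_range.1 hk)), mul_sum]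
      exact sum_congr rfl fun l _ => by ring
    rw [e1, ← sum_attach (range (Q + 1))
      (fun l => α l * ∑ k ∈ range (Q + 1), K m j k * EE Q l k)]
    simp only [sum_mul]
    rw [sum_comm (s := range (min m Q + 1))]
    refine sum_congr rfl fun l _ => ?_
    have hl := Nat.lt_succ_iff.1 (mem_range.1 l.2)
    rw [hβ l.1 hl j hj, mul_sum]
    have hsub : range (min m l.1 + 1) ⊆ range (min m Q + 1) := range_subset_range.2 (by omega)
    rw [← sum_subset hsub]
    · refine sum_congr rfl fun p hp => ?_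
      rw [if_pos (by have := mem_range.1 hp; omega)]
      ring
    · intro p hp hp'
      have h2 := mem_range.1 hp
      have h3 : ¬ p < min m l.1 + 1 := fun h => hp' (mem_range.2 h)
      rw [if_neg (by omega), zero_mul]

theorem Ker.AM_AA (hK : Ker Q K) {f : ℕ → ℝ} (hf : AM Q f) (m : ℕ) : AM Q (AA K Q m f) := by
  obtain ⟨β, h0, h1⟩ := hK.struct hf m
  refine (AM.sum (range (min m Q + 1)) (f := fun p j => β p * EE Q p j) fun p hp =>
    (AM_EE (Q := Q) (l := p) ?_).smul (h0 p)).congr h1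
  have := mem_range.1 hp
  omega

theorem DD_EE_zero_le {Q p : ℕ} (hp : p ≤ Q) (r : ℕ) (hr : r ≤ Q) :
    DD (EE Q p) r 0 ≤ ((p : ℝ) / Q) ^ r := by
  rcases Nat.eq_zero_or_pos Q with rfl | hQ
  · obtain rfl : r = 0 := by omega
    simp [EE_zero hp]
  induction r with
  | zero => simp [EE_zero hp]
  | succ r ih =>
    have hQ' : (0 : ℝ) < Q := by exact_mod_cast hQ
    rw [DD_EE Q p (r + 1) 0 (by omega)]
    split_ifs with h
    · have ih' := ih (by omega)
      rw [DD_EE Q p r 0 (by omega), if_pos (by omega)] at ih'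
      have e := Nat.add_one_mul_choose_eq (Q - 0 - (r + 1)) (p - (r + 1))
      rw [show Q - 0 - (r + 1) + 1 = Q - 0 - r by omega, show p - (r + 1) + 1 = p - r by omega] at e
      have e' : ((Q : ℝ) - r) * (Nat.choose (Q - 0 - (r + 1)) (p - (r + 1)) : ℝ) =
          Nat.choose (Q - 0 - r) (p - r) * ((p : ℝ) - r) := by
        rw [← Nat.cast_sub (show r ≤ Q by omega), ← Nat.cast_sub (show r ≤ p by omega)]
        exact_mod_cast e
      have hQr : (0 : ℝ) < (Q : ℝ) - r := by
        have : ((r + 1 : ℕ) : ℝ) ≤ Q := by exact_mod_cast hr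
        push_cast at this
        linarith
      have hpr : (0 : ℝ) ≤ (p : ℝ) - r := by
        have : ((r + 1 : ℕ) : ℝ) ≤ p := by exact_mod_cast h
        push_cast at this
        linarith
      have e2 : (Nat.choose (Q - 0 - (r + 1)) (p - (r + 1)) : ℝ) =
          Nat.choose (Q - 0 - r) (p - r) * (((p : ℝ) - r) / ((Q : ℝ) - r)) := by
        field_simp
        linarith
      have e3 : ((p : ℝ) - r) / ((Q : ℝ) - r) ≤ (p : ℝ) / Q := by
        rw [div_le_div_iff₀ hQr hQ']
        have : (p : ℝ) ≤ Q := by exact_mod_cast hp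
        have : (r : ℝ) * p ≤ r * Q := mul_le_mul_of_nonneg_left this (by positivity)
        nlinarith
      rw [e2, mul_div_right_comm, pow_succ]
      exact mul_le_mul ih' e3 (by positivity) (by positivity)
    · positivity

theorem Ker.DD_AA_zero_le (hK : Ker Q K) {f : ℕ → ℝ} (hf : AM Q f) (m r : ℕ) (hr : r ≤ Q) :
    DD (AA K Q m f) r 0 ≤ ((m : ℝ) / Q) ^ r * AA K Q m f 0 := by
  obtain ⟨β, h0, h1⟩ := hK.struct hf m
  rw [DD_congr h1 r 0 (by omega), DD_sum, h1 0 (Nat.zero_le _), mul_sum]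
  refine sum_le_sum fun p hp => ?_
  have hp' := mem_range.1 hp
  rw [EE_zero (by omega), mul_one, mul_comm]
  refine mul_le_mul_of_nonneg_right ((DD_EE_zero_le (by omega) r hr).trans ?_) (h0 p)
  have : (p : ℝ) ≤ m := by exact_mod_cast (by omega : p ≤ m)
  gcongr

/-- bathtub bound at `0`. -/
theorem Ker.AA_zero_le (hK : Ker Q K) {f : ℕ → ℝ} (h0 : ∀ j, 0 ≤ f j) (hf : Antitone f)
    (m M : ℕ) :
    ((Q : ℝ) + 1) * AA K Q m f 0 ≤ ∑ k ∈ range M, f k + f M * (((Q : ℝ) + 1) / (m + 1)) := by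
  have hQ : (0 : ℝ) < (Q : ℝ) + 1 := by positivity
  have h1 : ∀ k ∈ range (Q + 1), K m 0 k * f k ≤
      K m 0 k * f M + (if k < M then f k / (Q + 1) else 0) := by
    intro k hk
    have hk' := Nat.lt_succ_iff.1 (mem_range.1 hk)
    have hn := hK.nonneg m 0 k (Nat.zero_le _) hk'
    split_ifs with h
    · have h2 := hK.zero_le m k hk'
      have h3 := hf h.le
      have h4 : K m 0 k * (f k - f M) ≤ 1 / ((Q : ℝ) + 1) * (f k - f M) :=
        mul_le_mul_of_nonneg_right h2 (by linarith)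
      have h5 : 1 / ((Q : ℝ) + 1) * (f k - f M) ≤ f k / (Q + 1) := by
        rw [one_div_mul_eq_div]
        apply div_le_div_of_nonneg_right _ hQ.le
        have := h0 M
        linarith
      nlinarith
    · have := mul_le_mul_of_nonneg_left (hf (not_lt.1 h)) hn
      linarith
  have h2 := sum_le_sum h1
  rw [sum_add_distrib, ← sum_mul, hK.row m 0 (Nat.zero_le _), ← sum_filter, ← sum_div] at h2
  have h3 : ∑ k ∈ (range (Q + 1)).filter (· < M), f k ≤ ∑ k ∈ range M, f k := by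
    apply sum_le_sum_of_subset_of_nonneg
    · intro k hk
      exact mem_range.2 (mem_filter.1 hk).2
    · intro k _ _
      exact h0 k
  have h4 : AA K Q m f 0 ≤ 1 / ((m : ℝ) + 1) * f M + (∑ k ∈ range M, f k) / (Q + 1) :=
    h2.trans (by gcongr)
  calc ((Q : ℝ) + 1) * AA K Q m f 0
      ≤ ((Q : ℝ) + 1) * (1 / ((m : ℝ) + 1) * f M + (∑ k ∈ range M, f k) / (Q + 1)) :=
        mul_le_mul_of_nonneg_left h4 hQ.le
    _ = _ := by field_simp; ring

/-- Schur-Horn bound for partial sums. -/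
theorem Ker.sum_AA_le (hK : Ker Q K) {f : ℕ → ℝ} (hf : Antitone f)
    (m J : ℕ) (hJ : J ≤ Q) :
    ∑ i ∈ range (J + 1), AA K Q m f i ≤ 1 / ((m : ℝ) + 1) * ∑ i ∈ range (J + 1), f i := by
  unfold AA
  rw [sum_comm]
  have hm : (0 : ℝ) < 1 / ((m : ℝ) + 1) := by positivity
  have h1 : ∀ k ∈ range (Q + 1), ∑ i ∈ range (J + 1), K m i k * f k ≤
      (∑ i ∈ range (J + 1), K m i k) * f J +
        (if k < J + 1 then 1 / ((m : ℝ) + 1) * (f k - f J) else 0) := by
    intro k hk
    have hk' := Nat.lt_succ_iff.1 (mem_range.1 hk)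
    rw [← sum_mul]
    have hW0 : 0 ≤ ∑ i ∈ range (J + 1), K m i k :=
      sum_nonneg fun i hi => hK.nonneg m i k (by have := mem_range.1 hi; omega) hk'
    have hW1 : ∑ i ∈ range (J + 1), K m i k ≤ 1 / ((m : ℝ) + 1) := by
      rw [← hK.col m k hk']
      apply sum_le_sum_of_subset_of_nonneg (range_subset_range.2 (by omega))
      intro i hi _
      exact hK.nonneg m i k (Nat.lt_succ_iff.1 (mem_range.1 hi)) hk'
    split_ifs with h
    · have h3 := hf (Nat.lt_succ_iff.1 h)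
      have h4 := mul_le_mul_of_nonneg_right hW1 (sub_nonneg.2 h3)
      linarith [mul_sub (∑ i ∈ range (J + 1), K m i k) (f k) (f J)]
    · have h3 := hf (show J ≤ k by omega)
      have := mul_le_mul_of_nonneg_left h3 hW0
      linarith
  refine (sum_le_sum h1).trans ?_
  rw [sum_add_distrib, ← sum_mul, sum_comm, ← sum_filter]
  have h2 : (range (Q + 1)).filter (· < J + 1) = range (J + 1) := by
    ext k
    simp only [mem_filter, mem_range]
    omega
  rw [h2, ← mul_sum, sum_sub_distrib, sum_const, card_range, nsmul_eq_mul,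
    sum_congr rfl fun i (hi : i ∈ range (J + 1)) =>
      hK.row m i (by have := mem_range.1 hi; omega), sum_const, card_range, nsmul_eq_mul]
  push_cast
  apply le_of_eq
  ring

end Crest.Agent.R340.Conv102
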