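import Mathlib.Tactic
import Crest.Agent.R340.Conv2_102

/-!
R340 (S0532), orphan O3 = sphere convolutions, part 3 (helper102): the explicit weight `cw`, its
lower bound, and the bounds of the convolution `Phi` of `prof a R`.
-/

set_option autoImplicit false

open Finset

namespace Crest.Agent.R340.Conv102

open Crest.Agent.R340.Scal725

/-- the powers of `1-t` used in the weight -/
def mm (Q Q2 l : ℕ) : ℕ := Q / (Q2 * 2 ^ l)

/-- the weight, as a function of `t = |g₁₀|²`. -/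
noncomputable def cw (Q Q2 : ℕ) (q t : ℝ) : ℝ :=
  ∑ l ∈ range (Q + 3), q ^ l * (1 - t) ^ mm Q Q2 l

/-- the convolution of `f` with the weight `cw` (with respect to `(Q+1)` times the normalized
invariant measure). -/
noncomputable def Phi (K : ℕ → ℕ → ℕ → ℝ) (Q Q2 : ℕ) (q : ℝ) (f : ℕ → ℝ) (j : ℕ) : ℝ :=
  ∑ l ∈ range (Q + 3), (q ^ l * ((Q : ℝ) + 1)) * AA K Q (mm Q Q2 l) f j

theorem geom_le {x : ℝ} (h0 : 0 ≤ x) (h1 : x < 1) (n : ℕ) :
    ∑ l ∈ range n, x ^ l ≤ 1 / (1 - x) := by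
  have h := mul_neg_geom_sum x n
  rw [le_div_iff₀ (by linarith), mul_comm, h]
  have : 0 ≤ x ^ n := by positivity
  linarith

variable {Q Q2 : ℕ}

theorem mm_mul_le (l : ℕ) (h2 : 1 ≤ Q2) :
    ((Q : ℝ) + 1) / ((mm Q Q2 l : ℝ) + 1) ≤ Q2 * 2 ^ l := by
  have hd : 0 < Q2 * 2 ^ l := by positivity
  have h := Nat.lt_mul_div_succ Q hd
  rw [div_le_iff₀ (by positivity)]
  have h' : Q + 1 ≤ Q2 * 2 ^ l * (mm Q Q2 l + 1) := h
  exact_mod_cast h'

theorem mm_div_le (l : ℕ) (h1 : 1 ≤ Q) (h2 : 1 ≤ Q2) :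
    (mm Q Q2 l : ℝ) / Q ≤ 1 / (Q2 * 2 ^ l) := by
  have h := Nat.div_mul_le_self Q (Q2 * 2 ^ l)
  have h1' : (0 : ℝ) < Q := by exact_mod_cast h1
  have h2' : (0 : ℝ) < Q2 := by exact_mod_cast h2
  rw [div_le_div_iff₀ h1' (by positivity), one_mul]
  exact_mod_cast h

theorem one_le_twopow (l : ℕ) : (1 : ℝ) ≤ 2 ^ l := one_le_pow₀ (by norm_num)

/-! ### Lower bound of the weight -/

theorem cw_nonneg {q t : ℝ} (hq : 0 ≤ q) (ht1 : t ≤ 1) : 0 ≤ cw Q Q2 q t :=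
  sum_nonneg fun l _ => mul_nonneg (pow_nonneg hq l) (pow_nonneg (by linarith) _)

theorem cw_ge {A t : ℝ} (hA : 0 ≤ A) (h2 : 1 ≤ Q2) (ht0 : 0 ≤ t) (ht1 : t ≤ 1) :
    (1 / 2) * (4 : ℝ) ^ (-A) * (1 + Q * t / Q2) ^ (-A) ≤ cw Q Q2 ((2 : ℝ) ^ (-A)) t := by
  have h2' : (1 : ℝ) ≤ Q2 := by exact_mod_cast h2
  have h20 : (0 : ℝ) < Q2 := by linarith
  set y : ℝ := Q * t / Q2 with hy
  have hy0 : 0 ≤ y := by positivity
  have hyQ : y ≤ Q := by
    rw [hy, div_le_iff₀ h20]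
    have hQ0 : (0 : ℝ) ≤ Q := Nat.cast_nonneg Q
    nlinarith [mul_le_mul_of_nonneg_left ht1 hQ0, mul_le_mul_of_nonneg_left h2' hQ0]
  obtain ⟨l, hl1, hl2⟩ := exists_nat_pow_near (show (1 : ℝ) ≤ 1 + y by linarith)
    (show (1 : ℝ) < 2 by norm_num)
  have hlQ : l ≤ Q := by
    by_contra hlQ
    have h3 : (2 : ℝ) ^ (Q + 1) ≤ 2 ^ l := pow_le_pow_right₀ (by norm_num) (by omega)
    have h4 : ((Q + 1 : ℕ) : ℝ) < 2 ^ (Q + 1) := by exact_mod_cast Nat.lt_two_pow_self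
    push_cast at h4
    linarith
  have hterm : ∀ k ∈ range (Q + 3), 0 ≤ ((2 : ℝ) ^ (-A)) ^ k * (1 - t) ^ mm Q Q2 k :=
    fun k _ => mul_nonneg (by positivity) (pow_nonneg (by linarith) _)
  refine le_trans ?_ (single_le_sum hterm (mem_range.2 (show l + 2 < Q + 3 by omega)))
  have hb : 1 / 2 ≤ (1 - t) ^ mm Q Q2 (l + 2) := by
    have h3 := one_add_mul_le_pow (show (-2 : ℝ) ≤ -t by linarith) (mm Q Q2 (l + 2))
    rw [show (1 : ℝ) + -t = 1 - t by ring] at h3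
    refine le_trans ?_ h3
    have h4 : (mm Q Q2 (l + 2) : ℝ) * (Q2 * 2 ^ (l + 2)) ≤ Q := by
      exact_mod_cast Nat.div_mul_le_self Q (Q2 * 2 ^ (l + 2))
    have h5 : (mm Q Q2 (l + 2) : ℝ) * t * (Q2 * 2 ^ (l + 2)) ≤ y * Q2 := by
      have : y * Q2 = Q * t := by rw [hy]; field_simp
      rw [this]
      nlinarith [mul_le_mul_of_nonneg_right h4 ht0]
    have h6 : (mm Q Q2 (l + 2) : ℝ) * t * 2 ^ (l + 2) ≤ y := by
      have : (mm Q Q2 (l + 2) : ℝ) * t * 2 ^ (l + 2) * Q2 ≤ y * Q2 := by linarith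
      exact le_of_mul_le_mul_right this h20
    have h7 : (2 : ℝ) ^ (l + 2) = 2 * 2 ^ (l + 1) := by ring
    have h8 : y < 2 ^ (l + 1) := by linarith
    have h9 : (0 : ℝ) < 2 ^ (l + 1) := by positivity
    rw [h7] at h6
    have h10 : (mm Q Q2 (l + 2) : ℝ) * t ≤ 1 / 2 := by
      by_contra hc
      push Not at hc
      have := mul_lt_mul_of_pos_right hc (show (0 : ℝ) < 2 * 2 ^ (l + 1) by positivity)
      linarith
    linarith
  have hp : (4 : ℝ) ^ (-A) * (1 + y) ^ (-A) ≤ ((2 : ℝ) ^ (-A)) ^ (l + 2) := by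
    have e1 : ((2 : ℝ) ^ (-A)) ^ (l + 2) = (4 : ℝ) ^ (-A) * ((2 : ℝ) ^ l) ^ (-A) := by
      rw [← Real.rpow_natCast, ← Real.rpow_mul (by norm_num), mul_comm (-A),
        Real.rpow_mul (by norm_num), Real.rpow_natCast, pow_add, mul_comm ((2 : ℝ) ^ l),
        Real.mul_rpow (by norm_num) (by positivity)]
      norm_num
    rw [e1]
    apply mul_le_mul_of_nonneg_left _ (by positivity)
    apply Real.rpow_le_rpow_of_nonpos (by positivity) hl1 (by linarith)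
  calc (1 / 2) * (4 : ℝ) ^ (-A) * (1 + y) ^ (-A) = ((4 : ℝ) ^ (-A) * (1 + y) ^ (-A)) * (1 / 2) := by
        ring
    _ ≤ ((2 : ℝ) ^ (-A)) ^ (l + 2) * (1 - t) ^ mm Q Q2 (l + 2) :=
        mul_le_mul hp hb (by norm_num) (by positivity)

/-! ### Bounds of the convolution -/

variable {K : ℕ → ℕ → ℕ → ℝ}

theorem Ker.AM_Phi (hK : Ker Q K) {q : ℝ} (hq : 0 ≤ q) {f : ℕ → ℝ} (hf : AM Q f) :
    AM Q (Phi K Q Q2 q f) :=
  AM.sum _ fun l _ => (hK.AM_AA hf (mm Q Q2 l)).smul (by positivity)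

/-- total mass of the weight -/
theorem mass_le {q : ℝ} (h2 : 1 ≤ Q2) (hq : 0 ≤ q) (hq2 : 2 * q < 1) (n : ℕ) :
    ∑ l ∈ range n, q ^ l * (((Q : ℝ) + 1) / ((mm Q Q2 l : ℝ) + 1)) ≤ Q2 * (1 / (1 - 2 * q)) := by
  calc _ ≤ ∑ l ∈ range n, Q2 * (2 * q) ^ l := by
        apply sum_le_sum
        intro l _
        have h := mul_le_mul_of_nonneg_left (mm_mul_le (Q := Q) l h2) (pow_nonneg hq l)
        refine h.trans (le_of_eq ?_)
        rw [mul_pow]
        ring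
    _ ≤ _ := by
        rw [← mul_sum]
        exact mul_le_mul_of_nonneg_left (geom_le (by linarith) hq2 n) (by positivity)

theorem sum_prof_le {a R : ℝ} (hR : 0 ≤ R) (ha1 : a < 1) (n : ℕ) :
    ∑ j ∈ range n, prof a R j ≤ (R + n) * prof a R n / (1 - a) := by
  rw [le_div_iff₀ (by linarith), mul_comm, sum_prof hR]
  linarith

/-- `(Q+1) A_l(0) ≤ 3/(1-a) Q2 2^l F`. -/
theorem Ker.AA_mm_zero_le (hK : Ker Q K) {a R : ℝ} (ha0 : 0 ≤ a) (ha1 : a < 1) (hR : 0 ≤ R)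
    (hR2 : R ≤ Q2) (h2 : 1 ≤ Q2) (l : ℕ) :
    ((Q : ℝ) + 1) * AA K Q (mm Q Q2 l) (prof a R) 0 ≤
      3 / (1 - a) * (Q2 * prof a R Q2) * 2 ^ l := by
  have haR : a < R + 1 := by linarith
  have hpos := fun j => (prof_pos hR haR j).le
  have hanti := prof_antitone hR ha0 haR
  have h1 := hK.AA_zero_le hpos hanti (mm Q Q2 l) (Q2 * 2 ^ l)
  have h3 := sum_prof_le hR ha1 (Q2 * 2 ^ l)
  have h4 := mul_le_mul_of_nonneg_left (mm_mul_le (Q := Q) l h2) (hpos (Q2 * 2 ^ l))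
  have hle : Q2 ≤ Q2 * 2 ^ l := Nat.le_mul_of_pos_right _ (by positivity)
  have h5 := hanti hle
  have h6 : R ≤ ((Q2 * 2 ^ l : ℕ) : ℝ) := hR2.trans (by exact_mod_cast hle)
  have h1a : 0 < 1 - a := by linarith
  set M : ℝ := ((Q2 * 2 ^ l : ℕ) : ℝ) with hM
  have hM0 : 0 ≤ M := Nat.cast_nonneg _
  have hMe : M = Q2 * 2 ^ l := by rw [hM]; push_cast; ring
  rw [← hMe] at h4
  have h7 : (R + M) * prof a R (Q2 * 2 ^ l) / (1 - a) ≤ 2 / (1 - a) * (M * prof a R Q2) := by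
    rw [div_mul_eq_mul_div]
    apply div_le_div_of_nonneg_right _ h1a.le
    have := mul_le_mul (show R + M ≤ 2 * M by linarith) h5 (hpos _) (by positivity)
    linarith
  have h8 : prof a R (Q2 * 2 ^ l) * M ≤ 1 / (1 - a) * (M * prof a R Q2) := by
    have h9 := mul_le_mul_of_nonneg_right h5 hM0
    have h10 : 1 ≤ 1 / (1 - a) := by rw [le_div_iff₀ h1a]; linarith
    have h11 : 0 ≤ M * prof a R Q2 := mul_nonneg hM0 (hpos _)
    nlinarith
  calc _ ≤ 2 / (1 - a) * (M * prof a R Q2) + 1 / (1 - a) * (M * prof a R Q2) := by linarith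
    _ = _ := by rw [hMe]; ring

theorem Ker.DD_Phi_zero_le (hK : Ker Q K) {q a R : ℝ} (hq : 0 ≤ q) (hq2 : 2 * q < 1)
    (ha0 : 0 ≤ a) (ha1 : a < 1) (hR : 0 ≤ R) (hR2 : R ≤ Q2) (hQ : 1 ≤ Q) (h2 : 1 ≤ Q2) (r : ℕ)
    (hr : r ≤ Q) :
    DD (Phi K Q Q2 q (prof a R)) r 0 ≤
      3 / ((1 - a) * (1 - 2 * q)) * (Q2 * prof a R Q2) / Q2 ^ r := by
  have haR : a < R + 1 := by linarith
  have h20 : (0 : ℝ) < Q2 := by exact_mod_cast h2
  have h1a : 0 < 1 - a := by linarith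
  have h1q : 0 < 1 - 2 * q := by linarith
  have hF := prof_pos hR haR Q2
  have hAM := AM_prof hR ha0 haR Q
  have e1 : DD (Phi K Q Q2 q (prof a R)) r 0 =
      ∑ l ∈ range (Q + 3), (q ^ l * ((Q : ℝ) + 1)) * DD (AA K Q (mm Q Q2 l) (prof a R)) r 0 :=
    DD_sum _ _ _ r 0
  rw [e1]
  have hb : ∀ l ∈ range (Q + 3),
      (q ^ l * ((Q : ℝ) + 1)) * DD (AA K Q (mm Q Q2 l) (prof a R)) r 0 ≤
        3 / (1 - a) * (Q2 * prof a R Q2) / Q2 ^ r * (2 * q) ^ l := by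
    intro l _
    have h3 := hK.DD_AA_zero_le hAM (mm Q Q2 l) r hr
    have h4 := hK.AA_mm_zero_le ha0 ha1 hR hR2 h2 l
    have h5 : ((mm Q Q2 l : ℝ) / Q) ^ r ≤ 1 / (Q2 : ℝ) ^ r := by
      have h6 := mm_div_le (Q := Q) l hQ h2
      have h7 : 1 / ((Q2 : ℝ) * 2 ^ l) ≤ 1 / Q2 := by
        apply one_div_le_one_div_of_le h20
        have := one_le_twopow l
        nlinarith
      rw [← one_div_pow]
      exact pow_le_pow_left₀ (by positivity) (h6.trans h7) r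
    have h8 : 0 ≤ AA K Q (mm Q Q2 l) (prof a R) 0 :=
      (hK.AM_AA hAM _).nonneg (Nat.zero_le _)
    calc (q ^ l * ((Q : ℝ) + 1)) * DD (AA K Q (mm Q Q2 l) (prof a R)) r 0
        ≤ (q ^ l * ((Q : ℝ) + 1)) * (1 / (Q2 : ℝ) ^ r * AA K Q (mm Q Q2 l) (prof a R) 0) := by
          apply mul_le_mul_of_nonneg_left _ (by positivity)
          exact h3.trans (mul_le_mul_of_nonneg_right h5 h8)
      _ = q ^ l * (1 / (Q2 : ℝ) ^ r) * (((Q : ℝ) + 1) * AA K Q (mm Q Q2 l) (prof a R) 0) := by ring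
      _ ≤ q ^ l * (1 / (Q2 : ℝ) ^ r) * (3 / (1 - a) * (Q2 * prof a R Q2) * 2 ^ l) :=
          mul_le_mul_of_nonneg_left h4 (by positivity)
      _ = _ := by rw [mul_pow]; ring
  refine (sum_le_sum hb).trans ?_
  rw [← mul_sum]
  calc _ ≤ 3 / (1 - a) * (Q2 * prof a R Q2) / Q2 ^ r * (1 / (1 - 2 * q)) :=
        mul_le_mul_of_nonneg_left (geom_le (by linarith) hq2 _) (by positivity)
    _ = _ := by
        field_simp

/-- Schur-Horn bound of the convolution. -/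
theorem Ker.Phi_le_avg (hK : Ker Q K) {q : ℝ} (hq : 0 ≤ q) (hq2 : 2 * q < 1) {f : ℕ → ℝ}
    (h0 : ∀ j, 0 ≤ f j) (hf : Antitone f) (hAM : AM Q f) (h2 : 1 ≤ Q2) (j : ℕ) (hj : j ≤ Q) :
    ((j : ℝ) + 1) * Phi K Q Q2 q f j ≤ Q2 / (1 - 2 * q) * ∑ i ∈ range (j + 1), f i := by
  have hP := hK.AM_Phi (Q2 := Q2) hq hAM
  have h1 : ((j : ℝ) + 1) * Phi K Q Q2 q f j ≤ ∑ i ∈ range (j + 1), Phi K Q Q2 q f i := by
    have : ∑ i ∈ range (j + 1), Phi K Q Q2 q f j ≤ ∑ i ∈ range (j + 1), Phi K Q Q2 q f i :=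
      sum_le_sum fun i hi => hP.antitone (Nat.lt_succ_iff.1 (mem_range.1 hi)) hj
    rw [sum_const, card_range, nsmul_eq_mul] at this
    push_cast at this
    exact this
  refine h1.trans ?_
  unfold Phi
  rw [sum_comm]
  have hS : 0 ≤ ∑ i ∈ range (j + 1), f i := sum_nonneg fun i _ => h0 i
  calc ∑ l ∈ range (Q + 3), ∑ i ∈ range (j + 1), (q ^ l * ((Q : ℝ) + 1)) * AA K Q (mm Q Q2 l) f i
      ≤ ∑ l ∈ range (Q + 3), q ^ l * (((Q : ℝ) + 1) / ((mm Q Q2 l : ℝ) + 1)) *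
          ∑ i ∈ range (j + 1), f i := by
        apply sum_le_sum
        intro l _
        rw [← mul_sum]
        have h3 := mul_le_mul_of_nonneg_left (hK.sum_AA_le hf (mm Q Q2 l) j hj)
          (show 0 ≤ q ^ l * ((Q : ℝ) + 1) by positivity)
        refine h3.trans (le_of_eq ?_)
        ring
    _ = (∑ l ∈ range (Q + 3), q ^ l * (((Q : ℝ) + 1) / ((mm Q Q2 l : ℝ) + 1))) *
          ∑ i ∈ range (j + 1), f i := by rw [sum_mul]
    _ ≤ Q2 * (1 / (1 - 2 * q)) * ∑ i ∈ range (j + 1), f i :=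
        mul_le_mul_of_nonneg_right (mass_le h2 hq hq2 _) hS
    _ = _ := by ring

/-! ### Profile comparison -/

theorem half_le_rpow {x a : ℝ} (hx : 1 / 2 ≤ x) (hx1 : x ≤ 1) (_ha0 : 0 ≤ a) (ha1 : a ≤ 1) :
    1 / 2 ≤ x ^ a := by
  have h : x ^ (1 : ℝ) ≤ x ^ a :=
    Real.rpow_le_rpow_of_exponent_ge (by linarith) hx1 ha1
  rw [Real.rpow_one] at h
  linarith

theorem half_le_prof {a : ℝ} (ha0 : 0 ≤ a) (ha1 : a ≤ 1) {R : ℝ} (hR : 0 < R) {j : ℕ}
    (hj : (j : ℝ) ≤ R) : 1 / 2 ≤ prof a R j := by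
  refine le_trans (half_le_rpow ?_ ?_ ha0 ha1) (rpow_le_prof hR ha0 ha1 j)
  · rw [div_le_div_iff₀ (by norm_num) (by positivity)]
    linarith
  · rw [div_le_one (by positivity)]
    have : (0 : ℝ) ≤ j := Nat.cast_nonneg j
    linarith

/-- `f_j ≤ 6 f_{Q2} prof a Q2 j` for `Q2 ≤ j`, `R ≤ Q2`. -/
theorem prof_le_six {a R : ℝ} (ha0 : 0 ≤ a) (ha1 : a < 1) (hR : 0 ≤ R) (hR2 : R ≤ Q2)
    (h2 : 1 ≤ Q2) {j : ℕ} (hj : Q2 ≤ j) :
    prof a R j ≤ 6 * (prof a R Q2 * prof a Q2 j) := by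
  have haR : a < R + 1 := by linarith
  have h20 : (0 : ℝ) < Q2 := by exact_mod_cast h2
  have h21 : (1 : ℝ) ≤ Q2 := by exact_mod_cast h2
  obtain ⟨k, rfl⟩ := Nat.exists_eq_add_of_le hj
  rw [prof_add a R Q2 k]
  have hF := prof_pos hR haR Q2
  have hRQ : 0 ≤ R + Q2 := by positivity
  have h1 := prof_le_rpow (a := a) hRQ ha0 (by linarith) k
  have h3 := rpow_le_prof (a := a) h20 ha0 ha1.le (Q2 + k)
  have hk : (0 : ℝ) ≤ k := Nat.cast_nonneg k
  have h4 : ((R + Q2 + 1) / (R + Q2 + 1 + k)) ^ a ≤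
      6 * ((Q2 : ℝ) / (Q2 + ((Q2 + k : ℕ) : ℝ))) ^ a := by
    have h5 : (R + Q2 + 1) / (R + Q2 + 1 + k) ≤ 6 * ((Q2 : ℝ) / (Q2 + ((Q2 + k : ℕ) : ℝ))) := by
      push_cast
      rw [← mul_div_assoc, div_le_div_iff₀ (by positivity) (by positivity)]
      nlinarith [mul_nonneg hk h20.le, mul_nonneg hk hR, mul_nonneg h20.le hR,
        mul_le_mul_of_nonneg_left hR2 hk, mul_le_mul_of_nonneg_left h21 hk,
        mul_le_mul_of_nonneg_left h21 h20.le]
    have h6 := Real.rpow_le_rpow (by positivity) h5 ha0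
    refine h6.trans ?_
    rw [Real.mul_rpow (by norm_num) (by positivity)]
    apply mul_le_mul_of_nonneg_right _ (by positivity)
    calc (6 : ℝ) ^ a ≤ 6 ^ (1 : ℝ) :=
          Real.rpow_le_rpow_of_exponent_le (by norm_num) ha1.le
      _ = 6 := Real.rpow_one _
  have h7 := mul_le_mul_of_nonneg_left (h1.trans (h4.trans
    (mul_le_mul_of_nonneg_left h3 (by norm_num : (0 : ℝ) ≤ 6)))) hF.le
  linarith

/-- zeroth order bound, constant `12 /((1-a)(1-2q))`. -/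
theorem Ker.Phi_le (hK : Ker Q K) {q a R : ℝ} (hq : 0 ≤ q) (hq2 : 2 * q < 1)
    (ha0 : 0 ≤ a) (ha1 : a < 1) (hR : 0 ≤ R) (hR2 : R ≤ Q2) (hQ : 1 ≤ Q) (h2 : 1 ≤ Q2) (j : ℕ)
    (hj : j ≤ Q) :
    Phi K Q Q2 q (prof a R) j ≤
      12 / ((1 - a) * (1 - 2 * q)) * (Q2 * prof a R Q2) * prof a Q2 j := by
  have haR : a < R + 1 := by linarith
  have h20 : (0 : ℝ) < Q2 := by exact_mod_cast h2
  have h1a : 0 < 1 - a := by linarith
  have h1q : 0 < 1 - 2 * q := by linarith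
  have hF := prof_pos hR haR Q2
  have hAM := AM_prof hR ha0 haR Q
  rcases lt_or_ge j Q2 with hlt | hge
  · have h3 := (hK.AM_Phi (Q2 := Q2) hq hAM).antitone (Nat.zero_le j) hj
    have h4 := hK.DD_Phi_zero_le hq hq2 ha0 ha1 hR hR2 hQ h2 0 (Nat.zero_le _)
    rw [DD_zero, pow_zero, div_one] at h4
    have h5 : 1 / 2 ≤ prof a Q2 j :=
      half_le_prof ha0 ha1.le h20 (by exact_mod_cast hlt.le)
    have h6 : 0 ≤ 3 / ((1 - a) * (1 - 2 * q)) * (Q2 * prof a R Q2) := by positivity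
    have h7 := mul_le_mul_of_nonneg_left h5 h6
    have h8 : 12 / ((1 - a) * (1 - 2 * q)) * (Q2 * prof a R Q2) * prof a Q2 j =
        4 * (3 / ((1 - a) * (1 - 2 * q)) * (Q2 * prof a R Q2) * prof a Q2 j) := by ring
    rw [h8]
    linarith
  · have h3 := hK.Phi_le_avg hq hq2 (fun j => (prof_pos hR haR j).le) (prof_antitone hR ha0 haR)
      hAM h2 j hj
    have h4 := sum_prof_le hR ha1 (j + 1)
    have h5 := prof_antitone hR ha0 haR (Nat.le_succ j)
    have h6 := prof_le_six ha0 ha1 hR hR2 h2 hge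
    have hj' : (Q2 : ℝ) ≤ j := by exact_mod_cast hge
    have hpj := prof_pos hR haR j
    have h7 : ∑ i ∈ range (j + 1), prof a R i ≤ ((j : ℝ) + 1) * (2 * prof a R j / (1 - a)) := by
      refine h4.trans ?_
      rw [← mul_div_assoc]
      apply div_le_div_of_nonneg_right _ h1a.le
      push_cast
      have := mul_le_mul (show R + ((j : ℝ) + 1) ≤ 2 * ((j : ℝ) + 1) by linarith) h5
        (prof_pos hR haR _).le (by positivity)
      refine this.trans (le_of_eq ?_)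
      ring
    have h8 : 0 ≤ (Q2 : ℝ) / (1 - 2 * q) := by positivity
    have h9 := mul_le_mul_of_nonneg_left h7 h8
    have h10 : ((j : ℝ) + 1) * Phi K Q Q2 q (prof a R) j ≤
        ((j : ℝ) + 1) * ((Q2 : ℝ) / (1 - 2 * q) * (2 * prof a R j / (1 - a))) := by
      refine (h3.trans h9).trans (le_of_eq ?_)
      ring
    have h11 := le_of_mul_le_mul_left h10 (by positivity)
    refine h11.trans ?_
    calc (Q2 : ℝ) / (1 - 2 * q) * (2 * prof a R j / (1 - a))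
        = 2 * Q2 / ((1 - a) * (1 - 2 * q)) * prof a R j := by field_simp
      _ ≤ 2 * Q2 / ((1 - a) * (1 - 2 * q)) * (6 * (prof a R Q2 * prof a Q2 j)) :=
          mul_le_mul_of_nonneg_left h6 (by positivity)
      _ = _ := by ring

/-- comparison of the differences of `prof a Q2` at `j/2` and `j`. -/
theorem DD_prof_half {a : ℝ} (ha0 : 0 ≤ a) (ha1 : a < 1) (h2 : 1 ≤ Q2) (r j : ℕ) :
    DD (prof a Q2) r (j / 2) ≤ 2 ^ (r + 1) * DD (prof a Q2) r j := by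
  have h20 : (0 : ℝ) < Q2 := by exact_mod_cast h2
  have h21 : (1 : ℝ) ≤ Q2 := by exact_mod_cast h2
  have haQ : a < (Q2 : ℝ) + 1 := by linarith
  rw [DD_prof h20.le, DD_prof h20.le]
  have hj2 : j ≤ 2 * (j / 2) + 1 := by omega
  have hj2' : (j : ℝ) ≤ 2 * ((j / 2 : ℕ) : ℝ) + 1 := by exact_mod_cast hj2
  have hjj : j / 2 ≤ j := Nat.div_le_self j 2
  have hprod : (∏ i ∈ range r, ((Q2 : ℝ) + j + 1 + i)) ≤
      2 ^ r * ∏ i ∈ range r, ((Q2 : ℝ) + ((j / 2 : ℕ) : ℝ) + 1 + i) := by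
    have e : (2 : ℝ) ^ r * ∏ i ∈ range r, ((Q2 : ℝ) + ((j / 2 : ℕ) : ℝ) + 1 + i) =
        ∏ i ∈ range r, (2 * ((Q2 : ℝ) + ((j / 2 : ℕ) : ℝ) + 1 + i)) := by
      rw [prod_mul_distrib, prod_const, card_range]
    rw [e]
    apply prod_le_prod
    · intro i _; positivity
    · intro i _
      have : (0 : ℝ) ≤ i := Nat.cast_nonneg i
      linarith
  have hP : prof a Q2 (j / 2) ≤ 2 * prof a Q2 j := by
    have e : prof a Q2 j = prof a Q2 (j / 2) * prof a (Q2 + ((j / 2 : ℕ) : ℝ)) (j - j / 2) := by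
      rw [← prof_add]
      congr 1
      omega
    rw [e]
    have h3 : 1 / 2 ≤ prof a ((Q2 : ℝ) + ((j / 2 : ℕ) : ℝ)) (j - j / 2) := by
      apply half_le_prof ha0 ha1.le (by positivity)
      have : j - j / 2 ≤ Q2 + j / 2 := by omega
      exact_mod_cast this
    have h4 := mul_le_mul_of_nonneg_left h3 (prof_pos h20.le haQ (j / 2)).le
    linarith
  have hp1 : (0 : ℝ) < ∏ i ∈ range r, ((Q2 : ℝ) + j + 1 + i) :=
    prod_pos fun i _ => by positivity
  have hp2 : (0 : ℝ) < ∏ i ∈ range r, ((Q2 : ℝ) + ((j / 2 : ℕ) : ℝ) + 1 + i) :=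
    prod_pos fun i _ => by positivity
  have hp3 : (0 : ℝ) ≤ ∏ i ∈ range r, (a + (i : ℝ)) := prod_nonneg fun i _ => by positivity
  have hPj := prof_pos h20.le haQ j
  have hPj2 := prof_pos h20.le haQ (j / 2)
  rw [← mul_div_assoc, div_le_div_iff₀ hp2 hp1]
  calc (∏ i ∈ range r, (a + (i : ℝ))) * prof a Q2 (j / 2) * ∏ i ∈ range r, ((Q2 : ℝ) + j + 1 + i)
      ≤ (∏ i ∈ range r, (a + (i : ℝ))) * (2 * prof a Q2 j) *
          (2 ^ r * ∏ i ∈ range r, ((Q2 : ℝ) + ((j / 2 : ℕ) : ℝ) + 1 + i)) := by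
        apply mul_le_mul (mul_le_mul_of_nonneg_left hP hp3) hprod hp1.le
        positivity
    _ = _ := by ring

/-- lower bound of the differences of `prof a Q2` for `j < Q2`. -/
theorem DD_prof_ge {a : ℝ} (ha0 : 0 < a) (ha1 : a < 1) (h2 : 1 ≤ Q2) (r : ℕ) {j : ℕ}
    (hj : j < Q2) :
    a ^ r / (2 * (r + 1).factorial) / (Q2 : ℝ) ^ r ≤ DD (prof a Q2) r j := by
  have h20 : (0 : ℝ) < Q2 := by exact_mod_cast h2
  have h21 : (1 : ℝ) ≤ Q2 := by exact_mod_cast h2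
  have hj' : (j : ℝ) + 1 ≤ Q2 := by exact_mod_cast hj
  rw [DD_prof h20.le]
  have h5 : 1 / 2 ≤ prof a Q2 j := half_le_prof ha0.le ha1.le h20 (by linarith)
  have hnum : a ^ r ≤ ∏ i ∈ range r, (a + (i : ℝ)) := by
    calc a ^ r = ∏ _i ∈ range r, a := by rw [prod_const, card_range]
      _ ≤ _ := prod_le_prod (fun _ _ => ha0.le) fun i _ => by
          have : (0 : ℝ) ≤ i := Nat.cast_nonneg i
          linarith
  have hden : ∏ i ∈ range r, ((Q2 : ℝ) + j + 1 + i) ≤ (r + 1).factorial * (Q2 : ℝ) ^ r := by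
    have e : ((r + 1).factorial : ℝ) * (Q2 : ℝ) ^ r = ∏ i ∈ range r, ((i : ℝ) + 2) * Q2 := by
      rw [prod_mul_distrib, prod_const, card_range]
      congr 1
      clear hnum
      induction r with
      | zero => simp
      | succ r ih =>
        rw [prod_range_succ, ← ih, Nat.factorial_succ (r + 1)]
        push_cast
        ring
    rw [e]
    apply prod_le_prod
    · intro i _; positivity
    · intro i hi
      have hi0 : (0 : ℝ) ≤ i := Nat.cast_nonneg i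
      nlinarith [mul_le_mul_of_nonneg_left h21 hi0]
  have hp1 : (0 : ℝ) < ∏ i ∈ range r, ((Q2 : ℝ) + j + 1 + i) :=
    prod_pos fun i _ => by positivity
  have hfac : (0 : ℝ) < (r + 1).factorial := by exact_mod_cast (r + 1).factorial_pos
  rw [div_div, div_le_div_iff₀ (by positivity) hp1]
  calc a ^ r * ∏ i ∈ range r, ((Q2 : ℝ) + j + 1 + i)
      ≤ (∏ i ∈ range r, (a + (i : ℝ))) * ((r + 1).factorial * (Q2 : ℝ) ^ r) :=
        mul_le_mul hnum hden hp1.le (prod_nonneg fun i _ => by positivity)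
    _ = (∏ i ∈ range r, (a + (i : ℝ))) * (1 / 2) * (2 * (r + 1).factorial * (Q2 : ℝ) ^ r) := by
        ring
    _ ≤ (∏ i ∈ range r, (a + (i : ℝ))) * prof a Q2 j * (2 * (r + 1).factorial * (Q2 : ℝ) ^ r) := by
        apply mul_le_mul_of_nonneg_right _ (by positivity)
        exact mul_le_mul_of_nonneg_left h5 (prod_nonneg fun i _ => by positivity)

theorem DD_prof_succ_eq {a R : ℝ} (hR : 0 ≤ R) (r j : ℕ) :
    DD (prof a R) (r + 1) j = DD (prof a R) r j * ((a + r) / (R + j + 1 + r)) := by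
  have hy : (R + j + 1 + r : ℝ) ≠ 0 := by positivity
  have hp : (∏ i ∈ range r, (R + (j : ℝ) + 1 + i)) ≠ 0 :=
    prod_ne_zero_iff.2 fun i _ => by positivity
  rw [DD_prof hR, DD_prof hR, prod_range_succ, prod_range_succ]
  field_simp

/-- the constants -/
noncomputable def CC (a q : ℝ) : ℕ → ℝ
  | 0 => 12 / ((1 - a) * (1 - 2 * q))
  | (r + 1) => 2 ^ (r + 2) * (r + 3) / a * CC a q r +
      3 / ((1 - a) * (1 - 2 * q)) * (2 * (r + 2).factorial / a ^ (r + 1))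

theorem CC_pos {a q : ℝ} (ha0 : 0 < a) (ha1 : a < 1) (hq2 : 2 * q < 1) (r : ℕ) :
    0 < CC a q r := by
  have h1a : 0 < 1 - a := by linarith
  have h1q : 0 < 1 - 2 * q := by linarith
  induction r with
  | zero => simp only [CC]; positivity
  | succ r ih => simp only [CC]; positivity

/-- **the bound of all differences of the convolution.** -/
theorem Ker.DD_Phi_le (hK : Ker Q K) {q a R : ℝ} (hq : 0 ≤ q) (hq2 : 2 * q < 1)
    (ha0 : 0 < a) (ha1 : a < 1) (hR : 0 ≤ R) (hR2 : R ≤ Q2) (hQ : 1 ≤ Q) (h2 : 1 ≤ Q2)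
    (r : ℕ) : ∀ j, j + r ≤ Q →
    DD (Phi K Q Q2 q (prof a R)) r j ≤
      CC a q r * (Q2 * prof a R Q2) * DD (prof a Q2) r j := by
  have haR : a < R + 1 := by linarith
  have h20 : (0 : ℝ) < Q2 := by exact_mod_cast h2
  have h21 : (1 : ℝ) ≤ Q2 := by exact_mod_cast h2
  have h1a : 0 < 1 - a := by linarith
  have h1q : 0 < 1 - 2 * q := by linarith
  have hF := prof_pos hR haR Q2
  have hAM := AM_prof hR ha0.le haR Q
  have hPh := hK.AM_Phi (Q2 := Q2) hq hAM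
  have haQ : a < (Q2 : ℝ) + 1 := by linarith
  have hDP : ∀ r j, 0 ≤ DD (prof a Q2) r j := by
    intro r j
    rw [DD_prof h20.le]
    have h1 : 0 ≤ ∏ i ∈ range r, (a + (i : ℝ)) := prod_nonneg fun i _ => by positivity
    have h2 : 0 ≤ ∏ i ∈ range r, ((Q2 : ℝ) + (j : ℝ) + 1 + i) :=
      prod_nonneg fun i _ => by positivity
    have h3 := prof_pos h20.le haQ j
    positivity
  induction r with
  | zero =>
    intro j hj
    exact hK.Phi_le hq hq2 ha0.le ha1 hR hR2 hQ h2 j hj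
  | succ r ih =>
    intro j hj
    have hC := CC_pos ha0 ha1 hq2 r
    have hKK : 0 ≤ (Q2 : ℝ) * prof a R Q2 := by positivity
    have hfac : (0 : ℝ) < (r + 2).factorial := by exact_mod_cast (r + 2).factorial_pos
    simp only [CC]
    rcases lt_or_ge j Q2 with hlt | hge
    · have h3 := hPh.DD_antitone (r := r + 1) (Nat.zero_le j) hj
      have h4 := hK.DD_Phi_zero_le hq hq2 ha0.le ha1 hR hR2 hQ h2 (r + 1) (by omega)
      have h5 := DD_prof_ge ha0 ha1 h2 (r + 1) hlt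
      rw [show r + 1 + 1 = r + 2 from rfl] at h5
      have h6 : 1 / (Q2 : ℝ) ^ (r + 1) ≤
          2 * (r + 2).factorial / a ^ (r + 1) * DD (prof a Q2) (r + 1) j := by
        have h7 := mul_le_mul_of_nonneg_left h5
          (show 0 ≤ 2 * ((r + 2).factorial : ℝ) / a ^ (r + 1) by positivity)
        refine le_trans (le_of_eq ?_) h7
        field_simp
      have h8 : 3 / ((1 - a) * (1 - 2 * q)) * (Q2 * prof a R Q2) / Q2 ^ (r + 1) ≤
          3 / ((1 - a) * (1 - 2 * q)) * (2 * (r + 2).factorial / a ^ (r + 1)) *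
            (Q2 * prof a R Q2) * DD (prof a Q2) (r + 1) j := by
        have h9 := mul_le_mul_of_nonneg_left h6
          (show 0 ≤ 3 / ((1 - a) * (1 - 2 * q)) * (Q2 * prof a R Q2) by positivity)
        refine le_trans (le_of_eq ?_) (h9.trans (le_of_eq ?_)) <;> ring
      have h10 : 0 ≤ 2 ^ (r + 2) * ((r : ℝ) + 3) / a * CC a q r * (Q2 * prof a R Q2) *
          DD (prof a Q2) (r + 1) j := mul_nonneg (by positivity) (hDP _ _)
      have h11 := h3.trans (h4.trans h8)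
      linarith
    · have hj1 : 1 ≤ j := le_trans h2 hge
      have hj1' : (1 : ℝ) ≤ j := by exact_mod_cast hj1
      have hge' : (Q2 : ℝ) ≤ j := by exact_mod_cast hge
      have h3 := hPh.mul_DD_le' (r := r) hj (j - j / 2) (Nat.sub_le _ _)
      rw [show j - (j - j / 2) = j / 2 by omega] at h3
      have h4 := ih (j / 2) (by omega)
      have h5 := DD_prof_half ha0.le ha1 h2 r j
      have hD0 := hDP r j
      have hk : (j : ℝ) / 2 ≤ ((j - j / 2 : ℕ) : ℝ) := by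
        rw [div_le_iff₀ (by norm_num)]
        have : j ≤ (j - j / 2) * 2 := by omega
        exact_mod_cast this
      have hPn : 0 ≤ DD (Phi K Q Q2 q (prof a R)) (r + 1) j := hPh.DD_nonneg hj
      have h6 : (j : ℝ) / 2 * DD (Phi K Q Q2 q (prof a R)) (r + 1) j ≤
          CC a q r * (Q2 * prof a R Q2) * (2 ^ (r + 1) * DD (prof a Q2) r j) :=
        (mul_le_mul_of_nonneg_right hk hPn).trans (h3.trans (h4.trans
          (mul_le_mul_of_nonneg_left h5 (by positivity))))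
      have h7 : DD (prof a Q2) r j ≤ (r + 3) / a * j * DD (prof a Q2) (r + 1) j := by
        rw [DD_prof_succ_eq h20.le]
        have h8 : 1 ≤ ((r : ℝ) + 3) / a * j * ((a + r) / (Q2 + j + 1 + r)) := by
          have hr0 : (0 : ℝ) ≤ r := Nat.cast_nonneg r
          have h9 : (Q2 : ℝ) + j + 1 + r ≤ (r + 3) * j := by nlinarith
          have h10 : 1 ≤ (r + 3) * j / ((Q2 : ℝ) + j + 1 + r) := by
            rw [le_div_iff₀ (by positivity)]; linarith
          have h11 : 1 ≤ (a + r) / a := by rw [le_div_iff₀ ha0]; linarith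
          have h12 := mul_le_mul h10 h11 (by norm_num) (by positivity)
          refine le_trans (le_of_eq (by norm_num)) (h12.trans (le_of_eq ?_))
          ring
        nlinarith
      have h8 : (j : ℝ) / 2 * DD (Phi K Q Q2 q (prof a R)) (r + 1) j ≤
          (j : ℝ) / 2 * (2 ^ (r + 2) * ((r : ℝ) + 3) / a * CC a q r * (Q2 * prof a R Q2) *
            DD (prof a Q2) (r + 1) j) := by
        refine h6.trans ?_
        have h9 := mul_le_mul_of_nonneg_left h7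
          (show 0 ≤ CC a q r * (Q2 * prof a R Q2) * 2 ^ (r + 1) by positivity)
        refine le_trans (le_of_eq ?_) (h9.trans (le_of_eq ?_)) <;> ring
      have h9 := le_of_mul_le_mul_left h8 (by positivity)
      have h10 : 0 ≤ 3 / ((1 - a) * (1 - 2 * q)) * (2 * (r + 2).factorial / a ^ (r + 1)) *
          (Q2 * prof a R Q2) * DD (prof a Q2) (r + 1) j := mul_nonneg (by positivity) (hDP _ _)
      linarith

end Crest.Agent.R340.Conv102
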