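import Mathlib.Tactic
import Crest.Agent.R340.Conv3_102
import Crest.Agent.R340.Avg2_814

/-!
R340 (S0532), orphan O3 = sphere convolutions, part 4 (helper102): the kernels
`∫ (1 - t(g))^m |(sp Q g) j k|² dg` over the group satisfy `Ker`.
-/

set_option autoImplicit false

open Finset Matrix MeasureTheory

namespace Crest.Agent.R340.Conv102

open Crest.Agent.R340.CS809 Crest.Agent.R340.Rot303 Crest.Agent.R124.Haar
  Crest.Agent.R340.Avg814

noncomputable section

/-! ### Binomial identities -/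

theorem choose_mul_choose (n k l : ℕ) :
    n.choose k * (n - k).choose l = n.choose l * (n - l).choose k := by
  rcases le_or_gt (k + l) n with h | h
  · have h1 := Nat.choose_mul (n := n) (k := n - k) (s := l) (by omega)
    rw [Nat.choose_symm (show k ≤ n by omega)] at h1
    rw [h1, show n - k - l = (n - l) - k by omega, Nat.choose_symm (show k ≤ n - l by omega)]
  · rcases le_or_gt k n with hk | hk
    · rw [Nat.choose_eq_zero_of_lt (show n - k < l by omega), mul_zero]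
      rcases le_or_gt l n with hl | hl
      · rw [Nat.choose_eq_zero_of_lt (show n - l < k by omega), mul_zero]
      · rw [Nat.choose_eq_zero_of_lt hl, zero_mul]
    · rw [Nat.choose_eq_zero_of_lt hk, zero_mul, Nat.choose_eq_zero_of_lt (show n - l < k by omega),
        mul_zero]

/-- the symbol of the diagonal matrix `EE Q l`. -/
theorem symbol_EE {Q l : ℕ} (hl : l ≤ Q) (z y : Fin 2 → ℂ) :
    ∑ k : Fin (Q + 1), kap Q z k * ((EE Q l k : ℝ) : ℂ) * kap Q y k =
      (z 0 * y 0) ^ l * (z 0 * y 0 + z 1 * y 1) ^ (Q - l) := by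
  have hne : (Nat.choose Q l : ℂ) ≠ 0 := by exact_mod_cast (Nat.choose_pos hl).ne'
  have h1 : ∀ k : Fin (Q + 1), kap Q z k * ((EE Q l k : ℝ) : ℂ) * kap Q y k =
      ((Q - l).choose k : ℂ) * (z 0 * y 0) ^ (Q - (k : ℕ)) * (z 1 * y 1) ^ (k : ℕ) := by
    intro k
    have hs : ((sb Q k : ℝ) : ℂ) * ((sb Q k : ℝ) : ℂ) = (Nat.choose Q k : ℂ) := by
      rw [← Complex.ofReal_mul, sb_mul_self, Complex.ofReal_natCast]
    have hc : (Nat.choose Q k : ℂ) * (Nat.choose (Q - k) l : ℂ) =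
        Nat.choose Q l * Nat.choose (Q - l) k := by
      exact_mod_cast choose_mul_choose Q k l
    have hE : ((EE Q l k : ℝ) : ℂ) = (Nat.choose (Q - k) l : ℂ) / (Nat.choose Q l : ℂ) := by
      simp [EE]
    rw [hE]
    simp only [kap, mul_pow]
    have h2 : ((Q - l).choose k : ℂ) = (Nat.choose Q k : ℂ) * (Nat.choose (Q - k) l : ℂ) /
        (Nat.choose Q l : ℂ) := by
      rw [hc, mul_div_cancel_left₀ _ hne]
    rw [h2, ← hs]
    ring
  rw [Finset.sum_congr rfl fun k _ => h1 k, ← Finset.sum_range (fun k => ((Q - l).choose k : ℂ) *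
    (z 0 * y 0) ^ (Q - k) * (z 1 * y 1) ^ k), add_comm (z 0 * y 0), add_pow, mul_sum]
  rw [← Finset.sum_subset (range_subset_range.2 (show Q - l + 1 ≤ Q + 1 by omega))]
  · refine sum_congr rfl fun k hk => ?_
    have hk' := mem_range.1 hk
    rw [show Q - k = l + (Q - l - k) by omega, pow_add]
    ring
  · intro k _ hk
    have hk' : Q - l < k := by simpa using hk
    rw [Nat.choose_eq_zero_of_lt hk']
    simp

/-- the expansion of the averaged symbol. -/
theorem sum_choose_mul (m l : ℕ) (a b : ℂ) :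
    ∑ i ∈ range (l + 1), ((l.choose i : ℂ) * ((m + (l - i)).choose m : ℂ)) * a ^ (l - i) * b ^ i =
      ∑ p ∈ range (min m l + 1), ((m.choose p : ℂ) * (l.choose p : ℂ)) *
        (a ^ p * (a + b) ^ (l - p)) := by
  have hV : ∀ i, ((m + (l - i)).choose m : ℂ) =
      ∑ p ∈ range (l + 1), (m.choose p : ℂ) * ((l - i).choose p : ℂ) := by
    intro i
    have h := Nat.add_choose_eq m (l - i) m
    rw [Finset.Nat.sum_antidiagonal_eq_sum_range_succ_mk] at h
    have h1 : ((m + (l - i)).choose m : ℂ) =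
        ∑ k ∈ range (m + 1), (m.choose k : ℂ) * ((l - i).choose (m - k) : ℂ) := by
      rw [h]; push_cast; rfl
    rw [h1, ← Finset.sum_range_reflect]
    have h2 : ∀ j ∈ range (m + 1), (m.choose (m + 1 - 1 - j) : ℂ) *
        ((l - i).choose (m - (m + 1 - 1 - j)) : ℂ) = (m.choose j : ℂ) * ((l - i).choose j : ℂ) := by
      intro j hj
      have hj' := mem_range.1 hj
      rw [show m + 1 - 1 - j = m - j by omega, show m - (m - j) = j by omega,
        Nat.choose_symm (by omega)]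
    rw [sum_congr rfl h2]
    rcases le_total m l with hml | hml
    · apply sum_subset (range_subset_range.2 (by omega))
      intro p _ hp
      have hp' : m < p := by simpa using hp
      rw [Nat.choose_eq_zero_of_lt hp']
      simp
    · symm
      apply sum_subset (range_subset_range.2 (by omega))
      intro p _ hp
      have hp' : l < p := by simpa using hp
      rw [Nat.choose_eq_zero_of_lt (show l - i < p by omega)]
      simp
  have hmin : ∑ p ∈ range (min m l + 1), ((m.choose p : ℂ) * (l.choose p : ℂ)) *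
        (a ^ p * (a + b) ^ (l - p)) = ∑ p ∈ range (l + 1), ((m.choose p : ℂ) * (l.choose p : ℂ)) *
        (a ^ p * (a + b) ^ (l - p)) := by
    apply sum_subset (range_subset_range.2 (by omega))
    intro p hp hp2
    have hp' := mem_range.1 hp
    have hp3 : ¬ p < min m l + 1 := fun h => hp2 (mem_range.2 h)
    rw [Nat.choose_eq_zero_of_lt (show m < p by omega)]
    simp
  rw [hmin]
  simp only [hV, mul_sum, sum_mul]
  rw [sum_comm]
  refine sum_congr rfl fun p hp => ?_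
  have hp' := mem_range.1 hp
  rw [add_comm a b, add_pow, mul_sum, mul_sum]
  symm
  rw [← Finset.sum_subset (range_subset_range.2 (show l - p + 1 ≤ l + 1 by omega))]
  · refine sum_congr rfl fun i hi => ?_
    have hi' := mem_range.1 hi
    have hc : (l.choose i : ℂ) * ((l - i).choose p : ℂ) = (l.choose p : ℂ) * ((l - p).choose i) := by
      exact_mod_cast choose_mul_choose l i p
    have e : a ^ (l - i) = a ^ p * a ^ (l - p - i) := by
      rw [← pow_add]; congr 1; omega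
    rw [e]
    calc _ = (m.choose p : ℂ) * ((l.choose p : ℂ) * ((l - p).choose i)) *
          (a ^ p * a ^ (l - p - i)) * b ^ i := by ring
      _ = (m.choose p : ℂ) * ((l.choose i : ℂ) * ((l - i).choose p : ℂ)) *
          (a ^ p * a ^ (l - p - i)) * b ^ i := by rw [hc]
      _ = _ := by ring
  · intro i hi hi2
    have hi3 : l - p < i := by simpa using hi2
    have hi' := mem_range.1 hi
    rw [Nat.choose_eq_zero_of_lt (show l - i < p by omega)]
    simp

/-! ### First column integrals -/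

/-- coefficients of the first column expansion -/
def Pc (m l : ℕ) (z : Fin 2 → ℂ) (i : ℕ) : ℂ :=
  (l.choose i : ℂ) * z 0 ^ (l - i) * z 1 ^ i / ((sb (m + l) i : ℝ) : ℂ)

theorem pow_mul_lin (m l : ℕ) (z : Fin 2 → ℂ) (g : Matrix (Fin 2) (Fin 2) ℂ) :
    g 0 0 ^ m * (z 0 * g 0 0 + z 1 * g 1 0) ^ l =
      ∑ i : Fin (m + l + 1), Pc m l z i * sp (m + l) g i 0 := by
  have h1 : ∀ i : Fin (m + l + 1), Pc m l z i * sp (m + l) g i 0 =
      (l.choose i : ℂ) * z 0 ^ (l - (i : ℕ)) * z 1 ^ (i : ℕ) *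
        (g 0 0 ^ (m + l - (i : ℕ)) * g 1 0 ^ (i : ℕ)) := by
    intro i
    have := sb_ne i
    rw [sp_apply_zero]
    simp only [Pc, kap]
    field_simp
  rw [Finset.sum_congr rfl fun i _ => h1 i, ← Finset.sum_range (fun i => (l.choose i : ℂ) *
    z 0 ^ (l - i) * z 1 ^ i * (g 0 0 ^ (m + l - i) * g 1 0 ^ i)), add_comm (z 0 * g 0 0), add_pow,
    mul_sum]
  rw [← Finset.sum_subset (range_subset_range.2 (show l + 1 ≤ m + l + 1 by omega))]
  · refine sum_congr rfl fun i hi => ?_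
    have hi' := mem_range.1 hi
    rw [show m + l - i = m + (l - i) by omega, pow_add, mul_pow, mul_pow]
    ring
  · intro i _ hi
    have hi' : l < i := by simpa using hi
    rw [Nat.choose_eq_zero_of_lt hi']
    simp

theorem star_pow_mul_lin (m l : ℕ) (y : Fin 2 → ℂ) (g : Matrix (Fin 2) (Fin 2) ℂ) :
    star (g 0 0) ^ m * (y 0 * star (g 0 0) + y 1 * star (g 1 0)) ^ l =
      ∑ i : Fin (m + l + 1), Pc m l y i * star (sp (m + l) g i 0) := by
  have h := congrArg star (pow_mul_lin m l (star y) g)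
  rw [star_sum] at h
  simp only [star_mul', star_pow, star_add, Pi.star_apply, star_star] at h
  rw [h]
  refine Finset.sum_congr rfl fun i _ => ?_
  congr 1
  simp [Pc, Complex.conj_ofReal]

lemma one_sub_tt (g : G2) : ((1 - tt g : ℝ) : ℂ) =
    (g : Matrix (Fin 2) (Fin 2) ℂ) 0 0 * star ((g : Matrix (Fin 2) (Fin 2) ℂ) 0 0) := by
  rw [norm_sq_mul_star, norm_00]

theorem avg_symbol (m l : ℕ) (z y : Fin 2 → ℂ) :
    ∫ g : G2, ((1 - tt g : ℝ) : ℂ) ^ m *
      (((z 0 * (g : Matrix (Fin 2) (Fin 2) ℂ) 0 0 + z 1 * (g : Matrix (Fin 2) (Fin 2) ℂ) 1 0) *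
        (y 0 * star ((g : Matrix (Fin 2) (Fin 2) ℂ) 0 0) +
          y 1 * star ((g : Matrix (Fin 2) (Fin 2) ℂ) 1 0))) ^ l) ∂hm =
      ∑ i : Fin (m + l + 1), Pc m l z i * Pc m l y i * (((m + l : ℕ) : ℂ) + 1)⁻¹ := by
  have h1 : ∀ g : G2, ((1 - tt g : ℝ) : ℂ) ^ m *
      (((z 0 * (g : Matrix (Fin 2) (Fin 2) ℂ) 0 0 + z 1 * (g : Matrix (Fin 2) (Fin 2) ℂ) 1 0) *
        (y 0 * star ((g : Matrix (Fin 2) (Fin 2) ℂ) 0 0) +
          y 1 * star ((g : Matrix (Fin 2) (Fin 2) ℂ) 1 0))) ^ l) =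
      ∑ i : Fin (m + l + 1), ∑ k : Fin (m + l + 1), (Pc m l z i * Pc m l y k) *
        (sp (m + l) (g : Matrix (Fin 2) (Fin 2) ℂ) i 0 *
          star (sp (m + l) (g : Matrix (Fin 2) (Fin 2) ℂ) k 0)) := by
    intro g
    rw [one_sub_tt, mul_pow, mul_pow]
    calc _ = ((g : Matrix (Fin 2) (Fin 2) ℂ) 0 0 ^ m * (z 0 * (g : Matrix (Fin 2) (Fin 2) ℂ) 0 0 +
          z 1 * (g : Matrix (Fin 2) (Fin 2) ℂ) 1 0) ^ l) *
          (star ((g : Matrix (Fin 2) (Fin 2) ℂ) 0 0) ^ m *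
            (y 0 * star ((g : Matrix (Fin 2) (Fin 2) ℂ) 0 0) +
              y 1 * star ((g : Matrix (Fin 2) (Fin 2) ℂ) 1 0)) ^ l) := by ring
      _ = _ := by
        rw [pow_mul_lin, star_pow_mul_lin, Finset.sum_mul_sum]
        exact Finset.sum_congr rfl fun i _ => Finset.sum_congr rfl fun k _ => by ring
  rw [integral_congr_ae (Filter.Eventually.of_forall h1)]
  rw [integral_finsetSum _ fun i _ => integrable_finsetSum _ fun k _ =>
    (integrable_cf (m + l) i 0 k 0).const_mul _]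
  refine Finset.sum_congr rfl fun i _ => ?_
  rw [integral_finsetSum _ fun k _ => (integrable_cf (m + l) i 0 k 0).const_mul _]
  rw [Finset.sum_eq_single i]
  · rw [integral_const_mul, schur, if_pos ⟨rfl, rfl⟩]
  · intro k _ hk
    rw [integral_const_mul, schur, if_neg (fun h => hk h.1.symm), mul_zero]
  · simp

/-- the coefficients of the convolution -/
def bet (m l p : ℕ) : ℝ :=
  (m.factorial * l.factorial : ℝ) / (m + l + 1).factorial * (m.choose p * l.choose p)

theorem bet_nonneg (m l p : ℕ) : 0 ≤ bet m l p := by unfold bet; positivity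

theorem fact_identity (m i r : ℕ) :
    (i + r).choose i * (m + (i + r)).factorial =
      m.factorial * (i + r).factorial * (m + r).choose m * (m + (i + r)).choose i := by
  have h1 := Nat.add_choose_mul_factorial_mul_factorial i r
  have h2 := Nat.add_choose_mul_factorial_mul_factorial m r
  have h3 := Nat.add_choose_mul_factorial_mul_factorial i (m + r)
  rw [← Nat.choose_symm_add] at h1 h2 h3
  rw [show i + (m + r) = m + (i + r) by ring] at h3
  have hp : 0 < i.factorial * r.factorial := by positivity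
  apply Nat.eq_of_mul_eq_mul_right hp
  calc (i + r).choose i * (m + (i + r)).factorial * (i.factorial * r.factorial)
      = ((i + r).choose i * i.factorial * r.factorial) * (m + (i + r)).factorial := by ring
    _ = (i + r).factorial * (m + (i + r)).factorial := by rw [h1]
    _ = (i + r).factorial * ((m + (i + r)).choose i * i.factorial * (m + r).factorial) := by rw [h3]
    _ = (i + r).factorial * ((m + (i + r)).choose i * i.factorial *
          ((m + r).choose m * m.factorial * r.factorial)) := by rw [h2]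
    _ = _ := by ring

theorem sum_Pc (m l : ℕ) (z y : Fin 2 → ℂ) :
    ∑ i : Fin (m + l + 1), Pc m l z i * Pc m l y i * (((m + l : ℕ) : ℂ) + 1)⁻¹ =
      ∑ p ∈ range (min m l + 1), ((bet m l p : ℝ) : ℂ) *
        ((z 0 * y 0) ^ p * (z 0 * y 0 + z 1 * y 1) ^ (l - p)) := by
  set cc : ℂ := (m.factorial * l.factorial : ℂ) / (m + l + 1).factorial with hcc
  have hR : ∑ p ∈ range (min m l + 1), ((bet m l p : ℝ) : ℂ) *
        ((z 0 * y 0) ^ p * (z 0 * y 0 + z 1 * y 1) ^ (l - p)) =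
      cc * ∑ p ∈ range (min m l + 1), ((m.choose p : ℂ) * (l.choose p : ℂ)) *
        ((z 0 * y 0) ^ p * (z 0 * y 0 + z 1 * y 1) ^ (l - p)) := by
    rw [mul_sum]
    refine sum_congr rfl fun p _ => ?_
    rw [hcc]
    unfold bet
    push_cast
    ring
  rw [hR, ← sum_choose_mul, mul_sum]
  rw [← Finset.sum_range (fun i => Pc m l z i * Pc m l y i * (((m + l : ℕ) : ℂ) + 1)⁻¹)]
  rw [← Finset.sum_subset (range_subset_range.2 (show l + 1 ≤ m + l + 1 by omega))]
  · refine sum_congr rfl fun i hi => ?_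
    have hi' := mem_range.1 hi
    obtain ⟨r, rfl⟩ := Nat.exists_eq_add_of_le (show i ≤ l by omega)
    rw [Nat.add_sub_cancel_left]
    have hs : ((sb (m + (i + r)) i : ℝ) : ℂ) * ((sb (m + (i + r)) i : ℝ) : ℂ) =
        (Nat.choose (m + (i + r)) i : ℂ) := by
      rw [← Complex.ofReal_mul, sb_mul_self, Complex.ofReal_natCast]
    have hC : (Nat.choose (m + (i + r)) i : ℂ) ≠ 0 := by
      exact_mod_cast (Nat.choose_pos (by omega)).ne'
    have hm1 : (((m + (i + r) : ℕ) : ℂ) + 1) ≠ 0 := Nat.cast_add_one_ne_zero _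
    have hF : ((m + (i + r)).factorial : ℂ) ≠ 0 := by
      exact_mod_cast (Nat.factorial_pos _).ne'
    have hid : ((i + r).choose i : ℂ) * ((m + (i + r)).factorial : ℂ) =
        m.factorial * (i + r).factorial * (m + r).choose m * (m + (i + r)).choose i := by
      exact_mod_cast fact_identity m i r
    have hf1 : ((m + (i + r) + 1).factorial : ℂ) =
        (((m + (i + r) : ℕ) : ℂ) + 1) * ((m + (i + r)).factorial : ℂ) := by
      rw [Nat.factorial_succ]; push_cast; ring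
    have e1 : Pc m (i + r) z i * Pc m (i + r) y i =
        ((i + r).choose i : ℂ) ^ 2 * (z 0 * y 0) ^ r * (z 1 * y 1) ^ i /
          (Nat.choose (m + (i + r)) i : ℂ) := by
      rw [← hs]
      simp only [Pc, Nat.add_sub_cancel_left]
      rw [div_mul_div_comm]
      congr 1
      ring
    rw [e1, hcc, hf1]
    have e2 : ((i + r).choose i : ℂ) / (Nat.choose (m + (i + r)) i : ℂ) =
        m.factorial * (i + r).factorial * (m + r).choose m / ((m + (i + r)).factorial : ℂ) := by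
      rw [div_eq_div_iff hC hF, hid]
    calc _ = ((i + r).choose i : ℂ) / (Nat.choose (m + (i + r)) i : ℂ) *
          (((i + r).choose i : ℂ) * (z 0 * y 0) ^ r * (z 1 * y 1) ^ i *
            (((m + (i + r) : ℕ) : ℂ) + 1)⁻¹) := by ring
      _ = _ := by
          rw [e2]
          field_simp
  · intro i _ hi
    have hi' : l < i := by simpa using hi
    unfold Pc
    rw [Nat.choose_eq_zero_of_lt hi']
    simp

/-! ### The convolution of the diagonal matrices `EE Q l` -/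

theorem conj_symbol {Q l : ℕ} (hl : l ≤ Q) (g : G2) (z y : Fin 2 → ℂ) :
    kap Q z ⬝ᵥ ((sp Q (g : Matrix (Fin 2) (Fin 2) ℂ) *
      Matrix.diagonal (fun k : Fin (Q + 1) => ((EE Q l k : ℝ) : ℂ)) *
      (sp Q (g : Matrix (Fin 2) (Fin 2) ℂ))ᴴ) *ᵥ kap Q y) =
      (((z 0 * (g : Matrix (Fin 2) (Fin 2) ℂ) 0 0 + z 1 * (g : Matrix (Fin 2) (Fin 2) ℂ) 1 0) *
        (y 0 * star ((g : Matrix (Fin 2) (Fin 2) ℂ) 0 0) +
          y 1 * star ((g : Matrix (Fin 2) (Fin 2) ℂ) 1 0))) ^ l) *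
      (z 0 * y 0 + z 1 * y 1) ^ (Q - l) := by
  rw [← Matrix.mulVec_mulVec, ← Matrix.mulVec_mulVec, sp_conjTranspose, sp_mulVec_kap,
    Matrix.dotProduct_mulVec, ← Matrix.mulVec_transpose, sp_transpose, sp_mulVec_kap]
  have h1 : kap Q ((g : Matrix (Fin 2) (Fin 2) ℂ)ᵀ *ᵥ z) ⬝ᵥ
      (Matrix.diagonal (fun k : Fin (Q + 1) => ((EE Q l k : ℝ) : ℂ)) *ᵥ
        kap Q ((g : Matrix (Fin 2) (Fin 2) ℂ)ᴴ *ᵥ y)) =
      ∑ k : Fin (Q + 1), kap Q ((g : Matrix (Fin 2) (Fin 2) ℂ)ᵀ *ᵥ z) k *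
        ((EE Q l k : ℝ) : ℂ) * kap Q ((g : Matrix (Fin 2) (Fin 2) ℂ)ᴴ *ᵥ y) k := by
    rw [dotProduct]
    refine Finset.sum_congr rfl fun k _ => ?_
    rw [Matrix.mulVec_diagonal, mul_assoc]
  rw [h1, symbol_EE hl]
  have h2 : ((g : Matrix (Fin 2) (Fin 2) ℂ)ᵀ *ᵥ z) 0 * ((g : Matrix (Fin 2) (Fin 2) ℂ)ᴴ *ᵥ y) 0 +
      ((g : Matrix (Fin 2) (Fin 2) ℂ)ᵀ *ᵥ z) 1 * ((g : Matrix (Fin 2) (Fin 2) ℂ)ᴴ *ᵥ y) 1 =
      z 0 * y 0 + z 1 * y 1 := by
    have h3 : ((g : Matrix (Fin 2) (Fin 2) ℂ)ᵀ *ᵥ z) ⬝ᵥ ((g : Matrix (Fin 2) (Fin 2) ℂ)ᴴ *ᵥ y) =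
        z ⬝ᵥ y := by
      rw [Matrix.mulVec_transpose, ← Matrix.dotProduct_mulVec, Matrix.mulVec_mulVec, G2_mul_ct,
        Matrix.one_mulVec]
    simpa [dotProduct, Fin.sum_univ_two] using h3
  rw [h2]
  have h4 : ((g : Matrix (Fin 2) (Fin 2) ℂ)ᵀ *ᵥ z) 0 =
      z 0 * (g : Matrix (Fin 2) (Fin 2) ℂ) 0 0 + z 1 * (g : Matrix (Fin 2) (Fin 2) ℂ) 1 0 := by
    simp [Matrix.mulVec, dotProduct, Fin.sum_univ_two, Matrix.transpose_apply]
    ring
  have h5 : ((g : Matrix (Fin 2) (Fin 2) ℂ)ᴴ *ᵥ y) 0 =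
      y 0 * star ((g : Matrix (Fin 2) (Fin 2) ℂ) 0 0) +
        y 1 * star ((g : Matrix (Fin 2) (Fin 2) ℂ) 1 0) := by
    simp [Matrix.mulVec, dotProduct, Fin.sum_univ_two, Matrix.conjTranspose_apply]
    ring
  rw [h4, h5]

lemma continuous_conj (Q : ℕ) (D : Matrix (Fin (Q + 1)) (Fin (Q + 1)) ℂ) (j k : Fin (Q + 1)) :
    Continuous fun g : G2 => (sp Q (g : Matrix (Fin 2) (Fin 2) ℂ) * D *
      (sp Q (g : Matrix (Fin 2) (Fin 2) ℂ))ᴴ) j k :=
  (continuous_apply_apply j k).comp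
    (((continuous_sp_coe Q).matrix_mul continuous_const).matrix_mul
      (continuous_sp_coe Q).matrix_conjTranspose)

lemma integrable_weight_conj (Q : ℕ) {F : ℝ → ℝ} (hF : Continuous F)
    (D : Matrix (Fin (Q + 1)) (Fin (Q + 1)) ℂ) (j k : Fin (Q + 1)) :
    Integrable (fun g : G2 => ((F (tt g) : ℝ) : ℂ) * (sp Q (g : Matrix (Fin 2) (Fin 2) ℂ) * D *
      (sp Q (g : Matrix (Fin 2) (Fin 2) ℂ))ᴴ) j k) hm :=
  integrable_of_cont ((Complex.continuous_ofReal.comp (hF.comp continuous_tt)).mul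
    (continuous_conj Q D j k))

/-- **the convolution of `EE Q l`**, as a matrix identity -/
theorem conv_EE {Q l : ℕ} (hl : l ≤ Q) (m : ℕ) :
    (Matrix.of fun j k : Fin (Q + 1) => ∫ g : G2, (((1 - tt g) ^ m : ℝ) : ℂ) *
      (sp Q (g : Matrix (Fin 2) (Fin 2) ℂ) *
      Matrix.diagonal (fun k : Fin (Q + 1) => ((EE Q l k : ℝ) : ℂ)) *
      (sp Q (g : Matrix (Fin 2) (Fin 2) ℂ))ᴴ) j k ∂hm) =
    Matrix.diagonal fun j : Fin (Q + 1) =>
      ((∑ p ∈ range (min m l + 1), bet m l p * EE Q p j : ℝ) : ℂ) := by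
  set D : Matrix (Fin (Q + 1)) (Fin (Q + 1)) ℂ :=
    Matrix.diagonal (fun k : Fin (Q + 1) => ((EE Q l k : ℝ) : ℂ)) with hD
  have hF : Continuous fun t : ℝ => (1 - t) ^ m := by fun_prop
  have hint := fun j k => integrable_weight_conj Q hF D j k
  rw [← sub_eq_zero]
  refine mat_sep fun z y => ?_
  rw [Matrix.sub_mulVec, dotProduct_sub, sub_eq_zero]
  have hL : kap Q z ⬝ᵥ ((Matrix.of fun j k : Fin (Q + 1) => ∫ g : G2, (((1 - tt g) ^ m : ℝ) : ℂ) *
      (sp Q (g : Matrix (Fin 2) (Fin 2) ℂ) * D *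
      (sp Q (g : Matrix (Fin 2) (Fin 2) ℂ))ᴴ) j k ∂hm) *ᵥ kap Q y) =
      ∫ g : G2, (((1 - tt g) ^ m : ℝ) : ℂ) *
        (kap Q z ⬝ᵥ ((sp Q (g : Matrix (Fin 2) (Fin 2) ℂ) * D *
          (sp Q (g : Matrix (Fin 2) (Fin 2) ℂ))ᴴ) *ᵥ kap Q y)) ∂hm := by
    have e1 : ∀ g : G2, (((1 - tt g) ^ m : ℝ) : ℂ) *
        (kap Q z ⬝ᵥ ((sp Q (g : Matrix (Fin 2) (Fin 2) ℂ) * D *
          (sp Q (g : Matrix (Fin 2) (Fin 2) ℂ))ᴴ) *ᵥ kap Q y)) =
        ∑ j, ∑ k, (kap Q z j * kap Q y k) * ((((1 - tt g) ^ m : ℝ) : ℂ) *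
          (sp Q (g : Matrix (Fin 2) (Fin 2) ℂ) * D *
          (sp Q (g : Matrix (Fin 2) (Fin 2) ℂ))ᴴ) j k) := by
      intro g
      simp only [dotProduct, Matrix.mulVec, mul_sum]
      exact Finset.sum_congr rfl fun j _ => Finset.sum_congr rfl fun k _ => by ring
    rw [integral_congr_ae (Filter.Eventually.of_forall e1),
      integral_finsetSum _ fun j _ => integrable_finsetSum _ fun k _ => (hint j k).const_mul _]
    simp only [dotProduct, Matrix.mulVec, mul_sum, Matrix.of_apply]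
    refine Finset.sum_congr rfl fun j _ => ?_
    rw [integral_finsetSum _ fun k _ => (hint j k).const_mul _]
    refine Finset.sum_congr rfl fun k _ => ?_
    rw [integral_const_mul]
    ring
  have hR : kap Q z ⬝ᵥ ((Matrix.diagonal fun j : Fin (Q + 1) =>
      ((∑ p ∈ range (min m l + 1), bet m l p * EE Q p j : ℝ) : ℂ)) *ᵥ kap Q y) =
      ∑ p ∈ range (min m l + 1), ((bet m l p : ℝ) : ℂ) *
        ((z 0 * y 0) ^ p * (z 0 * y 0 + z 1 * y 1) ^ (Q - p)) := by
    have e1 : kap Q z ⬝ᵥ ((Matrix.diagonal fun j : Fin (Q + 1) =>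
      ((∑ p ∈ range (min m l + 1), bet m l p * EE Q p j : ℝ) : ℂ)) *ᵥ kap Q y) =
        ∑ p ∈ range (min m l + 1), ((bet m l p : ℝ) : ℂ) *
          ∑ k : Fin (Q + 1), kap Q z k * ((EE Q p k : ℝ) : ℂ) * kap Q y k := by
      simp only [dotProduct, Matrix.mulVec_diagonal, mul_sum]
      rw [sum_comm]
      refine Finset.sum_congr rfl fun k _ => ?_
      push_cast
      rw [sum_mul, mul_sum]
      exact Finset.sum_congr rfl fun p _ => by ring
    rw [e1]
    refine sum_congr rfl fun p hp => ?_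
    have hp' := mem_range.1 hp
    rw [symbol_EE (show p ≤ Q by omega)]
  rw [hL, hR]
  have e2 : ∀ g : G2, (((1 - tt g) ^ m : ℝ) : ℂ) *
        (kap Q z ⬝ᵥ ((sp Q (g : Matrix (Fin 2) (Fin 2) ℂ) * D *
          (sp Q (g : Matrix (Fin 2) (Fin 2) ℂ))ᴴ) *ᵥ kap Q y)) =
      (((1 - tt g : ℝ) : ℂ) ^ m *
      (((z 0 * (g : Matrix (Fin 2) (Fin 2) ℂ) 0 0 + z 1 * (g : Matrix (Fin 2) (Fin 2) ℂ) 1 0) *
        (y 0 * star ((g : Matrix (Fin 2) (Fin 2) ℂ) 0 0) +
          y 1 * star ((g : Matrix (Fin 2) (Fin 2) ℂ) 1 0))) ^ l)) *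
      (z 0 * y 0 + z 1 * y 1) ^ (Q - l) := by
    intro g
    rw [hD, conj_symbol hl, Complex.ofReal_pow]
    ring
  rw [integral_congr_ae (Filter.Eventually.of_forall e2), integral_mul_const, avg_symbol, sum_Pc,
    sum_mul]
  refine sum_congr rfl fun p hp => ?_
  have hp' := mem_range.1 hp
  rw [show Q - p = (l - p) + (Q - l) by omega, pow_add]
  ring

end

end Crest.Agent.R340.Conv102
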