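import Mathlib.Tactic
import Crest.Agent.R340.Conv4_102
import Crest.Agent.R340.Rot3_303
import Crest.Agent.R340.DomF_735

/-!
R340 (S0532), orphan O3 = sphere convolutions, part 5 (helper102): the final export.

* `Kw F Q j k = ∫ F (t g) |(sp Q g) j k|² dg`, `KG Q m = Kw (1-t)^m Q`, `ker_KG : Ker Q (KG Q)`;
* `avg_cj_dGf` : `∫ F (t g) • cj g (dGf f Q) dg = dGf (∑ k, Kw F Q · k * f k) Q`;
* `conv_dGf`, `conv_cs`, `integral_cw`, `integral_cw_le`;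
* `export` : all properties of the convolution of `prof a R` with a majorant of
  `(1 + Q t / Q2)^(-A)`.
-/

set_option autoImplicit false

open Finset Matrix MeasureTheory

namespace Crest.Agent.R340.Conv102

open Crest.Agent.R340.CS809 Crest.Agent.R340.Rot303 Crest.Agent.R124.Haar
  Crest.Agent.R340.Avg814 Crest.Agent.R340.Fock649 Crest.Agent.R340.Geo986
  Crest.Agent.R340.DomF735 Crest.Agent.R340.Scal725

noncomputable section

/-! ### The averaged kernels -/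

/-- `∫ F (t g) |(sp Q g) j k|² dg` (zero out of range) -/
def Kw (F : ℝ → ℝ) (Q j k : ℕ) : ℝ :=
  if h : j < Q + 1 ∧ k < Q + 1 then
    ∫ g : G2, F (tt g) * ‖sp Q (g : Matrix (Fin 2) (Fin 2) ℂ) ⟨j, h.1⟩ ⟨k, h.2⟩‖ ^ 2 ∂hm
  else 0

/-- the kernels of the powers of `1-t` -/
def KG (Q m : ℕ) : ℕ → ℕ → ℝ := Kw (fun t => (1 - t) ^ m) Q

lemma Kw_fin (F : ℝ → ℝ) (Q : ℕ) (j k : Fin (Q + 1)) :
    Kw F Q j k = ∫ g : G2, F (tt g) * ‖sp Q (g : Matrix (Fin 2) (Fin 2) ℂ) j k‖ ^ 2 ∂hm := by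
  unfold Kw
  rw [dif_pos ⟨j.2, k.2⟩]

lemma continuous_entry_sq (Q : ℕ) (j k : Fin (Q + 1)) :
    Continuous fun g : G2 => ‖sp Q (g : Matrix (Fin 2) (Fin 2) ℂ) j k‖ ^ 2 :=
  (continuous_sp_entry Q j k).norm.pow 2

lemma integrable_Kw {F : ℝ → ℝ} (hF : Continuous F) (Q : ℕ) (j k : Fin (Q + 1)) :
    Integrable (fun g : G2 => F (tt g) * ‖sp Q (g : Matrix (Fin 2) (Fin 2) ℂ) j k‖ ^ 2) hm :=
  integrable_of_cont ((hF.comp continuous_tt).mul (continuous_entry_sq Q j k))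

lemma row_sum (Q : ℕ) (g : G2) (j : Fin (Q + 1)) :
    ∑ k, ‖sp Q (g : Matrix (Fin 2) (Fin 2) ℂ) j k‖ ^ 2 = 1 := by
  have h := congrFun (congrFun (sp_unitary' Q (G2_mul_ct g)) j) j
  rw [Matrix.mul_apply, Matrix.one_apply_eq] at h
  have h2 : ((∑ k, ‖sp Q (g : Matrix (Fin 2) (Fin 2) ℂ) j k‖ ^ 2 : ℝ) : ℂ) = 1 := by
    rw [← h, Complex.ofReal_sum]
    exact Finset.sum_congr rfl fun k _ => by
      rw [Matrix.conjTranspose_apply, norm_sq_mul_star]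
  exact_mod_cast h2

lemma col_sum (Q : ℕ) (g : G2) (k : Fin (Q + 1)) :
    ∑ j, ‖sp Q (g : Matrix (Fin 2) (Fin 2) ℂ) j k‖ ^ 2 = 1 := by
  have h := congrFun (congrFun (sp_unitary Q (G2_ct_mul g)) k) k
  rw [Matrix.mul_apply, Matrix.one_apply_eq] at h
  have h2 : ((∑ j, ‖sp Q (g : Matrix (Fin 2) (Fin 2) ℂ) j k‖ ^ 2 : ℝ) : ℂ) = 1 := by
    rw [← h, Complex.ofReal_sum]
    exact Finset.sum_congr rfl fun j _ => by
      rw [Matrix.conjTranspose_apply, norm_sq_star_mul]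
  exact_mod_cast h2

lemma integral_entry_sq (Q : ℕ) (j k : Fin (Q + 1)) :
    ∫ g : G2, ‖sp Q (g : Matrix (Fin 2) (Fin 2) ℂ) j k‖ ^ 2 ∂hm = ((Q : ℝ) + 1)⁻¹ := by
  have h := schur Q j k j k
  rw [if_pos ⟨rfl, rfl⟩] at h
  simp only [norm_sq_mul_star] at h
  rw [integral_complex_ofReal] at h
  have h3 : ((∫ g : G2, ‖sp Q (g : Matrix (Fin 2) (Fin 2) ℂ) j k‖ ^ 2 ∂hm : ℝ) : ℂ) =
      (((Q : ℝ) + 1)⁻¹ : ℝ) := by
    rw [h]; push_cast; rfl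
  exact_mod_cast h3

lemma integral_one_sub_tt_pow (m : ℕ) : ∫ g : G2, (1 - tt g) ^ m ∂hm = 1 / ((m : ℝ) + 1) := by
  have h := integral_binomial m 0
  simp only [Fin.val_zero, Nat.choose_zero_right, Nat.cast_one, pow_zero, mul_one, one_mul,
    Nat.sub_zero] at h
  rw [h, one_div]

theorem Kw_row {F : ℝ → ℝ} (hF : Continuous F) (Q : ℕ) {j : ℕ} (hj : j ≤ Q) :
    ∑ k ∈ range (Q + 1), Kw F Q j k = ∫ g : G2, F (tt g) ∂hm := by
  rw [Finset.sum_range]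
  have h1 : ∀ k : Fin (Q + 1), Kw F Q j k =
      ∫ g : G2, F (tt g) * ‖sp Q (g : Matrix (Fin 2) (Fin 2) ℂ) ⟨j, by omega⟩ k‖ ^ 2 ∂hm :=
    fun k => Kw_fin F Q ⟨j, by omega⟩ k
  rw [Finset.sum_congr rfl fun k _ => h1 k, ← integral_finsetSum _ fun k _ =>
    integrable_Kw hF Q _ k]
  refine integral_congr_ae (Filter.Eventually.of_forall fun g => ?_)
  simp only
  rw [← mul_sum, row_sum, mul_one]

theorem Kw_col {F : ℝ → ℝ} (hF : Continuous F) (Q : ℕ) {k : ℕ} (hk : k ≤ Q) :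
    ∑ j ∈ range (Q + 1), Kw F Q j k = ∫ g : G2, F (tt g) ∂hm := by
  rw [Finset.sum_range]
  have h1 : ∀ j : Fin (Q + 1), Kw F Q j k =
      ∫ g : G2, F (tt g) * ‖sp Q (g : Matrix (Fin 2) (Fin 2) ℂ) j ⟨k, by omega⟩‖ ^ 2 ∂hm :=
    fun j => Kw_fin F Q j ⟨k, by omega⟩
  rw [Finset.sum_congr rfl fun j _ => h1 j, ← integral_finsetSum _ fun j _ =>
    integrable_Kw hF Q j _]
  refine integral_congr_ae (Filter.Eventually.of_forall fun g => ?_)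
  simp only
  rw [← mul_sum, col_sum, mul_one]

/-- entries of the average of rotated diagonal matrices: off-diagonal -/
theorem avg_offdiag {F : ℝ → ℝ} (Q : ℕ) (M : Matrix (Fin (Q + 1)) (Fin (Q + 1)) ℂ)
    {i k : Fin (Q + 1)} (h : i ≠ k) :
    ∫ g : G2, ((F (tt g) : ℝ) : ℂ) * (sp Q (g : Matrix (Fin 2) (Fin 2) ℂ) * M *
      (sp Q (g : Matrix (Fin 2) (Fin 2) ℂ))ᴴ) i k ∂hm = 0 := by
  obtain ⟨z, hz⟩ := exists_circle (m := (i : ℕ)) (n := (k : ℕ)) (fun e => h (Fin.ext e))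
  set I := ∫ g : G2, ((F (tt g) : ℝ) : ℂ) * (sp Q (g : Matrix (Fin 2) (Fin 2) ℂ) * M *
      (sp Q (g : Matrix (Fin 2) (Fin 2) ℂ))ᴴ) i k ∂hm with hI
  have h1 : I = ((z : ℂ) ^ (i : ℕ) * star (z : ℂ) ^ (k : ℕ)) * I := by
    conv_lhs => rw [hI, ← integral_mul_left' _ (tz z)]
    rw [hI, ← integral_const_mul]
    refine integral_congr_ae (Filter.Eventually.of_forall fun g => ?_)
    have ht : tt (tz z * g) = tt g := by
      unfold tt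
      rw [coe_mul', coe_tz, Matrix.diagonal_mul]
      have hz1 : ‖(z : ℂ)‖ = 1 := Circle.norm_coe z
      simp [hz1]
    simp only [ht]
    have hs : sp Q ((tz z * g : G2) : Matrix (Fin 2) (Fin 2) ℂ) =
        (Matrix.diagonal fun j : Fin (Q + 1) => (z : ℂ) ^ (j : ℕ)) *
          sp Q (g : Matrix (Fin 2) (Fin 2) ℂ) := by
      rw [coe_mul', sp_mul, sp_tz]
    rw [hs, Matrix.conjTranspose_mul, Matrix.diagonal_conjTranspose]
    have e : (Matrix.diagonal fun j : Fin (Q + 1) => (z : ℂ) ^ (j : ℕ)) *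
          sp Q (g : Matrix (Fin 2) (Fin 2) ℂ) * M *
          ((sp Q (g : Matrix (Fin 2) (Fin 2) ℂ))ᴴ *
            Matrix.diagonal (star fun j : Fin (Q + 1) => (z : ℂ) ^ (j : ℕ))) =
        (Matrix.diagonal fun j : Fin (Q + 1) => (z : ℂ) ^ (j : ℕ)) *
          (sp Q (g : Matrix (Fin 2) (Fin 2) ℂ) * M * (sp Q (g : Matrix (Fin 2) (Fin 2) ℂ))ᴴ) *
            Matrix.diagonal (star fun j : Fin (Q + 1) => (z : ℂ) ^ (j : ℕ)) := by
      simp only [Matrix.mul_assoc]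
    rw [e, Matrix.mul_diagonal, Matrix.diagonal_mul]
    simp only [Pi.star_apply, star_pow]
    ring
  have h2 : (((z : ℂ) ^ (i : ℕ) * star (z : ℂ) ^ (k : ℕ)) - 1) * I = 0 := by
    rw [sub_mul, one_mul, ← h1, sub_self]
  rcases mul_eq_zero.1 h2 with h3 | h3
  · exact absurd (sub_eq_zero.1 h3) hz
  · exact h3

lemma conj_diag_entry (Q : ℕ) (g : G2) (f : ℕ → ℝ) (j : Fin (Q + 1)) :
    (sp Q (g : Matrix (Fin 2) (Fin 2) ℂ) * Matrix.diagonal (res Q f) *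
      (sp Q (g : Matrix (Fin 2) (Fin 2) ℂ))ᴴ) j j =
      ((∑ k : Fin (Q + 1), ‖sp Q (g : Matrix (Fin 2) (Fin 2) ℂ) j k‖ ^ 2 * f k : ℝ) : ℂ) := by
  rw [Matrix.mul_apply, Complex.ofReal_sum]
  refine Finset.sum_congr rfl fun k _ => ?_
  rw [Matrix.mul_diagonal, Matrix.conjTranspose_apply, Complex.ofReal_mul, ← norm_sq_mul_star]
  unfold res
  ring

/-- entries of the average of rotated diagonal matrices -/
theorem avg_diag {F : ℝ → ℝ} (hF : Continuous F) (Q : ℕ) (f : ℕ → ℝ) (i k : Fin (Q + 1)) :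
    ∫ g : G2, ((F (tt g) : ℝ) : ℂ) * (sp Q (g : Matrix (Fin 2) (Fin 2) ℂ) *
      Matrix.diagonal (res Q f) * (sp Q (g : Matrix (Fin 2) (Fin 2) ℂ))ᴴ) i k ∂hm =
      Matrix.diagonal (res Q fun j => ∑ l ∈ range (Q + 1), Kw F Q j l * f l) i k := by
  by_cases h : i = k
  · subst h
    rw [Matrix.diagonal_apply_eq]
    have h1 : ∀ g : G2, ((F (tt g) : ℝ) : ℂ) * (sp Q (g : Matrix (Fin 2) (Fin 2) ℂ) *
        Matrix.diagonal (res Q f) * (sp Q (g : Matrix (Fin 2) (Fin 2) ℂ))ᴴ) i i =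
        ((∑ l : Fin (Q + 1), (F (tt g) * ‖sp Q (g : Matrix (Fin 2) (Fin 2) ℂ) i l‖ ^ 2) * f l : ℝ) :
          ℂ) := by
      intro g
      rw [conj_diag_entry, ← Complex.ofReal_mul, mul_sum]
      congr 1
      exact Finset.sum_congr rfl fun l _ => by ring
    rw [integral_congr_ae (Filter.Eventually.of_forall h1), integral_complex_ofReal,
      integral_finsetSum _ fun l _ => (integrable_Kw hF Q i l).mul_const _]
    change _ = (((∑ l ∈ range (Q + 1), Kw F Q i l * f l) : ℝ) : ℂ)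
    rw [Finset.sum_range (fun l => Kw F Q i l * f l)]
    congr 1
    refine Finset.sum_congr rfl fun l _ => ?_
    rw [integral_mul_const, Kw_fin]
  · rw [avg_offdiag Q _ h, Matrix.diagonal_apply_ne _ h]

/-- **the average of rotated radial one-body operators is radial** -/
theorem avg_cj_dGf {F : ℝ → ℝ} (hF : Continuous F) (Q : ℕ) (f : ℕ → ℝ) :
    ∫ g : G2, ((F (tt g) : ℝ) : ℂ) • cj (g : Matrix (Fin 2) (Fin 2) ℂ) (dGf f Q) ∂hm =
      dGf (fun j => ∑ l ∈ range (Q + 1), Kw F Q j l * f l) Q := by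
  have h0 : ∀ g : G2, ((F (tt g) : ℝ) : ℂ) • cj (g : Matrix (Fin 2) (Fin 2) ℂ) (dGf f Q) =
      ∑ i : Fin (Q + 1), ∑ k : Fin (Q + 1), (((F (tt g) : ℝ) : ℂ) *
        (sp Q (g : Matrix (Fin 2) (Fin 2) ℂ) *
        Matrix.diagonal (res Q f) * (sp Q (g : Matrix (Fin 2) (Fin 2) ℂ))ᴴ) i k) •
          (d i * c k : Op (Fin (Q + 1))) := by
    intro g
    unfold dGf
    rw [cj_dG (G2_mul_ct g)]
    unfold dG
    rw [Finset.smul_sum]
    refine Finset.sum_congr rfl fun i _ => ?_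
    rw [Finset.smul_sum]
    exact Finset.sum_congr rfl fun k _ => smul_smul _ _ _
  rw [integral_congr_ae (Filter.Eventually.of_forall h0)]
  have hint : ∀ i k, Integrable (fun g : G2 => (((F (tt g) : ℝ) : ℂ) *
        (sp Q (g : Matrix (Fin 2) (Fin 2) ℂ) *
        Matrix.diagonal (res Q f) * (sp Q (g : Matrix (Fin 2) (Fin 2) ℂ))ᴴ) i k) •
          (d i * c k : Op (Fin (Q + 1)))) hm :=
    fun i k => (integrable_weight_conj Q hF _ i k).smul_const _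
  rw [integral_finsetSum _ fun i _ => integrable_finsetSum _ fun k _ => hint i k]
  unfold dGf dG
  refine Finset.sum_congr rfl fun i _ => ?_
  rw [integral_finsetSum _ fun k _ => hint i k]
  refine Finset.sum_congr rfl fun k _ => ?_
  rw [integral_smul_const, avg_diag hF]

/-! ### `Ker` for the group -/

theorem ker_KG (Q : ℕ) : Ker Q (KG Q) where
  nonneg := by
    intro m j k hj hk
    unfold KG Kw
    rw [dif_pos ⟨by omega, by omega⟩]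
    refine integral_nonneg fun g => mul_nonneg (pow_nonneg ?_ _) (sq_nonneg _)
    have := tt_le_one g
    linarith
  row := by
    intro m j hj
    unfold KG
    rw [Kw_row (by fun_prop) Q hj, integral_one_sub_tt_pow]
  col := by
    intro m k hk
    unfold KG
    rw [Kw_col (by fun_prop) Q hk, integral_one_sub_tt_pow]
  zero_le := by
    intro m k hk
    have h1 := Kw_fin (fun t => (1 - t) ^ m) Q 0 ⟨k, by omega⟩
    have h2 : KG Q m 0 k = ∫ g : G2, (1 - tt g) ^ m *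
        ‖sp Q (g : Matrix (Fin 2) (Fin 2) ℂ) 0 ⟨k, by omega⟩‖ ^ 2 ∂hm := h1
    rw [h2, one_div, ← integral_entry_sq Q 0 ⟨k, by omega⟩]
    have hc : Continuous fun t : ℝ => (1 - t) ^ m := by fun_prop
    refine integral_mono (integrable_Kw hc Q _ _)
      (integrable_of_cont (continuous_entry_sq Q _ _)) fun g => ?_
    have h3 := tt_nonneg g
    have h4 := tt_le_one g
    have h5 : (1 - tt g) ^ m ≤ 1 := pow_le_one₀ (by linarith) (by linarith)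
    have h6 := mul_le_mul_of_nonneg_right h5
      (sq_nonneg ‖sp Q (g : Matrix (Fin 2) (Fin 2) ℂ) 0 ⟨k, by omega⟩‖)
    rw [one_mul] at h6
    exact h6
  conv := by
    intro m l hl
    refine ⟨bet m l, bet_nonneg m l, fun j hj => ?_⟩
    have hc : Continuous fun t : ℝ => (1 - t) ^ m := by fun_prop
    have h1 := avg_diag hc Q (EE Q l) ⟨j, by omega⟩ ⟨j, by omega⟩
    have h2 := congrFun (congrFun (conv_EE hl m) ⟨j, by omega⟩) ⟨j, by omega⟩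
    rw [Matrix.of_apply, Matrix.diagonal_apply_eq] at h2
    rw [Matrix.diagonal_apply_eq] at h1
    have h3 : ((∑ k ∈ range (Q + 1), KG Q m j k * EE Q l k : ℝ) : ℂ) =
        ((∑ p ∈ range (min m l + 1), bet m l p * EE Q p j : ℝ) : ℂ) := by
      rw [← h2]
      exact h1.symm
    exact_mod_cast h3

/-! ### The weight `cw` -/

theorem continuous_cw (Q Q2 : ℕ) (q : ℝ) : Continuous (cw Q Q2 q) := by
  unfold cw
  exact continuous_finsetSum _ fun l _ => by fun_prop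

theorem Kw_cw (Q Q2 : ℕ) (q : ℝ) (j k : ℕ) :
    Kw (cw Q Q2 q) Q j k = ∑ l ∈ range (Q + 3), q ^ l * KG Q (mm Q Q2 l) j k := by
  unfold KG Kw
  by_cases h : j < Q + 1 ∧ k < Q + 1
  · simp only [dif_pos h]
    have h1 : ∀ g : G2, cw Q Q2 q (tt g) *
        ‖sp Q (g : Matrix (Fin 2) (Fin 2) ℂ) ⟨j, h.1⟩ ⟨k, h.2⟩‖ ^ 2 =
        ∑ l ∈ range (Q + 3), q ^ l * ((1 - tt g) ^ mm Q Q2 l *
          ‖sp Q (g : Matrix (Fin 2) (Fin 2) ℂ) ⟨j, h.1⟩ ⟨k, h.2⟩‖ ^ 2) := by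
      intro g
      unfold cw
      rw [sum_mul]
      exact sum_congr rfl fun l _ => by ring
    have hc : ∀ m : ℕ, Continuous fun t : ℝ => (1 - t) ^ m := fun m => by fun_prop
    rw [integral_congr_ae (Filter.Eventually.of_forall h1), integral_finsetSum _ fun l _ =>
      (integrable_Kw (hc (mm Q Q2 l)) Q ⟨j, h.1⟩ ⟨k, h.2⟩).const_mul _]
    exact sum_congr rfl fun l _ => integral_const_mul _ _
  · simp only [dif_neg h, mul_zero, sum_const_zero]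

theorem sum_Kw_cw (Q Q2 : ℕ) (q : ℝ) (f : ℕ → ℝ) (j : ℕ) :
    ((Q : ℝ) + 1) * ∑ k ∈ range (Q + 1), Kw (cw Q Q2 q) Q j k * f k =
      Phi (KG Q) Q Q2 q f j := by
  unfold Phi AA
  simp only [Kw_cw, sum_mul, mul_sum]
  rw [sum_comm]
  exact sum_congr rfl fun l _ => sum_congr rfl fun k _ => by ring

/-- (C2) -/
theorem conv_dGf (Q Q2 : ℕ) (q : ℝ) (f : ℕ → ℝ) :
    ∫ g : G2, (((((Q : ℝ) + 1) * cw Q Q2 q (tt g) : ℝ)) : ℂ) •
      cj (g : Matrix (Fin 2) (Fin 2) ℂ) (dGf f Q) ∂hm = dGf (Phi (KG Q) Q Q2 q f) Q := by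
  have h := avg_cj_dGf (F := fun t => ((Q : ℝ) + 1) * cw Q Q2 q t)
    (continuous_const.mul (continuous_cw Q Q2 q)) Q f
  rw [h]
  congr 1
  funext j
  rw [← sum_Kw_cw, mul_sum]
  refine sum_congr rfl fun k _ => ?_
  rw [← mul_assoc]
  congr 1
  unfold Kw
  by_cases h : j < Q + 1 ∧ k < Q + 1
  · simp only [dif_pos h]
    rw [← integral_const_mul]
    refine integral_congr_ae (Filter.Eventually.of_forall fun g => ?_)
    simp only
    ring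
  · simp only [dif_neg h, mul_zero]

/-- mass of the weight -/
theorem integral_cw (Q Q2 : ℕ) (q : ℝ) :
    ∫ g : G2, ((Q : ℝ) + 1) * cw Q Q2 q (tt g) ∂hm =
      ∑ l ∈ range (Q + 3), q ^ l * (((Q : ℝ) + 1) / ((mm Q Q2 l : ℝ) + 1)) := by
  have hc : ∀ m : ℕ, Continuous fun t : ℝ => (1 - t) ^ m := fun m => by fun_prop
  have h1 : ∀ g : G2, ((Q : ℝ) + 1) * cw Q Q2 q (tt g) =
      ∑ l ∈ range (Q + 3), (q ^ l * ((Q : ℝ) + 1)) * (1 - tt g) ^ mm Q Q2 l := by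
    intro g
    unfold cw
    rw [mul_sum]
    exact sum_congr rfl fun l _ => by ring
  rw [integral_congr_ae (Filter.Eventually.of_forall h1), integral_finsetSum _ fun l _ =>
    (integrable_comp_tt (hc (mm Q Q2 l))).const_mul _]
  refine sum_congr rfl fun l _ => ?_
  rw [integral_const_mul, integral_one_sub_tt_pow]
  ring

theorem integral_cw_le {Q Q2 : ℕ} {q : ℝ} (h2 : 1 ≤ Q2) (hq : 0 ≤ q) (hq2 : 2 * q < 1) :
    ∫ g : G2, ((Q : ℝ) + 1) * cw Q Q2 q (tt g) ∂hm ≤ Q2 * (1 / (1 - 2 * q)) := by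
  rw [integral_cw]
  exact mass_le h2 hq hq2 _

theorem sum_Phi (Q Q2 : ℕ) (q : ℝ) (f : ℕ → ℝ) :
    ∑ j ∈ range (Q + 1), Phi (KG Q) Q Q2 q f j =
      (∫ g : G2, ((Q : ℝ) + 1) * cw Q Q2 q (tt g) ∂hm) * ∑ k ∈ range (Q + 1), f k := by
  have h1 : ∀ j ∈ range (Q + 1), Phi (KG Q) Q Q2 q f j =
      ∑ k ∈ range (Q + 1), ((Q : ℝ) + 1) * (Kw (cw Q Q2 q) Q j k * f k) := by
    intro j _
    rw [← sum_Kw_cw, mul_sum]
  rw [sum_congr rfl h1, sum_comm, mul_sum]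
  refine sum_congr rfl fun k hk => ?_
  rw [← mul_sum, ← sum_mul, Kw_col (continuous_cw Q Q2 q) Q (Nat.lt_succ_iff.1 (mem_range.1 hk)),
    integral_const_mul]
  ring

theorem conv_cs (Q Q2 : ℕ) (q : ℝ) (f : ℕ → ℝ) :
    cs (Phi (KG Q) Q Q2 q f) Q =
      (∫ g : G2, ((Q : ℝ) + 1) * cw Q Q2 q (tt g) ∂hm) * cs f Q := by
  unfold cs
  rw [sum_Phi]
  ring

/-! ### Final export -/

/-- the majorant (with respect to the Haar probability measure) of `(Q+1) (1 + Q t / Q2)^(-A)` -/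
def wt (A : ℝ) (Q Q2 : ℕ) (t : ℝ) : ℝ :=
  (2 * (4 : ℝ) ^ A) * (((Q : ℝ) + 1) * cw Q Q2 ((2 : ℝ) ^ (-A)) t)

/-- the convolution of `f` with `wt` -/
def Ph (A : ℝ) (Q Q2 : ℕ) (f : ℕ → ℝ) (j : ℕ) : ℝ :=
  (2 * (4 : ℝ) ^ A) * Phi (KG Q) Q Q2 ((2 : ℝ) ^ (-A)) f j

/-- the constants of the export -/
def CP (a A : ℝ) (r : ℕ) : ℝ := (2 * (4 : ℝ) ^ A) * CC a ((2 : ℝ) ^ (-A)) r

theorem two_q_lt {A : ℝ} (hA : 1 < A) : 2 * (2 : ℝ) ^ (-A) < 1 := by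
  have h : (2 : ℝ) ^ (-A) < (2 : ℝ) ^ (-(1 : ℝ)) :=
    Real.rpow_lt_rpow_of_exponent_lt (by norm_num) (by linarith)
  rw [Real.rpow_neg_one] at h
  linarith

theorem CP_pos {a A : ℝ} (ha0 : 0 < a) (ha1 : a < 1) (hA : 1 < A) (r : ℕ) : 0 < CP a A r :=
  mul_pos (by positivity) (CC_pos ha0 ha1 (two_q_lt hA) r)

theorem continuous_wt (A : ℝ) (Q Q2 : ℕ) : Continuous (wt A Q Q2) :=
  continuous_const.mul (continuous_const.mul (continuous_cw Q Q2 _))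

theorem wt_nonneg (A : ℝ) (Q Q2 : ℕ) {t : ℝ} (ht1 : t ≤ 1) : 0 ≤ wt A Q Q2 t := by
  unfold wt
  have := cw_nonneg (Q := Q) (Q2 := Q2) (q := (2 : ℝ) ^ (-A)) (by positivity) ht1
  positivity

/-- (C1) `(Q+1) (1 + Q t / Q2)^(-A) ≤ wt A Q Q2 t` -/
theorem le_wt {A t : ℝ} (hA : 0 ≤ A) {Q Q2 : ℕ} (h2 : 1 ≤ Q2) (ht0 : 0 ≤ t) (ht1 : t ≤ 1) :
    ((Q : ℝ) + 1) * (1 + Q * t / Q2) ^ (-A) ≤ wt A Q Q2 t := by
  have h := cw_ge (Q := Q) hA h2 ht0 ht1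
  have h4 : (4 : ℝ) ^ A * (4 : ℝ) ^ (-A) = 1 := by
    rw [← Real.rpow_add (by norm_num), add_neg_cancel, Real.rpow_zero]
  unfold wt
  have h5 := mul_le_mul_of_nonneg_left h (show 0 ≤ (2 * (4 : ℝ) ^ A) * ((Q : ℝ) + 1) by positivity)
  calc ((Q : ℝ) + 1) * (1 + Q * t / Q2) ^ (-A)
      = (4 : ℝ) ^ A * (4 : ℝ) ^ (-A) * (((Q : ℝ) + 1) * (1 + Q * t / Q2) ^ (-A)) := by
        rw [h4, one_mul]
    _ = 2 * (4 : ℝ) ^ A * ((Q : ℝ) + 1) * (1 / 2 * (4 : ℝ) ^ (-A) * (1 + Q * t / Q2) ^ (-A)) := by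
        ring
    _ ≤ 2 * (4 : ℝ) ^ A * ((Q : ℝ) + 1) * cw Q Q2 ((2 : ℝ) ^ (-A)) t := h5
    _ = _ := by ring

theorem integral_wt (A : ℝ) (Q Q2 : ℕ) : ∫ g : G2, wt A Q Q2 (tt g) ∂hm =
    (2 * (4 : ℝ) ^ A) * ∫ g : G2, ((Q : ℝ) + 1) * cw Q Q2 ((2 : ℝ) ^ (-A)) (tt g) ∂hm := by
  unfold wt
  rw [integral_const_mul]

/-- mass of `wt` -/
theorem integral_wt_le {A : ℝ} (hA : 1 < A) {Q Q2 : ℕ} (h2 : 1 ≤ Q2) :
    ∫ g : G2, wt A Q Q2 (tt g) ∂hm ≤ 2 * (4 : ℝ) ^ A / (1 - 2 * (2 : ℝ) ^ (-A)) * Q2 := by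
  rw [integral_wt]
  have h := mul_le_mul_of_nonneg_left (integral_cw_le (Q := Q) h2
    (show 0 ≤ (2 : ℝ) ^ (-A) by positivity) (two_q_lt hA)) (show 0 ≤ 2 * (4 : ℝ) ^ A by positivity)
  refine h.trans (le_of_eq ?_)
  ring

/-- (C2) -/
theorem wt_dGf (A : ℝ) (Q Q2 : ℕ) (f : ℕ → ℝ) :
    ∫ g : G2, ((wt A Q Q2 (tt g) : ℝ) : ℂ) •
      cj (g : Matrix (Fin 2) (Fin 2) ℂ) (dGf f Q) ∂hm = dGf (Ph A Q Q2 f) Q := by
  have h := conv_dGf Q Q2 ((2 : ℝ) ^ (-A)) f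
  have h1 : ∀ g : G2, ((wt A Q Q2 (tt g) : ℝ) : ℂ) •
      cj (g : Matrix (Fin 2) (Fin 2) ℂ) (dGf f Q) = ((2 * (4 : ℝ) ^ A : ℝ) : ℂ) •
      ((((((Q : ℝ) + 1) * cw Q Q2 ((2 : ℝ) ^ (-A)) (tt g) : ℝ)) : ℂ) •
      cj (g : Matrix (Fin 2) (Fin 2) ℂ) (dGf f Q)) := by
    intro g
    rw [smul_smul, ← Complex.ofReal_mul]
    rfl
  rw [integral_congr_ae (Filter.Eventually.of_forall h1), integral_smul, h]
  unfold dGf
  rw [← dG_smul]
  congr 1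
  ext i k
  by_cases hik : i = k
  · subst hik
    simp [res, Ph]
  · simp [Matrix.diagonal_apply_ne _ hik]

theorem wt_cs (A : ℝ) (Q Q2 : ℕ) (f : ℕ → ℝ) :
    cs (Ph A Q Q2 f) Q = (∫ g : G2, wt A Q Q2 (tt g) ∂hm) * cs f Q := by
  have h : cs (Ph A Q Q2 f) Q = (2 * (4 : ℝ) ^ A) * cs (Phi (KG Q) Q Q2 ((2 : ℝ) ^ (-A)) f) Q :=
    cs_smul _ _ Q
  rw [h, conv_cs, integral_wt]
  ring

/-- (C3) -/
theorem AM_Ph {a R : ℝ} (hR : 0 ≤ R) (ha0 : 0 ≤ a) (ha : a < R + 1) (A : ℝ) (Q Q2 : ℕ) :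
    AM Q (Ph A Q Q2 (prof a R)) :=
  ((ker_KG Q).AM_Phi (by positivity) (AM_prof hR ha0 ha Q)).smul (by positivity)

/-- (C4) all differences of the convolution of `prof a R`, `R ≤ Q2`. -/
theorem DD_Ph {a A R : ℝ} (ha0 : 0 < a) (ha1 : a < 1) (hA : 1 < A) {Q Q2 : ℕ} (hQ : 1 ≤ Q)
    (h2 : 1 ≤ Q2) (hR : 0 ≤ R) (hR2 : R ≤ Q2) (r j : ℕ) (hj : j + r ≤ Q) :
    0 ≤ DD (Ph A Q Q2 (prof a R)) r j ∧
      DD (Ph A Q Q2 (prof a R)) r j ≤
        CP a A r * (Q2 * prof a R Q2) * DD (prof a Q2) r j := by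
  refine ⟨(AM_Ph hR ha0.le (by linarith) A Q Q2).DD_nonneg hj, ?_⟩
  have h := (ker_KG Q).DD_Phi_le (q := (2 : ℝ) ^ (-A)) (by positivity) (two_q_lt hA) ha0 ha1 hR
    hR2 hQ h2 r j hj
  have e : DD (Ph A Q Q2 (prof a R)) r j =
      (2 * (4 : ℝ) ^ A) * DD (Phi (KG Q) Q Q2 ((2 : ℝ) ^ (-A)) (prof a R)) r j := DD_smul _ _ r j
  rw [e]
  have h5 := mul_le_mul_of_nonneg_left h (show 0 ≤ 2 * (4 : ℝ) ^ A by positivity)
  refine h5.trans (le_of_eq ?_)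
  unfold CP
  ring

end

end Crest.Agent.R340.Conv102
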