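import Crest.Agent.R340.PathStep2_880
import Crest.Agent.R340.Avg2_814

/-!
# R340, strong pass (helper874): real estimates for the crude error `eY`

* `sq_decay`   : `1 + ((j-p)/√d_p)² ≤ (1 + Dr)⁴`;
* `weight_le`  : `(1+j/S)^(-A) (1+Dr)^(-8) ≤ (1+p/S)^(-A) (1 + ((j-p)/√d_p)²)⁻¹`;
* `int_lorentz`: `(Q+1) ∫ (1 + ((Q t(g) - p)/r)²)⁻¹ dhm ≤ 7 r`;
* `sum_gm_prof`: `∑_{p<Q-1} dd gm_p d_p (1+p/S)^(-A) ≤ 80 S^A Q^(1/2-A)`.
-/

set_option autoImplicit false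

namespace Crest.Agent.R340.CrsY874

open Finset MeasureTheory
open Crest.Agent.R340.PathStep880
open Crest.Agent.R340.Avg814 (G2 hm tt)

/-- ring distance of an integer ring and a real ring coordinate (same as `Defs150.Dr`) -/
noncomputable def Dj (Q p : ℕ) (j : ℝ) : ℝ :=
  |Real.sqrt ((p : ℝ) + 1) - Real.sqrt (j + 1)| +
    |Real.sqrt ((Q : ℝ) - p + 1) - Real.sqrt ((Q : ℝ) - j + 1)|

theorem Dj_nonneg (Q p : ℕ) (j : ℝ) : 0 ≤ Dj Q p j := by unfold Dj; positivity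

/-- one pole -/
theorem lorentz_aux {a b D : ℝ} (ha : 1 ≤ a) (hb : 0 ≤ b) (hD : |Real.sqrt a - Real.sqrt b| ≤ D) :
    1 + ((a - b) / Real.sqrt a) ^ 2 ≤ (1 + D) ^ 4 := by
  have ha0 : 0 ≤ a := by linarith
  have hsa : 1 ≤ Real.sqrt a := by rw [Real.one_le_sqrt]; exact ha
  have hsa0 : 0 < Real.sqrt a := by linarith
  have hD0 : 0 ≤ D := (abs_nonneg _).trans hD
  have h1 : a - b = (Real.sqrt a - Real.sqrt b) * (Real.sqrt a + Real.sqrt b) := by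
    have e1 := Real.mul_self_sqrt ha0
    have e2 := Real.mul_self_sqrt hb
    nlinarith
  have h2 : |a - b| ≤ D * (2 * Real.sqrt a + D) := by
    rw [h1, abs_mul]
    have h3 : |Real.sqrt a + Real.sqrt b| ≤ 2 * Real.sqrt a + D := by
      rw [abs_of_nonneg (by positivity)]
      have := (abs_le.1 hD).1
      linarith
    exact mul_le_mul hD h3 (abs_nonneg _) hD0
  have h4 : |(a - b) / Real.sqrt a| ≤ (1 + D) ^ 2 - 1 := by
    rw [abs_div, abs_of_pos hsa0, div_le_iff₀ hsa0]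
    refine h2.trans ?_
    nlinarith [mul_nonneg hD0 hD0]
  have h5 : ((a - b) / Real.sqrt a) ^ 2 ≤ ((1 + D) ^ 2 - 1) ^ 2 := by
    rw [← sq_abs]
    exact pow_le_pow_left₀ (abs_nonneg _) h4 2
  nlinarith [sq_nonneg D]

theorem sq_decay {Q p : ℕ} (hp : p ≤ Q) {j : ℝ} (hj : 0 ≤ j) (hjQ : j ≤ Q) :
    1 + ((j - p) / Real.sqrt (PSD716.dd Q p)) ^ 2 ≤ (1 + Dj Q p j) ^ 4 := by
  have hpQ : (p : ℝ) ≤ Q := by exact_mod_cast hp
  have hp0 : (0 : ℝ) ≤ p := Nat.cast_nonneg p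
  rcases le_total ((p : ℝ) + 1) ((Q : ℝ) - p + 1) with h | h
  · have e : PSD716.dd Q p = (p : ℝ) + 1 := min_eq_left h
    rw [e]
    have h1 := lorentz_aux (a := (p : ℝ) + 1) (b := j + 1) (D := Dj Q p j) (by linarith)
      (by linarith) (by unfold Dj; linarith [abs_nonneg (Real.sqrt ((Q : ℝ) - p + 1) -
        Real.sqrt ((Q : ℝ) - j + 1))])
    refine le_trans (le_of_eq ?_) h1
    rw [show (p : ℝ) + 1 - (j + 1) = -(j - p) by ring, neg_div, neg_sq]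
  · have e : PSD716.dd Q p = (Q : ℝ) - p + 1 := min_eq_right h
    rw [e]
    have h1 := lorentz_aux (a := (Q : ℝ) - p + 1) (b := (Q : ℝ) - j + 1) (D := Dj Q p j)
      (by linarith) (by linarith) (by unfold Dj; linarith [abs_nonneg (Real.sqrt ((p : ℝ) + 1) -
        Real.sqrt (j + 1))])
    refine le_trans (le_of_eq ?_) h1
    rw [show (Q : ℝ) - p + 1 - (Q - j + 1) = (j - p) by ring]

/-- the weight at ring `p` is controlled by the weight at `j` -/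
theorem ratio_le {Q p : ℕ} {j S : ℝ} (hj : 0 ≤ j) (hS : 1 ≤ S) :
    1 + p / S ≤ (1 + j / S) * (1 + Dj Q p j) ^ 2 := by
  have hS0 : 0 < S := by linarith
  have hp0 : (0 : ℝ) ≤ p := Nat.cast_nonneg p
  have hD := Dj_nonneg Q p j
  have h1 : Real.sqrt ((p : ℝ) + 1) ≤ Real.sqrt (j + 1) * (1 + Dj Q p j) := by
    have h2 : Real.sqrt ((p : ℝ) + 1) ≤ Real.sqrt (j + 1) + Dj Q p j := by
      have h3 := le_abs_self (Real.sqrt ((p : ℝ) + 1) - Real.sqrt (j + 1))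
      have h4 := abs_nonneg (Real.sqrt ((Q : ℝ) - p + 1) - Real.sqrt ((Q : ℝ) - j + 1))
      unfold Dj
      linarith
    have h5 : 1 ≤ Real.sqrt (j + 1) := by rw [Real.one_le_sqrt]; linarith
    nlinarith
  have h2 : (p : ℝ) + 1 ≤ (j + 1) * (1 + Dj Q p j) ^ 2 := by
    calc (p : ℝ) + 1 = Real.sqrt ((p : ℝ) + 1) ^ 2 := (Real.sq_sqrt (by linarith)).symm
      _ ≤ (Real.sqrt (j + 1) * (1 + Dj Q p j)) ^ 2 :=
          pow_le_pow_left₀ (Real.sqrt_nonneg _) h1 2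
      _ = (j + 1) * (1 + Dj Q p j) ^ 2 := by rw [mul_pow, Real.sq_sqrt (by linarith)]
  have h3 : 1 ≤ (1 + Dj Q p j) ^ 2 := by nlinarith
  have e : (1 + (p : ℝ) / S) = (S + p) / S := by field_simp
  have e2 : (1 + j / S) * (1 + Dj Q p j) ^ 2 = (S + j) * (1 + Dj Q p j) ^ 2 / S := by field_simp
  rw [e, e2]
  apply div_le_div_of_nonneg_right _ hS0.le
  nlinarith [mul_nonneg (sub_nonneg.2 hS) (sub_nonneg.2 h3)]

theorem weight_le {Q p : ℕ} (hp : p ≤ Q) {j S A : ℝ} (hj : 0 ≤ j) (hjQ : j ≤ Q) (hS : 1 ≤ S)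
    (hA0 : 0 ≤ A) (hA2 : A ≤ 2) :
    (1 + j / S) ^ (-A) * (1 + Dj Q p j) ^ (-(8 : ℝ)) ≤
      (1 + p / S) ^ (-A) * (1 + ((j - p) / Real.sqrt (PSD716.dd Q p)) ^ 2)⁻¹ := by
  have hS0 : 0 < S := by linarith
  have hp0 : (0 : ℝ) ≤ p := Nat.cast_nonneg p
  have hD := Dj_nonneg Q p j
  set u := 1 + Dj Q p j with hu
  have hu1 : 1 ≤ u := by linarith
  have hj' : 0 < 1 + j / S := by positivity
  have hp' : 0 < 1 + (p : ℝ) / S := by positivity
  have h1 : (1 + (p : ℝ) / S) ^ A ≤ (1 + j / S) ^ A * u ^ 4 := by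
    calc (1 + (p : ℝ) / S) ^ A ≤ ((1 + j / S) * u ^ 2) ^ A :=
          Real.rpow_le_rpow hp'.le (ratio_le hj hS) hA0
      _ = (1 + j / S) ^ A * (u ^ 2) ^ A := Real.mul_rpow hj'.le (by positivity)
      _ ≤ (1 + j / S) ^ A * (u ^ 2) ^ (2 : ℝ) := by
          gcongr
          nlinarith
      _ = (1 + j / S) ^ A * u ^ 4 := by
          rw [Real.rpow_two]; ring
  have h2 : (1 + j / S) ^ (-A) ≤ (1 + (p : ℝ) / S) ^ (-A) * u ^ 4 := by
    rw [Real.rpow_neg hj'.le, Real.rpow_neg hp'.le, inv_eq_one_div, inv_mul_eq_div,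
      div_le_div_iff₀ (Real.rpow_pos_of_pos hj' A) (Real.rpow_pos_of_pos hp' A), one_mul]
    linarith
  have h3 : u ^ (-(8 : ℝ)) = (u ^ 8)⁻¹ := by
    rw [Real.rpow_neg (by linarith)]
    norm_num
  have h4 := sq_decay hp hj hjQ
  rw [← hu] at h4
  have hden : 0 < 1 + ((j - p) / Real.sqrt (PSD716.dd Q p)) ^ 2 := by positivity
  calc (1 + j / S) ^ (-A) * u ^ (-(8 : ℝ)) ≤ ((1 + (p : ℝ) / S) ^ (-A) * u ^ 4) * (u ^ 8)⁻¹ := by
        rw [h3]; gcongr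
    _ = (1 + (p : ℝ) / S) ^ (-A) * (u ^ 4)⁻¹ := by
        have : u ≠ 0 := by linarith
        field_simp
    _ ≤ _ := by gcongr

/-- `(Q+1) ∫ (1 + ((Q t(g) - p)/r)²)⁻¹ dhm ≤ 7 r` -/
theorem int_lorentz {Q : ℕ} (hQ : 1 ≤ Q) (p : ℝ) {r : ℝ} (hr : 0 < r) :
    ((Q : ℝ) + 1) * ∫ g : G2, (1 + ((Q * tt g - p) / r) ^ 2)⁻¹ ∂hm ≤ 7 * r := by
  have hQ1 : (1 : ℝ) ≤ Q := by exact_mod_cast hQ
  have hcont : Continuous fun x : ℝ => (1 + (((Q : ℝ) * x - p) / r) ^ 2)⁻¹ := by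
    apply Continuous.inv₀
    · fun_prop
    · intro x; positivity
  have h1 := Avg814.integral_cont_tt hcont
  rw [h1]
  have h2 : ∫ x in (0 : ℝ)..1, (1 + (((Q : ℝ) * x - p) / r) ^ 2)⁻¹ =
      (Q / r)⁻¹ • ∫ y in ((Q / r) * 0 - p / r)..((Q / r) * 1 - p / r), (1 + y ^ 2)⁻¹ := by
    rw [← intervalIntegral.integral_comp_mul_sub (fun y : ℝ => (1 + y ^ 2)⁻¹)
      (show (Q : ℝ) / r ≠ 0 by positivity) (p / r)]
    refine intervalIntegral.integral_congr fun x _ => ?_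
    have e : ((Q : ℝ) * x - p) / r = (Q : ℝ) / r * x - p / r := by field_simp
    simp only [e]
  rw [h2, integral_inv_one_add_sq, smul_eq_mul, inv_div]
  have h3 := Real.arctan_lt_pi_div_two ((Q / r) * 1 - p / r)
  have h4 := Real.neg_pi_div_two_lt_arctan ((Q / r) * 0 - p / r)
  have h5 := Real.pi_lt_d2
  have h6 : Real.arctan ((Q / r) * 1 - p / r) - Real.arctan ((Q / r) * 0 - p / r) ≤ 3.15 := by
    linarith
  calc ((Q : ℝ) + 1) * (r / Q * (Real.arctan ((Q / r) * 1 - p / r) -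
        Real.arctan ((Q / r) * 0 - p / r))) ≤ ((Q : ℝ) + 1) * (r / Q * 3.15) := by gcongr
    _ = ((Q : ℝ) + 1) / Q * 3.15 * r := by field_simp
    _ ≤ 2 * 3.15 * r := by
        gcongr
        rw [div_le_iff₀ (by linarith)]; linarith
    _ ≤ 7 * r := by nlinarith

/-! ### the sum over rings -/

theorem sum_inv_sqrt (n : ℕ) : ∑ k ∈ range n, (Real.sqrt ((k : ℝ) + 1))⁻¹ ≤ 2 * Real.sqrt n := by
  induction n with
  | zero => simp
  | succ n ih =>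
    rw [sum_range_succ]
    have h0 : (0 : ℝ) ≤ n := Nat.cast_nonneg n
    have h1 : 0 < Real.sqrt ((n : ℝ) + 1) := Real.sqrt_pos.2 (by linarith)
    have h2 : 0 ≤ Real.sqrt (n : ℝ) := Real.sqrt_nonneg _
    have e1 := Real.mul_self_sqrt h0
    have e2 := Real.mul_self_sqrt (show (0 : ℝ) ≤ n + 1 by linarith)
    have h3 : (Real.sqrt ((n : ℝ) + 1))⁻¹ ≤ 2 * (Real.sqrt ((n : ℝ) + 1) - Real.sqrt n) := by
      rw [inv_eq_one_div, div_le_iff₀ h1]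
      nlinarith [sq_nonneg (Real.sqrt ((n : ℝ) + 1) - Real.sqrt n)]
    push_cast
    linarith

theorem log_le_two_sqrt {x : ℝ} (hx : 0 < x) : Real.log x ≤ 2 * Real.sqrt x := by
  have h1 : Real.log x = 2 * Real.log (Real.sqrt x) := by
    rw [Real.log_sqrt hx.le]; ring
  rw [h1]
  have h2 := Real.log_le_sub_one_of_pos (Real.sqrt_pos.2 hx)
  linarith

theorem sum_gm_prof {Q : ℕ} (hQ : 1 ≤ Q) {S A : ℝ} (hS : 1 ≤ S) (hA0 : 0 ≤ A)
    (hA2 : A ≤ 3 / 2) :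
    ∑ p ∈ range (Q - 1), Scal725.dd (gm 3 Q) p * (PSD716.dd Q p * (1 + p / S) ^ (-A)) ≤
      80 * S ^ A * (Q : ℝ) ^ (1 / 2 - A) := by
  have hQ1 : (1 : ℝ) ≤ Q := by exact_mod_cast hQ
  have hQ0 : (0 : ℝ) < Q := by linarith
  have hS0 : 0 < S := by linarith
  have hSA : 0 < S ^ A := Real.rpow_pos_of_pos hS0 A
  have hterm : ∀ p ∈ range (Q - 1),
      Scal725.dd (gm 3 Q) p * (PSD716.dd Q p * (1 + p / S) ^ (-A)) ≤
      16 * S ^ A * (Q : ℝ) ^ (-(1 / 2) - A) * (Real.sqrt ((p : ℝ) + 1))⁻¹ +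
        24 * S ^ A * (Q : ℝ) ^ (-A) * ((Q : ℝ) - p)⁻¹ := by
    intro p hp
    have hp' := mem_range.1 hp
    have hpQ : (p : ℝ) + 2 ≤ Q := by exact_mod_cast (by omega : p + 2 ≤ Q)
    have hp0 : (0 : ℝ) ≤ p := Nat.cast_nonneg p
    have hu0 : (0 : ℝ) < (Q : ℝ) - p := by linarith
    have hgm := dd_gm_le (b := 3) hp'
    have hgm0 := dd_gm_nonneg (b := 3) hp'
    have hgm' : Scal725.dd (gm 3 Q) p ≤ 4 * (((Q : ℝ) - p) ^ 2)⁻¹ := by
      refine hgm.trans (le_of_eq ?_)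
      norm_num
    have hdd0 : 0 ≤ PSD716.dd Q p := by
      have := PSD716.one_le_dd (Q := Q) (p := p) (by omega)
      linarith
    -- (1 + p/S)^(-A) ≤ S^A (p+1)^(-A)
    have hw : (1 + (p : ℝ) / S) ^ (-A) ≤ S ^ A * ((p : ℝ) + 1) ^ (-A) := by
      have e : (1 + (p : ℝ) / S) = (S + p) / S := by field_simp
      rw [e, Real.div_rpow (by positivity) hS0.le, Real.rpow_neg hS0.le, div_inv_eq_mul, mul_comm]
      apply mul_le_mul_of_nonneg_left _ hSA.le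
      exact Real.rpow_le_rpow_of_nonpos (by linarith) (by linarith) (by linarith)
    have hw0 : 0 ≤ (1 + (p : ℝ) / S) ^ (-A) := by positivity
    have hs1 : 0 < Real.sqrt ((p : ℝ) + 1) := Real.sqrt_pos.2 (by linarith)
    rcases le_or_gt (2 * (p : ℝ)) Q with h | h
    · have h2 : (((Q : ℝ) - p) ^ 2)⁻¹ ≤ 4 / Q ^ 2 := by
        rw [inv_eq_one_div, div_le_div_iff₀ (by positivity) (by positivity)]
        nlinarith
      have h3 : PSD716.dd Q p ≤ (p : ℝ) + 1 := min_le_left _ _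
      have hsq : ((p : ℝ) + 1) ^ (1 / 2 : ℝ) = Real.sqrt ((p : ℝ) + 1) :=
        (Real.sqrt_eq_rpow _).symm
      have h4 : ((p : ℝ) + 1) * ((p : ℝ) + 1) ^ (-A) ≤
          (Q : ℝ) ^ (3 / 2 - A) * (Real.sqrt ((p : ℝ) + 1))⁻¹ := by
        have e1 : ((p : ℝ) + 1) * ((p : ℝ) + 1) ^ (-A) =
            ((p : ℝ) + 1) ^ (3 / 2 - A) * (Real.sqrt ((p : ℝ) + 1))⁻¹ := by
          have hp1 : (0 : ℝ) < (p : ℝ) + 1 := by linarith
          have e0 := Real.rpow_add hp1 1 (-A)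
          rw [Real.rpow_one] at e0
          rw [← hsq, ← Real.rpow_neg hp1.le, ← Real.rpow_add hp1, ← e0]
          congr 1; ring
        rw [e1]
        apply mul_le_mul_of_nonneg_right _ (by positivity)
        exact Real.rpow_le_rpow (by linarith) (by linarith) (by linarith)
      have h5 : 0 ≤ 24 * S ^ A * (Q : ℝ) ^ (-A) * ((Q : ℝ) - p)⁻¹ := by positivity
      have e2 : (Q : ℝ) ^ (-(1 / 2) - A) = (Q : ℝ) ^ (3 / 2 - A) / Q ^ 2 := by
        rw [← Real.rpow_natCast, ← Real.rpow_sub hQ0]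
        congr 1
        push_cast
        ring
      calc Scal725.dd (gm 3 Q) p * (PSD716.dd Q p * (1 + p / S) ^ (-A))
          ≤ (4 * (4 / Q ^ 2)) * (((p : ℝ) + 1) * (S ^ A * ((p : ℝ) + 1) ^ (-A))) := by
            apply mul_le_mul (hgm'.trans (by gcongr)) _ (by positivity) (by positivity)
            exact mul_le_mul h3 hw hw0 (by linarith)
        _ = 16 / Q ^ 2 * S ^ A * (((p : ℝ) + 1) * ((p : ℝ) + 1) ^ (-A)) := by ring
        _ ≤ 16 / Q ^ 2 * S ^ A * ((Q : ℝ) ^ (3 / 2 - A) * (Real.sqrt ((p : ℝ) + 1))⁻¹) := by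
            gcongr
        _ = 16 * S ^ A * (Q : ℝ) ^ (-(1 / 2) - A) * (Real.sqrt ((p : ℝ) + 1))⁻¹ := by
            rw [e2]; ring
        _ ≤ _ := by linarith
    · have h3 : PSD716.dd Q p ≤ (Q : ℝ) - p + 1 := min_le_right _ _
      have h4 : ((p : ℝ) + 1) ^ (-A) ≤ 4 * (Q : ℝ) ^ (-A) := by
        have h5 : ((p : ℝ) + 1) ^ (-A) ≤ ((Q : ℝ) / 2) ^ (-A) :=
          Real.rpow_le_rpow_of_nonpos (by positivity) (by linarith) (by linarith)
        refine h5.trans ?_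
        rw [Real.div_rpow hQ0.le (by norm_num), Real.rpow_neg (by norm_num : (0:ℝ) ≤ 2),
          div_inv_eq_mul, mul_comm]
        apply mul_le_mul_of_nonneg_right _ (by positivity)
        calc (2 : ℝ) ^ A ≤ (2 : ℝ) ^ (2 : ℝ) :=
              Real.rpow_le_rpow_of_exponent_le (by norm_num) (by linarith)
          _ = 4 := by norm_num
      have h6 : 0 ≤ 16 * S ^ A * (Q : ℝ) ^ (-(1 / 2) - A) * (Real.sqrt ((p : ℝ) + 1))⁻¹ := by
        positivity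
      calc Scal725.dd (gm 3 Q) p * (PSD716.dd Q p * (1 + p / S) ^ (-A))
          ≤ (4 * (((Q : ℝ) - p) ^ 2)⁻¹) *
              ((3 / 2 * ((Q : ℝ) - p)) * (S ^ A * (4 * (Q : ℝ) ^ (-A)))) := by
            apply mul_le_mul hgm' _ (by positivity) (by positivity)
            apply mul_le_mul (by linarith) _ hw0 (by positivity)
            exact hw.trans (by gcongr)
        _ = 24 * S ^ A * (Q : ℝ) ^ (-A) * ((Q : ℝ) - p)⁻¹ := by
            field_simp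
            ring
        _ ≤ _ := by linarith
  refine (sum_le_sum hterm).trans ?_
  rw [sum_add_distrib, ← mul_sum, ← mul_sum]
  have hs1 : ∑ p ∈ range (Q - 1), (Real.sqrt ((p : ℝ) + 1))⁻¹ ≤ 2 * Real.sqrt Q := by
    refine (sum_inv_sqrt (Q - 1)).trans ?_
    gcongr
    exact Nat.sub_le _ _
  have hs2 : ∑ p ∈ range (Q - 1), ((Q : ℝ) - p)⁻¹ ≤ 2 * Real.sqrt Q := by
    rw [sum_reflect Q (fun x => x⁻¹)]
    refine (sum_inv_le_log (Q - 1)).trans ?_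
    have e : ((Q - 1 : ℕ) : ℝ) + 1 = Q := by
      rw [Nat.cast_sub (by omega)]; push_cast; ring
    rw [e]
    exact log_le_two_sqrt hQ0
  have hsQ : Real.sqrt (Q : ℝ) = (Q : ℝ) ^ (1 / 2 : ℝ) := Real.sqrt_eq_rpow _
  have e3 : (Q : ℝ) ^ (-(1 / 2) - A) * Real.sqrt Q ≤ (Q : ℝ) ^ (1 / 2 - A) := by
    rw [hsQ, ← Real.rpow_add hQ0]
    apply Real.rpow_le_rpow_of_exponent_le hQ1
    linarith
  have e4 : (Q : ℝ) ^ (-A) * Real.sqrt Q = (Q : ℝ) ^ (1 / 2 - A) := by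
    rw [hsQ, ← Real.rpow_add hQ0]
    congr 1; ring
  calc 16 * S ^ A * (Q : ℝ) ^ (-(1 / 2) - A) * ∑ p ∈ range (Q - 1), (Real.sqrt ((p : ℝ) + 1))⁻¹ +
        24 * S ^ A * (Q : ℝ) ^ (-A) * ∑ p ∈ range (Q - 1), ((Q : ℝ) - p)⁻¹
      ≤ 16 * S ^ A * (Q : ℝ) ^ (-(1 / 2) - A) * (2 * Real.sqrt Q) +
        24 * S ^ A * (Q : ℝ) ^ (-A) * (2 * Real.sqrt Q) := by
        gcongr
    _ = 32 * S ^ A * ((Q : ℝ) ^ (-(1 / 2) - A) * Real.sqrt Q) +
        48 * S ^ A * ((Q : ℝ) ^ (-A) * Real.sqrt Q) := by ring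
    _ ≤ 32 * S ^ A * (Q : ℝ) ^ (1 / 2 - A) + 48 * S ^ A * (Q : ℝ) ^ (1 / 2 - A) := by
        rw [e4]
        gcongr
    _ = 80 * S ^ A * (Q : ℝ) ^ (1 / 2 - A) := by ring

end Crest.Agent.R340.CrsY874
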