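import Mathlib

/-!
Quasi-local calculus, part 1: abstract CAR representations, Majorana twirls,
conditional expectations, commutator bounds.
-/

set_option autoImplicit false
set_option linter.unusedSectionVars false

namespace Crest.Agent.R340.QL331

open Complex ComplexConjugate

/-- An abstract representation of the canonical anticommutation relations over a complex inner
product space `V` in a star algebra `A`, together with a parity unitary. -/
structure Car (A V : Type*) [NormedRing A] [StarRing A] [NormedAlgebra ℂ A]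
    [NormedAddCommGroup V] [InnerProductSpace ℂ V] where
  an : V → A
  an_add : ∀ v w, an (v + w) = an v + an w
  an_smul : ∀ (a : ℂ) v, an (a • v) = conj a • an v
  an_cr : ∀ v w, an v * star (an w) + star (an w) * an v = (inner ℂ v w : ℂ) • (1 : A)
  an_an : ∀ v w, an v * an w + an w * an v = 0
  th : A
  th_star : star th = th
  th_sq : th * th = 1
  th_an : ∀ v, th * an v * th = - an v

variable {A V : Type*} [NormedRing A] [StarRing A] [CStarRing A] [NormedAlgebra ℂ A]
  [StarModule ℂ A] [NormedAddCommGroup V] [InnerProductSpace ℂ V]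

/-- commutator -/
def br (a b : A) : A := a * b - b * a

theorem norm_br_le (a b : A) : ‖br a b‖ ≤ 2 * ‖a‖ * ‖b‖ := by
  have h1 : ‖a * b‖ ≤ ‖a‖ * ‖b‖ := norm_mul_le _ _
  have h2 : ‖b * a‖ ≤ ‖b‖ * ‖a‖ := norm_mul_le _ _
  calc ‖br a b‖ ≤ ‖a * b‖ + ‖b * a‖ := norm_sub_le _ _
    _ ≤ 2 * ‖a‖ * ‖b‖ := by nlinarith

theorem br_eq_zero {a b : A} (h : Commute a b) : br a b = 0 := by
  unfold br; rw [h.eq, sub_self]

theorem commute_of_br {a b : A} (h : br a b = 0) : Commute a b := by
  unfold br at h; exact sub_eq_zero.mp h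

theorem br_add (a b c : A) : br a (b + c) = br a b + br a c := by
  unfold br; noncomm_ring

theorem add_br (a b c : A) : br (a + b) c = br a c + br b c := by
  unfold br; noncomm_ring

theorem br_sub (a b c : A) : br a (b - c) = br a b - br a c := by
  unfold br; noncomm_ring

theorem sub_br (a b c : A) : br (a - b) c = br a c - br b c := by
  unfold br; noncomm_ring

theorem br_smul (z : ℂ) (a b : A) : br a (z • b) = z • br a b := by
  unfold br; rw [mul_smul_comm, smul_mul_assoc, smul_sub]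

theorem smul_br (z : ℂ) (a b : A) : br (z • a) b = z • br a b := by
  unfold br; rw [mul_smul_comm, smul_mul_assoc, smul_sub]

theorem br_neg (a b : A) : br a (-b) = - br a b := by
  unfold br; noncomm_ring

theorem br_swap (a b : A) : br a b = - br b a := by
  unfold br; noncomm_ring

theorem star_br (a b : A) : star (br a b) = - br (star a) (star b) := by
  unfold br; simp only [star_sub, star_mul]; noncomm_ring

theorem br_mul (a b c : A) : br a (b * c) = br a b * c + b * br a c := by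
  unfold br; noncomm_ring

theorem mul_br (a b c : A) : br (a * b) c = a * br b c + br a c * b := by
  unfold br; noncomm_ring

theorem jacobi (a b c : A) : br (br a b) c = br a (br b c) - br b (br a c) := by
  unfold br; noncomm_ring

theorem norm_br_star (a b : A) : ‖br (star a) (star b)‖ = ‖br a b‖ := by
  rw [← norm_star, star_br, norm_neg, star_star, star_star]

namespace Car

variable (R : Car A V)

/-- creation operator -/
def cr (v : V) : A := star (R.an v)

/-- Majorana operator -/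
def maj (v : V) : A := R.an v + star (R.an v)

theorem star_cr (v : V) : star (R.cr v) = R.an v := star_star _

theorem star_maj (v : V) : star (R.maj v) = R.maj v := by
  unfold maj; rw [star_add, star_star, add_comm]

theorem cr_add (v w : V) : R.cr (v + w) = R.cr v + R.cr w := by
  unfold cr; rw [R.an_add, star_add]

theorem cr_smul (a : ℂ) (v : V) : R.cr (a • v) = a • R.cr v := by
  unfold cr; rw [R.an_smul, star_smul, RCLike.star_def, Complex.conj_conj]

theorem an_zero : R.an 0 = 0 := by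
  have h := R.an_smul 0 0
  simpa using h

theorem cr_zero : R.cr 0 = 0 := by unfold cr; rw [an_zero, star_zero]

theorem an_neg (v : V) : R.an (-v) = - R.an v := by
  have h := R.an_smul (-1) v
  simpa using h

theorem an_sub (v w : V) : R.an (v - w) = R.an v - R.an w := by
  rw [sub_eq_add_neg, R.an_add, R.an_neg, ← sub_eq_add_neg]

theorem cr_sub (v w : V) : R.cr (v - w) = R.cr v - R.cr w := by
  unfold cr; rw [an_sub, star_sub]

theorem cr_cr (v w : V) : R.cr v * R.cr w + R.cr w * R.cr v = 0 := by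
  have h := congrArg star (R.an_an v w)
  simp only [star_add, star_mul, star_zero] at h
  unfold cr; rw [add_comm]; exact h

theorem cr_an (v w : V) : R.cr v * R.an w + R.an w * R.cr v = (inner ℂ w v : ℂ) • (1 : A) := by
  have h := R.an_cr w v
  unfold cr; rw [add_comm]; exact h

theorem maj_maj (v w : V) :
    R.maj v * R.maj w + R.maj w * R.maj v = ((2 * (inner ℂ v w : ℂ).re : ℝ) : ℂ) • (1 : A) := by
  have h1 := R.an_cr v w
  have h2 := R.an_cr w v
  have h3 := R.an_an v w
  have h4 := R.cr_cr v w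
  unfold cr at h4
  have h5 : ((2 * (inner ℂ v w : ℂ).re : ℝ) : ℂ) = inner ℂ v w + inner ℂ w v := by
    rw [← inner_conj_symm w v]
    push_cast
    exact (Complex.add_conj _).symm ▸ by push_cast; ring
  rw [h5, add_smul, ← h1, ← h2]
  unfold maj
  have : (R.an v + star (R.an v)) * (R.an w + star (R.an w)) +
      (R.an w + star (R.an w)) * (R.an v + star (R.an v)) =
      (R.an v * R.an w + R.an w * R.an v) +
      (star (R.an v) * star (R.an w) + star (R.an w) * star (R.an v)) +
      ((R.an v * star (R.an w) + star (R.an w) * R.an v) +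
      (R.an w * star (R.an v) + star (R.an v) * R.an w)) := by noncomm_ring
  rw [this, h3, h4, zero_add, zero_add]

theorem maj_sq (v : V) : R.maj v * R.maj v = ((‖v‖ ^ 2 : ℝ) : ℂ) • (1 : A) := by
  have h := R.maj_maj v v
  have h1 : (inner ℂ v v : ℂ).re = ‖v‖ ^ 2 := by
    rw [inner_self_eq_norm_sq_to_K (𝕜 := ℂ) v]
    norm_cast
  rw [h1] at h
  have h2 : (2 : ℂ) • (R.maj v * R.maj v) = (2 : ℂ) • (((‖v‖ ^ 2 : ℝ) : ℂ) • (1 : A)) := by
    rw [two_smul, h, smul_smul]; push_cast; rfl
  have h3 : (2 : ℂ) ≠ 0 := two_ne_zero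
  exact smul_right_injective A h3 h2

theorem maj_sq_one {v : V} (hv : ‖v‖ = 1) : R.maj v * R.maj v = 1 := by
  rw [maj_sq, hv]; simp

theorem norm_maj_le (v : V) : ‖R.maj v‖ ≤ ‖v‖ := by
  rcases subsingleton_or_nontrivial A with hA | hA
  · rw [Subsingleton.elim (R.maj v) 0, norm_zero]; exact norm_nonneg _
  · have h := CStarRing.norm_star_mul_self (x := R.maj v)
    rw [star_maj, maj_sq, norm_smul, CStarRing.norm_one, mul_one] at h
    have h1 : ‖((‖v‖ ^ 2 : ℝ) : ℂ)‖ = ‖v‖ ^ 2 := by
      rw [Complex.norm_real, Real.norm_eq_abs, abs_of_nonneg (by positivity)]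
    rw [h1] at h
    nlinarith [norm_nonneg (R.maj v), norm_nonneg v]

theorem maj_I (v : V) : R.maj (I • v) = (-I) • R.an v + I • R.cr v := by
  unfold maj cr
  rw [R.an_smul, star_smul]
  simp

theorem two_an (v : V) : (2 : ℂ) • R.an v = R.maj v + I • R.maj (I • v) := by
  rw [maj_I, smul_add, smul_smul, smul_smul]
  unfold maj cr
  simp [two_smul]
  abel

theorem two_cr (v : V) : (2 : ℂ) • R.cr v = R.maj v - I • R.maj (I • v) := by
  rw [maj_I, smul_add, smul_smul, smul_smul]
  unfold maj cr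
  simp [two_smul]

theorem norm_an_le (v : V) : ‖R.an v‖ ≤ ‖v‖ := by
  have h := R.two_an v
  have h1 : ‖(2 : ℂ) • R.an v‖ ≤ ‖v‖ + ‖v‖ := by
    rw [h]
    calc ‖R.maj v + I • R.maj (I • v)‖ ≤ ‖R.maj v‖ + ‖I • R.maj (I • v)‖ := norm_add_le _ _
      _ ≤ ‖v‖ + ‖v‖ := by
        refine add_le_add (R.norm_maj_le v) ?_
        rw [norm_smul, Complex.norm_I, one_mul]
        refine (R.norm_maj_le _).trans ?_
        rw [norm_smul, Complex.norm_I, one_mul]
  rw [norm_smul] at h1
  simp at h1
  linarith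

theorem norm_cr_le (v : V) : ‖R.cr v‖ ≤ ‖v‖ := by
  unfold cr; rw [norm_star]; exact R.norm_an_le v

/-- `a` commutes with the modes of `v`. -/
def Cm (v : V) (a : A) : Prop := Commute a (R.an v) ∧ Commute a (R.cr v)

theorem cm_iff_maj (v : V) (a : A) :
    R.Cm v a ↔ Commute a (R.maj v) ∧ Commute a (R.maj (I • v)) := by
  constructor
  · rintro ⟨h1, h2⟩
    refine ⟨?_, ?_⟩
    · exact h1.add_right h2
    · rw [maj_I]; exact (h1.smul_right _).add_right (h2.smul_right _)
  · rintro ⟨h1, h2⟩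
    have h3 : (2 : ℂ) ≠ 0 := two_ne_zero
    refine ⟨?_, ?_⟩
    · have : R.an v = (2 : ℂ)⁻¹ • (R.maj v + I • R.maj (I • v)) := by
        rw [← R.two_an v, smul_smul, inv_mul_cancel₀ h3, one_smul]
      rw [this]
      exact (h1.add_right (h2.smul_right _)).smul_right _
    · have : R.cr v = (2 : ℂ)⁻¹ • (R.maj v - I • R.maj (I • v)) := by
        rw [← R.two_cr v, smul_smul, inv_mul_cancel₀ h3, one_smul]
      rw [this]
      exact (h1.sub_right (h2.smul_right _)).smul_right _

/-- The twirl by a Majorana operator. -/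
noncomputable def tw (v : V) (a : A) : A := (2 : ℂ)⁻¹ • (a + R.maj v * a * R.maj v)

theorem tw_add (v : V) (a b : A) : R.tw v (a + b) = R.tw v a + R.tw v b := by
  unfold tw; rw [← smul_add]; congr 1; noncomm_ring

theorem tw_smul (v : V) (z : ℂ) (a : A) : R.tw v (z • a) = z • R.tw v a := by
  unfold tw
  rw [mul_smul_comm, smul_mul_assoc, ← smul_add, smul_comm]

theorem tw_star (v : V) (a : A) : R.tw v (star a) = star (R.tw v a) := by
  unfold tw
  rw [star_smul, star_add, star_mul, star_mul, star_maj, ← mul_assoc]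
  congr 1
  simp

theorem norm_tw_le {v : V} (hv : ‖v‖ = 1) (a : A) : ‖R.tw v a‖ ≤ ‖a‖ := by
  unfold tw
  rw [norm_smul]
  have h1 : ‖R.maj v‖ ≤ 1 := hv ▸ R.norm_maj_le v
  have h2 : ‖R.maj v * a * R.maj v‖ ≤ ‖a‖ := by
    calc ‖R.maj v * a * R.maj v‖ ≤ ‖R.maj v‖ * ‖a‖ * ‖R.maj v‖ :=
          (norm_mul_le _ _).trans (mul_le_mul_of_nonneg_right (norm_mul_le _ _) (norm_nonneg _))
      _ ≤ 1 * ‖a‖ * 1 := by gcongr
      _ = ‖a‖ := by ring
  have h3 : ‖a + R.maj v * a * R.maj v‖ ≤ ‖a‖ + ‖a‖ := (norm_add_le _ _).trans (by linarith)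
  have h4 : ‖(2 : ℂ)⁻¹‖ = 1 / 2 := by simp
  rw [h4]; linarith

theorem sub_tw {v : V} (hv : ‖v‖ = 1) (a : A) :
    a - R.tw v a = (2 : ℂ)⁻¹ • (br a (R.maj v) * R.maj v) := by
  have h : br a (R.maj v) * R.maj v = a - R.maj v * a * R.maj v := by
    unfold br
    rw [sub_mul, mul_assoc, R.maj_sq_one hv, mul_one]
  rw [h]
  unfold tw
  have h2 : a = (2 : ℂ)⁻¹ • (a + a) := by
    rw [← two_smul ℂ a, smul_smul, inv_mul_cancel₀ (two_ne_zero), one_smul]
  nth_rewrite 1 [h2]
  rw [← smul_sub]
  congr 1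
  abel

theorem norm_br_maj_le (v : V) (a : A) :
    ‖br a (R.maj v)‖ ≤ ‖br a (R.an v)‖ + ‖br a (R.cr v)‖ := by
  unfold maj
  rw [br_add]
  exact norm_add_le _ _

theorem norm_br_maj_I_le (v : V) (a : A) :
    ‖br a (R.maj (I • v))‖ ≤ ‖br a (R.an v)‖ + ‖br a (R.cr v)‖ := by
  rw [maj_I, br_add, br_smul, br_smul]
  refine (norm_add_le _ _).trans ?_
  rw [norm_smul, norm_smul]
  simp

theorem norm_sub_tw_le {v : V} (hv : ‖v‖ = 1) (a : A) :
    ‖a - R.tw v a‖ ≤ 1 / 2 * ‖br a (R.maj v)‖ := by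
  rw [R.sub_tw hv, norm_smul]
  have h1 : ‖R.maj v‖ ≤ 1 := hv ▸ R.norm_maj_le v
  have h4 : ‖(2 : ℂ)⁻¹‖ = 1 / 2 := by simp
  rw [h4]
  have : ‖br a (R.maj v) * R.maj v‖ ≤ ‖br a (R.maj v)‖ * 1 :=
    (norm_mul_le _ _).trans (by gcongr)
  linarith

theorem tw_fix {v : V} (hv : ‖v‖ = 1) {a : A} (h : Commute a (R.maj v)) : R.tw v a = a := by
  have := R.sub_tw hv a
  rw [br_eq_zero h, zero_mul, smul_zero] at this
  exact (sub_eq_zero.mp this).symm

theorem tw_comm_self {v : V} (hv : ‖v‖ = 1) (a : A) : Commute (R.tw v a) (R.maj v) := by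
  unfold tw
  refine Commute.smul_left ?_ _
  change (a + R.maj v * a * R.maj v) * R.maj v = R.maj v * (a + R.maj v * a * R.maj v)
  have h := R.maj_sq_one hv
  calc (a + R.maj v * a * R.maj v) * R.maj v
      = a * R.maj v + R.maj v * a * (R.maj v * R.maj v) := by noncomm_ring
    _ = R.maj v * a + (R.maj v * R.maj v) * a * R.maj v := by rw [h]; noncomm_ring
    _ = _ := by noncomm_ring

theorem tw_comm {v w : V} (h : (inner ℂ v w : ℂ).re = 0) {a : A}
    (hc : Commute a (R.maj w)) : Commute (R.tw v a) (R.maj w) := by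
  unfold tw
  refine Commute.smul_left (Commute.add_left hc ?_) _
  have h1 : R.maj v * R.maj w = - (R.maj w * R.maj v) := by
    have := R.maj_maj v w
    rw [h] at this
    simp at this
    exact eq_neg_of_add_eq_zero_left this
  have h2 : a * R.maj w = R.maj w * a := hc
  change R.maj v * a * R.maj v * R.maj w = R.maj w * (R.maj v * a * R.maj v)
  calc R.maj v * a * R.maj v * R.maj w = R.maj v * a * (R.maj v * R.maj w) := by noncomm_ring
    _ = - (R.maj v * (a * R.maj w) * R.maj v) := by rw [h1]; noncomm_ring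
    _ = - ((R.maj v * R.maj w) * a * R.maj v) := by rw [h2]; noncomm_ring
    _ = _ := by rw [h1]; noncomm_ring

/-- The conditional expectation removing the (complex) mode `v`. -/
noncomputable def ex1 (v : V) (a : A) : A := R.tw v (R.tw (I • v) a)

theorem norm_I_smul (v : V) : ‖(I : ℂ) • v‖ = ‖v‖ := by rw [norm_smul, Complex.norm_I, one_mul]

theorem ex1_add (v : V) (a b : A) : R.ex1 v (a + b) = R.ex1 v a + R.ex1 v b := by
  unfold ex1; rw [tw_add, tw_add]

theorem ex1_smul (v : V) (z : ℂ) (a : A) : R.ex1 v (z • a) = z • R.ex1 v a := by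
  unfold ex1; rw [tw_smul, tw_smul]

theorem ex1_star (v : V) (a : A) : R.ex1 v (star a) = star (R.ex1 v a) := by
  unfold ex1; rw [tw_star, tw_star]

theorem norm_ex1_le {v : V} (hv : ‖v‖ = 1) (a : A) : ‖R.ex1 v a‖ ≤ ‖a‖ :=
  (R.norm_tw_le hv _).trans (R.norm_tw_le (by rw [norm_I_smul, hv]) _)

theorem norm_sub_ex1_le {v : V} (hv : ‖v‖ = 1) (a : A) :
    ‖a - R.ex1 v a‖ ≤ ‖br a (R.an v)‖ + ‖br a (R.cr v)‖ := by
  have h1 := R.norm_sub_tw_le hv a
  have h2 := R.norm_sub_tw_le (v := I • v) (by rw [norm_I_smul, hv]) a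
  have h3 : a - R.ex1 v a = (a - R.tw v a) + R.tw v (a - R.tw (I • v) a) := by
    unfold ex1
    have : R.tw v a = R.tw v (a - R.tw (I • v) a) + R.tw v (R.tw (I • v) a) := by
      rw [← tw_add]; congr 1; abel
    rw [this]; abel
  rw [h3]
  have h4 := R.norm_tw_le hv (a - R.tw (I • v) a)
  have h5 := R.norm_br_maj_le v a
  have h6 := R.norm_br_maj_I_le v a
  calc _ ≤ ‖a - R.tw v a‖ + ‖R.tw v (a - R.tw (I • v) a)‖ := norm_add_le _ _
    _ ≤ _ := by linarith

theorem re_inner_I (v : V) : (inner ℂ v (I • v) : ℂ).re = 0 := by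
  have h : (inner ℂ v v : ℂ).im = 0 := inner_self_im (𝕜 := ℂ) v
  rw [inner_smul_right, Complex.mul_re, h]
  simp

theorem re_inner_I' (v : V) : (inner ℂ (I • v) v : ℂ).re = 0 := by
  rw [← inner_conj_symm, Complex.conj_re]; exact re_inner_I v

theorem ex1_cm_self {v : V} (hv : ‖v‖ = 1) (a : A) : R.Cm v (R.ex1 v a) := by
  rw [cm_iff_maj]
  refine ⟨R.tw_comm_self hv _, ?_⟩
  exact R.tw_comm (re_inner_I v) (R.tw_comm_self (by rw [norm_I_smul, hv]) a)

theorem ex1_cm {v w : V} (h : (inner ℂ v w : ℂ) = 0) {a : A} (hc : R.Cm w a) :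
    R.Cm w (R.ex1 v a) := by
  rw [cm_iff_maj] at hc ⊢
  have h1 : (inner ℂ v (I • w) : ℂ) = 0 := by rw [inner_smul_right, h, mul_zero]
  have h2 : (inner ℂ (I • v) w : ℂ) = 0 := by rw [inner_smul_left, h, mul_zero]
  have h3 : (inner ℂ (I • v) (I • w) : ℂ) = 0 := by rw [inner_smul_left, h1, mul_zero]
  refine ⟨R.tw_comm (by rw [h]; rfl) (R.tw_comm (by rw [h2]; rfl) hc.1),
    R.tw_comm (by rw [h1]; rfl) (R.tw_comm (by rw [h3]; rfl) hc.2)⟩

theorem ex1_fix {v : V} (hv : ‖v‖ = 1) {a : A} (h : R.Cm v a) : R.ex1 v a = a := by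
  rw [cm_iff_maj] at h
  unfold ex1
  rw [R.tw_fix (v := I • v) (by rw [norm_I_smul, hv]) h.2, R.tw_fix hv h.1]

/-- The conditional expectation removing a list of modes. -/
noncomputable def ex (l : List V) (a : A) : A := l.foldr R.ex1 a

@[simp] theorem ex_nil (a : A) : R.ex [] a = a := rfl

@[simp] theorem ex_cons (v : V) (l : List V) (a : A) : R.ex (v :: l) a = R.ex1 v (R.ex l a) := rfl

theorem ex_append (l m : List V) (a : A) : R.ex (l ++ m) a = R.ex l (R.ex m a) := by
  unfold ex; rw [List.foldr_append]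

theorem ex_add (l : List V) (a b : A) : R.ex l (a + b) = R.ex l a + R.ex l b := by
  induction l with
  | nil => rfl
  | cons v l ih => rw [ex_cons, ih, ex1_add]; rfl

theorem ex_smul (l : List V) (z : ℂ) (a : A) : R.ex l (z • a) = z • R.ex l a := by
  induction l with
  | nil => rfl
  | cons v l ih => rw [ex_cons, ih, ex1_smul]; rfl

theorem ex_star (l : List V) (a : A) : R.ex l (star a) = star (R.ex l a) := by
  induction l with
  | nil => rfl
  | cons v l ih => rw [ex_cons, ih, ex1_star]; rfl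

/-- `ex l` as a linear map. -/
noncomputable def exL (l : List V) : A →ₗ[ℂ] A where
  toFun := R.ex l
  map_add' := R.ex_add l
  map_smul' := R.ex_smul l

theorem ex_sub (l : List V) (a b : A) : R.ex l (a - b) = R.ex l a - R.ex l b :=
  (R.exL l).map_sub a b

theorem ex_zero (l : List V) : R.ex l (0 : A) = 0 := (R.exL l).map_zero

theorem ex_neg (l : List V) (a : A) : R.ex l (-a) = - R.ex l a := (R.exL l).map_neg a

theorem norm_ex_le {l : List V} (hl : ∀ v ∈ l, ‖v‖ = 1) (a : A) : ‖R.ex l a‖ ≤ ‖a‖ := by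
  induction l with
  | nil => exact le_rfl
  | cons v l ih =>
    rw [ex_cons]
    exact (R.norm_ex1_le (hl v (by simp)) _).trans (ih fun w hw => hl w (by simp [hw]))

/-- size of the commutators of `a` with the mode `v` -/
noncomputable def cs (a : A) (v : V) : ℝ := ‖br a (R.an v)‖ + ‖br a (R.cr v)‖

theorem cs_nonneg (a : A) (v : V) : 0 ≤ R.cs a v := by unfold cs; positivity

theorem norm_sub_ex_le {l : List V} (hl : ∀ v ∈ l, ‖v‖ = 1) (a : A) :
    ‖a - R.ex l a‖ ≤ (l.map (R.cs a)).sum := by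
  induction l with
  | nil => simp
  | cons v l ih =>
    have hv : ‖v‖ = 1 := hl v (by simp)
    have h1 := ih fun w hw => hl w (by simp [hw])
    have h2 : a - R.ex (v :: l) a = (a - R.ex1 v a) + R.ex1 v (a - R.ex l a) := by
      rw [ex_cons]
      have : R.ex1 v a = R.ex1 v (a - R.ex l a) + R.ex1 v (R.ex l a) := by
        rw [← ex1_add]; congr 1; abel
      nth_rewrite 1 [this]; abel
    rw [h2, List.map_cons, List.sum_cons]
    have h3 := R.norm_sub_ex1_le hv a
    have h4 := R.norm_ex1_le hv (a - R.ex l a)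
    calc _ ≤ ‖a - R.ex1 v a‖ + ‖R.ex1 v (a - R.ex l a)‖ := norm_add_le _ _
      _ ≤ _ := by unfold cs at *; linarith

theorem ex_cm_of_orth {l : List V} {w : V} (h : ∀ v ∈ l, (inner ℂ v w : ℂ) = 0) {a : A}
    (hc : R.Cm w a) : R.Cm w (R.ex l a) := by
  induction l with
  | nil => exact hc
  | cons v l ih =>
    rw [ex_cons]
    exact R.ex1_cm (h v (by simp)) (ih fun u hu => h u (by simp [hu]))

theorem ex_cm {l : List V} (hl : ∀ v ∈ l, ‖v‖ = 1)
    (ho : l.Pairwise fun v w => (inner ℂ v w : ℂ) = 0) (a : A) :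
    ∀ w ∈ l, R.Cm w (R.ex l a) := by
  induction l with
  | nil => simp
  | cons v l ih =>
    intro w hw
    rw [List.pairwise_cons] at ho
    rw [ex_cons]
    rcases List.mem_cons.mp hw with rfl | hw'
    · exact R.ex1_cm_self (hl _ (by simp)) _
    · exact R.ex1_cm (ho.1 w hw') (ih (fun u hu => hl u (by simp [hu])) ho.2 w hw')

theorem ex_fix {l : List V} (hl : ∀ v ∈ l, ‖v‖ = 1) {a : A} (h : ∀ v ∈ l, R.Cm v a) :
    R.ex l a = a := by
  induction l with
  | nil => rfl
  | cons v l ih =>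
    rw [ex_cons, ih (fun w hw => hl w (by simp [hw])) (fun w hw => h w (by simp [hw]))]
    exact R.ex1_fix (hl v (by simp)) (h v (by simp))

end Car

end Crest.Agent.R340.QL331
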