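import Crest.Agent.R340.LR1_667
import Crest.Agent.R340.QL1_331
import Mathlib.MeasureTheory.Integral.Bochner.ContinuousLinearMap

/-!
Double commutator hypothesis of `LR667.lr` / `LR667.lr_flow` for
`H = ∫ (β • B_z^* B_z + c(z) • n_z) dμ(z)`, `B_z = a(u₁(z)) a(u₀(z))`, `n_z = a(u₀(z))^* a(u₀(z))`
over an abstract representation of the CAR (helper867).
-/

set_option autoImplicit false
set_option linter.unusedSectionVars false

open scoped ENNReal NNReal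
open MeasureTheory

namespace Crest.Agent.R340.DC867

open Crest.Agent.R340.QL331 Crest.Agent.R340.LR667

variable {A V : Type*} [CStarAlgebra A] [NormedAddCommGroup V] [InnerProductSpace ℂ V]
  (R : Car A V) {S : Type*}

/-- The generator family: annihilators (`false`) and creators (`true`) of `u 0 z`, `u 1 z`. -/
def gen (u : Fin 2 → S → V) (k : Fin 2 × Bool) (z : S) : A :=
  if k.2 then R.cr (u k.1 z) else R.an (u k.1 z)

@[simp] theorem gen_false (u : Fin 2 → S → V) (k : Fin 2) (z : S) :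
    gen R u (k, false) z = R.an (u k z) := rfl

@[simp] theorem gen_true (u : Fin 2 → S → V) (k : Fin 2) (z : S) :
    gen R u (k, true) z = R.cr (u k z) := rfl

theorem star_gen (u : Fin 2 → S → V) (k : Fin 2) (b : Bool) (z : S) :
    star (gen R u (k, b) z) = gen R u (k, !b) z := by
  cases b
  · rfl
  · simp [Car.star_cr]

theorem norm_gen_le {u : Fin 2 → S → V} (hu : ∀ k z, ‖u k z‖ ≤ 1) (k : Fin 2 × Bool) (z : S) :
    ‖gen R u k z‖ ≤ 1 := by
  obtain ⟨k, b⟩ := k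
  cases b
  · exact (R.norm_an_le _).trans (hu k z)
  · exact (R.norm_cr_le _).trans (hu k z)

/-- pair annihilator at `z` -/
def Bz (u : Fin 2 → S → V) (z : S) : A := R.an (u 1 z) * R.an (u 0 z)

/-- occupation number at `z` -/
def nz (u : Fin 2 → S → V) (z : S) : A := R.cr (u 0 z) * R.an (u 0 z)

theorem star_Bz (u : Fin 2 → S → V) (z : S) : star (Bz R u z) = R.cr (u 0 z) * R.cr (u 1 z) := by
  rw [Bz, star_mul]; rfl

theorem star_nz (u : Fin 2 → S → V) (z : S) : star (nz R u z) = nz R u z := by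
  rw [nz, star_mul, R.star_cr]; rfl

theorem Bz_comm_an (u : Fin 2 → S → V) (z : S) (v : V) :
    Bz R u z * R.an v = R.an v * Bz R u z := by
  have h0 : R.an (u 0 z) * R.an v = - (R.an v * R.an (u 0 z)) :=
    eq_neg_of_add_eq_zero_left (R.an_an _ _)
  have h1 : R.an (u 1 z) * R.an v = - (R.an v * R.an (u 1 z)) :=
    eq_neg_of_add_eq_zero_left (R.an_an _ _)
  calc Bz R u z * R.an v = R.an (u 1 z) * (R.an (u 0 z) * R.an v) := by
        rw [Bz]; noncomm_ring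
    _ = -((R.an (u 1 z) * R.an v) * R.an (u 0 z)) := by rw [h0]; noncomm_ring
    _ = R.an v * Bz R u z := by rw [h1, Bz]; noncomm_ring

theorem lie_star_Bz_an (u : Fin 2 → S → V) (z : S) (v : V) :
    ⁅star (Bz R u z), R.an v⁆ =
      (inner ℂ v (u 1 z) : ℂ) • R.cr (u 0 z) - (inner ℂ v (u 0 z) : ℂ) • R.cr (u 1 z) := by
  have h0 : R.an v * R.cr (u 0 z) = (inner ℂ v (u 0 z) : ℂ) • (1 : A) - R.cr (u 0 z) * R.an v :=
    eq_sub_of_add_eq (R.an_cr _ _)
  have h1 : R.cr (u 1 z) * R.an v = (inner ℂ v (u 1 z) : ℂ) • (1 : A) - R.an v * R.cr (u 1 z) :=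
    eq_sub_of_add_eq (R.cr_an _ _)
  rw [star_Bz, Ring.lie_def]
  calc R.cr (u 0 z) * R.cr (u 1 z) * R.an v - R.an v * (R.cr (u 0 z) * R.cr (u 1 z))
      = R.cr (u 0 z) * (R.cr (u 1 z) * R.an v) - (R.an v * R.cr (u 0 z)) * R.cr (u 1 z) := by
        noncomm_ring
    _ = _ := by
        rw [h0, h1]
        simp only [mul_sub, sub_mul, mul_smul_comm, smul_mul_assoc, mul_one, one_mul, mul_assoc]
        abel

theorem lie_h_an (u : Fin 2 → S → V) (z : S) (v : V) :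
    ⁅star (Bz R u z) * Bz R u z, R.an v⁆ =
      (inner ℂ v (u 1 z) : ℂ) • (R.cr (u 0 z) * R.an (u 1 z) * R.an (u 0 z)) -
      (inner ℂ v (u 0 z) : ℂ) • (R.cr (u 1 z) * R.an (u 1 z) * R.an (u 0 z)) := by
  have h := lie_star_Bz_an R u z v
  have e : ⁅star (Bz R u z) * Bz R u z, R.an v⁆ = ⁅star (Bz R u z), R.an v⁆ * Bz R u z := by
    simp only [Ring.lie_def, sub_mul]
    rw [mul_assoc, Bz_comm_an, ← mul_assoc, ← mul_assoc]
  rw [e, h, Bz]
  simp only [sub_mul, smul_mul_assoc, mul_assoc]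

theorem lie_n_an (u : Fin 2 → S → V) (z : S) (v : V) :
    ⁅nz R u z, R.an v⁆ = -((inner ℂ v (u 0 z) : ℂ) • R.an (u 0 z)) := by
  have h0 : R.an v * R.cr (u 0 z) = (inner ℂ v (u 0 z) : ℂ) • (1 : A) - R.cr (u 0 z) * R.an v :=
    eq_sub_of_add_eq (R.an_cr _ _)
  have h1 : R.an (u 0 z) * R.an v = - (R.an v * R.an (u 0 z)) :=
    eq_neg_of_add_eq_zero_left (R.an_an _ _)
  rw [nz, Ring.lie_def]
  calc R.cr (u 0 z) * R.an (u 0 z) * R.an v - R.an v * (R.cr (u 0 z) * R.an (u 0 z))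
      = R.cr (u 0 z) * (R.an (u 0 z) * R.an v) - (R.an v * R.cr (u 0 z)) * R.an (u 0 z) := by
        noncomm_ring
    _ = _ := by
        rw [h0, h1]
        simp only [sub_mul, smul_mul_assoc, one_mul, mul_neg, mul_assoc]
        abel

/-- the overlap kernel -/
noncomputable def kap0 (u : Fin 2 → S → V) (v : V) (z : S) : ℝ≥0∞ :=
  ‖(inner ℂ v (u 0 z) : ℂ)‖ₑ + ‖(inner ℂ v (u 1 z) : ℂ)‖ₑ

theorem enorm_lie_le_prof (u : Fin 2 → S → V) (X : A) (k : Fin 2 × Bool) (z : S) :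
    ‖⁅X, gen R u k z⁆‖ₑ ≤ prof (gen R u) X z := le_prof _ _ _ _

theorem enorm_star_lie (X Y : A) : ‖⁅star X, star Y⁆‖ₑ = ‖⁅X, Y⁆‖ₑ := by
  have e : ⁅star X, star Y⁆ = -star ⁅X, Y⁆ := by
    simp only [Ring.lie_def, star_sub, star_mul]
    abel
  rw [e, enorm_neg, enorm_eq_nnnorm, enorm_eq_nnnorm, nnnorm_star]

theorem prof_star (u : Fin 2 → S → V) (X : A) (z : S) :
    prof (gen R u) (star X) z = prof (gen R u) X z := by
  have h : ∀ Y : A, prof (gen R u) (star Y) z ≤ prof (gen R u) Y z := by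
    intro Y
    refine iSup_le fun k => ?_
    obtain ⟨k, b⟩ := k
    have := enorm_star_lie Y (gen R u (k, !b) z)
    rw [star_gen, Bool.not_not] at this
    rw [this]
    exact le_prof _ _ _ _
  exact le_antisymm (h X) (by simpa using h (star X))

theorem enorm_lie_smul (X Y : A) (c : ℂ) : ‖⁅X, c • Y⁆‖ₑ = ‖c‖ₑ * ‖⁅X, Y⁆‖ₑ := by
  rw [lie_smul', enorm_smul]

theorem lie_sub' (X Y Z : A) : ⁅X, Y - Z⁆ = ⁅X, Y⁆ - ⁅X, Z⁆ := by
  simp only [Ring.lie_def, mul_sub, sub_mul]; abel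

theorem lie_add' (X Y Z : A) : ⁅X, Y + Z⁆ = ⁅X, Y⁆ + ⁅X, Z⁆ := by
  simp only [Ring.lie_def, mul_add, add_mul]; abel

theorem add_lie' (X Y Z : A) : ⁅X + Y, Z⁆ = ⁅X, Z⁆ + ⁅Y, Z⁆ := by
  simp only [Ring.lie_def, mul_add, add_mul]; abel

theorem enorm_lie_lie_h_an {u : Fin 2 → S → V} (hu : ∀ k z, ‖u k z‖ ≤ 1) (X : A) (z : S) (v : V) :
    ‖⁅X, ⁅star (Bz R u z) * Bz R u z, R.an v⁆⁆‖ₑ ≤ 3 * (kap0 u v z * prof (gen R u) X z) := by
  rw [lie_h_an, lie_sub']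
  refine (enorm_sub_le).trans ?_
  rw [enorm_lie_smul, enorm_lie_smul]
  have h1 : ‖⁅X, R.cr (u 0 z) * R.an (u 1 z) * R.an (u 0 z)⁆‖ₑ ≤ 3 * prof (gen R u) X z :=
    lie_mul3_le (norm_gen_le R hu (0, true) z) (norm_gen_le R hu (1, false) z)
      (norm_gen_le R hu (0, false) z) (le_prof (gen R u) X z (0, true))
      (le_prof (gen R u) X z (1, false)) (le_prof (gen R u) X z (0, false))
  have h2 : ‖⁅X, R.cr (u 1 z) * R.an (u 1 z) * R.an (u 0 z)⁆‖ₑ ≤ 3 * prof (gen R u) X z :=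
    lie_mul3_le (norm_gen_le R hu (1, true) z) (norm_gen_le R hu (1, false) z)
      (norm_gen_le R hu (0, false) z) (le_prof (gen R u) X z (1, true))
      (le_prof (gen R u) X z (1, false)) (le_prof (gen R u) X z (0, false))
  calc ‖(inner ℂ v (u 1 z) : ℂ)‖ₑ * _ + ‖(inner ℂ v (u 0 z) : ℂ)‖ₑ * _
      ≤ ‖(inner ℂ v (u 1 z) : ℂ)‖ₑ * (3 * prof (gen R u) X z) +
        ‖(inner ℂ v (u 0 z) : ℂ)‖ₑ * (3 * prof (gen R u) X z) := by gcongr
    _ = _ := by rw [kap0]; ring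

theorem enorm_lie_lie_n_an (u : Fin 2 → S → V) (X : A) (z : S) (v : V) :
    ‖⁅X, ⁅nz R u z, R.an v⁆⁆‖ₑ ≤ kap0 u v z * prof (gen R u) X z := by
  rw [lie_n_an, lie_neg', enorm_neg, enorm_lie_smul]
  have h1 := le_prof (gen R u) X z (0, false)
  rw [gen_false] at h1
  gcongr
  rw [kap0]
  exact le_self_add

theorem enorm_lie_lie_star {h : A} (hh : star h = h) (X : A) (v : V) :
    ‖⁅X, ⁅h, R.cr v⁆⁆‖ₑ = ‖⁅star X, ⁅h, R.an v⁆⁆‖ₑ := by
  have e : ⁅X, ⁅h, R.cr v⁆⁆ = star ⁅star X, ⁅h, R.an v⁆⁆ := by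
    have e1 : star (R.an v) = R.cr v := rfl
    simp only [Ring.lie_def, star_sub, star_mul, star_star, hh, e1]
    noncomm_ring
  rw [e, enorm_eq_nnnorm, enorm_eq_nnnorm, nnnorm_star]

variable [MeasurableSpace S] (μ : Measure S)

/-- `X ↦ ⁅X, ·⁆` as a real continuous linear map. -/
noncomputable def adR (X : A) : A →L[ℝ] A :=
  (ContinuousLinearMap.mul ℝ A X) - (ContinuousLinearMap.mul ℝ A).flip X

@[simp] theorem adR_apply (X Y : A) : adR X Y = ⁅X, Y⁆ := by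
  simp [adR, Ring.lie_def]

theorem lie_integral {F : S → A} (hF : Integrable F μ) (X : A) :
    ⁅X, ∫ z, F z ∂μ⁆ = ∫ z, ⁅X, F z⁆ ∂μ := by
  have h := (adR X).integral_comp_comm hF
  simp only [adR_apply] at h
  exact h.symm

theorem integral_lie {F : S → A} (hF : Integrable F μ) (X : A) :
    ⁅∫ z, F z ∂μ, X⁆ = ∫ z, ⁅F z, X⁆ ∂μ := by
  have h := lie_integral μ hF X
  have e : ∀ Y : A, ⁅Y, X⁆ = -⁅X, Y⁆ := fun Y => by simp only [Ring.lie_def]; abel
  rw [e, h, ← integral_neg]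
  exact integral_congr_ae (Filter.Eventually.of_forall fun z => (e (F z)).symm)

theorem integrable_lie {F : S → A} (hF : Integrable F μ) (X : A) :
    Integrable (fun z => ⁅F z, X⁆) μ := by
  have h := (adR X).integrable_comp hF
  have e : (fun z => ⁅F z, X⁆) = fun z => -(adR X (F z)) := by
    funext z; simp only [adR_apply, Ring.lie_def]; abel
  rw [e]
  exact h.neg

/-- **The double commutator hypothesis** for `H = ∫ (β B_z^*B_z + c(z) n_z)`. -/
theorem dc {u : Fin 2 → S → V} (hu : ∀ k z, ‖u k z‖ ≤ 1) {β α : ℝ≥0} {c : S → ℝ} {b : S → ℝ}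
    (hb : ∀ z, ‖b z‖ₑ ≤ β) (hc : ∀ z, ‖c z‖ₑ ≤ α)
    (hF : Integrable (fun z => b z • (star (Bz R u z) * Bz R u z) + c z • nz R u z) μ) {H : A}
    (hH : H = ∫ z, (b z • (star (Bz R u z) * Bz R u z) + c z • nz R u z) ∂μ)
    (X : A) (k : Fin 2 × Bool) (w : S) :
    ‖⁅X, ⁅H, gen R u k w⁆⁆‖ₑ ≤
      ∫⁻ z, ((3 * β + α : ℝ≥0) * kap0 u (u k.1 w) z) * prof (gen R u) X z ∂μ := by
  set F : S → A := fun z => b z • (star (Bz R u z) * Bz R u z) + c z • nz R u z with hFdef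
  have h1 : ⁅X, ⁅H, gen R u k w⁆⁆ = ∫ z, ⁅X, ⁅F z, gen R u k w⁆⁆ ∂μ := by
    rw [hH, integral_lie μ hF, lie_integral μ (integrable_lie μ hF _)]
  rw [h1]
  refine (enorm_integral_le_lintegral_enorm _).trans (lintegral_mono fun z => ?_)
  have key : ∀ (Y : A), ‖⁅Y, ⁅F z, R.an (u k.1 w)⁆⁆‖ₑ ≤
      ((3 * β + α : ℝ≥0) * kap0 u (u k.1 w) z) * prof (gen R u) Y z := by
    intro Y
    have e : ⁅Y, ⁅F z, R.an (u k.1 w)⁆⁆ =
        b z • ⁅Y, ⁅star (Bz R u z) * Bz R u z, R.an (u k.1 w)⁆⁆ +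
          c z • ⁅Y, ⁅nz R u z, R.an (u k.1 w)⁆⁆ := by
      simp only [hFdef, Ring.lie_def, add_mul, mul_add, smul_mul_assoc, mul_smul_comm, mul_sub,
        sub_mul, smul_sub]
      abel
    rw [e]
    refine (enorm_add_le _ _).trans ?_
    rw [enorm_smul, enorm_smul]
    calc ‖b z‖ₑ * _ + ‖c z‖ₑ * _ ≤ β * (3 * (kap0 u (u k.1 w) z * prof (gen R u) Y z)) +
          α * (kap0 u (u k.1 w) z * prof (gen R u) Y z) := by
          gcongr
          · exact hb z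
          · exact enorm_lie_lie_h_an R hu Y z _
          · exact hc z
          · exact enorm_lie_lie_n_an R u Y z _
      _ = _ := by push_cast; ring
  obtain ⟨k, bb⟩ := k
  cases bb
  · exact key X
  · have hs : star (F z) = F z := by
      simp only [hFdef, star_add, star_smul, star_trivial, star_mul, star_star, star_nz]
    show ‖⁅X, ⁅F z, R.cr (u k w)⁆⁆‖ₑ ≤ _
    rw [enorm_lie_lie_star R hs]
    have := key (star X)
    rwa [prof_star] at this

end Crest.Agent.R340.DC867
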