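import Crest.Agent.R340.DomF_735

/-!
R340 (S0532), block L4 (helper735): the base case for profiles that are convex and antitone only on
the orbitals `0, …, Q` (extension by a constant beyond `Q`).
-/

set_option autoImplicit false

open Finset

namespace Crest.Agent.R340.DomG735

open Fock649 Geo986 Dom735 DomF735

/-- convex on `0..Q` -/
def CvxOn (f : ℕ → ℝ) (Q : ℕ) : Prop := ∀ j, j + 2 ≤ Q → f (j + 1) - f j ≤ f (j + 2) - f (j + 1)

/-- antitone on `0..Q` -/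
def AntiOn (f : ℕ → ℝ) (Q : ℕ) : Prop := ∀ j, j + 1 ≤ Q → f (j + 1) ≤ f j

/-- extension by the constant `f Q` beyond `Q` -/
def cut (f : ℕ → ℝ) (Q : ℕ) (j : ℕ) : ℝ := f (min j Q)

theorem cut_of_le {f : ℕ → ℝ} {Q j : ℕ} (h : j ≤ Q) : cut f Q j = f j := by
  unfold cut; rw [min_eq_left h]

theorem cut_anti {f : ℕ → ℝ} {Q : ℕ} (h : AntiOn f Q) : Antitone (cut f Q) := by
  apply antitone_nat_of_succ_le
  intro j
  unfold cut
  rcases Nat.lt_or_ge j Q with hj | hj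
  · rw [min_eq_left (by omega), min_eq_left (by omega)]
    exact h j (by omega)
  · rw [min_eq_right (by omega), min_eq_right (by omega)]

theorem cut_cvx {f : ℕ → ℝ} {Q : ℕ} (h : AntiOn f Q) (hc : CvxOn f Q) : Cvx (cut f Q) := by
  intro j
  unfold cut
  rcases Nat.lt_or_ge (j + 1) Q with hj | hj
  · rw [min_eq_left (by omega), min_eq_left (by omega), min_eq_left (by omega)]
    exact hc j (by omega)
  · rcases Nat.lt_or_ge j Q with hj2 | hj2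
    · have e : j + 1 = Q := by omega
      rw [min_eq_left (by omega : j + 1 ≤ Q), min_eq_left (by omega : j ≤ Q),
        min_eq_right (by omega : Q ≤ j + 2), e, sub_self]
      have := h j (by omega)
      rw [e] at this
      linarith
    · rw [min_eq_right (by omega), min_eq_right (by omega), min_eq_right (by omega)]

theorem cs_congr {f g : ℕ → ℝ} {Q : ℕ} (h : ∀ j ≤ Q, f j = g j) :
    Scal725.cs f Q = Scal725.cs g Q := by
  unfold Scal725.cs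
  congr 1
  apply sum_congr rfl
  intro j hj
  exact h j (by simpa [Nat.lt_succ_iff] using hj)

theorem dGf_congr {f g : ℕ → ℝ} {Q : ℕ} (h : ∀ j ≤ Q, f j = g j) : dGf f Q = dGf g Q := by
  unfold dGf
  congr 2
  funext i
  unfold res
  rw [h i (by omega)]

variable {Q : ℕ}

/-- **Base case** for a profile convex and antitone on `0..Q`. -/
theorem base_fock_on {ν : ℕ → ℝ} (hν : PosM ν Q) {ψ : Fk (Fin (Q + 1))} (hψ : ψ ∈ Zs ν Q) {n : ℕ}
    (hN : ∀ S, ψ S ≠ 0 → S.card = n) {f : ℕ → ℝ} (hf : CvxOn f Q) (hanti : AntiOn f Q) :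
    (((Q : ℝ) + 3 - 3 * n) * f Q - 2 * (f 0 - f Q)) * ‖ψ‖ ^ 2 ≤
      3 * (Scal725.cs f Q * ‖ψ‖ ^ 2 - (inner ℂ ψ (dGf f Q ψ) : ℂ).re) := by
  have h := base_fock' hν hψ hN (cut_cvx hanti hf) (cut_anti hanti)
  rw [cs_congr (fun j hj => cut_of_le (f := f) hj), dGf_congr (fun j hj => cut_of_le (f := f) hj),
    cut_of_le le_rfl, cut_of_le (Nat.zero_le Q)] at h
  exact h

/-- the quadratic form `h_f = 3 (c(Q) - dΓ(f))` -/
noncomputable def hf (f : ℕ → ℝ) (ψ : Fk (Fin (Q + 1))) : ℝ :=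
  3 * (Scal725.cs f Q * ‖ψ‖ ^ 2 - (inner ℂ ψ (dGf f Q ψ) : ℂ).re)

theorem hf_eq_sum (f : ℕ → ℝ) (ψ : Fk (Fin (Q + 1))) :
    hf f ψ = ∑ S : Finset (Fin (Q + 1)), 3 * (Scal725.cs f Q - ∑ i ∈ S, f (i : ℕ)) * ‖ψ S‖ ^ 2 := by
  unfold hf
  rw [inner_dGf, norm_sq_eq_sum, mul_sum, ← sum_sub_distrib, mul_sum]
  refine sum_congr rfl fun S _ => ?_
  ring

theorem hf_add (f g : ℕ → ℝ) (ψ : Fk (Fin (Q + 1))) :
    hf (fun j => f j + g j) ψ = hf f ψ + hf g ψ := by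
  simp only [hf_eq_sum, Scal725.cs_add, sum_add_distrib]
  rw [← sum_add_distrib]
  refine sum_congr rfl fun S _ => ?_
  ring

theorem hf_smul (c : ℝ) (f : ℕ → ℝ) (ψ : Fk (Fin (Q + 1))) :
    hf (fun j => c * f j) ψ = c * hf f ψ := by
  simp only [hf_eq_sum, Scal725.cs_smul, ← mul_sum]
  rw [mul_sum]
  refine sum_congr rfl fun S _ => ?_
  ring

theorem hf_one {ψ : Fk (Fin (Q + 1))} {n : ℕ} (hN : ∀ S, ψ S ≠ 0 → S.card = n) :
    hf (fun _ => 1) ψ = ((Q : ℝ) + 3 - 3 * n) * ‖ψ‖ ^ 2 := by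
  rw [hf_eq_sum, norm_sq_eq_sum, mul_sum]
  refine sum_congr rfl fun S _ => ?_
  by_cases hS : ψ S = 0
  · simp [hS]
  · have h1 := Scal725.cs_one Q
    have h2 : ∑ i ∈ S, (1 : ℝ) = n := by simp [hN S hS]
    rw [h2, mul_sub, h1]

theorem hf_congr {f g : ℕ → ℝ} (h : ∀ j ≤ Q, f j = g j) (ψ : Fk (Fin (Q + 1))) :
    hf f ψ = hf g ψ := by
  unfold hf
  rw [cs_congr h, dGf_congr h]

theorem hf_ge {ν : ℕ → ℝ} (hν : PosM ν Q) {ψ : Fk (Fin (Q + 1))} (hψ : ψ ∈ Zs ν Q) {n : ℕ}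
    (hN : ∀ S, ψ S ≠ 0 → S.card = n) {f : ℕ → ℝ} (hfc : CvxOn f Q) (hanti : AntiOn f Q) :
    (((Q : ℝ) + 3 - 3 * n) * f Q - 2 * (f 0 - f Q)) * ‖ψ‖ ^ 2 ≤ hf f ψ :=
  base_fock_on hν hψ hN hfc hanti

/-- upper bound `h_f ≤ h_{f₀ - (f₀ - f)}`: for `f₀ - f` … the trivial bound from `f ≤ M`:
`h_f ≤ 3 c(Q) ‖ψ‖²` for `f ≥ 0`. -/
theorem hf_le_cs {f : ℕ → ℝ} (h0 : ∀ j ≤ Q, 0 ≤ f j) (ψ : Fk (Fin (Q + 1))) :
    hf f ψ ≤ 3 * Scal725.cs f Q * ‖ψ‖ ^ 2 := by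
  unfold hf
  have : 0 ≤ (inner ℂ ψ (dGf f Q ψ) : ℂ).re := by
    rw [inner_dGf]
    refine sum_nonneg fun S _ => mul_nonneg (sum_nonneg fun i _ => h0 _ (by omega)) (sq_nonneg _)
  linarith

end Crest.Agent.R340.DomG735
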