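import Crest.Agent.R340.Fock_649

/-!
# Embeddings of Fock spaces along order embeddings of the orbitals (helper596, R340 block L3b)

For `e : κ ↪o ι`: the isometry `emb e : Fk κ →L[ℂ] Fk ι`, `ket S ↦ ket (S.map e)`, its adjoint
`rst e : Fk ι →L[ℂ] Fk κ`, the intertwining relations with `c`, `d`, `an`, `cr`, `dG`, `diag`, `Gd`,
`Nh`, `pa`, the characterisation of the range and the compression `cmp e X = rst e ∘ X ∘ emb e`.
-/

set_option autoImplicit false
set_option linter.unusedSectionVars false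
open scoped BigOperators ComplexConjugate
open Crest.Agent.R340.Fock649

namespace Crest.Agent.R340.Emb596

universe u v
variable {κ : Type u} {ι : Type v} [Fintype κ] [LinearOrder κ] [Fintype ι] [LinearOrder ι]

theorem clm_ext {E : Type*} [NormedAddCommGroup E] [NormedSpace ℂ E] {A B : Fk ι →L[ℂ] E}
    (h : ∀ S, A (ket S) = B (ket S)) : A = B := by
  ext1 ψ
  rw [fk_eq_sum ψ, map_sum, map_sum]
  refine Finset.sum_congr rfl fun S _ => ?_
  rw [map_smul, map_smul, h]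

/-- The isometric embedding of Fock spaces along an order embedding of orbitals. -/
noncomputable def emb (e : κ ↪o ι) : Fk κ →L[ℂ] Fk ι :=
  LinearMap.toContinuousLinearMap
    ((EuclideanSpace.basisFun (Finset κ) ℂ).toBasis.constr ℂ
      (fun S => (ket (S.map e.toEmbedding) : Fk ι)))

/-- The adjoint of `emb e` (restriction to the small orbital set). -/
noncomputable def rst (e : κ ↪o ι) : Fk ι →L[ℂ] Fk κ := ContinuousLinearMap.adjoint (emb e)

theorem emb_ket (e : κ ↪o ι) (S : Finset κ) : emb e (ket S) = ket (S.map e.toEmbedding) := by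
  have := (EuclideanSpace.basisFun (Finset κ) ℂ).toBasis.constr_basis ℂ
    (fun S => (ket (S.map e.toEmbedding) : Fk ι)) S
  simpa [emb, ket] using this

theorem emb_apply_map (e : κ ↪o ι) (ψ : Fk κ) (S : Finset κ) :
    emb e ψ (S.map e.toEmbedding) = ψ S := by
  conv_lhs => rw [fk_eq_sum ψ]
  rw [map_sum]
  simp only [map_smul, emb_ket, WithLp.ofLp_sum, Finset.sum_apply,
    smul_eq_mul, WithLp.ofLp_smul, Pi.smul_apply, ket_apply]
  rw [Finset.sum_eq_single S]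
  · simp
  · intro T _ hT
    rw [if_neg, mul_zero]
    intro h
    exact hT (Finset.map_injective _ h).symm
  · simp

theorem emb_apply_not (e : κ ↪o ι) (ψ : Fk κ) (T : Finset ι)
    (h : ∀ S : Finset κ, S.map e.toEmbedding ≠ T) : emb e ψ T = 0 := by
  conv_lhs => rw [fk_eq_sum ψ]
  rw [map_sum]
  simp only [map_smul, emb_ket, WithLp.ofLp_sum, Finset.sum_apply,
    smul_eq_mul, WithLp.ofLp_smul, Pi.smul_apply, ket_apply]
  refine Finset.sum_eq_zero fun S _ => ?_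
  rw [if_neg (fun h' => h S h'.symm), mul_zero]

theorem exists_map_iff (e : κ ↪o ι) (T : Finset ι) :
    (∃ S : Finset κ, S.map e.toEmbedding = T) ↔ ∀ i ∈ T, i ∈ Set.range e := by
  classical
  constructor
  · rintro ⟨S, rfl⟩ i hi
    obtain ⟨k, _, rfl⟩ := Finset.mem_map.1 hi
    exact ⟨k, rfl⟩
  · intro h
    refine ⟨Finset.univ.filter (fun k => e k ∈ T), ?_⟩
    ext i
    simp only [Finset.mem_map, Finset.mem_filter, Finset.mem_univ, true_and,
      RelEmbedding.coe_toEmbedding]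
    constructor
    · rintro ⟨k, hk, rfl⟩; exact hk
    · intro hi
      obtain ⟨k, rfl⟩ := h i hi
      exact ⟨k, hi, rfl⟩

theorem inner_rst_right (e : κ ↪o ι) (φ : Fk κ) (ψ : Fk ι) :
    inner ℂ φ (rst e ψ) = inner ℂ (emb e φ) ψ :=
  ContinuousLinearMap.adjoint_inner_right (emb e) φ ψ

theorem inner_rst_left (e : κ ↪o ι) (φ : Fk κ) (ψ : Fk ι) :
    inner ℂ (rst e ψ) φ = inner ℂ ψ (emb e φ) :=
  ContinuousLinearMap.adjoint_inner_left (emb e) φ ψ

/-- the restriction in coordinates -/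
theorem rst_apply (e : κ ↪o ι) (φ : Fk ι) (S : Finset κ) :
    (rst e φ) S = φ (S.map e.toEmbedding) := by
  rw [← inner_ket, inner_rst_right, emb_ket, inner_ket]

theorem rst_emb (e : κ ↪o ι) (ψ : Fk κ) : rst e (emb e ψ) = ψ := by
  ext S
  rw [rst_apply, emb_apply_map]

theorem inner_emb (e : κ ↪o ι) (φ ψ : Fk κ) : inner ℂ (emb e φ) (emb e ψ) = inner ℂ φ ψ := by
  rw [← inner_rst_right, rst_emb]

theorem norm_emb (e : κ ↪o ι) (ψ : Fk κ) : ‖emb e ψ‖ = ‖ψ‖ := by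
  have h := inner_emb e ψ ψ
  rw [inner_self_eq_norm_sq_to_K, inner_self_eq_norm_sq_to_K] at h
  have h2 : ‖emb e ψ‖ ^ 2 = ‖ψ‖ ^ 2 := by exact_mod_cast h
  exact (pow_left_inj₀ (norm_nonneg _) (norm_nonneg _) two_ne_zero).1 h2

theorem emb_injective (e : κ ↪o ι) : Function.Injective (emb e) := by
  intro a b h
  rw [← rst_emb e a, h, rst_emb]

theorem norm_rst_le (e : κ ↪o ι) (φ : Fk ι) : ‖rst e φ‖ ≤ ‖φ‖ := by
  have h1 : ‖rst e φ‖ ^ 2 ≤ ‖φ‖ * ‖rst e φ‖ := by
    have h2 : ‖rst e φ‖ ^ 2 = RCLike.re (inner ℂ φ (emb e (rst e φ))) := by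
      rw [← inner_rst_left, ← norm_sq_eq_re_inner]
    rw [h2]
    refine (RCLike.re_le_norm _).trans ((norm_inner_le_norm _ _).trans ?_)
    rw [norm_emb]
  rcases (norm_nonneg (rst e φ)).eq_or_lt with h0 | h0
  · rw [← h0]; exact norm_nonneg _
  · rw [pow_two] at h1
    exact le_of_mul_le_mul_right h1 h0

/-! ### intertwining relations -/

theorem sg_map (e : κ ↪o ι) (i : κ) (S : Finset κ) :
    sg (e i) (S.map e.toEmbedding) = sg i S := by
  unfold sg
  congr 1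
  rw [Finset.filter_map, Finset.card_map]
  congr 1
  refine Finset.filter_congr fun k _ => ?_
  simp

theorem mem_map_emb (e : κ ↪o ι) (i : κ) (S : Finset κ) :
    e i ∈ S.map e.toEmbedding ↔ i ∈ S := by
  simp [Finset.mem_map]

/-- two operators intertwined by `emb e` on kets are intertwined -/
theorem intertwine_of_ket (e : κ ↪o ι) (X : Op ι) (Y : Op κ)
    (h : ∀ S, X (emb e (ket S)) = emb e (Y (ket S))) (ψ : Fk κ) : X (emb e ψ) = emb e (Y ψ) := by
  have : X.ap ∘L emb e = emb e ∘L Y.ap := clm_ext h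
  exact congrArg (fun T : Fk κ →L[ℂ] Fk ι => T ψ) this

/-- taking adjoints of an intertwining relation -/
theorem rst_of_emb (e : κ ↪o ι) (X : Op ι) (Y : Op κ)
    (h : ∀ ψ, star X (emb e ψ) = emb e (star Y ψ)) (φ : Fk ι) : rst e (X φ) = Y (rst e φ) := by
  refine ext_inner_left ℂ fun ψ => ?_
  rw [inner_rst_right, ← inner_star_left, h, ← inner_rst_right, inner_star_left]

theorem c_emb (e : κ ↪o ι) (i : κ) (ψ : Fk κ) : c (e i) (emb e ψ) = emb e (c i ψ) := by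
  refine intertwine_of_ket e _ _ (fun S => ?_) ψ
  rw [emb_ket, c_ket, c_ket]
  simp only [mem_map_emb]
  split_ifs with h
  · rw [map_smul, emb_ket, sg_map, Finset.map_erase]
    rfl
  · rw [map_zero]

theorem d_emb (e : κ ↪o ι) (i : κ) (ψ : Fk κ) : d (e i) (emb e ψ) = emb e (d i ψ) := by
  refine intertwine_of_ket e _ _ (fun S => ?_) ψ
  rw [emb_ket, d_ket, d_ket]
  simp only [mem_map_emb]
  split_ifs with h
  · rw [map_zero]
  · rw [map_smul, emb_ket, sg_map, Finset.map_insert]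
    rfl

theorem c_emb_not (e : κ ↪o ι) (j : ι) (hj : j ∉ Set.range e) (ψ : Fk κ) :
    c j (emb e ψ) = 0 := by
  have h := intertwine_of_ket e (c j) (0 : Op κ) (fun S => ?_) ψ
  · rw [h, zero_ap, map_zero]
  · rw [emb_ket, c_ket, if_neg, zero_ap, map_zero]
    intro h
    obtain ⟨k, _, rfl⟩ := Finset.mem_map.1 h
    exact hj ⟨k, rfl⟩

theorem rst_c (e : κ ↪o ι) (i : κ) (φ : Fk ι) : rst e (c (e i) φ) = c i (rst e φ) := by
  refine rst_of_emb e _ _ (fun ψ => ?_) φ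
  rw [star_c, star_c, d_emb]

theorem rst_d (e : κ ↪o ι) (i : κ) (φ : Fk ι) : rst e (d (e i) φ) = d i (rst e φ) := by
  refine rst_of_emb e _ _ (fun ψ => ?_) φ
  rw [star_d, star_d, c_emb]

theorem rst_d_not (e : κ ↪o ι) (j : ι) (hj : j ∉ Set.range e) (φ : Fk ι) :
    rst e (d j φ) = 0 := by
  have h := rst_of_emb e (d j) (0 : Op κ) (fun ψ => ?_) φ
  · rw [h, zero_ap]
  · rw [star_d, c_emb_not e j hj, star_zero, zero_ap, map_zero]

/-! ### composite operators -/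

theorem smul_emb_aux (e : κ ↪o ι) (a : ℂ) {X : Op ι} {Y : Op κ} {ψ : Fk κ}
    (h : X (emb e ψ) = emb e (Y ψ)) : (a • X) (emb e ψ) = emb e ((a • Y) ψ) := by
  rw [smul_ap, smul_ap, h, map_smul]

theorem sum_emb_aux (e : κ ↪o ι) (f : ι → Op ι) (g : κ → Op κ) (ψ : Fk κ)
    (h : ∀ k, f (e k) (emb e ψ) = emb e (g k ψ))
    (h0 : ∀ j, j ∉ Set.range e → f j (emb e ψ) = 0) :
    (∑ j, f j) (emb e ψ) = emb e ((∑ k, g k) ψ) := by
  rw [sum_ap, sum_ap, map_sum]
  exact (Fintype.sum_of_injective e e.injective _ _ (fun j hj => h0 j hj) (fun k => (h k).symm)).symm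

theorem an_emb (e : κ ↪o ι) (v : L ι) (ψ : Fk κ) :
    an v (emb e ψ) = emb e (an (WithLp.toLp 2 fun k => v (e k)) ψ) := by
  unfold an
  refine sum_emb_aux e _ _ ψ (fun k => ?_) (fun j hj => ?_)
  · exact smul_emb_aux e _ (c_emb e k ψ)
  · rw [smul_ap, c_emb_not e j hj, smul_zero]

/-- smeared creation operators of vectors supported on the small orbital set -/
theorem cr_emb (e : κ ↪o ι) (v : L ι) (hv : ∀ j, j ∉ Set.range e → v j = 0) (ψ : Fk κ) :
    cr v (emb e ψ) = emb e (cr (WithLp.toLp 2 fun k => v (e k)) ψ) := by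
  unfold cr
  refine sum_emb_aux e _ _ ψ (fun k => ?_) (fun j hj => ?_)
  · exact smul_emb_aux e _ (d_emb e k ψ)
  · rw [smul_ap, hv j hj, zero_smul]

theorem rst_cr (e : κ ↪o ι) (v : L ι) (φ : Fk ι) :
    rst e (cr v φ) = cr (WithLp.toLp 2 fun k => v (e k)) (rst e φ) := by
  refine rst_of_emb e _ _ (fun ψ => ?_) φ
  rw [star_cr, star_cr, an_emb]

theorem rst_an (e : κ ↪o ι) (v : L ι) (hv : ∀ j, j ∉ Set.range e → v j = 0) (φ : Fk ι) :
    rst e (an v φ) = an (WithLp.toLp 2 fun k => v (e k)) (rst e φ) := by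
  refine rst_of_emb e _ _ (fun ψ => ?_) φ
  rw [star_an, star_an, cr_emb e v hv]

theorem dG_emb (e : κ ↪o ι) (A : Matrix ι ι ℂ)
    (hA : ∀ i j, i ∉ Set.range e → j ∈ Set.range e → A i j = 0) (ψ : Fk κ) :
    dG A (emb e ψ) = emb e (dG (A.submatrix e e) ψ) := by
  unfold dG
  have hsum : ∀ i, (∑ j, A i j • (d i * c j)) (emb e ψ) =
      ∑ k : κ, A i (e k) • d i (emb e (c k ψ)) := by
    intro i
    rw [sum_ap]
    refine (Fintype.sum_of_injective e e.injective _ _ (fun j hj => ?_) (fun k => ?_)).symm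
    · rw [smul_ap, mul_ap, c_emb_not e j hj, map_zero, smul_zero]
    · rw [smul_ap, mul_ap, c_emb]
  refine sum_emb_aux e _ _ ψ (fun k => ?_) (fun j hj => ?_)
  · rw [hsum, sum_ap, map_sum]
    refine Finset.sum_congr rfl fun l _ => ?_
    rw [smul_ap, mul_ap, map_smul, d_emb, Matrix.submatrix_apply]
  · rw [hsum]
    refine Finset.sum_eq_zero fun l _ => ?_
    rw [hA j (e l) hj ⟨l, rfl⟩, zero_smul]

theorem rst_dG (e : κ ↪o ι) (A : Matrix ι ι ℂ)
    (hA : ∀ i j, i ∈ Set.range e → j ∉ Set.range e → A i j = 0) (φ : Fk ι) :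
    rst e (dG A φ) = dG (A.submatrix e e) (rst e φ) := by
  refine rst_of_emb e _ _ (fun ψ => ?_) φ
  rw [star_dG, star_dG, dG_emb]
  · rfl
  · intro i j hi hj
    rw [Matrix.conjTranspose_apply, hA j i hj hi, star_zero]

theorem diag_emb (e : κ ↪o ι) (f : Finset ι → ℂ) (ψ : Fk κ) :
    diag f (emb e ψ) = emb e (diag (fun S => f (S.map e.toEmbedding)) ψ) := by
  refine intertwine_of_ket e _ _ (fun S => ?_) ψ
  rw [emb_ket, diag_ket, diag_ket, map_smul, emb_ket]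

theorem rst_diag (e : κ ↪o ι) (f : Finset ι → ℂ) (φ : Fk ι) :
    rst e (diag f φ) = diag (fun S => f (S.map e.toEmbedding)) (rst e φ) := by
  refine rst_of_emb e _ _ (fun ψ => ?_) φ
  rw [star_diag, star_diag, diag_emb]
  rfl

theorem Gd_emb (e : κ ↪o ι) (u : ι → ℂ) (ψ : Fk κ) :
    Gd u (emb e ψ) = emb e (Gd (fun k => u (e k)) ψ) := by
  unfold Gd
  rw [diag_emb]
  simp only [Finset.prod_map]
  rfl

theorem rst_Gd (e : κ ↪o ι) (u : ι → ℂ) (φ : Fk ι) :
    rst e (Gd u φ) = Gd (fun k => u (e k)) (rst e φ) := by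
  unfold Gd
  rw [rst_diag]
  simp only [Finset.prod_map]
  rfl

theorem Nh_emb (e : κ ↪o ι) (ψ : Fk κ) : Nh (emb e ψ) = emb e (Nh ψ) := by
  rw [Nh_eq, Nh_eq, diag_emb]
  simp only [Finset.card_map]

theorem rst_Nh (e : κ ↪o ι) (φ : Fk ι) : rst e (Nh φ) = Nh (rst e φ) := by
  rw [Nh_eq, Nh_eq, rst_diag]
  simp only [Finset.card_map]

theorem Nh_emb_eq_iff (e : κ ↪o ι) (n : ℂ) (ψ : Fk κ) :
    Nh (emb e ψ) = n • emb e ψ ↔ Nh ψ = n • ψ := by
  rw [Nh_emb, ← map_smul]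
  exact (emb_injective e).eq_iff

theorem pa_emb (e : κ ↪o ι) (w : Matrix ι ι ℂ) (ψ : Fk κ) :
    pa w (emb e ψ) = emb e (pa (w.submatrix e e) ψ) := by
  unfold pa
  refine smul_emb_aux e _ ?_
  have hsum : ∀ i, (∑ j, (starRingEnd ℂ) (w i j) • (c j * c i)) (emb e ψ) =
      ∑ j, (starRingEnd ℂ) (w i j) • c j (c i (emb e ψ)) := by
    intro i
    rw [sum_ap]
    rfl
  refine sum_emb_aux e _ _ ψ (fun k => ?_) (fun i hi => ?_)
  · rw [hsum, sum_ap, map_sum, c_emb]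
    refine (Fintype.sum_of_injective e e.injective _ _ (fun j hj => ?_) (fun l => ?_)).symm
    · rw [c_emb_not e j hj, smul_zero]
    · rw [smul_ap, mul_ap, map_smul, c_emb]; rfl
  · rw [hsum, c_emb_not e i hi]
    refine Finset.sum_eq_zero fun j _ => ?_
    rw [map_zero, smul_zero]

/-! ### range of `emb` -/

theorem sg_ne_zero (i : ι) (S : Finset ι) : sg i S ≠ 0 := by
  unfold sg
  exact pow_ne_zero _ (by norm_num)

theorem mem_range_emb_iff (e : κ ↪o ι) (ψ : Fk ι) :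
    (∃ φ, emb e φ = ψ) ↔ ∀ j, j ∉ Set.range e → c j ψ = 0 := by
  constructor
  · rintro ⟨φ, rfl⟩ j hj
    exact c_emb_not e j hj φ
  · intro h
    refine ⟨rst e ψ, ?_⟩
    ext T
    by_cases hT : ∃ S : Finset κ, S.map e.toEmbedding = T
    · obtain ⟨S, rfl⟩ := hT
      rw [emb_apply_map, rst_apply]
    · rw [emb_apply_not e _ T (fun S hS => hT ⟨S, hS⟩)]
      rw [exists_map_iff] at hT
      push Not at hT
      obtain ⟨i, hi, hir⟩ := hT
      have h1 := congrArg (fun v : Fk ι => v (T.erase i)) (h i hir)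
      simp only [c_apply, Finset.mem_erase, ne_eq, not_true_eq_false, false_and, if_false,
        Finset.insert_erase hi, PiLp.zero_apply] at h1
      exact (mul_eq_zero.1 h1).resolve_left (sg_ne_zero _ _) |>.symm

theorem emb_rst_of_c_eq_zero (e : κ ↪o ι) (ψ : Fk ι) (h : ∀ j, j ∉ Set.range e → c j ψ = 0) :
    emb e (rst e ψ) = ψ := by
  obtain ⟨φ, rfl⟩ := (mem_range_emb_iff e ψ).2 h
  rw [rst_emb]

/-! ### compression of operators -/

/-- compression of an operator to a smaller orbital set -/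
noncomputable def cmp (e : κ ↪o ι) (X : Op ι) : Op κ := Op.of (rst e ∘L X.ap ∘L emb e)

theorem cmp_ap (e : κ ↪o ι) (X : Op ι) (ψ : Fk κ) : cmp e X ψ = rst e (X (emb e ψ)) := rfl

theorem inner_cmp (e : κ ↪o ι) (X : Op ι) (φ ψ : Fk κ) :
    inner ℂ φ (cmp e X ψ) = inner ℂ (emb e φ) (X (emb e ψ)) := by
  rw [cmp_ap, inner_rst_right]

theorem cmp_star (e : κ ↪o ι) (X : Op ι) : cmp e (star X) = star (cmp e X) := by
  refine Op.ext fun ψ => ?_
  refine ext_inner_left ℂ fun φ => ?_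
  rw [inner_cmp, inner_star_right, inner_star_right, cmp_ap, inner_rst_left]

theorem cmp_one (e : κ ↪o ι) : cmp e (1 : Op ι) = 1 := by
  refine Op.ext fun ψ => ?_
  rw [cmp_ap, one_ap, one_ap, rst_emb]

theorem cmp_zero (e : κ ↪o ι) : cmp e (0 : Op ι) = 0 := by
  refine Op.ext fun ψ => ?_
  rw [cmp_ap, zero_ap, zero_ap, map_zero]

theorem cmp_add (e : κ ↪o ι) (X Y : Op ι) : cmp e (X + Y) = cmp e X + cmp e Y := by
  refine Op.ext fun ψ => ?_
  rw [cmp_ap, add_ap, add_ap, map_add, cmp_ap, cmp_ap]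

theorem cmp_sub (e : κ ↪o ι) (X Y : Op ι) : cmp e (X - Y) = cmp e X - cmp e Y := by
  refine Op.ext fun ψ => ?_
  rw [cmp_ap, sub_ap, sub_ap, map_sub, cmp_ap, cmp_ap]

theorem cmp_neg (e : κ ↪o ι) (X : Op ι) : cmp e (-X) = -cmp e X := by
  refine Op.ext fun ψ => ?_
  rw [cmp_ap, neg_ap, neg_ap, map_neg, cmp_ap]

theorem cmp_smul (e : κ ↪o ι) (a : ℂ) (X : Op ι) : cmp e (a • X) = a • cmp e X := by
  refine Op.ext fun ψ => ?_
  rw [cmp_ap, smul_ap, smul_ap, map_smul, cmp_ap]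

theorem cmp_sum (e : κ ↪o ι) {σ : Type*} (s : Finset σ) (X : σ → Op ι) :
    cmp e (∑ k ∈ s, X k) = ∑ k ∈ s, cmp e (X k) := by
  refine Op.ext fun ψ => ?_
  rw [cmp_ap, sum_ap, sum_ap, map_sum]
  rfl

theorem norm_cmp_le (e : κ ↪o ι) (X : Op ι) : ‖cmp e X‖ ≤ ‖X‖ := by
  refine Op.norm_le_of (norm_nonneg _) fun ψ => ?_
  rw [cmp_ap]
  refine (norm_rst_le e _).trans ((X.norm_ap_le _).trans ?_)
  rw [norm_emb]

/-- left multiplication by an operator `Y` intertwined with `Y'` by the restriction -/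
theorem cmp_mul_left (e : κ ↪o ι) (Y X : Op ι) (Y' : Op κ)
    (h : ∀ φ, rst e (Y φ) = Y' (rst e φ)) : cmp e (Y * X) = Y' * cmp e X := by
  refine Op.ext fun ψ => ?_
  rw [cmp_ap, mul_ap, mul_ap, cmp_ap, h]

/-- right multiplication by an operator `Y` intertwined with `Y'` by the embedding -/
theorem cmp_mul_right (e : κ ↪o ι) (X Y : Op ι) (Y' : Op κ)
    (h : ∀ ψ, Y (emb e ψ) = emb e (Y' ψ)) : cmp e (X * Y) = cmp e X * Y' := by
  refine Op.ext fun ψ => ?_
  rw [cmp_ap, mul_ap, mul_ap, cmp_ap, h]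

theorem cmp_of_intertwine (e : κ ↪o ι) (X : Op ι) (X' : Op κ)
    (h : ∀ ψ, X (emb e ψ) = emb e (X' ψ)) : cmp e X = X' := by
  refine Op.ext fun ψ => ?_
  rw [cmp_ap, h, rst_emb]

theorem cmp_c (e : κ ↪o ι) (i : κ) : cmp e (c (e i)) = c i := cmp_of_intertwine e _ _ (c_emb e i)

theorem cmp_d (e : κ ↪o ι) (i : κ) : cmp e (d (e i)) = d i := cmp_of_intertwine e _ _ (d_emb e i)

theorem cmp_Nh (e : κ ↪o ι) : cmp e (Nh : Op ι) = Nh := cmp_of_intertwine e _ _ (Nh_emb e)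

theorem cmp_dG_diagonal (e : κ ↪o ι) (f : ι → ℂ) :
    cmp e (dG (Matrix.diagonal f)) = dG (Matrix.diagonal fun k => f (e k)) := by
  refine cmp_of_intertwine e _ _ fun ψ => ?_
  rw [dG_diagonal, dG_diagonal, diag_emb]
  simp only [Finset.sum_map]
  rfl

theorem cmp_mul_c (e : κ ↪o ι) (X : Op ι) (i : κ) : cmp e (X * c (e i)) = cmp e X * c i :=
  cmp_mul_right e X _ _ (c_emb e i)

theorem cmp_c_mul (e : κ ↪o ι) (X : Op ι) (i : κ) : cmp e (c (e i) * X) = c i * cmp e X :=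
  cmp_mul_left e _ X _ (rst_c e i)

theorem cmp_mul_d (e : κ ↪o ι) (X : Op ι) (i : κ) : cmp e (X * d (e i)) = cmp e X * d i :=
  cmp_mul_right e X _ _ (d_emb e i)

theorem cmp_d_mul (e : κ ↪o ι) (X : Op ι) (i : κ) : cmp e (d (e i) * X) = d i * cmp e X :=
  cmp_mul_left e _ X _ (rst_d e i)

/-- the commutator with an annihilator is compressed to the commutator -/
theorem cmp_lie_c (e : κ ↪o ι) (X : Op ι) (i : κ) :
    cmp e (X * c (e i) - c (e i) * X) = cmp e X * c i - c i * cmp e X := by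
  rw [cmp_sub, cmp_mul_c, cmp_c_mul]

theorem cmp_lie_d (e : κ ↪o ι) (X : Op ι) (i : κ) :
    cmp e (X * d (e i) - d (e i) * X) = cmp e X * d i - d i * cmp e X := by
  rw [cmp_sub, cmp_mul_d, cmp_d_mul]

theorem norm_cmp_lie_c_le (e : κ ↪o ι) (X : Op ι) (i : κ) :
    ‖cmp e X * c i - c i * cmp e X‖ ≤ ‖X * c (e i) - c (e i) * X‖ := by
  rw [← cmp_lie_c]; exact norm_cmp_le _ _

theorem norm_cmp_lie_d_le (e : κ ↪o ι) (X : Op ι) (i : κ) :
    ‖cmp e X * d i - d i * cmp e X‖ ≤ ‖X * d (e i) - d (e i) * X‖ := by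
  rw [← cmp_lie_d]; exact norm_cmp_le _ _

end Crest.Agent.R340.Emb596
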