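import Crest.Agent.R340.Pl6_249

set_option autoImplicit false
open scoped BigOperators ComplexConjugate Topology
open Finset Filter

namespace Crest.Agent.R340.Kn249

open Crest.Agent.R340.Fock649 Crest.MathPhysics.Laughlin Crest.Agent.R340.Pl249

/-- The finite-flux facts used by the limit argument. -/
structure Facts (b : ℕ → ℝ) : Prop where
  lad : ∀ Q : ℕ, 2 ≤ Q → LadQ Q
  comm0 : ∀ Q : ℕ, 2 ≤ Q → Comm0 Q
  lam_lim : ∀ k : ℕ, Tendsto (fun Q : ℕ => lam Q k / Real.sqrt Q) atTop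
    (𝓝 (Real.sqrt ((k : ℝ) + 1)))
  mu_lim : ∀ q : ℕ, Tendsto (fun Q : ℕ => mu Q q / Real.sqrt Q) atTop
    (𝓝 (Real.sqrt (2 * ((q : ℝ) + 1))))
  nu_lim : ∀ j : ℕ, Tendsto (fun Q : ℕ => nuQ Q j) atTop (𝓝 (Real.sqrt (1 / (j.factorial : ℝ))))
  th_lim : ∀ q : ℕ, Tendsto (fun Q : ℕ => thQ Q q) atTop
    (𝓝 (Real.sqrt (2 ^ q / (q.factorial : ℝ))))
  v0_lim : ∀ p : ℕ, Tendsto (fun Q : ℕ => v0 Q p) atTop (𝓝 (Real.sqrt (((p : ℝ) + 1) / 2 ^ p)))
  v1_lim : ∀ p : ℕ, Tendsto (fun Q : ℕ => v1 Q p) atTop (𝓝 (((p : ℝ) - 1) / Real.sqrt (2 ^ p)))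
  Wnorm : ∀ s : ℕ, ∃ C : ℝ, ∀ Q : ℕ, ‖WN Q s‖ ≤ C
  t00 : ∀ Q : ℕ, 2 ≤ Q → T3 Q 0 0 = 0
  t01 : ∀ Q : ℕ, 2 ≤ Q → T3 Q 0 1 = 0
  t10 : ∀ Q : ℕ, 2 ≤ Q → T3 Q 1 0 = 0
  t12 : ∀ Q : ℕ, 2 ≤ Q → T3 Q 1 2 = 0
  t21 : ∀ Q : ℕ, 2 ≤ Q → T3 Q 2 1 = -(((v0 Q 2 : ℝ) : ℂ) • T3 Q 0 3)
  t30 : ∀ Q : ℕ, 2 ≤ Q → T3 Q 3 0 = ((v1 Q 3 : ℝ) : ℂ) • T3 Q 0 3
  f00 : ∀ Q : ℕ, 2 ≤ Q → T4 Q 0 0 = 0
  f11 : ∀ Q : ℕ, 2 ≤ Q → T4 Q 1 1 = 0
  f02 : ∀ Q : ℕ, 2 ≤ Q → T4 Q 0 2 = 0
  tail : ∀ Q : ℕ, 2 ≤ Q → ∀ p, p < 2 * Q - 1 → |v0 Q p| + |v1 Q p| ≤ b p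

theorem kap_zero_sq (α : ℝ) (m q k : ℕ) (h : q + k = m) :
    kap α m 0 q k = (-1) ^ k * (m.choose q : ℝ) := by
  induction m generalizing q k with
  | zero =>
    have h1 : q = 0 := by omega
    have h2 : k = 0 := by omega
    subst h1; subst h2
    simp [kap_zero_zero]
  | succ m ih =>
    rw [kap_succ_zero]
    rcases q with _ | q <;> rcases k with _ | k
    · omega
    · rw [sh_zero_succ, ih 0 k (by omega)]
      simp [pow_succ]
    · rw [sh_succ_zero, ih q 0 (by omega)]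
      have : q = m := by omega
      subst this
      simp
    · rw [sh_succ_succ, ih q (k + 1) (by omega), ih (q + 1) k (by omega), Nat.choose_succ_succ]
      push_cast
      rw [pow_succ]
      ring

/-- single-correlator (Pauli) bound for channel weights -/
theorem gam_le_of_diag {G : ℕ → ℕ → ℕ → ℕ → ℝ} {c : ℝ} (hc : 0 ≤ c) (hR : Rel 2 c G)
    (hP : PSD G) (m q : ℕ) (hq : q ≤ m) :
    gam 2 G m * (m.choose q : ℝ) ^ 2 ≤ G q (m - q) q (m - q) := by
  rw [hR.eq_rhs (by norm_num) q (m - q) q (m - q)]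
  unfold rhs
  rw [if_pos rfl]
  have e1 : q + (m - q) = m := by omega
  rw [e1]
  have h0 : ∀ i ∈ range (m + 1), 0 ≤ gam 2 G i * kap 2 i (m - i) q (m - q) *
      kap 2 i (m - i) q (m - q) * co 2 c (m - i) := by
    intro i _
    have a1 := gam_nonneg 2 hP i
    have a2 : 0 ≤ co 2 c (m - i) := by unfold co; positivity
    have a3 : 0 ≤ kap (2 : ℝ) i (m - i) q (m - q) * kap 2 i (m - i) q (m - q) := mul_self_nonneg _
    rw [mul_assoc (gam 2 G i)]
    exact mul_nonneg (mul_nonneg a1 a3) a2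
  have h1 := Finset.single_le_sum h0 (Finset.self_mem_range_succ m)
  refine le_trans (le_of_eq ?_) h1
  rw [Nat.sub_self, kap_zero_sq 2 m q (m - q) e1]
  have h2 : ((-1 : ℝ) ^ (m - q)) * (-1) ^ (m - q) = 1 := by
    rw [← mul_pow]; norm_num
  simp only [co, pow_zero, Nat.factorial_zero, Nat.cast_one, mul_one, div_one]
  linear_combination (-gam 2 G m * (m.choose q : ℝ) ^ 2) * h2

/-- Main limit theorem, normalised functionals. -/
theorem near_norm {b : ℕ → ℝ} (hF : Facts b) (C : CertN) (hLoc : LocPosN C) (P1 pw : ℕ)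
    (γ0 tl γ : ℝ) (hLin : LinCertN C P1 pw γ0) (htl : ∀ n, ∑ p ∈ Ico P1 n, b p ≤ tl)
    (hγ : γ < γ0 - tl) :
    ∃ Q0 : ℕ, ∀ Q : ℕ, Q0 ≤ Q → ∀ t : Inv Q, t.a = 1 → γ ≤ t.N pw := by
  by_contra hcon
  push Not at hcon
  choose Qs hQs ts hts using fun n : ℕ => hcon (max (n + 2) (P1 + 2))
  have hQ2 : ∀ n, 2 ≤ Qs n := fun n => le_trans (le_trans (by omega) (le_max_left _ _)) (hQs n)
  have hQn : ∀ n, n ≤ Qs n := fun n => le_trans (le_trans (by omega) (le_max_left _ _)) (hQs n)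
  have hQP : ∀ n, P1 ≤ Qs n := fun n => le_trans (le_trans (by omega) (le_max_right _ _)) (hQs n)
  have hQtop : Tendsto Qs atTop atTop := tendsto_atTop_mono hQn tendsto_id
  let U : Ultrafilter ℕ := hyperfilter ℕ
  have hU : (U : Filter ℕ) ≤ atTop := by
    have := hyperfilter_le_cofinite (α := ℕ)
    rwa [Nat.cofinite_eq_atTop] at this
  have hlim : ∀ {f : ℕ → ℝ} {x : ℝ}, Tendsto f atTop (𝓝 x) →
      Tendsto (fun n => f (Qs n)) (U : Filter ℕ) (𝓝 x) := fun h =>
    (h.comp hQtop).mono_left hU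
  have hev : ∀ K : ℕ, ∀ᶠ n in (U : Filter ℕ), K ≤ Qs n := fun K =>
    hU (hQtop.eventually (eventually_ge_atTop K))
  -- correlators
  set g3 : ℕ → ℕ → ℕ → ℕ → ℕ → ℝ := fun n => (ts n).cor (T3 (Qs n)) with hg3
  set g4 : ℕ → ℕ → ℕ → ℕ → ℕ → ℝ := fun n => (ts n).cor (T4 (Qs n)) with hg4
  have ha : ∀ n, (ts n).a = 1 := fun n => (hts n).1
  have hN : ∀ n, (ts n).N pw < γ := fun n => (hts n).2
  have hWq : ∀ n q, q < 2 * Qs n - 1 →
      ((ts n).τ (star (WN (Qs n) q) * WN (Qs n) q)).re = 1 := by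
    intro n q hq
    rw [(ts n).norm_W (hF.lad _ (hQ2 n)) q hq]
    exact ha n
  have hg3b : ∀ q k q' j, ∀ᶠ n in (U : Filter ℕ), |g3 n q k q' j| ≤ 1 := by
    intro q k q' j
    filter_upwards [hev (q + q' + 2)] with n hn
    have := (ts n).abs_cor3_le (hF.lad _ (hQ2 n)) q k q' j (by omega) (by omega)
    rw [ha n] at this
    exact this
  have hg4b : ∀ q s q' s', ∃ B : ℝ, ∀ᶠ n in (U : Filter ℕ), |g4 n q s q' s'| ≤ B := by
    intro q s q' s'
    obtain ⟨C1, hC1⟩ := hF.Wnorm s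
    obtain ⟨C2, hC2⟩ := hF.Wnorm s'
    refine ⟨(C1 ^ 2 + C2 ^ 2) / 2, ?_⟩
    filter_upwards [hev (q + q' + 2)] with n hn
    have h1 := (ts n).abs_cor_le (T4 (Qs n)) q s q' s'
    have h2 := (ts n).cor4_diag_le q s
    have h3 := (ts n).cor4_diag_le q' s'
    rw [hWq n q (by omega), mul_one] at h2
    rw [hWq n q' (by omega), mul_one] at h3
    have h4 : ‖WN (Qs n) s‖ ^ 2 ≤ C1 ^ 2 := pow_le_pow_left₀ (norm_nonneg _) (hC1 _) 2
    have h5 : ‖WN (Qs n) s'‖ ^ 2 ≤ C2 ^ 2 := pow_le_pow_left₀ (norm_nonneg _) (hC2 _) 2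
    show |(ts n).cor (T4 (Qs n)) q s q' s'| ≤ _
    linarith
  choose G hG using fun q k q' j => ulim_exists' U (fun n => g3 n q k q' j) 1 (hg3b q k q' j)
  choose B4 hB4 using hg4b
  choose F hFl using fun q s q' s' => ulim_exists' U (fun n => g4 n q s q' s') (B4 q s q' s')
    (hB4 q s q' s')
  -- relations
  have hGR : FR (fun q => Real.sqrt (1 * 2 * ((q : ℝ) + 1))) (fun k => Real.sqrt (1 * ((k : ℝ) + 1))) G := by
    refine FR.limit (F := (U : Filter ℕ)) (m := fun n => mu (Qs n)) (l := fun n => lam (Qs n))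
      (r := fun n => Real.sqrt (Qs n)) (G := g3) hG ?_ ?_ ?_
    · intro q
      have := hlim (hF.mu_lim q)
      simpa using this
    · intro k
      have := hlim (hF.lam_lim k)
      simpa using this
    · intro n
      exact (ts n).FR3 (hF.lad _ (hQ2 n))
  have hFR : FR (fun q => Real.sqrt (2 * 1 * ((q : ℝ) + 1))) (fun k => Real.sqrt (2 * ((k : ℝ) + 1))) F := by
    refine FR.limit (F := (U : Filter ℕ)) (m := fun n => mu (Qs n)) (l := fun n => mu (Qs n))
      (r := fun n => Real.sqrt (Qs n)) (G := g4) hFl ?_ ?_ ?_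
    · intro q
      have := hlim (hF.mu_lim q)
      simpa using this
    · intro k
      have := hlim (hF.mu_lim k)
      simpa using this
    · intro n
      exact (ts n).FR4 (hF.lad _ (hQ2 n))
  have hGP : PSD G := PSD.limit (F := (U : Filter ℕ)) hG fun n => (ts n).cor_psd _
  have hFP : PSD F := PSD.limit (F := (U : Filter ℕ)) hFl fun n => (ts n).cor_psd _
  -- rescaled correlators
  set s3 : ℕ → ℕ → ℝ := sc (1 * 2) 1 with hs3
  set s4 : ℕ → ℕ → ℝ := sc (2 * 1) 2 with hs4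
  have s3p : ∀ q k, 0 < s3 q k := fun q k => sc_pos (by norm_num) (by norm_num) q k
  have s4p : ∀ q k, 0 < s4 q k := fun q k => sc_pos (by norm_num) (by norm_num) q k
  set Gt : ℕ → ℕ → ℕ → ℕ → ℝ := fun q k q' j => G q k q' j / (s3 q k * s3 q' j) with hGt
  set Ft : ℕ → ℕ → ℕ → ℕ → ℝ := fun q k q' j => F q k q' j / (s4 q k * s4 q' j) with hFt
  have hGtR : Rel 2 1 Gt := FR.rel (by norm_num) (by norm_num) hGR
  have hFtR : Rel 1 2 Ft := FR.rel (by norm_num) (by norm_num) hFR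
  have hGtP : PSD Gt := hGP.scale _
  have hFtP : PSD Ft := hFP.scale _
  have hGx : Gt = rhs 2 1 (gam 2 Gt) := by
    funext q k q' j; exact hGtR.eq_rhs (by norm_num) q k q' j
  have hFx : Ft = rhs 1 2 (gam 1 Ft) := by
    funext q k q' j; exact hFtR.eq_rhs (by norm_num) q k q' j
  -- vanishing correlators
  have hGz : ∀ q k : ℕ, (∀ Q, 2 ≤ Q → T3 Q q k = 0) → ∀ q' j, G q' j q k = 0 := by
    intro q k h q' j
    refine tendsto_nhds_unique (hG q' j q k) ?_
    refine (tendsto_const_nhds (x := (0 : ℝ))).congr fun n => ?_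
    show (0 : ℝ) = ((ts n).τ (star (T3 (Qs n) q' j) * T3 (Qs n) q k)).re
    rw [h _ (hQ2 n), mul_zero, map_zero, Complex.zero_re]
  have hFz : ∀ q k : ℕ, (∀ Q, 2 ≤ Q → T4 Q q k = 0) → ∀ q' j, F q' j q k = 0 := by
    intro q k h q' j
    refine tendsto_nhds_unique (hFl q' j q k) ?_
    refine (tendsto_const_nhds (x := (0 : ℝ))).congr fun n => ?_
    show (0 : ℝ) = ((ts n).τ (star (T4 (Qs n) q' j) * T4 (Qs n) q k)).re
    rw [h _ (hQ2 n), mul_zero, map_zero, Complex.zero_re]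
  have hT4s : ∀ Q, 2 ≤ Q → ∀ q s, T4 Q q s = T4 Q s q := by
    intro Q hQ q s
    unfold T4
    exact (hF.lad Q hQ).WW s q
  have hgam0 : gam 2 Gt 0 = 0 := by
    refine gam_zero_of_vanish 2 0 fun q k q' j _ h2 => ?_
    have e1 : q' = 0 := by omega
    have e2 : j = 0 := by omega
    subst e1; subst e2
    simp only [hGt]
    rw [hGz 0 0 hF.t00, zero_div]
  have hgam1 : gam 2 Gt 1 = 0 := by
    refine gam_zero_of_vanish 2 1 fun q k q' j _ h2 => ?_
    simp only [hGt]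
    rcases (by omega : (q' = 0 ∧ j = 1) ∨ (q' = 1 ∧ j = 0)) with ⟨rfl, rfl⟩ | ⟨rfl, rfl⟩
    · rw [hGz 0 1 hF.t01, zero_div]
    · rw [hGz 1 0 hF.t10, zero_div]
  have hphi0 : gam 1 Ft 0 = 0 := by
    refine gam_zero_of_vanish 1 0 fun q k q' j _ h2 => ?_
    have e1 : q' = 0 := by omega
    have e2 : j = 0 := by omega
    subst e1; subst e2
    simp only [hFt]
    rw [hFz 0 0 hF.f00, zero_div]
  have hphi2 : gam 1 Ft 2 = 0 := by
    refine gam_zero_of_vanish 1 2 fun q k q' j _ h2 => ?_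
    simp only [hFt]
    rcases (by omega : (q' = 0 ∧ j = 2) ∨ (q' = 1 ∧ j = 1) ∨ (q' = 2 ∧ j = 0)) with
      ⟨rfl, rfl⟩ | ⟨rfl, rfl⟩ | ⟨rfl, rfl⟩
    · rw [hFz 0 2 hF.f02, zero_div]
    · rw [hFz 1 1 hF.f11, zero_div]
    · rw [hFz 2 0 (fun Q hQ => by rw [hT4s Q hQ 2 0]; exact hF.f02 Q hQ), zero_div]
  have hphiodd : ∀ r, Odd r → gam 1 Ft r = 0 := by
    intro r hr
    refine gam_odd r hr fun q k q' j => ?_
    simp only [hFt]
    have e1 : F q k q' j = F k q q' j := by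
      refine tendsto_nhds_unique (hFl q k q' j) ((hFl k q q' j).congr fun n => ?_)
      show ((ts n).τ (star (T4 (Qs n) k q) * T4 (Qs n) q' j)).re =
        ((ts n).τ (star (T4 (Qs n) q k) * T4 (Qs n) q' j)).re
      rw [hT4s _ (hQ2 n) k q]
    have e2 : s4 q k = s4 k q := by
      simp only [hs4, sc, mul_one]
      ring
    rw [e1, e2]
  -- weight three
  have hgam3 : gam 2 Gt 3 = 0 := by
    -- the vector of the rank-one block
    set x : ℕ → ℕ → ℝ := fun q k => if q = 0 ∧ k = 3 then 1 else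
      if q = 2 ∧ k = 1 then -Real.sqrt (((2 : ℕ) + 1 : ℝ) / 2 ^ 2) else
      if q = 3 ∧ k = 0 then (((3 : ℕ) : ℝ) - 1) / Real.sqrt (2 ^ 3) else 0 with hx
    set xn : ℕ → ℕ → ℕ → ℝ := fun n q k => if q = 0 ∧ k = 3 then 1 else
      if q = 2 ∧ k = 1 then -v0 (Qs n) 2 else
      if q = 3 ∧ k = 0 then v1 (Qs n) 3 else 0 with hxn
    have hxl : ∀ q k, Tendsto (fun n => xn n q k) (U : Filter ℕ) (𝓝 (x q k)) := by
      intro q k
      simp only [hx, hxn]
      split_ifs
      · exact tendsto_const_nhds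
      · exact (hlim (hF.v0_lim 2)).neg
      · exact hlim (hF.v1_lim 3)
      · exact tendsto_const_nhds
    have hTx : ∀ n q k, q + k = 3 → T3 (Qs n) q k = ((xn n q k : ℝ) : ℂ) • T3 (Qs n) 0 3 := by
      intro n q k hqk
      rcases (by omega : (q = 0 ∧ k = 3) ∨ (q = 1 ∧ k = 2) ∨ (q = 2 ∧ k = 1) ∨ (q = 3 ∧ k = 0)) with
        ⟨rfl, rfl⟩ | ⟨rfl, rfl⟩ | ⟨rfl, rfl⟩ | ⟨rfl, rfl⟩
      · simp [hxn]
      · simp [hxn, hF.t12 _ (hQ2 n)]
      · rw [hF.t21 _ (hQ2 n)]; simp [hxn]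
      · rw [hF.t30 _ (hQ2 n)]; simp [hxn]
    have hGx3 : ∀ q k q' j, q + k = 3 → q' + j = 3 →
        G q k q' j = x q k * x q' j * G 0 3 0 3 := by
      intro q k q' j h1 h2
      refine tendsto_nhds_unique (hG q k q' j) ?_
      refine (((hxl q k).mul (hxl q' j)).mul (hG 0 3 0 3)).congr fun n => ?_
      show xn n q k * xn n q' j * ((ts n).τ (star (T3 (Qs n) 0 3) * T3 (Qs n) 0 3)).re =
        ((ts n).τ (star (T3 (Qs n) q k) * T3 (Qs n) q' j)).re
      rw [hTx n q k h1, hTx n q' j h2, star_smul, RCLike.star_def, Complex.conj_ofReal,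
        smul_mul_assoc, mul_smul_comm, map_smul, map_smul, smul_eq_mul, smul_eq_mul,
        Complex.re_ofReal_mul, Complex.re_ofReal_mul]
      ring
    refine gam_zero_of_rank_one 2 3 (fun q k => x q k / s3 q k) (G 0 3 0 3) ?_ ?_
    · intro q k q' j h1 h2
      simp only [hGt]
      rw [hGx3 q k q' j h1 h2]
      have := (s3p q k).ne'
      have := (s3p q' j).ne'
      field_simp
    · -- evaluation
      have hs03 : s3 0 3 = Real.sqrt 6 := by
        simp only [hs3, sc]; norm_num [Nat.factorial]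
      have hs21 : s3 2 1 = Real.sqrt (1 / 2) := by
        simp only [hs3, sc]; norm_num [Nat.factorial]
      have hs30 : s3 3 0 = Real.sqrt (3 / 4) := by
        simp only [hs3, sc]; norm_num [Nat.factorial]
      unfold ev
      simp only [Finset.sum_range_succ, Finset.sum_range_zero]
      norm_num [hx, hs03, hs21, hs30]
      have q6 : Real.sqrt 6 = Real.sqrt 2 * Real.sqrt 3 := by
        rw [← Real.sqrt_mul (by norm_num)]; norm_num
      have q8 : Real.sqrt 8 = 2 * Real.sqrt 2 := by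
        have : (8 : ℝ) = 2 ^ 2 * 2 := by norm_num
        rw [this, Real.sqrt_mul (by norm_num), Real.sqrt_sq (by norm_num)]
      have q4 : Real.sqrt 4 = 2 := by
        have : (4 : ℝ) = 2 ^ 2 := by norm_num
        rw [this, Real.sqrt_sq (by norm_num)]
      have p2 : Real.sqrt 2 * Real.sqrt 2 = 2 := Real.mul_self_sqrt (by norm_num)
      have p3 : Real.sqrt 3 * Real.sqrt 3 = 3 := Real.mul_self_sqrt (by norm_num)
      have n2 : Real.sqrt 2 ≠ 0 := by positivity
      have n3 : Real.sqrt 3 ≠ 0 := by positivity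
      rw [q6]
      try rw [q8]
      try rw [q4]
      field_simp
      nlinarith [p2, p3]
  -- Pauli bounds
  have hpauli : ∀ m q : ℕ, q ≤ m → gam 2 Gt m * (m.choose q : ℝ) ^ 2 ≤
      2 ^ q / ((q.factorial : ℝ) * ((m - q).factorial : ℝ)) := by
    intro m q hq
    refine (gam_le_of_diag (by norm_num) hGtR hGtP m q hq).trans ?_
    have h1 : G q (m - q) q (m - q) ≤ 1 := by
      refine le_of_tendsto (hG q (m - q) q (m - q)) ?_
      filter_upwards [hg3b q (m - q) q (m - q)] with n hn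
      exact (abs_le.mp hn).2
    have h2 : s3 q (m - q) * s3 q (m - q) = (q.factorial : ℝ) * ((m - q).factorial : ℝ) / 2 ^ q := by
      simp only [hs3, sc]
      have e1 := Real.mul_self_sqrt (show (0 : ℝ) ≤ (q.factorial : ℝ) / (1 * 2) ^ q by positivity)
      have e2 := Real.mul_self_sqrt (show (0 : ℝ) ≤ ((m - q).factorial : ℝ) / 1 ^ (m - q) by
        positivity)
      calc _ = (Real.sqrt ((q.factorial : ℝ) / (1 * 2) ^ q) *
            Real.sqrt ((q.factorial : ℝ) / (1 * 2) ^ q)) *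
            (Real.sqrt (((m - q).factorial : ℝ) / 1 ^ (m - q)) *
            Real.sqrt (((m - q).factorial : ℝ) / 1 ^ (m - q))) := by ring
        _ = _ := by rw [e1, e2, one_mul, one_pow, div_one]; ring
    show G q (m - q) q (m - q) / (s3 q (m - q) * s3 q (m - q)) ≤ _
    rw [h2, div_le_div_iff₀ (by positivity) (by positivity)]
    have hf : (0 : ℝ) < (q.factorial : ℝ) * ((m - q).factorial : ℝ) := by positivity
    have e3 : (2 : ℝ) ^ q * ((q.factorial : ℝ) * ((m - q).factorial : ℝ) / 2 ^ q) =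
        (q.factorial : ℝ) * ((m - q).factorial : ℝ) := by field_simp
    rw [e3]
    nlinarith
  -- the certificate
  have hLam : 0 ≤ LamN C (rhs 2 1 (gam 2 Gt)) (rhs 1 2 (gam 1 Ft)) := by
    rw [← hGx, ← hFx]
    -- finite expressions
    set L : ℕ → ℝ := fun n =>
      (∑ q ∈ range C.P, ∑ j ∈ range (C.P + 1), ∑ q' ∈ range C.P, ∑ k ∈ range (C.P + 1),
        ((C.Bc q j q' k : ℝ) * (thQ (Qs n) q * nuQ (Qs n) j * (thQ (Qs n) q' * nuQ (Qs n) k))) *
          g3 n q j q' k) +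
      (∑ q ∈ range C.P, ∑ s ∈ range C.P, ∑ q' ∈ range C.P, ∑ s' ∈ range C.P,
        ((C.Ac q s q' s' : ℝ) * (thQ (Qs n) q * thQ (Qs n) s * (thQ (Qs n) q' * thQ (Qs n) s'))) *
          g4 n q s q' s') -
      ∑ q ∈ range C.P, ((C.Gc q : ℝ) * thQ (Qs n) q ^ 2) *
        ((ts n).τ (star (WN (Qs n) q) * WN (Qs n) q)).re with hL
    have hLτ : ∀ n, L n = ((ts n).τ (XN C (Qs n))).re := by
      intro n
      simp only [hL, XN, map_sub, map_add, map_sum, map_smul, Complex.sub_re, Complex.add_re,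
        Complex.re_sum, smul_eq_mul, Complex.re_ofReal_mul]
      rfl
    have key : ∀ q j : ℕ, Real.sqrt (2 ^ q / (q.factorial : ℝ)) *
        Real.sqrt (1 / (j.factorial : ℝ)) = 1 / s3 q j := by
      intro q j
      simp only [hs3, sc, one_mul, one_pow, div_one]
      rw [← Real.sqrt_mul (by positivity), ← Real.sqrt_mul (by positivity), eq_div_iff
        (by positivity), ← Real.sqrt_mul (by positivity), Real.sqrt_eq_one]
      have f1 : (q.factorial : ℝ) ≠ 0 := by positivity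
      have f2 : (j.factorial : ℝ) ≠ 0 := by positivity
      field_simp
    have key4 : ∀ q j : ℕ, Real.sqrt (2 ^ q / (q.factorial : ℝ)) *
        Real.sqrt (2 ^ j / (j.factorial : ℝ)) = 1 / s4 q j := by
      intro q j
      simp only [hs4, sc, mul_one]
      rw [← Real.sqrt_mul (by positivity), ← Real.sqrt_mul (by positivity), eq_div_iff
        (by positivity), ← Real.sqrt_mul (by positivity), Real.sqrt_eq_one]
      have f1 : (q.factorial : ℝ) ≠ 0 := by positivity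
      have f2 : (j.factorial : ℝ) ≠ 0 := by positivity
      field_simp
    have hLlim : Tendsto L (U : Filter ℕ) (𝓝 (LamN C Gt Ft)) := by
      unfold LamN
      refine Tendsto.sub (Tendsto.add ?_ ?_) ?_
      · refine tendsto_finsetSum _ fun q _ => tendsto_finsetSum _ fun j _ =>
          tendsto_finsetSum _ fun q' _ => tendsto_finsetSum _ fun k _ => ?_
        have h1 := ((((hlim (hF.th_lim q)).mul (hlim (hF.nu_lim j))).mul
          ((hlim (hF.th_lim q')).mul (hlim (hF.nu_lim k)))).const_mul (C.Bc q j q' k : ℝ)).mul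
          (hG q j q' k)
        rw [key, key] at h1
        have e : (C.Bc q j q' k : ℝ) * Gt q j q' k =
            (C.Bc q j q' k : ℝ) * (1 / s3 q j * (1 / s3 q' k)) * G q j q' k := by
          simp only [hGt]
          have := (s3p q j).ne'
          have := (s3p q' k).ne'
          field_simp
        rw [e]
        exact h1
      · refine tendsto_finsetSum _ fun q _ => tendsto_finsetSum _ fun j _ =>
          tendsto_finsetSum _ fun q' _ => tendsto_finsetSum _ fun k _ => ?_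
        have h1 := ((((hlim (hF.th_lim q)).mul (hlim (hF.th_lim j))).mul
          ((hlim (hF.th_lim q')).mul (hlim (hF.th_lim k)))).const_mul (C.Ac q j q' k : ℝ)).mul
          (hFl q j q' k)
        rw [key4, key4] at h1
        have e : (C.Ac q j q' k : ℝ) * Ft q j q' k =
            (C.Ac q j q' k : ℝ) * (1 / s4 q j * (1 / s4 q' k)) * F q j q' k := by
          simp only [hFt]
          have := (s4p q j).ne'
          have := (s4p q' k).ne'
          field_simp
        rw [e]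
        exact h1
      · refine tendsto_finsetSum _ fun q _ => ?_
        have h1 := ((hlim (hF.th_lim q)).pow 2).const_mul (C.Gc q : ℝ)
        rw [Real.sq_sqrt (by positivity)] at h1
        refine h1.congr' ?_
        filter_upwards [hev (q + 2)] with n hn
        rw [hWq n q (by omega), mul_one]
    refine le_of_forall_pos_le_add fun ε hε => ?_
    obtain ⟨Q0, hQ0⟩ := hLoc (ε / (C.P + 1)) (by positivity)
    have h2 : -ε ≤ LamN C Gt Ft := by
      refine ge_of_tendsto hLlim ?_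
      filter_upwards [hev Q0, hev (C.P + 2)] with n hn hn2
      have h3 : 0 ≤ ((ts n).τ (XN C (Qs n) + ((ε / (C.P + 1) : ℝ) : ℂ) •
          ∑ q ∈ range C.P, star (WN (Qs n) q) * WN (Qs n) q)).re := by
        refine (ts n).re_nonneg_of_form _ fun v => ?_
        have h4 := hQ0 (Qs n) hn v
        rw [add_ap, inner_add_right, Complex.add_re, smul_ap, inner_smul_right,
          Complex.re_ofReal_mul, sum_ap, inner_sum, Complex.re_sum]
        have h5 : ∑ q ∈ range C.P, (inner ℂ v ((star (WN (Qs n) q) * WN (Qs n) q) v) : ℂ).re =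
            ∑ q ∈ range C.P, ‖WN (Qs n) q v‖ ^ 2 := by
          refine Finset.sum_congr rfl fun q _ => ?_
          rw [inner_star_mul_self, ← Complex.ofReal_pow, Complex.ofReal_re]
        rw [h5]
        linarith
      rw [map_add, map_smul, map_sum, Complex.add_re, smul_eq_mul, Complex.re_ofReal_mul,
        Complex.re_sum, ← hLτ n] at h3
      have h6 : ∑ q ∈ range C.P, ((ts n).τ (star (WN (Qs n) q) * WN (Qs n) q)).re = C.P := by
        rw [Finset.sum_congr rfl fun q hq => hWq n q (by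
          have : q < C.P := by simpa using hq
          omega)]
        simp
      rw [h6] at h3
      have h7 : ε / ((C.P : ℝ) + 1) * C.P ≤ ε := by
        rw [div_mul_eq_mul_div, div_le_iff₀ (by positivity)]
        nlinarith
      linarith
    linarith
  have hfin := hLin (gam 2 Gt) (gam 1 Ft) (gam_nonneg 2 hGtP) hpauli hgam0 hgam1 hgam3
    (gam_nonneg 1 hFtP) hphiodd hphi0 hphi2 hLam
  rw [← hGx, ← hFx] at hfin
  -- limit of the lower bound of the energy
  have hDD : Tendsto (fun n => ∑ p ∈ range P1, (v0 (Qs n) p * g3 n 0 (p + 1) p 1 -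
      v1 (Qs n) p * g3 n 0 p p 0)) (U : Filter ℕ) (𝓝 (DD P1 Gt)) := by
    unfold DD
    refine tendsto_finsetSum _ fun p _ => ?_
    have h1 := ((hlim (hF.v0_lim p)).mul (hG 0 (p + 1) p 1)).sub
      ((hlim (hF.v1_lim p)).mul (hG 0 p p 0))
    have fp : (0 : ℝ) < (p.factorial : ℝ) := by positivity
    have e1 : ((p + 1).factorial : ℝ) / 2 ^ p * Gt 0 (p + 1) p 1 =
        Real.sqrt (((p : ℝ) + 1) / 2 ^ p) * G 0 (p + 1) p 1 := by
      simp only [hGt]
      rw [← mul_div_assoc, div_eq_iff (mul_ne_zero (s3p _ _).ne' (s3p _ _).ne')]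
      have e2 : s3 0 (p + 1) * s3 p 1 = Real.sqrt (((p + 1).factorial : ℝ) * (p.factorial : ℝ) /
          2 ^ p) := by
        simp only [hs3, sc, one_mul, one_pow, div_one, pow_zero, Nat.factorial_zero, Nat.cast_one,
          Real.sqrt_one, Nat.factorial_one, mul_one]
        rw [← Real.sqrt_mul (by positivity)]
        congr 1
        ring
      have e3 : Real.sqrt (((p : ℝ) + 1) / 2 ^ p) * Real.sqrt (((p + 1).factorial : ℝ) *
          (p.factorial : ℝ) / 2 ^ p) = ((p + 1).factorial : ℝ) / 2 ^ p := by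
        rw [← Real.sqrt_mul (by positivity)]
        have : ((p : ℝ) + 1) / 2 ^ p * (((p + 1).factorial : ℝ) * (p.factorial : ℝ) / 2 ^ p) =
            (((p + 1).factorial : ℝ) / 2 ^ p) ^ 2 := by
          rw [Nat.factorial_succ]
          push_cast
          field_simp
        rw [this, Real.sqrt_sq (by positivity)]
      rw [e2]
      linear_combination (-G 0 (p + 1) p 1) * e3
    have e4 : ((p : ℝ) - 1) * (p.factorial : ℝ) / 2 ^ p * Gt 0 p p 0 =
        ((p : ℝ) - 1) / Real.sqrt (2 ^ p) * G 0 p p 0 := by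
      simp only [hGt]
      rw [← mul_div_assoc, div_eq_iff (mul_ne_zero (s3p _ _).ne' (s3p _ _).ne')]
      have e2 : s3 0 p * s3 p 0 = (p.factorial : ℝ) / Real.sqrt (2 ^ p) := by
        simp only [hs3, sc, one_mul, one_pow, div_one, pow_zero, Nat.factorial_zero, Nat.cast_one,
          Real.sqrt_one, mul_one]
        rw [Real.sqrt_div (by positivity), ← mul_div_assoc, Real.mul_self_sqrt (by positivity)]
      have e3 : Real.sqrt (2 ^ p) * Real.sqrt (2 ^ p) = (2 : ℝ) ^ p :=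
        Real.mul_self_sqrt (by positivity)
      have n2 : Real.sqrt ((2 : ℝ) ^ p) ≠ 0 := by positivity
      rw [e2]
      calc _ = ((p : ℝ) - 1) * (p.factorial : ℝ) * G 0 p p 0 / 2 ^ p := by ring
        _ = ((p : ℝ) - 1) * (p.factorial : ℝ) * G 0 p p 0 /
            (Real.sqrt (2 ^ p) * Real.sqrt (2 ^ p)) := by rw [e3]
        _ = _ := by field_simp
    rw [e1, e4]
    exact h1
  have hTT : Tendsto (fun n => ∑ p ∈ range pw, ((ts n).τ (star (WN (Qs n) p * WN (Qs n) 0) *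
      (WN (Qs n) p * WN (Qs n) 0))).re) (U : Filter ℕ) (𝓝 (TT pw Ft)) := by
    unfold TT
    refine tendsto_finsetSum _ fun p _ => ?_
    have h1 := hFl 0 p p 0
    have e1 : (p.factorial : ℝ) / 2 ^ p * Ft 0 p p 0 = F 0 p p 0 := by
      simp only [hFt]
      have e2 : s4 0 p * s4 p 0 = (p.factorial : ℝ) / 2 ^ p := by
        simp only [hs4, sc, mul_one, pow_zero, div_one, Nat.factorial_zero, Nat.cast_one,
          Real.sqrt_one, one_mul]
        exact Real.mul_self_sqrt (by positivity)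
      rw [e2]
      have fp : (0 : ℝ) < (p.factorial : ℝ) := by positivity
      field_simp
    rw [e1]
    refine h1.congr fun n => ?_
    show ((ts n).τ (star (T4 (Qs n) 0 p) * T4 (Qs n) p 0)).re = _
    rw [hT4s _ (hQ2 n) p 0]
    rfl
  have hlow : ∀ n, 1 - ∑ p ∈ range P1, (v0 (Qs n) p * g3 n 0 (p + 1) p 1 -
      v1 (Qs n) p * g3 n 0 p p 0) - tl + ∑ p ∈ range pw,
      ((ts n).τ (star (WN (Qs n) p * WN (Qs n) 0) * (WN (Qs n) p * WN (Qs n) 0))).re ≤ γ := by
    intro n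
    have h1 := (ts n).N_ge (hF.lad _ (hQ2 n)) (hF.comm0 _ (hQ2 n)) (by have := hQ2 n; omega) P1 pw
      (by have := hQ2 n; have := hQP n; omega) b tl (fun p hp => hF.tail _ (hQ2 n) p hp)
      (htl _)
    rw [ha n, mul_one] at h1
    exact h1.trans (hN n).le
  have hlim2 := ((hDD.const_sub 1).sub_const tl).add hTT
  have h9 := le_of_tendsto' hlim2 hlow
  linarith

/-- NEAR inequality for all invariant positive functionals. -/
theorem near {b : ℕ → ℝ} (hF : Facts b) (C : CertN) (hLoc : LocPosN C) (P1 pw : ℕ)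
    (γ0 tl γ : ℝ) (hLin : LinCertN C P1 pw γ0) (htl : ∀ n, ∑ p ∈ Ico P1 n, b p ≤ tl)
    (hγ : γ < γ0 - tl) :
    ∃ Q0 : ℕ, ∀ Q : ℕ, Q0 ≤ Q → ∀ t : Inv Q, γ * t.a ≤ t.N pw := by
  obtain ⟨Q0, hQ0⟩ := near_norm hF C hLoc P1 pw γ0 tl γ hLin htl hγ
  refine ⟨max Q0 (P1 + 2), fun Q hQ t => ?_⟩
  have hQ1 : Q0 ≤ Q := le_trans (le_max_left _ _) hQ
  have hQ2 : P1 + 2 ≤ Q := le_trans (le_max_right _ _) hQ
  rcases t.a_nonneg.eq_or_lt with h0 | h0
  · rw [← h0, mul_zero]
    have h1 := t.N_ge (hF.lad Q (by omega)) (hF.comm0 Q (by omega)) (by omega) P1 pw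
      (by omega) b tl (fun p hp => hF.tail Q (by omega) p hp) (htl _)
    rw [← h0, mul_zero, sub_zero] at h1
    refine le_trans ?_ h1
    have h2 : ∑ p ∈ range P1, (v0 Q p * t.cor (T3 Q) 0 (p + 1) p 1 -
        v1 Q p * t.cor (T3 Q) 0 p p 0) = 0 := by
      refine Finset.sum_eq_zero fun p hp => ?_
      have hp' : p < P1 := by simpa using hp
      have c1 := t.abs_cor3_le (hF.lad Q (by omega)) 0 (p + 1) p 1 (by omega) (by omega)
      have c2 := t.abs_cor3_le (hF.lad Q (by omega)) 0 p p 0 (by omega) (by omega)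
      rw [← h0] at c1 c2
      have d1 := abs_nonpos_iff.mp c1
      have d2 := abs_nonpos_iff.mp c2
      rw [d1, d2]; ring
    rw [h2]
    have h3 : 0 ≤ ∑ p ∈ range pw, (t.τ (star (WN Q p * WN Q 0) * (WN Q p * WN Q 0))).re :=
      Finset.sum_nonneg fun p _ => t.pos _
    linarith
  · have hr : 0 ≤ t.a⁻¹ := by positivity
    have h1 := hQ0 Q hQ1 (t.scale t.a⁻¹ hr) (by
      show ((t.scale t.a⁻¹ hr).τ (star (WN Q 0) * WN Q 0)).re = 1
      rw [t.scale_re]
      exact inv_mul_cancel₀ h0.ne')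
    have h2 : (t.scale t.a⁻¹ hr).N pw = t.a⁻¹ * t.N pw := by
      unfold Inv.N
      rw [mul_add, Finset.mul_sum, t.scale_re]
      congr 1
      exact Finset.sum_congr rfl fun p _ => t.scale_re _ _ _
    rw [h2] at h1
    have h3 := mul_le_mul_of_nonneg_left h1 h0.le
    rw [← mul_assoc, mul_inv_cancel₀ h0.ne', one_mul, mul_comm] at h3
    exact h3

end Crest.Agent.R340.Kn249
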