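import Crest.Agent.R340.Lad_978
import Crest.Agent.R340.Pl7_249

/-!
# Algebraic finite-flux facts of `Kn249.Facts` (helper978)

`comm0`, `Wnorm`, `t00 t01 t10 t12 t21 t30`, `f00 f11 f02`.
-/

set_option autoImplicit false
open scoped BigOperators ComplexConjugate
open Finset

namespace Crest.Agent.R340.Fac978

open Crest.Agent.R340.Fock649 Crest.MathPhysics.Laughlin Crest.Agent.R340.Kn249
open Crest.Agent.R340.Lad978

/-! ### CAR for `cN` -/

theorem cN_cN (Q i j : ℕ) : cN Q i * cN Q j + cN Q j * cN Q i = 0 := by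
  rcases lt_or_ge Q i with hi | hi
  · rw [cN_ge Q i hi]; simp
  rcases lt_or_ge Q j with hj | hj
  · rw [cN_ge Q j hj]; simp
  rw [cN_lt Q i (by omega), cN_lt Q j (by omega)]
  exact c_c _ _

theorem cN_swap (Q i j : ℕ) : cN Q i * cN Q j = -(cN Q j * cN Q i) := by
  rw [eq_neg_iff_add_eq_zero]; exact cN_cN Q i j

theorem cN_sq (Q i : ℕ) : cN Q i * cN Q i = 0 := by
  rcases lt_or_ge Q i with hi | hi
  · rw [cN_ge Q i hi]; simp
  · rw [cN_lt Q i (by omega)]; exact c_mul_self _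

theorem cN_star (Q i j : ℕ) (hi : i ≤ Q) : cN Q i * star (cN Q j) + star (cN Q j) * cN Q i =
    if i = j then 1 else 0 := by
  rcases lt_or_ge Q j with hj | hj
  · rw [cN_ge Q j hj, if_neg (by omega)]; simp
  rw [cN_lt Q i (by omega), cN_lt Q j (by omega), star_c, c_d]
  by_cases h : i = j
  · subst h; simp
  · rw [if_neg h, if_neg (fun h0 => h (by simpa using congrArg Fin.val h0))]

/-! ### explicit form of the pair annihilators -/

theorem WN_sum (Q p : ℕ) : WN Q p = ∑ i ∈ range (p + 2),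
    (((Real.sqrt 2)⁻¹ * pv Q p i (p + 1 - i) : ℝ) : ℂ) • (cN Q (p + 1 - i) * cN Q i) := by
  set f : ℕ → Op (Fin (Q + 1)) := fun i => if i ≤ p + 1 then
    (((Real.sqrt 2)⁻¹ * pv Q p i (p + 1 - i) : ℝ) : ℂ) • (cN Q (p + 1 - i) * cN Q i) else 0 with hf
  have h1 : WN Q p = ∑ i : Fin (Q + 1), f i := by
    rw [WN_eq]
    unfold pa
    rw [Finset.smul_sum]
    refine Finset.sum_congr rfl fun i _ => ?_
    have e1 : (∑ j, (starRingEnd ℂ) (Wm Q p i j) • ((c j : Op (Fin (Q + 1))) * c i)) =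
        (∑ j : Fin (Q + 1), (if (j : ℕ) = p + 1 - i then
          (if (i : ℕ) ≤ p + 1 then ((pv Q p i (p + 1 - i) : ℝ) : ℂ) else 0) else 0) •
          (c j : Op (Fin (Q + 1)))) * c i := by
      rw [Finset.sum_mul]
      refine Finset.sum_congr rfl fun j _ => ?_
      rw [smul_mul_assoc]
      congr 1
      rw [Wm_apply, Complex.conj_ofReal]
      by_cases hj : (j : ℕ) = p + 1 - i
      · rw [if_pos hj]
        by_cases hi : (i : ℕ) ≤ p + 1
        · rw [if_pos hi, hj]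
        · rw [if_neg hi, pv_ne Q p i j (by omega)]; simp
      · rw [if_neg hj, pv_ne Q p i j (by omega)]; simp
    rw [e1, sum_ite_c, hf]
    simp only
    have e2 : (c i : Op (Fin (Q + 1))) = cN Q i := by rw [cN_lt Q i i.2]
    rw [e2]
    by_cases hi : (i : ℕ) ≤ p + 1
    · rw [if_pos hi, if_pos hi, smul_mul_assoc, smul_smul, Complex.ofReal_mul,
        Complex.ofReal_inv]
    · rw [if_neg hi, if_neg hi]; simp
  have h2 : ∑ i : Fin (Q + 1), f i = ∑ i ∈ range (Q + 1), f i := by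
    rw [Finset.sum_range]
  have h3 : ∑ i ∈ range (Q + 1), f i = ∑ i ∈ range (max (Q + 1) (p + 2)), f i := by
    refine Finset.sum_subset (fun x hx => ?_) fun x _ hx => ?_
    · simp only [Finset.mem_range, lt_max_iff] at hx ⊢; left; exact hx
    · simp only [Finset.mem_range, not_lt] at hx
      rw [hf]; simp only
      split_ifs
      · rw [cN_ge Q x (by omega)]; simp
      · rfl
  have h4 : ∑ i ∈ range (p + 2), f i = ∑ i ∈ range (max (Q + 1) (p + 2)), f i := by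
    refine Finset.sum_subset (fun x hx => ?_) fun x _ hx => ?_
    · simp only [Finset.mem_range, lt_max_iff] at hx ⊢; right; exact hx
    · simp only [Finset.mem_range, not_lt] at hx
      rw [hf]; simp only
      rw [if_neg (by omega)]
  rw [h1, h2, h3, ← h4]
  refine Finset.sum_congr rfl fun i hi => ?_
  simp only [Finset.mem_range] at hi
  rw [hf]; simp only
  rw [if_pos (by omega)]

theorem sqrt_two_half (r : ℝ) : (Real.sqrt 2)⁻¹ * r + (Real.sqrt 2)⁻¹ * r = Real.sqrt 2 * r := by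
  have h : Real.sqrt 2 * Real.sqrt 2 = 2 := Real.mul_self_sqrt (by norm_num)
  have h0 : Real.sqrt 2 ≠ 0 := by positivity
  field_simp
  linear_combination (-r) * h

/-- combining the two orders of a pair -/
theorem pair_comb (Q p i j : ℕ) :
    (((Real.sqrt 2)⁻¹ * pv Q p i j : ℝ) : ℂ) • (cN Q j * cN Q i) +
      (((Real.sqrt 2)⁻¹ * pv Q p j i : ℝ) : ℂ) • (cN Q i * cN Q j) =
    (((Real.sqrt 2) * pv Q p i j : ℝ) : ℂ) • (cN Q j * cN Q i) := by
  rw [cN_swap Q i j, pv_antisymm Q p i j, smul_neg, mul_neg, Complex.ofReal_neg, neg_smul, neg_neg,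
    ← add_smul, ← Complex.ofReal_add, sqrt_two_half]

theorem pv00 (Q : ℕ) (hQ : 1 ≤ Q) : Real.sqrt 2 * pv Q 0 0 1 = 1 := by
  rw [pv_eq Q 0 0 1 rfl]
  have h1 : pairNorm Q (0 + 1) = Q := by
    unfold pairNorm
    have : (2 * (Q : ℝ) - 1) ≠ 0 := by
      have : (1 : ℝ) ≤ Q := by exact_mod_cast hQ
      intro h; linarith
    simp only [zero_add, Nat.cast_one, Nat.choose_one_right]
    push_cast
    field_simp
  rw [h1]
  have hq : (0 : ℝ) < Q := by exact_mod_cast (by omega : 0 < Q)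
  rw [Real.sqrt_mul (by norm_num)]
  simp only [Nat.choose_zero_right, Nat.choose_one_right, Nat.cast_one, Nat.cast_zero,
    Real.sqrt_one]
  have : Real.sqrt (Q : ℝ) ≠ 0 := by positivity
  have : Real.sqrt 2 ≠ 0 := by positivity
  field_simp
  ring

theorem v0_zero (Q : ℕ) (hQ : 1 ≤ Q) : v0 Q 0 = 1 := by
  unfold v0; exact pv00 Q hQ

theorem W0 (Q : ℕ) (hQ : 1 ≤ Q) : WN Q 0 = cN Q 1 * cN Q 0 := by
  rw [WN_sum, Finset.sum_range_succ, Finset.sum_range_succ, Finset.sum_range_zero, zero_add]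
  rw [show 0 + 1 - 0 = 1 from rfl, show 0 + 1 - 1 = 0 from rfl, pair_comb, pv00 Q hQ]
  simp

theorem pv_diag (Q p i : ℕ) : pv Q p i i = 0 := by
  have := pv_antisymm Q p i i
  linarith

theorem W1 (Q : ℕ) : WN Q 1 = ((v0 Q 1 : ℝ) : ℂ) • (cN Q 2 * cN Q 0) := by
  rw [WN_sum, Finset.sum_range_succ, Finset.sum_range_succ, Finset.sum_range_succ,
    Finset.sum_range_zero, zero_add]
  rw [show 1 + 1 - 0 = 2 from rfl, show 1 + 1 - 1 = 1 from rfl, show 1 + 1 - 2 = 0 from rfl,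
    pv_diag, mul_zero, Complex.ofReal_zero, zero_smul, add_zero, pair_comb]
  rfl

theorem W2 (Q : ℕ) : WN Q 2 = ((v0 Q 2 : ℝ) : ℂ) • (cN Q 3 * cN Q 0) +
    ((v1 Q 2 : ℝ) : ℂ) • (cN Q 2 * cN Q 1) := by
  rw [WN_sum, Finset.sum_range_succ, Finset.sum_range_succ, Finset.sum_range_succ,
    Finset.sum_range_succ, Finset.sum_range_zero, zero_add]
  rw [show 2 + 1 - 0 = 3 from rfl, show 2 + 1 - 1 = 2 from rfl, show 2 + 1 - 2 = 1 from rfl,
    show 2 + 1 - 3 = 0 from rfl]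
  have h1 := pair_comb Q 2 0 3
  have h2 := pair_comb Q 2 1 2
  unfold v0 v1
  rw [show (2 : ℕ) + 1 = 3 from rfl, ← h1, ← h2]
  abel

theorem W3 (Q : ℕ) : WN Q 3 = ((v0 Q 3 : ℝ) : ℂ) • (cN Q 4 * cN Q 0) +
    ((v1 Q 3 : ℝ) : ℂ) • (cN Q 3 * cN Q 1) := by
  rw [WN_sum, Finset.sum_range_succ, Finset.sum_range_succ, Finset.sum_range_succ,
    Finset.sum_range_succ, Finset.sum_range_succ, Finset.sum_range_zero, zero_add]
  rw [show 3 + 1 - 0 = 4 from rfl, show 3 + 1 - 1 = 3 from rfl, show 3 + 1 - 2 = 2 from rfl,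
    show 3 + 1 - 3 = 1 from rfl, show 3 + 1 - 4 = 0 from rfl, pv_diag, mul_zero,
    Complex.ofReal_zero, zero_smul, add_zero]
  have h1 := pair_comb Q 3 0 4
  have h2 := pair_comb Q 3 1 3
  unfold v0 v1
  rw [show (3 : ℕ) + 1 = 4 from rfl, ← h1, ← h2]
  abel

/-! ### commutator with `star (WN Q p)` -/

theorem c_star_pair (Q k a b : ℕ) (hk : k ≤ Q) :
    cN Q k * star (cN Q b * cN Q a) - star (cN Q b * cN Q a) * cN Q k =
      (if k = a then star (cN Q b) else 0) - (if k = b then star (cN Q a) else 0) := by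
  rw [star_mul]
  have h1 := cN_star Q k a hk
  have h2 := cN_star Q k b hk
  have e : cN Q k * (star (cN Q a) * star (cN Q b)) - star (cN Q a) * star (cN Q b) * cN Q k =
      (cN Q k * star (cN Q a) + star (cN Q a) * cN Q k) * star (cN Q b) -
        star (cN Q a) * (cN Q k * star (cN Q b) + star (cN Q b) * cN Q k) := by noncomm_ring
  rw [e, h1, h2]
  split_ifs <;> simp

theorem c_star_W (Q p k : ℕ) (hk : k ≤ Q) (hkp : k ≤ p + 1) :
    cN Q k * star (WN Q p) - star (WN Q p) * cN Q k =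
      ((Real.sqrt 2 * pv Q p k (p + 1 - k) : ℝ) : ℂ) • star (cN Q (p + 1 - k)) := by
  rw [WN_sum, star_sum, Finset.mul_sum, Finset.sum_mul, ← Finset.sum_sub_distrib]
  have h1 : ∀ i ∈ range (p + 2), cN Q k * star ((((Real.sqrt 2)⁻¹ * pv Q p i (p + 1 - i) : ℝ) : ℂ) •
      (cN Q (p + 1 - i) * cN Q i)) - star ((((Real.sqrt 2)⁻¹ * pv Q p i (p + 1 - i) : ℝ) : ℂ) •
      (cN Q (p + 1 - i) * cN Q i)) * cN Q k =
      (if k = i then (((Real.sqrt 2)⁻¹ * pv Q p i (p + 1 - i) : ℝ) : ℂ) •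
        star (cN Q (p + 1 - i)) else 0) +
      (if p + 1 - k = i then (((Real.sqrt 2)⁻¹ * pv Q p k (p + 1 - k) : ℝ) : ℂ) •
        star (cN Q (p + 1 - k)) else 0) := by
    intro i hi
    simp only [Finset.mem_range] at hi
    rw [star_smul, mul_smul_comm, smul_mul_assoc, ← smul_sub, c_star_pair Q k i (p + 1 - i) hk,
      smul_sub, sub_eq_add_neg]
    congr 1
    · rw [RCLike.star_def, Complex.conj_ofReal]
      split_ifs <;> simp
    · rw [RCLike.star_def, Complex.conj_ofReal]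
      by_cases h : p + 1 - k = i
      · rw [if_pos h, if_pos (by omega)]
        have e1 : i = p + 1 - k := h.symm
        have e2 : p + 1 - i = k := by omega
        rw [e2, e1, pv_antisymm Q p k (p + 1 - k), mul_neg, Complex.ofReal_neg, neg_smul, neg_neg]
      · rw [if_neg h, if_neg (by omega)]; simp
  rw [Finset.sum_congr rfl h1, Finset.sum_add_distrib, Finset.sum_ite_eq, Finset.sum_ite_eq,
    if_pos (by simp; omega), if_pos (by simp; omega), ← add_smul, ← Complex.ofReal_add,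
    sqrt_two_half]

theorem comm0 (Q : ℕ) (hQ : 2 ≤ Q) : Comm0 Q := by
  intro p hp
  rw [W0 Q (by omega)]
  have h0 := c_star_W Q p 0 (by omega) (by omega)
  have h1 := c_star_W Q p 1 (by omega) (by omega)
  have e : cN Q 1 * cN Q 0 * star (WN Q p) - star (WN Q p) * (cN Q 1 * cN Q 0) =
      cN Q 1 * (cN Q 0 * star (WN Q p) - star (WN Q p) * cN Q 0) +
        (cN Q 1 * star (WN Q p) - star (WN Q p) * cN Q 1) * cN Q 0 := by noncomm_ring
  rw [e, h0, h1, mul_smul_comm, smul_mul_assoc]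
  rw [show p + 1 - 0 = p + 1 from rfl, show p + 1 - 1 = p from rfl]
  have hc := cN_star Q 1 (p + 1) (by omega)
  have hc' : cN Q 1 * star (cN Q (p + 1)) = (if p = 0 then 1 else 0) -
      star (cN Q (p + 1)) * cN Q 1 := by
    rw [eq_sub_iff_add_eq, hc]
    by_cases h : p = 0
    · rw [if_pos h, if_pos (by omega)]
    · rw [if_neg h, if_neg (by omega)]
  rw [hc', smul_sub]
  have hv : ((Real.sqrt 2 * pv Q p 0 (p + 1) : ℝ) : ℂ) •
      (if p = 0 then (1 : Op (Fin (Q + 1))) else 0) = if p = 0 then 1 else 0 := by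
    by_cases h : p = 0
    · subst h
      rw [if_pos rfl, pv00 Q (by omega)]; simp
    · rw [if_neg h, smul_zero]
  rw [hv]
  rfl

/-! ### syzygies -/

theorem t00 (Q : ℕ) (hQ : 2 ≤ Q) : T3 Q 0 0 = 0 := by
  unfold T3
  rw [W0 Q (by omega), ← mul_assoc, cN_swap Q 0 1, neg_mul, mul_assoc, cN_sq]; simp

theorem t01 (Q : ℕ) (hQ : 2 ≤ Q) : T3 Q 0 1 = 0 := by
  unfold T3
  rw [W0 Q (by omega), ← mul_assoc, cN_sq, zero_mul]

theorem t10 (Q : ℕ) : T3 Q 1 0 = 0 := by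
  unfold T3
  rw [W1, mul_smul_comm, ← mul_assoc, cN_swap Q 0 2, neg_mul, mul_assoc, cN_sq]; simp

theorem t12 (Q : ℕ) : T3 Q 1 2 = 0 := by
  unfold T3
  rw [W1, mul_smul_comm, ← mul_assoc, cN_sq]; simp

theorem t21 (Q : ℕ) (hQ : 2 ≤ Q) : T3 Q 2 1 = -(((v0 Q 2 : ℝ) : ℂ) • T3 Q 0 3) := by
  unfold T3
  rw [W0 Q (by omega), W2, mul_add, mul_smul_comm, mul_smul_comm, ← mul_assoc, ← mul_assoc,
    ← mul_assoc, cN_swap Q 1 3, cN_swap Q 1 2, neg_mul, neg_mul, mul_assoc (cN Q 2), cN_sq]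
  simp

theorem t30 (Q : ℕ) (hQ : 2 ≤ Q) : T3 Q 3 0 = ((v1 Q 3 : ℝ) : ℂ) • T3 Q 0 3 := by
  unfold T3
  rw [W0 Q (by omega), W3, mul_add, mul_smul_comm, mul_smul_comm, ← mul_assoc, ← mul_assoc,
    ← mul_assoc, cN_swap Q 0 4, cN_swap Q 0 3, neg_mul, neg_mul, mul_assoc (cN Q 4), cN_sq,
    mul_assoc (cN Q 3), cN_swap Q 0 1, mul_neg, neg_neg, mul_zero, neg_zero, smul_zero, zero_add,
    mul_assoc]

theorem f00 (Q : ℕ) (hQ : 2 ≤ Q) : T4 Q 0 0 = 0 := by
  unfold T4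
  rw [W0 Q (by omega), mul_assoc, ← mul_assoc (cN Q 0), cN_swap Q 0 1, neg_mul,
    mul_assoc (cN Q 1) (cN Q 0), cN_sq]; simp

theorem f11 (Q : ℕ) : T4 Q 1 1 = 0 := by
  unfold T4
  rw [W1, smul_mul_smul_comm, mul_assoc, ← mul_assoc (cN Q 0), cN_swap Q 0 2, neg_mul,
    mul_assoc (cN Q 2) (cN Q 0), cN_sq]; simp

theorem f02 (Q : ℕ) (hQ : 2 ≤ Q) : T4 Q 0 2 = 0 := by
  unfold T4
  rw [W0 Q (by omega), W2, add_mul, smul_mul_assoc, smul_mul_assoc, mul_assoc, mul_assoc,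
    ← mul_assoc (cN Q 0), cN_swap Q 0 1, neg_mul, mul_assoc (cN Q 1) (cN Q 0), cN_sq,
    ← mul_assoc (cN Q 1), cN_sq]
  simp

/-! ### norms -/

theorem choose_mul_choose_le (Q i j : ℕ) : Q.choose i * Q.choose j ≤ (2 * Q).choose (i + j) := by
  rw [two_mul, Nat.add_choose_eq]
  have h : ((i, j) : ℕ × ℕ) ∈ Finset.HasAntidiagonal.antidiagonal (i + j) := by
    rw [Finset.HasAntidiagonal.mem_antidiagonal]
  exact Finset.single_le_sum (f := fun ij : ℕ × ℕ => Q.choose ij.1 * Q.choose ij.2)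
    (fun _ _ => Nat.zero_le _) h

theorem pv_sq_le (Q p i j : ℕ) : (pv Q p i j) ^ 2 ≤ ((j : ℝ) - i) ^ 2 := by
  by_cases h : i + j = p + 1
  · rcases lt_or_ge p (2 * Q - 1) with h1 | h1
    · unfold pv
      rw [if_pos h, div_pow, mul_pow, Real.sq_sqrt (by positivity),
        Real.sq_sqrt (by have := pairNorm_nonneg Q (p + 1); positivity)]
      have hn := pairNorm_pos h1
      rw [div_le_iff₀ (by positivity)]
      refine mul_le_mul_of_nonneg_left ?_ (sq_nonneg _)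
      have h2 : ((Q.choose i : ℝ) * Q.choose j) ≤ ((2 * Q).choose (p + 1) : ℝ) := by
        rw [← h]; exact_mod_cast choose_mul_choose_le Q i j
      refine h2.trans ?_
      unfold pairNorm
      have hQ : (1 : ℝ) ≤ Q := by exact_mod_cast (by omega : 1 ≤ Q)
      have h3 : (0 : ℝ) < 2 * Q - 1 := by linarith
      have h4 : ((2 * Q).choose (p + 1) : ℝ) * (2 * Q - 1) ≤
          (((p + 1 : ℕ) : ℝ) * (2 * Q - ((p + 1 : ℕ) : ℝ)) * ((2 * Q).choose (p + 1) : ℝ)) := by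
        have h5 : (2 * (Q : ℝ) - 1) ≤ ((p + 1 : ℕ) : ℝ) * (2 * Q - ((p + 1 : ℕ) : ℝ)) := by
          have h6 : ((p : ℝ) + 2) ≤ 2 * Q := by exact_mod_cast (by omega : p + 2 ≤ 2 * Q)
          have h7 : (0 : ℝ) ≤ p := Nat.cast_nonneg p
          push_cast
          nlinarith
        have h8 : (0 : ℝ) ≤ ((2 * Q).choose (p + 1) : ℝ) := Nat.cast_nonneg _
        nlinarith
      rw [mul_div_assoc', le_div_iff₀ (by positivity)]
      linarith
    · rw [pv_big Q p i j h1]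
      have := sq_nonneg ((j : ℝ) - i)
      linarith
  · rw [pv_ne Q p i j h]
    have := sq_nonneg ((j : ℝ) - i)
    linarith

theorem abs_pv_le (Q p i j : ℕ) : |pv Q p i j| ≤ (p : ℝ) + 1 := by
  by_cases h : i + j = p + 1
  · have h1 := pv_sq_le Q p i j
    have h2 : ((j : ℝ) - i) ^ 2 ≤ ((p : ℝ) + 1) ^ 2 := by
      have : (i : ℝ) + j = p + 1 := by exact_mod_cast h
      have hi : (0 : ℝ) ≤ i := Nat.cast_nonneg i
      have hj : (0 : ℝ) ≤ j := Nat.cast_nonneg j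
      nlinarith
    exact abs_le_of_sq_le_sq (h1.trans h2) (by positivity)
  · rw [pv_ne Q p i j h, abs_zero]; positivity

theorem norm_WN_le (Q s : ℕ) : ‖WN Q s‖ ≤ ((s : ℝ) + 2) * ((s : ℝ) + 1) := by
  rw [WN_sum]
  refine (norm_sum_le _ _).trans ?_
  have h1 : ∀ i ∈ range (s + 2), ‖(((Real.sqrt 2)⁻¹ * pv Q s i (s + 1 - i) : ℝ) : ℂ) •
      (cN Q (s + 1 - i) * cN Q i)‖ ≤ (s : ℝ) + 1 := by
    intro i _
    rw [norm_smul, Complex.norm_real, Real.norm_eq_abs, abs_mul]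
    have h2 : |(Real.sqrt 2)⁻¹| ≤ 1 := by
      rw [abs_of_nonneg (by positivity)]
      apply inv_le_one_of_one_le₀
      rw [show (1 : ℝ) = Real.sqrt 1 by simp]
      exact Real.sqrt_le_sqrt (by norm_num)
    have h3 : ‖cN Q (s + 1 - i) * cN Q i‖ ≤ 1 := by
      refine (norm_mul_le _ _).trans ?_
      have := norm_cN_le Q (s + 1 - i)
      have := norm_cN_le Q i
      have := norm_nonneg (cN Q (s + 1 - i))
      nlinarith [norm_nonneg (cN Q i)]
    have h4 := abs_pv_le Q s i (s + 1 - i)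
    have h5 : |(Real.sqrt 2)⁻¹| * |pv Q s i (s + 1 - i)| ≤ 1 * ((s : ℝ) + 1) :=
      mul_le_mul h2 h4 (abs_nonneg _) (by norm_num)
    calc |(Real.sqrt 2)⁻¹| * |pv Q s i (s + 1 - i)| * ‖cN Q (s + 1 - i) * cN Q i‖
        ≤ (1 * ((s : ℝ) + 1)) * 1 := mul_le_mul h5 h3 (norm_nonneg _) (by positivity)
      _ = (s : ℝ) + 1 := by ring
  refine (Finset.sum_le_sum h1).trans ?_
  rw [Finset.sum_const, Finset.card_range, nsmul_eq_mul]
  push_cast
  exact le_refl _

theorem Wnorm (s : ℕ) : ∃ C : ℝ, ∀ Q : ℕ, ‖WN Q s‖ ≤ C := ⟨_, fun Q => norm_WN_le Q s⟩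

end Crest.Agent.R340.Fac978
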