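import Crest.Agent.R340.FiltQL_867
import Mathlib.Topology.Algebra.Module.Star

/-!
Structural properties of the filtered operators `LR667.Fl`, `LR667.SS` (helper867): linearity,
adjoints, parity, commutants, annihilation of eigenprojections, profile bounds without loss.
-/

set_option autoImplicit false
set_option linter.unusedSectionVars false

open scoped ENNReal NNReal
open MeasureTheory

namespace Crest.Agent.R340.Filt867

open Crest.Agent.R340.QL331 Crest.Agent.R340.LR667 Crest.Agent.R340.DC867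

section struct

variable {A : Type*} [CStarAlgebra A]

/-- a real continuous linear map passes through `Fl` -/
theorem map_Fl {B : Type*} [NormedAddCommGroup B] [NormedSpace ℝ B] [CompleteSpace B]
    (L : A →L[ℝ] B) {g : ℝ → ℝ} (hg : IsFilter g) {H : A} (hH : IsSelfAdjoint H) (X : A) :
    L (Fl g H X) = ∫ t, g t • L (tau H t X) := by
  rw [Fl, ← L.integral_comp_comm (integrable_Fl hg hH X)]
  simp only [map_smul]

theorem map_Tt {B : Type*} [NormedAddCommGroup B] [NormedSpace ℝ B] [CompleteSpace B]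
    (L : A →L[ℝ] B) (H : A) (X : A) (t : ℝ) :
    L (Tt H t X) = ∫ s in (0 : ℝ)..t, L (tau H s X) := by
  rw [Tt, ← ContinuousLinearMap.intervalIntegral_comp_comm L
    ((continuous_tau H X).intervalIntegrable (μ := volume) 0 t)]

theorem map_SS {B : Type*} [NormedAddCommGroup B] [NormedSpace ℝ B] [CompleteSpace B]
    (L : A →L[ℝ] B) {g : ℝ → ℝ} (hg : IsFilter g) {H : A} (hH : IsSelfAdjoint H) (X : A) :
    L (SS g H X) = ∫ t, g t • ∫ s in (0 : ℝ)..t, L (tau H s X) := by
  rw [SS, ← L.integral_comp_comm (integrable_SS hg hH X)]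
  simp only [map_smul, map_Tt]

/-- two linear maps agreeing along the orbits agree on `Fl`, `SS` -/
theorem Fl_congr {B : Type*} [NormedAddCommGroup B] [NormedSpace ℝ B] [CompleteSpace B]
    (L L' : A →L[ℝ] B) {g : ℝ → ℝ} (hg : IsFilter g) {H : A} (hH : IsSelfAdjoint H) (X Y : A)
    (h : ∀ t, L (tau H t X) = L' (tau H t Y)) : L (Fl g H X) = L' (Fl g H Y) := by
  rw [map_Fl L hg hH, map_Fl L' hg hH]
  simp only [h]

theorem SS_congr {B : Type*} [NormedAddCommGroup B] [NormedSpace ℝ B] [CompleteSpace B]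
    (L L' : A →L[ℝ] B) {g : ℝ → ℝ} (hg : IsFilter g) {H : A} (hH : IsSelfAdjoint H) (X Y : A)
    (h : ∀ t, L (tau H t X) = L' (tau H t Y)) : L (SS g H X) = L' (SS g H Y) := by
  rw [map_SS L hg hH, map_SS L' hg hH]
  simp only [h]

/-- `star` as a real continuous linear map -/
noncomputable def starR : A →L[ℝ] A := ((starL' ℝ : A ≃L[ℝ] A) : A →L[ℝ] A)

@[simp] theorem starR_apply (X : A) : starR X = star X := rfl

theorem Fl_star {g : ℝ → ℝ} (hg : IsFilter g) {H : A} (hH : IsSelfAdjoint H) (X : A) :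
    star (Fl g H X) = Fl g H (star X) :=
  Fl_congr starR (ContinuousLinearMap.id ℝ A) hg hH X (star X) fun t => by
    simp [tau_star hH]

theorem SS_star {g : ℝ → ℝ} (hg : IsFilter g) {H : A} (hH : IsSelfAdjoint H) (X : A) :
    star (SS g H X) = SS g H (star X) :=
  SS_congr starR (ContinuousLinearMap.id ℝ A) hg hH X (star X) fun t => by
    simp [tau_star hH]

theorem Fl_add {g : ℝ → ℝ} (hg : IsFilter g) {H : A} (hH : IsSelfAdjoint H) (X Y : A) :
    Fl g H (X + Y) = Fl g H X + Fl g H Y := by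
  rw [Fl, Fl, Fl, ← integral_add (integrable_Fl hg hH X) (integrable_Fl hg hH Y)]
  simp only [tau_add, smul_add]

theorem Fl_smul {g : ℝ → ℝ} {H : A} (X : A) (c : ℂ) :
    Fl g H (c • X) = c • Fl g H X := by
  rw [Fl, Fl, ← integral_smul]
  congr 1
  funext t
  rw [tau_smul, smul_comm]

theorem Tt_add (H : A) (t : ℝ) (X Y : A) : Tt H t (X + Y) = Tt H t X + Tt H t Y := by
  rw [Tt, Tt, Tt, ← intervalIntegral.integral_add
    ((continuous_tau H X).intervalIntegrable _ _) ((continuous_tau H Y).intervalIntegrable _ _)]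
  simp only [tau_add]

theorem Tt_smul (H : A) (t : ℝ) (X : A) (c : ℂ) : Tt H t (c • X) = c • Tt H t X := by
  rw [Tt, Tt, ← intervalIntegral.integral_smul]
  simp only [tau_smul]

theorem SS_add {g : ℝ → ℝ} (hg : IsFilter g) {H : A} (hH : IsSelfAdjoint H) (X Y : A) :
    SS g H (X + Y) = SS g H X + SS g H Y := by
  rw [SS, SS, SS, ← integral_add (integrable_SS hg hH X) (integrable_SS hg hH Y)]
  simp only [Tt_add, smul_add]

theorem SS_smul {g : ℝ → ℝ} {H : A} (X : A) (c : ℂ) :
    SS g H (c • X) = c • SS g H X := by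
  rw [SS, SS, ← integral_smul]
  congr 1
  funext t
  rw [Tt_smul, smul_comm]

/-- `Fl g H` as a complex continuous linear map. -/
noncomputable def FlL {g : ℝ → ℝ} (hg : IsFilter g) {H : A} (hH : IsSelfAdjoint H) : A →L[ℂ] A :=
  LinearMap.mkContinuous
    { toFun := Fl g H
      map_add' := Fl_add hg hH
      map_smul' := fun c X => Fl_smul X c }
    (∫ t, |g t|) (fun X => norm_Fl_le hH X)

@[simp] theorem FlL_apply {g : ℝ → ℝ} (hg : IsFilter g) {H : A} (hH : IsSelfAdjoint H) (X : A) :
    FlL hg hH X = Fl g H X := rfl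

/-- `SS g H` as a complex continuous linear map. -/
noncomputable def SSL {g : ℝ → ℝ} (hg : IsFilter g) {H : A} (hH : IsSelfAdjoint H) : A →L[ℂ] A :=
  LinearMap.mkContinuous
    { toFun := SS g H
      map_add' := SS_add hg hH
      map_smul' := fun c X => SS_smul X c }
    (∫ t, |t| * |g t|) (fun X => norm_SS_le hg hH X)

@[simp] theorem SSL_apply {g : ℝ → ℝ} (hg : IsFilter g) {H : A} (hH : IsSelfAdjoint H) (X : A) :
    SSL hg hH X = SS g H X := rfl

theorem U_commute' {H Y : A} (h : Commute H Y) (t : ℝ) : Commute (U H t) Y := by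
  let _ : NormedAlgebra ℚ A := NormedAlgebra.restrictScalars ℚ ℂ A
  have h1 : Commute (t • (Complex.I • H)) Y := (h.smul_left _).smul_left _
  exact h1.exp_left

theorem tau_fix {H Y : A} (h : Commute H Y) (t : ℝ) : tau H t Y = Y := by
  rw [tau, (U_commute' h t).eq, mul_assoc, U_mul_neg, mul_one]

theorem tau_commute {H X Y : A} (h : Commute H Y) (hX : Commute X Y) (t : ℝ) :
    Commute (tau H t X) Y := by
  have h1 := tau_mul H t X Y
  have h2 := tau_mul H t Y X
  rw [tau_fix h] at h1 h2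
  show tau H t X * Y = Y * tau H t X
  rw [← h1, ← h2, hX.eq]

theorem Fl_comm {g : ℝ → ℝ} (hg : IsFilter g) {H : A} (hH : IsSelfAdjoint H) {X Y : A}
    (h : Commute H Y) (hX : Commute X Y) : Commute (Fl g H X) Y := by
  refine Fl_congr ((ContinuousLinearMap.mul ℝ A).flip Y) (ContinuousLinearMap.mul ℝ A Y) hg hH X X
    fun t => ?_
  exact tau_commute h hX t

theorem SS_comm {g : ℝ → ℝ} (hg : IsFilter g) {H : A} (hH : IsSelfAdjoint H) {X Y : A}
    (h : Commute H Y) (hX : Commute X Y) : Commute (SS g H X) Y := by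
  refine SS_congr ((ContinuousLinearMap.mul ℝ A).flip Y) (ContinuousLinearMap.mul ℝ A Y) hg hH X X
    fun t => ?_
  exact tau_commute h hX t

/-- eigenprojections: `H P = E P` implies `U(t) P = e^{itE} P`. -/
theorem U_mul_eigen {H P : A} {E : ℝ} (hHP : H * P = (E : ℂ) • P) (t : ℝ) :
    U H t * P = Complex.exp (((t * E : ℝ) : ℂ) * Complex.I) • P := by
  have hd : ∀ s : ℝ, HasDerivAt
      (fun s : ℝ => Complex.exp (-(((s * E : ℝ) : ℂ) * Complex.I)) • (U H s * P)) 0 s := by
    intro s
    have h1 : HasDerivAt (fun s : ℝ => U H s * P) (U H s * (Complex.I • H) * P) s :=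
      (hasDerivAt_U H s).mul_const P
    have h2 : HasDerivAt (fun s : ℝ => Complex.exp (-(((s * E : ℝ) : ℂ) * Complex.I)))
        (Complex.exp (-(((s * E : ℝ) : ℂ) * Complex.I)) * (-((E : ℂ) * Complex.I))) s := by
      have h3 : HasDerivAt (fun s : ℝ => -(((s * E : ℝ) : ℂ) * Complex.I))
          (-((E : ℂ) * Complex.I)) s := by
        have h4 : HasDerivAt (fun s : ℝ => ((s * E : ℝ) : ℂ)) (E : ℂ) s := by
          have := ((hasDerivAt_id s).mul_const E).ofReal_comp
          simpa using this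
        exact (h4.mul_const Complex.I).neg
      exact h3.cexp
    refine (h2.smul h1).congr_deriv ?_
    rw [mul_assoc (U H s), smul_mul_assoc, hHP, mul_smul_comm, mul_smul_comm, smul_smul, smul_smul,
      ← add_smul]
    convert zero_smul ℂ _ using 2
    ring
  have h := is_const_of_deriv_eq_zero (fun s => (hd s).differentiableAt)
    (fun s => (hd s).deriv) t 0
  simp only [zero_mul, Complex.ofReal_zero, neg_zero, Complex.exp_zero, one_smul, U_zero,
    one_mul] at h
  calc U H t * P = (Complex.exp (((t * E : ℝ) : ℂ) * Complex.I) *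
        Complex.exp (-(((t * E : ℝ) : ℂ) * Complex.I))) • (U H t * P) := by
        rw [← Complex.exp_add, add_neg_cancel, Complex.exp_zero, one_smul]
    _ = _ := by rw [← smul_smul, h]

theorem tau_mul_eq_zero {H P X : A} {E : ℝ} (hHP : H * P = (E : ℂ) • P) (hX : X * P = 0) (t : ℝ) :
    tau H t X * P = 0 := by
  rw [tau, mul_assoc, U_mul_eigen hHP, mul_smul_comm, mul_assoc, hX, mul_zero, smul_zero]

theorem Fl_mul_eq_zero {g : ℝ → ℝ} (hg : IsFilter g) {H P X : A} (hH : IsSelfAdjoint H) {E : ℝ}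
    (hHP : H * P = (E : ℂ) • P) (hX : X * P = 0) : Fl g H X * P = 0 := by
  have h := Fl_congr ((ContinuousLinearMap.mul ℝ A).flip P) 0 hg hH X X fun t => by
    simpa using tau_mul_eq_zero hHP hX t
  simpa using h

theorem SS_mul_eq_zero {g : ℝ → ℝ} (hg : IsFilter g) {H P X : A} (hH : IsSelfAdjoint H) {E : ℝ}
    (hHP : H * P = (E : ℂ) • P) (hX : X * P = 0) : SS g H X * P = 0 := by
  have h := SS_congr ((ContinuousLinearMap.mul ℝ A).flip P) 0 hg hH X X fun t => by
    simpa using tau_mul_eq_zero hHP hX t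
  simpa using h

end struct

section bounds

variable {A : Type*} [CStarAlgebra A]

/-- moment of a filter with the weight `(1 + |t|) ^ p` -/
noncomputable def mom (g : ℝ → ℝ) (p : ℕ) : ℝ := ∫ t, (1 + |t|) ^ p * |g t|

theorem integrable_mom {g : ℝ → ℝ} (hg : IsFilter g) (p : ℕ) :
    Integrable (fun t => (1 + |t|) ^ p * |g t|) := by
  have h : Integrable (fun t => ∑ i ∈ Finset.range (p + 1),
      (p.choose i : ℝ) * (|t| ^ (p - i) * |g t|)) :=
    integrable_finsetSum _ fun i _ => (hg.int _).const_mul _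
  refine h.congr (Filter.Eventually.of_forall fun t => ?_)
  simp only
  rw [add_pow, Finset.sum_mul]
  refine Finset.sum_congr rfl fun i _ => ?_
  ring

theorem mom_nonneg (g : ℝ → ℝ) (p : ℕ) : 0 ≤ mom g p :=
  integral_nonneg fun t => by positivity

theorem mom_mono {g : ℝ → ℝ} (hg : IsFilter g) {p q : ℕ} (h : p ≤ q) : mom g p ≤ mom g q := by
  refine integral_mono (integrable_mom hg p) (integrable_mom hg q) fun t => ?_
  simp only
  gcongr
  linarith [abs_nonneg t]

theorem Fl_le_mom {g : ℝ → ℝ} (hg : IsFilter g) {H : A} (hH : IsSelfAdjoint H) {X y : A} {p : ℕ}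
    {K : ℝ} (h : ∀ t, ‖⁅tau H t X, y⁆‖ ≤ K * (1 + |t|) ^ p) :
    ‖⁅Fl g H X, y⁆‖ ≤ K * mom g p := by
  have h1 : Integrable fun t => |g t| * (K * (1 + |t|) ^ p) := by
    refine ((integrable_mom hg p).const_mul K).congr (Filter.Eventually.of_forall fun t => ?_)
    simp only
    ring
  refine (norm_lie_Fl_le hg hH X y h1 h).trans (le_of_eq ?_)
  rw [mom, ← integral_const_mul]
  congr 1
  funext t
  ring

theorem SS_le_mom {g : ℝ → ℝ} (hg : IsFilter g) {H : A} (hH : IsSelfAdjoint H) {X y : A} {p : ℕ}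
    {K : ℝ} (hK : 0 ≤ K) (h : ∀ t, ‖⁅tau H t X, y⁆‖ ≤ K * (1 + |t|) ^ p) :
    ‖⁅SS g H X, y⁆‖ ≤ K * mom g (p + 1) := by
  have h1 : Integrable fun t => |t| * |g t| * (K * (1 + |(|t|)|) ^ p) := by
    refine ((integrable_mom hg (p + 1)).const_mul K).mono' ?_ ?_
    · have := hg.cont
      fun_prop
    · refine Filter.Eventually.of_forall fun t => ?_
      rw [Real.norm_of_nonneg (by positivity), abs_abs, pow_succ]
      calc |t| * |g t| * (K * (1 + |t|) ^ p) ≤ (1 + |t|) * |g t| * (K * (1 + |t|) ^ p) := by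
            gcongr; linarith
        _ = _ := by ring
  have hmono : MonotoneOn (fun t : ℝ => K * (1 + |t|) ^ p) (Set.Ici 0) := by
    intro a ha b hb hab
    simp only
    rw [abs_of_nonneg ha, abs_of_nonneg (le_trans ha hab)]
    have : (0 : ℝ) ≤ a := ha
    gcongr
  refine (norm_lie_SS_le hg hH X y (φ := fun t => K * (1 + |t|) ^ p) h1 hmono
    (fun t => by simpa using h t)).trans ?_
  rw [mom, ← integral_const_mul]
  refine integral_mono h1 ((integrable_mom hg (p + 1)).const_mul K) fun t => ?_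
  simp only [abs_abs]
  rw [pow_succ]
  calc |t| * |g t| * (K * (1 + |t|) ^ p) ≤ (1 + |t|) * |g t| * (K * (1 + |t|) ^ p) := by
        gcongr; linarith
    _ = _ := by ring

theorem norm_Fl_le_mom {g : ℝ → ℝ} {H : A} (hH : IsSelfAdjoint H) (X : A) :
    ‖Fl g H X‖ ≤ ‖X‖ * mom g 0 := by
  refine (norm_Fl_le hH X).trans (le_of_eq ?_)
  rw [mom]
  simp only [pow_zero, one_mul]
  ring

theorem norm_SS_le_mom {g : ℝ → ℝ} (hg : IsFilter g) {H : A} (hH : IsSelfAdjoint H) (X : A) :
    ‖SS g H X‖ ≤ ‖X‖ * mom g 1 := by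
  refine (norm_SS_le hg hH X).trans ?_
  rw [mul_comm]
  refine mul_le_mul_of_nonneg_left ?_ (norm_nonneg X)
  have h1 : Integrable (fun t => |t| * |g t|) := by simpa using hg.int 1
  refine integral_mono h1 (integrable_mom hg 1) fun t => ?_
  simp only [pow_one]
  gcongr
  linarith

end bounds

section parity

variable {A V : Type*} [CStarAlgebra A] [NormedAddCommGroup V] [InnerProductSpace ℂ V]
  (R : Car A V)

theorem ev_iff_commute {X : A} : R.Ev X ↔ Commute X R.th := by
  constructor
  · intro h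
    have h' : R.th * X * R.th = X := h
    show X * R.th = R.th * X
    calc X * R.th = R.th * X * R.th * R.th := by rw [h']
      _ = R.th * X * (R.th * R.th) := by noncomm_ring
      _ = R.th * X := by rw [R.th_sq, mul_one]
  · intro h
    show R.th * X * R.th = X
    rw [mul_assoc, h.eq, ← mul_assoc, R.th_sq, one_mul]

theorem Ev_tau {H X : A} (hth : Commute H R.th) (hX : R.Ev X) (t : ℝ) : R.Ev (tau H t X) :=
  (ev_iff_commute R).2 (tau_commute hth ((ev_iff_commute R).1 hX) t)

theorem Ev_Fl {g : ℝ → ℝ} (hg : IsFilter g) {H X : A} (hH : IsSelfAdjoint H)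
    (hth : Commute H R.th) (hX : R.Ev X) : R.Ev (Fl g H X) :=
  (ev_iff_commute R).2 (Fl_comm hg hH hth ((ev_iff_commute R).1 hX))

theorem Ev_SS {g : ℝ → ℝ} (hg : IsFilter g) {H X : A} (hH : IsSelfAdjoint H)
    (hth : Commute H R.th) (hX : R.Ev X) : R.Ev (SS g H X) :=
  (ev_iff_commute R).2 (SS_comm hg hH hth ((ev_iff_commute R).1 hX))

end parity

end Crest.Agent.R340.Filt867
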