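import Crest.Agent.R340.U2_856

/-!
R340, block (U) (helper856), part 2: the profile class `Fam`, its stability under
`S ↦ O = ∫ (1+d)^3 [B_g,S]^* [B_g,S]`, and the theorem (U): square-root bootstrap.
-/

set_option autoImplicit false
set_option linter.unusedSectionVars false

namespace Crest.Agent.R340.U856

open MeasureTheory
open scoped InnerProductSpace ComplexConjugate

variable {𝒜 : Type*} [CStarAlgebra 𝒜]
variable {G : Type*} [TopologicalSpace G]

/-- the profile class of families `x ↦ X x` localised at `x` -/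
structure Fam (a : Fin 2 → G → 𝒜) (d : G → G → ℝ) (Nh : 𝒜) (m : ℕ) (C : ℝ) (X : G → 𝒜) :
    Prop where
  cont : Continuous X
  sa : ∀ x, IsSelfAdjoint (X x)
  num : ∀ x, Nh * X x = X x * Nh
  norm_le : ∀ x, ‖X x‖ ≤ C
  com : ∀ x k w, ‖X x * a k w - a k w * X x‖ ≤ C / (1 + d x w) ^ m

variable {a : Fin 2 → G → 𝒜} {d : G → G → ℝ} {Nh : 𝒜} {m : ℕ}

theorem Fam.com_star {C : ℝ} {X : G → 𝒜} (h : Fam a d Nh m C X) (x : G) (k : Fin 2) (w : G) :
    ‖X x * star (a k w) - star (a k w) * X x‖ ≤ C / (1 + d x w) ^ m := by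
  have h1 : X x * star (a k w) - star (a k w) * X x = - star (X x * a k w - a k w * X x) := by
    rw [star_sub, star_mul, star_mul, (h.sa x).star_eq]
    abel
  rw [h1, norm_neg, norm_star]
  exact h.com x k w

theorem Fam.smul {C r : ℝ} {X : G → 𝒜} (h : Fam a d Nh m C X) (hr : 0 ≤ r) :
    Fam a d Nh m (r * C) (fun x => (r : ℂ) • X x) := by
  have hn : ‖(r : ℂ)‖ = r := by rw [Complex.norm_real, Real.norm_of_nonneg hr]
  refine ⟨?_, ?_, ?_, ?_, ?_⟩
  · exact h.cont.const_smul _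
  · intro x
    have : star ((r : ℂ) • X x) = (r : ℂ) • X x := by
      rw [star_smul, (h.sa x).star_eq]
      simp
    exact this
  · intro x
    rw [mul_smul_comm, smul_mul_assoc, h.num x]
  · intro x
    rw [norm_smul, hn]
    exact mul_le_mul_of_nonneg_left (h.norm_le x) hr
  · intro x k w
    rw [smul_mul_assoc, mul_smul_comm, ← smul_sub, norm_smul, hn, mul_div_assoc]
    exact mul_le_mul_of_nonneg_left (h.com x k w) hr

theorem Fam.mono {C C' : ℝ} {X : G → 𝒜} (h : Fam a d Nh m C X) (hC : C ≤ C')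
    (hd0 : ∀ x g, 0 ≤ d x g) : Fam a d Nh m C' X := by
  refine ⟨h.cont, h.sa, h.num, fun x => (h.norm_le x).trans hC, fun x k w => ?_⟩
  have : 0 < (1 + d x w) ^ m := by
    have := hd0 x w
    positivity
  exact (h.com x k w).trans (div_le_div_of_nonneg_right hC this.le)

section Stab

variable [CompactSpace G] [SecondCountableTopology G] [T2Space G]
  [MeasurableSpace G] [BorelSpace G] {ν : Measure G} [IsFiniteMeasure ν]

/-- the frame data: localised annihilators `a k g`, `k = 0,1`, with kernel bound `kap` -/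
structure Frame (ν : Measure G) (a : Fin 2 → G → 𝒜) (d : G → G → ℝ) (kap : G → G → ℝ) (Nh : 𝒜)
    (m : ℕ) (S₁ S₂ Ck : ℝ) : Prop where
  acont : ∀ k, Continuous (a k)
  norm_a : ∀ k g, ‖a k g‖ ≤ 1
  anti : ∀ k l g w, a k g * a l w = - (a l w * a k g)
  car : ∀ k l g w, ∃ z : ℂ, ‖z‖ ≤ kap g w ∧
    a k g * star (a l w) + star (a l w) * a k g = z • (1 : 𝒜)
  num : ∀ k g, Nh * a k g = a k g * Nh - a k g
  Nh_sa : IsSelfAdjoint Nh
  d_cont : Continuous (fun p : G × G => d p.1 p.2)
  d_nonneg : ∀ x g, 0 ≤ d x g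
  kap_cont : Continuous (fun p : G × G => kap p.1 p.2)
  schur1 : ∀ x, ∫ g, (1 + d x g) ^ 3 / (1 + d x g) ^ m ∂ν ≤ S₁
  schur2 : ∀ x w, ∫ g, kap g w * (1 + d x g) ^ 3 / (1 + d x g) ^ (2 * m) ∂ν ≤
    S₂ / (1 + d x w) ^ m
  schur3 : ∀ g, ∫ x, ((1 + d x g) ^ 3)⁻¹ ∂ν ≤ Ck

variable {kap : G → G → ℝ} {S₁ S₂ Ck : ℝ}

/-- the pair annihilator `B_g = a_1(g) a_0(g)` -/
def pB (a : Fin 2 → G → 𝒜) (g : G) : 𝒜 := a 1 g * a 0 g

theorem Frame.pB_cont (F : Frame ν a d kap Nh m S₁ S₂ Ck) : Continuous (pB a) :=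
  (F.acont 1).mul (F.acont 0)

theorem Frame.norm_pB (F : Frame ν a d kap Nh m S₁ S₂ Ck) (g : G) : ‖pB a g‖ ≤ 1 := by
  refine (norm_mul_le _ _).trans ?_
  have h1 := F.norm_a 1 g
  have h0 := F.norm_a 0 g
  nlinarith [norm_nonneg (a 1 g), norm_nonneg (a 0 g)]

theorem Frame.kap_nonneg (F : Frame ν a d kap Nh m S₁ S₂ Ck) (g w : G) : 0 ≤ kap g w := by
  obtain ⟨z, hz, -⟩ := F.car 0 0 g w
  exact (norm_nonneg z).trans hz

/-- `‖[B_g, S_x]‖ ≤ 2C/(1+d)^m` -/
theorem Frame.norm_TT (F : Frame ν a d kap Nh m S₁ S₂ Ck) {C : ℝ} {S : G → 𝒜}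
    (hS : Fam a d Nh m C S) (g x : G) : ‖TT (pB a) S g x‖ ≤ 2 * (C / (1 + d x g) ^ m) := by
  have h : TT (pB a) S g x = - (a 1 g * (S x * a 0 g - a 0 g * S x)) -
      (S x * a 1 g - a 1 g * S x) * a 0 g := by
    unfold TT pB
    noncomm_ring
  rw [h]
  have h1 := hS.com x 0 g
  have h2 := hS.com x 1 g
  have e1 : ‖a 1 g * (S x * a 0 g - a 0 g * S x)‖ ≤ C / (1 + d x g) ^ m := by
    refine (norm_mul_le _ _).trans ?_
    calc ‖a 1 g‖ * ‖S x * a 0 g - a 0 g * S x‖ ≤ 1 * ‖S x * a 0 g - a 0 g * S x‖ :=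
          mul_le_mul_of_nonneg_right (F.norm_a 1 g) (norm_nonneg _)
      _ ≤ _ := by rw [one_mul]; exact h1
  have e2 : ‖(S x * a 1 g - a 1 g * S x) * a 0 g‖ ≤ C / (1 + d x g) ^ m := by
    refine (norm_mul_le _ _).trans ?_
    calc ‖S x * a 1 g - a 1 g * S x‖ * ‖a 0 g‖ ≤ ‖S x * a 1 g - a 1 g * S x‖ * 1 :=
          mul_le_mul_of_nonneg_left (F.norm_a 0 g) (norm_nonneg _)
      _ ≤ _ := by rw [mul_one]; exact h2
  calc _ ≤ ‖a 1 g * (S x * a 0 g - a 0 g * S x)‖ + ‖(S x * a 1 g - a 1 g * S x) * a 0 g‖ := by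
        refine (norm_sub_le _ _).trans ?_
        rw [norm_neg]
    _ ≤ _ := by linarith

/-- commutator with `a_k(w)` -/
theorem Frame.norm_TT_com (F : Frame ν a d kap Nh m S₁ S₂ Ck) {C : ℝ} {S : G → 𝒜}
    (hS : Fam a d Nh m C S) (g x w : G) (k : Fin 2) :
    ‖TT (pB a) S g x * a k w - a k w * TT (pB a) S g x‖ ≤ 2 * (C / (1 + d x w) ^ m) := by
  have hB : pB a g * a k w = a k w * pB a g := by
    unfold pB
    rw [mul_assoc, F.anti 0 k g w, mul_neg, ← mul_assoc, F.anti 1 k g w]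
    noncomm_ring
  have h : TT (pB a) S g x * a k w - a k w * TT (pB a) S g x =
      pB a g * (S x * a k w - a k w * S x) - (S x * a k w - a k w * S x) * pB a g := by
    have e : TT (pB a) S g x * a k w - a k w * TT (pB a) S g x -
        (pB a g * (S x * a k w - a k w * S x) - (S x * a k w - a k w * S x) * pB a g) =
        (pB a g * a k w - a k w * pB a g) * S x - S x * (pB a g * a k w - a k w * pB a g) := by
      unfold TT
      noncomm_ring
    rw [hB, sub_self, zero_mul, mul_zero, sub_zero] at e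
    exact sub_eq_zero.mp e
  rw [h]
  have h1 := hS.com x k w
  have hb := F.norm_pB g
  refine (norm_sub_le _ _).trans ?_
  have e1 : ‖pB a g * (S x * a k w - a k w * S x)‖ ≤ C / (1 + d x w) ^ m := by
    refine (norm_mul_le _ _).trans ?_
    calc ‖pB a g‖ * ‖S x * a k w - a k w * S x‖ ≤ 1 * ‖S x * a k w - a k w * S x‖ :=
          mul_le_mul_of_nonneg_right hb (norm_nonneg _)
      _ ≤ _ := by rw [one_mul]; exact h1
  have e2 : ‖(S x * a k w - a k w * S x) * pB a g‖ ≤ C / (1 + d x w) ^ m := by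
    refine (norm_mul_le _ _).trans ?_
    calc ‖S x * a k w - a k w * S x‖ * ‖pB a g‖ ≤ ‖S x * a k w - a k w * S x‖ * 1 :=
          mul_le_mul_of_nonneg_left hb (norm_nonneg _)
      _ ≤ _ := by rw [mul_one]; exact h1
  linarith

/-- commutator with `a_k(w)^*` -/
theorem Frame.norm_TT_com_star (F : Frame ν a d kap Nh m S₁ S₂ Ck) {C : ℝ} {S : G → 𝒜}
    (hS : Fam a d Nh m C S) (g x w : G) (k : Fin 2) :
    ‖TT (pB a) S g x * star (a k w) - star (a k w) * TT (pB a) S g x‖ ≤
      2 * (C / (1 + d x w) ^ m) + 2 * (kap g w * (C / (1 + d x g) ^ m)) := by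
  obtain ⟨z0, hz0, h0⟩ := F.car 0 k g w
  obtain ⟨z1, hz1, h1⟩ := F.car 1 k g w
  have hB : pB a g * star (a k w) - star (a k w) * pB a g = z0 • a 1 g - z1 • a 0 g := by
    have e0 : a 0 g * star (a k w) = z0 • (1 : 𝒜) - star (a k w) * a 0 g := by
      rw [← h0]; abel
    have e1 : a 1 g * star (a k w) = z1 • (1 : 𝒜) - star (a k w) * a 1 g := by
      rw [← h1]; abel
    unfold pB
    rw [mul_assoc, e0, mul_sub, mul_smul_comm, mul_one, ← mul_assoc, e1, sub_mul,
      smul_mul_assoc, one_mul]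
    noncomm_ring
  have h : TT (pB a) S g x * star (a k w) - star (a k w) * TT (pB a) S g x =
      (pB a g * (S x * star (a k w) - star (a k w) * S x) -
        (S x * star (a k w) - star (a k w) * S x) * pB a g) -
      (z0 • (S x * a 1 g - a 1 g * S x) - z1 • (S x * a 0 g - a 0 g * S x)) := by
    have e : TT (pB a) S g x * star (a k w) - star (a k w) * TT (pB a) S g x =
        (pB a g * (S x * star (a k w) - star (a k w) * S x) -
          (S x * star (a k w) - star (a k w) * S x) * pB a g) -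
        (S x * (pB a g * star (a k w) - star (a k w) * pB a g) -
          (pB a g * star (a k w) - star (a k w) * pB a g) * S x) := by
      unfold TT
      noncomm_ring
    rw [e, hB]
    congr 1
    simp only [mul_sub, sub_mul, mul_smul_comm, smul_mul_assoc, smul_sub]
    abel
  rw [h]
  have hc := hS.com_star x k w
  have hb := F.norm_pB g
  have e1 : ‖pB a g * (S x * star (a k w) - star (a k w) * S x)‖ ≤ C / (1 + d x w) ^ m := by
    refine (norm_mul_le _ _).trans ?_
    calc ‖pB a g‖ * ‖S x * star (a k w) - star (a k w) * S x‖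
        ≤ 1 * ‖S x * star (a k w) - star (a k w) * S x‖ :=
          mul_le_mul_of_nonneg_right hb (norm_nonneg _)
      _ ≤ _ := by rw [one_mul]; exact hc
  have e2 : ‖(S x * star (a k w) - star (a k w) * S x) * pB a g‖ ≤ C / (1 + d x w) ^ m := by
    refine (norm_mul_le _ _).trans ?_
    calc ‖S x * star (a k w) - star (a k w) * S x‖ * ‖pB a g‖
        ≤ ‖S x * star (a k w) - star (a k w) * S x‖ * 1 :=
          mul_le_mul_of_nonneg_left hb (norm_nonneg _)
      _ ≤ _ := by rw [mul_one]; exact hc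
  have e3 : ‖z0 • (S x * a 1 g - a 1 g * S x)‖ ≤ kap g w * (C / (1 + d x g) ^ m) := by
    rw [norm_smul]
    exact mul_le_mul hz0 (hS.com x 1 g) (norm_nonneg _) ((norm_nonneg _).trans hz0)
  have e4 : ‖z1 • (S x * a 0 g - a 0 g * S x)‖ ≤ kap g w * (C / (1 + d x g) ^ m) := by
    rw [norm_smul]
    exact mul_le_mul hz1 (hS.com x 0 g) (norm_nonneg _) ((norm_nonneg _).trans hz1)
  calc _ ≤ (‖pB a g * (S x * star (a k w) - star (a k w) * S x)‖ +
        ‖(S x * star (a k w) - star (a k w) * S x) * pB a g‖) +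
        (‖z0 • (S x * a 1 g - a 1 g * S x)‖ + ‖z1 • (S x * a 0 g - a 0 g * S x)‖) := by
        refine (norm_sub_le _ _).trans ?_
        gcongr <;> exact norm_sub_le _ _
    _ ≤ _ := by linarith

/-- commutator of `T^*T` -/
theorem Frame.norm_TsT_com (F : Frame ν a d kap Nh m S₁ S₂ Ck) {C : ℝ} {S : G → 𝒜}
    (hC : 0 ≤ C) (hS : Fam a d Nh m C S) (g x w : G) (k : Fin 2) :
    ‖(star (TT (pB a) S g x) * TT (pB a) S g x) * a k w -
        a k w * (star (TT (pB a) S g x) * TT (pB a) S g x)‖ ≤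
      8 * C ^ 2 * (((1 + d x g) ^ m)⁻¹ * ((1 + d x w) ^ m)⁻¹) +
        4 * C ^ 2 * (kap g w * ((1 + d x g) ^ (2 * m))⁻¹) := by
  set T := TT (pB a) S g x with hT
  have h1 := F.norm_TT hS g x
  have h2 := F.norm_TT_com hS g x w k
  have h3 := F.norm_TT_com_star hS g x w k
  rw [← hT] at h1 h2 h3
  have hd1 : 0 < (1 + d x g) ^ m := by have := F.d_nonneg x g; positivity
  have hd2 : 0 < (1 + d x w) ^ m := by have := F.d_nonneg x w; positivity
  have hk := F.kap_nonneg g w
  have e : (star T * T) * a k w - a k w * (star T * T) =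
      star T * (T * a k w - a k w * T) + (star T * a k w - a k w * star T) * T := by
    noncomm_ring
  have e5 : star T * a k w - a k w * star T = - star (T * star (a k w) - star (a k w) * T) := by
    rw [star_sub, star_mul, star_mul, star_star]
    abel
  rw [e]
  have n1 : ‖star T * (T * a k w - a k w * T)‖ ≤
      (2 * (C / (1 + d x g) ^ m)) * (2 * (C / (1 + d x w) ^ m)) := by
    refine (norm_mul_le _ _).trans ?_
    rw [norm_star]
    exact mul_le_mul h1 h2 (norm_nonneg _) (by positivity)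
  have n2 : ‖(star T * a k w - a k w * star T) * T‖ ≤
      (2 * (C / (1 + d x w) ^ m) + 2 * (kap g w * (C / (1 + d x g) ^ m))) *
        (2 * (C / (1 + d x g) ^ m)) := by
    refine (norm_mul_le _ _).trans ?_
    rw [e5, norm_neg, norm_star]
    exact mul_le_mul h3 h1 (norm_nonneg _) (by positivity)
  refine (norm_add_le _ _).trans ((add_le_add n1 n2).trans (le_of_eq ?_))
  have e6 : (1 + d x g) ^ (2 * m) = (1 + d x g) ^ m * (1 + d x g) ^ m := by
    rw [two_mul, pow_add]
  rw [e6]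
  field_simp
  ring

/-- **Stability of the class**: `O ∈ Fam (8 C² (S₁ + S₂))`. -/
theorem Frame.fam_OO (F : Frame ν a d kap Nh m S₁ S₂ Ck) {C : ℝ} {S : G → 𝒜}
    (hC : 0 ≤ C) (hS : Fam a d Nh m C S) :
    Fam a d Nh m (8 * C ^ 2 * (S₁ + S₂)) (OO ν (pB a) S d) := by
  have hpos : ∀ x g, 0 < 1 + d x g := fun x g => by have := F.d_nonneg x g; linarith
  have hcT : ∀ x, Continuous (fun g => TT (pB a) S g x) := fun x =>
    (continuous_TT F.pB_cont hS.cont).comp (by fun_prop : Continuous fun g => ((x, g) : G × G))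
  have hcd : ∀ x, Continuous (fun g => d x g) := fun x =>
    F.d_cont.comp (by fun_prop : Continuous fun g => ((x, g) : G × G))
  have hck : ∀ w, Continuous (fun g => kap g w) := fun w =>
    F.kap_cont.comp (by fun_prop : Continuous fun g => ((g, w) : G × G))
  have hcO : ∀ x, Continuous (fun g => ((wt d x g : ℝ) : ℂ) •
      (star (TT (pB a) S g x) * TT (pB a) S g x)) := fun x =>
    (continuous_OO_aux F.pB_cont hS.cont F.d_cont).comp
      (by fun_prop : Continuous fun g => ((x, g) : G × G))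
  have hwn : ∀ x g, ‖((wt d x g : ℝ) : ℂ)‖ = (1 + d x g) ^ 3 := fun x g => by
    have := hpos x g
    rw [Complex.norm_real, Real.norm_of_nonneg (by unfold wt; positivity)]
    rfl
  have hS₁ : ∀ x, 0 ≤ ∫ g, (1 + d x g) ^ 3 / (1 + d x g) ^ m ∂ν := fun x =>
    integral_nonneg fun g => by have := hpos x g; positivity
  have hS₂ : ∀ x w, 0 ≤ ∫ g, kap g w * (1 + d x g) ^ 3 / (1 + d x g) ^ (2 * m) ∂ν := fun x w =>
    integral_nonneg fun g => by
      have := hpos x g
      have := F.kap_nonneg g w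
      positivity
  refine ⟨continuous_OO F.pB_cont hS.cont F.d_cont, ?_, ?_, ?_, ?_⟩
  · -- self-adjoint
    intro x
    have h1 : star (OO ν (pB a) S d x) = OO ν (pB a) S d x := by
      unfold OO
      have h2 := (((starL' ℝ : 𝒜 ≃L[ℝ] 𝒜) : 𝒜 →L[ℝ] 𝒜).integral_comp_comm
        (cint (ν := ν) (hcO x)))
      have h3 : ∀ g, ((starL' ℝ : 𝒜 ≃L[ℝ] 𝒜) : 𝒜 →L[ℝ] 𝒜)
          (((wt d x g : ℝ) : ℂ) • (star (TT (pB a) S g x) * TT (pB a) S g x)) =
          ((wt d x g : ℝ) : ℂ) • (star (TT (pB a) S g x) * TT (pB a) S g x) := by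
        intro g
        have h4 : ((starL' ℝ : 𝒜 ≃L[ℝ] 𝒜) : 𝒜 →L[ℝ] 𝒜)
          (((wt d x g : ℝ) : ℂ) • (star (TT (pB a) S g x) * TT (pB a) S g x)) =
          star (((wt d x g : ℝ) : ℂ) • (star (TT (pB a) S g x) * TT (pB a) S g x)) := rfl
        rw [h4, star_smul, star_mul, star_star]
        simp
      simp only [h3] at h2
      exact h2.symm
    exact h1
  · intro x
    have hN : ∀ g, Nh * pB a g = pB a g * Nh - (2 : ℂ) • pB a g := by
      intro g
      unfold pB
      rw [← mul_assoc, F.num 1 g, sub_mul, mul_assoc, F.num 0 g, mul_sub, two_smul]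
      noncomm_ring
    have hT : ∀ g, Nh * TT (pB a) S g x = TT (pB a) S g x * Nh - (2 : ℂ) • TT (pB a) S g x := by
      intro g
      unfold TT
      rw [mul_sub, ← mul_assoc, hN g, ← mul_assoc, hS.num x, mul_assoc (S x), hN g, sub_mul,
        mul_assoc, hS.num x, smul_mul_assoc, mul_sub, mul_smul_comm, smul_sub]
      noncomm_ring
    have hT' : ∀ g, Nh * star (TT (pB a) S g x) =
        star (TT (pB a) S g x) * Nh + (2 : ℂ) • star (TT (pB a) S g x) := by
      intro g
      have h1 := congrArg star (hT g)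
      rw [star_mul, star_sub, star_mul, star_smul, F.Nh_sa.star_eq] at h1
      rw [h1]
      simp
    have hTT : ∀ g, Nh * (star (TT (pB a) S g x) * TT (pB a) S g x) =
        (star (TT (pB a) S g x) * TT (pB a) S g x) * Nh := by
      intro g
      rw [← mul_assoc, hT' g, add_mul, mul_assoc, hT g, mul_sub, mul_smul_comm, smul_mul_assoc,
        ← mul_assoc, sub_add_cancel]
    unfold OO
    have e1 := ((ContinuousLinearMap.mul ℂ 𝒜 Nh).integral_comp_comm (cint (ν := ν) (hcO x)))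
    have e2 := (((ContinuousLinearMap.mul ℂ 𝒜).flip Nh).integral_comp_comm
      (cint (ν := ν) (hcO x)))
    simp only [ContinuousLinearMap.mul_apply', ContinuousLinearMap.flip_apply] at e1 e2
    rw [← e1, ← e2]
    refine integral_congr_ae (Filter.Eventually.of_forall fun g => ?_)
    simp only
    rw [mul_smul_comm, smul_mul_assoc, hTT g]
  · intro x
    unfold OO
    refine (norm_integral_le_integral_norm _).trans ?_
    have h1 : ∀ g, ‖((wt d x g : ℝ) : ℂ) • (star (TT (pB a) S g x) * TT (pB a) S g x)‖ ≤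
        4 * C ^ 2 * ((1 + d x g) ^ 3 / (1 + d x g) ^ m) := by
      intro g
      rw [norm_smul, hwn]
      have hT := F.norm_TT hS g x
      have hp := hpos x g
      have h2 : ‖star (TT (pB a) S g x) * TT (pB a) S g x‖ ≤
          (2 * (C / (1 + d x g) ^ m)) * (2 * (C / (1 + d x g) ^ m)) := by
        refine (norm_mul_le _ _).trans ?_
        rw [norm_star]
        exact mul_le_mul hT hT (norm_nonneg _) (by positivity)
      have h3 : 1 ≤ (1 + d x g) ^ m := one_le_pow₀ (by have := F.d_nonneg x g; linarith)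
      calc (1 + d x g) ^ 3 * ‖star (TT (pB a) S g x) * TT (pB a) S g x‖
          ≤ (1 + d x g) ^ 3 * ((2 * (C / (1 + d x g) ^ m)) * (2 * (C / (1 + d x g) ^ m))) :=
            mul_le_mul_of_nonneg_left h2 (by positivity)
        _ = 4 * C ^ 2 * ((1 + d x g) ^ 3 / (1 + d x g) ^ m) * (1 / (1 + d x g) ^ m) := by
            field_simp
            ring
        _ ≤ 4 * C ^ 2 * ((1 + d x g) ^ 3 / (1 + d x g) ^ m) * 1 := by
            refine mul_le_mul_of_nonneg_left ?_ (by positivity)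
            rw [div_le_one (by positivity)]
            exact h3
        _ = _ := by ring
    have h2 : ∫ g, ‖((wt d x g : ℝ) : ℂ) • (star (TT (pB a) S g x) * TT (pB a) S g x)‖ ∂ν ≤
        4 * C ^ 2 * S₁ := by
      refine (integral_mono_of_nonneg (Filter.Eventually.of_forall fun g => norm_nonneg _) ?_
        (Filter.Eventually.of_forall h1)).trans ?_
      · refine cint ?_
        refine continuous_const.mul (Continuous.div ?_ ?_ ?_)
        · exact (continuous_const.add (hcd x)).pow 3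
        · exact (continuous_const.add (hcd x)).pow m
        · intro g
          have := hpos x g
          positivity
      · rw [integral_const_mul]
        exact mul_le_mul_of_nonneg_left (F.schur1 x) (by positivity)
    have h3 : 0 ≤ S₁ := (hS₁ x).trans (F.schur1 x)
    have h4 : 0 ≤ S₂ := by
      have h5 := (hS₂ x x).trans (F.schur2 x x)
      have h6 : 0 < (1 + d x x) ^ m := by have := hpos x x; positivity
      by_contra hneg
      push Not at hneg
      exact absurd h5 (not_le.mpr (div_neg_of_neg_of_pos hneg h6))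
    nlinarith [sq_nonneg C, mul_nonneg (sq_nonneg C) h3, mul_nonneg (sq_nonneg C) h4]
  · intro x k w
    have hp2 := hpos x w
    unfold OO
    have e1 := ((ContinuousLinearMap.mul ℂ 𝒜 (a k w)).integral_comp_comm
      (cint (ν := ν) (hcO x)))
    have e2 := (((ContinuousLinearMap.mul ℂ 𝒜).flip (a k w)).integral_comp_comm
      (cint (ν := ν) (hcO x)))
    have i1 := (ContinuousLinearMap.mul ℂ 𝒜 (a k w)).integrable_comp (cint (ν := ν) (hcO x))
    have i2 := ((ContinuousLinearMap.mul ℂ 𝒜).flip (a k w)).integrable_comp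
      (cint (ν := ν) (hcO x))
    simp only [ContinuousLinearMap.mul_apply', ContinuousLinearMap.flip_apply] at e1 e2 i1 i2
    rw [← e1, ← e2, ← integral_sub i2 i1]
    refine (norm_integral_le_integral_norm _).trans ?_
    have h1 : ∀ g, ‖((wt d x g : ℝ) : ℂ) • (star (TT (pB a) S g x) * TT (pB a) S g x) * a k w -
        a k w * ((wt d x g : ℝ) : ℂ) • (star (TT (pB a) S g x) * TT (pB a) S g x)‖ ≤
        8 * C ^ 2 * ((1 + d x w) ^ m)⁻¹ * ((1 + d x g) ^ 3 / (1 + d x g) ^ m) +
          4 * C ^ 2 * (kap g w * (1 + d x g) ^ 3 / (1 + d x g) ^ (2 * m)) := by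
      intro g
      have hp := hpos x g
      rw [smul_mul_assoc, mul_smul_comm, ← smul_sub, norm_smul, hwn]
      refine (mul_le_mul_of_nonneg_left (F.norm_TsT_com hC hS g x w k)
        (by positivity)).trans (le_of_eq ?_)
      field_simp
    have c1 : Continuous fun g => (1 + d x g) ^ 3 / (1 + d x g) ^ m := by
      refine Continuous.div ?_ ?_ ?_
      · exact (continuous_const.add (hcd x)).pow 3
      · exact (continuous_const.add (hcd x)).pow m
      · intro g
        have := hpos x g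
        positivity
    have c2 : Continuous fun g => kap g w * (1 + d x g) ^ 3 / (1 + d x g) ^ (2 * m) := by
      refine Continuous.div ?_ ?_ ?_
      · exact (hck w).mul ((continuous_const.add (hcd x)).pow 3)
      · exact (continuous_const.add (hcd x)).pow (2 * m)
      · intro g
        have := hpos x g
        positivity
    have h2 : ∫ g, ‖((wt d x g : ℝ) : ℂ) • (star (TT (pB a) S g x) * TT (pB a) S g x) * a k w -
        a k w * ((wt d x g : ℝ) : ℂ) • (star (TT (pB a) S g x) * TT (pB a) S g x)‖ ∂ν ≤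
        8 * C ^ 2 * ((1 + d x w) ^ m)⁻¹ * S₁ + 4 * C ^ 2 * (S₂ / (1 + d x w) ^ m) := by
      refine (integral_mono_of_nonneg (Filter.Eventually.of_forall fun g => norm_nonneg _) ?_
        (Filter.Eventually.of_forall h1)).trans ?_
      · exact cint ((continuous_const.mul c1).add (continuous_const.mul c2))
      · have i3 : Integrable (fun g => 8 * C ^ 2 * ((1 + d x w) ^ m)⁻¹ *
            ((1 + d x g) ^ 3 / (1 + d x g) ^ m)) ν := cint (continuous_const.mul c1)
        have i4 : Integrable (fun g => 4 * C ^ 2 *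
            (kap g w * (1 + d x g) ^ 3 / (1 + d x g) ^ (2 * m))) ν :=
          cint (continuous_const.mul c2)
        rw [integral_add i3 i4, integral_const_mul, integral_const_mul]
        exact add_le_add (mul_le_mul_of_nonneg_left (F.schur1 x) (by positivity))
          (mul_le_mul_of_nonneg_left (F.schur2 x w) (by positivity))
    have h6 : 0 < (1 + d x w) ^ m := by positivity
    have h4 : 0 ≤ S₂ := by
      have h5 := (hS₂ x w).trans (F.schur2 x w)
      by_contra hneg
      push Not at hneg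
      exact absurd h5 (not_le.mpr (div_neg_of_neg_of_pos hneg h6))
    refine h2.trans ?_
    rw [le_div_iff₀ h6]
    have h7 : (8 * C ^ 2 * ((1 + d x w) ^ m)⁻¹ * S₁ + 4 * C ^ 2 * (S₂ / (1 + d x w) ^ m)) *
        (1 + d x w) ^ m = 8 * C ^ 2 * S₁ + 4 * C ^ 2 * S₂ := by
      field_simp
    rw [h7]
    nlinarith [mul_nonneg (sq_nonneg C) h4]

section Main

variable {V : Type*} [NormedAddCommGroup V] [InnerProductSpace ℂ V] [CompleteSpace V]

theorem integrable_smul_fam {C : ℝ} {X : G → 𝒜} (hX : Fam a d Nh m C X) {s : G → ℝ}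
    (hs : Measurable s) (hs1 : ∀ x, |s x| ≤ 1) :
    Integrable (fun x => (s x : ℂ) • X x) ν := by
  refine Integrable.mono' (g := fun x => ‖X x‖) (cint hX.cont.norm) ?_ ?_
  · exact (Complex.measurable_ofReal.comp hs).aestronglyMeasurable.smul
      hX.cont.aestronglyMeasurable
  · refine Filter.Eventually.of_forall fun x => ?_
    rw [norm_smul, Complex.norm_real, Real.norm_eq_abs]
    exact mul_le_of_le_one_left (norm_nonneg _) (hs1 x)

theorem sa_integral_fam {C : ℝ} {X : G → 𝒜} (hX : Fam a d Nh m C X) {s : G → ℝ}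
    (hs : Measurable s) (hs1 : ∀ x, |s x| ≤ 1) :
    IsSelfAdjoint (∫ x, (s x : ℂ) • X x ∂ν) := by
  have h2 := (((starL' ℝ : 𝒜 ≃L[ℝ] 𝒜) : 𝒜 →L[ℝ] 𝒜).integral_comp_comm
    (integrable_smul_fam (ν := ν) hX hs hs1))
  have h3 : ∀ x, ((starL' ℝ : 𝒜 ≃L[ℝ] 𝒜) : 𝒜 →L[ℝ] 𝒜) ((s x : ℂ) • X x) =
      (s x : ℂ) • X x := by
    intro x
    have h4 : ((starL' ℝ : 𝒜 ≃L[ℝ] 𝒜) : 𝒜 →L[ℝ] 𝒜) ((s x : ℂ) • X x) =
      star ((s x : ℂ) • X x) := rfl
    rw [h4, star_smul, (hX.sa x).star_eq]
    simp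
  simp only [h3] at h2
  exact h2.symm

/-- **Theorem (U)**: from filtered families to all families, by the square-root bootstrap. -/
theorem U_main (R : Rep 𝒜 V) (F : Frame ν a d kap Nh m S₁ S₂ Ck) {H : 𝒜} {Ψ : V}
    {Sec : Set V} {Good : (G → 𝒜) → Prop} {Cw Cf K₀ : ℝ}
    (hCw : 0 < Cw) (hCf : 0 ≤ Cf) (hK₀ : 0 ≤ K₀) (hHsa : IsSelfAdjoint H)
    (hH : ∀ φ χ : V, ∫ g, ⟪R.π (pB a g) φ, R.π (pB a g) χ⟫_ℂ ∂ν = ⟪φ, R.π H χ⟫_ℂ)
    (hB0 : ∀ g, R.π (pB a g) Ψ = 0)
    (apriori : ∀ Y : 𝒜, IsSelfAdjoint Y → R.π Y Ψ = 0 → ∀ φ ∈ Sec,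
      |R.q φ Y| ≤ K₀ * ‖Y‖ * R.q φ H)
    (filt : ∀ X, Fam a d Nh m 1 X → (∀ x, R.π (X x) Ψ = 0) →
      ∃ Xt S, Fam a d Nh m Cw Xt ∧ Fam a d Nh m Cw S ∧
        (∀ x, X x - Xt x = Complex.I • (H * S x - S x * H)) ∧
        (∀ x, R.π (Xt x) Ψ = 0) ∧ (∀ x, R.π (S x) Ψ = 0) ∧ Good Xt)
    (good_smul : ∀ X (r : ℝ), Good X → Good (fun x => (r : ℂ) • X x))
    (Uf : ∀ X, Fam a d Nh m 1 X → (∀ x, R.π (X x) Ψ = 0) → Good X →
      ∀ s : G → ℝ, Measurable s → (∀ x, |s x| ≤ 1) → ∀ φ ∈ Sec,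
        |R.q φ (∫ x, (s x : ℂ) • X x ∂ν)| ≤ Cf * R.q φ H) :
    ∀ X, Fam a d Nh m 1 X → (∀ x, R.π (X x) Ψ = 0) →
      ∀ s : G → ℝ, Measurable s → (∀ x, |s x| ≤ 1) → ∀ φ ∈ Sec,
        |R.q φ (∫ x, (s x : ℂ) • X x ∂ν)| ≤
          (2 * (Cf * Cw) + 4 * (Ck * (8 * Cw ^ 2 * (S₁ + S₂)))) * R.q φ H := by
  classical
  set CO : ℝ := 8 * Cw ^ 2 * (S₁ + S₂) with hCO
  set T : ℝ := 2 * (Cf * Cw) + 4 * (Ck * CO) with hT
  have hpos : ∀ x g, 0 < 1 + d x g := fun x g => by have := F.d_nonneg x g; linarith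
  -- positivity of `q φ H`
  have hHq : ∀ φ : V, 0 ≤ R.q φ H := by
    intro φ
    have h1 := hH φ φ
    have h2 : ∫ g, ⟪R.π (pB a g) φ, R.π (pB a g) φ⟫_ℂ ∂ν =
        ((∫ g, ‖R.π (pB a g) φ‖ ^ 2 ∂ν : ℝ) : ℂ) := by
      rw [← integral_complex_ofReal]
      refine integral_congr_ae (Filter.Eventually.of_forall fun g => ?_)
      simp only
      rw [inner_self_eq_norm_sq_to_K]
      norm_cast
    rw [Rep.q_apply, qf, ← h1, h2, Complex.ofReal_re]
    positivity
  by_cases hne : Nonempty G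
  swap
  · intro X hX hX0 s hs hs1 φ hφ
    have : IsEmpty G := not_nonempty_iff.mp hne
    have h0 : ∫ x, (s x : ℂ) • X x ∂ν = 0 := by
      rw [Measure.eq_zero_of_isEmpty ν, integral_zero_measure]
    have hf := Uf (fun _ => 0)
    rw [h0, map_zero, abs_zero]
    have hSS : 0 ≤ T * R.q φ H := by
      -- `q φ H = 0` when `G` is empty
      have h1 := hH φ φ
      rw [Measure.eq_zero_of_isEmpty ν, integral_zero_measure] at h1
      rw [Rep.q_apply, qf, ← h1]
      simp
    exact hSS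
  obtain ⟨x₀⟩ := hne
  have hS₁ : 0 ≤ S₁ := (integral_nonneg (μ := ν) (f := fun g => (1 + d x₀ g) ^ 3 / (1 + d x₀ g) ^ m)
    fun g => by have := hpos x₀ g; positivity).trans (F.schur1 x₀)
  have hS₂ : 0 ≤ S₂ := by
    have h5 : 0 ≤ S₂ / (1 + d x₀ x₀) ^ m :=
      (integral_nonneg (μ := ν)
        (f := fun g => kap g x₀ * (1 + d x₀ g) ^ 3 / (1 + d x₀ g) ^ (2 * m)) fun g => by
        have := hpos x₀ g
        have := F.kap_nonneg g x₀
        positivity).trans (F.schur2 x₀ x₀)
    have h6 : 0 < (1 + d x₀ x₀) ^ m := by have := hpos x₀ x₀; positivity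
    by_contra hneg
    push Not at hneg
    exact absurd h5 (not_le.mpr (div_neg_of_neg_of_pos hneg h6))
  have hCk : 0 ≤ Ck := (integral_nonneg (μ := ν) (f := fun x => ((1 + d x x₀) ^ 3)⁻¹)
    fun x => by have := hpos x x₀; positivity).trans (F.schur3 x₀)
  have hCO0 : 0 ≤ CO := by positivity
  have hT0 : 0 ≤ T := by positivity
  -- the statement with constant `t`
  let Bd : ℝ → Prop := fun t => ∀ X, Fam a d Nh m 1 X → (∀ x, R.π (X x) Ψ = 0) →
      ∀ s : G → ℝ, Measurable s → (∀ x, |s x| ≤ 1) → ∀ φ ∈ Sec,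
        |R.q φ (∫ x, (s x : ℂ) • X x ∂ν)| ≤ t * R.q φ H
  -- scaling
  have scale : ∀ t C, 0 < C → Bd t → ∀ X, Fam a d Nh m C X → (∀ x, R.π (X x) Ψ = 0) →
      ∀ s : G → ℝ, Measurable s → (∀ x, |s x| ≤ 1) → ∀ φ ∈ Sec,
        |R.q φ (∫ x, (s x : ℂ) • X x ∂ν)| ≤ C * t * R.q φ H := by
    intro t C hC hB X hX hX0 s hs hs1 φ hφ
    have h1 := hX.smul (r := C⁻¹) (by positivity)
    rw [inv_mul_cancel₀ hC.ne'] at h1
    have h2 := hB _ h1 (fun x => by simp [hX0 x]) s hs hs1 φ hφ
    have h3 : ∫ x, (s x : ℂ) • (((C⁻¹ : ℝ) : ℂ) • X x) ∂ν =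
        (C⁻¹ : ℝ) • ∫ x, (s x : ℂ) • X x ∂ν := by
      rw [← integral_smul]
      refine integral_congr_ae (Filter.Eventually.of_forall fun x => ?_)
      simp only
      rw [smul_comm, Complex.coe_smul]
    rw [h3, map_smul, smul_eq_mul, abs_mul, abs_of_pos (by positivity : 0 < C⁻¹)] at h2
    rw [inv_mul_le_iff₀ hC] at h2
    linarith
  -- a priori bound
  have start : Bd (T + K₀ * ν.real Set.univ) := by
    intro X hX hX0 s hs hs1 φ hφ
    have h1 : ‖∫ x, (s x : ℂ) • X x ∂ν‖ ≤ ν.real Set.univ := by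
      have := norm_integral_le_of_norm_le_const (μ := ν) (C := 1)
        (f := fun x => (s x : ℂ) • X x) (Filter.Eventually.of_forall fun x => by
          rw [norm_smul, Complex.norm_real, Real.norm_eq_abs]
          exact mul_le_one₀ (hs1 x) (norm_nonneg _) (hX.norm_le x))
      simpa using this
    have h0 : R.π (∫ x, (s x : ℂ) • X x ∂ν) Ψ = 0 := by
      rw [← Rep.ev_apply, ← (R.ev Ψ).integral_comp_comm (integrable_smul_fam hX hs hs1)]
      simp [Rep.ev_apply, hX0]
    have h2 := apriori _ (sa_integral_fam hX hs hs1) h0 φ hφ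
    have h3 := hHq φ
    calc |R.q φ (∫ x, (s x : ℂ) • X x ∂ν)| ≤ K₀ * ‖∫ x, (s x : ℂ) • X x ∂ν‖ * R.q φ H := h2
      _ ≤ K₀ * ν.real Set.univ * R.q φ H := by gcongr
      _ ≤ _ := by nlinarith
  -- bootstrap step
  have step : ∀ t, 0 ≤ t → Bd t → Bd (Cf * Cw + 2 * (Ck * CO) + t / 2) := by
    intro t ht hB X hX hX0 s hs hs1 φ hφ
    obtain ⟨Xt, S, hXt, hS, hXS, hXt0, hS0, hgood⟩ := filt X hX hX0
    -- filtered part
    have e1 : |R.q φ (∫ x, (s x : ℂ) • Xt x ∂ν)| ≤ Cw * Cf * R.q φ H := by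
      have h1 := hXt.smul (r := Cw⁻¹) (by positivity)
      rw [inv_mul_cancel₀ hCw.ne'] at h1
      have h2 := Uf _ h1 (fun x => by simp [hXt0 x]) (good_smul _ _ hgood) s hs hs1 φ hφ
      have h3 : ∫ x, (s x : ℂ) • (((Cw⁻¹ : ℝ) : ℂ) • Xt x) ∂ν =
          (Cw⁻¹ : ℝ) • ∫ x, (s x : ℂ) • Xt x ∂ν := by
        rw [← integral_smul]
        refine integral_congr_ae (Filter.Eventually.of_forall fun x => ?_)
        simp only
        rw [smul_comm, Complex.coe_smul]
      rw [h3, map_smul, smul_eq_mul, abs_mul, abs_of_pos (by positivity : 0 < Cw⁻¹)] at h2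
      rw [inv_mul_le_iff₀ hCw] at h2
      linarith
    -- commutator part
    set St : 𝒜 := ∫ x, (s x : ℂ) • S x ∂ν with hSt
    have hStsa : IsSelfAdjoint St := sa_integral_fam hS hs hs1
    have iS := integrable_smul_fam (ν := ν) hS hs hs1
    have iX := integrable_smul_fam (ν := ν) hX hs hs1
    have iXt := integrable_smul_fam (ν := ν) hXt hs hs1
    have e2 : ∫ x, (s x : ℂ) • X x ∂ν = ∫ x, (s x : ℂ) • Xt x ∂ν +
        Complex.I • (H * St - St * H) := by
      have h1 : Complex.I • (H * St - St * H) =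
          ∫ x, Complex.I • (H * ((s x : ℂ) • S x) - ((s x : ℂ) • S x) * H) ∂ν := by
        have a1 := ((ContinuousLinearMap.mul ℂ 𝒜 H).integral_comp_comm iS)
        have a2 := (((ContinuousLinearMap.mul ℂ 𝒜).flip H).integral_comp_comm iS)
        have j1 := (ContinuousLinearMap.mul ℂ 𝒜 H).integrable_comp iS
        have j2 := ((ContinuousLinearMap.mul ℂ 𝒜).flip H).integrable_comp iS
        simp only [ContinuousLinearMap.mul_apply', ContinuousLinearMap.flip_apply] at a1 a2 j1 j2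
        rw [integral_smul, integral_sub j1 j2, a1, a2]
      rw [h1]
      have j3 : Integrable
          (fun x => Complex.I • (H * ((s x : ℂ) • S x) - ((s x : ℂ) • S x) * H)) ν := by
        have j1 := (ContinuousLinearMap.mul ℂ 𝒜 H).integrable_comp iS
        have j2 := ((ContinuousLinearMap.mul ℂ 𝒜).flip H).integrable_comp iS
        simp only [ContinuousLinearMap.mul_apply', ContinuousLinearMap.flip_apply] at j1 j2
        exact (j1.sub j2).smul Complex.I
      rw [← integral_add iXt j3]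
      refine integral_congr_ae (Filter.Eventually.of_forall fun x => ?_)
      simp only
      have h2 : X x = Xt x + Complex.I • (H * S x - S x * H) := by
        rw [← hXS x]; abel
      rw [h2, smul_add, mul_smul_comm, smul_mul_assoc, ← smul_sub, smul_comm Complex.I]
    have hBc : Continuous (fun g => R.π (pB a g)) := R.π.continuous.comp F.pB_cont
    have hB2 : ∀ χ : V, MemLp (fun g => R.π (pB a g) χ) 2 ν := fun χ =>
      cmem ((R.ev χ).continuous.comp F.pB_cont)
    have e3 := abs_qf_comm_le (ν := ν) (H := R.π H) (S := R.π St)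
      (B := fun g => R.π (pB a g)) hH (fun φ χ => R.sa hHsa φ χ) (fun φ χ => R.sa hStsa φ χ)
      hB2 φ
    have e4 : (⟪φ, (Complex.I • (R.π H * R.π St - R.π St * R.π H)) φ⟫_ℂ).re =
        R.q φ (Complex.I • (H * St - St * H)) := by
      rw [Rep.q_apply, qf, map_smul, map_sub, R.map_mul, R.map_mul]
    rw [e4] at e3
    have hCk' : ∀ g, ∫ x, (wt d x g)⁻¹ ∂ν ≤ Ck := F.schur3
    have e5 := quad_le (ν := ν) R F.pB_cont hS.cont F.d_cont F.d_nonneg hs hs1 hCk' φ
    -- `O`
    have hO := F.fam_OO (C := Cw) hCw.le hS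
    have hO0 : ∀ x, R.π (OO ν (pB a) S d x) Ψ = 0 := by
      intro x
      have hcO : Continuous (fun g => ((wt d x g : ℝ) : ℂ) •
          (star (TT (pB a) S g x) * TT (pB a) S g x)) :=
        (continuous_OO_aux F.pB_cont hS.cont F.d_cont).comp
          (by fun_prop : Continuous fun g => ((x, g) : G × G))
      unfold OO
      rw [← Rep.ev_apply, ← (R.ev Ψ).integral_comp_comm (cint hcO)]
      have h1 : ∀ g, R.ev Ψ (((wt d x g : ℝ) : ℂ) •
          (star (TT (pB a) S g x) * TT (pB a) S g x)) = 0 := by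
        intro g
        rw [map_smul, Rep.ev_apply, R.map_mul]
        have h2 : R.π (TT (pB a) S g x) Ψ = 0 := by
          unfold TT
          rw [map_sub, R.map_mul, R.map_mul]
          change R.π (pB a g) (R.π (S x) Ψ) - R.π (S x) (R.π (pB a g) Ψ) = 0
          rw [hS0 x, hB0 g, map_zero, map_zero, sub_zero]
        change _ • (R.π (star (TT (pB a) S g x)) (R.π (TT (pB a) S g x) Ψ)) = 0
        rw [h2, map_zero, smul_zero]
      simp only [h1, integral_zero]
    have hOb : |R.q φ (∫ x, OO ν (pB a) S d x ∂ν)| ≤ CO * t * R.q φ H := by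
      rcases hCO0.eq_or_lt with h0 | h0
      · -- `CO = 0`: the family vanishes
        have h1 : ∀ x, OO ν (pB a) S d x = 0 := by
          intro x
          have := hO.norm_le x
          rw [← hCO, ← h0] at this
          exact norm_le_zero_iff.mp this
        simp [h1, ← h0]
      · have h1 := scale t CO h0 hB _ hO hO0 (fun _ => 1) measurable_const (by simp) φ hφ
        simpa using h1
    have hq := hHq φ
    have e6 : ∫ g, ‖(R.π (pB a g) * R.π St - R.π St * R.π (pB a g)) φ‖ ^ 2 ∂ν ≤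
        (Ck * CO * t) * R.q φ H := by
      refine e5.trans ?_
      have := (abs_le.mp hOb).2
      calc Ck * R.q φ (∫ x, OO ν (pB a) S d x ∂ν) ≤ Ck * (CO * t * R.q φ H) :=
            mul_le_mul_of_nonneg_left this hCk
        _ = _ := by ring
    have e7 : |R.q φ (Complex.I • (H * St - St * H))| ≤
        (2 * (Ck * CO) + t / 2) * R.q φ H := by
      refine e3.trans ?_
      have h1 : qf (R.π H) φ = R.q φ H := rfl
      rw [h1]
      have h2 : Real.sqrt (∫ g, ‖(R.π (pB a g) * R.π St - R.π St * R.π (pB a g)) φ‖ ^ 2 ∂ν) ≤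
          Real.sqrt (Ck * CO * t) * Real.sqrt (R.q φ H) := by
        rw [← Real.sqrt_mul (by positivity)]
        exact Real.sqrt_le_sqrt e6
      have h3 : Real.sqrt (R.q φ H) * Real.sqrt (R.q φ H) = R.q φ H := Real.mul_self_sqrt hq
      have h4 : 2 * Real.sqrt (Ck * CO * t) ≤ 2 * (Ck * CO) + t / 2 := by
        have h5 : Real.sqrt (Ck * CO * t) ≤ Ck * CO + t / 4 := by
          rw [Real.sqrt_le_left (by positivity)]
          nlinarith [sq_nonneg (Ck * CO - t / 4)]
        linarith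
      have hs1 := Real.sqrt_nonneg (R.q φ H)
      calc 2 * (Real.sqrt (R.q φ H) *
            Real.sqrt (∫ g, ‖(R.π (pB a g) * R.π St - R.π St * R.π (pB a g)) φ‖ ^ 2 ∂ν))
          ≤ 2 * (Real.sqrt (R.q φ H) * (Real.sqrt (Ck * CO * t) * Real.sqrt (R.q φ H))) := by
            gcongr
        _ = (2 * Real.sqrt (Ck * CO * t)) * (Real.sqrt (R.q φ H) * Real.sqrt (R.q φ H)) := by
            ring
        _ ≤ (2 * (Ck * CO) + t / 2) * R.q φ H := by
            rw [h3]
            exact mul_le_mul_of_nonneg_right h4 hq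
    rw [e2, map_add]
    refine (abs_add_le _ _).trans ?_
    have := add_le_add e1 e7
    linarith
  -- iteration
  have iter : ∀ n : ℕ, Bd (T + K₀ * ν.real Set.univ / 2 ^ n) := by
    intro n
    induction n with
    | zero => simpa using start
    | succ n ih =>
      have h1 := step _ (by positivity) ih
      have h2 : Cf * Cw + 2 * (Ck * CO) + (T + K₀ * ν.real Set.univ / 2 ^ n) / 2 =
          T + K₀ * ν.real Set.univ / 2 ^ (n + 1) := by
        rw [hT, pow_succ]
        field_simp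
        ring
      rwa [h2] at h1
  intro X hX hX0 s hs hs1 φ hφ
  have hlim : Filter.Tendsto (fun n : ℕ => (T + K₀ * ν.real Set.univ / 2 ^ n) * R.q φ H)
      Filter.atTop (nhds ((T + 0) * R.q φ H)) := by
    refine Filter.Tendsto.mul_const _ (tendsto_const_nhds.add ?_)
    have h1 : Filter.Tendsto (fun n : ℕ => K₀ * ν.real Set.univ * (1 / 2 : ℝ) ^ n)
        Filter.atTop (nhds (K₀ * ν.real Set.univ * 0)) :=
      (tendsto_pow_atTop_nhds_zero_of_lt_one (by norm_num) (by norm_num)).const_mul _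
    rw [mul_zero] at h1
    refine h1.congr fun n => ?_
    rw [one_div, inv_pow, div_eq_mul_inv]
  rw [add_zero] at hlim
  exact ge_of_tendsto' hlim fun n => iter n X hX hX0 s hs hs1 φ hφ

end Main

end Stab

end Crest.Agent.R340.U856
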