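import Crest.Agent.R340.Filt2_867
import Crest.Agent.R340.U3_856

/-!
Filters act on helper856's profile class `U856.Fam` without loss of exponent (helper867).
-/

set_option autoImplicit false
set_option linter.unusedSectionVars false

open scoped ENNReal NNReal
open MeasureTheory

namespace Crest.Agent.R340.Filt867

open Crest.Agent.R340.QL331 Crest.Agent.R340.LR667 Crest.Agent.R340.DC867
open Crest.Agent.R340.U856 (Fam)

section evo

variable {A V : Type*} [CStarAlgebra A] [NormedAddCommGroup V] [InnerProductSpace ℂ V]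
  {G : Type*} [MeasurableSpace G] {n : ℕ}

/-- all hypotheses of the evolution theorem for the Hamiltonian `H` -/
structure EvoHyp (R : Car A V) (μ : Measure G) (b : G → OrthonormalBasis (Fin n) ℂ V)
    (u : Fin 2 → G → V) (D : G → G → ℝ) (H : A) (κ : G → G → ℝ≥0∞) (μ0 v C0 Cf Cn : ℝ) (m : ℕ) :
    Prop where
  htop : ∀ a : A, a ∈ R.alg Set.univ
  hH : IsSelfAdjoint H
  hth : Commute H R.th
  hu : ∀ k z, ‖u k z‖ ≤ 1
  hκ : ∀ (X : A) (k : Fin 2 × Bool) (w : G),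
      ‖⁅X, ⁅H, gen R u k w⁆⁆‖ₑ ≤ ∫⁻ z, κ w z * prof (gen R u) X z ∂μ
  hD0 : ∀ x y, 0 ≤ D x y
  hDsymm : ∀ x y, D x y = D y x
  hDtri : ∀ x y z, D x z ≤ D x y + D y z
  hDb : ∃ B, ∀ x y, D x y ≤ B
  hμ : 0 < μ0
  hv : 0 ≤ v
  hC0 : 0 ≤ C0
  hS : ∀ w, ∫⁻ z, κ w z * ENNReal.ofReal (Real.exp (μ0 * D w z)) ∂μ ≤ ENNReal.ofReal v
  hov : ∀ k l w z, ‖(inner ℂ (u k w) (u l z) : ℂ)‖ ≤ C0 * Real.exp (-μ0 * D z w)
  hCf : 0 ≤ Cf
  hCn : 0 ≤ Cn
  hfar : FarB R b u D (m + 9) Cf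
  hnear : NearB R b u D m Cn

variable {R : Car A V} {μ : Measure G} {b : G → OrthonormalBasis (Fin n) ℂ V}
  {u : Fin 2 → G → V} {D : G → G → ℝ} {H : A} {κ : G → G → ℝ≥0∞} {μ0 v C0 Cf Cn : ℝ} {m : ℕ}

theorem cEvo_nonneg (hμ : 0 < μ0) (hv : 0 ≤ v) (hC0 : 0 ≤ C0) (hCf : 0 ≤ Cf) (hCn : 0 ≤ Cn) :
    0 ≤ cEvo v μ0 C0 Cf Cn m := by
  have := cPoly_nonneg hv hμ hC0 (m + 9)
  unfold cEvo
  positivity

theorem EvoHyp.cEvo_nonneg (h : EvoHyp R μ b u D H κ μ0 v C0 Cf Cn m) :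
    0 ≤ cEvo v μ0 C0 Cf Cn m :=
  Filt867.cEvo_nonneg h.hμ h.hv h.hC0 h.hCf h.hCn

theorem EvoHyp.tau (h : EvoHyp R μ b u D H κ μ0 v C0 Cf Cn m) {X : A} (hX : R.Ev X) {x : G}
    {K : ℝ} (hK : 0 ≤ K) (hXp : ∀ k z, ‖⁅X, gen R u k z⁆‖ ≤ K / (1 + D z x) ^ m)
    (t : ℝ) (k : Fin 2 × Bool) (w : G) :
    ‖⁅tau H t X, gen R u k w⁆‖ ≤
      cEvo v μ0 C0 Cf Cn m * K * (1 + |t|) ^ (m + 9) / (1 + D w x) ^ m :=
  tau_profile_frame R μ b h.htop h.hH h.hth h.hu h.hκ h.hD0 h.hDtri h.hDb h.hμ h.hv h.hC0 h.hS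
    h.hov h.hCf h.hCn h.hfar h.hnear hX hK hXp t k w

theorem EvoHyp.Fl (h : EvoHyp R μ b u D H κ μ0 v C0 Cf Cn m) {g : ℝ → ℝ} (hg : IsFilter g)
    {X : A} (hX : R.Ev X) {x : G}
    {K : ℝ} (hK : 0 ≤ K) (hXp : ∀ k z, ‖⁅X, gen R u k z⁆‖ ≤ K / (1 + D z x) ^ m)
    (k : Fin 2 × Bool) (w : G) :
    ‖⁅LR667.Fl g H X, gen R u k w⁆‖ ≤
      cEvo v μ0 C0 Cf Cn m * mom g (m + 9) * K / (1 + D w x) ^ m := by
  have h1 := Fl_le_mom hg h.hH (X := X) (y := gen R u k w) (p := m + 9)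
    (K := cEvo v μ0 C0 Cf Cn m * K / (1 + D w x) ^ m) (fun t => (h.tau hX hK hXp t k w).trans
      (le_of_eq (by ring)))
  exact h1.trans (le_of_eq (by ring))

theorem EvoHyp.SS (h : EvoHyp R μ b u D H κ μ0 v C0 Cf Cn m) {g : ℝ → ℝ} (hg : IsFilter g)
    {X : A} (hX : R.Ev X) {x : G}
    {K : ℝ} (hK : 0 ≤ K) (hXp : ∀ k z, ‖⁅X, gen R u k z⁆‖ ≤ K / (1 + D z x) ^ m)
    (k : Fin 2 × Bool) (w : G) :
    ‖⁅LR667.SS g H X, gen R u k w⁆‖ ≤
      cEvo v μ0 C0 Cf Cn m * mom g (m + 10) * K / (1 + D w x) ^ m := by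
  have hc := h.cEvo_nonneg
  have hd := h.hD0 w x
  have h1 := SS_le_mom hg h.hH (X := X) (y := gen R u k w) (p := m + 9)
    (K := cEvo v μ0 C0 Cf Cn m * K / (1 + D w x) ^ m) (by positivity)
    (fun t => (h.tau hX hK hXp t k w).trans (le_of_eq (by ring)))
  exact h1.trans (le_of_eq (by ring))

variable [TopologicalSpace G]

/-- from 856's class to the generator form -/
theorem fam_prof {Nh : A} {C : ℝ} {X : G → A} (hDsymm : ∀ x y, D x y = D y x)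
    (hX : Fam (fun k g => R.an (u k g)) D Nh m C X) (x : G) (k : Fin 2 × Bool) (z : G) :
    ‖⁅X x, gen R u k z⁆‖ ≤ C / (1 + D z x) ^ m := by
  obtain ⟨k, bb⟩ := k
  rw [hDsymm z x]
  cases bb
  · exact hX.com x k z
  · exact hX.com_star x k z

/-- the constants of the filters -/
noncomputable def cFl (g : ℝ → ℝ) (v μ0 C0 Cf Cn : ℝ) (m : ℕ) : ℝ :=
  mom g 1 + cEvo v μ0 C0 Cf Cn m * mom g (m + 10)

theorem EvoHyp.cFl_nonneg (h : EvoHyp R μ b u D H κ μ0 v C0 Cf Cn m) (g : ℝ → ℝ) :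
    0 ≤ cFl g v μ0 C0 Cf Cn m := by
  have := h.cEvo_nonneg
  have := mom_nonneg g 1
  have := mom_nonneg g (m + 10)
  unfold cFl
  positivity

theorem EvoHyp.fam_Fl (h : EvoHyp R μ b u D H κ μ0 v C0 Cf Cn m) {g : ℝ → ℝ} (hg : IsFilter g)
    {Nh : A} (hHN : Commute H Nh) (hNev : ∀ X, Commute X Nh → R.Ev X) {C : ℝ} (hC : 0 ≤ C)
    {X : G → A} (hX : Fam (fun k g => R.an (u k g)) D Nh m C X) :
    Fam (fun k g => R.an (u k g)) D Nh m (cFl g v μ0 C0 Cf Cn m * C)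
      (fun x => LR667.Fl g H (X x)) := by
  have hc := h.cEvo_nonneg
  have hcom : ∀ x, Commute (X x) Nh := fun x => (hX.num x).symm
  refine ⟨?_, ?_, ?_, ?_, ?_⟩
  · exact (FlL hg h.hH).continuous.comp hX.cont
  · intro x
    show star _ = _
    rw [Fl_star hg h.hH, (hX.sa x).star_eq]
  · intro x
    exact (Fl_comm hg h.hH hHN (hcom x)).symm
  · intro x
    refine (norm_Fl_le_mom h.hH (X x)).trans ?_
    have h1 := mom_mono hg (Nat.zero_le 1)
    have h2 := mom_nonneg g 0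
    have h3 := mom_nonneg g (m + 10)
    have h4 := hX.norm_le x
    unfold cFl
    calc ‖X x‖ * mom g 0 ≤ C * mom g 1 := by gcongr
      _ = mom g 1 * C := by ring
      _ ≤ (mom g 1 + cEvo v μ0 C0 Cf Cn m * mom g (m + 10)) * C := by
        gcongr
        have : 0 ≤ cEvo v μ0 C0 Cf Cn m * mom g (m + 10) := by positivity
        linarith
  · intro x k w
    have h1 := h.Fl hg (hNev _ (hcom x)) hC (fam_prof h.hDsymm hX x) (k, false) w
    have hd : 0 < (1 + D x w) ^ m := by have := h.hD0 x w; positivity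
    rw [h.hDsymm w x] at h1
    refine h1.trans (div_le_div_of_nonneg_right ?_ hd.le)
    have h2 := mom_mono hg (Nat.le_succ (m + 9))
    have h3 := mom_nonneg g 1
    unfold cFl
    have h4 : cEvo v μ0 C0 Cf Cn m * mom g (m + 9) ≤ cEvo v μ0 C0 Cf Cn m * mom g (m + 10) := by
      gcongr
    exact mul_le_mul_of_nonneg_right (by linarith) hC

theorem EvoHyp.fam_SS (h : EvoHyp R μ b u D H κ μ0 v C0 Cf Cn m) {g : ℝ → ℝ} (hg : IsFilter g)
    {Nh : A} (hHN : Commute H Nh) (hNev : ∀ X, Commute X Nh → R.Ev X) {C : ℝ} (hC : 0 ≤ C)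
    {X : G → A} (hX : Fam (fun k g => R.an (u k g)) D Nh m C X) :
    Fam (fun k g => R.an (u k g)) D Nh m (cFl g v μ0 C0 Cf Cn m * C)
      (fun x => LR667.SS g H (X x)) := by
  have hc := h.cEvo_nonneg
  have hcom : ∀ x, Commute (X x) Nh := fun x => (hX.num x).symm
  refine ⟨?_, ?_, ?_, ?_, ?_⟩
  · exact (SSL hg h.hH).continuous.comp hX.cont
  · intro x
    show star _ = _
    rw [SS_star hg h.hH, (hX.sa x).star_eq]
  · intro x
    exact (SS_comm hg h.hH hHN (hcom x)).symm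
  · intro x
    refine (norm_SS_le_mom hg h.hH (X x)).trans ?_
    have h2 := mom_nonneg g 1
    have h3 := mom_nonneg g (m + 10)
    have h4 := hX.norm_le x
    unfold cFl
    calc ‖X x‖ * mom g 1 ≤ C * mom g 1 := by gcongr
      _ = mom g 1 * C := by ring
      _ ≤ (mom g 1 + cEvo v μ0 C0 Cf Cn m * mom g (m + 10)) * C := by
        gcongr
        have : 0 ≤ cEvo v μ0 C0 Cf Cn m * mom g (m + 10) := by positivity
        linarith
  · intro x k w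
    have h1 := h.SS hg (hNev _ (hcom x)) hC (fam_prof h.hDsymm hX x) (k, false) w
    have hd : 0 < (1 + D x w) ^ m := by have := h.hD0 x w; positivity
    rw [h.hDsymm w x] at h1
    refine h1.trans (div_le_div_of_nonneg_right ?_ hd.le)
    have h3 := mom_nonneg g 1
    unfold cFl
    exact mul_le_mul_of_nonneg_right (by linarith) hC

end evo

end Crest.Agent.R340.Filt867
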