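import Crest.Agent.R340.QL2_331
import Crest.Agent.R340.Fock_649

/-!
Quasi-local calculus, part 3: the Fock instance; orthonormal frames of modes, the conditional
expectations `E b L`, the local algebras `Loc b L`.
-/

set_option autoImplicit false
set_option linter.unusedSectionVars false

namespace Crest.Agent.R340.QL331

open Complex ComplexConjugate

section Fock
open Fock649

variable {ι : Type*} [LinearOrder ι] [Fintype ι]

/-- parity operator on Fock space -/
noncomputable def thF : Op ι := diag fun S => (-1) ^ S.card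

theorem thF_ket (S : Finset ι) : thF (ket S) = ((-1 : ℂ) ^ S.card) • ket S := diag_ket _ _

theorem thF_c (i : ι) : (thF : Op ι) * c i * thF = - c i := by
  refine op_ext fun S => ?_
  rw [mul_ap, mul_ap, neg_ap, thF_ket]
  have hl : (c i : Op ι) (((-1 : ℂ) ^ S.card) • ket S) = ((-1 : ℂ) ^ S.card) • (c i : Op ι) (ket S) :=
    (c i : Op ι).ap.map_smul _ _
  rw [hl]
  have hl2 : ∀ (z : ℂ) (v : Fk ι), (thF : Op ι) (z • v) = z • (thF : Op ι) v :=
    fun z v => (thF : Op ι).ap.map_smul _ _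
  rw [hl2, c_ket]
  split_ifs with h
  · rw [hl2, thF_ket, Finset.card_erase_of_mem h, smul_smul, smul_smul, ← neg_smul]
    congr 1
    obtain ⟨m, hm⟩ : ∃ m, S.card = m + 1 := ⟨S.card - 1, by
      have := Finset.card_pos.mpr ⟨i, h⟩; omega⟩
    rw [hm, Nat.add_sub_cancel, pow_succ]
    have : ((-1 : ℂ) ^ m) * ((-1 : ℂ) ^ m) = 1 := by
      rw [← mul_pow]; norm_num
    linear_combination (-(sg i S)) * this
  · have h0 : (thF : Op ι) (0 : Fk ι) = 0 := (thF : Op ι).ap.map_zero
    rw [h0]; simp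

/-- The Fock representation as an abstract CAR representation. -/
noncomputable def fcar : Car (Op ι) (L ι) where
  an := an
  an_add := an_add
  an_smul := an_smul
  an_cr v w := by rw [star_an]; exact Fock649.an_cr v w
  an_an := an_an
  th := thF
  th_star := by
    unfold thF
    rw [star_diag]
    congr 1
    funext S
    simp
  th_sq := by
    unfold thF
    rw [← diag_mul, ← diag_one]
    congr 1
    funext S
    simp only [Pi.mul_apply, Pi.one_apply]
    rw [← mul_pow]; norm_num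
  th_an v := by
    have h1 : ∀ s : Finset ι, (thF : Op ι) * (∑ i ∈ s, (starRingEnd ℂ) (v i) • c i) * thF
        = - ∑ i ∈ s, (starRingEnd ℂ) (v i) • c i := by
      intro s
      rw [Finset.mul_sum, Finset.sum_mul, ← Finset.sum_neg_distrib]
      refine Finset.sum_congr rfl fun i _ => ?_
      rw [mul_smul_comm, smul_mul_assoc, thF_c, smul_neg]
    exact h1 _

theorem fcar_an (v : L ι) : (fcar : Car (Op ι) (L ι)).an v = an v := rfl
theorem fcar_cr (v : L ι) : (fcar : Car (Op ι) (L ι)).cr v = cr v := star_an v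

theorem c_mem (i : ι) : (c i : Op ι) ∈ (fcar : Car (Op ι) (L ι)).alg Set.univ := by
  rw [← an_e]; exact Car.an_mem_alg _ (Set.mem_univ _)

theorem d_mem (i : ι) : (d i : Op ι) ∈ (fcar : Car (Op ι) (L ι)).alg Set.univ := by
  rw [← cr_e, ← fcar_cr]; exact Car.cr_mem_alg _ (Set.mem_univ _)

theorem sum_mem_alg {σ : Type*} (s : Finset σ) (f : σ → Op ι) (W : Set (L ι))
    (h : ∀ i ∈ s, f i ∈ (fcar : Car (Op ι) (L ι)).alg W) :
    ∑ i ∈ s, f i ∈ (fcar : Car (Op ι) (L ι)).alg W :=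
  Subalgebra.sum_mem _ h

/-- indicator diagonal operators are generated -/
theorem diag_pt_mem (S : Finset ι) :
    diag (fun T => if T = S then (1 : ℂ) else 0) ∈ (fcar : Car (Op ι) (L ι)).alg Set.univ := by
  classical
  have h1 : ∀ i : ι, diag (fun T : Finset ι => if (i ∈ T ↔ i ∈ S) then (1 : ℂ) else 0)
      ∈ (fcar : Car (Op ι) (L ι)).alg Set.univ := by
    intro i
    have hn : (d i * c i : Op ι) ∈ (fcar : Car (Op ι) (L ι)).alg Set.univ :=
      Subalgebra.mul_mem _ (d_mem i) (c_mem i)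
    by_cases hi : i ∈ S
    · convert hn using 1
      rw [d_mul_c]
      congr 1
      funext T
      simp [hi]
    · have : (1 - d i * c i : Op ι) ∈ (fcar : Car (Op ι) (L ι)).alg Set.univ :=
        Subalgebra.sub_mem _ (Subalgebra.one_mem _) hn
      convert this using 1
      rw [d_mul_c, ← diag_one]
      refine op_ext fun T => ?_
      rw [sub_ap, diag_ket, diag_ket, diag_ket, ← sub_smul]
      congr 1
      by_cases hT : i ∈ T <;> simp [hi, hT]
  have h2 : ∀ s : Finset ι, diag (fun T : Finset ι => ∏ i ∈ s, if (i ∈ T ↔ i ∈ S) then (1 : ℂ) else 0)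
      ∈ (fcar : Car (Op ι) (L ι)).alg Set.univ := by
    intro s
    induction s using Finset.induction_on with
    | empty =>
      convert Subalgebra.one_mem _ using 1
      rw [← diag_one]; congr 1
    | insert a s ha ih =>
      have := Subalgebra.mul_mem _ (h1 a) ih
      rw [← diag_mul] at this
      convert this using 2
      funext T
      rw [Finset.prod_insert ha]; rfl
  convert h2 Finset.univ using 2
  funext T
  by_cases hT : T = S
  · subst hT; simp
  · rw [if_neg hT]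
    symm
    rw [Finset.prod_eq_zero_iff]
    by_contra hcon
    push Not at hcon
    apply hT
    ext i
    have := hcon i (Finset.mem_univ _)
    by_contra hne
    exact this (if_neg hne)

theorem exists_up (S : Finset ι) :
    ∃ y ∈ (fcar : Car (Op ι) (L ι)).alg Set.univ, (y : Op ι) (ket ∅) = ket S := by
  induction S using Finset.induction_on with
  | empty => exact ⟨1, Subalgebra.one_mem _, rfl⟩
  | insert a s ha ih =>
    obtain ⟨y, hy, h⟩ := ih
    refine ⟨sg a s • (d a * y), Subalgebra.smul_mem _ (Subalgebra.mul_mem _ (d_mem a) hy) _, ?_⟩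
    rw [smul_ap, mul_ap, h, d_ket, if_neg ha, smul_smul, sg_mul_self, one_smul]

theorem exists_down (S : Finset ι) :
    ∃ y ∈ (fcar : Car (Op ι) (L ι)).alg Set.univ, (y : Op ι) (ket S) = ket ∅ := by
  induction S using Finset.induction_on with
  | empty => exact ⟨1, Subalgebra.one_mem _, rfl⟩
  | insert a s ha ih =>
    obtain ⟨y, hy, h⟩ := ih
    refine ⟨sg a (insert a s) • (y * c a),
      Subalgebra.smul_mem _ (Subalgebra.mul_mem _ hy (c_mem a)) _, ?_⟩
    have hl : ∀ (z : ℂ) (v : Fk ι), (y : Op ι) (z • v) = z • (y : Op ι) v :=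
      fun z v => (y : Op ι).ap.map_smul _ _
    rw [smul_ap, mul_ap, c_ket, if_pos (Finset.mem_insert_self _ _), hl,
      Finset.erase_insert ha, h, smul_smul, sg_mul_self, one_smul]

/-- every operator on Fock space is generated by the modes. -/
theorem alg_univ (a : Op ι) : a ∈ (fcar : Car (Op ι) (L ι)).alg Set.univ := by
  classical
  have hunit : ∀ S T : Finset ι, ∃ y ∈ (fcar : Car (Op ι) (L ι)).alg Set.univ,
      ∀ U, (y : Op ι) (ket U) = if U = T then ket S else 0 := by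
    intro S T
    obtain ⟨y, hy, h1⟩ := exists_up S
    obtain ⟨x, hx, h2⟩ := exists_down T
    refine ⟨y * x * diag (fun U => if U = T then (1 : ℂ) else 0),
      Subalgebra.mul_mem _ (Subalgebra.mul_mem _ hy hx) (diag_pt_mem T), fun U => ?_⟩
    have hl : ∀ (z : ℂ) (v : Fk ι), (y * x : Op ι) (z • v) = z • (y * x : Op ι) v :=
      fun z v => (y * x : Op ι).ap.map_smul _ _
    rw [mul_ap, diag_ket, hl, mul_ap]
    by_cases h : U = T
    · subst h; simp [h2, h1]
    · simp [h]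
  choose y hy hy2 using hunit
  have : a = ∑ T, ∑ S, (a (ket T)) S • y S T := by
    refine op_ext fun U => ?_
    rw [sum_ap]
    have h3 : ∀ T : Finset ι, (∑ S, (a (ket T)) S • y S T : Op ι) (ket U)
        = if U = T then a (ket U) else 0 := by
      intro T
      rw [sum_ap]
      by_cases h : U = T
      · subst h
        rw [if_pos rfl]
        conv_rhs => rw [fk_eq_sum (a (ket U))]
        refine Finset.sum_congr rfl fun S _ => ?_
        rw [smul_ap, hy2, if_pos rfl]
      · rw [if_neg h]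
        refine Finset.sum_eq_zero fun S _ => ?_
        rw [smul_ap, hy2, if_neg h, smul_zero]
    rw [Finset.sum_congr rfl fun T _ => h3 T]
    simp
  rw [this]
  refine Subalgebra.sum_mem _ fun T _ => Subalgebra.sum_mem _ fun S _ =>
    Subalgebra.smul_mem _ (hy S T) _

end Fock

section Frame

variable {A V : Type*} [NormedRing A] [StarRing A] [CStarRing A] [NormedAlgebra ℂ A]
  [StarModule ℂ A] [NormedAddCommGroup V] [InnerProductSpace ℂ V]

variable {n : ℕ} (b : OrthonormalBasis (Fin n) ℂ V)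

/-- indices `j ≥ L` -/
def farS (n L : ℕ) : Finset (Fin n) := Finset.univ.filter fun j : Fin n => L ≤ (j : ℕ)

/-- indices `j < L` -/
def nearS (n L : ℕ) : Finset (Fin n) := Finset.univ.filter fun j : Fin n => (j : ℕ) < L

theorem mem_farS {n L : ℕ} {j : Fin n} : j ∈ farS n L ↔ L ≤ (j : ℕ) := by simp [farS]
theorem mem_nearS {n L : ℕ} {j : Fin n} : j ∈ nearS n L ↔ (j : ℕ) < L := by simp [nearS]

/-- the far modes `j ≥ L` of a frame, as a list -/
noncomputable def far (L : ℕ) : List V := ((List.finRange n).filter fun j : Fin n => L ≤ (j : ℕ)).map b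

/-- the near modes `j < L` of a frame, as a list -/
noncomputable def near (L : ℕ) : List V := ((List.finRange n).filter fun j : Fin n => (j : ℕ) < L).map b

theorem mem_far {L : ℕ} {v : V} : v ∈ far b L ↔ ∃ j : Fin n, L ≤ (j : ℕ) ∧ b j = v := by
  simp [far]

theorem mem_near {L : ℕ} {v : V} : v ∈ near b L ↔ ∃ j : Fin n, (j : ℕ) < L ∧ b j = v := by
  simp [near]

theorem far_norm (L : ℕ) : ∀ v ∈ far b L, ‖v‖ = 1 := by
  intro v hv
  obtain ⟨j, _, rfl⟩ := (mem_far b).mp hv
  exact b.orthonormal.1 j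

theorem near_norm (L : ℕ) : ∀ v ∈ near b L, ‖v‖ = 1 := by
  intro v hv
  obtain ⟨j, _, rfl⟩ := (mem_near b).mp hv
  exact b.orthonormal.1 j

theorem pairwise_map_orth (l : List (Fin n)) (hl : l.Nodup) :
    (l.map b).Pairwise fun v w => (inner ℂ v w : ℂ) = 0 := by
  rw [List.pairwise_map]
  refine hl.imp fun {i j} hij => b.orthonormal.2 hij

theorem far_orth (L : ℕ) : (far b L).Pairwise fun v w => (inner ℂ v w : ℂ) = 0 :=
  pairwise_map_orth b _ ((List.nodup_finRange n).filter _)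

theorem near_orth (L : ℕ) : (near b L).Pairwise fun v w => (inner ℂ v w : ℂ) = 0 :=
  pairwise_map_orth b _ ((List.nodup_finRange n).filter _)

theorem sum_filter_finRange (p : Fin n → Prop) [DecidablePred p] (f : Fin n → ℝ) :
    (((List.finRange n).filter fun j => p j).map f).sum = ∑ j ∈ Finset.univ.filter p, f j := by
  rw [← List.sum_toFinset f ((List.nodup_finRange n).filter _)]
  refine Finset.sum_congr ?_ fun _ _ => rfl
  ext j
  simp

theorem sum_far (L : ℕ) (f : V → ℝ) :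
    ((far b L).map f).sum = ∑ j ∈ farS n L, f (b j) := by
  unfold far
  rw [List.map_map]
  exact sum_filter_finRange (fun j : Fin n => L ≤ (j : ℕ)) _

theorem sum_near (L : ℕ) (f : V → ℝ) :
    ((near b L).map f).sum = ∑ j ∈ nearS n L, f (b j) := by
  unfold near
  rw [List.map_map]
  exact sum_filter_finRange (fun j : Fin n => (j : ℕ) < L) _

namespace Car

variable (R : Car A V)

/-- conditional expectation onto (the commutant form of) the near algebra -/
noncomputable def E (L : ℕ) (a : A) : A := R.ex (far b L) a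

/-- near twirl -/
noncomputable def E' (L : ℕ) (a : A) : A := R.ex (near b L) a

/-- local elements (commutant form) -/
def Loc (L : ℕ) (a : A) : Prop := R.Ev a ∧ ∀ j : Fin n, L ≤ (j : ℕ) → R.Cm (b j) a

/-- the near algebra -/
def nalg (L : ℕ) : Subalgebra ℂ A := R.alg {v | ∃ j : Fin n, (j : ℕ) < L ∧ b j = v}

theorem E_add (L : ℕ) (a c : A) : R.E b L (a + c) = R.E b L a + R.E b L c := R.ex_add _ _ _
theorem E_sub (L : ℕ) (a c : A) : R.E b L (a - c) = R.E b L a - R.E b L c := R.ex_sub _ _ _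
theorem E_smul (L : ℕ) (z : ℂ) (a : A) : R.E b L (z • a) = z • R.E b L a := R.ex_smul _ _ _
theorem E_star (L : ℕ) (a : A) : R.E b L (star a) = star (R.E b L a) := R.ex_star _ _
theorem E_zero (L : ℕ) : R.E b L (0 : A) = 0 := R.ex_zero _
theorem norm_E_le (L : ℕ) (a : A) : ‖R.E b L a‖ ≤ ‖a‖ := R.norm_ex_le (far_norm b L) a
theorem norm_E'_le (L : ℕ) (a : A) : ‖R.E' b L a‖ ≤ ‖a‖ := R.norm_ex_le (near_norm b L) a
theorem E'_sub (L : ℕ) (a c : A) : R.E' b L (a - c) = R.E' b L a - R.E' b L c := R.ex_sub _ _ _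

/-- `E b L` as a continuous linear map -/
noncomputable def EL (L : ℕ) : A →L[ℂ] A :=
  LinearMap.mkContinuous (R.exL (far b L)) 1 fun a => by
    rw [one_mul]; exact R.norm_ex_le (far_norm b L) a

theorem EL_apply (L : ℕ) (a : A) : R.EL b L a = R.E b L a := rfl

theorem norm_sub_E_le (L : ℕ) (a : A) :
    ‖a - R.E b L a‖ ≤ ∑ j ∈ farS n L, R.cs a (b j) := by
  rw [← sum_far]; exact R.norm_sub_ex_le (far_norm b L) a

theorem norm_sub_E'_le (L : ℕ) (a : A) :
    ‖a - R.E' b L a‖ ≤ ∑ j ∈ nearS n L, R.cs a (b j) := by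
  rw [← sum_near]; exact R.norm_sub_ex_le (near_norm b L) a

theorem E_cm (L : ℕ) (a : A) (j : Fin n) (hj : L ≤ (j : ℕ)) : R.Cm (b j) (R.E b L a) :=
  R.ex_cm (far_norm b L) (far_orth b L) a _ ((mem_far b).mpr ⟨j, hj, rfl⟩)

theorem E'_cm (L : ℕ) (a : A) (j : Fin n) (hj : (j : ℕ) < L) : R.Cm (b j) (R.E' b L a) :=
  R.ex_cm (near_norm b L) (near_orth b L) a _ ((mem_near b).mpr ⟨j, hj, rfl⟩)

theorem E_loc (L : ℕ) {a : A} (ha : R.Ev a) : R.Loc b L (R.E b L a) :=
  ⟨ha.ex _, fun j hj => R.E_cm b L a j hj⟩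

theorem E_fix {L : ℕ} {a : A} (ha : R.Loc b L a) : R.E b L a = a := by
  refine R.ex_fix (far_norm b L) fun v hv => ?_
  obtain ⟨j, hj, rfl⟩ := (mem_far b).mp hv
  exact ha.2 j hj

theorem Loc.mono {R : Car A V} {b : OrthonormalBasis (Fin n) ℂ V} {L L' : ℕ} (h : L ≤ L') {a : A}
    (ha : R.Loc b L a) : R.Loc b L' a :=
  ⟨ha.1, fun j hj => ha.2 j (h.trans hj)⟩

theorem loc_of_ge {L : ℕ} (h : n ≤ L) {a : A} (ha : R.Ev a) : R.Loc b L a :=
  ⟨ha, fun j hj => absurd j.2 (by omega)⟩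

theorem Cm.add {R : Car A V} {v : V} {a c : A} (ha : R.Cm v a) (hc : R.Cm v c) :
    R.Cm v (a + c) := ⟨ha.1.add_left hc.1, ha.2.add_left hc.2⟩
theorem Cm.sub {R : Car A V} {v : V} {a c : A} (ha : R.Cm v a) (hc : R.Cm v c) :
    R.Cm v (a - c) := ⟨ha.1.sub_left hc.1, ha.2.sub_left hc.2⟩
theorem Cm.mul {R : Car A V} {v : V} {a c : A} (ha : R.Cm v a) (hc : R.Cm v c) :
    R.Cm v (a * c) := ⟨ha.1.mul_left hc.1, ha.2.mul_left hc.2⟩
theorem Cm.smul {R : Car A V} {v : V} {a : A} (z : ℂ) (ha : R.Cm v a) : R.Cm v (z • a) :=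
  ⟨ha.1.smul_left z, ha.2.smul_left z⟩
theorem Cm.star {R : Car A V} {v : V} {a : A} (ha : R.Cm v a) : R.Cm v (star a) := by
  refine ⟨?_, ?_⟩
  · have := ha.2.star_star
    rw [star_cr] at this
    exact this
  · exact ha.1.star_star
theorem cm_one (v : V) : R.Cm v 1 := ⟨Commute.one_left _, Commute.one_left _⟩
theorem cm_zero (v : V) : R.Cm v 0 := ⟨Commute.zero_left _, Commute.zero_left _⟩

theorem Loc.add {R : Car A V} {b : OrthonormalBasis (Fin n) ℂ V} {L : ℕ} {a c : A}
    (ha : R.Loc b L a) (hc : R.Loc b L c) : R.Loc b L (a + c) :=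
  ⟨ha.1.add hc.1, fun j hj => (ha.2 j hj).add (hc.2 j hj)⟩
theorem Loc.sub {R : Car A V} {b : OrthonormalBasis (Fin n) ℂ V} {L : ℕ} {a c : A}
    (ha : R.Loc b L a) (hc : R.Loc b L c) : R.Loc b L (a - c) :=
  ⟨ha.1.sub hc.1, fun j hj => (ha.2 j hj).sub (hc.2 j hj)⟩
theorem Loc.mul {R : Car A V} {b : OrthonormalBasis (Fin n) ℂ V} {L : ℕ} {a c : A}
    (ha : R.Loc b L a) (hc : R.Loc b L c) : R.Loc b L (a * c) :=
  ⟨ha.1.mul hc.1, fun j hj => (ha.2 j hj).mul (hc.2 j hj)⟩
theorem Loc.smul {R : Car A V} {b : OrthonormalBasis (Fin n) ℂ V} {L : ℕ} {a : A} (z : ℂ)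
    (ha : R.Loc b L a) : R.Loc b L (z • a) :=
  ⟨ha.1.smul z, fun j hj => (ha.2 j hj).smul z⟩
theorem Loc.star {R : Car A V} {b : OrthonormalBasis (Fin n) ℂ V} {L : ℕ} {a : A}
    (ha : R.Loc b L a) : R.Loc b L (star a) :=
  ⟨ha.1.star, fun j hj => (ha.2 j hj).star⟩
theorem loc_one (L : ℕ) : R.Loc b L 1 := ⟨R.ev_one, fun _ _ => R.cm_one _⟩
theorem loc_zero (L : ℕ) : R.Loc b L 0 := ⟨R.ev_zero, fun _ _ => R.cm_zero _⟩
theorem Loc.br {R : Car A V} {b : OrthonormalBasis (Fin n) ℂ V} {L : ℕ} {a c : A}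
    (ha : R.Loc b L a) (hc : R.Loc b L c) : R.Loc b L (br a c) := (ha.mul hc).sub (hc.mul ha)

/-- near-optimality of `E`. -/
theorem norm_sub_E_le_of_loc {L : ℕ} {a c : A} (hc : R.Loc b L c) :
    ‖a - R.E b L a‖ ≤ 2 * ‖a - c‖ := by
  have h : a - R.E b L a = (a - c) - R.E b L (a - c) := by
    rw [E_sub, R.E_fix b hc]; abel
  rw [h]
  calc ‖(a - c) - R.E b L (a - c)‖ ≤ ‖a - c‖ + ‖R.E b L (a - c)‖ := norm_sub_le _ _
    _ ≤ 2 * ‖a - c‖ := by have := R.norm_E_le b L (a - c); linarith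

/-- elements of the near algebra which are even are local -/
theorem loc_of_nalg {L : ℕ} {a : A} (ha : a ∈ R.nalg b L) (he : R.Ev a) : R.Loc b L a := by
  refine ⟨he, fun j hj => R.cm_of_orth ?_ ha he⟩
  rintro v ⟨i, hi, rfl⟩
  refine b.orthonormal.2 ?_
  rintro rfl
  omega

/-- even local elements lie in the near algebra (for an irreducible representation). -/
theorem nalg_of_loc (htop : ∀ a : A, a ∈ R.alg Set.univ) {L : ℕ} {a : A} (ha : R.Loc b L a) :
    a ∈ R.nalg b L := by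
  have h1 : ∀ v : V, R.an v ∈ R.alg (Set.range b) ∧ R.cr v ∈ R.alg (Set.range b) := by
    intro v
    have hv : v ∈ Submodule.span ℂ (Set.range b) := by
      have := b.toBasis.span_eq
      rw [OrthonormalBasis.coe_toBasis] at this
      rw [this]; trivial
    refine Submodule.span_induction (p := fun v _ => R.an v ∈ R.alg (Set.range b) ∧
      R.cr v ∈ R.alg (Set.range b)) ?_ ?_ ?_ ?_ hv
    · rintro x ⟨j, rfl⟩
      exact ⟨R.an_mem_alg ⟨j, rfl⟩, R.cr_mem_alg ⟨j, rfl⟩⟩
    · rw [an_zero, cr_zero]; exact ⟨Subalgebra.zero_mem _, Subalgebra.zero_mem _⟩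
    · rintro x y _ _ ⟨hx1, hx2⟩ ⟨hy1, hy2⟩
      rw [R.an_add, cr_add]
      exact ⟨Subalgebra.add_mem _ hx1 hy1, Subalgebra.add_mem _ hx2 hy2⟩
    · rintro z x _ ⟨hx1, hx2⟩
      rw [R.an_smul, cr_smul]
      exact ⟨Subalgebra.smul_mem _ hx1 _, Subalgebra.smul_mem _ hx2 _⟩
  have h2 : a ∈ R.alg (Set.range b) := by
    refine R.alg_induction (p := fun x => x ∈ R.alg (Set.range b)) ?_ ?_ ?_ ?_ ?_ (htop a)
    · intro v _; exact (h1 v).1
    · intro v _; exact (h1 v).2
    · intro z; exact Subalgebra.algebraMap_mem _ z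
    · intro x y hx hy; exact Subalgebra.add_mem _ hx hy
    · intro x y hx hy; exact Subalgebra.mul_mem _ hx hy
  have h3 : a ∈ R.alg ({v | ∃ j : Fin n, (j : ℕ) < L ∧ b j = v} ∪ {v | v ∈ far b L}) := by
    refine R.alg_mono ?_ h2
    rintro v ⟨j, rfl⟩
    rcases lt_or_ge (j : ℕ) L with h | h
    · exact Or.inl ⟨j, h, rfl⟩
    · exact Or.inr ((mem_far b).mpr ⟨j, h, rfl⟩)
  have h4 := R.ex_mem (far b L) {v | ∃ j : Fin n, (j : ℕ) < L ∧ b j = v} (far_norm b L)
    (far_orth b L) ?_ h3 ha.1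
  · have h5 : R.ex (far b L) a = a := R.E_fix b ha
    rw [h5] at h4
    exact h4
  · rintro e he v ⟨i, hi, rfl⟩
    obtain ⟨j, hj, rfl⟩ := (mem_far b).mp he
    refine b.orthonormal.2 ?_
    rintro rfl
    omega

/-- commutator with an element of the near algebra -/
theorem norm_br_le_of_nalg {L : ℕ} {y : A} (hy : y ∈ R.nalg b L) (a : A) :
    ‖br a y‖ ≤ 2 * ‖y‖ * ∑ j ∈ nearS n L, R.cs a (b j) := by
  have h1 : Commute (R.E' b L a) y := by
    refine R.commute_alg ?_ hy
    rintro v ⟨j, hj, rfl⟩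
    exact R.E'_cm b L a j hj
  have h2 : br a y = br (a - R.E' b L a) y := by
    rw [sub_br, br_eq_zero h1, sub_zero]
  rw [h2]
  calc ‖br (a - R.E' b L a) y‖ ≤ 2 * ‖a - R.E' b L a‖ * ‖y‖ := norm_br_le _ _
    _ ≤ 2 * (∑ j ∈ nearS n L, R.cs a (b j)) * ‖y‖ := by
      have := R.norm_sub_E'_le b L a
      gcongr
    _ = _ := by ring

/-- projection onto the near modes -/
noncomputable def Pn (L : ℕ) (v : V) : V := ∑ j ∈ nearS n L, (inner ℂ (b j) v : ℂ) • b j

theorem sub_Pn (L : ℕ) (v : V) :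
    v - Pn b L v = ∑ j ∈ farS n L, (inner ℂ (b j) v : ℂ) • b j := by
  have h := b.sum_repr' v
  unfold Pn
  rw [sub_eq_iff_eq_add]
  nth_rewrite 1 [← h]
  rw [← Finset.sum_filter_add_sum_filter_not Finset.univ (fun j : Fin n => L ≤ (j : ℕ))]
  congr 1
  refine Finset.sum_congr ?_ fun _ _ => rfl
  ext j; simp [mem_nearS]

theorem an_sum {σ : Type*} (s : Finset σ) (f : σ → V) : R.an (∑ i ∈ s, f i) = ∑ i ∈ s, R.an (f i) := by
  classical
  induction s using Finset.induction_on with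
  | empty => simp [an_zero]
  | insert a s ha ih => rw [Finset.sum_insert ha, Finset.sum_insert ha, R.an_add, ih]

theorem cr_sum {σ : Type*} (s : Finset σ) (f : σ → V) : R.cr (∑ i ∈ s, f i) = ∑ i ∈ s, R.cr (f i) := by
  unfold cr; rw [an_sum, star_sum]

theorem cm_far_part {L : ℕ} {a : A} (ha : R.Loc b L a) (v : V) : R.Cm (v - Pn b L v) a := by
  rw [sub_Pn]
  refine ⟨?_, ?_⟩
  · rw [an_sum]
    refine Commute.sum_right _ _ _ fun j hj => ?_
    rw [R.an_smul]
    exact (ha.2 j (mem_farS.mp hj)).1.smul_right _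
  · rw [cr_sum]
    refine Commute.sum_right _ _ _ fun j hj => ?_
    rw [cr_smul]
    exact (ha.2 j (mem_farS.mp hj)).2.smul_right _

/-- commutators of a local element only see the near part of a vector -/
theorem br_an_near {L : ℕ} {a : A} (ha : R.Loc b L a) (v : V) :
    br a (R.an v) = br a (R.an (Pn b L v)) := by
  have h := (R.cm_far_part b ha v).1
  have : R.an v = R.an (Pn b L v) + R.an (v - Pn b L v) := by
    rw [← R.an_add]; congr 1; abel
  rw [this, br_add, br_eq_zero h, add_zero]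

theorem br_cr_near {L : ℕ} {a : A} (ha : R.Loc b L a) (v : V) :
    br a (R.cr v) = br a (R.cr (Pn b L v)) := by
  have h := (R.cm_far_part b ha v).2
  have : R.cr v = R.cr (Pn b L v) + R.cr (v - Pn b L v) := by
    rw [← cr_add]; congr 1; abel
  rw [this, br_add, br_eq_zero h, add_zero]

theorem cs_le_of_loc {L : ℕ} {a : A} (ha : R.Loc b L a) (v : V) :
    R.cs a v ≤ 4 * ‖a‖ * ‖Pn b L v‖ := by
  unfold cs
  rw [R.br_an_near b ha, R.br_cr_near b ha]
  have h1 := norm_br_le a (R.an (Pn b L v))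
  have h2 := norm_br_le a (R.cr (Pn b L v))
  have h3 := R.norm_an_le (Pn b L v)
  have h4 := R.norm_cr_le (Pn b L v)
  have h5 := norm_nonneg a
  nlinarith [mul_le_mul_of_nonneg_left h3 h5, mul_le_mul_of_nonneg_left h4 h5]

theorem cs_le (a : A) (v : V) : R.cs a v ≤ 4 * ‖a‖ * ‖v‖ := by
  unfold cs
  have h1 := norm_br_le a (R.an v)
  have h2 := norm_br_le a (R.cr v)
  have h3 := R.norm_an_le v
  have h4 := R.norm_cr_le v
  have h5 := norm_nonneg a
  nlinarith [mul_le_mul_of_nonneg_left h3 h5, mul_le_mul_of_nonneg_left h4 h5]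

theorem norm_Pn_sq (L : ℕ) (v : V) :
    ‖Pn b L v‖ ^ 2 = ∑ j ∈ nearS n L, ‖(inner ℂ (b j) v : ℂ)‖ ^ 2 := by
  unfold Pn
  have h := b.orthonormal.inner_sum (fun j => (inner ℂ (b j) v : ℂ))
    (fun j => (inner ℂ (b j) v : ℂ)) (nearS n L)
  have h2 : ((‖∑ j ∈ nearS n L, (inner ℂ (b j) v : ℂ) • b j‖ : ℂ)) ^ 2
      = ∑ j ∈ nearS n L, (((‖(inner ℂ (b j) v : ℂ)‖ ^ 2 : ℝ)) : ℂ) := by
    have h3 := inner_self_eq_norm_sq_to_K (𝕜 := ℂ) (∑ j ∈ nearS n L, (inner ℂ (b j) v : ℂ) • b j)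
    rw [h] at h3
    refine h3.symm.trans ?_
    refine Finset.sum_congr rfl fun j _ => ?_
    rw [Complex.conj_mul']
    push_cast; rfl
  exact_mod_cast h2

end Car

end Frame

end Crest.Agent.R340.QL331
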