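import Crest.Agent.R340.Filt_867
import Crest.Agent.R340.QL3_331

/-!
Near commutators for Klein-transformed odd operators and the instantiation of
`Filt867.tau_profile` with the twirls of `QL331` (helper867).
-/

set_option autoImplicit false
set_option linter.unusedSectionVars false

open scoped ENNReal NNReal
open MeasureTheory

namespace Crest.Agent.R340.Filt867

open Crest.Agent.R340.QL331 Crest.Agent.R340.LR667 Crest.Agent.R340.DC867

section klein2

variable {A V : Type*} [CStarAlgebra A] [NormedAddCommGroup V] [InnerProductSpace ℂ V]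
  (R : Car A V)

theorem par_tw (v : V) (a : A) : R.par (R.tw v a) = R.tw v (R.par a) := by
  unfold Car.tw
  rw [Car.par_smul, Car.par_add, Car.par_mul, Car.par_mul, Car.par_maj]
  simp only [neg_mul, mul_neg, neg_neg]

theorem par_ex1 (v : V) (a : A) : R.par (R.ex1 v a) = R.ex1 v (R.par a) := by
  unfold Car.ex1
  rw [par_tw, par_tw]

theorem par_ex (l : List V) (a : A) : R.par (R.ex l a) = R.ex l (R.par a) := by
  induction l with
  | nil => rfl
  | cons v l ih => rw [Car.ex_cons, Car.ex_cons, par_ex1, ih]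

theorem par_th : R.par R.th = R.th := by
  unfold Car.par; rw [R.th_sq, one_mul]

/-- `Z` anticommuting with all generators graded-commutes with the algebra they generate. -/
theorem graded_alg {W : Set V} {Z : A} (h1 : ∀ v ∈ W, Z * R.an v = - (R.an v * Z))
    (h2 : ∀ v ∈ W, Z * R.cr v = - (R.cr v * Z)) {y : A} (hy : y ∈ R.alg W) :
    Z * y = R.par y * Z := by
  refine R.alg_induction (p := fun x => Z * x = R.par x * Z) ?_ ?_ ?_ ?_ ?_ hy
  · intro v hv; rw [Car.par_an, h1 v hv, neg_mul]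
  · intro v hv; rw [Car.par_cr, h2 v hv, neg_mul]
  · intro z
    rw [Algebra.algebraMap_eq_smul_one, Car.par_smul, Car.par_one, mul_smul_comm, smul_mul_assoc,
      mul_one, one_mul]
  · intro x y hx hy; rw [Car.par_add, mul_add, add_mul, hx, hy]
  · intro x y hx hy; rw [Car.par_mul, ← mul_assoc, hx, mul_assoc, hy, ← mul_assoc]

variable {n : ℕ} (b : OrthonormalBasis (Fin n) ℂ V)

/-- every element lies in the algebra generated by the frame -/
theorem mem_alg_range (htop : ∀ a : A, a ∈ R.alg Set.univ) (a : A) :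
    a ∈ R.alg (Set.range b) := by
  have h1 : ∀ v : V, R.an v ∈ R.alg (Set.range b) ∧ R.cr v ∈ R.alg (Set.range b) := by
    intro v
    have hv : v ∈ Submodule.span ℂ (Set.range b) := by
      have := b.toBasis.span_eq
      rw [OrthonormalBasis.coe_toBasis] at this
      rw [this]; trivial
    refine Submodule.span_induction (p := fun v _ => R.an v ∈ R.alg (Set.range b) ∧
      R.cr v ∈ R.alg (Set.range b)) ?_ ?_ ?_ ?_ hv
    · rintro x ⟨j, rfl⟩
      exact ⟨R.an_mem_alg ⟨j, rfl⟩, R.cr_mem_alg ⟨j, rfl⟩⟩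
    · rw [Car.an_zero, Car.cr_zero]; exact ⟨Subalgebra.zero_mem _, Subalgebra.zero_mem _⟩
    · rintro x y _ _ ⟨hx1, hx2⟩ ⟨hy1, hy2⟩
      rw [R.an_add, Car.cr_add]
      exact ⟨Subalgebra.add_mem _ hx1 hy1, Subalgebra.add_mem _ hx2 hy2⟩
    · rintro z x _ ⟨hx1, hx2⟩
      rw [R.an_smul, Car.cr_smul]
      exact ⟨Subalgebra.smul_mem _ hx1 _, Subalgebra.smul_mem _ hx2 _⟩
  refine R.alg_induction (p := fun x => x ∈ R.alg (Set.range b)) ?_ ?_ ?_ ?_ ?_ (htop a)
  · intro v _; exact (h1 v).1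
  · intro v _; exact (h1 v).2
  · intro z; exact Subalgebra.algebraMap_mem _ z
  · intro x y hx hy; exact Subalgebra.add_mem _ hx hy
  · intro x y hx hy; exact Subalgebra.mul_mem _ hx hy

/-- an even operator after the near twirl lies in the algebra of the far modes -/
theorem E'_mem_far (htop : ∀ a : A, a ∈ R.alg Set.univ) {L : ℕ} {X : A} (hX : R.Ev X) :
    R.E' b L X ∈ R.alg {v | ∃ j : Fin n, L ≤ (j : ℕ) ∧ b j = v} := by
  have h3 : X ∈ R.alg ({v | ∃ j : Fin n, L ≤ (j : ℕ) ∧ b j = v} ∪ {v | v ∈ near b L}) := by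
    refine R.alg_mono ?_ (mem_alg_range R b htop X)
    rintro v ⟨j, rfl⟩
    rcases lt_or_ge (j : ℕ) L with h | h
    · exact Or.inr ((mem_near b).mpr ⟨j, h, rfl⟩)
    · exact Or.inl ⟨j, h, rfl⟩
  refine R.ex_mem (near b L) {v | ∃ j : Fin n, L ≤ (j : ℕ) ∧ b j = v} (near_norm b L)
    (near_orth b L) ?_ h3 hX
  rintro e he v ⟨i, hi, rfl⟩
  obtain ⟨j, hj, rfl⟩ := (mem_near b).mp he
  refine b.orthonormal.2 ?_
  rintro rfl
  omega

/-- **Near commutator bound for Klein-transformed odd operators.** `y` commutes with all modes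
`j ≥ L`, `X` is even; then `⁅X, y θ⁆` only sees the modes `j < L` of `X`. -/
theorem norm_lie_klein_le (htop : ∀ a : A, a ∈ R.alg Set.univ) {L : ℕ} {y : A}
    (hfar : ∀ j : Fin n, L ≤ (j : ℕ) → R.Cm (b j) y) {X : A} (hX : R.Ev X) :
    ‖⁅X, y * R.th⁆‖ ≤ 2 * ‖y‖ * ∑ j ∈ nearS n L, R.cs X (b j) := by
  have hth1 : ∀ v, R.th * R.an v = - (R.an v * R.th) := th_mul_an R
  have hth2 : ∀ v, R.th * R.cr v = - (R.cr v * R.th) := th_mul_cr R
  have hEX : R.Ev (R.E' b L X) := hX.ex _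
  have hcomm : Commute (R.E' b L X) (y * R.th) := by
    have h := graded_alg R (Z := y * R.th) (W := {v | ∃ j : Fin n, L ≤ (j : ℕ) ∧ b j = v})
      (by
        rintro v ⟨j, hj, rfl⟩
        rw [mul_assoc, hth1, mul_neg, ← mul_assoc, (hfar j hj).1.eq, mul_assoc])
      (by
        rintro v ⟨j, hj, rfl⟩
        rw [mul_assoc, hth2, mul_neg, ← mul_assoc, (hfar j hj).2.eq, mul_assoc])
      (E'_mem_far R b htop (L := L) hX)
    have hE : R.par (R.E' b L X) = R.E' b L X := hEX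
    rw [hE] at h
    exact h.symm
  have e : ⁅X, y * R.th⁆ = ⁅X - R.E' b L X, y * R.th⁆ := by
    have h0 : ⁅R.E' b L X, y * R.th⁆ = 0 := by
      rw [Ring.lie_def, hcomm.eq, sub_self]
    have : ⁅X - R.E' b L X, y * R.th⁆ = ⁅X, y * R.th⁆ - ⁅R.E' b L X, y * R.th⁆ := by
      simp only [Ring.lie_def, sub_mul, mul_sub]; abel
    rw [this, h0, sub_zero]
  rw [e]
  calc ‖⁅X - R.E' b L X, y * R.th⁆‖ ≤ 2 * ‖X - R.E' b L X‖ * ‖y * R.th‖ := norm_lie_le _ _
    _ ≤ 2 * (∑ j ∈ nearS n L, R.cs X (b j)) * ‖y‖ := by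
        rw [norm_mul_th]
        gcongr
        exact R.norm_sub_E'_le b L X
    _ = _ := by ring

end klein2

section frame

variable {A V : Type*} [CStarAlgebra A] [NormedAddCommGroup V] [InnerProductSpace ℂ V]
  (R : Car A V) {G : Type*} [MeasurableSpace G] (μ : Measure G) {n : ℕ}
  (b : G → OrthonormalBasis (Fin n) ℂ V)

/-- the far sums of commutators are controlled by the profile -/
def FarB (u : Fin 2 → G → V) (D : G → G → ℝ) (M : ℕ) (C : ℝ) : Prop :=
  ∀ (y : A) (w : G) (K : ℝ), 0 ≤ K → (∀ k z, ‖⁅y, gen R u k z⁆‖ ≤ K / (1 + D z w) ^ M) →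
    ∀ l : ℕ, ∑ j ∈ farS n (4 ^ l), R.cs y (b w j) ≤ C * K / 2 ^ ((M - 4) * l)

/-- the near sums of commutators are controlled by the profile -/
def NearB (u : Fin 2 → G → V) (D : G → G → ℝ) (m : ℕ) (C : ℝ) : Prop :=
  ∀ (X : A) (x : G) (K : ℝ), 0 ≤ K → (∀ k z, ‖⁅X, gen R u k z⁆‖ ≤ K / (1 + D z x) ^ m) →
    ∀ (w : G) (l : ℕ), ∑ j ∈ nearS n (4 ^ l), R.cs X (b w j) ≤
      C * K * 2 ^ ((m + 4) * l) / (1 + D w x) ^ m

/-- the constant of the evolution theorem in a frame -/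
noncomputable def cEvo (v μ0 C0 Cf Cn : ℝ) (m : ℕ) : ℝ :=
  2 * Cn * (1 + 2 ^ (m + 6) * (Cf * cPoly v μ0 C0 (m + 9)))

/-- **Evolution in the profile class, no loss of exponent** (frame version). -/
theorem tau_profile_frame (htop : ∀ a : A, a ∈ R.alg Set.univ) {H : A} (hH : IsSelfAdjoint H)
    (hth : Commute H R.th) {u : Fin 2 → G → V} (hu : ∀ k z, ‖u k z‖ ≤ 1) {κ : G → G → ℝ≥0∞}
    (hκ : ∀ (X : A) (k : Fin 2 × Bool) (w : G),
      ‖⁅X, ⁅H, gen R u k w⁆⁆‖ₑ ≤ ∫⁻ z, κ w z * prof (gen R u) X z ∂μ)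
    {D : G → G → ℝ} (hD0 : ∀ x y, 0 ≤ D x y) (hDtri : ∀ x y z, D x z ≤ D x y + D y z)
    (hDb : ∃ B, ∀ x y, D x y ≤ B)
    {μ0 v C0 : ℝ} (hμ : 0 < μ0) (hv : 0 ≤ v) (hC0 : 0 ≤ C0)
    (hS : ∀ w, ∫⁻ z, κ w z * ENNReal.ofReal (Real.exp (μ0 * D w z)) ∂μ ≤ ENNReal.ofReal v)
    (hov : ∀ k l w z, ‖(inner ℂ (u k w) (u l z) : ℂ)‖ ≤ C0 * Real.exp (-μ0 * D z w))
    {m : ℕ} {Cf Cn : ℝ} (hCf : 0 ≤ Cf) (hCn : 0 ≤ Cn) (hfar : FarB R b u D (m + 9) Cf)
    (hnear : NearB R b u D m Cn) {X : A} (hX : R.Ev X) {x : G} {K : ℝ} (hK : 0 ≤ K)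
    (hXp : ∀ k z, ‖⁅X, gen R u k z⁆‖ ≤ K / (1 + D z x) ^ m)
    (t : ℝ) (k : Fin 2 × Bool) (w : G) :
    ‖⁅tau H t X, gen R u k w⁆‖ ≤
      cEvo v μ0 C0 Cf Cn m * K * (1 + |t|) ^ (m + 9) / (1 + D w x) ^ m := by
  have hlr := lr_gen R μ hH hth hu hκ hDtri hDb hμ.le hv hC0 hS hov
  have hfixed : ∀ (w : G) (y : A), R.E (b w) (4 ^ n) y = y := by
    intro w y
    have hl : far (b w) (4 ^ n) = [] := by
      unfold far
      rw [List.map_eq_nil_iff, List.filter_eq_nil_iff]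
      intro j _
      have h1 : (j : ℕ) < n := j.2
      have h2 : n < 4 ^ n := Nat.lt_pow_self (by norm_num)
      simp only [decide_eq_true_eq, not_le]
      omega
    rw [Car.E, hl, Car.ex_nil]
  have key : ∀ (w : G) (l : ℕ) (y' : A),
      (∀ j : Fin n, 4 ^ l ≤ (j : ℕ) → R.Cm (b w j) y') →
      ‖⁅X, y' * R.th⁆‖ ≤ 2 * Cn * K * 2 ^ ((m + 4) * l) * ‖y'‖ / (1 + D w x) ^ m := by
    intro w l y' hy'
    refine (norm_lie_klein_le R (b w) htop hy' hX).trans ?_
    have h1 := hnear X x K hK hXp w l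
    calc 2 * ‖y'‖ * ∑ j ∈ nearS n (4 ^ l), R.cs X (b w j)
        ≤ 2 * ‖y'‖ * (Cn * K * 2 ^ ((m + 4) * l) / (1 + D w x) ^ m) := by gcongr
      _ = _ := by ring
  have h := tau_profile R hH hu hD0 hμ hv hC0 hlr (E := fun w l => R.E (b w) (4 ^ l)) (l0 := n)
    hfixed (Cf := fun _ => Cf) (Cn := fun _ => 2 * Cn) (fun _ => hCf) (fun _ => by positivity)
    (m := m) ?_ (X := X) (x := x) (K := K) hK ?_ ?_ t k w
  · refine h.trans (le_of_eq ?_)
    unfold cFilt cEvo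
    ring
  · intro y w K' hK' hy l
    refine (R.norm_sub_E_le (b w) (4 ^ l) y).trans ?_
    exact hfar y w K' hK' hy l
  · intro k t w l l' hll' _
    refine key w l' _ ?_
    intro j hj
    refine Car.Cm.sub (R.E_cm _ _ _ _ hj) (R.E_cm _ _ _ _ (le_trans ?_ hj))
    exact Nat.pow_le_pow_right (by norm_num) hll'
  · intro k t w
    have h1 := key w 0 (R.E (b w) (4 ^ 0) (tau H t (gen R u k w) * R.th))
      (fun j hj => R.E_cm _ _ _ _ hj)
    refine h1.trans ?_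
    have h2 : ‖R.E (b w) (4 ^ 0) (tau H t (gen R u k w) * R.th)‖ ≤ 1 := by
      refine (R.norm_E_le _ _ _).trans ?_
      rw [norm_mul_th, norm_tau hH]
      exact norm_gen_le R hu k w
    have hW : 0 < (1 + D w x) ^ m := by have := hD0 w x; positivity
    rw [mul_zero, pow_zero, mul_one]
    refine div_le_div_of_nonneg_right ?_ hW.le
    calc 2 * Cn * K * ‖R.E (b w) (4 ^ 0) (tau H t (gen R u k w) * R.th)‖ ≤ 2 * Cn * K * 1 := by
          gcongr
      _ = _ := by ring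

end frame

end Crest.Agent.R340.Filt867
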