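import Crest.Agent.R340.LR3_667
import Crest.Agent.R340.DC0_867

/-!
Evolution and filters in the profile class without loss of exponent (helper867).

Dual picture: `‖⁅τ_t X, g‖ = ‖⁅X, τ_{-t} g⁆‖`, the evolved generator `τ_{-t} g` multiplied by the
parity `θ` satisfies the Lieb-Robinson bound, hence is approximated by local operators about `w`
faster than any power; local operators about `w` almost commute with `X`.
-/

set_option autoImplicit false
set_option linter.unusedSectionVars false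

open scoped ENNReal NNReal
open MeasureTheory

namespace Crest.Agent.R340.Filt867

open Crest.Agent.R340.QL331 Crest.Agent.R340.LR667 Crest.Agent.R340.DC867

section scalar

/-- `x ^ M ≤ M! exp x`. -/
theorem pow_le_factorial_mul_exp (M : ℕ) {x : ℝ} (hx : 0 ≤ x) :
    x ^ M ≤ (M.factorial : ℝ) * Real.exp x := by
  have h := Real.pow_div_factorial_le_exp x hx M
  rw [div_le_iff₀ (by positivity)] at h
  linarith

/-- the constant of the polynomial light cone -/
noncomputable def cPoly (v μ0 C0 : ℝ) (M : ℕ) : ℝ :=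
  2 * (1 + 2 * v / μ0) ^ M + C0 * (Real.exp (μ0 / 2) * (M.factorial : ℝ) * (2 / μ0) ^ M)

theorem cPoly_nonneg {v μ0 C0 : ℝ} (hv : 0 ≤ v) (hμ : 0 < μ0) (hC : 0 ≤ C0) (M : ℕ) :
    0 ≤ cPoly v μ0 C0 M := by
  unfold cPoly; positivity

theorem min_le_poly {v μ0 C0 : ℝ} (hv : 0 ≤ v) (hμ : 0 < μ0) (hC : 0 ≤ C0) (M : ℕ) {t D b : ℝ}
    (ht : 0 ≤ t) (hD : 0 ≤ D) (h2 : b ≤ 2) (hb : b ≤ C0 * Real.exp (v * t) * Real.exp (-μ0 * D)) :
    b ≤ cPoly v μ0 C0 M * (1 + t) ^ M / (1 + D) ^ M := by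
  have hD1 : 0 < 1 + D := by linarith
  rw [le_div_iff₀ (by positivity)]
  have hc1 : 0 ≤ 2 * (1 + 2 * v / μ0) ^ M := by positivity
  have hc2 : 0 ≤ C0 * (Real.exp (μ0 / 2) * (M.factorial : ℝ) * (2 / μ0) ^ M) := by positivity
  rcases le_total b 0 with hb0 | hb0
  · have : b * (1 + D) ^ M ≤ 0 := mul_nonpos_of_nonpos_of_nonneg hb0 (by positivity)
    refine this.trans ?_
    have := cPoly_nonneg hv hμ hC M
    positivity
  rcases le_total (μ0 * D) (2 * v * t) with h | h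
  · have h1 : 1 + D ≤ (1 + 2 * v / μ0) * (1 + t) := by
      have : D ≤ 2 * v / μ0 * t := by
        rw [div_mul_eq_mul_div, le_div_iff₀ hμ]
        linarith
      have h3 : 0 ≤ 2 * v / μ0 := by positivity
      nlinarith
    calc b * (1 + D) ^ M ≤ 2 * ((1 + 2 * v / μ0) * (1 + t)) ^ M := by gcongr
      _ = 2 * (1 + 2 * v / μ0) ^ M * (1 + t) ^ M := by rw [mul_pow]; ring
      _ ≤ cPoly v μ0 C0 M * (1 + t) ^ M := by
        unfold cPoly
        gcongr
        linarith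
  · have h1 : b ≤ C0 * Real.exp (-(μ0 * D / 2)) := by
      refine hb.trans ?_
      rw [mul_assoc, ← Real.exp_add]
      gcongr
      linarith
    have h3 : (1 + D) ^ M * Real.exp (-(μ0 * D / 2)) ≤
        Real.exp (μ0 / 2) * (M.factorial : ℝ) * (2 / μ0) ^ M := by
      have h4 := pow_le_factorial_mul_exp M (x := μ0 / 2 * (1 + D)) (by positivity)
      have h5 : (1 + D) ^ M = (2 / μ0) ^ M * (μ0 / 2 * (1 + D)) ^ M := by
        rw [← mul_pow]
        congr 1
        field_simp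
      rw [h5]
      calc (2 / μ0) ^ M * (μ0 / 2 * (1 + D)) ^ M * Real.exp (-(μ0 * D / 2))
          ≤ (2 / μ0) ^ M * ((M.factorial : ℝ) * Real.exp (μ0 / 2 * (1 + D))) *
            Real.exp (-(μ0 * D / 2)) := by gcongr
        _ = (2 / μ0) ^ M * (M.factorial : ℝ) *
            (Real.exp (μ0 / 2 * (1 + D)) * Real.exp (-(μ0 * D / 2))) := by ring
        _ = _ := by
          rw [← Real.exp_add]
          have : μ0 / 2 * (1 + D) + -(μ0 * D / 2) = μ0 / 2 := by ring
          rw [this]; ring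
    calc b * (1 + D) ^ M ≤ C0 * Real.exp (-(μ0 * D / 2)) * (1 + D) ^ M := by gcongr
      _ = C0 * ((1 + D) ^ M * Real.exp (-(μ0 * D / 2))) := by ring
      _ ≤ C0 * (Real.exp (μ0 / 2) * (M.factorial : ℝ) * (2 / μ0) ^ M) := by gcongr
      _ ≤ cPoly v μ0 C0 M := by unfold cPoly; linarith
      _ = cPoly v μ0 C0 M * 1 := by ring
      _ ≤ cPoly v μ0 C0 M * (1 + t) ^ M := by
        gcongr
        · exact cPoly_nonneg hv hμ hC M
        · exact one_le_pow₀ (by linarith)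

end scalar

section klein

variable {A V : Type*} [CStarAlgebra A] [NormedAddCommGroup V] [InnerProductSpace ℂ V]
  (R : Car A V) {G : Type*}

/-- `θ` is unitary. -/
theorem th_mem_unitary : R.th ∈ unitary A := by
  rw [Unitary.mem_iff, R.th_star]
  exact ⟨R.th_sq, R.th_sq⟩

theorem norm_mul_th (y : A) : ‖y * R.th‖ = ‖y‖ :=
  CStarRing.norm_mul_mem_unitary y (th_mem_unitary R)

theorem th_cr (v : V) : R.th * R.cr v * R.th = - R.cr v := by
  have h := congrArg star (R.th_an v)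
  simp only [star_mul, star_neg, R.th_star] at h
  rw [← mul_assoc] at h
  exact h

theorem th_mul_an (v : V) : R.th * R.an v = - (R.an v * R.th) := by
  have h := R.th_an v
  calc R.th * R.an v = R.th * R.an v * (R.th * R.th) := by rw [R.th_sq, mul_one]
    _ = (R.th * R.an v * R.th) * R.th := by noncomm_ring
    _ = _ := by rw [h, neg_mul]

theorem th_mul_cr (v : V) : R.th * R.cr v = - (R.cr v * R.th) := by
  have h := th_cr R v
  calc R.th * R.cr v = R.th * R.cr v * (R.th * R.th) := by rw [R.th_sq, mul_one]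
    _ = (R.th * R.cr v * R.th) * R.th := by noncomm_ring
    _ = _ := by rw [h, neg_mul]

theorem th_mul_gen (u : Fin 2 → G → V) (k : Fin 2 × Bool) (z : G) :
    R.th * gen R u k z = - (gen R u k z * R.th) := by
  obtain ⟨k, b⟩ := k
  cases b
  · exact th_mul_an R _
  · exact th_mul_cr R _

/-- Klein trick: commutator of `y θ` with a generator is the anticommutator of `y`. -/
theorem lie_mul_th (u : Fin 2 → G → V) (y : A) (k : Fin 2 × Bool) (z : G) :
    ⁅y * R.th, gen R u k z⁆ = -((y * gen R u k z + gen R u k z * y) * R.th) := by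
  rw [Ring.lie_def, mul_assoc, th_mul_gen]
  noncomm_ring

theorem norm_lie_gen_th_le {u : Fin 2 → G → V} (k l : Fin 2 × Bool) (w z : G) :
    ‖⁅gen R u k w * R.th, gen R u l z⁆‖ ≤ ‖(inner ℂ (u k.1 w) (u l.1 z) : ℂ)‖ := by
  rw [lie_mul_th, norm_neg, norm_mul_th]
  obtain ⟨k, b⟩ := k
  obtain ⟨l, c⟩ := l
  have h1 : ‖(1 : A)‖ ≤ 1 := by
    rcases subsingleton_or_nontrivial A with hA | hA
    · rw [Subsingleton.elim (1 : A) 0, norm_zero]; exact zero_le_one
    · rw [CStarRing.norm_one]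
  cases b <;> cases c <;> simp only [gen_false, gen_true]
  · rw [R.an_an, norm_zero]; positivity
  · rw [show R.cr (u l z) = star (R.an (u l z)) from rfl, R.an_cr, norm_smul]
    exact mul_le_of_le_one_right (norm_nonneg _) h1
  · rw [R.cr_an, norm_smul, norm_inner_symm]
    exact mul_le_of_le_one_right (norm_nonneg _) h1
  · rw [R.cr_cr, norm_zero]; positivity

theorem tau_th {H : A} (hth : Commute H R.th) (t : ℝ) : tau H t R.th = R.th := by
  have h : Commute (U H t) R.th := by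
    let _ : NormedAlgebra ℚ A := NormedAlgebra.restrictScalars ℚ ℂ A
    have h1 : Commute (t • (Complex.I • H)) R.th := (hth.smul_left _).smul_left _
    exact h1.exp_left
  rw [tau, h.eq, mul_assoc, U_mul_neg, mul_one]

theorem tau_mul_th {H : A} (hth : Commute H R.th) (t : ℝ) (y : A) :
    tau H t (y * R.th) = tau H t y * R.th := by
  rw [tau_mul, tau_th R hth]

/-- Lieb-Robinson bound for the evolved generators (with the Klein factor). -/
theorem lr_gen [MeasurableSpace G] (μ : Measure G) {H : A} (hH : IsSelfAdjoint H)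
    (hth : Commute H R.th) {u : Fin 2 → G → V} (hu : ∀ k z, ‖u k z‖ ≤ 1) {κ : G → G → ℝ≥0∞}
    (hκ : ∀ (X : A) (k : Fin 2 × Bool) (w : G),
      ‖⁅X, ⁅H, gen R u k w⁆⁆‖ₑ ≤ ∫⁻ z, κ w z * prof (gen R u) X z ∂μ)
    {D : G → G → ℝ} (hDtri : ∀ x y z, D x z ≤ D x y + D y z) (hDb : ∃ B, ∀ x y, D x y ≤ B)
    {μ0 v C0 : ℝ} (hμ : 0 ≤ μ0) (hv : 0 ≤ v) (hC0 : 0 ≤ C0)
    (hS : ∀ w, ∫⁻ z, κ w z * ENNReal.ofReal (Real.exp (μ0 * D w z)) ∂μ ≤ ENNReal.ofReal v)
    (hov : ∀ k l w z, ‖(inner ℂ (u k w) (u l z) : ℂ)‖ ≤ C0 * Real.exp (-μ0 * D z w))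
    (t : ℝ) (k l : Fin 2 × Bool) (w z : G) :
    ‖⁅tau H t (gen R u k w) * R.th, gen R u l z⁆‖ ≤
      C0 * Real.exp (v * |t|) * Real.exp (-μ0 * D z w) := by
  obtain ⟨B, hB⟩ := hDb
  rw [← tau_mul_th R hth]
  refine lr μ hH zero_le_one (norm_gen_le R hu) hκ
    (ρ := fun z => Real.exp (-μ0 * D z w)) (δ := Real.exp (-μ0 * B)) (Real.exp_pos _) ?_ hv ?_ hC0
    ?_ t l z
  · intro z
    apply Real.exp_le_exp.2
    have := hB z w
    nlinarith
  · intro w'
    calc ∫⁻ z, κ w' z * ENNReal.ofReal (Real.exp (-μ0 * D z w)) ∂μ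
        ≤ ∫⁻ z, κ w' z * ENNReal.ofReal (Real.exp (μ0 * D w' z)) *
            ENNReal.ofReal (Real.exp (-μ0 * D w' w)) ∂μ := by
          refine lintegral_mono fun z => ?_
          show κ w' z * _ ≤ _
          rw [mul_assoc, ← ENNReal.ofReal_mul (Real.exp_nonneg _), ← Real.exp_add]
          gcongr
          have := hDtri w' z w
          nlinarith
      _ = (∫⁻ z, κ w' z * ENNReal.ofReal (Real.exp (μ0 * D w' z)) ∂μ) *
            ENNReal.ofReal (Real.exp (-μ0 * D w' w)) :=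
          lintegral_mul_const' _ _ ENNReal.ofReal_ne_top
      _ ≤ ENNReal.ofReal v * ENNReal.ofReal (Real.exp (-μ0 * D w' w)) := by
          gcongr
          exact hS w'
      _ = _ := by rw [← ENNReal.ofReal_mul hv]
  · intro l z
    exact (norm_lie_gen_th_le R k l w z).trans (hov _ _ _ _)

end klein

section filt

variable {A V : Type*} [CStarAlgebra A] [NormedAddCommGroup V] [InnerProductSpace ℂ V]
  (R : Car A V) {G : Type*}

/-- The constant of the evolution theorem. -/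
noncomputable def cFilt (v μ0 C0 : ℝ) (Cf Cn : ℕ → ℝ) (m : ℕ) : ℝ :=
  Cn m * (1 + 2 ^ (m + 6) * (Cf (m + 9) * cPoly v μ0 C0 (m + 9)))

/-- **Evolution in the profile class without loss of exponent** (abstract form).
`E w l` are truncations about `w` at scale `2 ^ l`. -/
theorem tau_profile {H : A} (hH : IsSelfAdjoint H) {u : Fin 2 → G → V}
    (hu : ∀ k z, ‖u k z‖ ≤ 1) {D : G → G → ℝ} (hD0 : ∀ x y, 0 ≤ D x y)
    {μ0 v C0 : ℝ} (hμ : 0 < μ0) (hv : 0 ≤ v) (hC0 : 0 ≤ C0)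
    (hlr : ∀ (t : ℝ) (k l : Fin 2 × Bool) (w z : G),
      ‖⁅tau H t (gen R u k w) * R.th, gen R u l z⁆‖ ≤
        C0 * Real.exp (v * |t|) * Real.exp (-μ0 * D z w))
    {E : G → ℕ → A → A} {l0 : ℕ} (hE0 : ∀ w y, E w l0 y = y)
    {Cf Cn : ℕ → ℝ} (hCf0 : ∀ M, 0 ≤ Cf M) (hCn0 : ∀ m, 0 ≤ Cn m) {m : ℕ}
    (hfar : ∀ (y : A) (w : G) (K : ℝ), 0 ≤ K →
      (∀ k z, ‖⁅y, gen R u k z⁆‖ ≤ K / (1 + D z w) ^ (m + 9)) →
        ∀ l, ‖y - E w l y‖ ≤ Cf (m + 9) * K / 2 ^ ((m + 5) * l))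
    {X : A} {x : G} {K : ℝ} (hK : 0 ≤ K)
    (hnear : ∀ (k : Fin 2 × Bool) (t : ℝ) (w : G) (l l' : ℕ), l ≤ l' → l' ≤ l + 1 →
      ‖⁅X, (E w l' (tau H t (gen R u k w) * R.th) - E w l (tau H t (gen R u k w) * R.th)) * R.th⁆‖ ≤
        Cn m * K * 2 ^ ((m + 4) * l') *
          ‖E w l' (tau H t (gen R u k w) * R.th) - E w l (tau H t (gen R u k w) * R.th)‖ /
          (1 + D w x) ^ m)
    (hnear0 : ∀ (k : Fin 2 × Bool) (t : ℝ) (w : G),
      ‖⁅X, E w 0 (tau H t (gen R u k w) * R.th) * R.th⁆‖ ≤ Cn m * K / (1 + D w x) ^ m)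
    (t : ℝ) (k : Fin 2 × Bool) (w : G) :
    ‖⁅tau H t X, gen R u k w⁆‖ ≤
      cFilt v μ0 C0 Cf Cn m * K * (1 + |t|) ^ (m + 9) / (1 + D w x) ^ m := by
  set y : A := tau H (-t) (gen R u k w) * R.th with hy
  have hyth : y * R.th = tau H (-t) (gen R u k w) := by
    rw [hy, mul_assoc, R.th_sq, mul_one]
  have hW : 0 < (1 + D w x) ^ m := by have := hD0 w x; positivity
  set Ky : ℝ := cPoly v μ0 C0 (m + 9) * (1 + |t|) ^ (m + 9) with hKy
  have hcP := cPoly_nonneg hv hμ hC0 (m + 9)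
  have hKy0 : 0 ≤ Ky := by positivity
  have hyn : ‖y‖ ≤ 1 := by
    rw [hy, norm_mul_th, norm_tau hH]
    exact norm_gen_le R hu k w
  have hprof : ∀ l z, ‖⁅y, gen R u l z⁆‖ ≤ Ky / (1 + D z w) ^ (m + 9) := by
    intro l z
    refine min_le_poly hv hμ hC0 (m + 9) (abs_nonneg t) (hD0 z w) ?_ ?_
    · refine (norm_lie_le _ _).trans ?_
      have h1 := norm_gen_le R hu l z
      nlinarith [norm_nonneg y, norm_nonneg (gen R u l z)]
    · have := hlr (-t) k l w z
      rwa [abs_neg] at this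
  have htail := hfar y w Ky hKy0 hprof
  -- telescoping
  have htel : y = E w 0 y + ∑ l ∈ Finset.range l0, (E w (l + 1) y - E w l y) := by
    rw [Finset.sum_range_sub (fun l => E w l y), hE0]
    abel
  have hdiff : ∀ l, ‖E w (l + 1) y - E w l y‖ ≤ 2 * (Cf (m + 9) * Ky / 2 ^ ((m + 5) * l)) := by
    intro l
    have e : E w (l + 1) y - E w l y = (y - E w l y) - (y - E w (l + 1) y) := by abel
    rw [e]
    have h1 := htail l
    have h2 := htail (l + 1)
    have h3 : Cf (m + 9) * Ky / 2 ^ ((m + 5) * (l + 1)) ≤ Cf (m + 9) * Ky / 2 ^ ((m + 5) * l) := by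
      have := hCf0 (m + 9)
      gcongr
      · norm_num
      · omega
    calc ‖(y - E w l y) - (y - E w (l + 1) y)‖ ≤ ‖y - E w l y‖ + ‖y - E w (l + 1) y‖ :=
          norm_sub_le _ _
      _ ≤ _ := by linarith
  have hterm : ∀ l, ‖⁅X, (E w (l + 1) y - E w l y) * R.th⁆‖ ≤
      Cn m * K / (1 + D w x) ^ m * (2 ^ (m + 5) * (Cf (m + 9) * Ky)) * (1 / 2) ^ l := by
    intro l
    refine (hnear k (-t) w l (l + 1) (Nat.le_succ _) le_rfl).trans ?_
    rw [← hy]
    have h1 := hdiff l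
    have h2 : (2 : ℝ) ^ ((m + 4) * (l + 1)) * (2 * (Cf (m + 9) * Ky / 2 ^ ((m + 5) * l))) =
        2 ^ (m + 5) * (Cf (m + 9) * Ky) * (1 / 2) ^ l := by
      have e1 : (2 : ℝ) ^ ((m + 5) * l) = 2 ^ ((m + 4) * l) * 2 ^ l := by
        rw [← pow_add]; congr 1; ring
      have e2 : (2 : ℝ) ^ ((m + 4) * (l + 1)) = 2 ^ ((m + 4) * l) * 2 ^ (m + 4) := by
        rw [← pow_add]; congr 1
      have e3 : (2 : ℝ) ^ (m + 5) = 2 * 2 ^ (m + 4) := by rw [← pow_succ']
      rw [e1, e2, e3, one_div, inv_pow]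
      have : (2 : ℝ) ^ ((m + 4) * l) ≠ 0 := by positivity
      have : (2 : ℝ) ^ l ≠ 0 := by positivity
      field_simp
    calc Cn m * K * 2 ^ ((m + 4) * (l + 1)) * ‖E w (l + 1) y - E w l y‖ / (1 + D w x) ^ m
        = Cn m * K / (1 + D w x) ^ m *
          (2 ^ ((m + 4) * (l + 1)) * ‖E w (l + 1) y - E w l y‖) := by ring
      _ ≤ Cn m * K / (1 + D w x) ^ m *
          (2 ^ ((m + 4) * (l + 1)) * (2 * (Cf (m + 9) * Ky / 2 ^ ((m + 5) * l)))) := by
          have := hCn0 m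
          gcongr
      _ = _ := by rw [h2]; ring
  have hsum : ‖⁅X, y * R.th⁆‖ ≤ Cn m * K / (1 + D w x) ^ m * (1 + 2 ^ (m + 6) * (Cf (m + 9) * Ky)) := by
    have e : ⁅X, y * R.th⁆ = ⁅X, E w 0 y * R.th⁆ +
        ∑ l ∈ Finset.range l0, ⁅X, (E w (l + 1) y - E w l y) * R.th⁆ := by
      conv_lhs => rw [htel]
      rw [add_mul, lie_add', Finset.sum_mul]
      congr 1
      have h := map_sum (adR X) (fun l => (E w (l + 1) y - E w l y) * R.th) (Finset.range l0)
      simpa only [adR_apply] using h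
    rw [e]
    have h0 := hnear0 k (-t) w
    rw [← hy] at h0
    have hC := hCn0 m
    have hCf := hCf0 (m + 9)
    calc ‖⁅X, E w 0 y * R.th⁆ + ∑ l ∈ Finset.range l0, ⁅X, (E w (l + 1) y - E w l y) * R.th⁆‖
        ≤ ‖⁅X, E w 0 y * R.th⁆‖ + ∑ l ∈ Finset.range l0, ‖⁅X, (E w (l + 1) y - E w l y) * R.th⁆‖ :=
          (norm_add_le _ _).trans (by gcongr; exact norm_sum_le _ _)
      _ ≤ Cn m * K / (1 + D w x) ^ m + ∑ l ∈ Finset.range l0,
          Cn m * K / (1 + D w x) ^ m * (2 ^ (m + 5) * (Cf (m + 9) * Ky)) * (1 / 2) ^ l :=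
          add_le_add h0 (Finset.sum_le_sum fun l _ => hterm l)
      _ = Cn m * K / (1 + D w x) ^ m + Cn m * K / (1 + D w x) ^ m *
          (2 ^ (m + 5) * (Cf (m + 9) * Ky)) * ∑ l ∈ Finset.range l0, (1 / 2 : ℝ) ^ l := by
          rw [Finset.mul_sum]
      _ ≤ Cn m * K / (1 + D w x) ^ m + Cn m * K / (1 + D w x) ^ m *
          (2 ^ (m + 5) * (Cf (m + 9) * Ky)) * 2 := by
          gcongr
          have h := summable_geometric_two.sum_le_tsum (Finset.range l0)
            (fun i _ => by positivity)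
          rwa [tsum_geometric_two] at h
      _ = _ := by ring
  have h1 : ‖⁅tau H t X, gen R u k w⁆‖ = ‖⁅X, y * R.th⁆‖ := by
    rw [norm_lie_tau hH, hyth]
  rw [h1]
  refine hsum.trans ?_
  rw [cFilt, hKy]
  have ht1 : 1 ≤ (1 + |t|) ^ (m + 9) := one_le_pow₀ (by linarith [abs_nonneg t])
  have hC := hCn0 m
  have hCf := hCf0 (m + 9)
  calc Cn m * K / (1 + D w x) ^ m *
        (1 + 2 ^ (m + 6) * (Cf (m + 9) * (cPoly v μ0 C0 (m + 9) * (1 + |t|) ^ (m + 9))))
      ≤ Cn m * K / (1 + D w x) ^ m *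
        ((1 + |t|) ^ (m + 9) +
          2 ^ (m + 6) * (Cf (m + 9) * (cPoly v μ0 C0 (m + 9) * (1 + |t|) ^ (m + 9)))) := by
        gcongr
    _ = _ := by ring

end filt

end Crest.Agent.R340.Filt867
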