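import Crest.Agent.R340.Lin2_120

/-!
# S0533, linear part of the certificate (helper120): numerical verification
-/

set_option autoImplicit false
open scoped BigOperators
open Finset

namespace Crest.Agent.R340.Lin120

open Crest.Agent.R340.Kn249 Crest.Agent.R340.Pl249 Crest.Agent.R340.Cert132

/-- the certificate of `Cert_132` as normal-ordered certificate data -/
def cert8 : CertN := ofLists 8 G8 B8 A8 2048

/-- channel coefficient of a list, times the denominator -/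
def YL (a b : ℕ) (B : List (ℕ × ℕ × ℕ × ℕ × ℤ)) (m : ℕ) : ℚ :=
  (B.map fun x => (x.2.2.2.2 : ℚ) * cf a b m x.1 x.2.1 x.2.2.1 x.2.2.2.1).sum

theorem sum_YL (a b : ℕ) (B : List (ℕ × ℕ × ℕ × ℕ × ℤ)) (N : ℕ)
    (hB : ∀ x ∈ B, x.1 + x.2.1 = x.2.2.1 + x.2.2.2.1 ∧ x.1 + x.2.1 < N) (g : ℕ → ℝ) :
    (B.map fun x => (x.2.2.2.2 : ℝ) * rhs (a : ℝ) (b : ℝ) g x.1 x.2.1 x.2.2.1 x.2.2.2.1).sum =
      ∑ m ∈ range N, g m * (YL a b B m : ℝ) := by
  induction B with
  | nil => simp [YL]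
  | cons x B ih =>
    obtain ⟨h1, h2⟩ := hB x List.mem_cons_self
    rw [List.map_cons, List.sum_cons, ih fun y hy => hB y (List.mem_cons_of_mem _ hy),
      rhs_cf a b g _ _ _ _ N h1 h2, Finset.mul_sum, ← Finset.sum_add_distrib]
    refine Finset.sum_congr rfl fun m _ => ?_
    simp only [YL, List.map_cons, List.sum_cons]
    push_cast
    ring

/-- sum by structural recursion -/
def sumTo (f : ℕ → ℤ) : ℕ → ℤ
  | 0 => 0
  | n + 1 => sumTo f n + f n

theorem sumTo_eq (f : ℕ → ℤ) (n : ℕ) : sumTo f n = ∑ i ∈ range n, f i := by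
  induction n with
  | zero => rfl
  | succ n ih => rw [sumTo, ih, Finset.sum_range_succ]

/-- integer form of `Dc`, denominator `2^m 3^P1` -/
def DI (P1 m : ℕ) : ℤ :=
  (-1) ^ m * sumTo (fun p => ((p : ℤ) + 1 - 3 * m) * ((p + 1).descFactorial m * 3 ^ (P1 - (p + 1 - m)) : ℕ)
    - ((p : ℤ) - 1) * (p.descFactorial m * 3 ^ (P1 - (p - m)) : ℕ)) P1

theorem Dc_eq (P1 m : ℕ) : Dc P1 m = (DI P1 m : ℝ) / (2 ^ m * 3 ^ P1) := by
  have hb : ∀ n, n ≤ P1 → bb n m = ((n.descFactorial m * 3 ^ (P1 - (n - m)) : ℕ) : ℝ) / 3 ^ P1 := by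
    intro n hn
    unfold bb
    have h3 : (3 : ℝ) ^ P1 = 3 ^ (P1 - (n - m)) * 3 ^ (n - m) := by
      rw [← pow_add]; congr 1; omega
    rw [h3]
    push_cast
    have : (3 : ℝ) ^ (P1 - (n - m)) ≠ 0 := by positivity
    field_simp
  unfold Dc DI
  rw [sumTo_eq]
  have hs : ∑ p ∈ range P1, (((p : ℝ) + 1 - 3 * m) * bb (p + 1) m - ((p : ℝ) - 1) * bb p m) =
      ∑ p ∈ range P1, ((((p : ℤ) + 1 - 3 * m) * ((p + 1).descFactorial m * 3 ^ (P1 - (p + 1 - m)) : ℕ)
        - ((p : ℤ) - 1) * (p.descFactorial m * 3 ^ (P1 - (p - m)) : ℕ) : ℤ) : ℝ) / 3 ^ P1 := by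
    refine Finset.sum_congr rfl fun p hp => ?_
    have hp' : p < P1 := by simpa using hp
    rw [hb (p + 1) (by omega), hb p (by omega)]
    push_cast
    ring
  rw [hs, ← Finset.sum_div]
  push_cast
  field_simp

/-- integer form of `Tc`, denominator `2^pw` -/
def TI (pw r : ℕ) : ℤ := (-1) ^ r * sumTo (fun p => (p.descFactorial r * 2 ^ (pw - p) : ℕ)) pw

theorem Tc_eq (pw r : ℕ) : Tc pw r = (TI pw r : ℝ) / 2 ^ pw := by
  unfold Tc TI
  rw [sumTo_eq]
  push_cast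
  rw [mul_div_assoc, Finset.sum_div]
  congr 1
  refine Finset.sum_congr rfl fun p hp => ?_
  have hp' : p < pw := by simpa using hp
  have h3 : (2 : ℝ) ^ pw = 2 ^ (pw - p) * 2 ^ p := by rw [← pow_add]; congr 1; omega
  rw [h3]
  have : (2 : ℝ) ^ (pw - p) ≠ 0 := by positivity
  field_simp

/-- net coefficient of channel `m` -/
def NQ (m : ℕ) : ℚ := (DI 50 m : ℚ) / (2 ^ m * 3 ^ 50 : ℕ) + YL 2 1 B8 m / 2048

/-- Pauli bound of channel `m` -/
def UQ (m : ℕ) : ℚ := (2 ^ (m / 3) : ℕ) /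
  (((m / 3).factorial * (m - m / 3).factorial * (m.choose (m / 3)) ^ 2 : ℕ) : ℚ)

/-- channels without constraint -/
def free (m : ℕ) : Bool := m == 0 || m == 1 || m == 3

def vQ (m : ℕ) : ℚ := if free m then 0 else (if NQ m ≤ 0 then 0 else NQ m * UQ m)

def sumQ (f : ℕ → ℚ) : ℕ → ℚ
  | 0 => 0
  | n + 1 => sumQ f n + f n

theorem sumQ_eq (f : ℕ → ℚ) (n : ℕ) : sumQ f n = ∑ i ∈ range n, f i := by
  induction n with
  | zero => rfl
  | succ n ih => rw [sumQ, ih, Finset.sum_range_succ]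

/-- the constant term -/
def x2 : ℚ := (G8.map fun x => (x.2 : ℚ) * ((2 ^ x.1 : ℕ) / (x.1.factorial : ℚ))).sum / 2048

set_option maxRecDepth 100000 in
theorem num1 : sumQ vQ 51 ≤ 1 - x2 - 489 / 10000 := by decide +kernel

/-- the four-body channels: all constraints -/
def chk2 : ℕ → Bool
  | 0 => true
  | r + 1 => chk2 r && (r % 2 == 1 || r == 0 || r == 2 ||
      decide (YL 1 2 A8 r / 2048 ≤ (TI 50 r : ℚ) / (2 ^ 50 : ℕ)))

theorem chk2_spec (n r : ℕ) (h : chk2 n = true) (hr : r < n) (h1 : ¬ Odd r) (h0 : r ≠ 0)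
    (h2 : r ≠ 2) : YL 1 2 A8 r / 2048 ≤ (TI 50 r : ℚ) / (2 ^ 50 : ℕ) := by
  induction n with
  | zero => omega
  | succ n ih =>
    rw [chk2, Bool.and_eq_true] at h
    rcases Nat.lt_succ_iff_lt_or_eq.mp hr with hlt | rfl
    · exact ih h.1 hlt
    · have h3 := h.2
      simp only [Bool.or_eq_true, beq_iff_eq, decide_eq_true_eq] at h3
      rcases h3 with ((h3 | h3) | h3) | h3
      · exact absurd (Nat.odd_iff.mpr h3) h1
      · exact absurd h3 h0
      · exact absurd h3 h2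
      · exact h3

set_option maxRecDepth 100000 in
theorem num2 : chk2 50 = true := by decide +kernel

/-- the index conditions of the tables -/
def okL (N : ℕ) (B : List (ℕ × ℕ × ℕ × ℕ × ℤ)) : Bool :=
  B.all fun x => x.1 + x.2.1 == x.2.2.1 + x.2.2.2.1 && decide (x.1 + x.2.1 < N)

theorem okL_spec {N : ℕ} {B : List (ℕ × ℕ × ℕ × ℕ × ℤ)} (h : okL N B = true) :
    ∀ x ∈ B, x.1 + x.2.1 = x.2.2.1 + x.2.2.2.1 ∧ x.1 + x.2.1 < N := by
  intro x hx
  have := List.all_eq_true.mp h x hx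
  simpa using this

set_option maxRecDepth 100000 in
theorem okB : okL 51 B8 = true := by decide +kernel

set_option maxRecDepth 100000 in
theorem okA : okL 50 A8 = true := by decide +kernel

theorem LamN_cert8 (g f : ℕ → ℝ) :
    LamN cert8 (rhs 2 1 g) (rhs 1 2 f) = (x2 : ℝ) +
      ∑ m ∈ range 51, g m * ((YL 2 1 B8 m / 2048 : ℚ) : ℝ) +
      ∑ r ∈ range 50, f r * ((YL 1 2 A8 r / 2048 : ℚ) : ℝ) := by
  have hB := sum_YL 2 1 B8 51 (okL_spec okB) g
  have hA := sum_YL 1 2 A8 50 (okL_spec okA) f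
  norm_num only [Nat.cast_ofNat, Nat.cast_one] at hB hA
  rw [cert8, LamN_ofLists adm, hB, hA, add_div, add_div]
  congr 1
  · congr 1
    · unfold x2
      push_cast
      rw [List.map_map]
      congr 3
      funext x
      simp only [Function.comp]
      push_cast
      rfl
    · rw [Finset.sum_div]
      refine Finset.sum_congr rfl fun m _ => ?_
      push_cast
      ring
  · rw [Finset.sum_div]
    refine Finset.sum_congr rfl fun m _ => ?_
    push_cast
    ring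

theorem vQ_bound {g : ℕ → ℝ} (h0 : ∀ m, 0 ≤ g m)
    (hP : ∀ m q : ℕ, q ≤ m → g m * (m.choose q : ℝ) ^ 2 ≤
      2 ^ q / ((q.factorial : ℝ) * ((m - q).factorial : ℝ)))
    (z0 : g 0 = 0) (z1 : g 1 = 0) (z3 : g 3 = 0) (m : ℕ) : g m * (NQ m : ℝ) ≤ (vQ m : ℝ) := by
  unfold vQ
  split_ifs with h1 h2
  · simp only [free, Bool.or_eq_true, beq_iff_eq] at h1
    have : g m = 0 := by rcases h1 with (h1 | h1) | h1 <;> rw [h1] <;> assumption
    rw [this]; simp
  · have h3 : (NQ m : ℝ) ≤ 0 := by exact_mod_cast h2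
    have := mul_nonneg_of_nonpos_of_nonpos (neg_nonpos.mpr (h0 m)) h3
    simp only [Rat.cast_zero]
    linarith
  · have h3 : (0 : ℝ) < (NQ m : ℝ) := by exact_mod_cast not_le.mp h2
    have hq : m / 3 ≤ m := Nat.div_le_self m 3
    have hc : (0 : ℝ) < (m.choose (m / 3) : ℝ) := by exact_mod_cast Nat.choose_pos hq
    have hU : g m ≤ (UQ m : ℝ) := by
      have h4 := hP m (m / 3) hq
      unfold UQ
      push_cast
      rw [← div_div, le_div_iff₀ (by positivity)]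
      exact h4
    rw [Rat.cast_mul, mul_comm]
    exact mul_le_mul_of_nonneg_left hU h3.le

/-- **the linear inequality of the certificate** -/
theorem lin8 : LinCertN cert8 50 50 (489 / 10000) := by
  intro g f h0 hP z0 z1 z3 hf hodd f0 f2 hL
  rw [LamN_cert8] at hL
  rw [DD_eq, TT_eq]
  have hD : ∑ m ∈ range (50 + 1), g m * Dc 50 m + ∑ m ∈ range 51, g m * ((YL 2 1 B8 m / 2048 : ℚ) : ℝ) ≤
      ((1 - x2 - 489 / 10000 : ℚ) : ℝ) := by
    rw [← Finset.sum_add_distrib]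
    calc ∑ m ∈ range (50 + 1), (g m * Dc 50 m + g m * ((YL 2 1 B8 m / 2048 : ℚ) : ℝ))
        ≤ ∑ m ∈ range 51, (vQ m : ℝ) := by
          refine Finset.sum_le_sum fun m _ => ?_
          have h := vQ_bound h0 hP z0 z1 z3 m
          have e : g m * Dc 50 m + g m * ((YL 2 1 B8 m / 2048 : ℚ) : ℝ) = g m * (NQ m : ℝ) := by
            rw [Dc_eq, NQ]
            push_cast
            ring
          rw [e]; exact h
      _ = ((sumQ vQ 51 : ℚ) : ℝ) := by rw [sumQ_eq]; push_cast; rfl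
      _ ≤ _ := by exact_mod_cast num1
  have hT : ∑ r ∈ range 50, f r * ((YL 1 2 A8 r / 2048 : ℚ) : ℝ) ≤ ∑ r ∈ range 50, f r * Tc 50 r := by
    refine Finset.sum_le_sum fun r hr => ?_
    by_cases h1 : Odd r
    · rw [hodd r h1]; simp
    by_cases h2 : r = 0
    · rw [h2, f0]; simp
    by_cases h3 : r = 2
    · rw [h3, f2]; simp
    refine mul_le_mul_of_nonneg_left ?_ (hf r)
    have h4 := chk2_spec 50 r num2 (by simpa using hr) h1 h2 h3
    rw [Tc_eq]
    have h5 : (((YL 1 2 A8 r / 2048 : ℚ)) : ℝ) ≤ (((TI 50 r : ℚ) / (2 ^ 50 : ℕ) : ℚ) : ℝ) := by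
      exact_mod_cast h4
    refine h5.trans (le_of_eq ?_)
    push_cast
    ring
  have e1 : ((1 - x2 - 489 / 10000 : ℚ) : ℝ) = 1 - (x2 : ℝ) - 489 / 10000 := by push_cast; rfl
  rw [e1] at hD
  have e2 : range (50 + 1) = range 51 := rfl
  rw [e2] at hD ⊢
  linarith

end Crest.Agent.R340.Lin120
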