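import Crest.Agent.R340.Fin_249
import Crest.Agent.R340.Fac_978
import Crest.Agent.R340.Lin3_120

/-!
# S0533: final assembly (helper249). The only remaining input is `LocPosN cert8` (132 / 665).
-/

set_option autoImplicit false
open scoped BigOperators Topology
open Finset Filter

namespace Crest.Agent.R340.Kn249

open Crest.Agent.R340.Fock649 Crest.MathPhysics.Laughlin

theorem facts8 : Facts bT := facts fun Q hQ => Fac978.comm0 Q hQ

/-- NEAR inequality of the certificate `cert8` for invariant functionals. -/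
theorem near8 (hLoc : LocPosN Lin120.cert8) (γ : ℝ) (hγ : γ < 4885 / 10 ^ 5) :
    ∃ Q0 : ℕ, ∀ Q : ℕ, Q0 ≤ Q → ∀ t : Inv Q, γ * t.a ≤ t.N 50 := by
  refine near facts8 Lin120.cert8 hLoc 50 50 (489 / 10000) (5 / 10 ^ 5) γ Lin120.lin8
    (fun n => ?_) (hγ.trans_le (by norm_num))
  refine (bT_sum 50 n).trans ?_
  norm_num

theorem s0533_of_loc (hLoc : LocPosN Lin120.cert8) :
    ∀ γ : ℝ, 0 < γ → γ < 4616733319001 / 10 ^ 14 →
      ∃ Q₀ : ℕ, ∀ Q : ℕ, Q₀ ≤ Q → ∀ N : ℕ,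
        ∀ ψ : (Fin N → Fin (Q + 1)) → ℂ, IsAntisymmetric ψ →
          γ * (star ψ ⬝ᵥ (interaction Q N).mulVec ψ).re ≤
            (star ψ ⬝ᵥ (interaction Q N).mulVec ((interaction Q N).mulVec ψ)).re :=
  s0533_of_cert50 (fun Q hQ => Fac978.comm0 Q hQ) Lin120.cert8 hLoc Lin120.lin8

end Crest.Agent.R340.Kn249
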