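import Crest.Agent.R340.KnI_249

/-!
# S0533: interface, normal-ordered certificates (helper132's form)

`X = - ∑ Gc q w_q^* w_q + ∑ Bc q j q' k (d_j w_q)^* (d_k w_q') + ∑ Ac q s q' s' (w_s w_q)^* (w_s' w_q')`,
`d_j = ν_j c_j`, `w_q = ∑_{i<j, i+j=q+1} (j-i) d_j d_i = θ_q W_q`.
-/

set_option autoImplicit false
open scoped BigOperators
open Finset

namespace Crest.Agent.R340.Kn249

open Crest.Agent.R340.Fock649 Crest.MathPhysics.Laughlin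

/-- `ν_j = √(C(Q,j)/Q^j) → 1/√(j!)` -/
noncomputable def nuQ (Q j : ℕ) : ℝ := Real.sqrt ((Nat.choose Q j : ℝ) / (Q : ℝ) ^ j)

/-- `θ_q = √(pairNorm Q (q+1)/Q^(q+1)) → √(2^q/q!)` -/
noncomputable def thQ (Q q : ℕ) : ℝ := Real.sqrt (pairNorm Q (q + 1) / (Q : ℝ) ^ (q + 1))

/-- normal-ordered certificate: pair indices `< P`, orbital indices `≤ P` -/
structure CertN where
  P : ℕ
  Gc : ℕ → ℚ
  Bc : ℕ → ℕ → ℕ → ℕ → ℚ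
  Ac : ℕ → ℕ → ℕ → ℕ → ℚ

/-- the local operator at flux `Q` -/
noncomputable def XN (C : CertN) (Q : ℕ) : Op (Fin (Q + 1)) :=
  (∑ q ∈ range C.P, ∑ j ∈ range (C.P + 1), ∑ q' ∈ range C.P, ∑ k ∈ range (C.P + 1),
    (((C.Bc q j q' k : ℝ) * (thQ Q q * nuQ Q j * (thQ Q q' * nuQ Q k)) : ℝ) : ℂ) •
      (star (cN Q j * WN Q q) * (cN Q k * WN Q q'))) +
  (∑ q ∈ range C.P, ∑ s ∈ range C.P, ∑ q' ∈ range C.P, ∑ s' ∈ range C.P,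
    (((C.Ac q s q' s' : ℝ) * (thQ Q q * thQ Q s * (thQ Q q' * thQ Q s')) : ℝ) : ℂ) •
      (star (WN Q s * WN Q q) * (WN Q s' * WN Q q'))) -
  ∑ q ∈ range C.P, (((C.Gc q : ℝ) * thQ Q q ^ 2 : ℝ) : ℂ) • (star (WN Q q) * WN Q q)

/-- local positivity of the certificate at large flux -/
def LocPosN (C : CertN) : Prop :=
  ∀ ε : ℝ, 0 < ε → ∃ Q0 : ℕ, ∀ Q : ℕ, Q0 ≤ Q → ∀ v : Fk (Fin (Q + 1)),
    -ε * ∑ q ∈ range C.P, ‖WN Q q v‖ ^ 2 ≤ (inner ℂ v (XN C Q v) : ℂ).re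

/-- expectation of the certificate in (rescaled) planar correlators -/
noncomputable def LamN (C : CertN) (G F : ℕ → ℕ → ℕ → ℕ → ℝ) : ℝ :=
  (∑ q ∈ range C.P, ∑ j ∈ range (C.P + 1), ∑ q' ∈ range C.P, ∑ k ∈ range (C.P + 1),
    (C.Bc q j q' k : ℝ) * G q j q' k) +
  (∑ q ∈ range C.P, ∑ s ∈ range C.P, ∑ q' ∈ range C.P, ∑ s' ∈ range C.P,
    (C.Ac q s q' s' : ℝ) * F q s q' s') -
  ∑ q ∈ range C.P, (C.Gc q : ℝ) * (2 ^ q / (q.factorial : ℝ))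

/-- the finite linear inequality of the certificate -/
def LinCertN (C : CertN) (P1 pw : ℕ) (γ : ℝ) : Prop :=
  ∀ gam phi : ℕ → ℝ, (∀ m, 0 ≤ gam m) →
    (∀ m q : ℕ, q ≤ m → gam m * (m.choose q : ℝ) ^ 2 ≤
      2 ^ q / ((q.factorial : ℝ) * ((m - q).factorial : ℝ))) →
    gam 0 = 0 → gam 1 = 0 → gam 3 = 0 → (∀ r, 0 ≤ phi r) → (∀ r, Odd r → phi r = 0) →
    phi 0 = 0 → phi 2 = 0 → 0 ≤ LamN C (Pl249.rhs 2 1 gam) (Pl249.rhs 1 2 phi) →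
    γ ≤ 1 - DD P1 (Pl249.rhs 2 1 gam) + TT pw (Pl249.rhs 1 2 phi)

end Crest.Agent.R340.Kn249
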