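import Crest.Agent.R340.Pl5_249

/-!
# Finite-flux ladder identities (helper978): `ladQ : ∀ Q, LadQ Q`
-/

set_option autoImplicit false
open scoped BigOperators ComplexConjugate
open Finset

namespace Crest.Agent.R340.Lad978

open Crest.Agent.R340.Fock649 Crest.MathPhysics.Laughlin Crest.Agent.R340.Kn249

/-! ### scalar facts -/

theorem choose_step (Q i : ℕ) :
    ((Q.choose (i + 1) : ℕ) : ℝ) * ((i : ℝ) + 1) = (Q.choose i : ℝ) * ((Q - i : ℕ) : ℝ) := by
  have := Nat.choose_succ_right_eq Q i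
  exact_mod_cast this

/-- `λ_i √C(Q,i) = (i+1) √C(Q,i+1)` -/
theorem lam_up (Q i : ℕ) :
    lam Q i * Real.sqrt (Q.choose i : ℝ) = ((i : ℝ) + 1) * Real.sqrt (Q.choose (i + 1) : ℝ) := by
  unfold lam
  rw [← Real.sqrt_mul (by positivity)]
  have h : ((i : ℝ) + 1) * ((Q - i : ℕ) : ℝ) * (Q.choose i : ℝ) =
      ((i : ℝ) + 1) ^ 2 * (Q.choose (i + 1) : ℝ) := by
    have := choose_step Q i
    linear_combination (-((i : ℝ) + 1)) * this
  rw [h, Real.sqrt_mul (by positivity), Real.sqrt_sq (by positivity)]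

/-- `λ_i √C(Q,i+1) = (Q-i) √C(Q,i)` -/
theorem lam_down (Q i : ℕ) :
    lam Q i * Real.sqrt (Q.choose (i + 1) : ℝ) =
      ((Q - i : ℕ) : ℝ) * Real.sqrt (Q.choose i : ℝ) := by
  unfold lam
  rw [← Real.sqrt_mul (by positivity)]
  have h : ((i : ℝ) + 1) * ((Q - i : ℕ) : ℝ) * (Q.choose (i + 1) : ℝ) =
      ((Q - i : ℕ) : ℝ) ^ 2 * (Q.choose i : ℝ) := by
    have := choose_step Q i
    linear_combination ((Q - i : ℕ) : ℝ) * this
  rw [h, Real.sqrt_mul (by positivity), Real.sqrt_sq (by positivity)]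

theorem pairNorm_step (Q q : ℕ) :
    ((q : ℝ) + 1) * pairNorm Q (q + 1 + 1) = ((2 * Q - 2 - q : ℕ) : ℝ) * pairNorm Q (q + 1) := by
  unfold pairNorm
  have h := choose_step (2 * Q) (q + 1)
  rcases le_or_gt (q + 2) (2 * Q) with hq | hq
  · have e1 : ((2 * Q - (q + 1) : ℕ) : ℝ) = 2 * Q - q - 1 := by
      rw [Nat.cast_sub (by omega)]; push_cast; ring
    have e2 : ((2 * Q - 2 - q : ℕ) : ℝ) = 2 * Q - q - 2 := by
      rw [Nat.cast_sub (by omega), Nat.cast_sub (by omega)]; push_cast; ring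
    rw [e1] at h
    rw [e2]
    push_cast at h ⊢
    have h2 : (2 * Q).choose (q + 1 + 1) * ((q : ℝ) + 1 + 1) =
      (2 * Q).choose (q + 1) * (2 * Q - q - 1) := h
    rw [mul_div_assoc', mul_div_assoc']
    congr 1
    linear_combination ((q : ℝ) + 1) * (2 * Q - q - 2) * h2
  · have e0 : (2 * Q).choose (q + 1 + 1) = 0 := Nat.choose_eq_zero_of_lt (by omega)
    have e2 : 2 * Q - 2 - q = 0 := by omega
    rw [e0, e2]
    simp

theorem pairNorm_nonneg (Q l : ℕ) : 0 ≤ pairNorm Q l := by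
  unfold pairNorm
  rcases Nat.eq_zero_or_pos Q with hQ | hQ
  · subst hQ
    rcases Nat.eq_zero_or_pos l with hl | hl
    · subst hl; simp
    · rw [Nat.choose_eq_zero_of_lt (by omega)]; simp
  · rcases le_or_gt l (2 * Q) with hl | hl
    · have h1 : (0 : ℝ) ≤ 2 * Q - l := by
        have : (l : ℝ) ≤ ((2 * Q : ℕ) : ℝ) := by exact_mod_cast hl
        push_cast at this; linarith
      have h2 : (0 : ℝ) ≤ 2 * Q - 1 := by
        have : (1 : ℝ) ≤ Q := by exact_mod_cast hQ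
        linarith
      positivity
    · rw [Nat.choose_eq_zero_of_lt hl]; simp

/-- `(q+1)/√(2n_{q+1}) = μ_q/√(2n_{q+2})` when both are nonzero, in multiplied form -/
theorem mu_sqrt (Q q : ℕ) :
    mu Q q * Real.sqrt (2 * pairNorm Q (q + 1)) =
      ((q : ℝ) + 1) * Real.sqrt (2 * pairNorm Q (q + 1 + 1)) := by
  unfold mu
  rw [← Real.sqrt_mul (by positivity)]
  have h : ((q : ℝ) + 1) * ((2 * Q - 2 - q : ℕ) : ℝ) * (2 * pairNorm Q (q + 1)) =
      ((q : ℝ) + 1) ^ 2 * (2 * pairNorm Q (q + 1 + 1)) := by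
    linear_combination (-2 * ((q : ℝ) + 1)) * pairNorm_step Q q
  rw [h, Real.sqrt_mul (by positivity), Real.sqrt_sq (by positivity)]

theorem mu_sqrt' (Q q : ℕ) :
    mu Q q * Real.sqrt (2 * pairNorm Q (q + 1 + 1)) =
      ((2 * Q - 2 - q : ℕ) : ℝ) * Real.sqrt (2 * pairNorm Q (q + 1)) := by
  unfold mu
  rw [← Real.sqrt_mul (by positivity)]
  have h : ((q : ℝ) + 1) * ((2 * Q - 2 - q : ℕ) : ℝ) * (2 * pairNorm Q (q + 1 + 1)) =
      ((2 * Q - 2 - q : ℕ) : ℝ) ^ 2 * (2 * pairNorm Q (q + 1)) := by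
    linear_combination (2 * ((2 * Q - 2 - q : ℕ) : ℝ)) * pairNorm_step Q q
  rw [h, Real.sqrt_mul (by positivity), Real.sqrt_sq (by positivity)]

theorem pairNorm_pos {Q q : ℕ} (h : q < 2 * Q - 1) : 0 < pairNorm Q (q + 1) := by
  unfold pairNorm
  have h1 : (0 : ℝ) < 2 * Q - ((q + 1 : ℕ) : ℝ) := by
    have : ((q + 2 : ℕ) : ℝ) ≤ ((2 * Q : ℕ) : ℝ) := by exact_mod_cast (by omega : q + 2 ≤ 2 * Q)
    push_cast at this ⊢; linarith
  have h2 : (0 : ℝ) < 2 * Q - 1 := by
    have : (1 : ℝ) ≤ Q := by exact_mod_cast (by omega : 1 ≤ Q)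
    linarith
  have h3 : (0 : ℝ) < ((2 * Q).choose (q + 1) : ℝ) := by
    exact_mod_cast Nat.choose_pos (by omega)
  positivity

theorem pairNorm_zero {Q q : ℕ} (h : 2 * Q - 1 ≤ q) : pairNorm Q (q + 1) = 0 := by
  unfold pairNorm
  rcases Nat.eq_zero_or_pos Q with hQ | hQ
  · subst hQ
    rw [Nat.choose_eq_zero_of_lt (by omega)]; simp
  · rcases Nat.eq_or_lt_of_le (by omega : 2 * Q ≤ q + 1) with h1 | h1
    · rw [← h1]; push_cast; simp
    · rw [Nat.choose_eq_zero_of_lt h1]; simp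

/-- shifted pair vector in factorised form -/
theorem pv_eq (Q q i j : ℕ) (h : i + j = q + 1) :
    pv Q q i j = ((j : ℝ) - i) * (Real.sqrt (Q.choose i : ℝ) * Real.sqrt (Q.choose j : ℝ)) /
      Real.sqrt (2 * pairNorm Q (q + 1)) := by
  unfold pv
  rw [if_pos h, Real.sqrt_mul (by positivity)]

theorem pv_ne (Q q i j : ℕ) (h : i + j ≠ q + 1) : pv Q q i j = 0 := by
  unfold pv; rw [if_neg h]

theorem pv_big (Q q i j : ℕ) (h : 2 * Q - 1 ≤ q) : pv Q q i j = 0 := by
  unfold pv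
  rw [pairNorm_zero h]; simp

theorem pv_antisymm (Q q i j : ℕ) : pv Q q j i = - pv Q q i j := by
  by_cases h : i + j = q + 1
  · rw [pv_eq Q q i j h, pv_eq Q q j i (by omega)]; ring
  · rw [pv_ne Q q i j h, pv_ne Q q j i (by omega)]; ring

/-- `pv` restricted to an orbital out of range vanishes -/
theorem pv_left_zero (Q q i j : ℕ) (h : Q < i) : pv Q q i j = 0 := by
  by_cases h1 : i + j = q + 1
  · rw [pv_eq Q q i j h1, Nat.choose_eq_zero_of_lt h]; simp
  · exact pv_ne _ _ _ _ h1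

theorem pv_right_zero (Q q i j : ℕ) (h : Q < j) : pv Q q i j = 0 := by
  rw [pv_antisymm, pv_left_zero Q q j i h, neg_zero]

/-- up-ladder on pair vectors -/
theorem pv_up (Q q i j : ℕ) :
    (if i = 0 then 0 else lam Q (i - 1) * pv Q q (i - 1) j) +
      (if j = 0 then 0 else pv Q q i (j - 1) * lam Q (j - 1)) = mu Q q * pv Q (q + 1) i j := by
  by_cases h : i + j = q + 1 + 1
  · rw [pv_eq Q (q + 1) i j h]
    have hi : (if i = 0 then (0 : ℝ) else lam Q (i - 1) * pv Q q (i - 1) j) =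
        (i : ℝ) * ((j : ℝ) - i + 1) * (Real.sqrt (Q.choose i : ℝ) * Real.sqrt (Q.choose j : ℝ)) /
          Real.sqrt (2 * pairNorm Q (q + 1)) := by
      cases i with
      | zero => simp
      | succ i =>
        rw [if_neg (by omega), Nat.add_sub_cancel, pv_eq Q q i j (by omega)]
        have := lam_up Q i
        push_cast
        linear_combination (((j : ℝ) - i) * Real.sqrt (Q.choose j : ℝ) /
          Real.sqrt (2 * pairNorm Q (q + 1))) * this
    have hj : (if j = 0 then (0 : ℝ) else pv Q q i (j - 1) * lam Q (j - 1)) =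
        (j : ℝ) * ((j : ℝ) - 1 - i) * (Real.sqrt (Q.choose i : ℝ) * Real.sqrt (Q.choose j : ℝ)) /
          Real.sqrt (2 * pairNorm Q (q + 1)) := by
      cases j with
      | zero => simp
      | succ j =>
        rw [if_neg (by omega), Nat.add_sub_cancel, pv_eq Q q i j (by omega)]
        have := lam_up Q j
        push_cast
        linear_combination (((j : ℝ) - i) * Real.sqrt (Q.choose i : ℝ) /
          Real.sqrt (2 * pairNorm Q (q + 1))) * this
    rw [hi, hj]
    have hij : (i : ℝ) + j = q + 1 + 1 := by exact_mod_cast h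
    have hsum : (i : ℝ) * ((j : ℝ) - i + 1) + (j : ℝ) * ((j : ℝ) - 1 - i) =
        ((j : ℝ) - i) * ((q : ℝ) + 1) := by
      linear_combination ((j : ℝ) - i) * hij
    have hm := mu_sqrt Q q
    rcases lt_or_ge q (2 * Q - 1) with h1 | h1
    · have hn : Real.sqrt (2 * pairNorm Q (q + 1)) ≠ 0 := by
        have := pairNorm_pos h1; positivity
      rcases lt_or_ge (q + 1) (2 * Q - 1) with h2 | h2
      · have hn2 : Real.sqrt (2 * pairNorm Q (q + 1 + 1)) ≠ 0 := by
          have := pairNorm_pos h2; positivity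
        rw [← add_div, div_eq_iff hn, mul_div_assoc', div_mul_eq_mul_div, eq_div_iff hn2]
        linear_combination (Real.sqrt (Q.choose i : ℝ) * Real.sqrt (Q.choose j : ℝ)) *
          Real.sqrt (2 * pairNorm Q (q + 1 + 1)) * hsum -
          ((j : ℝ) - i) * (Real.sqrt (Q.choose i : ℝ) * Real.sqrt (Q.choose j : ℝ)) * hm
      · -- q = 2Q - 2
        have hq : q + 2 = 2 * Q := by omega
        rw [pairNorm_zero h2]
        simp only [mul_zero, Real.sqrt_zero, div_zero]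
        rcases lt_or_ge Q i with h3 | h3
        · rw [Nat.choose_eq_zero_of_lt h3]; simp
        · rcases lt_or_ge Q j with h4 | h4
          · rw [Nat.choose_eq_zero_of_lt h4]; simp
          · have h5 : i = Q := by omega
            have h6 : j = Q := by omega
            subst h5; subst h6
            ring
    · rw [pairNorm_zero h1, pairNorm_zero (by omega : 2 * Q - 1 ≤ q + 1)]
      simp
  · rw [pv_ne Q (q + 1) i j h, mul_zero]
    have hi : (if i = 0 then (0 : ℝ) else lam Q (i - 1) * pv Q q (i - 1) j) = 0 := by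
      split_ifs with h0
      · rfl
      · rw [pv_ne Q q (i - 1) j (by omega), mul_zero]
    have hj : (if j = 0 then (0 : ℝ) else pv Q q i (j - 1) * lam Q (j - 1)) = 0 := by
      split_ifs with h0
      · rfl
      · rw [pv_ne Q q i (j - 1) (by omega), zero_mul]
    rw [hi, hj, add_zero]

/-- down-ladder on pair vectors, bottom -/
theorem pv_down_zero (Q i j : ℕ) :
    lam Q i * pv Q 0 (i + 1) j + pv Q 0 i (j + 1) * lam Q j = 0 := by
  by_cases h : i = 0 ∧ j = 0
  · obtain ⟨rfl, rfl⟩ := h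
    have := pv_antisymm Q 0 0 1
    rw [zero_add, this]; ring
  · rw [pv_ne Q 0 (i + 1) j (by omega), pv_ne Q 0 i (j + 1) (by omega)]; ring

/-- down-ladder on pair vectors -/
theorem pv_down (Q q i j : ℕ) :
    lam Q i * pv Q (q + 1) (i + 1) j + pv Q (q + 1) i (j + 1) * lam Q j = mu Q q * pv Q q i j := by
  by_cases h : i + j = q + 1
  · rcases lt_or_ge Q i with hiQ | hiQ
    · rw [pv_left_zero Q _ i _ hiQ, pv_left_zero Q _ i _ hiQ, pv_left_zero Q _ (i + 1) _ (by omega)]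
      ring
    rcases lt_or_ge Q j with hjQ | hjQ
    · rw [pv_right_zero Q _ _ j hjQ, pv_right_zero Q _ _ j hjQ, pv_right_zero Q _ _ (j + 1) (by omega)]
      ring
    rw [pv_eq Q (q + 1) (i + 1) j (by omega), pv_eq Q (q + 1) i (j + 1) (by omega),
      pv_eq Q q i j h]
    have hi := lam_down Q i
    have hj := lam_down Q j
    have ei : ((Q - i : ℕ) : ℝ) = (Q : ℝ) - i := Nat.cast_sub hiQ
    have ej : ((Q - j : ℕ) : ℝ) = (Q : ℝ) - j := Nat.cast_sub hjQ
    rw [ei] at hi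
    rw [ej] at hj
    have hij : (i : ℝ) + j = q + 1 := by exact_mod_cast h
    have hm := mu_sqrt' Q q
    rcases lt_or_ge (q + 1) (2 * Q - 1) with h2 | h2
    · have hn2 : Real.sqrt (2 * pairNorm Q (q + 1 + 1)) ≠ 0 := by
        have := pairNorm_pos h2; positivity
      have hn : Real.sqrt (2 * pairNorm Q (q + 1)) ≠ 0 := by
        have := pairNorm_pos (by omega : q < 2 * Q - 1); positivity
      have e2 : ((2 * Q - 2 - q : ℕ) : ℝ) = 2 * Q - q - 2 := by
        rw [Nat.cast_sub (by omega), Nat.cast_sub (by omega)]; push_cast; ring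
      rw [e2] at hm
      rw [mul_div_assoc', div_mul_eq_mul_div, ← add_div, mul_div_assoc', div_eq_div_iff hn2 hn]
      push_cast
      set A := Real.sqrt (Q.choose i : ℝ)
      set B := Real.sqrt (Q.choose j : ℝ)
      have e3 : lam Q i * (((j : ℝ) - (i + 1)) * (Real.sqrt (Q.choose (i + 1) : ℝ) * B)) +
          ((j : ℝ) + 1 - i) * (A * Real.sqrt (Q.choose (j + 1) : ℝ)) * lam Q j =
          ((j : ℝ) - i) * (2 * Q - q - 2) * (A * B) := by
        have e4 : ((j : ℝ) - (i + 1)) * (Q - i) + ((j : ℝ) + 1 - i) * (Q - j) =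
            ((j : ℝ) - i) * (2 * Q - q - 2) := by
          linear_combination (-((j : ℝ) - i)) * hij
        linear_combination ((j : ℝ) - (i + 1)) * B * hi + ((j : ℝ) + 1 - i) * A * hj + A * B * e4
      rw [e3]
      linear_combination (-((j : ℝ) - i) * (A * B)) * hm
    · rcases lt_or_ge q (2 * Q - 1) with h1 | h1
      · have hq : q + 2 = 2 * Q := by omega
        have hmu : mu Q q = 0 := by
          unfold mu
          rw [show 2 * Q - 2 - q = 0 by omega]; simp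
        rw [pairNorm_zero h2, hmu]
        simp
      · rw [pairNorm_zero h1, pairNorm_zero (by omega : 2 * Q - 1 ≤ q + 1)]
        simp
  · rw [pv_ne Q (q + 1) (i + 1) j (by omega), pv_ne Q (q + 1) i (j + 1) (by omega), pv_ne Q q i j h]
    ring

/-! ### operators -/

/-- matrix of `U` -/
noncomputable def Um (Q : ℕ) : Matrix (Fin (Q + 1)) (Fin (Q + 1)) ℂ :=
  fun i j => if (j : ℕ) = i + 1 then ((lam Q i : ℝ) : ℂ) else 0

/-- matrix of `star U` -/
noncomputable def Vm (Q : ℕ) : Matrix (Fin (Q + 1)) (Fin (Q + 1)) ℂ :=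
  fun i j => if (i : ℕ) = j + 1 then ((lam Q j : ℝ) : ℂ) else 0

/-- matrix of the pair vector -/
noncomputable def Wm (Q q : ℕ) : Matrix (Fin (Q + 1)) (Fin (Q + 1)) ℂ :=
  fun i j => ((pv Q q i j : ℝ) : ℂ)

theorem Um_apply (Q : ℕ) (i j : Fin (Q + 1)) :
    Um Q i j = if (j : ℕ) = i + 1 then ((lam Q i : ℝ) : ℂ) else 0 := rfl
theorem Vm_apply (Q : ℕ) (i j : Fin (Q + 1)) :
    Vm Q i j = if (i : ℕ) = j + 1 then ((lam Q j : ℝ) : ℂ) else 0 := rfl
theorem Wm_apply (Q q : ℕ) (i j : Fin (Q + 1)) : Wm Q q i j = ((pv Q q i j : ℝ) : ℂ) := rfl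

theorem UN_eq (Q : ℕ) : UN Q = dG (Um Q) := rfl
theorem WN_eq (Q q : ℕ) : WN Q q = pa (Wm Q q) := rfl

theorem cN_lt (Q k : ℕ) (h : k < Q + 1) : cN Q k = c ⟨k, h⟩ := by
  unfold cN; rw [dif_pos h]

theorem cN_ge (Q k : ℕ) (h : Q < k) : cN Q k = 0 := by
  unfold cN; rw [dif_neg (by omega)]

theorem sum_ite_c (Q m : ℕ) (a : ℂ) :
    ∑ j : Fin (Q + 1), (if (j : ℕ) = m then a else 0) • (c j : Op (Fin (Q + 1))) = a • cN Q m := by
  rcases lt_or_ge Q m with h | h
  · rw [cN_ge Q m h, smul_zero]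
    refine Finset.sum_eq_zero fun j _ => ?_
    rw [if_neg (by have := j.2; omega), zero_smul]
  · rw [cN_lt Q m (by omega), Finset.sum_eq_single (⟨m, by omega⟩ : Fin (Q + 1))]
    · simp
    · intro j _ hj
      rw [if_neg (fun h0 => hj (Fin.ext h0)), zero_smul]
    · simp

theorem Uc (Q k : ℕ) : UN Q * cN Q k - cN Q k * UN Q = -(((lam Q k : ℝ) : ℂ) • cN Q (k + 1)) := by
  rcases lt_or_ge Q k with h | h
  · rw [cN_ge Q k h, cN_ge Q (k + 1) (by omega)]; simp
  · rw [cN_lt Q k (by omega), UN_eq, dG_comm_c]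
    congr 1
    exact sum_ite_c Q (k + 1) _

theorem Um_star (Q : ℕ) : (Um Q).conjTranspose = Vm Q := by
  ext i j
  rw [Matrix.conjTranspose_apply, Um_apply, Vm_apply]
  split_ifs
  · simp
  · simp

theorem Um_map (Q : ℕ) : (Um Q).map (starRingEnd ℂ) = Um Q := by
  ext i j
  rw [Matrix.map_apply, Um_apply]
  split_ifs
  · simp
  · simp

theorem Vm_map (Q : ℕ) : (Vm Q).map (starRingEnd ℂ) = Vm Q := by
  ext i j
  rw [Matrix.map_apply, Vm_apply]
  split_ifs
  · simp
  · simp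

theorem star_UN (Q : ℕ) : star (UN Q) = dG (Vm Q) := by
  rw [UN_eq, star_dG, Um_star]

theorem Vm_star (Q : ℕ) : (Vm Q).conjTranspose = Um Q := by
  rw [← Um_star, Matrix.conjTranspose_conjTranspose]

theorem Vc0 (Q : ℕ) : star (UN Q) * cN Q 0 - cN Q 0 * star (UN Q) = 0 := by
  rw [star_UN, cN_lt Q 0 (by omega), dG_comm_c]
  simp [Vm_apply]

theorem Vc (Q k : ℕ) : star (UN Q) * cN Q (k + 1) - cN Q (k + 1) * star (UN Q) =
    -(((lam Q k : ℝ) : ℂ) • cN Q k) := by
  rcases lt_or_ge Q (k + 1) with h | h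
  · rw [cN_ge Q (k + 1) h]
    rcases lt_or_ge Q k with h1 | h1
    · rw [cN_ge Q k h1]; simp
    · have : lam Q k = 0 := by
        unfold lam
        rw [show Q - k = 0 by omega]; simp
      rw [this]; simp
  · rw [star_UN, cN_lt Q (k + 1) (by omega), dG_comm_c]
    congr 1
    rw [← sum_ite_c Q k]
    refine Finset.sum_congr rfl fun j _ => ?_
    rw [Vm_apply]
    congr 1
    by_cases hj : (j : ℕ) = k
    · rw [if_pos hj, if_pos (by simp [hj]), hj]
    · rw [if_neg hj, if_neg (by simp; omega)]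

/-- sums of a matrix row of `U` against a function of natural numbers -/
theorem sum_ite_nat (Q m : ℕ) (f : ℕ → ℂ) (hf : Q < m → f m = 0) :
    ∑ j : Fin (Q + 1), (if (j : ℕ) = m then f j else 0) = f m := by
  rcases lt_or_ge Q m with h | h
  · rw [hf h]
    refine Finset.sum_eq_zero fun j _ => ?_
    rw [if_neg (by have := j.2; omega)]
  · rw [Finset.sum_eq_single (⟨m, by omega⟩ : Fin (Q + 1))]
    · simp
    · intro j _ hj
      rw [if_neg (fun h0 => hj (Fin.ext h0))]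
    · simp

theorem pa_real (Q q : ℕ) (r : ℝ) (w : Matrix (Fin (Q + 1)) (Fin (Q + 1)) ℂ)
    (h : ∀ i j, w i j = ((r * pv Q q i j : ℝ) : ℂ)) : pa w = ((r : ℝ) : ℂ) • WN Q q := by
  have h1 := pa_smul ((r : ℝ) : ℂ) (Wm Q q)
  rw [Complex.conj_ofReal] at h1
  rw [WN_eq, ← h1]
  congr 1
  ext i j
  rw [h, Matrix.smul_apply, Wm_apply, Complex.ofReal_mul, smul_eq_mul]

theorem UW (Q q : ℕ) : UN Q * WN Q q - WN Q q * UN Q = -(((mu Q q : ℝ) : ℂ) • WN Q (q + 1)) := by
  rw [UN_eq, WN_eq, dG_comm_pa]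
  congr 1
  refine pa_real Q (q + 1) (mu Q q) _ fun i j => ?_
  rw [Matrix.add_apply, Matrix.mul_apply, Matrix.mul_apply, Um_star, Um_map]
  have h1 : ∑ k : Fin (Q + 1), Vm Q i k * Wm Q q k j =
      ((if (i : ℕ) = 0 then 0 else lam Q (i - 1) * pv Q q (i - 1) j : ℝ) : ℂ) := by
    by_cases hi : (i : ℕ) = 0
    · rw [if_pos hi, Complex.ofReal_zero]
      refine Finset.sum_eq_zero fun k _ => ?_
      rw [Vm_apply, if_neg (by omega), zero_mul]
    · rw [if_neg hi, Complex.ofReal_mul]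
      rw [← sum_ite_nat Q ((i : ℕ) - 1) (fun k => ((lam Q k : ℝ) : ℂ) * ((pv Q q k j : ℝ) : ℂ))
        (fun h => absurd h (by have := i.2; omega))]
      refine Finset.sum_congr rfl fun k _ => ?_
      rw [Vm_apply, Wm_apply]
      by_cases hk : (k : ℕ) = (i : ℕ) - 1
      · rw [if_pos hk, if_pos (by omega)]
      · rw [if_neg hk, if_neg (by omega), zero_mul]
  have h2 : ∑ k : Fin (Q + 1), Wm Q q i k * Um Q k j =
      ((if (j : ℕ) = 0 then 0 else pv Q q i (j - 1) * lam Q (j - 1) : ℝ) : ℂ) := by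
    by_cases hj : (j : ℕ) = 0
    · rw [if_pos hj, Complex.ofReal_zero]
      refine Finset.sum_eq_zero fun k _ => ?_
      rw [Um_apply, if_neg (by omega), mul_zero]
    · rw [if_neg hj, Complex.ofReal_mul]
      rw [← sum_ite_nat Q ((j : ℕ) - 1) (fun k => ((pv Q q i k : ℝ) : ℂ) * ((lam Q k : ℝ) : ℂ))
        (fun h => absurd h (by have := j.2; omega))]
      refine Finset.sum_congr rfl fun k _ => ?_
      rw [Um_apply, Wm_apply]
      by_cases hk : (k : ℕ) = (j : ℕ) - 1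
      · rw [if_pos hk, if_pos (by omega)]
      · rw [if_neg hk, if_neg (by omega), mul_zero]
  rw [h1, h2, ← Complex.ofReal_add, pv_up]

theorem V_entry (Q q : ℕ) (i j : Fin (Q + 1)) :
    ((Vm Q).conjTranspose * Wm Q q + Wm Q q * (Vm Q).map (starRingEnd ℂ)) i j =
      ((lam Q i * pv Q q (i + 1) j + pv Q q i (j + 1) * lam Q j : ℝ) : ℂ) := by
  rw [Vm_star, Vm_map, Matrix.add_apply, Matrix.mul_apply, Matrix.mul_apply, Complex.ofReal_add,
    Complex.ofReal_mul, Complex.ofReal_mul]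
  congr 1
  · rw [← sum_ite_nat Q ((i : ℕ) + 1) (fun k => ((lam Q i : ℝ) : ℂ) * ((pv Q q k j : ℝ) : ℂ))
      (fun h => by rw [pv_left_zero Q q _ _ h]; simp)]
    refine Finset.sum_congr rfl fun k _ => ?_
    rw [Um_apply, Wm_apply]
    split_ifs <;> simp
  · rw [← sum_ite_nat Q ((j : ℕ) + 1) (fun k => ((pv Q q i k : ℝ) : ℂ) * ((lam Q j : ℝ) : ℂ))
      (fun h => by rw [pv_right_zero Q q _ _ h]; simp)]
    refine Finset.sum_congr rfl fun k _ => ?_
    rw [Vm_apply, Wm_apply]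
    split_ifs <;> simp

theorem VW0 (Q : ℕ) : star (UN Q) * WN Q 0 - WN Q 0 * star (UN Q) = 0 := by
  rw [star_UN, WN_eq, dG_comm_pa, neg_eq_zero, pa_real Q 0 0 _ fun i j => ?_]
  · simp
  · rw [V_entry, pv_down_zero, zero_mul]

theorem VW (Q q : ℕ) : star (UN Q) * WN Q (q + 1) - WN Q (q + 1) * star (UN Q) =
    -(((mu Q q : ℝ) : ℂ) • WN Q q) := by
  rw [star_UN, WN_eq, dG_comm_pa]
  congr 1
  refine pa_real Q q (mu Q q) _ fun i j => ?_
  rw [V_entry, pv_down]

theorem Zc (Q k : ℕ) : ZN Q * cN Q k - cN Q k * ZN Q = -((k : ℂ) • cN Q k) := by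
  rcases lt_or_ge Q k with h | h
  · rw [cN_ge Q k h]; simp
  · rw [cN_lt Q k (by omega)]
    unfold ZN
    rw [dG_comm_c]
    congr 1
    rw [Finset.sum_eq_single (⟨k, by omega⟩ : Fin (Q + 1))]
    · simp
    · intro j _ hj
      rw [Matrix.diagonal_apply_ne _ (Ne.symm hj), zero_smul]
    · simp

theorem ZW (Q q : ℕ) : ZN Q * WN Q q - WN Q q * ZN Q = -(((q : ℂ) + 1) • WN Q q) := by
  unfold ZN
  rw [WN_eq, dG_comm_pa]
  congr 1
  rw [pa_real Q q ((q : ℝ) + 1) _ fun i j => ?_]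
  · rw [Complex.ofReal_add, Complex.ofReal_natCast, Complex.ofReal_one, WN_eq]
  have h2 : (Matrix.diagonal fun i : Fin (Q + 1) => ((i : ℕ) : ℂ)).map (starRingEnd ℂ) =
      Matrix.diagonal fun i : Fin (Q + 1) => ((i : ℕ) : ℂ) := by
    rw [Matrix.diagonal_map (map_zero _)]
    congr 1
    funext i
    simp
  rw [Matrix.add_apply, Matrix.diagonal_conjTranspose, Matrix.diagonal_mul, h2,
    Matrix.mul_diagonal, Wm_apply]
  simp only [Pi.star_apply, RCLike.star_def, Complex.conj_natCast]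
  by_cases hij : (i : ℕ) + j = q + 1
  · have : ((i : ℕ) : ℂ) + (j : ℕ) = q + 1 := by exact_mod_cast hij
    push_cast
    linear_combination ((pv Q q i j : ℝ) : ℂ) * this
  · rw [pv_ne Q q i j hij]; simp

theorem Zs (Q : ℕ) : star (ZN Q) = ZN Q := by
  unfold ZN
  rw [star_dG, Matrix.diagonal_conjTranspose]
  congr 2
  funext i
  simp

theorem WW (Q p q : ℕ) : WN Q p * WN Q q = WN Q q * WN Q p := pa_comm _ _

/-- **Finite-flux ladder identities.** -/
theorem ladQ (Q : ℕ) : LadQ Q where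
  Uc := Uc Q
  Vc0 := Vc0 Q
  Vc := Vc Q
  UW := UW Q
  VW0 := VW0 Q
  VW := VW Q
  Zc := Zc Q
  ZW := ZW Q
  Zs := Zs Q
  WW := WW Q

end Crest.Agent.R340.Lad978
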