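import Crest.Agent.R340.Lin1_120

/-!
# S0533, linear part of the certificate (helper120): certificates given by lists, numerical part
-/

set_option autoImplicit false
open scoped BigOperators
open Finset

namespace Crest.Agent.R340.Lin120

open Crest.Agent.R340.Kn249 Crest.Agent.R340.Pl249 Crest.Agent.R340.Cert132

/-! ### `kap` by lists -/

/-- multiplication of a coefficient list (in the `x`-degree) by `a x + b y` -/
def stepL (a b : ℤ) (l : List ℤ) : List ℤ := List.zipWith (fun x y => a * x + b * y) (0 :: l) (l ++ [0])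

def baseL : ℕ → List ℤ
  | 0 => [1]
  | m + 1 => stepL 1 (-1) (baseL m)

def kapL (a : ℤ) (m : ℕ) : ℕ → List ℤ
  | 0 => baseL m
  | K + 1 => stepL a 1 (kapL a m K)

theorem stepL_length (a b : ℤ) (l : List ℤ) : (stepL a b l).length = l.length + 1 := by
  simp [stepL]

theorem stepL_getD (a b : ℤ) (l : List ℤ) (q k : ℕ) (h : q + k = l.length) (f : ℕ → ℕ → ℤ)
    (hf : ∀ q k, q + k + 1 = l.length → f q k = l.getD q 0) :
    sh a b f q k = (stepL a b l).getD q 0 := by
  have hlen := stepL_length a b l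
  have hq : q < (stepL a b l).length := by omega
  rw [List.getD_eq_getElem _ _ hq]
  simp only [stepL, List.getElem_zipWith]
  unfold sh
  rcases q with _ | q
  · rcases k with _ | k
    · have hl : l = [] := List.eq_nil_of_length_eq_zero (by omega)
      subst hl; simp
    · have h0 : 0 < l.length := by omega
      rw [if_pos rfl, if_neg (by omega), Nat.add_sub_cancel, hf 0 k (by omega),
        List.getD_eq_getElem _ _ h0, List.getElem_append_left h0]
      simp
  · have hq' : q < l.length := by omega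
    rw [if_neg (by omega), Nat.add_sub_cancel, hf q k (by omega), List.getD_eq_getElem _ _ hq']
    rcases k with _ | k
    · rw [if_pos rfl, List.getElem_append_right (by omega)]
      simp
    · have hq2 : q + 1 < l.length := by omega
      rw [if_neg (by omega), Nat.add_sub_cancel, hf (q + 1) k (by omega),
        List.getD_eq_getElem _ _ hq2, List.getElem_append_left hq2]
      simp

theorem baseL_length (m : ℕ) : (baseL m).length = m + 1 := by
  induction m with
  | zero => rfl
  | succ m ih => rw [baseL, stepL_length, ih]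

theorem kapL_length (a : ℤ) (m K : ℕ) : (kapL a m K).length = m + K + 1 := by
  induction K with
  | zero => exact baseL_length m
  | succ K ih => rw [kapL, stepL_length, ih]; rfl

theorem kap_base (a : ℤ) (m q k : ℕ) (h : q + k = m) : kap a m 0 q k = (baseL m).getD q 0 := by
  induction m generalizing q k with
  | zero =>
    obtain rfl : q = 0 := by omega
    obtain rfl : k = 0 := by omega
    simp [kap_zero_zero, baseL]
  | succ m ih =>
    rw [kap_succ_zero, baseL]
    exact stepL_getD 1 (-1) (baseL m) q k (by rw [baseL_length]; omega) _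
      (fun q k hqk => ih q k (by rw [baseL_length] at hqk; omega))

theorem kap_list (a : ℤ) (m K q k : ℕ) (h : q + k = m + K) :
    kap a m K q k = (kapL a m K).getD q 0 := by
  induction K generalizing q k with
  | zero => exact kap_base a m q k h
  | succ K ih =>
    rw [kap_succ, kapL]
    exact stepL_getD a 1 (kapL a m K) q k (by rw [kapL_length]; omega) _
      (fun q k hqk => ih q k (by rw [kapL_length] at hqk; omega))

theorem sh_cast (a b : ℤ) (f : ℕ → ℕ → ℤ) (g : ℕ → ℕ → ℝ) (hfg : ∀ q k, g q k = (f q k : ℝ))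
    (q k : ℕ) : sh (a : ℝ) (b : ℝ) g q k = ((sh a b f q k : ℤ) : ℝ) := by
  unfold sh
  split_ifs <;> push_cast <;> simp [hfg]

theorem kap_cast (a : ℤ) (m K q k : ℕ) : kap (a : ℝ) m K q k = ((kap a m K q k : ℤ) : ℝ) := by
  induction K generalizing q k with
  | zero =>
    induction m generalizing q k with
    | zero => rw [kap_zero_zero, kap_zero_zero]; split_ifs <;> simp
    | succ m ih =>
      rw [kap_succ_zero, kap_succ_zero]
      have h := sh_cast 1 (-1) (kap a m 0) (kap (a : ℝ) m 0) ih q k
      push_cast at h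
      exact h
  | succ K ih =>
    rw [kap_succ, kap_succ]
    have h := sh_cast a 1 (kap a m K) (kap (a : ℝ) m K) ih q k
    push_cast at h
    exact h

/-- rational channel coefficient of a correlator with `α = a`, `c = b` -/
def cf (a b : ℕ) (m q k q' j : ℕ) : ℚ :=
  if m ≤ q + k then
    ((kapL a m (q + k - m)).getD q 0 * (kapL a m (q + k - m)).getD q' 0 : ℤ) * (b : ℚ) ^ (q + k - m) /
      (((a + 1) ^ (q + k - m) * (q + k - m).factorial : ℕ) : ℚ)
  else 0

theorem rhs_cf (a b : ℕ) (g : ℕ → ℝ) (q k q' j N : ℕ) (h : q + k = q' + j) (hN : q + k < N) :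
    rhs (a : ℝ) (b : ℝ) g q k q' j = ∑ m ∈ range N, g m * (cf a b m q k q' j : ℝ) := by
  rw [rhs_range _ _ g q k q' j N h hN]
  refine Finset.sum_congr rfl fun m _ => ?_
  congr 1
  unfold cf
  split_ifs with hm
  · have h1 : kap (a : ℝ) m (q + k - m) q k = (((kapL a m (q + k - m)).getD q 0 : ℤ) : ℝ) := by
      have := kap_cast a m (q + k - m) q k
      rw [Int.cast_natCast] at this
      rw [this, kap_list _ _ _ _ _ (by omega)]
    have h2 : kap (a : ℝ) m (q + k - m) q' j = (((kapL a m (q + k - m)).getD q' 0 : ℤ) : ℝ) := by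
      have := kap_cast a m (q + k - m) q' j
      rw [Int.cast_natCast] at this
      rw [this, kap_list _ _ _ _ _ (by omega)]
    rw [h1, h2, co]
    push_cast
    ring
  · simp

/-! ### certificates given by lists -/

/-- coefficient function of a list -/
def cfun (B : List (ℕ × ℕ × ℕ × ℕ × ℤ)) (q j q' k : ℕ) : ℤ :=
  (B.map fun x => if x.1 = q ∧ x.2.1 = j ∧ x.2.2.1 = q' ∧ x.2.2.2.1 = k then x.2.2.2.2 else 0).sum

/-- coefficient function of a diagonal list -/
def gfun (G : List (ℕ × ℤ)) (q : ℕ) : ℤ := (G.map fun x => if x.1 = q then x.2 else 0).sum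

theorem sum_cfun {a b c d : ℕ} (B : List (ℕ × ℕ × ℕ × ℕ × ℤ))
    (hB : ∀ x ∈ B, x.1 < a ∧ x.2.1 < b ∧ x.2.2.1 < c ∧ x.2.2.2.1 < d) (F : ℕ → ℕ → ℕ → ℕ → ℝ) :
    ∑ q ∈ range a, ∑ j ∈ range b, ∑ q' ∈ range c, ∑ k ∈ range d, (cfun B q j q' k : ℝ) * F q j q' k =
      (B.map fun x => (x.2.2.2.2 : ℝ) * F x.1 x.2.1 x.2.2.1 x.2.2.2.1).sum := by
  induction B with
  | nil => simp [cfun]
  | cons x B ih =>
    have ih' := ih fun y hy => hB y (List.mem_cons_of_mem _ hy)
    obtain ⟨h1, h2, h3, h4⟩ := hB x List.mem_cons_self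
    rw [List.map_cons, List.sum_cons, ← ih']
    have hc : ∀ q j q' k, (cfun (x :: B) q j q' k : ℝ) * F q j q' k =
        (if x.1 = q ∧ x.2.1 = j ∧ x.2.2.1 = q' ∧ x.2.2.2.1 = k then
          (x.2.2.2.2 : ℝ) * F q j q' k else 0) + (cfun B q j q' k : ℝ) * F q j q' k := by
      intro q j q' k
      simp only [cfun, List.map_cons, List.sum_cons]
      push_cast
      split_ifs <;> ring
    simp only [hc, Finset.sum_add_distrib]
    congr 1
    rw [Finset.sum_eq_single x.1, Finset.sum_eq_single x.2.1, Finset.sum_eq_single x.2.2.1,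
      Finset.sum_eq_single x.2.2.2.1]
    · simp
    all_goals first
      | (intro y _ hy
         first
          | (rw [if_neg]; tauto)
          | (refine Finset.sum_eq_zero fun _ _ => ?_
             first
              | (rw [if_neg]; tauto)
              | (refine Finset.sum_eq_zero fun _ _ => ?_
                 first
                  | (rw [if_neg]; tauto)
                  | (refine Finset.sum_eq_zero fun _ _ => ?_
                     rw [if_neg]; tauto))))
      | (intro h; exact absurd (mem_range.mpr (by assumption)) h)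

theorem sum_gfun {a : ℕ} (G : List (ℕ × ℤ)) (hG : ∀ x ∈ G, x.1 < a) (F : ℕ → ℝ) :
    ∑ q ∈ range a, (gfun G q : ℝ) * F q = (G.map fun x => (x.2 : ℝ) * F x.1).sum := by
  induction G with
  | nil => simp [gfun]
  | cons x B ih =>
    have ih' := ih fun y hy => hG y (List.mem_cons_of_mem _ hy)
    have h1 := hG x List.mem_cons_self
    rw [List.map_cons, List.sum_cons, ← ih']
    have hc : ∀ q, (gfun (x :: B) q : ℝ) * F q =
        (if x.1 = q then (x.2 : ℝ) * F q else 0) + (gfun B q : ℝ) * F q := by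
      intro q
      simp only [gfun, List.map_cons, List.sum_cons]
      push_cast
      split_ifs <;> ring
    simp only [hc, Finset.sum_add_distrib]
    congr 1
    rw [Finset.sum_ite_eq, if_pos (mem_range.mpr h1)]

/-- certificate from lists with common denominator `D`; the `G` list enters with a plus sign -/
def ofLists (P : ℕ) (G : List (ℕ × ℤ)) (B A : List (ℕ × ℕ × ℕ × ℕ × ℤ)) (D : ℕ) : CertN where
  P := P
  Gc q := -(gfun G q : ℚ) / D
  Bc q j q' k := (cfun B q j q' k : ℚ) / D
  Ac q j q' k := (cfun A q j q' k : ℚ) / D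

theorem LamN_ofLists {P : ℕ} {G : List (ℕ × ℤ)} {B A : List (ℕ × ℕ × ℕ × ℕ × ℤ)} (hA : Adm P G B A)
    (D : ℕ) (X Y : ℕ → ℕ → ℕ → ℕ → ℝ) :
    LamN (ofLists P G B A D) X Y =
      ((G.map fun x => (x.2 : ℝ) * (2 ^ x.1 / (x.1.factorial : ℝ))).sum +
      (B.map fun x => (x.2.2.2.2 : ℝ) * X x.1 x.2.1 x.2.2.1 x.2.2.2.1).sum +
      (A.map fun x => (x.2.2.2.2 : ℝ) * Y x.1 x.2.1 x.2.2.1 x.2.2.2.1).sum) / D := by
  obtain ⟨h1, h2, h3⟩ := hA
  rw [← sum_gfun (a := P) G h1 (fun q => 2 ^ q / (q.factorial : ℝ)),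
    ← sum_cfun (a := P) (b := P + 1) (c := P) (d := P + 1) B
      (fun x hx => ⟨(h2 x hx).1, Nat.lt_succ_of_le (h2 x hx).2.1, (h2 x hx).2.2.1,
        Nat.lt_succ_of_le (h2 x hx).2.2.2⟩) X,
    ← sum_cfun (a := P) (b := P) (c := P) (d := P) A h3 Y]
  unfold LamN ofLists
  simp only [add_div, Finset.sum_div]
  push_cast
  have e1 : ∀ q, -((gfun G q : ℤ) : ℝ) / (D : ℝ) * (2 ^ q / (q.factorial : ℝ)) =
      -((gfun G q : ℝ) * (2 ^ q / (q.factorial : ℝ)) / D) := by intro q; ring
  have e2 : ∀ q j q' k, ((cfun B q j q' k : ℤ) : ℝ) / (D : ℝ) * X q j q' k =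
      (cfun B q j q' k : ℝ) * X q j q' k / D := by intro q j q' k; ring
  have e3 : ∀ q j q' k, ((cfun A q j q' k : ℤ) : ℝ) / (D : ℝ) * Y q j q' k =
      (cfun A q j q' k : ℝ) * Y q j q' k / D := by intro q j q' k; ring
  simp only [e1, e2, e3, Finset.sum_neg_distrib]
  ring

end Crest.Agent.R340.Lin120
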