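import Crest.Agent.R340.Tr_132
import Crest.Agent.R340.KnI2_249
import Crest.Agent.R340.Lad_978
import Crest.Agent.R340.Lin2_120

/-!
# Transfer theorem in the interface `KnI2_249` (helper132, R340, S0533)
-/

set_option autoImplicit false

namespace Crest.Agent.R340.Tr132

open Finset Crest.Agent.R340.Fock649 Crest.Agent.R340.Cert132 Crest.Agent.R340.Kn249
open Crest.Agent.R340.Lad978
open Crest.MathPhysics.Laughlin
open scoped ComplexConjugate

theorem dQ_eq (Q j : ℕ) : dQ Q j = ((nuQ Q j : ℝ) : ℂ) • cN Q j := by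
  unfold dQ cN
  by_cases h : j < Q + 1
  · rw [dif_pos h, dif_pos h]; rfl
  · rw [dif_neg h, dif_neg h, smul_zero]

theorem cN_anti (Q i j : ℕ) : cN Q i * cN Q j = -(cN Q j * cN Q i) := by
  unfold cN
  by_cases hi : i < Q + 1
  · by_cases hj : j < Q + 1
    · rw [dif_pos hi, dif_pos hj]
      exact eq_neg_of_add_eq_zero_left (c_c _ _)
    · rw [dif_neg hj]; simp
  · rw [dif_neg hi]; simp

/-- half sum of a symmetric sequence without middle term -/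
theorem sum_half {M : Type*} [AddCommMonoid M] (q : ℕ) (t : ℕ → M)
    (hs : ∀ i ≤ q + 1, t (q + 1 - i) = t i) (hm : ∀ i, 2 * i = q + 1 → t i = 0) :
    ∑ i ∈ range (q + 2), t i = ∑ i ∈ range (q / 2 + 1), t i + ∑ i ∈ range (q / 2 + 1), t i := by
  have h1 : range (q + 2) = range (q / 2 + 1) ∪ Ico (q / 2 + 1) (q + 2) := by
    ext i; simp only [mem_range, mem_union, mem_Ico]; omega
  have hd : Disjoint (range (q / 2 + 1)) (Ico (q / 2 + 1) (q + 2)) := by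
    rw [Finset.disjoint_left]; intro i; simp only [mem_range, mem_Ico]; omega
  rw [h1, Finset.sum_union hd]
  congr 1
  have h2 : ∑ i ∈ Ico (q / 2 + 1) (q + 2), t i = ∑ i ∈ range (q + 1 - q / 2), t i := by
    refine Finset.sum_nbij' (fun i => q + 1 - i) (fun i => q + 1 - i) ?_ ?_ ?_ ?_ ?_
    · intro i; simp only [mem_range, mem_Ico]; omega
    · intro i; simp only [mem_range, mem_Ico]; omega
    · intro i; simp only [mem_Ico]; omega
    · intro i; simp only [mem_range]; omega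
    · intro i hi
      simp only [mem_Ico] at hi
      exact (hs i (by omega)).symm
  rw [h2]
  rcases Nat.even_or_odd' q with ⟨m, hm' | hm'⟩
  · have : q + 1 - q / 2 = q / 2 + 1 := by omega
    rw [this]
  · have h3 : q + 1 - q / 2 = (q / 2 + 1) + 1 := by omega
    rw [h3, Finset.sum_range_succ _ (q / 2 + 1), hm (q / 2 + 1) (by omega), add_zero]

theorem WN_eq_sum (Q q : ℕ) (hq : q + 1 ≤ Q) :
    WN Q q = ((Real.sqrt 2 : ℂ)) • ∑ i ∈ range (q / 2 + 1),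
      ((pv Q q i (q + 1 - i) : ℝ) : ℂ) • (cN Q (q + 1 - i) * cN Q i) := by
  have h1 : WN Q q = ((Real.sqrt 2 : ℂ)⁻¹) • ∑ i ∈ range (Q + 1), ∑ j ∈ range (Q + 1),
      ((pv Q q i j : ℝ) : ℂ) • (cN Q j * cN Q i) := by
    unfold WN pa
    congr 1
    rw [Finset.sum_range]
    refine Finset.sum_congr rfl fun i _ => ?_
    rw [Finset.sum_range]
    refine Finset.sum_congr rfl fun j _ => ?_
    rw [Complex.conj_ofReal, cN_lt Q i i.2, cN_lt Q j j.2]
  have h2 : ∑ i ∈ range (Q + 1), ∑ j ∈ range (Q + 1), ((pv Q q i j : ℝ) : ℂ) • (cN Q j * cN Q i) =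
      ∑ i ∈ range (q + 2), ((pv Q q i (q + 1 - i) : ℝ) : ℂ) • (cN Q (q + 1 - i) * cN Q i) := by
    have h3 : range (q + 2) ⊆ range (Q + 1) := by
      intro i; simp only [mem_range]; omega
    rw [← Finset.sum_subset h3 (f := fun i => ∑ j ∈ range (Q + 1),
      ((pv Q q i j : ℝ) : ℂ) • (cN Q j * cN Q i))]
    · refine Finset.sum_congr rfl fun i hi => ?_
      simp only [mem_range] at hi
      rw [Finset.sum_eq_single (q + 1 - i)]
      · intro j _ hj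
        rw [pv_ne Q q i j (by omega)]; simp
      · intro h
        simp only [mem_range] at h; omega
    · intro i _ hi
      simp only [mem_range] at hi
      refine Finset.sum_eq_zero fun j _ => ?_
      rw [pv_ne Q q i j (by omega)]; simp
  rw [h1, h2, sum_half q]
  · rw [← two_smul ℂ, smul_smul]
    congr 1
    have h4 : (Real.sqrt 2 : ℂ) * (Real.sqrt 2 : ℂ) = 2 := by
      rw [← Complex.ofReal_mul, Real.mul_self_sqrt (by norm_num)]; norm_num
    have h5 : (Real.sqrt 2 : ℂ) ≠ 0 := by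
      intro h
      rw [h] at h4; norm_num at h4
    field_simp
    rw [sq]; exact h4.symm
  · intro i hi
    have h6 : q + 1 - (q + 1 - i) = i := by omega
    rw [h6, pv_antisymm, cN_anti]
    push_cast
    rw [neg_smul, smul_neg, neg_neg]
  · intro i hi
    have h6 : q + 1 - i = i := by omega
    rw [h6]
    have h7 : cN Q i * cN Q i = 0 := by
      unfold cN
      by_cases h : i < Q + 1
      · rw [dif_pos h]; exact c_mul_self _
      · rw [dif_neg h]; simp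
    rw [h7, smul_zero]

theorem wQ_eq (Q q : ℕ) (hq : q + 1 ≤ Q) : wQ Q q = ((thQ Q q : ℝ) : ℂ) • WN Q q := by
  rw [WN_eq_sum Q q hq, smul_smul, Finset.smul_sum]
  unfold wQ
  refine Finset.sum_congr rfl fun i hi => ?_
  simp only [mem_range] at hi
  rw [dQ_eq, dQ_eq, smul_mul_assoc, mul_smul_comm, smul_smul, smul_smul, smul_smul]
  congr 1
  have hQ : (0:ℝ) < Q := by exact_mod_cast (by omega : 0 < Q)
  have hpn : 0 < pairNorm Q (q + 1) := pairNorm_pos (by omega)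
  have key : ((q : ℝ) + 1 - 2 * i) * nuQ Q (q + 1 - i) * nuQ Q i =
      thQ Q q * Real.sqrt 2 * pv Q q i (q + 1 - i) := by
    have h1 : pv Q q i (q + 1 - i) = (((q + 1 - i : ℕ) : ℝ) - i) *
        Real.sqrt ((Nat.choose Q i : ℝ) * Nat.choose Q (q + 1 - i)) /
          Real.sqrt (2 * pairNorm Q (q + 1)) := by
      unfold pv; rw [if_pos (by omega)]
    rw [h1, Nat.cast_sub (by omega)]
    unfold nuQ thQ
    rw [Real.sqrt_mul (by norm_num : (0:ℝ) ≤ 2), Real.sqrt_div hpn.le,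
      Real.sqrt_div (by positivity), Real.sqrt_div (by positivity), Real.sqrt_mul (by positivity)]
    have h2 : Real.sqrt ((Q : ℝ) ^ (q + 1)) =
        Real.sqrt ((Q : ℝ) ^ i) * Real.sqrt ((Q : ℝ) ^ (q + 1 - i)) := by
      rw [← Real.sqrt_mul (by positivity), ← pow_add]
      congr 2; omega
    rw [h2]
    have h3 : Real.sqrt ((Q : ℝ) ^ i) ≠ 0 := (Real.sqrt_pos.2 (by positivity)).ne'
    have h4 : Real.sqrt ((Q : ℝ) ^ (q + 1 - i)) ≠ 0 := (Real.sqrt_pos.2 (by positivity)).ne'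
    have h5 : Real.sqrt (pairNorm Q (q + 1)) ≠ 0 := (Real.sqrt_pos.2 hpn).ne'
    have h6 : Real.sqrt (2:ℝ) ≠ 0 := (Real.sqrt_pos.2 (by norm_num)).ne'
    push_cast
    field_simp
    ring
  have key' := congrArg Complex.ofReal key
  push_cast at key' ⊢
  linear_combination key'

/-! ### the glue to `XN` -/

theorem re_inner_smul_star {Q : ℕ} (r : ℝ) (A B : Op (Fin (Q + 1))) (v : Fk (Fin (Q + 1))) :
    (inner ℂ v ((((r : ℝ) : ℂ) • (star A * B)) v) : ℂ).re = r * (inner ℂ (A v) (B v) : ℂ).re := by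
  rw [smul_ap, inner_smul_right, mul_ap, inner_star_right, Complex.re_ofReal_mul]

theorem re_inner_smul_smul {Q : ℕ} (r s : ℝ) (a b : Fk (Fin (Q + 1))) :
    (inner ℂ (((r : ℝ) : ℂ) • a) (((s : ℝ) : ℂ) • b) : ℂ).re = r * s * (inner ℂ a b : ℂ).re := by
  rw [inner_smul_left, inner_smul_right, Complex.conj_ofReal, ← mul_assoc, ← Complex.ofReal_mul,
    Complex.re_ofReal_mul]

theorem dw_ap (Q q j : ℕ) (hq : q + 1 ≤ Q) (v : Fk (Fin (Q + 1))) :
    dQ Q j (wQ Q q v) = (((thQ Q q * nuQ Q j : ℝ)) : ℂ) • ((cN Q j * WN Q q) v) := by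
  rw [dQ_eq, wQ_eq Q q hq, smul_ap, smul_ap, mul_ap]
  have : (Op.ap (cN Q j)) (((thQ Q q : ℝ) : ℂ) • (Op.ap (WN Q q)) v) =
      ((thQ Q q : ℝ) : ℂ) • (Op.ap (cN Q j)) ((Op.ap (WN Q q)) v) := map_smul _ _ _
  rw [this, smul_smul]
  congr 1
  push_cast; ring

theorem ww_ap (Q q s : ℕ) (hq : q + 1 ≤ Q) (hs : s + 1 ≤ Q) (v : Fk (Fin (Q + 1))) :
    wQ Q s (wQ Q q v) = (((thQ Q q * thQ Q s : ℝ)) : ℂ) • ((WN Q s * WN Q q) v) := by
  rw [wQ_eq Q q hq, wQ_eq Q s hs, smul_ap, smul_ap, mul_ap]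
  have : (Op.ap (WN Q s)) (((thQ Q q : ℝ) : ℂ) • (Op.ap (WN Q q)) v) =
      ((thQ Q q : ℝ) : ℂ) • (Op.ap (WN Q s)) ((Op.ap (WN Q q)) v) := map_smul _ _ _
  rw [this, smul_smul]
  congr 1
  push_cast; ring

open Crest.Agent.R340.Lin120 in
theorem re_inner_XN {P : ℕ} {G : List (ℕ × ℤ)} {B A : List (ℕ × ℕ × ℕ × ℕ × ℤ)} (hA : Adm P G B A)
    (D : ℕ) {Q : ℕ} (hPQ : P ≤ Q) (v : Fk (Fin (Q + 1))) :
    (inner ℂ v (XN (ofLists P G B A D) Q v) : ℂ).re = formQ Q G B A v / D := by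
  obtain ⟨h1, h2, h3⟩ := hA
  have e0 : formQ Q G B A v =
      ∑ q ∈ range P, (gfun G q : ℝ) * (inner ℂ (wQ Q q v) (wQ Q q v) : ℂ).re +
      ∑ q ∈ range P, ∑ j ∈ range (P + 1), ∑ q' ∈ range P, ∑ k ∈ range (P + 1),
        (cfun B q j q' k : ℝ) * (inner ℂ (dQ Q j (wQ Q q v)) (dQ Q k (wQ Q q' v)) : ℂ).re +
      ∑ q ∈ range P, ∑ j ∈ range P, ∑ q' ∈ range P, ∑ k ∈ range P,
        (cfun A q j q' k : ℝ) * (inner ℂ (wQ Q j (wQ Q q v)) (wQ Q k (wQ Q q' v)) : ℂ).re := by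
    rw [sum_gfun (a := P) G h1 (fun q => (inner ℂ (wQ Q q v) (wQ Q q v) : ℂ).re),
      sum_cfun (a := P) (b := P + 1) (c := P) (d := P + 1) B
        (fun x hx => ⟨(h2 x hx).1, Nat.lt_succ_of_le (h2 x hx).2.1, (h2 x hx).2.2.1,
          Nat.lt_succ_of_le (h2 x hx).2.2.2⟩)
        (fun q j q' k => (inner ℂ (dQ Q j (wQ Q q v)) (dQ Q k (wQ Q q' v)) : ℂ).re),
      sum_cfun (a := P) (b := P) (c := P) (d := P) A h3
        (fun q j q' k => (inner ℂ (wQ Q j (wQ Q q v)) (wQ Q k (wQ Q q' v)) : ℂ).re)]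
    rfl
  rw [e0]
  unfold XN ofLists
  simp only [sub_ap, add_ap, sum_ap, inner_sub_right, inner_add_right, inner_sum, Complex.sub_re,
    Complex.add_re, Complex.re_sum, re_inner_smul_star]
  rw [add_div, add_div]
  have a1 : (∑ q ∈ range P, (gfun G q : ℝ) * (inner ℂ (wQ Q q v) (wQ Q q v) : ℂ).re) / D =
      -∑ q ∈ range P, (((-(gfun G q : ℚ) / D : ℚ) : ℝ) * thQ Q q ^ 2) *
        (inner ℂ (WN Q q v) (WN Q q v) : ℂ).re := by
    rw [Finset.sum_div, ← Finset.sum_neg_distrib]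
    refine Finset.sum_congr rfl fun q hq => ?_
    rw [mem_range] at hq
    rw [wQ_eq Q q (by omega), smul_ap, re_inner_smul_smul]
    push_cast; ring
  have a2 : (∑ q ∈ range P, ∑ j ∈ range (P + 1), ∑ q' ∈ range P, ∑ k ∈ range (P + 1),
        (cfun B q j q' k : ℝ) * (inner ℂ (dQ Q j (wQ Q q v)) (dQ Q k (wQ Q q' v)) : ℂ).re) / D =
      ∑ q ∈ range P, ∑ j ∈ range (P + 1), ∑ q' ∈ range P, ∑ k ∈ range (P + 1),
        ((((cfun B q j q' k : ℚ) / D : ℚ) : ℝ) * (thQ Q q * nuQ Q j * (thQ Q q' * nuQ Q k))) *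
          (inner ℂ ((cN Q j * WN Q q) v) ((cN Q k * WN Q q') v) : ℂ).re := by
    simp only [Finset.sum_div]
    refine Finset.sum_congr rfl fun q hq => Finset.sum_congr rfl fun j _ =>
      Finset.sum_congr rfl fun q' hq' => Finset.sum_congr rfl fun k _ => ?_
    rw [mem_range] at hq hq'
    rw [dw_ap Q q j (by omega), dw_ap Q q' k (by omega), re_inner_smul_smul]
    push_cast; ring
  have a3 : (∑ q ∈ range P, ∑ j ∈ range P, ∑ q' ∈ range P, ∑ k ∈ range P,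
        (cfun A q j q' k : ℝ) * (inner ℂ (wQ Q j (wQ Q q v)) (wQ Q k (wQ Q q' v)) : ℂ).re) / D =
      ∑ q ∈ range P, ∑ s ∈ range P, ∑ q' ∈ range P, ∑ s' ∈ range P,
        ((((cfun A q s q' s' : ℚ) / D : ℚ) : ℝ) * (thQ Q q * thQ Q s * (thQ Q q' * thQ Q s'))) *
          (inner ℂ ((WN Q s * WN Q q) v) ((WN Q s' * WN Q q') v) : ℂ).re := by
    simp only [Finset.sum_div]
    refine Finset.sum_congr rfl fun q hq => Finset.sum_congr rfl fun j hj =>
      Finset.sum_congr rfl fun q' hq' => Finset.sum_congr rfl fun k hk => ?_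
    rw [mem_range] at hq hq' hj hk
    rw [ww_ap Q q j (by omega) (by omega), ww_ap Q q' k (by omega) (by omega), re_inner_smul_smul]
    push_cast; ring
  rw [a1, a2, a3]
  ring

/-- a bound for `θ_q²` uniform in `Q` -/
theorem thQ_sq_le (Q q : ℕ) (hq : q + 1 ≤ Q) : thQ Q q ^ 2 ≤ 2 ^ (q + 3) := by
  have hQ : (0:ℝ) < Q := by exact_mod_cast (by omega : 0 < Q)
  have hpn : 0 < pairNorm Q (q + 1) := pairNorm_pos (by omega)
  unfold thQ
  rw [Real.sq_sqrt (by positivity), div_le_iff₀ (by positivity)]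
  have hb1 : (1:ℝ) ≤ ((q + 1 : ℕ) : ℝ) := by exact_mod_cast (by omega : 1 ≤ q + 1)
  have hbQ : ((q + 1 : ℕ) : ℝ) ≤ Q := by exact_mod_cast hq
  have hc := Nat.choose_le_pow_div (q + 1) (2 * Q) (α := ℝ)
  have hfac : ((q + 1 : ℕ) : ℝ) ≤ ((q + 1).factorial : ℝ) := by
    exact_mod_cast Nat.self_le_factorial (q + 1)
  have hfac0 : (0:ℝ) < ((q + 1).factorial : ℝ) := by exact_mod_cast Nat.factorial_pos _
  have h2Q : (0:ℝ) < 2 * (2 * Q - 1 : ℝ) := by linarith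
  have hc0 : (0:ℝ) ≤ ((2 * Q).choose (q + 1) : ℝ) := by positivity
  have h1 : pairNorm Q (q + 1) ≤ ((q + 1 : ℕ) : ℝ) * ((2 * Q).choose (q + 1) : ℝ) := by
    unfold pairNorm
    rw [div_le_iff₀ h2Q]
    have h3 : (2 * (Q:ℝ) - ((q + 1 : ℕ) : ℝ)) ≤ 2 * (2 * (Q:ℝ) - 1) := by linarith
    have h4 : 0 ≤ ((q + 1 : ℕ) : ℝ) * ((2 * Q).choose (q + 1) : ℝ) := by positivity
    nlinarith [mul_le_mul_of_nonneg_left h3 h4]
  have h2 : ((q + 1 : ℕ) : ℝ) * ((2 * Q).choose (q + 1) : ℝ) ≤ ((2 * Q : ℕ) : ℝ) ^ (q + 1) := by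
    calc ((q + 1 : ℕ) : ℝ) * ((2 * Q).choose (q + 1) : ℝ)
        ≤ ((q + 1).factorial : ℝ) * (((2 * Q : ℕ) : ℝ) ^ (q + 1) / ((q + 1).factorial : ℝ)) :=
          mul_le_mul hfac hc hc0 hfac0.le
      _ = _ := by field_simp
  refine (h1.trans h2).trans ?_
  push_cast
  rw [mul_pow]
  refine mul_le_mul_of_nonneg_right ?_ (by positivity)
  exact pow_le_pow_right₀ (by norm_num) (by omega)

theorem locPosN {P : ℕ} {G : List (ℕ × ℤ)} {B A : List (ℕ × ℕ × ℕ × ℕ × ℤ)} (hA : Adm P G B A)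
    (hP : 0 < P) (h : PSD P G B A) {D : ℕ} (hD : 0 < D) :
    LocPosN (Crest.Agent.R340.Lin120.ofLists P G B A D) := by
  obtain ⟨ε, hε0, hε, hmain⟩ := transfer' hA hP h
  intro δ hδ
  have hlim : Filter.Tendsto (fun Q => ε Q * 2 ^ (P + 3)) Filter.atTop (nhds 0) := by
    simpa using hε.mul_const ((2:ℝ) ^ (P + 3))
  have hev : ∀ᶠ Q in Filter.atTop, ε Q * 2 ^ (P + 3) < δ * D := by
    refine hlim.eventually (gt_mem_nhds ?_)
    have : (0:ℝ) < D := by exact_mod_cast hD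
    positivity
  obtain ⟨Q0, hQ0⟩ := Filter.eventually_atTop.1 (hev.and (Filter.eventually_ge_atTop P))
  refine ⟨Q0, fun Q hQ v => ?_⟩
  obtain ⟨h1, hPQ⟩ := hQ0 Q hQ
  have hD' : (0:ℝ) < D := by exact_mod_cast hD
  rw [re_inner_XN hA D hPQ]
  have h2 := hmain Q hPQ v
  have h3 : ∑ q ∈ range P, ‖wQ Q q v‖ ^ 2 ≤ 2 ^ (P + 3) * ∑ q ∈ range P, ‖WN Q q v‖ ^ 2 := by
    rw [Finset.mul_sum]
    refine Finset.sum_le_sum fun q hq => ?_
    rw [mem_range] at hq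
    rw [wQ_eq Q q (by omega), smul_ap, norm_smul, mul_pow, Complex.norm_real, Real.norm_eq_abs,
      sq_abs]
    refine mul_le_mul_of_nonneg_right ((thQ_sq_le Q q (by omega)).trans ?_) (by positivity)
    exact pow_le_pow_right₀ (by norm_num) (by omega)
  have h4 : (0:ℝ) ≤ ∑ q ∈ range P, ‖WN Q q v‖ ^ 2 := Finset.sum_nonneg fun _ _ => by positivity
  have h5 := hε0 Q hPQ
  show -δ * ∑ q ∈ range P, ‖WN Q q v‖ ^ 2 ≤ formQ Q G B A v / D
  rw [le_div_iff₀ hD']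
  have h6 : ε Q * ∑ q ∈ range P, ‖wQ Q q v‖ ^ 2 ≤ ε Q * (2 ^ (P + 3) * ∑ q ∈ range P, ‖WN Q q v‖ ^ 2) :=
    mul_le_mul_of_nonneg_left h3 h5
  have h7 : (ε Q * 2 ^ (P + 3)) * ∑ q ∈ range P, ‖WN Q q v‖ ^ 2 ≤
      (δ * D) * ∑ q ∈ range P, ‖WN Q q v‖ ^ 2 := mul_le_mul_of_nonneg_right h1.le h4
  nlinarith

theorem locPosN_cert8 (h : PSD 8 G8 B8 A8) : LocPosN (Crest.Agent.R340.Lin120.ofLists 8 G8 B8 A8 2048) :=
  locPosN adm (by norm_num) h (by norm_num)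

end Crest.Agent.R340.Tr132
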