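import Crest.Agent.R340.Fin2_249
import Crest.Agent.R340.Tr2_132
import Crest.Agent.R340.GapLaughlin

/-!
# S0533 and S0531 from the finite certificate `PSD 8 G8 B8 A8` (helper249)
-/

set_option autoImplicit false
open scoped BigOperators

namespace Crest.Agent.R340.Kn249

open Crest.MathPhysics.Laughlin

theorem s0533_of_psd (h : Cert132.PSD 8 Cert132.G8 Cert132.B8 Cert132.A8) :
    ∀ γ : ℝ, 0 < γ → γ < 4616733319001 / 10 ^ 14 →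
      ∃ Q₀ : ℕ, ∀ Q : ℕ, Q₀ ≤ Q → ∀ N : ℕ,
        ∀ ψ : (Fin N → Fin (Q + 1)) → ℂ, IsAntisymmetric ψ →
          γ * (star ψ ⬝ᵥ (interaction Q N).mulVec ψ).re ≤
            (star ψ ⬝ᵥ (interaction Q N).mulVec ((interaction Q N).mulVec ψ)).re :=
  s0533_of_loc (Tr132.locPosN_cert8 h)

theorem s0531_of_psd (h : Cert132.PSD 8 Cert132.G8 Cert132.B8 Cert132.A8) :
    ∃ N₀ : ℕ, ∀ N : ℕ, N₀ ≤ N →
      ∀ ψ : (Fin N → Fin (3 * (N - 1) + 1)) → ℂ, IsAntisymmetric ψ →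
        (1 / 25 : ℝ) * ((star ψ ⬝ᵥ ψ).re -
            ‖star (laughlin (3 * (N - 1)) N) ⬝ᵥ ψ‖ ^ 2 /
              (star (laughlin (3 * (N - 1)) N) ⬝ᵥ laughlin (3 * (N - 1)) N).re) ≤
          (star ψ ⬝ᵥ (interaction (3 * (N - 1)) N).mulVec ψ).re :=
  s0531_of_s0533 (s0533_of_psd h)

theorem near8_of_psd (h : Cert132.PSD 8 Cert132.G8 Cert132.B8 Cert132.A8) (γ : ℝ)
    (hγ : γ < 4885 / 10 ^ 5) :
    ∃ Q0 : ℕ, ∀ Q : ℕ, Q0 ≤ Q → ∀ t : Inv Q, γ * t.a ≤ t.N 50 :=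
  near8 (Tr132.locPosN_cert8 h) γ hγ

end Crest.Agent.R340.Kn249
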