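import Mathlib

set_option autoImplicit false
open scoped BigOperators ComplexConjugate
open Finset

namespace Crest.Agent.R340.Pl249

/-- Invariant positive functional attached to the negative spectral subspace of a self-adjoint
operator. -/
theorem exists_tau {E : Type*} [NormedAddCommGroup E] [InnerProductSpace ℂ E]
    [FiniteDimensional ℂ E] (Y : E →L[ℂ] E) (hY : IsSelfAdjoint Y)
    (hneg : ∃ ψ : E, (inner ℂ ψ (Y ψ)).re < 0) :
    ∃ τ : (E →L[ℂ] E) →ₗ[ℂ] ℂ, (∀ A, 0 ≤ (τ (star A * A)).re) ∧
      (∀ A, τ (star A) = conj (τ A)) ∧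
      (∀ J : E →L[ℂ] E, J * Y = Y * J → ∀ A, τ (J * A) = τ (A * J)) ∧ (τ Y).re < 0 := by
  classical
  have hsym : (Y : E →ₗ[ℂ] E).IsSymmetric := by
    intro x y
    have h1 : ContinuousLinearMap.adjoint Y = Y := hY
    have h2 := ContinuousLinearMap.adjoint_inner_left Y y x
    rw [h1] at h2
    exact h2
  set n := Module.finrank ℂ E with hn
  set b := hsym.eigenvectorBasis hn.symm with hb
  set l := hsym.eigenvalues hn.symm with hl
  have hev : ∀ i, Y (b i) = ((l i : ℝ) : ℂ) • b i := fun i =>
    hsym.apply_eigenvectorBasis hn.symm i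
  -- weights
  set w : Fin n → ℝ := fun i => if l i < 0 then 1 else 0 with hw
  have hw0 : ∀ i, 0 ≤ w i := by intro i; simp only [hw]; split_ifs <;> norm_num
  let τ : (E →L[ℂ] E) →ₗ[ℂ] ℂ :=
    { toFun := fun A => ∑ i, (w i : ℂ) * inner ℂ (b i) (A (b i))
      map_add' := by
        intro A B
        simp only [add_apply, inner_add_right, mul_add,
          Finset.sum_add_distrib]
      map_smul' := by
        intro r A
        simp only [smul_apply, inner_smul_right, RingHom.id_apply,
          smul_eq_mul, Finset.mul_sum]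
        refine Finset.sum_congr rfl fun i _ => ?_
        ring }
  have hτ : ∀ A, τ A = ∑ i, (w i : ℂ) * inner ℂ (b i) (A (b i)) := fun A => rfl
  refine ⟨τ, ?_, ?_, ?_, ?_⟩
  · intro A
    rw [hτ, Complex.re_sum]
    refine Finset.sum_nonneg fun i _ => ?_
    have h1 : inner ℂ (b i) ((star A * A) (b i)) = inner ℂ (A (b i)) (A (b i)) := by
      rw [mul_apply_eq_comp, ContinuousLinearMap.star_eq_adjoint,
        ContinuousLinearMap.adjoint_inner_right]
    rw [h1, Complex.re_ofReal_mul]
    exact mul_nonneg (hw0 i) (inner_self_nonneg (𝕜 := ℂ))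
  · intro A
    rw [hτ, hτ, map_sum]
    refine Finset.sum_congr rfl fun i _ => ?_
    rw [map_mul, Complex.conj_ofReal]
    congr 1
    rw [ContinuousLinearMap.star_eq_adjoint, ContinuousLinearMap.adjoint_inner_right,
      inner_conj_symm]
  · intro J hJ A
    have hJb : ∀ i j, l i ≠ l j → inner ℂ (b i) (J (b j)) = 0 := by
      intro i j hij
      have h1 : inner ℂ (b i) ((J * Y) (b j)) = ((l j : ℝ) : ℂ) * inner ℂ (b i) (J (b j)) := by
        rw [mul_apply_eq_comp, hev, map_smul, inner_smul_right]
      have h2 : inner ℂ (b i) ((Y * J) (b j)) = ((l i : ℝ) : ℂ) * inner ℂ (b i) (J (b j)) := by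
        rw [mul_apply_eq_comp]
        have h3 : inner ℂ (Y (b i)) (J (b j)) = inner ℂ (b i) (Y (J (b j))) := hsym _ _
        rw [← h3, hev, inner_smul_left, Complex.conj_ofReal]
      rw [hJ, h2] at h1
      have h4 : (((l i : ℝ) : ℂ) - ((l j : ℝ) : ℂ)) * inner ℂ (b i) (J (b j)) = 0 := by
        linear_combination h1
      rcases mul_eq_zero.mp h4 with h | h
      · exfalso; apply hij
        have : ((l i : ℝ) : ℂ) = ((l j : ℝ) : ℂ) := by linear_combination h
        exact_mod_cast this
      · exact h
    have hexp : ∀ (B C : E →L[ℂ] E) (i : Fin n), inner ℂ (b i) ((B * C) (b i)) =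
        ∑ j, inner ℂ (b i) (B (b j)) * inner ℂ (b j) (C (b i)) := by
      intro B C i
      rw [mul_apply_eq_comp]
      conv_lhs => rw [← b.sum_repr' (C (b i))]
      rw [map_sum, inner_sum]
      refine Finset.sum_congr rfl fun j _ => ?_
      rw [map_smul, inner_smul_right, mul_comm]
    rw [hτ, hτ]
    simp only [hexp, Finset.mul_sum]
    rw [Finset.sum_comm]
    refine Finset.sum_congr rfl fun j _ => Finset.sum_congr rfl fun i _ => ?_
    by_cases hij : l i = l j
    · have : w i = w j := by simp only [hw, hij]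
      rw [this]; ring
    · rw [hJb i j hij]; ring
  · rw [hτ, Complex.re_sum]
    have h1 : ∀ i, ((w i : ℂ) * inner ℂ (b i) (Y (b i))).re = w i * l i := by
      intro i
      rw [hev, inner_smul_right]
      have : inner ℂ (b i) (b i) = (1 : ℂ) := by
        have := b.orthonormal.1 i
        rw [inner_self_eq_norm_sq_to_K, this]; simp
      rw [this, mul_one, ← Complex.ofReal_mul, Complex.ofReal_re]
    simp only [h1]
    have hnp : ∀ i, w i * l i ≤ 0 := by
      intro i
      simp only [hw]
      split_ifs with h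
      · linarith
      · simp
    obtain ⟨i0, hi0⟩ : ∃ i, l i < 0 := by
      by_contra hcon
      push Not at hcon
      obtain ⟨ψ, hψ⟩ := hneg
      have h2 : (inner ℂ ψ (Y ψ)).re = ∑ i, l i * ‖inner ℂ (b i) ψ‖ ^ 2 := by
        have h3 : inner ℂ ψ (Y ψ) = ∑ i, ((l i : ℝ) : ℂ) * ((‖inner ℂ (b i) ψ‖ ^ 2 : ℝ) : ℂ) := by
          conv_lhs => rw [← b.sum_inner_mul_inner ψ (Y ψ)]
          refine Finset.sum_congr rfl fun i _ => ?_
          have h4 : inner ℂ (b i) (Y ψ) = ((l i : ℝ) : ℂ) * inner ℂ (b i) ψ := by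
            have h5 : inner ℂ (Y (b i)) ψ = inner ℂ (b i) (Y ψ) := hsym _ _
            rw [← h5, hev, inner_smul_left, Complex.conj_ofReal]
          rw [h4]
          have h6 : inner ℂ ψ (b i) * inner ℂ (b i) ψ = ((‖inner ℂ (b i) ψ‖ ^ 2 : ℝ) : ℂ) := by
            rw [← inner_conj_symm ψ (b i), ← Complex.normSq_eq_conj_mul_self,
              Complex.normSq_eq_norm_sq]
          rw [← h6]; ring
        rw [h3, Complex.re_sum]
        refine Finset.sum_congr rfl fun i _ => ?_
        rw [← Complex.ofReal_mul, Complex.ofReal_re]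
      rw [h2] at hψ
      have : 0 ≤ ∑ i, l i * ‖inner ℂ (b i) ψ‖ ^ 2 :=
        Finset.sum_nonneg fun i _ => mul_nonneg (hcon i) (by positivity)
      linarith
    calc ∑ i, w i * l i ≤ w i0 * l i0 := by
          have := Finset.sum_le_sum_of_subset_of_nonneg (f := fun i => -(w i * l i))
            (Finset.subset_univ {i0}) (fun i _ _ => by have := hnp i; linarith)
          simp only [Finset.sum_singleton, Finset.sum_neg_distrib] at this
          linarith
      _ < 0 := by
          simp only [hw, if_pos hi0, one_mul]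
          exact hi0

end Crest.Agent.R340.Pl249
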