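import Crest.Agent.R340.Pl7_249
import Crest.Agent.R340.Pl2_249
import Crest.Agent.R340.Bridge_320

set_option autoImplicit false
open scoped BigOperators ComplexConjugate Topology
open Finset Filter

namespace Crest.Agent.R340.Kn249

open Crest.Agent.R340.Fock649 Crest.MathPhysics.Laughlin Crest.Agent.R340.Pl249

variable {Q : ℕ}

theorem star_HN (Q : ℕ) : star (HN Q) = HN Q := by
  unfold HN
  rw [star_sum]
  refine Finset.sum_congr rfl fun q _ => ?_
  rw [star_mul, star_star]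

theorem star_comm_aux {A : Type*} [Ring A] [StarRing A] [Algebra ℂ A] [StarModule ℂ A]
    {X Y Z : A} {r : ℝ} (h : X * Y - Y * X = -(((r : ℝ) : ℂ) • Z)) :
    star X * star Y - star Y * star X = ((r : ℝ) : ℂ) • star Z := by
  have h3 := congrArg star h
  rw [star_sub, star_mul, star_mul, star_neg, star_smul, RCLike.star_def,
    Complex.conj_ofReal] at h3
  rw [← neg_sub, h3, neg_neg]

/-- the commutator of `U` with the partial energy telescopes -/
theorem LadQ.comm_U_partial (hL : LadQ Q) (n : ℕ) :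
    UN Q * (∑ q ∈ range n, star (WN Q q) * WN Q q) -
      (∑ q ∈ range n, star (WN Q q) * WN Q q) * UN Q =
      -(if n = 0 then 0 else ((mu Q (n - 1) : ℝ) : ℂ) • (star (WN Q (n - 1)) * WN Q n)) := by
  induction n with
  | zero => simp
  | succ n ih =>
    rw [Finset.sum_range_succ, mul_add, add_mul, add_sub_add_comm, ih, comm_mul, hL.UW]
    have e1 : UN Q * star (WN Q n) - star (WN Q n) * UN Q =
        if n = 0 then 0 else ((mu Q (n - 1) : ℝ) : ℂ) • star (WN Q (n - 1)) := by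
      rcases n with _ | n
      · have h3 := congrArg star hL.VW0
        rw [star_sub, star_mul, star_mul, star_star, star_zero] at h3
        rw [← neg_sub, h3]; simp
      · have h3 := star_comm_aux (hL.VW n)
        rw [star_star] at h3
        rw [h3]; simp
    rw [e1]
    simp only [Nat.add_sub_cancel, Nat.succ_ne_zero, if_false, mul_neg, mul_smul_comm]
    split_ifs
    · simp
    · rw [smul_mul_assoc]; abel

theorem LadQ.comm_U (hL : LadQ Q) (hQ : 1 ≤ Q) : UN Q * HN Q = HN Q * UN Q := by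
  have h := hL.comm_U_partial (2 * Q - 1)
  have h0 : mu Q (2 * Q - 1 - 1) = 0 := by
    unfold mu
    have : 2 * Q - 2 - (2 * Q - 1 - 1) = 0 := by omega
    rw [this]; simp
  rw [h0] at h
  rw [← sub_eq_zero]
  unfold HN
  rw [h]
  simp

theorem LadQ.comm_V (hL : LadQ Q) (hQ : 1 ≤ Q) : star (UN Q) * HN Q = HN Q * star (UN Q) := by
  have h := congrArg star (hL.comm_U hQ)
  rw [star_mul, star_mul, star_HN] at h
  exact h.symm

theorem LadQ.comm_Z (hL : LadQ Q) : ZN Q * HN Q = HN Q * ZN Q := by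
  rw [← sub_eq_zero]
  unfold HN
  rw [Finset.mul_sum, Finset.sum_mul, ← Finset.sum_sub_distrib]
  refine Finset.sum_eq_zero fun q _ => ?_
  rw [comm_mul, hL.ZW]
  have h3 := congrArg star (hL.ZW q)
  rw [star_sub, star_mul, star_mul, star_neg, star_smul, hL.Zs] at h3
  have h4 : ZN Q * star (WN Q q) - star (WN Q q) * ZN Q = ((q : ℂ) + 1) • star (WN Q q) := by
    rw [← neg_sub, h3, neg_neg]
    congr 1
    simp
  rw [h4, smul_mul_assoc, mul_neg, mul_smul_comm]
  abel

/-- an operator commuting with the ladder can be inserted in the norm identity -/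
theorem Inv.norm_W_mul (hL : LadQ Q) (t : Inv Q) (K : Op (Fin (Q + 1)))
    (hK : star (UN Q) * K = K * star (UN Q)) (q : ℕ) (hq : q < 2 * Q - 1) :
    (t.τ (star (WN Q q) * WN Q q * K)).re = (t.τ (star (WN Q 0) * WN Q 0 * K)).re := by
  induction q with
  | zero => rfl
  | succ q ih =>
    rw [← ih (by omega)]
    have h1 : t.τ (star (UN Q) * (star (WN Q q) * WN Q (q + 1) * K) -
        (star (WN Q q) * WN Q (q + 1) * K) * star (UN Q)) = 0 := by
      rw [map_sub, t.invV, sub_self]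
    rw [comm_mul, comm_mul, hK, sub_self, mul_zero, add_zero] at h1
    have h2 := star_comm_aux (hL.UW q)
    rw [h2, hL.VW, smul_mul_assoc, mul_neg, mul_smul_comm, add_mul, neg_mul, smul_mul_assoc,
      smul_mul_assoc, map_add, map_neg, map_smul, map_smul] at h1
    have h5 := congrArg Complex.re h1
    simp only [smul_eq_mul, Complex.add_re, Complex.neg_re, Complex.re_ofReal_mul,
      Complex.zero_re] at h5
    have hmu : mu Q q ≠ 0 := by
      unfold mu
      apply Real.sqrt_ne_zero'.mpr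
      have : 0 < 2 * Q - 2 - q := by omega
      have h6 : (0 : ℝ) < ((2 * Q - 2 - q : ℕ) : ℝ) := by exact_mod_cast this
      positivity
    have h7 : mu Q q * ((t.τ (star (WN Q (q + 1)) * WN Q (q + 1) * K)).re -
        (t.τ (star (WN Q q) * WN Q q * K)).re) = 0 := by linarith
    rcases mul_eq_zero.mp h7 with h | h
    · exact absurd h hmu
    · linarith

theorem Inv.re_H_mul (hL : LadQ Q) (t : Inv Q) (K : Op (Fin (Q + 1)))
    (hK : star (UN Q) * K = K * star (UN Q)) :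
    (t.τ (HN Q * K)).re = (2 * Q - 1 : ℕ) * (t.τ (star (WN Q 0) * WN Q 0 * K)).re := by
  unfold HN
  rw [Finset.sum_mul, map_sum, Complex.re_sum]
  rw [Finset.sum_congr rfl fun q hq => t.norm_W_mul hL K hK q (by simpa using hq)]
  simp

/-- the energy dominates the near energy -/
theorem Inv.N_le (t : Inv Q) (pw : ℕ) (hpw : pw ≤ 2 * Q - 1) :
    t.N pw ≤ (t.τ (star (WN Q 0) * WN Q 0 * HN Q)).re := by
  have h1 : star (WN Q 0) * WN Q 0 * HN Q = star (WN Q 0) * HN Q * WN Q 0 +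
      star (WN Q 0) * (WN Q 0 * HN Q - HN Q * WN Q 0) := by noncomm_ring
  rw [h1, map_add, Complex.add_re]
  unfold Inv.N
  have h2 : (t.τ (star (WN Q 0) * HN Q * WN Q 0)).re =
      ∑ p ∈ range (2 * Q - 1), (t.τ (star (WN Q p * WN Q 0) * (WN Q p * WN Q 0))).re := by
    unfold HN
    rw [Finset.mul_sum, Finset.sum_mul, map_sum, Complex.re_sum]
    refine Finset.sum_congr rfl fun p _ => ?_
    rw [star_mul]
    simp only [mul_assoc]
  rw [h2]
  have h3 : ∑ p ∈ range pw, (t.τ (star (WN Q p * WN Q 0) * (WN Q p * WN Q 0))).re ≤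
      ∑ p ∈ range (2 * Q - 1), (t.τ (star (WN Q p * WN Q 0) * (WN Q p * WN Q 0))).re :=
    Finset.sum_le_sum_of_subset_of_nonneg (Finset.range_mono hpw) fun p _ _ => t.pos _
  linarith

theorem pv_eq_pairVec (Q : ℕ) (p : Fin (2 * Q - 1)) (i j : Fin (Q + 1)) :
    pv Q p i j = pairVec Q p i j := rfl

theorem HN_eq_HH (Q : ℕ) : HN Q = Br320.HH Q := by
  unfold HN Br320.HH
  rw [Finset.sum_range]
  rfl

/-- `γ H ≤ H²` from the near inequality -/
theorem sq_ge_of_near (hL : LadQ Q) (hQ : 1 ≤ Q) (pw : ℕ) (hpw : pw ≤ 2 * Q - 1) (γ : ℝ)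
    (hnear : ∀ t : Inv Q, γ * t.a ≤ t.N pw) (v : Fk (Fin (Q + 1))) :
    γ * (inner ℂ v (HN Q v) : ℂ).re ≤ (inner ℂ v (HN Q (HN Q v)) : ℂ).re := by
  by_contra hcon
  push Not at hcon
  set Y : Op (Fin (Q + 1)) := HN Q * HN Q - ((γ : ℝ) : ℂ) • HN Q with hY
  have hYs : star Y = Y := by
    rw [hY, star_sub, star_mul, star_smul, star_HN, RCLike.star_def, Complex.conj_ofReal]
  have hneg : ∃ ψ : Fk (Fin (Q + 1)), (inner ℂ ψ (Y.ap ψ) : ℂ).re < 0 := by
    refine ⟨v, ?_⟩
    show (inner ℂ v ((HN Q * HN Q - ((γ : ℝ) : ℂ) • HN Q : Op (Fin (Q + 1))) v) : ℂ).re < 0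
    rw [sub_ap, mul_ap, smul_ap, inner_sub_right, inner_smul_right, Complex.sub_re,
      Complex.re_ofReal_mul]
    linarith
  obtain ⟨τ, h1, h2, h3, h4⟩ := exists_tau Y.ap hYs hneg
  have hcomm : ∀ J : Op (Fin (Q + 1)), J * HN Q = HN Q * J → J * Y = Y * J := by
    intro J hJ
    rw [hY, mul_sub, sub_mul, mul_smul_comm, smul_mul_assoc, hJ, ← mul_assoc, hJ, mul_assoc, hJ,
      mul_assoc]
  let t : Inv Q :=
    { τ := τ
      pos := fun A => h1 A
      herm := fun A => h2 A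
      invU := fun A => h3 (UN Q) (hcomm _ (hL.comm_U hQ)) A
      invV := fun A => h3 (star (UN Q)) (hcomm _ (hL.comm_V hQ)) A
      invZ := fun A => h3 (ZN Q) (hcomm _ hL.comm_Z) A }
  have h5 : (t.τ Y).re < 0 := h4
  have h6 := (hnear t).trans (t.N_le pw hpw)
  have h7 := t.re_H_mul hL (HN Q) (hL.comm_V hQ)
  have h8 := t.re_H_mul hL 1 (by simp)
  rw [mul_one, mul_one] at h8
  rw [hY, map_sub, map_smul, smul_eq_mul, Complex.sub_re, Complex.re_ofReal_mul, h7, h8] at h5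
  have h9 : (0 : ℝ) ≤ ((2 * Q - 1 : ℕ) : ℝ) := by positivity
  have h10 : ((2 * Q - 1 : ℕ) : ℝ) * (γ * t.a) ≤
      ((2 * Q - 1 : ℕ) : ℝ) * (t.τ (star (WN Q 0) * WN Q 0 * HN Q)).re :=
    mul_le_mul_of_nonneg_left h6 h9
  unfold Inv.a at h10
  linarith

/-- S0533 from the certificate. -/
theorem s0533_of_cert {b : ℕ → ℝ} (hF : Facts b) (C : CertN) (hLoc : LocPosN C) (P1 pw : ℕ)
    (γ0 tl : ℝ) (hLin : LinCertN C P1 pw γ0) (htl : ∀ n, ∑ p ∈ Ico P1 n, b p ≤ tl)
    (hγ : 4616733319001 / 10 ^ 14 < γ0 - tl) :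
    ∀ γ : ℝ, 0 < γ → γ < 4616733319001 / 10 ^ 14 →
      ∃ Q₀ : ℕ, ∀ Q : ℕ, Q₀ ≤ Q → ∀ N : ℕ,
        ∀ ψ : (Fin N → Fin (Q + 1)) → ℂ, IsAntisymmetric ψ →
          γ * (star ψ ⬝ᵥ (interaction Q N).mulVec ψ).re ≤
            (star ψ ⬝ᵥ (interaction Q N).mulVec ((interaction Q N).mulVec ψ)).re := by
  refine Br320.s0533_of_fock' fun γ _ hγ' => ?_
  obtain ⟨Q0, hQ0⟩ := near hF C hLoc P1 pw γ0 tl γ hLin htl (hγ'.trans hγ)
  refine ⟨max Q0 (pw + 2), fun Q hQ v => ?_⟩
  have hQ1 : Q0 ≤ Q := le_trans (le_max_left _ _) hQ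
  have hQ2 : pw + 2 ≤ Q := le_trans (le_max_right _ _) hQ
  have := sq_ge_of_near (hF.lad Q (by omega)) (by omega) pw (by omega) γ (hQ0 Q hQ1) v
  rwa [HN_eq_HH] at this

end Crest.Agent.R340.Kn249
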