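import Crest.Agent.R340.Syz_249
import Crest.Agent.R340.Lad_978
import Crest.Agent.R340.Pl8_249

set_option autoImplicit false
open scoped BigOperators Topology
open Finset Filter

namespace Crest.Agent.R340.Kn249

open Crest.Agent.R340.Fock649 Crest.MathPhysics.Laughlin

/-- all analytic and algebraic inputs of the planar argument -/
theorem facts (hC : ∀ Q : ℕ, 2 ≤ Q → Comm0 Q) : Facts bT where
  lad Q _ := Lad978.ladQ Q
  comm0 := hC
  lam_lim := lam_lim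
  mu_lim := mu_lim
  nu_lim := nu_lim
  th_lim := th_lim
  v0_lim := v0_lim
  v1_lim := v1_lim
  Wnorm := Wnorm
  t00 Q _ := t00 Q
  t01 Q _ := t01 Q
  t10 Q _ := t10 Q
  t12 Q _ := t12 Q
  t21 Q hQ := t21 Q (by omega)
  t30 Q hQ := t30 Q (by omega)
  f00 Q _ := f00 Q
  f11 Q _ := f11 Q
  f02 Q _ := f02 Q
  tail Q hQ p _ := tail_bound Q p hQ

/-- S0533 from a certificate with `γ0 = 489/10000`, `P1 = pw = 50`. -/
theorem s0533_of_cert50 (hC : ∀ Q : ℕ, 2 ≤ Q → Comm0 Q) (C : CertN) (hLoc : LocPosN C)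
    (hLin : LinCertN C 50 50 (489 / 10000)) :
    ∀ γ : ℝ, 0 < γ → γ < 4616733319001 / 10 ^ 14 →
      ∃ Q₀ : ℕ, ∀ Q : ℕ, Q₀ ≤ Q → ∀ N : ℕ,
        ∀ ψ : (Fin N → Fin (Q + 1)) → ℂ, IsAntisymmetric ψ →
          γ * (star ψ ⬝ᵥ (interaction Q N).mulVec ψ).re ≤
            (star ψ ⬝ᵥ (interaction Q N).mulVec ((interaction Q N).mulVec ψ)).re := by
  refine s0533_of_cert (facts hC) C hLoc 50 50 (489 / 10000) (1 / 1000) hLin (fun n => ?_) ?_
  · refine (bT_sum 50 n).trans ?_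
    norm_num
  · norm_num

end Crest.Agent.R340.Kn249
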