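import Crest.Agent.R340.LR1_667
import Mathlib.MeasureTheory.Integral.IntervalIntegral.FundThmCalculus
import Mathlib.MeasureTheory.Integral.Bochner.ContinuousLinearMap
import Mathlib.Analysis.InnerProductSpace.Spectrum
import Mathlib.Analysis.InnerProductSpace.Adjoint
import Mathlib.Analysis.Complex.RealDeriv
import Mathlib.Analysis.SpecialFunctions.ExpDeriv
import Mathlib.Analysis.CStarAlgebra.ContinuousLinearMap

/-!
The Hastings filter without a singular kernel (helper667).

For a real function `g` with `∫ g = 1` put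
`Fl B = ∫ g(t) τ_t(B) dt` and `SS B = ∫ g(t) (∫_0^t τ_s(B) ds) dt`.
Then `B = Fl B - i [H, SS B]` (`eq_Fl_sub`), and if `∫ g(t) e^{itl} dt = 0` for `|l| ≥ γ`, `P` is a
projection with `H P = 0` and `H ≥ γ` on `ker P`, then `(1-P) (Fl B) P = 0` (`one_sub_mul_Fl_mul`).
Consequently `(1-P) B P = -i H (SS B) P` (`offdiag_eq`).
-/

set_option autoImplicit false

open scoped ENNReal NNReal
open MeasureTheory

namespace Crest.Agent.R340.LR667

section cstar

variable {A : Type*} [CStarAlgebra A]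

/-- `∫_0^t τ_s(B) ds`. -/
noncomputable def Tt (H : A) (t : ℝ) (B : A) : A := ∫ s in (0 : ℝ)..t, tau H s B

/-- filtered operator -/
noncomputable def Fl (g : ℝ → ℝ) (H B : A) : A := ∫ t, g t • tau H t B

/-- the operator `S(B)` -/
noncomputable def SS (g : ℝ → ℝ) (H B : A) : A := ∫ t, g t • Tt H t B

/-- properties of the filter function used below -/
structure IsFilter (g : ℝ → ℝ) : Prop where
  cont : Continuous g
  int : ∀ n : ℕ, Integrable (fun t => |t| ^ n * |g t|)
  one : ∫ t, g t = 1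

theorem IsFilter.integrable {g : ℝ → ℝ} (hg : IsFilter g) : Integrable g := by
  have h := hg.int 0
  simp only [pow_zero, one_mul] at h
  exact (integrable_norm_iff hg.cont.aestronglyMeasurable).1 h

theorem continuous_Tt (H B : A) : Continuous (fun t => Tt H t B) :=
  intervalIntegral.continuous_primitive
    (fun _ _ => (continuous_tau H B).intervalIntegrable _ _) 0

theorem norm_Tt_le {H : A} (hH : IsSelfAdjoint H) (t : ℝ) (B : A) : ‖Tt H t B‖ ≤ |t| * ‖B‖ := by
  have h := intervalIntegral.norm_integral_le_of_norm_le_const (a := (0 : ℝ)) (b := t)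
    (f := fun s => tau H s B) (C := ‖B‖) (fun s _ => (norm_tau hH s B).le)
  simpa [Tt, mul_comm] using h

theorem integrable_Fl {g : ℝ → ℝ} (hg : IsFilter g) {H : A} (hH : IsSelfAdjoint H) (B : A) :
    Integrable (fun t => g t • tau H t B) := by
  refine (hg.integrable.norm.mul_const ‖B‖).mono'
    ((hg.cont.smul (continuous_tau H B)).aestronglyMeasurable) ?_
  filter_upwards with t
  rw [norm_smul, norm_tau hH]

theorem integrable_SS {g : ℝ → ℝ} (hg : IsFilter g) {H : A} (hH : IsSelfAdjoint H) (B : A) :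
    Integrable (fun t => g t • Tt H t B) := by
  refine ((hg.int 1).mul_const ‖B‖).mono'
    ((hg.cont.smul (continuous_Tt H B)).aestronglyMeasurable) ?_
  filter_upwards with t
  rw [norm_smul, pow_one]
  calc ‖g t‖ * ‖Tt H t B‖ ≤ ‖g t‖ * (|t| * ‖B‖) := by gcongr; exact norm_Tt_le hH t B
    _ = |t| * |g t| * ‖B‖ := by rw [Real.norm_eq_abs]; ring

/-- bracket with a fixed element as a continuous linear map -/
noncomputable def adL (X : A) : A →L[ℝ] A :=
  ContinuousLinearMap.mul ℝ A X - (ContinuousLinearMap.mul ℝ A).flip X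

@[simp] theorem adL_apply (X Y : A) : adL X Y = ⁅X, Y⁆ := by
  simp [adL, Ring.lie_def]

theorem lie_Tt (H B : A) (t : ℝ) : Complex.I • ⁅H, Tt H t B⁆ = tau H t B - B := by
  have h1 : ⁅H, Tt H t B⁆ = ∫ s in (0 : ℝ)..t, ⁅H, tau H s B⁆ := by
    have h := ContinuousLinearMap.intervalIntegral_comp_comm (adL H)
      ((continuous_tau H B).intervalIntegrable (μ := volume) 0 t)
    simp only [adL_apply] at h
    rw [Tt, h]
  have h2 : ∀ s, HasDerivAt (fun s => tau H s B) (Complex.I • ⁅H, tau H s B⁆) s := by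
    intro s
    refine (hasDerivAt_tau H B s).congr_deriv ?_
    rw [tau_smul, tau_lie]
    congr 2
    have : tau H s H = H := by
      rw [tau, ← (U_commute H s).eq, mul_assoc, U_mul_neg, mul_one]
    rw [this]
  have hc : Continuous fun s => Complex.I • ⁅H, tau H s B⁆ := by
    have := continuous_tau H B
    simp only [Ring.lie_def]
    fun_prop
  rw [h1, ← intervalIntegral.integral_smul]
  rw [intervalIntegral.integral_eq_sub_of_hasDerivAt (fun s _ => h2 s)
    (hc.intervalIntegrable _ _)]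
  simp

theorem eq_Fl_sub {g : ℝ → ℝ} (hg : IsFilter g) {H : A} (hH : IsSelfAdjoint H) (B : A) :
    B = Fl g H B - Complex.I • ⁅H, SS g H B⁆ := by
  have h1 : ⁅H, SS g H B⁆ = ∫ t, g t • ⁅H, Tt H t B⁆ := by
    have h := (adL H).integral_comp_comm (integrable_SS hg hH B)
    simp only [adL_apply, map_smul] at h
    rw [SS, ← h]
  have h2 : Complex.I • ⁅H, SS g H B⁆ = ∫ t, g t • (tau H t B - B) := by
    rw [h1, ← integral_smul]
    congr 1
    funext t
    rw [← lie_Tt H B t, smul_comm]
  have h3 : ∫ t, g t • (tau H t B - B) = Fl g H B - B := by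
    simp_rw [smul_sub]
    rw [integral_sub (integrable_Fl hg hH B) (hg.integrable.smul_const B),
      integral_smul_const, hg.one, one_smul]
    rfl
  rw [h2, h3]
  abel

theorem norm_Fl_le {g : ℝ → ℝ} {H : A} (hH : IsSelfAdjoint H) (B : A) :
    ‖Fl g H B‖ ≤ (∫ t, |g t|) * ‖B‖ := by
  rw [Fl, ← integral_mul_const]
  refine (norm_integral_le_integral_norm _).trans_eq ?_
  congr 1
  funext t
  rw [norm_smul, norm_tau hH, Real.norm_eq_abs]

theorem norm_SS_le {g : ℝ → ℝ} (hg : IsFilter g) {H : A} (hH : IsSelfAdjoint H) (B : A) :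
    ‖SS g H B‖ ≤ (∫ t, |t| * |g t|) * ‖B‖ := by
  rw [SS, ← integral_mul_const]
  refine (norm_integral_le_integral_norm _).trans ?_
  refine integral_mono (integrable_SS hg hH B).norm ?_ ?_
  · simpa using (hg.int 1).mul_const ‖B‖
  · intro t
    simp only [norm_smul]
    calc ‖g t‖ * ‖Tt H t B‖ ≤ ‖g t‖ * (|t| * ‖B‖) := by gcongr; exact norm_Tt_le hH t B
      _ = |t| * |g t| * ‖B‖ := by rw [Real.norm_eq_abs]; ring

/-- commutator bound for the filtered operator -/
theorem norm_lie_Fl_le {g : ℝ → ℝ} (hg : IsFilter g) {H : A} (hH : IsSelfAdjoint H) (B y : A)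
    {φ : ℝ → ℝ} (hφi : Integrable fun t => |g t| * φ t)
    (hφ : ∀ t, ‖⁅tau H t B, y⁆‖ ≤ φ t) :
    ‖⁅Fl g H B, y⁆‖ ≤ ∫ t, |g t| * φ t := by
  have h1 : ⁅y, Fl g H B⁆ = ∫ t, g t • ⁅y, tau H t B⁆ := by
    have h := (adL y).integral_comp_comm (integrable_Fl hg hH B)
    simp only [adL_apply, map_smul] at h
    rw [Fl, ← h]
  have h2 : ‖⁅Fl g H B, y⁆‖ = ‖⁅y, Fl g H B⁆‖ := by
    rw [← norm_neg]
    congr 1
    simp only [Ring.lie_def]
    abel
  rw [h2, h1]
  refine (norm_integral_le_integral_norm _).trans ?_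
  refine integral_mono_of_nonneg (Filter.Eventually.of_forall fun t => norm_nonneg _) hφi
    (Filter.Eventually.of_forall fun t => ?_)
  simp only [norm_smul, Real.norm_eq_abs]
  gcongr
  refine le_trans (le_of_eq ?_) (hφ t)
  rw [← norm_neg]
  congr 1
  simp only [Ring.lie_def]
  abel

/-- commutator bound for `S(B)` -/
theorem norm_lie_SS_le {g : ℝ → ℝ} (hg : IsFilter g) {H : A} (hH : IsSelfAdjoint H) (B y : A)
    {φ : ℝ → ℝ} (hφi : Integrable fun t => |t| * |g t| * φ |t|)
    (hmono : MonotoneOn φ (Set.Ici 0))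
    (hφ : ∀ t, ‖⁅tau H t B, y⁆‖ ≤ φ |t|) :
    ‖⁅SS g H B, y⁆‖ ≤ ∫ t, |t| * |g t| * φ |t| := by
  have hcomm : ∀ X : A, ‖⁅X, y⁆‖ = ‖⁅y, X⁆‖ := by
    intro X
    rw [← norm_neg]
    congr 1
    simp only [Ring.lie_def]
    abel
  have h1 : ⁅y, SS g H B⁆ = ∫ t, g t • ⁅y, Tt H t B⁆ := by
    have h := (adL y).integral_comp_comm (integrable_SS hg hH B)
    simp only [adL_apply, map_smul] at h
    rw [SS, ← h]
  have h3 : ∀ t, ‖⁅y, Tt H t B⁆‖ ≤ |t| * φ |t| := by
    intro t
    have h := ContinuousLinearMap.intervalIntegral_comp_comm (adL y)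
      ((continuous_tau H B).intervalIntegrable (μ := volume) 0 t)
    simp only [adL_apply] at h
    rw [Tt, ← h]
    have hb := intervalIntegral.norm_integral_le_of_norm_le_const (a := (0 : ℝ)) (b := t)
      (f := fun s => ⁅y, tau H s B⁆) (C := φ |t|) (by
        intro s hs
        rw [← hcomm]
        refine (hφ s).trans (hmono (abs_nonneg s) (abs_nonneg t) ?_)
        rcases le_total 0 t with ht | ht
        · rw [Set.uIoc_of_le ht] at hs
          rw [abs_of_pos hs.1, abs_of_nonneg ht]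
          exact hs.2
        · rw [Set.uIoc_of_ge ht] at hs
          rw [abs_of_nonpos hs.2, abs_of_nonpos ht]
          linarith [hs.1])
    simpa [mul_comm] using hb
  rw [hcomm, h1]
  refine (norm_integral_le_integral_norm _).trans ?_
  refine integral_mono_of_nonneg (Filter.Eventually.of_forall fun t => norm_nonneg _) hφi
    (Filter.Eventually.of_forall fun t => ?_)
  simp only [norm_smul, Real.norm_eq_abs]
  calc |g t| * ‖⁅y, Tt H t B⁆‖ ≤ |g t| * (|t| * φ |t|) := by gcongr; exact h3 t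
    _ = |t| * |g t| * φ |t| := by ring

end cstar

section hilbert

variable {E : Type*} [NormedAddCommGroup E] [InnerProductSpace ℂ E] [FiniteDimensional ℂ E]

instance : CompleteSpace E := FiniteDimensional.complete ℂ E

theorem norm_U_apply_le {H : E →L[ℂ] E} (hH : IsSelfAdjoint H) (t : ℝ) (y : E) :
    ‖U H t y‖ ≤ ‖y‖ := by
  have h1 : ‖U H t‖ * ‖U H t‖ ≤ 1 := by
    rw [← CStarRing.norm_star_mul_self, star_U hH, U_neg_mul]
    exact ContinuousLinearMap.norm_id_le
  have h2 : ‖U H t‖ ≤ 1 := by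
    by_contra hne
    push Not at hne
    nlinarith
  calc ‖U H t y‖ ≤ ‖U H t‖ * ‖y‖ := ContinuousLinearMap.le_opNorm _ _
    _ ≤ 1 * ‖y‖ := by gcongr
    _ = ‖y‖ := one_mul _

theorem U_apply_eigen (H : E →L[ℂ] E) {v : E} {l : ℝ} (hv : H v = (l : ℂ) • v) (t : ℝ) :
    U H t v = Complex.exp (((t * l : ℝ) : ℂ) * Complex.I) • v := by
  have hd : ∀ s : ℝ, HasDerivAt (fun s : ℝ => Complex.exp (-(((s * l : ℝ) : ℂ) * Complex.I)) •
      U H s v) 0 s := by
    intro s
    have h1 : HasDerivAt (fun s : ℝ => U H s v) ((U H s * (Complex.I • H)) v) s := by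
      have h := (((ContinuousLinearMap.apply ℂ E v).restrictScalars ℝ).hasFDerivAt).comp_hasDerivAt s
        (hasDerivAt_U H s)
      exact h
    have h2 : HasDerivAt (fun s : ℝ => Complex.exp (-(((s * l : ℝ) : ℂ) * Complex.I)))
        (Complex.exp (-(((s * l : ℝ) : ℂ) * Complex.I)) * (-((l : ℂ) * Complex.I))) s := by
      have h3 : HasDerivAt (fun s : ℝ => -(((s * l : ℝ) : ℂ) * Complex.I))
          (-((l : ℂ) * Complex.I)) s := by
        have h4 : HasDerivAt (fun s : ℝ => ((s * l : ℝ) : ℂ)) (l : ℂ) s := by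
          have := ((hasDerivAt_id s).mul_const l).ofReal_comp
          simpa using this
        exact (h4.mul_const Complex.I).neg
      exact h3.cexp
    refine (h2.smul h1).congr_deriv ?_
    simp only [mul_apply_eq_comp, smul_apply, hv, map_smul,
      smul_smul, ← add_smul]
    have : Complex.exp (-(((s * l : ℝ) : ℂ) * Complex.I)) * (Complex.I * (l : ℂ)) +
        Complex.exp (-(((s * l : ℝ) : ℂ) * Complex.I)) * (-((l : ℂ) * Complex.I)) = 0 := by ring
    rw [this, zero_smul]
  have hconst := is_const_of_deriv_eq_zero (fun s => (hd s).differentiableAt)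
    (fun s => (hd s).deriv) t 0
  simp only [zero_mul, Complex.ofReal_zero, neg_zero, Complex.exp_zero, U_zero, one_smul] at hconst
  have h5 : Complex.exp (((t * l : ℝ) : ℂ) * Complex.I) •
      (Complex.exp (-(((t * l : ℝ) : ℂ) * Complex.I)) • U H t v) = U H t v := by
    rw [smul_smul, ← Complex.exp_add]
    simp
  rw [← h5, hconst]
  rfl

/-- `∫ g(t) U(t) dt` kills the gapped part. -/
theorem integral_U_apply_eq_zero {g : ℝ → ℝ} (hg : IsFilter g) {γ : ℝ}
    (hband : ∀ l : ℝ, γ ≤ |l| → ∫ t, (g t : ℂ) * Complex.exp (((t * l : ℝ) : ℂ) * Complex.I) = 0)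
    {H P : E →L[ℂ] E} (hH : IsSelfAdjoint H) (hP : IsSelfAdjoint P) (hPP : P * P = P)
    (hHP : H * P = 0) (hgap : ∀ x, P x = 0 → γ * ‖x‖ ^ 2 ≤ (inner ℂ x (H x)).re)
    {x : E} (hx : P x = 0) : ∫ t, g t • U H t x = 0 := by
  have hPH : P * H = 0 := by
    have := congrArg star hHP
    rwa [star_mul, hH.star_eq, hP.star_eq, star_zero] at this
  have hsym : (H : E →ₗ[ℂ] E).IsSymmetric :=
    (ContinuousLinearMap.isSelfAdjoint_iff_isSymmetric).1 hH
  set b := hsym.eigenvectorBasis rfl with hb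
  have hbe : ∀ i, H (b i) = ((hsym.eigenvalues rfl i : ℝ) : ℂ) • b i := fun i =>
    hsym.apply_eigenvectorBasis rfl i
  have hsum : x = ∑ i, (inner ℂ (b i) x) • b i := (b.sum_repr' x).symm
  have hcont : Continuous (U H) := continuous_iff_continuousAt.2 fun t => (hasDerivAt_U H t).continuousAt
  have hint : ∀ y : E, Integrable (fun t => g t • U H t y) := by
    intro y
    refine (hg.integrable.norm.mul_const ‖y‖).mono'
      ((hg.cont.smul (by fun_prop)).aestronglyMeasurable) ?_
    filter_upwards with t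
    rw [norm_smul]
    gcongr
    exact norm_U_apply_le hH t y
  have hterm : ∀ i, ∫ t, g t • U H t ((inner ℂ (b i) x) • b i) = 0 := by
    intro i
    by_cases hl : γ ≤ |hsym.eigenvalues rfl i|
    · have e : ∀ t, g t • U H t ((inner ℂ (b i) x) • b i) =
          ((g t : ℂ) * Complex.exp (((t * hsym.eigenvalues rfl i : ℝ) : ℂ) * Complex.I)) •
            ((inner ℂ (b i) x) • b i) := by
        intro t
        rw [map_smul, U_apply_eigen H (hbe i), smul_comm (inner ℂ (b i) x), mul_smul]
        rfl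
      simp_rw [e]
      rw [integral_smul_const, hband _ hl, zero_smul]
    · have hy : (b i : E) - P (b i) = 0 := by
        by_contra hne
        have h1 : P (b i - P (b i)) = 0 := by
          rw [map_sub]
          have : P (P (b i)) = P (b i) := by
            rw [← mul_apply_eq_comp, hPP]
          rw [this, sub_self]
        have h2 := hgap _ h1
        have h3 : H (b i - P (b i)) = ((hsym.eigenvalues rfl i : ℝ) : ℂ) • (b i - P (b i)) := by
          have e1 : H (P (b i)) = 0 := by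
            rw [← mul_apply_eq_comp, hHP]; rfl
          have e2 : ((hsym.eigenvalues rfl i : ℝ) : ℂ) • P (b i) = 0 := by
            rw [← map_smul, ← hbe i, ← mul_apply_eq_comp, hPH]; rfl
          rw [map_sub, e1, sub_zero, smul_sub, e2, sub_zero, hbe i]
        rw [h3, inner_smul_right, inner_self_eq_norm_sq_to_K] at h2
        have h4 : ((((hsym.eigenvalues rfl i : ℝ) : ℂ)) *
            ((‖(b i : E) - P (b i)‖ : ℂ)) ^ 2).re =
            hsym.eigenvalues rfl i * ‖(b i : E) - P (b i)‖ ^ 2 := by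
          rw [← Complex.ofReal_pow, ← Complex.ofReal_mul, Complex.ofReal_re]
        erw [h4] at h2
        have h5 : 0 < ‖(b i : E) - P (b i)‖ ^ 2 := by positivity
        have h6 : γ ≤ hsym.eigenvalues rfl i := le_of_mul_le_mul_right h2 h5
        exact hl (h6.trans (le_abs_self _))
      have hin : inner ℂ (b i : E) x = 0 := by
        have e1 : (b i : E) = P (b i) := sub_eq_zero.1 hy
        rw [e1]
        have e2 : inner ℂ (P (b i)) x = inner ℂ (b i : E) (P x) := by
          rw [← ContinuousLinearMap.adjoint_inner_left]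
          congr 2
          exact (ContinuousLinearMap.isSelfAdjoint_iff'.1 hP).symm
        rw [e2, hx, inner_zero_right]
      simp [hin]
  have hx2 : ∀ t, g t • U H t x = ∑ i, g t • U H t ((inner ℂ (b i) x) • b i) := by
    intro t
    conv_lhs => rw [hsum]
    rw [map_sum, Finset.smul_sum]
  simp_rw [hx2]
  rw [integral_finsetSum _ fun i _ => hint _]
  exact Finset.sum_eq_zero fun i _ => hterm i

/-- operator form of `integral_U_apply_eq_zero` -/
theorem filter_kill {g : ℝ → ℝ} (hg : IsFilter g) {γ : ℝ}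
    (hband : ∀ l : ℝ, γ ≤ |l| → ∫ t, (g t : ℂ) * Complex.exp (((t * l : ℝ) : ℂ) * Complex.I) = 0)
    {H P : E →L[ℂ] E} (hH : IsSelfAdjoint H) (hP : IsSelfAdjoint P) (hPP : P * P = P)
    (hHP : H * P = 0) (hgap : ∀ x, P x = 0 → γ * ‖x‖ ^ 2 ≤ (inner ℂ x (H x)).re) :
    ∫ t, g t • (U H t * (1 - P)) = 0 := by
  have hcont : Continuous (U H) :=
    continuous_iff_continuousAt.2 fun t => (hasDerivAt_U H t).continuousAt
  have hint : Integrable (fun t => g t • (U H t * (1 - P))) := by
    refine (hg.integrable.norm.mul_const ‖(1 - P : E →L[ℂ] E)‖).mono'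
      ((hg.cont.smul (by fun_prop)).aestronglyMeasurable) ?_
    filter_upwards with t
    rw [norm_smul, norm_U_mul hH]
  ext x
  rw [ContinuousLinearMap.integral_apply hint]
  have hx : P ((1 - P) x) = 0 := by
    have h1 : P * (1 - P) = 0 := by rw [mul_sub, mul_one, hPP, sub_self]
    have h2 : (P * (1 - P)) x = 0 := by rw [h1]; rfl
    exact h2
  have h := integral_U_apply_eq_zero hg hband hH hP hPP hHP hgap hx
  exact h

end hilbert

section abstract_consequences

variable {A : Type*} [CStarAlgebra A]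

theorem U_mul_of_mul_eq_zero {H P : A} (hHP : H * P = 0) (t : ℝ) : U H t * P = P := by
  have hd : ∀ s : ℝ, HasDerivAt (fun s => U H s * P) 0 s := by
    intro s
    refine ((hasDerivAt_U H s).mul_const P).congr_deriv ?_
    rw [mul_assoc, smul_mul_assoc, hHP, smul_zero, mul_zero]
  have h := is_const_of_deriv_eq_zero (fun s => (hd s).differentiableAt)
    (fun s => (hd s).deriv) t 0
  simpa using h

theorem mul_eq_zero_comm' {H P : A} (hH : IsSelfAdjoint H) (hP : IsSelfAdjoint P)
    (hHP : H * P = 0) : P * H = 0 := by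
  have := congrArg star hHP
  rwa [star_mul, hH.star_eq, hP.star_eq, star_zero] at this

theorem U_comm_P {H P : A} (hH : IsSelfAdjoint H) (hP : IsSelfAdjoint P) (hHP : H * P = 0)
    (t : ℝ) : P * U H t = P := by
  have h := congrArg star (U_mul_of_mul_eq_zero hHP (-t))
  rwa [star_mul, star_U hH, neg_neg, hP.star_eq] at h

theorem tau_mul_P {H P : A} (hHP : H * P = 0) (t : ℝ) (B : A) :
    tau H t B * P = U H t * (B * P) := by
  rw [tau, mul_assoc, U_mul_of_mul_eq_zero hHP, mul_assoc]

/-- the filtered operator has no matrix elements across the gap -/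
theorem one_sub_mul_Fl_mul {g : ℝ → ℝ} (hg : IsFilter g) {H P : A} (hH : IsSelfAdjoint H)
    (hP : IsSelfAdjoint P) (hHP : H * P = 0)
    (hkill : ∫ t, g t • (U H t * (1 - P)) = 0) (B : A) : (1 - P) * Fl g H B * P = 0 := by
  have hcont : Continuous (U H) :=
    continuous_iff_continuousAt.2 fun t => (hasDerivAt_U H t).continuousAt
  have hcomm : ∀ t, (1 - P) * U H t = U H t * (1 - P) := by
    intro t
    rw [sub_mul, mul_sub, one_mul, mul_one, U_comm_P hH hP hHP, U_mul_of_mul_eq_zero hHP]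
  let L1 : A →L[ℝ] A := (ContinuousLinearMap.mul ℝ A (1 - P)).comp
    ((ContinuousLinearMap.mul ℝ A).flip P)
  let L2 : A →L[ℝ] A := (ContinuousLinearMap.mul ℝ A).flip (B * P)
  have h1 : (1 - P) * Fl g H B * P = ∫ t, L1 (g t • tau H t B) := by
    rw [L1.integral_comp_comm (integrable_Fl hg hH B)]
    change (1 - P) * Fl g H B * P = (1 - P) * (Fl g H B * P)
    rw [mul_assoc]
  have hint : Integrable (fun t => g t • (U H t * (1 - P))) := by
    refine (hg.integrable.norm.mul_const ‖(1 - P : A)‖).mono'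
      ((hg.cont.smul (by fun_prop)).aestronglyMeasurable) ?_
    filter_upwards with t
    rw [norm_smul, norm_U_mul hH]
  have h2 : ∀ t, L1 (g t • tau H t B) = L2 (g t • (U H t * (1 - P))) := by
    intro t
    simp only [L1, L2, ContinuousLinearMap.comp_apply, ContinuousLinearMap.flip_apply,
      ContinuousLinearMap.mul_apply', map_smul]
    rw [tau_mul_P hHP, ← mul_assoc, hcomm]
  rw [h1]
  simp_rw [h2]
  rw [L2.integral_comp_comm hint, hkill, map_zero]

theorem mul_Fl_mul_one_sub {g : ℝ → ℝ} (hg : IsFilter g) {H P : A} (hH : IsSelfAdjoint H)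
    (hP : IsSelfAdjoint P) (hHP : H * P = 0)
    (hkill : ∫ t, g t • (U H t * (1 - P)) = 0) (B : A) : P * Fl g H B * (1 - P) = 0 := by
  have h := one_sub_mul_Fl_mul hg hH hP hHP hkill (star B)
  have hs : star (Fl g H (star B)) = Fl g H B := by
    rw [Fl, Fl]
    have := (starL' ℝ : A ≃L[ℝ] A).integral_comp_comm (fun t => g t • tau H t (star B))
      (μ := volume)
    simp only [starL'_apply] at this
    rw [← this]
    congr 1
    funext t
    rw [star_smul, tau_star hH, star_star]
    simp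
  have h2 := congrArg star h
  rw [star_mul, star_mul, star_zero, star_sub, star_one, hP.star_eq, hs, ← mul_assoc] at h2
  exact h2

/-- the filtered operator commutes with the projection -/
theorem Fl_commute {g : ℝ → ℝ} (hg : IsFilter g) {H P : A} (hH : IsSelfAdjoint H)
    (hP : IsSelfAdjoint P) (hHP : H * P = 0)
    (hkill : ∫ t, g t • (U H t * (1 - P)) = 0) (B : A) : P * Fl g H B = Fl g H B * P := by
  have h1 := one_sub_mul_Fl_mul hg hH hP hHP hkill B
  have h2 := mul_Fl_mul_one_sub hg hH hP hHP hkill B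
  rw [sub_mul, sub_mul, one_mul, sub_eq_zero] at h1
  rw [mul_sub, mul_one, sub_eq_zero] at h2
  rw [h2, h1]

/-- **Off-diagonal part of a local operator**: `(1-P) B P = -i H S(B) P`. -/
theorem offdiag_eq {g : ℝ → ℝ} (hg : IsFilter g) {H P : A} (hH : IsSelfAdjoint H)
    (hP : IsSelfAdjoint P) (hHP : H * P = 0)
    (hkill : ∫ t, g t • (U H t * (1 - P)) = 0) (B : A) :
    (1 - P) * B * P = -(Complex.I • (H * SS g H B * P)) := by
  have h0 := eq_Fl_sub hg hH B
  have h1 := one_sub_mul_Fl_mul hg hH hP hHP hkill B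
  have hPH := mul_eq_zero_comm' hH hP hHP
  have e1 : (1 - P) * ⁅H, SS g H B⁆ * P = H * SS g H B * P := by
    rw [Ring.lie_def, mul_sub, sub_mul]
    have e2 : (1 - P) * (SS g H B * H) * P = 0 := by
      rw [mul_assoc, mul_assoc, hHP, mul_zero, mul_zero]
    have e3 : (1 - P) * (H * SS g H B) * P = H * SS g H B * P := by
      rw [← mul_assoc, sub_mul, one_mul, hPH, sub_zero]
    rw [e2, e3, sub_zero]
  calc (1 - P) * B * P = (1 - P) * (Fl g H B - Complex.I • ⁅H, SS g H B⁆) * P := by rw [← h0]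
    _ = (1 - P) * Fl g H B * P - Complex.I • ((1 - P) * ⁅H, SS g H B⁆ * P) := by
        rw [mul_sub, sub_mul, mul_smul_comm, smul_mul_assoc]
    _ = -(Complex.I • (H * SS g H B * P)) := by rw [h1, e1, zero_sub]

variable {S : Type*} [MeasurableSpace S] (μ : Measure S)

/-- `P A H Y P` in terms of commutators with the local pair annihilators. -/
theorem mul_H_mul_eq {H P : A} {b : S → A} (hb : Integrable (fun z => star (b z) * b z) μ)
    (hH : H = ∫ z, star (b z) * b z ∂μ) (hP : IsSelfAdjoint P) (hbP : ∀ z, b z * P = 0)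
    (X Y : A) : P * X * H * Y * P = ∫ z, P * ⁅X, star (b z)⁆ * (⁅b z, Y⁆ * P) ∂μ := by
  let L1 : A →L[ℝ] A := (ContinuousLinearMap.mul ℝ A (P * X)).comp
    ((ContinuousLinearMap.mul ℝ A).flip (Y * P))
  have h1 : P * X * H * Y * P = ∫ z, L1 (star (b z) * b z) ∂μ := by
    rw [L1.integral_comp_comm hb, ← hH]
    change P * X * H * Y * P = P * X * (H * (Y * P))
    simp only [mul_assoc]
  rw [h1]
  congr 1
  funext z
  have hPb : P * star (b z) = 0 := by
    have := congrArg star (hbP z)
    rwa [star_mul, hP.star_eq, star_zero] at this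
  have e1 : P * ⁅X, star (b z)⁆ = P * X * star (b z) := by
    rw [Ring.lie_def, mul_sub, ← mul_assoc, ← mul_assoc, hPb, zero_mul, sub_zero]
  have e2 : ⁅b z, Y⁆ * P = b z * (Y * P) := by
    rw [Ring.lie_def, sub_mul, mul_assoc Y, hbP, mul_zero, sub_zero, mul_assoc]
  rw [e1, e2]
  simp [L1, mul_assoc]

/-- **Clustering**: `P X (1-P) B P` is an integral of products of commutators with the local
pair annihilators. -/
theorem cluster_eq {g : ℝ → ℝ} (hg : IsFilter g) {H P : A} (hH : IsSelfAdjoint H)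
    (hP : IsSelfAdjoint P) (hHP : H * P = 0)
    (hkill : ∫ t, g t • (U H t * (1 - P)) = 0)
    {b : S → A} (hb : Integrable (fun z => star (b z) * b z) μ)
    (hHb : H = ∫ z, star (b z) * b z ∂μ) (hbP : ∀ z, b z * P = 0) (X B : A) :
    P * X * (1 - P) * B * P =
      -(Complex.I • ∫ z, P * ⁅X, star (b z)⁆ * (⁅b z, SS g H B⁆ * P) ∂μ) := by
  have h := offdiag_eq hg hH hP hHP hkill B
  have e : P * X * (1 - P) * B * P = P * X * ((1 - P) * B * P) := by simp only [mul_assoc]
  rw [e, h, mul_neg, mul_smul_comm, ← mul_H_mul_eq μ hb hHb hP hbP]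
  simp only [mul_assoc]

theorem cluster_le {g : ℝ → ℝ} (hg : IsFilter g) {H P : A} (hH : IsSelfAdjoint H)
    (hP : IsSelfAdjoint P) (hP1 : ‖P‖ ≤ 1) (hHP : H * P = 0)
    (hkill : ∫ t, g t • (U H t * (1 - P)) = 0)
    {b : S → A} (hb : Integrable (fun z => star (b z) * b z) μ)
    (hHb : H = ∫ z, star (b z) * b z ∂μ) (hbP : ∀ z, b z * P = 0) (X B : A) :
    ‖P * X * (1 - P) * B * P‖ₑ ≤
      ∫⁻ z, ‖⁅X, star (b z)⁆‖ₑ * ‖⁅b z, SS g H B⁆‖ₑ ∂μ := by
  rw [cluster_eq μ hg hH hP hHP hkill hb hHb hbP, enorm_neg, enorm_smul]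
  have hI : ‖Complex.I‖ₑ = 1 := by simp [enorm_eq_nnnorm]
  rw [hI, one_mul]
  refine (enorm_integral_le_lintegral_enorm _).trans (lintegral_mono fun z => ?_)
  have em : ∀ y z : A, ‖y * z‖ₑ ≤ ‖y‖ₑ * ‖z‖ₑ := fun y z => by
    simp only [enorm_eq_nnnorm]
    exact_mod_cast nnnorm_mul_le y z
  have hPe : ‖P‖ₑ ≤ 1 := by
    rw [← ofReal_norm, ← ENNReal.ofReal_one]
    exact ENNReal.ofReal_le_ofReal hP1
  calc ‖P * ⁅X, star (b z)⁆ * (⁅b z, SS g H B⁆ * P)‖ₑ
      ≤ (‖P‖ₑ * ‖⁅X, star (b z)⁆‖ₑ) * (‖⁅b z, SS g H B⁆‖ₑ * ‖P‖ₑ) := by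
        refine (em _ _).trans ?_
        gcongr
        · exact em _ _
        · exact em _ _
    _ ≤ (1 * ‖⁅X, star (b z)⁆‖ₑ) * (‖⁅b z, SS g H B⁆‖ₑ * 1) := by gcongr
    _ = _ := by rw [one_mul, mul_one]

end abstract_consequences

end Crest.Agent.R340.LR667
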