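import Mathlib
import Crest.Agent.R340.LR3_667
import Crest.Agent.R202.LinODE

/-!
R340 (S0532), block L9a, part 1 (helper644): filtered operators for a self-adjoint `K` on a
finite-dimensional Hilbert space, on top of helper667's `Fl`, `SS`.

* `IsBand g β`: filter with `∫ g = 1` and `ĝ = 0` for `|ω| ≥ β`;
* `HasGapS S K g e ψ`: `ψ` is a unit ground vector of `K` in the sector `S` with gap `≥ g`;
* `Fl_ground`: `Fl g K V ψ = ⟪ψ, V ψ⟫ ψ` for the ground vector of an invariant sector with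
  gap `≥ β`.
-/

set_option autoImplicit false
set_option linter.unusedSectionVars false

open scoped InnerProductSpace
open MeasureTheory Complex
open Crest.Agent.R340
open Crest.Agent.R340.LR667 (tau U Fl SS Tt IsFilter)

namespace Crest.Agent.R340.Flow644

variable {E : Type*} [NormedAddCommGroup E] [InnerProductSpace ℂ E] [CompleteSpace E]

/-- band-limited filter -/
structure IsBand (g : ℝ → ℝ) (β : ℝ) : Prop extends IsFilter g where
  band : ∀ l : ℝ, β ≤ |l| → ∫ t, (g t : ℂ) * Complex.exp (((t * l : ℝ) : ℂ) * Complex.I) = 0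

/-- `∫ f(t) e^{iωt} dt`. -/
noncomputable def hat (f : ℝ → ℝ) (ω : ℝ) : ℂ :=
  ∫ t, (f t : ℂ) * Complex.exp (((t * ω : ℝ) : ℂ) * Complex.I)

theorem IsBand.hat_zero {g : ℝ → ℝ} {β : ℝ} (hg : IsBand g β) : hat g 0 = 1 := by
  have h := hg.one
  simp only [hat, mul_zero, ofReal_zero, zero_mul, Complex.exp_zero, mul_one]
  rw [integral_complex_ofReal, h]
  simp

/-- `ψ` is a unit ground vector of `K` in the sector `S`, energy `e`, gap at least `g`. -/
def HasGapS (S : Submodule ℂ E) (K : E →L[ℂ] E) (g e : ℝ) (ψ : E) : Prop :=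
  ψ ∈ S ∧ ‖ψ‖ = 1 ∧ K ψ = (e : ℂ) • ψ ∧
    ∀ χ ∈ S, ⟪ψ, χ⟫_ℂ = 0 → (e + g) * ‖χ‖ ^ 2 ≤ (⟪χ, K χ⟫_ℂ).re

section findim

variable [FiniteDimensional ℂ E]

theorem inner_tau_eigen {K : E →L[ℂ] E} (hK : IsSelfAdjoint K) (V : E →L[ℂ] E) {x y : E}
    {l m : ℝ} (hx : K x = (l : ℂ) • x) (hy : K y = (m : ℂ) • y) (t : ℝ) :
    ⟪x, tau K t V y⟫_ℂ = cexp (((t * (l - m) : ℝ) : ℂ) * I) * ⟪x, V y⟫_ℂ := by
  have e1 : tau K t V y = U K t (V (U K (-t) y)) := rfl
  have e2 : ⟪x, U K t (V (U K (-t) y))⟫_ℂ =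
      ⟪U K (-t) x, V (U K (-t) y)⟫_ℂ := by
    rw [← LR667.star_U hK, ContinuousLinearMap.star_eq_adjoint,
      ContinuousLinearMap.adjoint_inner_left]
  rw [e1, e2, LR667.U_apply_eigen K hx, LR667.U_apply_eigen K hy, map_smul, inner_smul_left,
    inner_smul_right, ← mul_assoc, ← Complex.exp_conj, ← Complex.exp_add]
  congr 2
  simp only [map_mul, conj_ofReal, conj_I]
  push_cast
  ring

theorem inner_Fl_eigen {K : E →L[ℂ] E} (hK : IsSelfAdjoint K) {f : ℝ → ℝ} (hf : IsFilter f)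
    (V : E →L[ℂ] E) {x y : E}
    {l m : ℝ} (hx : K x = (l : ℂ) • x) (hy : K y = (m : ℂ) • y) :
    ⟪x, Fl f K V y⟫_ℂ = hat f (l - m) * ⟪x, V y⟫_ℂ := by
  have hi := LR667.integrable_Fl hf hK V
  have h1 : Fl f K V y = ∫ t, (f t • tau K t V) y := by
    rw [Fl, ContinuousLinearMap.integral_apply hi]
  have h2 : Integrable fun t => (f t • tau K t V) y :=
    (ContinuousLinearMap.apply ℂ E y).integrable_comp hi
  rw [h1, ← integral_inner h2, hat, ← integral_mul_const]
  congr 1
  funext t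
  have h3 : (f t • tau K t V) y = (f t : ℂ) • (tau K t V y) := by
    simp
  rw [h3, inner_smul_right, inner_tau_eigen hK V hx hy]
  ring

theorem inner_K_eigen {K : E →L[ℂ] E} (hK : IsSelfAdjoint K) {x : E} {l : ℝ}
    (hx : K x = (l : ℂ) • x) (y : E) : ⟪x, K y⟫_ℂ = (l : ℂ) * ⟪x, y⟫_ℂ := by
  have h := hK.isSymmetric x y
  change ⟪K x, y⟫_ℂ = ⟪x, K y⟫_ℂ at h
  rw [← h, hx, inner_smul_left]
  simp

theorem exists_eigenbasis {K : E →L[ℂ] E} (hK : IsSelfAdjoint K) :
    ∃ (n : ℕ) (b : OrthonormalBasis (Fin n) ℂ E) (l : Fin n → ℝ), ∀ i, K (b i) = (l i : ℂ) • b i := by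
  have hs : (K : E →ₗ[ℂ] E).IsSymmetric := hK.isSymmetric
  exact ⟨_, hs.eigenvectorBasis rfl, hs.eigenvalues rfl, fun i => hs.apply_eigenvectorBasis rfl i⟩

theorem vec_ext_eigen {K : E →L[ℂ] E} (hK : IsSelfAdjoint K) {u v : E}
    (h : ∀ (x : E) (l : ℝ), K x = (l : ℂ) • x → ⟪x, u⟫_ℂ = ⟪x, v⟫_ℂ) : u = v := by
  obtain ⟨n, b, l, hb⟩ := exists_eigenbasis hK
  refine b.repr.injective ?_
  ext i
  rw [b.repr_apply_apply, b.repr_apply_apply]
  exact h (b i) (l i) (hb i)

end findim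

section sector

variable {S : Submodule ℂ E} {K V : E →L[ℂ] E}

/-- in a sector with a gap, an eigenvector of `K` in the sector orthogonal to the ground
vector has energy at least `e + g` -/
theorem HasGapS.le_eigen {g e : ℝ} {ψ : E} (h : HasGapS S K g e ψ) {x : E} (hxS : x ∈ S)
    (hx0 : x ≠ 0) {l : ℝ} (hx : K x = (l : ℂ) • x) (hort : ⟪ψ, x⟫_ℂ = 0) : e + g ≤ l := by
  have h1 := h.2.2.2 x hxS hort
  rw [hx, inner_smul_right, inner_self_eq_norm_sq_to_K] at h1
  have h2 : ((l : ℂ) * ((‖x‖ : ℝ) : ℂ) ^ 2).re = l * ‖x‖ ^ 2 := by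
    rw [← ofReal_pow, ← ofReal_mul, ofReal_re]
  have h3 : 0 < ‖x‖ ^ 2 := by positivity
  have h4 : (e + g) * ‖x‖ ^ 2 ≤ l * ‖x‖ ^ 2 := by
    rw [← h2]
    exact h1
  exact le_of_mul_le_mul_right h4 h3

theorem inner_self_one {ψ : E} (h1 : ‖ψ‖ = 1) : ⟪ψ, ψ⟫_ℂ = 1 := by
  rw [inner_self_eq_norm_sq_to_K, h1]; simp

theorem orth_sub {ψ : E} (h1 : ‖ψ‖ = 1) (x : E) : ⟪ψ, x - ⟪ψ, x⟫_ℂ • ψ⟫_ℂ = 0 := by
  rw [inner_sub_right, inner_smul_right, inner_self_one h1]; simp

variable [FiniteDimensional ℂ E]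

/-- a self-adjoint operator preserving a subspace commutes with its projection -/
theorem commute_proj (hK : IsSelfAdjoint K) (hKS : ∀ x ∈ S, K x ∈ S) :
    Commute S.starProjection K := by
  ext x
  change S.starProjection (K x) = K (S.starProjection x)
  have h1 : x = S.starProjection x + (x - S.starProjection x) := by abel
  have h2 : K (x - S.starProjection x) ∈ Sᗮ := by
    rw [Submodule.mem_orthogonal]
    intro u hu
    have h3 := hK.isSymmetric u (x - S.starProjection x)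
    change ⟪K u, x - S.starProjection x⟫_ℂ = ⟪u, K (x - S.starProjection x)⟫_ℂ at h3
    rw [← h3]
    exact inner_eq_zero_symm.1 (Submodule.starProjection_inner_eq_zero x _ (hKS u hu))
  have h4 : K x = K (S.starProjection x) + K (x - S.starProjection x) := by
    rw [← map_add, ← h1]
  rw [h4, map_add, Submodule.starProjection_eq_self_iff.2
    (hKS _ (Submodule.starProjection_apply_mem _ _)),
    (Submodule.starProjection_apply_eq_zero_iff _).2 h2, add_zero]

theorem mem_of_commute (hK : Commute S.starProjection K) {x : E} (hx : x ∈ S) : K x ∈ S := by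
  rw [← Submodule.starProjection_eq_self_iff] at hx ⊢
  have : S.starProjection (K x) = K (S.starProjection x) := by
    have := congrArg (fun T : E →L[ℂ] E => T x) hK.eq
    exact this
  rw [this, hx]

end sector

section comm

variable {A : Type*} [CStarAlgebra A] {P K V : A}

theorem commute_U (h : Commute P K) (t : ℝ) : Commute P (U K t) := by
  let _ : NormedAlgebra ℚ A := NormedAlgebra.restrictScalars ℚ ℂ A
  have h : Commute P (t • (Complex.I • K)) := (h.smul_right Complex.I).smul_right t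
  exact h.exp_right

theorem commute_tau (h : Commute P K) (hV : Commute P V) (t : ℝ) : Commute P (tau K t V) :=
  ((commute_U h t).mul_right hV).mul_right (commute_U h (-t))

theorem commute_iff_adL (X : A) : Commute P X ↔ LR667.adL P X = 0 := by
  rw [LR667.adL_apply, Ring.lie_def, sub_eq_zero]
  rfl

theorem commute_Tt (h : Commute P K) (hV : Commute P V) (t : ℝ) : Commute P (Tt K t V) := by
  rw [commute_iff_adL, Tt]
  have h1 := ContinuousLinearMap.intervalIntegral_comp_comm (LR667.adL P)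
    ((LR667.continuous_tau K V).intervalIntegrable (μ := volume) 0 t)
  rw [← h1]
  have h2 : ∀ s, LR667.adL P (tau K s V) = 0 := fun s => (commute_iff_adL _).1 (commute_tau h hV s)
  simp [h2]

theorem commute_SS {g : ℝ → ℝ} (hg : IsFilter g) (hK : IsSelfAdjoint K) (h : Commute P K)
    (hV : Commute P V) : Commute P (SS g K V) := by
  rw [commute_iff_adL, SS]
  rw [← (LR667.adL P).integral_comp_comm (LR667.integrable_SS hg hK V)]
  have h2 : ∀ t, LR667.adL P (g t • Tt K t V) = 0 := fun t => by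
    rw [map_smul, (commute_iff_adL _).1 (commute_Tt h hV t), smul_zero]
  simp [h2]

theorem commute_Fl {g : ℝ → ℝ} (hg : IsFilter g) (hK : IsSelfAdjoint K) (h : Commute P K)
    (hV : Commute P V) : Commute P (Fl g K V) := by
  rw [commute_iff_adL, Fl]
  rw [← (LR667.adL P).integral_comp_comm (LR667.integrable_Fl hg hK V)]
  have h2 : ∀ t, LR667.adL P (g t • tau K t V) = 0 := fun t => by
    rw [map_smul, (commute_iff_adL _).1 (commute_tau h hV t), smul_zero]
  simp [h2]

theorem star_Tt (hK : IsSelfAdjoint K) (t : ℝ) (X : A) : star (Tt K t X) = Tt K t (star X) := by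
  have h := ContinuousLinearMap.intervalIntegral_comp_comm
    ((starL' ℝ : A ≃L[ℝ] A) : A →L[ℝ] A)
    ((LR667.continuous_tau K X).intervalIntegrable (μ := volume) 0 t)
  have e1 : ∀ x : A, ((starL' ℝ : A ≃L[ℝ] A) : A →L[ℝ] A) x = star x := fun x => rfl
  simp only [e1] at h
  rw [Tt, ← h, Tt]
  congr 1
  funext s
  rw [LR667.tau_star hK]

theorem star_SS {g : ℝ → ℝ} (hK : IsSelfAdjoint K) (X : A) :
    star (SS g K X) = SS g K (star X) := by
  have h := (starL' ℝ : A ≃L[ℝ] A).integral_comp_comm (fun t => g t • Tt K t X) (μ := volume)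
  have e1 : ∀ x : A, (starL' ℝ : A ≃L[ℝ] A) x = star x := fun x => rfl
  simp only [e1] at h
  rw [SS, ← h, SS]
  congr 1
  funext t
  rw [star_smul, star_Tt hK]
  simp

theorem star_Fl {g : ℝ → ℝ} (hK : IsSelfAdjoint K) (X : A) :
    star (Fl g K X) = Fl g K (star X) := by
  have h := (starL' ℝ : A ≃L[ℝ] A).integral_comp_comm (fun t => g t • tau K t X) (μ := volume)
  have e1 : ∀ x : A, (starL' ℝ : A ≃L[ℝ] A) x = star x := fun x => rfl
  simp only [e1] at h
  rw [Fl, ← h, Fl]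
  congr 1
  funext t
  rw [star_smul, LR667.tau_star hK]
  simp

end comm

section ground

variable {S : Submodule ℂ E} {K V : E →L[ℂ] E} [FiniteDimensional ℂ E]

/-- `V^ ψ = ⟪ψ, V ψ⟫ ψ` for the ground vector. -/
theorem Fl_ground (hK : IsSelfAdjoint K) {β g e : ℝ} (hβ : 0 < β) (hβg : β ≤ g)
    {w : ℝ → ℝ} (hf : IsBand w β)
    (hKS : ∀ x ∈ S, K x ∈ S) (hV : Commute S.starProjection V) {ψ : E} (h : HasGapS S K g e ψ) :
    Fl w K V ψ = ⟪ψ, V ψ⟫_ℂ • ψ := by
  have hc := commute_proj hK hKS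
  -- eigenvectors in the sector
  have key : ∀ (x : E), x ∈ S → ∀ l : ℝ, K x = (l : ℂ) • x →
      ⟪x, Fl w K V ψ⟫_ℂ = ⟪x, ⟪ψ, V ψ⟫_ℂ • ψ⟫_ℂ := by
    intro x hxS l hx
    rw [inner_Fl_eigen hK hf.toIsFilter V hx h.2.2.1]
    by_cases hle : l = e
    · -- `x` is a multiple of `ψ`
      set χ := x - ⟪ψ, x⟫_ℂ • ψ with hχ
      have hχS : χ ∈ S := S.sub_mem hxS (S.smul_mem _ h.1)
      have hχ0 : χ = 0 := by
        by_contra h0
        have hKχ : K χ = (e : ℂ) • χ := by
          rw [hχ, map_sub, map_smul, hx, h.2.2.1, hle, smul_sub, smul_comm]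
        have := h.le_eigen hχS h0 hKχ (orth_sub h.2.1 x)
        linarith
      have hx' : x = ⟪ψ, x⟫_ℂ • ψ := by rwa [hχ, sub_eq_zero] at hχ0
      rw [hle, sub_self, hf.hat_zero, one_mul, hx', inner_smul_left, inner_smul_left,
        inner_smul_right, inner_self_one h.2.1, mul_one]
    · -- orthogonal
      have hort : ⟪ψ, x⟫_ℂ = 0 := by
        have h1 := inner_K_eigen hK h.2.2.1 x
        rw [hx, inner_smul_right] at h1
        have h2 : ((l : ℂ) - e) * ⟪ψ, x⟫_ℂ = 0 := by rw [sub_mul, h1, sub_self]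
        rcases mul_eq_zero.1 h2 with h3 | h3
        · exact absurd (by exact_mod_cast sub_eq_zero.1 h3) hle
        · exact h3
      have hort' : ⟪x, ψ⟫_ℂ = 0 := inner_eq_zero_symm.1 hort
      rw [inner_smul_right, hort', mul_zero]
      by_cases hx0 : x = 0
      · simp [hx0]
      · have h1 := h.le_eigen hxS hx0 hx hort
        have h2 : β ≤ |l - e| := by
          rw [abs_of_nonneg (by linarith)]; linarith
        have h3 : hat w (l - e) = 0 := hf.band _ h2
        rw [h3, zero_mul]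
  refine vec_ext_eigen hK fun x l hx => ?_
  have hPx : K (S.starProjection x) = (l : ℂ) • S.starProjection x := by
    have : K (S.starProjection x) = S.starProjection (K x) :=
      (congrArg (fun T : E →L[ℂ] E => T x) hc.eq).symm
    rw [this, hx, map_smul]
  have h1 : ∀ v ∈ S, ⟪x, v⟫_ℂ = ⟪S.starProjection x, v⟫_ℂ := by
    intro v hv
    rw [← sub_eq_zero, ← inner_sub_left]
    exact Submodule.starProjection_inner_eq_zero x v hv
  have h2 : Fl w K V ψ ∈ S := mem_of_commute (commute_Fl hf.toIsFilter hK hc hV) h.1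
  rw [h1 _ h2, h1 _ (S.smul_mem _ h.1)]
  exact key _ (Submodule.starProjection_apply_mem _ _) l hPx

end ground

end Crest.Agent.R340.Flow644
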