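import Crest.Agent.R340.FlowA_644

/-!
R340 (S0532), block L9a, part 2 (helper644): the spectral flow `U' = i D_s U`,
`D_s = SS g (H + sV) V`; unitarity, commutation with the sector, derivative of
`h(s) = U_s^* (H + sV) U_s`.
-/

set_option autoImplicit false
set_option linter.unusedSectionVars false

open scoped InnerProductSpace
open MeasureTheory Complex
open Crest.Agent.R340
open Crest.Agent.R340.LR667 (tau U Fl SS Tt IsFilter)

namespace Crest.Agent.R340.Flow644

section alg

variable {A : Type*} [CStarAlgebra A]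

theorem isSelfAdjoint_add_smul {H V : A} (hH : IsSelfAdjoint H) (hV : IsSelfAdjoint V)
    (s : ℝ) : IsSelfAdjoint (H + s • V) := by
  rw [isSelfAdjoint_iff, star_add, star_smul, hH.star_eq, hV.star_eq]
  simp

theorem continuous_U2 (H V : A) : Continuous fun p : ℝ × ℝ => U (H + p.1 • V) p.2 := by
  let _ : NormedAlgebra ℚ A := NormedAlgebra.restrictScalars ℚ ℂ A
  have h2 : Continuous fun p : ℝ × ℝ => p.2 • (Complex.I • (H + p.1 • V)) := by fun_prop
  exact NormedSpace.exp_continuous.comp h2

theorem continuous_tau2 (H V X : A) :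
    Continuous fun p : ℝ × ℝ => tau (H + p.1 • V) p.2 X := by
  have h1 := continuous_U2 H V
  have h2 : Continuous fun p : ℝ × ℝ => U (H + p.1 • V) (-p.2) :=
    h1.comp (by fun_prop : Continuous fun p : ℝ × ℝ => (p.1, -p.2))
  exact (h1.mul continuous_const).mul h2

theorem continuous_Tt_param (H V X : A) (t : ℝ) :
    Continuous fun s : ℝ => Tt (H + s • V) t X :=
  intervalIntegral.continuous_parametric_intervalIntegral_of_continuous'
    (continuous_tau2 H V X) 0 t

theorem continuous_SS {H V : A} (hH : IsSelfAdjoint H) (hV : IsSelfAdjoint V)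
    {g : ℝ → ℝ} (hg : IsFilter g) (X : A) :
    Continuous fun s : ℝ => SS g (H + s • V) X := by
  refine continuous_of_dominated (μ := volume) (F := fun s t => g t • Tt (H + s • V) t X)
    (bound := fun t => |t| * |g t| * ‖X‖) ?_ ?_ ?_ ?_
  · intro s
    have hK := isSelfAdjoint_add_smul hH hV s
    exact (LR667.integrable_SS hg hK X).aestronglyMeasurable
  · intro s
    refine Filter.Eventually.of_forall fun t => ?_
    have hK := isSelfAdjoint_add_smul hH hV s
    rw [norm_smul]
    calc ‖g t‖ * ‖Tt (H + s • V) t X‖ ≤ ‖g t‖ * (|t| * ‖X‖) := by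
          gcongr; exact LR667.norm_Tt_le hK t X
      _ = |t| * |g t| * ‖X‖ := by rw [Real.norm_eq_abs]; ring
  · simpa using (hg.int 1).mul_const ‖X‖
  · refine Filter.Eventually.of_forall fun t => ?_
    exact (continuous_Tt_param H V X t).const_smul _

theorem continuous_Fl {H V : A} (hH : IsSelfAdjoint H) (hV : IsSelfAdjoint V)
    {g : ℝ → ℝ} (hg : IsFilter g) (X : A) :
    Continuous fun s : ℝ => Fl g (H + s • V) X := by
  refine continuous_of_dominated (μ := volume) (F := fun s t => g t • tau (H + s • V) t X)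
    (bound := fun t => |g t| * ‖X‖) ?_ ?_ ?_ ?_
  · intro s
    have hK := isSelfAdjoint_add_smul hH hV s
    exact (LR667.integrable_Fl hg hK X).aestronglyMeasurable
  · intro s
    refine Filter.Eventually.of_forall fun t => ?_
    have hK := isSelfAdjoint_add_smul hH hV s
    rw [norm_smul, LR667.norm_tau hK, Real.norm_eq_abs]
  · exact hg.integrable.norm.mul_const _
  · refine Filter.Eventually.of_forall fun t => ?_
    exact ((continuous_tau2 H V X).comp
      (by fun_prop : Continuous fun s : ℝ => (s, t))).const_smul _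

/-- `U` is the flow generated by `D`. -/
structure IsFlow (D U : ℝ → A) : Prop where
  zero : U 0 = 1
  deriv : ∀ s, HasDerivAt U ((I • D s) * U s) s

theorem exists_isFlow {D : ℝ → A} (hD : Continuous D) : ∃ U, IsFlow D U := by
  have hA : Continuous (Function.uncurry
      (fun (_ : Unit) (s : ℝ) => ContinuousLinearMap.mul ℝ A (I • D s))) := by
    have : Continuous fun p : Unit × ℝ => I • D p.2 := (hD.comp continuous_snd).const_smul I
    exact (ContinuousLinearMap.mul ℝ A).continuous.comp this
  obtain ⟨S, -, h0, hS⟩ := Crest.Agent.R202.LinODE.exists_flow hA 0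
    (x0 := fun _ : Unit => (1 : A)) continuous_const
  exact ⟨S (), h0 (), fun s => hS () s⟩

theorem IsFlow.star_mul_self {D U : ℝ → A} (h : IsFlow D U)
    (hD : ∀ s, IsSelfAdjoint (D s)) (s : ℝ) : star (U s) * U s = 1 := by
  have h1 : ∀ s, HasDerivAt (fun s => star (U s) * U s) 0 s := by
    intro s
    have h2 := (h.deriv s).star.mul (h.deriv s)
    refine h2.congr_deriv ?_
    rw [star_mul, star_smul, (hD s).star_eq]
    simp [mul_assoc]
  have h2 := is_const_of_deriv_eq_zero (fun t => (h1 t).differentiableAt)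
    (fun t => (h1 t).deriv) s 0
  simp only [h.zero, star_one, mul_one] at h2
  exact h2

theorem IsFlow.conj_const {D U : ℝ → A} (h : IsFlow D U)
    (hD : ∀ s, IsSelfAdjoint (D s)) {P : A} (hP : ∀ s, Commute P (D s)) (s : ℝ) :
    star (U s) * P * U s = P := by
  have h1 : ∀ s, HasDerivAt (fun s => star (U s) * P * U s) 0 s := by
    intro s
    have h2 := ((h.deriv s).star.mul_const P).mul (h.deriv s)
    refine h2.congr_deriv ?_
    rw [star_mul, star_smul, (hD s).star_eq]
    have hPs : P * D s = D s * P := (hP s).eq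
    simp only [star_def, conj_I, neg_smul, mul_neg, neg_mul, mul_smul_comm, smul_mul_assoc]
    rw [mul_assoc (star (U s)) P, ← mul_assoc P (D s), hPs]
    simp [mul_assoc]
  have h2 := is_const_of_deriv_eq_zero (fun t => (h1 t).differentiableAt)
    (fun t => (h1 t).deriv) s 0
  simp only [h.zero, star_one, mul_one, one_mul] at h2
  exact h2

end alg

section findim

variable {E : Type*} [NormedAddCommGroup E] [InnerProductSpace ℂ E] [CompleteSpace E]
variable [FiniteDimensional ℂ E]

theorem mul_eq_one_of {A B : E →L[ℂ] E} (h : A * B = 1) : B * A = 1 := by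
  have h1 : (A : E →ₗ[ℂ] E) * (B : E →ₗ[ℂ] E) = 1 := by
    have := congrArg (fun T : E →L[ℂ] E => (T : E →ₗ[ℂ] E)) h
    exact this
  have h2 : (B : E →ₗ[ℂ] E) * (A : E →ₗ[ℂ] E) = 1 := mul_eq_one_comm.1 h1
  exact ContinuousLinearMap.coe_injective h2

theorem IsFlow.self_mul_star {D U : ℝ → E →L[ℂ] E} (h : IsFlow D U)
    (hD : ∀ s, IsSelfAdjoint (D s)) (s : ℝ) : U s * star (U s) = 1 :=
  mul_eq_one_of (h.star_mul_self hD s)

theorem IsFlow.mem_unitary {D U : ℝ → E →L[ℂ] E} (h : IsFlow D U)
    (hD : ∀ s, IsSelfAdjoint (D s)) (s : ℝ) : U s ∈ unitary (E →L[ℂ] E) :=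
  Unitary.mem_iff.2 ⟨h.star_mul_self hD s, h.self_mul_star hD s⟩

theorem IsFlow.commute {D U : ℝ → E →L[ℂ] E} (h : IsFlow D U)
    (hD : ∀ s, IsSelfAdjoint (D s)) {P : E →L[ℂ] E} (hP : ∀ s, Commute P (D s)) (s : ℝ) :
    Commute P (U s) := by
  have h1 := h.conj_const hD hP s
  have h2 : U s * (star (U s) * P * U s) = U s * P := by rw [h1]
  rw [← mul_assoc, ← mul_assoc, h.self_mul_star hD, one_mul] at h2
  exact h2

/-- the derivative of `h(s) = U_s^* (H + sV) U_s` -/
theorem hasDerivAt_h {H V : E →L[ℂ] E} (hH : IsSelfAdjoint H) (hV : IsSelfAdjoint V)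
    {g : ℝ → ℝ} (hg : IsFilter g) {U : ℝ → E →L[ℂ] E}
    (hU : IsFlow (fun s => SS g (H + s • V) V) U) (s : ℝ) :
    HasDerivAt (fun s : ℝ => star (U s) * (H + s • V) * U s)
      (star (U s) * Fl g (H + s • V) V * U s) s := by
  have hK := isSelfAdjoint_add_smul hH hV s
  have h0 : HasDerivAt (fun s : ℝ => H + s • V) V s := by
    have := ((hasDerivAt_id s).smul_const V).const_add H
    simpa using this
  have h2 := ((hU.deriv s).star.mul h0).mul (hU.deriv s)
  refine h2.congr_deriv ?_
  simp only [Pi.mul_apply]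
  have h3 : Fl g (H + s • V) V = V + I • ((H + s • V) * SS g (H + s • V) V -
      SS g (H + s • V) V * (H + s • V)) := by
    have := LR667.eq_Fl_sub hg hK V
    rw [Ring.lie_def] at this
    conv_rhs => arg 1; rw [this]
    abel
  have hD : IsSelfAdjoint (SS g (H + s • V) V) := by
    rw [isSelfAdjoint_iff, star_SS hK, hV.star_eq]
  rw [h3]
  generalize SS g (H + s • V) V = D at hD ⊢
  generalize H + s • V = K
  rw [star_mul, star_smul, hD.star_eq]
  simp only [star_def, conj_I, neg_smul, mul_neg, neg_mul, mul_smul_comm, smul_mul_assoc,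
    mul_add, add_mul, mul_sub, sub_mul, mul_assoc, smul_sub]
  abel

end findim

end Crest.Agent.R340.Flow644
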