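import Crest.Agent.R340.FlowB_644

/-!
R340 (S0532), block L9a, part 3 (helper644): perturbation of a sector gap, transport of the
ground vector along the spectral flow, bootstrap in the coupling.  Main theorem: `flow_main`.
-/

set_option autoImplicit false
set_option linter.unusedSectionVars false

open scoped InnerProductSpace
open MeasureTheory Complex
open Crest.Agent.R340
open Crest.Agent.R340.LR667 (tau U Fl SS Tt IsFilter)

namespace Crest.Agent.R340.Flow644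

section expand

variable {W : Type*} [NormedAddCommGroup W] [InnerProductSpace ℂ W] [FiniteDimensional ℂ W]

/-- spectral expansion of a symmetric operator -/
theorem expand (T : W →ₗ[ℂ] W) (hT : T.IsSymmetric) :
    ∃ (n : ℕ) (b : OrthonormalBasis (Fin n) ℂ W) (l : Fin n → ℝ),
      (∀ i, T (b i) = (l i : ℂ) • b i) ∧
      (∀ x, (⟪x, T x⟫_ℂ).re = ∑ i, l i * ‖⟪b i, x⟫_ℂ‖ ^ 2) ∧
      (∀ x, ‖x‖ ^ 2 = ∑ i, ‖⟪b i, x⟫_ℂ‖ ^ 2) := by
  refine ⟨_, hT.eigenvectorBasis rfl, hT.eigenvalues rfl,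
    fun i => hT.apply_eigenvectorBasis rfl i, ?_, ?_⟩
  · intro x
    set b := hT.eigenvectorBasis rfl with hb
    have hev : ∀ i, T (b i) = ((hT.eigenvalues rfl i : ℝ) : ℂ) • b i := fun i =>
      hT.apply_eigenvectorBasis rfl i
    have hx : ⟪x, T x⟫_ℂ = ∑ i, (((hT.eigenvalues rfl i) * ‖⟪b i, x⟫_ℂ‖ ^ 2 : ℝ) : ℂ) := by
      rw [← b.sum_inner_mul_inner x (T x)]
      refine Finset.sum_congr rfl fun i _ => ?_
      have h1 : ⟪b i, T x⟫_ℂ = ((hT.eigenvalues rfl i : ℝ) : ℂ) * ⟪b i, x⟫_ℂ := by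
        rw [← hT (b i) x, hev, inner_smul_left, Complex.conj_ofReal]
      rw [h1]
      have h2 : ⟪x, b i⟫_ℂ * ⟪b i, x⟫_ℂ = ((‖⟪b i, x⟫_ℂ‖ ^ 2 : ℝ) : ℂ) := by
        rw [← inner_conj_symm x (b i), ← Complex.normSq_eq_conj_mul_self,
          Complex.normSq_eq_norm_sq]
      push_cast at h2 ⊢
      linear_combination ((hT.eigenvalues rfl i : ℝ) : ℂ) * h2
    rw [hx, ← Complex.ofReal_sum, Complex.ofReal_re]
  · intro x
    exact ((hT.eigenvectorBasis rfl).sum_sq_norm_inner_right x).symm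

end expand

variable {E : Type*} [NormedAddCommGroup E] [InnerProductSpace ℂ E] [CompleteSpace E]
variable {S : Submodule ℂ E} {K V : E →L[ℂ] E} [FiniteDimensional ℂ E]

theorem inner_adj (hK : IsSelfAdjoint K) (x y : E) : ⟪K x, y⟫_ℂ = ⟪x, K y⟫_ℂ :=
  hK.isSymmetric x y

/-- the form splits along the ground vector -/
theorem HasGapS.split (hK : IsSelfAdjoint K) {g e : ℝ} {ψ : E} (h : HasGapS S K g e ψ) (x : E) :
    (⟪x, K x⟫_ℂ).re = e * ‖⟪ψ, x⟫_ℂ‖ ^ 2 +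
        (⟪x - ⟪ψ, x⟫_ℂ • ψ, K (x - ⟪ψ, x⟫_ℂ • ψ)⟫_ℂ).re ∧
      ‖x‖ ^ 2 = ‖⟪ψ, x⟫_ℂ‖ ^ 2 + ‖x - ⟪ψ, x⟫_ℂ • ψ‖ ^ 2 := by
  set a := ⟪ψ, x⟫_ℂ with ha
  set χ := x - a • ψ with hχ
  have hx : x = a • ψ + χ := by rw [hχ]; abel
  have ho : ⟪ψ, χ⟫_ℂ = 0 := orth_sub h.2.1 x
  have ho' : ⟪χ, ψ⟫_ℂ = 0 := inner_eq_zero_symm.1 ho
  have hK1 : ⟪ψ, K χ⟫_ℂ = 0 := by
    rw [inner_K_eigen hK h.2.2.1, ho, mul_zero]
  have haa : (starRingEnd ℂ) a * a = ((‖a‖ ^ 2 : ℝ) : ℂ) := by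
    rw [← Complex.normSq_eq_conj_mul_self, Complex.normSq_eq_norm_sq]
  constructor
  · have h1 : ⟪x, K x⟫_ℂ = ((e * ‖a‖ ^ 2 : ℝ) : ℂ) + ⟪χ, K χ⟫_ℂ := by
      conv_lhs => rw [hx]
      rw [map_add, map_smul, h.2.2.1, inner_add_left, inner_add_right, inner_add_right,
        inner_smul_left, inner_smul_left, inner_smul_right, inner_smul_right, inner_smul_right,
        inner_smul_right, ho', hK1, inner_self_one h.2.1]
      push_cast at haa ⊢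
      linear_combination (e : ℂ) * haa
    rw [h1, add_re, ofReal_re]
  · have h1 : ⟪x, x⟫_ℂ = ((‖a‖ ^ 2 : ℝ) : ℂ) + ⟪χ, χ⟫_ℂ := by
      conv_lhs => rw [hx]
      rw [inner_add_left, inner_add_right, inner_add_right,
        inner_smul_left, inner_smul_left, inner_smul_right, inner_smul_right, ho', ho,
        inner_self_one h.2.1]
      push_cast at haa ⊢
      linear_combination haa
    rw [inner_self_eq_norm_sq_to_K, inner_self_eq_norm_sq_to_K] at h1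
    have h2 : ((‖x‖ ^ 2 : ℝ) : ℂ) = ((‖a‖ ^ 2 : ℝ) : ℂ) + ((‖χ‖ ^ 2 : ℝ) : ℂ) := by
      simpa using h1
    exact_mod_cast h2

theorem HasGapS.lower (hK : IsSelfAdjoint K) {g e : ℝ} (hg : 0 ≤ g) {ψ : E}
    (h : HasGapS S K g e ψ) {x : E} (hx : x ∈ S) : e * ‖x‖ ^ 2 ≤ (⟪x, K x⟫_ℂ).re := by
  obtain ⟨h1, h2⟩ := h.split hK x
  have h3 := h.2.2.2 _ (S.sub_mem hx (S.smul_mem _ h.1)) (orth_sub h.2.1 x)
  rw [h1, h2]
  nlinarith [sq_nonneg ‖x - ⟪ψ, x⟫_ℂ • ψ‖]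

theorem HasGapS.mono {g g' e : ℝ} {ψ : E} (h : HasGapS S K g e ψ) (hg : g' ≤ g) :
    HasGapS S K g' e ψ :=
  ⟨h.1, h.2.1, h.2.2.1, fun χ hχ ho => (by nlinarith [sq_nonneg ‖χ‖] :
    (e + g') * ‖χ‖ ^ 2 ≤ (e + g) * ‖χ‖ ^ 2).trans (h.2.2.2 χ hχ ho)⟩

theorem re_inner_le (T : E →L[ℂ] E) (x : E) : |(⟪x, T x⟫_ℂ).re| ≤ ‖T‖ * ‖x‖ ^ 2 := by
  calc |(⟪x, T x⟫_ℂ).re| ≤ ‖⟪x, T x⟫_ℂ‖ := Complex.abs_re_le_norm _
    _ ≤ ‖x‖ * ‖T x‖ := norm_inner_le_norm _ _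
    _ ≤ ‖x‖ * (‖T‖ * ‖x‖) := by gcongr; exact T.le_opNorm x
    _ = _ := by ring

/-- a unit eigenvector in the sector with energy below `e + g` is a ground vector -/
theorem HasGapS.transfer (hK : IsSelfAdjoint K) {g e : ℝ} (hg : 0 < g) {ψ : E}
    (h : HasGapS S K g e ψ) {φ : E} (hφS : φ ∈ S) (hφ1 : ‖φ‖ = 1) {l : ℝ}
    (hφ : K φ = (l : ℂ) • φ) (hl : l < e + g) : l = e ∧ HasGapS S K g l φ := by
  have hφ0 : φ ≠ 0 := by
    intro h0; rw [h0] at hφ1; simp at hφ1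
  have hle : l = e := by
    by_contra hne
    have hort : ⟪ψ, φ⟫_ℂ = 0 := by
      have h1 := inner_K_eigen hK h.2.2.1 φ
      rw [hφ, inner_smul_right] at h1
      have h2 : ((l : ℂ) - e) * ⟪ψ, φ⟫_ℂ = 0 := by rw [sub_mul, h1, sub_self]
      rcases mul_eq_zero.1 h2 with h3 | h3
      · exact absurd (by exact_mod_cast sub_eq_zero.1 h3) hne
      · exact h3
    have := h.le_eigen hφS hφ0 hφ hort
    linarith
  refine ⟨hle, hφS, hφ1, hφ, ?_⟩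
  subst hle
  have hφψ : φ = ⟪ψ, φ⟫_ℂ • ψ := by
    set χ := φ - ⟪ψ, φ⟫_ℂ • ψ with hχ
    have hχS : χ ∈ S := S.sub_mem hφS (S.smul_mem _ h.1)
    have hχ0 : χ = 0 := by
      by_contra h0
      have hKχ : K χ = (l : ℂ) • χ := by
        rw [hχ, map_sub, map_smul, hφ, h.2.2.1, smul_sub, smul_comm]
      have := h.le_eigen hχS h0 hKχ (orth_sub h.2.1 φ)
      linarith
    rwa [hχ, sub_eq_zero] at hχ0
  intro χ hχ ho
  refine h.2.2.2 χ hχ ?_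
  rw [hφψ, inner_smul_left] at ho
  rcases mul_eq_zero.1 ho with h1 | h1
  · exfalso
    rw [map_eq_zero] at h1
    rw [h1, zero_smul] at hφψ
    exact hφ0 hφψ
  · exact h1

/-- perturbation of a sector gap -/
theorem HasGapS.pert {K' : E →L[ℂ] E} (hK' : IsSelfAdjoint K')
    (hKS' : ∀ x ∈ S, K' x ∈ S) {g e δ : ℝ} {ψ : E} (h : HasGapS S K g e ψ)
    (hδ : ‖K' - K‖ ≤ δ) : ∃ (e' : ℝ) (ψ' : E), HasGapS S K' (g - 2 * δ) e' ψ' := by
  let T : S →ₗ[ℂ] S := (K' : E →ₗ[ℂ] E).restrict hKS'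
  have hTs : T.IsSymmetric := hK'.isSymmetric.restrict_invariant hKS'
  have hTx : ∀ x : S, ((T x : S) : E) = K' x := fun x => rfl
  obtain ⟨n, b, l, hb, hform, hnorm⟩ := expand T hTs
  have hψ0 : ψ ≠ 0 := by
    intro h0
    have := h.2.1
    rw [h0] at this
    simp at this
  have hne : Nonempty (Fin n) := by
    by_contra hcon
    rw [not_nonempty_iff] at hcon
    have := hnorm ⟨ψ, h.1⟩
    simp at this
    exact hψ0 this
  obtain ⟨i0, hi0⟩ := Finite.exists_min l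
  have hdiff : ∀ x : E, |(⟪x, K' x⟫_ℂ).re - (⟪x, K x⟫_ℂ).re| ≤ δ * ‖x‖ ^ 2 := by
    intro x
    have h1 : (⟪x, K' x⟫_ℂ).re - (⟪x, K x⟫_ℂ).re = (⟪x, (K' - K) x⟫_ℂ).re := by
      rw [← sub_re, ← inner_sub_right]; rfl
    rw [h1]
    refine (re_inner_le _ x).trans ?_
    gcongr
  have hinner : ∀ x y : S, ⟪x, y⟫_ℂ = ⟪(x : E), (y : E)⟫_ℂ := fun x y => rfl
  -- lower bound by `l i0`
  have hlow : ∀ x : S, l i0 * ‖x‖ ^ 2 ≤ (⟪x, T x⟫_ℂ).re := by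
    intro x
    rw [hform, hnorm, Finset.mul_sum]
    exact Finset.sum_le_sum fun i _ => mul_le_mul_of_nonneg_right (hi0 i) (by positivity)
  have he' : l i0 ≤ e + δ := by
    have h1 := hlow ⟨ψ, h.1⟩
    have h2 : (⟪(⟨ψ, h.1⟩ : S), T ⟨ψ, h.1⟩⟫_ℂ).re = (⟪ψ, K' ψ⟫_ℂ).re := rfl
    have h3 : ‖(⟨ψ, h.1⟩ : S)‖ = 1 := h.2.1
    rw [h2, h3] at h1
    have h4 := abs_le.1 (hdiff ψ)
    have h5 : (⟪ψ, K ψ⟫_ℂ).re = e := by
      rw [h.2.2.1, inner_smul_right, inner_self_one h.2.1]; simp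
    rw [h5, h.2.1] at h4
    linarith [h4.2]
  have hgapi : ∀ i, i ≠ i0 → e + g - δ ≤ l i := by
    intro i hi
    -- a vector in the span of `b i0`, `b i` orthogonal to `ψ`
    obtain ⟨p, q, hpq, ho⟩ : ∃ p q : ℂ, 0 < ‖p‖ ^ 2 + ‖q‖ ^ 2 ∧
        ⟪ψ, ((p • b i0 + q • b i : S) : E)⟫_ℂ = 0 := by
      by_cases hz : ⟪ψ, (b i : E)⟫_ℂ = 0
      · exact ⟨0, 1, by simp, by simp [hz]⟩
      · refine ⟨⟪ψ, (b i : E)⟫_ℂ, -⟪ψ, (b i0 : E)⟫_ℂ, ?_, ?_⟩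
        · have : 0 < ‖⟪ψ, (b i : E)⟫_ℂ‖ := norm_pos_iff.2 hz
          positivity
        · simp only [Submodule.coe_add, Submodule.coe_smul, inner_add_right, inner_smul_right]
          ring
    set x : S := p • b i0 + q • b i with hx
    have hc : ∀ j, ⟪b j, x⟫_ℂ = (if j = i0 then p else 0) + (if j = i then q else 0) := by
      intro j
      rw [hx, inner_add_right, inner_smul_right, inner_smul_right,
        orthonormal_iff_ite.1 b.orthonormal, orthonormal_iff_ite.1 b.orthonormal]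
      simp
    have hc2 : ∀ j, ‖⟪b j, x⟫_ℂ‖ ^ 2 = (if j = i0 then ‖p‖ ^ 2 else 0) +
        (if j = i then ‖q‖ ^ 2 else 0) := by
      intro j
      rw [hc]
      by_cases h1 : j = i0
      · have h2 : j ≠ i := fun h => hi (h.symm.trans h1)
        rw [if_pos h1, if_neg h2, if_pos h1, if_neg h2]; simp
      · by_cases h2 : j = i
        · rw [if_neg h1, if_pos h2, if_neg h1, if_pos h2]; simp
        · rw [if_neg h1, if_neg h2, if_neg h1, if_neg h2]; simp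
    have hn : ‖x‖ ^ 2 = ‖p‖ ^ 2 + ‖q‖ ^ 2 := by
      rw [hnorm, Finset.sum_congr rfl fun j _ => hc2 j, Finset.sum_add_distrib]
      simp
    have hf : (⟪x, T x⟫_ℂ).re = l i0 * ‖p‖ ^ 2 + l i * ‖q‖ ^ 2 := by
      rw [hform, Finset.sum_congr rfl fun j _ => by rw [hc2 j, mul_add],
        Finset.sum_add_distrib]
      simp
    have h1 := h.2.2.2 (x : E) x.2 ho
    have h2 := abs_le.1 (hdiff (x : E))
    have h3 : (⟪(x : E), K' x⟫_ℂ).re = (⟪x, T x⟫_ℂ).re := rfl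
    have h4 : ‖(x : E)‖ = ‖x‖ := rfl
    rw [h3, hf, h4, hn] at h2
    rw [h4, hn] at h1
    have h5 : (e + g - δ) * (‖p‖ ^ 2 + ‖q‖ ^ 2) ≤ l i * (‖p‖ ^ 2 + ‖q‖ ^ 2) := by
      have h6 : l i0 * ‖p‖ ^ 2 ≤ l i * ‖p‖ ^ 2 :=
        mul_le_mul_of_nonneg_right (hi0 i) (by positivity)
      nlinarith [h2.1, h1]
    exact le_of_mul_le_mul_right h5 hpq
  refine ⟨l i0, (b i0 : E), (b i0).2, b.orthonormal.1 i0, ?_, ?_⟩
  · have := congrArg (fun y : S => (y : E)) (hb i0)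
    simpa [hTx] using this
  · intro χ hχ ho
    have h1 := hform ⟨χ, hχ⟩
    have h2 := hnorm ⟨χ, hχ⟩
    have h3 : (⟪(⟨χ, hχ⟩ : S), T ⟨χ, hχ⟩⟫_ℂ).re = (⟪χ, K' χ⟫_ℂ).re := rfl
    have h4 : ‖(⟨χ, hχ⟩ : S)‖ = ‖χ‖ := rfl
    rw [h3] at h1
    rw [h4] at h2
    rw [h1, h2, Finset.mul_sum]
    refine Finset.sum_le_sum fun i _ => ?_
    by_cases hi : i = i0
    · have : ⟪b i, (⟨χ, hχ⟩ : S)⟫_ℂ = 0 := by rw [hi]; exact ho
      rw [this]; simp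
    · refine mul_le_mul_of_nonneg_right ?_ (by positivity)
      have := hgapi i hi
      linarith

end Crest.Agent.R340.Flow644
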