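import Crest.Agent.R340.FlowC_644

/-!
R340 (S0532), block L9a, part 4 (helper644): transport of the ground vector by the spectral
flow and the bootstrap in the coupling constant.  Main theorem: `flow_main`.
-/

set_option autoImplicit false
set_option linter.unusedSectionVars false

open scoped InnerProductSpace
open MeasureTheory Complex
open Crest.Agent.R340
open Crest.Agent.R340.LR667 (tau U Fl SS Tt IsFilter)

namespace Crest.Agent.R340.Flow644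

variable {E : Type*} [NormedAddCommGroup E] [InnerProductSpace ℂ E] [CompleteSpace E]
variable {S : Submodule ℂ E} {K V : E →L[ℂ] E} [FiniteDimensional ℂ E]

theorem norm_sub_inner_smul_le {φ : E} (h1 : ‖φ‖ = 1) (y : E) : ‖y - ⟪φ, y⟫_ℂ • φ‖ ≤ ‖y‖ := by
  have h2 : ‖y‖ ^ 2 = ‖⟪φ, y⟫_ℂ‖ ^ 2 + ‖y - ⟪φ, y⟫_ℂ • φ‖ ^ 2 := by
    set a := ⟪φ, y⟫_ℂ with ha
    have ho : ⟪φ, y - a • φ⟫_ℂ = 0 := orth_sub h1 y
    have h3 : y = a • φ + (y - a • φ) := by abel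
    have h4 : ⟪a • φ, y - a • φ⟫_ℂ = 0 := by rw [inner_smul_left, ho, mul_zero]
    have h5 := norm_add_sq_eq_norm_sq_add_norm_sq_of_inner_eq_zero _ _ h4
    rw [← h3] at h5
    have h6 : ‖a • φ‖ = ‖a‖ := by rw [norm_smul, h1, mul_one]
    rw [h6] at h5
    nlinarith [h5]
  have h3 : ‖y - ⟪φ, y⟫_ℂ • φ‖ ^ 2 ≤ ‖y‖ ^ 2 := by rw [h2]; nlinarith [sq_nonneg ‖⟪φ, y⟫_ℂ‖]
  exact abs_le_of_sq_le_sq' h3 (norm_nonneg _) |>.2

/-- residual estimate -/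
theorem residual_le {g e : ℝ} (hg : 0 < g)
    {W : E →L[ℂ] E} {ψ : E} (h : HasGapS S K g e ψ) {v : ℂ} (hW : W ψ = v • ψ) {M : ℝ}
    (hM : ‖W‖ ≤ M)
    {φ : E} (hφS : φ ∈ S) (hφ1 : ‖φ‖ = 1) {ε : ℝ} (hε : ε ≤ e + g / 2) :
    ‖W φ - ⟪φ, W φ⟫_ℂ • φ‖ ≤ (4 * M / g) * ‖K φ - (ε : ℂ) • φ‖ := by
  set a := ⟪ψ, φ⟫_ℂ with ha
  set χ := φ - a • ψ with hχ
  set r := K φ - (ε : ℂ) • φ with hr
  have ho : ⟪ψ, χ⟫_ℂ = 0 := orth_sub h.2.1 φ
  have ho' : ⟪χ, ψ⟫_ℂ = 0 := inner_eq_zero_symm.1 ho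
  have hχS : χ ∈ S := S.sub_mem hφS (S.smul_mem _ h.1)
  have hφ : φ = a • ψ + χ := by rw [hχ]; abel
  have hM0 : 0 ≤ M := (norm_nonneg _).trans hM
  have h1 : ⟪χ, r⟫_ℂ = ⟪χ, K χ⟫_ℂ - (ε : ℂ) * ⟪χ, χ⟫_ℂ := by
    rw [hr, hφ, map_add, map_smul, h.2.2.1, inner_sub_right, inner_add_right, inner_smul_right,
      inner_smul_right, inner_smul_right, inner_add_right, inner_smul_right, ho']
    ring
  have h2 : (e + g - ε) * ‖χ‖ ^ 2 ≤ ‖χ‖ * ‖r‖ := by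
    have h3 := h.2.2.2 χ hχS ho
    have h4 : (⟪χ, r⟫_ℂ).re ≤ ‖χ‖ * ‖r‖ := (Complex.re_le_norm _).trans (norm_inner_le_norm _ _)
    rw [h1, sub_re, inner_self_eq_norm_sq_to_K] at h4
    have h5 : ((ε : ℂ) * ((‖χ‖ : ℝ) : ℂ) ^ 2).re = ε * ‖χ‖ ^ 2 := by
      rw [← ofReal_pow, ← ofReal_mul, ofReal_re]
    have h6 : (⟪χ, K χ⟫_ℂ).re - ε * ‖χ‖ ^ 2 ≤ ‖χ‖ * ‖r‖ := by
      rw [← h5]; exact h4
    nlinarith
  have h3 : ‖χ‖ ≤ (2 / g) * ‖r‖ := by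
    rcases eq_or_lt_of_le (norm_nonneg χ) with h0 | h0
    · rw [← h0]; positivity
    · have h4 : (g / 2) * ‖χ‖ ≤ ‖r‖ := by
        have h5 : ((g / 2) * ‖χ‖) * ‖χ‖ ≤ ‖r‖ * ‖χ‖ := by nlinarith [sq_nonneg ‖χ‖]
        exact le_of_mul_le_mul_right h5 h0
      rw [div_mul_eq_mul_div, le_div_iff₀ hg]
      linarith
  have hv : ‖v‖ ≤ M := by
    have h4 : ‖W ψ‖ = ‖v‖ := by rw [hW, norm_smul, h.2.1, mul_one]
    rw [← h4]
    calc ‖W ψ‖ ≤ ‖W‖ * ‖ψ‖ := W.le_opNorm ψ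
      _ ≤ M := by rw [h.2.1, mul_one]; exact hM
  have h4 : W φ - ⟪φ, W φ⟫_ℂ • φ = (W χ - v • χ) - ⟪φ, W χ - v • χ⟫_ℂ • φ := by
    have h5 : W φ = v • φ + (W χ - v • χ) := by
      conv_lhs => rw [hφ]
      rw [map_add, map_smul, hW]
      conv_rhs => arg 1; rw [hφ]
      rw [smul_add, smul_comm]
      abel
    rw [h5, inner_add_right, inner_smul_right, inner_self_one hφ1, add_smul, mul_one]
    abel
  rw [h4]
  calc ‖(W χ - v • χ) - ⟪φ, W χ - v • χ⟫_ℂ • φ‖ ≤ ‖W χ - v • χ‖ := norm_sub_inner_smul_le hφ1 _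
    _ ≤ ‖W χ‖ + ‖v • χ‖ := norm_sub_le _ _
    _ ≤ M * ‖χ‖ + M * ‖χ‖ := by
        gcongr
        · exact (W.le_opNorm χ).trans (by gcongr)
        · rw [norm_smul]; gcongr
    _ = 2 * M * ‖χ‖ := by ring
    _ ≤ 2 * M * ((2 / g) * ‖r‖) := by gcongr
    _ = _ := by ring

/-- the data of the flow problem -/
structure FlowData (S : Submodule ℂ E) (H V : E →L[ℂ] E) (w : ℝ → ℝ) (β : ℝ)
    (Ut : ℝ → E →L[ℂ] E) (Ψ : E) : Prop where
  hH : IsSelfAdjoint H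
  hV : IsSelfAdjoint V
  hHS : ∀ x ∈ S, H x ∈ S
  hVS : ∀ x ∈ S, V x ∈ S
  hβ : 0 < β
  hw : IsBand w β
  hU : IsFlow (fun s => SS w (H + s • V) V) Ut
  hΨ : Ψ ∈ S
  hΨ1 : ‖Ψ‖ = 1

namespace FlowData

variable {H : E →L[ℂ] E} {w : ℝ → ℝ} {β : ℝ} {Ut : ℝ → E →L[ℂ] E} {Ψ : E}

theorem hK (h : FlowData S H V w β Ut Ψ) (s : ℝ) : IsSelfAdjoint (H + s • V) :=
  isSelfAdjoint_add_smul h.hH h.hV s

theorem hKS (h : FlowData S H V w β Ut Ψ) (s : ℝ) : ∀ x ∈ S, (H + s • V) x ∈ S := by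
  intro x hx
  have : (H + s • V) x = H x + (s : ℂ) • V x := by simp
  rw [this]
  exact S.add_mem (h.hHS x hx) (S.smul_mem _ (h.hVS x hx))

theorem hD (h : FlowData S H V w β Ut Ψ) (s : ℝ) :
    IsSelfAdjoint (SS w (H + s • V) V) := by
  rw [isSelfAdjoint_iff, star_SS (h.hK s), h.hV.star_eq]

theorem hVhat (h : FlowData S H V w β Ut Ψ) (s : ℝ) :
    IsSelfAdjoint (Fl w (H + s • V) V) := by
  rw [isSelfAdjoint_iff, star_Fl (h.hK s), h.hV.star_eq]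

theorem cV (h : FlowData S H V w β Ut Ψ) : Commute S.starProjection V :=
  commute_proj h.hV h.hVS

theorem cK (h : FlowData S H V w β Ut Ψ) (s : ℝ) : Commute S.starProjection (H + s • V) :=
  commute_proj (h.hK s) (h.hKS s)

theorem cD (h : FlowData S H V w β Ut Ψ) (s : ℝ) :
    Commute S.starProjection (SS w (H + s • V) V) :=
  commute_SS h.hw.toIsFilter (h.hK s) (h.cK s) h.cV

theorem cU (h : FlowData S H V w β Ut Ψ) (s : ℝ) : Commute S.starProjection (Ut s) :=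
  h.hU.commute h.hD h.cD s

theorem uU (h : FlowData S H V w β Ut Ψ) (s : ℝ) : Ut s ∈ unitary (E →L[ℂ] E) :=
  h.hU.mem_unitary h.hD s

theorem starU_mul (h : FlowData S H V w β Ut Ψ) (s : ℝ) : star (Ut s) * Ut s = 1 :=
  h.hU.star_mul_self h.hD s

theorem U_mul_star (h : FlowData S H V w β Ut Ψ) (s : ℝ) : Ut s * star (Ut s) = 1 :=
  h.hU.self_mul_star h.hD s

theorem U_memS (h : FlowData S H V w β Ut Ψ) (s : ℝ) {x : E} (hx : x ∈ S) : Ut s x ∈ S :=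
  mem_of_commute (h.cU s) hx

theorem inner_U (h : FlowData S H V w β Ut Ψ) (s : ℝ) (x y : E) :
    ⟪Ut s x, Ut s y⟫_ℂ = ⟪x, y⟫_ℂ := by
  have h1 : ⟪Ut s x, Ut s y⟫_ℂ = ⟪x, star (Ut s) (Ut s y)⟫_ℂ := by
    rw [ContinuousLinearMap.star_eq_adjoint, ContinuousLinearMap.adjoint_inner_right]
  have h2 : star (Ut s) (Ut s y) = y := congrArg (fun T : E →L[ℂ] E => T y) (h.starU_mul s)
  rw [h1, h2]

theorem norm_U (h : FlowData S H V w β Ut Ψ) (s : ℝ) (x : E) : ‖Ut s x‖ = ‖x‖ := by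
  have h1 := h.inner_U s x x
  rw [inner_self_eq_norm_sq_to_K, inner_self_eq_norm_sq_to_K] at h1
  have h2 : ((‖Ut s x‖ ^ 2 : ℝ) : ℂ) = ((‖x‖ ^ 2 : ℝ) : ℂ) := by simpa using h1
  have h3 : ‖Ut s x‖ ^ 2 = ‖x‖ ^ 2 := by exact_mod_cast h2
  exact (pow_left_inj₀ (norm_nonneg _) (norm_nonneg _) two_ne_zero).1 h3

/-- `h(s) = U_s^* H_s U_s`. -/
noncomputable def hs (H V : E →L[ℂ] E) (Ut : ℝ → E →L[ℂ] E) (s : ℝ) : E →L[ℂ] E :=
  star (Ut s) * (H + s • V) * Ut s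

/-- `h'(s) = U_s^* V^_s U_s` -/
noncomputable def hs' (H V : E →L[ℂ] E) (w : ℝ → ℝ) (Ut : ℝ → E →L[ℂ] E) (s : ℝ) : E →L[ℂ] E :=
  star (Ut s) * Fl w (H + s • V) V * Ut s

theorem deriv_hs (h : FlowData S H V w β Ut Ψ) (s : ℝ) :
    HasDerivAt (hs H V Ut) (hs' H V w Ut s) s :=
  hasDerivAt_h h.hH h.hV h.hw.toIsFilter h.hU s

theorem inner_hs (s : ℝ) (x y : E) :
    ⟪x, hs H V Ut s y⟫_ℂ = ⟪Ut s x, (H + s • V) (Ut s y)⟫_ℂ := by
  have h1 : hs H V Ut s y = star (Ut s) ((H + s • V) (Ut s y)) := rfl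
  rw [h1, ContinuousLinearMap.star_eq_adjoint, ContinuousLinearMap.adjoint_inner_right]

theorem inner_hs' (s : ℝ) (x y : E) :
    ⟪x, hs' H V w Ut s y⟫_ℂ = ⟪Ut s x, Fl w (H + s • V) V (Ut s y)⟫_ℂ := by
  have h1 : hs' H V w Ut s y = star (Ut s) (Fl w (H + s • V) V (Ut s y)) := rfl
  rw [h1, ContinuousLinearMap.star_eq_adjoint, ContinuousLinearMap.adjoint_inner_right]

/-- the energy `e(s) = ⟨U_s Ψ, H_s U_s Ψ⟩`. -/
noncomputable def en (H V : E →L[ℂ] E) (Ut : ℝ → E →L[ℂ] E) (Ψ : E) (s : ℝ) : ℝ :=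
  (⟪Ψ, hs H V Ut s Ψ⟫_ℂ).re

theorem re_inner_deriv (h : FlowData S H V w β Ut Ψ) (x : E) (s : ℝ) :
    HasDerivAt (fun s => (⟪x, hs H V Ut s x⟫_ℂ).re) (⟪x, hs' H V w Ut s x⟫_ℂ).re s := by
  have h1 : HasDerivAt (fun s => ⟪x, hs H V Ut s x⟫_ℂ) (⟪x, hs' H V w Ut s x⟫_ℂ) s := by
    have h2 := ((innerSL ℂ x).comp (ContinuousLinearMap.apply ℂ E x)).restrictScalars ℝ
      |>.hasFDerivAt.comp_hasDerivAt s (h.deriv_hs s)
    exact h2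
  have h3 := Complex.reCLM.hasFDerivAt.comp_hasDerivAt s h1
  exact h3

theorem inner_real (hK : IsSelfAdjoint K) (x : E) : ((⟪x, K x⟫_ℂ).re : ℂ) = ⟪x, K x⟫_ℂ := by
  have h1 : (starRingEnd ℂ) ⟪x, K x⟫_ℂ = ⟪x, K x⟫_ℂ := by
    rw [inner_conj_symm, inner_adj hK]
  exact (Complex.conj_eq_iff_re.1 h1)

theorem hs_sa (h : FlowData S H V w β Ut Ψ) (s : ℝ) : IsSelfAdjoint (hs H V Ut s) := by
  rw [isSelfAdjoint_iff, hs, star_mul, star_mul, star_star, (h.hK s).star_eq,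
    mul_assoc]

theorem hs'_sa (h : FlowData S H V w β Ut Ψ) (s : ℝ) : IsSelfAdjoint (hs' H V w Ut s) := by
  rw [isSelfAdjoint_iff, hs', star_mul, star_mul, star_star, (h.hVhat s).star_eq,
    mul_assoc]

/-- the residual vector -/
noncomputable def rho (H V : E →L[ℂ] E) (Ut : ℝ → E →L[ℂ] E) (Ψ : E) (s : ℝ) : E :=
  hs H V Ut s Ψ - (en H V Ut Ψ s : ℂ) • Ψ

theorem deriv_rho (h : FlowData S H V w β Ut Ψ) (s : ℝ) :
    HasDerivAt (rho H V Ut Ψ)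
      (hs' H V w Ut s Ψ - (((⟪Ψ, hs' H V w Ut s Ψ⟫_ℂ).re : ℝ) : ℂ) • Ψ) s := by
  have h1 : HasDerivAt (fun s => hs H V Ut s Ψ) (hs' H V w Ut s Ψ) s := by
    have h2 := (ContinuousLinearMap.apply ℂ E Ψ).restrictScalars ℝ
      |>.hasFDerivAt.comp_hasDerivAt s (h.deriv_hs s)
    exact h2
  have h3 : HasDerivAt (fun s => ((en H V Ut Ψ s : ℝ) : ℂ) • Ψ)
      ((((⟪Ψ, hs' H V w Ut s Ψ⟫_ℂ).re : ℝ) : ℂ) • Ψ) s :=
    ((h.re_inner_deriv Ψ s).ofReal_comp).smul_const Ψ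
  exact h1.sub h3

theorem rho_eq (h : FlowData S H V w β Ut Ψ) (s : ℝ) :
    Ut s (rho H V Ut Ψ s) = (H + s • V) (Ut s Ψ) - (en H V Ut Ψ s : ℂ) • Ut s Ψ := by
  have h1 : hs H V Ut s Ψ = star (Ut s) ((H + s • V) (Ut s Ψ)) := rfl
  have h2 : Ut s (star (Ut s) ((H + s • V) (Ut s Ψ))) = (H + s • V) (Ut s Ψ) :=
    congrArg (fun T : E →L[ℂ] E => T ((H + s • V) (Ut s Ψ))) (h.U_mul_star s)
  rw [rho, map_sub, map_smul, h1, h2]

theorem norm_rho_deriv (h : FlowData S H V w β Ut Ψ) (s : ℝ) :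
    ‖hs' H V w Ut s Ψ - (((⟪Ψ, hs' H V w Ut s Ψ⟫_ℂ).re : ℝ) : ℂ) • Ψ‖ =
      ‖Fl w (H + s • V) V (Ut s Ψ) -
        ⟪Ut s Ψ, Fl w (H + s • V) V (Ut s Ψ)⟫_ℂ • Ut s Ψ‖ := by
  rw [inner_real (h.hs'_sa s), inner_hs', ← h.norm_U s]
  congr 1
  have h1 : hs' H V w Ut s Ψ = star (Ut s) (Fl w (H + s • V) V (Ut s Ψ)) := rfl
  have h2 : Ut s (star (Ut s) (Fl w (H + s • V) V (Ut s Ψ))) = Fl w (H + s • V) V (Ut s Ψ) :=
    congrArg (fun T : E →L[ℂ] E => T (Fl w (H + s • V) V (Ut s Ψ))) (h.U_mul_star s)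
  rw [map_sub, map_smul, h1, h2]

/-- bound for the filtered perturbation -/
theorem norm_Vhat (h : FlowData S H V w β Ut Ψ) (s : ℝ) :
    ‖Fl w (H + s • V) V‖ ≤ (∫ t, |w t|) * ‖V‖ := LR667.norm_Fl_le (h.hK s) V

theorem norm_hs' (h : FlowData S H V w β Ut Ψ) (s : ℝ) :
    ‖hs' H V w Ut s‖ ≤ (∫ t, |w t|) * ‖V‖ := by
  rw [hs', mul_assoc, CStarRing.norm_mem_unitary_mul _ (Unitary.star_mem (h.uU s)),
    CStarRing.norm_mul_mem_unitary _ (h.uU s)]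
  exact h.norm_Vhat s

theorem en_zero (h : FlowData S H V w β Ut Ψ) {g e : ℝ} (h0 : HasGapS S H g e Ψ) :
    en H V Ut Ψ 0 = e := by
  rw [en, inner_hs, h.hU.zero, zero_smul, add_zero]
  change (⟪Ψ, H Ψ⟫_ℂ).re = e
  rw [h0.2.2.1, inner_smul_right, inner_self_one h0.2.1]
  simp

/-- Lipschitz bound of the energy -/
theorem en_sub_le (h : FlowData S H V w β Ut Ψ) {x y : ℝ} (hxy : x ≤ y) :
    |en H V Ut Ψ y - en H V Ut Ψ x| ≤ ((∫ t, |w t|) * ‖V‖) * (y - x) := by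
  have hb : ∀ s, ‖(⟪Ψ, hs' H V w Ut s Ψ⟫_ℂ).re‖ ≤ (∫ t, |w t|) * ‖V‖ := by
    intro s
    have h1 := re_inner_le (hs' H V w Ut s) Ψ
    rw [h.hΨ1] at h1
    rw [Real.norm_eq_abs]
    have h2 := h.norm_hs' s
    nlinarith
  have h1 := (convex_Icc x y).norm_image_sub_le_of_norm_hasDerivWithin_le
    (f := en H V Ut Ψ) (f' := fun s => (⟪Ψ, hs' H V w Ut s Ψ⟫_ℂ).re)
    (C := (∫ t, |w t|) * ‖V‖)
    (fun s _ => (h.re_inner_deriv Ψ s).hasDerivWithinAt) (fun s _ => hb s)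
    (Set.left_mem_Icc.2 hxy) (Set.right_mem_Icc.2 hxy)
  rw [Real.norm_eq_abs, Real.norm_eq_abs, abs_of_nonneg (sub_nonneg.2 hxy)] at h1
  exact h1

/-- the local transport step -/
theorem step (h : FlowData S H V w β Ut Ψ) {x : ℝ} {g : ℝ}
    (hx : HasGapS S (H + x • V) g (en H V Ut Ψ x) (Ut x Ψ))
    {y : ℝ} (hxy : x ≤ y)
    (h1 : β ≤ g - 2 * ((y - x) * ‖V‖))
    (h2 : ((∫ t, |w t|) * ‖V‖ + ‖V‖) * (y - x) ≤ β / 2) :
    HasGapS S (H + y • V) (g - 2 * ((y - x) * ‖V‖)) (en H V Ut Ψ y) (Ut y Ψ) := by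
  set M : ℝ := (∫ t, |w t|) * ‖V‖ with hM
  have hM0 : 0 ≤ M := mul_nonneg (integral_nonneg fun t => abs_nonneg _) (norm_nonneg _)
  have hg0 : 0 ≤ g := by
    have : 0 ≤ (y - x) * ‖V‖ := mul_nonneg (sub_nonneg.2 hxy) (norm_nonneg _)
    linarith [h.hβ]
  -- the gap at every intermediate point
  have hgap : ∀ r ∈ Set.Icc x y, ∃ e' ψ', HasGapS S (H + r • V) (g - 2 * ((y - x) * ‖V‖)) e' ψ' ∧
      en H V Ut Ψ x - (r - x) * ‖V‖ ≤ e' := by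
    intro r hr
    have hd : ‖(H + r • V) - (H + x • V)‖ ≤ (r - x) * ‖V‖ := by
      have : (H + r • V) - (H + x • V) = (r - x) • V := by rw [sub_smul]; abel
      rw [this, norm_smul, Real.norm_eq_abs, abs_of_nonneg (sub_nonneg.2 hr.1)]
    obtain ⟨e', ψ', he'⟩ := hx.pert (h.hK r) (h.hKS r) hd
    refine ⟨e', ψ', he'.mono ?_, ?_⟩
    · have : (r - x) * ‖V‖ ≤ (y - x) * ‖V‖ :=
        mul_le_mul_of_nonneg_right (by linarith [hr.2]) (norm_nonneg _)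
      linarith
    · have h3 := hx.lower (h.hK x) hg0 he'.1
      have h4 : |(⟪ψ', (H + r • V) ψ'⟫_ℂ).re - (⟪ψ', (H + x • V) ψ'⟫_ℂ).re| ≤
          (r - x) * ‖V‖ := by
        rw [← sub_re, ← inner_sub_right]
        have h5 : (H + r • V) ψ' - (H + x • V) ψ' = ((H + r • V) - (H + x • V)) ψ' := rfl
        rw [h5]
        refine (re_inner_le _ ψ').trans ?_
        rw [he'.2.1]
        linarith
      have h5 : (⟪ψ', (H + r • V) ψ'⟫_ℂ).re = e' := by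
        rw [he'.2.2.1, inner_smul_right, inner_self_one he'.2.1]; simp
      rw [h5] at h4
      rw [he'.2.1] at h3
      have := abs_le.1 h4
      linarith [this.1]
  have hφ1 : ∀ r, ‖Ut r Ψ‖ = 1 := fun r => by rw [h.norm_U, h.hΨ1]
  have hφS : ∀ r, Ut r Ψ ∈ S := fun r => h.U_memS r h.hΨ
  -- closeness of the energies
  have hclose : ∀ r ∈ Set.Icc x y, ∀ e', en H V Ut Ψ x - (r - x) * ‖V‖ ≤ e' →
      en H V Ut Ψ r ≤ e' + β / 2 := by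
    intro r hr e' he'
    have h3 := (abs_le.1 (h.en_sub_le hr.1)).2
    have h4 : (M + ‖V‖) * (r - x) ≤ (M + ‖V‖) * (y - x) :=
      mul_le_mul_of_nonneg_left (by linarith [hr.2]) (by positivity)
    nlinarith
  -- Gronwall
  have hz : rho H V Ut Ψ y = 0 := by
    set C : ℝ := 4 * M / β with hC
    have hbound : ∀ r ∈ Set.Ico x y,
        ‖hs' H V w Ut r Ψ - (((⟪Ψ, hs' H V w Ut r Ψ⟫_ℂ).re : ℝ) : ℂ) • Ψ‖ ≤
          C * ‖rho H V Ut Ψ r‖ + 0 := by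
      intro r hr
      have hr' : r ∈ Set.Icc x y := ⟨hr.1, hr.2.le⟩
      obtain ⟨e', ψ', he', hle⟩ := hgap r hr'
      have he'' : HasGapS S (H + r • V) β e' ψ' := he'.mono h1
      have hground := Fl_ground (h.hK r) h.hβ le_rfl h.hw (h.hKS r) h.cV he''
      have h3 := residual_le (S := S) (K := H + r • V) h.hβ he'' hground (h.norm_Vhat r)
        (hφS r) (hφ1 r) (hclose r hr' e' hle)
      rw [h.norm_rho_deriv, add_zero]
      refine h3.trans ?_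
      rw [← h.rho_eq, h.norm_U]
    have h0 : rho H V Ut Ψ x = 0 := by
      have h3 : Ut x (rho H V Ut Ψ x) = 0 := by
        rw [h.rho_eq, hx.2.2.1, sub_self]
      have h4 := h.norm_U x (rho H V Ut Ψ x)
      rw [h3, norm_zero] at h4
      exact norm_eq_zero.1 h4.symm
    have h3 := norm_le_gronwallBound_of_norm_deriv_right_le (f := rho H V Ut Ψ)
      (f' := fun r => hs' H V w Ut r Ψ - (((⟪Ψ, hs' H V w Ut r Ψ⟫_ℂ).re : ℝ) : ℂ) • Ψ)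
      (δ := 0) (K := C) (ε := 0) (a := x) (b := y)
      (fun r _ => (h.deriv_rho r).continuousAt.continuousWithinAt)
      (fun r _ => (h.deriv_rho r).hasDerivWithinAt) (by rw [h0, norm_zero]) hbound
      y (Set.right_mem_Icc.2 hxy)
    rw [gronwallBound_ε0_δ0] at h3
    exact norm_le_zero_iff.1 h3
  have hy : y ∈ Set.Icc x y := Set.right_mem_Icc.2 hxy
  obtain ⟨e', ψ', he', hle⟩ := hgap y hy
  have heig : (H + y • V) (Ut y Ψ) = (en H V Ut Ψ y : ℂ) • Ut y Ψ := by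
    have h3 := h.rho_eq y
    rw [hz, map_zero] at h3
    exact (sub_eq_zero.1 h3.symm)
  have hgpos : 0 < g - 2 * ((y - x) * ‖V‖) := lt_of_lt_of_le h.hβ h1
  refine (he'.transfer (h.hK y) hgpos (hφS y) (hφ1 y) heig ?_).2
  have := hclose y hy e' hle
  linarith [h.hβ]

end FlowData

end Crest.Agent.R340.Flow644
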