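import Crest.Agent.R340.FlowD_644

/-!
R340 (S0532), block L9a, part 5 (helper644): the bootstrap in the coupling constant.
Main theorem: `flow_main`.
-/

set_option autoImplicit false
set_option linter.unusedSectionVars false

open scoped InnerProductSpace
open MeasureTheory Complex
open Crest.Agent.R340
open Crest.Agent.R340.LR667 (tau U Fl SS Tt IsFilter)

namespace Crest.Agent.R340.Flow644

variable {E : Type*} [NormedAddCommGroup E] [InnerProductSpace ℂ E] [CompleteSpace E]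
variable {S : Submodule ℂ E} {H V : E →L[ℂ] E} [FiniteDimensional ℂ E]

namespace FlowData

variable {w : ℝ → ℝ} {γ : ℝ} {Ut : ℝ → E →L[ℂ] E} {Ψ : E}

theorem en_deriv_eq (h : FlowData S H V w (γ / 2) Ut Ψ) {s e : ℝ}
    (hs1 : HasGapS S (H + s • V) (γ / 2) e (Ut s Ψ)) :
    (⟪Ψ, hs' H V w Ut s Ψ⟫_ℂ).re = (⟪Ut s Ψ, V (Ut s Ψ)⟫_ℂ).re := by
  have hground := Fl_ground (h.hK s) h.hβ le_rfl h.hw (h.hKS s) h.cV hs1
  rw [inner_hs', hground, inner_smul_right, inner_self_one hs1.2.1, mul_one]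

/-- the boost: from gap `γ/2` on `[0, s₁]` and the relative bound to gap `3γ/4` at `s₁`. -/
theorem boost (h : FlowData S H V w (γ / 2) Ut Ψ) (hγ : 0 < γ)
    (h0 : HasGapS S H γ 0 Ψ) {C : ℝ} {s1 : ℝ} (hs1 : 0 ≤ s1)
    (hCs : C * s1 ≤ 1 / 4)
    (hgap : ∀ s ∈ Set.Icc 0 s1, HasGapS S (H + s • V) (γ / 2) (en H V Ut Ψ s) (Ut s Ψ))
    (hUin : ∀ s ∈ Set.Icc 0 s1, ∀ χ ∈ S,
      |(⟪χ, hs' H V w Ut s χ⟫_ℂ).re - (⟪Ut s Ψ, V (Ut s Ψ)⟫_ℂ).re * ‖χ‖ ^ 2| ≤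
        C * (⟪χ, H χ⟫_ℂ).re) :
    HasGapS S (H + s1 • V) (3 * γ / 4) (en H V Ut Ψ s1) (Ut s1 Ψ) := by
  have hs1' : s1 ∈ Set.Icc 0 s1 := Set.right_mem_Icc.2 hs1
  have hg1 := hgap s1 hs1'
  refine ⟨hg1.1, hg1.2.1, hg1.2.2.1, ?_⟩
  intro χ' hχ' ho
  set χ := star (Ut s1) χ' with hχ
  have hUχ : Ut s1 χ = χ' := congrArg (fun T : E →L[ℂ] E => T χ') (h.U_mul_star s1)
  have hcs : Commute S.starProjection (star (Ut s1)) := by
    have h1 := (h.cU s1).star_star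
    rwa [(isSelfAdjoint_starProjection S).star_eq] at h1
  have hχS : χ ∈ S := mem_of_commute hcs hχ'
  have hχo : ⟪Ψ, χ⟫_ℂ = 0 := by
    rw [← h.inner_U s1, hUχ, ho]
  have hχn : ‖χ'‖ = ‖χ‖ := by rw [← hUχ, h.norm_U]
  set q : ℝ → ℝ := fun s => (⟪χ, hs H V Ut s χ⟫_ℂ).re - en H V Ut Ψ s * ‖χ‖ ^ 2 -
    (1 - C * s) * (⟪χ, H χ⟫_ℂ).re with hq
  have hqd : ∀ s, HasDerivAt q ((⟪χ, hs' H V w Ut s χ⟫_ℂ).re -
      (⟪Ψ, hs' H V w Ut s Ψ⟫_ℂ).re * ‖χ‖ ^ 2 - (-C) * (⟪χ, H χ⟫_ℂ).re) s := by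
    intro s
    have h1 := h.re_inner_deriv χ s
    have h2 : HasDerivAt (fun s => en H V Ut Ψ s * ‖χ‖ ^ 2)
        ((⟪Ψ, hs' H V w Ut s Ψ⟫_ℂ).re * ‖χ‖ ^ 2) s := (h.re_inner_deriv Ψ s).mul_const _
    have h3 : HasDerivAt (fun s : ℝ => 1 - C * s) (-C) s := by
      have := ((hasDerivAt_id s).const_mul C).const_sub 1
      simpa using this
    exact (h1.sub h2).sub (h3.mul_const _)
  have hmono : MonotoneOn q (Set.Icc 0 s1) := by
    refine monotoneOn_of_deriv_nonneg (convex_Icc 0 s1)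
      (fun s _ => (hqd s).continuousAt.continuousWithinAt)
      (fun s _ => (hqd s).differentiableAt.differentiableWithinAt) ?_
    intro s hs
    rw [interior_Icc] at hs
    have hs' : s ∈ Set.Icc 0 s1 := ⟨hs.1.le, hs.2.le⟩
    rw [(hqd s).deriv, h.en_deriv_eq (hgap s hs')]
    have := (abs_le.1 (hUin s hs' χ hχS)).1
    linarith
  have hq1 : q 0 ≤ q s1 := hmono (Set.left_mem_Icc.2 hs1) hs1' hs1
  have hq0 : q 0 = 0 := by
    simp only [hq]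
    rw [h.en_zero h0, inner_hs, h.hU.zero, zero_smul, add_zero]
    change (⟪χ, H χ⟫_ℂ).re - 0 * ‖χ‖ ^ 2 - (1 - C * 0) * (⟪χ, H χ⟫_ℂ).re = 0
    ring
  rw [hq0] at hq1
  simp only [hq] at hq1
  rw [inner_hs, hUχ] at hq1
  have h2 := h0.2.2.2 χ hχS hχo
  rw [zero_add] at h2
  rw [hχn]
  have h3 : (3 / 4) * (⟪χ, H χ⟫_ℂ).re ≤ (1 - C * s1) * (⟪χ, H χ⟫_ℂ).re := by
    refine mul_le_mul_of_nonneg_right (by linarith) ?_
    exact le_trans (by positivity) h2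
  nlinarith

end FlowData

open FlowData

/-- **Gap stability along the spectral flow.** -/
theorem flow_main (hH : IsSelfAdjoint H) (hV : IsSelfAdjoint V) (hHS : ∀ x ∈ S, H x ∈ S)
    (hVS : ∀ x ∈ S, V x ∈ S) {γ : ℝ} (hγ : 0 < γ) {w : ℝ → ℝ} (hw : IsBand w (γ / 2)) {Ψ : E}
    (h0 : HasGapS S H γ 0 Ψ) {C c : ℝ} (hc : 0 ≤ c) (hC : 0 ≤ C) (hCc : C * c ≤ 1 / 4)
    (hUin : ∀ Ut : ℝ → E →L[ℂ] E, FlowData S H V w (γ / 2) Ut Ψ →
      ∀ s1 ∈ Set.Icc 0 c,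
      (∀ s ∈ Set.Icc 0 s1, HasGapS S (H + s • V) (γ / 2) (en H V Ut Ψ s) (Ut s Ψ)) →
      ∀ χ ∈ S,
        |(⟪χ, hs' H V w Ut s1 χ⟫_ℂ).re - (⟪Ut s1 Ψ, V (Ut s1 Ψ)⟫_ℂ).re * ‖χ‖ ^ 2| ≤
        C * (⟪χ, H χ⟫_ℂ).re) :
    ∃ (e : ℝ) (ψ : E), HasGapS S (H + c • V) (3 * γ / 4) e ψ := by
  obtain ⟨Ut, hUt⟩ := exists_isFlow (continuous_SS hH hV hw.toIsFilter V)
  have h : FlowData S H V w (γ / 2) Ut Ψ :=
    ⟨hH, hV, hHS, hVS, by positivity, hw, hUt, h0.1, h0.2.1⟩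
  set M : ℝ := (∫ t, |w t|) * ‖V‖ with hM
  have hM0 : 0 ≤ M := mul_nonneg (integral_nonneg fun t => abs_nonneg _) (norm_nonneg _)
  set δ : ℝ := γ / (8 * (M + ‖V‖ + 1)) with hδ
  have hδ0 : 0 < δ := by positivity
  have hδM : (M + ‖V‖ + 1) * δ = γ / 8 := by
    rw [hδ]; field_simp
  have hδ1 : 2 * (δ * ‖V‖) ≤ γ / 4 := by nlinarith [norm_nonneg V]
  have hδ2 : (M + ‖V‖) * δ ≤ γ / 2 / 2 := by nlinarith [norm_nonneg V]
  have key : ∀ n : ℕ, ∀ s ∈ Set.Icc 0 c, s ≤ n * δ →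
      HasGapS S (H + s • V) (3 * γ / 4) (en H V Ut Ψ s) (Ut s Ψ) := by
    intro n
    induction n with
    | zero =>
      intro s hs hsn
      have hs0 : s = 0 := le_antisymm (by simpa using hsn) hs.1
      subst hs0
      rw [h.en_zero h0, hUt.zero, zero_smul, add_zero]
      exact h0.mono (by linarith)
    | succ n ih =>
      intro s hs hsn
      by_cases hle : s ≤ n * δ
      · exact ih s hs hle
      · have hlt : n * δ < s := lt_of_not_ge hle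
        set x : ℝ := n * δ with hx
        have hx0 : 0 ≤ x := by positivity
        have hxc : x ∈ Set.Icc 0 c := ⟨hx0, hlt.le.trans hs.2⟩
        have hxg := ih x hxc le_rfl
        have hsx : s - x ≤ δ := by
          push_cast at hsn
          rw [add_mul, one_mul] at hsn
          linarith
        have hall : ∀ r ∈ Set.Icc 0 s,
            HasGapS S (H + r • V) (γ / 2) (en H V Ut Ψ r) (Ut r Ψ) := by
          intro r hr
          rcases le_total r x with hrx | hrx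
          · exact (ih r ⟨hr.1, hr.2.trans hs.2⟩ hrx).mono (by linarith)
          · have hrd : r - x ≤ δ := by linarith [hr.2]
            have h1 : (r - x) * ‖V‖ ≤ δ * ‖V‖ := mul_le_mul_of_nonneg_right hrd (norm_nonneg _)
            have h2 : (M + ‖V‖) * (r - x) ≤ (M + ‖V‖) * δ :=
              mul_le_mul_of_nonneg_left hrd (by positivity)
            exact (h.step hxg hrx (by linarith) (h2.trans hδ2)).mono (by linarith)
        refine h.boost (C := C) hγ h0 hs.1 ?_ hall ?_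
        · exact (mul_le_mul_of_nonneg_left hs.2 hC).trans hCc
        · intro r hr χ hχ
          exact hUin Ut h r ⟨hr.1, hr.2.trans hs.2⟩
            (fun t ht => hall t ⟨ht.1, ht.2.trans hr.2⟩) χ hχ
  obtain ⟨n, hn⟩ := exists_nat_ge (c / δ)
  refine ⟨_, _, key n c ⟨hc, le_rfl⟩ ?_⟩
  rwa [div_le_iff₀ hδ0] at hn

end Crest.Agent.R340.Flow644
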