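import Crest.Agent.R340.QL3_331

/-!
Quasi-local calculus, part 5 (helper331): odd elements. If `y` is odd and commutes with all far
modes, then `y * P` (`P` = parity) lies in the near algebra.
-/

set_option autoImplicit false
set_option linter.unusedSectionVars false

namespace Crest.Agent.R340.QL331

open Complex ComplexConjugate

variable {A V : Type*} [NormedRing A] [StarRing A] [CStarRing A] [NormedAlgebra ℂ A]
  [StarModule ℂ A] [NormedAddCommGroup V] [InnerProductSpace ℂ V]
  {n : ℕ} (b : OrthonormalBasis (Fin n) ℂ V)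

namespace Car

variable (R : Car A V)

/-- `a` anticommutes with the modes of `v` -/
def ACm (v : V) (a : A) : Prop := a * R.an v = -(R.an v * a) ∧ a * R.cr v = -(R.cr v * a)

theorem th_anti (v : V) : R.th * R.an v = -(R.an v * R.th) := by
  have h := R.th_an v
  calc R.th * R.an v = R.th * R.an v * (R.th * R.th) := by rw [R.th_sq, mul_one]
    _ = (R.th * R.an v * R.th) * R.th := by noncomm_ring
    _ = _ := by rw [h]; noncomm_ring

theorem th_anti_cr (v : V) : R.th * R.cr v = -(R.cr v * R.th) := by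
  have h : R.th * R.cr v * R.th = - R.cr v := R.par_cr v
  calc R.th * R.cr v = R.th * R.cr v * (R.th * R.th) := by rw [R.th_sq, mul_one]
    _ = (R.th * R.cr v * R.th) * R.th := by noncomm_ring
    _ = _ := by rw [h]; noncomm_ring

theorem acm_mul_th {v : V} {a : A} (h : R.Cm v a) : R.ACm v (a * R.th) := by
  refine ⟨?_, ?_⟩
  · calc a * R.th * R.an v = a * (R.th * R.an v) := by noncomm_ring
      _ = -((a * R.an v) * R.th) := by rw [R.th_anti]; noncomm_ring
      _ = -((R.an v * a) * R.th) := by rw [h.1.eq]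
      _ = _ := by noncomm_ring
  · calc a * R.th * R.cr v = a * (R.th * R.cr v) := by noncomm_ring
      _ = -((a * R.cr v) * R.th) := by rw [R.th_anti_cr]; noncomm_ring
      _ = -((R.cr v * a) * R.th) := by rw [h.2.eq]
      _ = _ := by noncomm_ring

theorem par_th : R.par R.th = R.th := by
  unfold par; rw [R.th_sq, one_mul]

theorem par_mul_th {a : A} : R.par (a * R.th) = R.par a * R.th := by rw [par_mul, par_th]

theorem acm_maj {v w : V} (h : (inner ℂ v w : ℂ) = 0) : R.ACm v (R.maj w) := by
  have h1 := R.an_an v w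
  have h2 := R.an_cr v w
  have h3 := R.cr_cr v w
  have h4 := R.cr_an v w
  have h' : (inner ℂ w v : ℂ) = 0 := by rw [← inner_conj_symm, h, map_zero]
  rw [h, zero_smul] at h2
  rw [h', zero_smul] at h4
  have hm : R.maj w = R.an w + R.cr w := rfl
  have hc : star (R.an w) = R.cr w := rfl
  rw [hc] at h2
  refine ⟨?_, ?_⟩
  · rw [hm]
    have e1 : R.an w * R.an v = -(R.an v * R.an w) :=
      eq_neg_of_add_eq_zero_right h1
    have e2 : R.cr w * R.an v = -(R.an v * R.cr w) :=
      eq_neg_of_add_eq_zero_right h2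
    rw [add_mul, mul_add, e1, e2]; abel
  · rw [hm]
    have e1 : R.cr w * R.cr v = -(R.cr v * R.cr w) :=
      eq_neg_of_add_eq_zero_right h3
    have e2 : R.an w * R.cr v = -(R.cr v * R.an w) :=
      eq_neg_of_add_eq_zero_right h4
    rw [add_mul, mul_add, e1, e2]; abel

theorem cm_mul_of_acm {v : V} {a c : A} (ha : R.ACm v a) (hc : R.ACm v c) : R.Cm v (a * c) := by
  refine ⟨?_, ?_⟩
  · change a * c * R.an v = R.an v * (a * c)
    rw [mul_assoc, hc.1, mul_neg, ← mul_assoc, ha.1]; noncomm_ring
  · change a * c * R.cr v = R.cr v * (a * c)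
    rw [mul_assoc, hc.2, mul_neg, ← mul_assoc, ha.2]; noncomm_ring

/-- odd elements anticommuting with the far modes lie in the near algebra -/
theorem nalg_of_odd (htop : ∀ a : A, a ∈ R.alg Set.univ) {L : ℕ} (hL : 1 ≤ L) (hn : 0 < n) {y : A}
    (hy : R.par y = -y) (h : ∀ j : Fin n, L ≤ (j : ℕ) → R.ACm (b j) y) : y ∈ R.nalg b L := by
  set j0 : Fin n := ⟨0, hn⟩ with hj0
  have hnorm : ‖b j0‖ = 1 := b.orthonormal.1 j0
  have hsq := R.maj_sq_one hnorm
  have hloc : R.Loc b L (y * R.maj (b j0)) := by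
    refine ⟨R.ev_odd_mul_odd hy (R.par_maj _), fun j hj => R.cm_mul_of_acm (h j hj) ?_⟩
    refine R.acm_maj (b.orthonormal.2 ?_)
    intro hjj
    have := congrArg Fin.val hjj
    simp only [hj0] at this
    omega
  have hmem := R.nalg_of_loc b htop hloc
  have hmaj : R.maj (b j0) ∈ R.nalg b L := by
    have hb : b j0 ∈ {v | ∃ j : Fin n, (j : ℕ) < L ∧ b j = v} := ⟨j0, by simp [hj0]; omega, rfl⟩
    exact Subalgebra.add_mem _ (R.an_mem_alg hb) (R.cr_mem_alg hb)
  have := Subalgebra.mul_mem _ hmem hmaj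
  rwa [mul_assoc, hsq, mul_one] at this

/-- if `y` is odd and commutes with the far modes then `y * P` lies in the near algebra -/
theorem mul_th_mem_nalg (htop : ∀ a : A, a ∈ R.alg Set.univ) {L : ℕ} (hL : 1 ≤ L) (hn : 0 < n)
    {y : A} (hy : R.par y = -y) (h : ∀ j : Fin n, L ≤ (j : ℕ) → R.Cm (b j) y) :
    y * R.th ∈ R.nalg b L := by
  refine R.nalg_of_odd b htop hL hn ?_ fun j hj => R.acm_mul_th (h j hj)
  rw [par_mul_th, hy, neg_mul]

/-- oddness is preserved by twirls -/
theorem par_tw {v : V} {y : A} (hy : R.par y = -y) : R.par (R.tw v y) = - R.tw v y := by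
  unfold tw
  rw [par_smul, par_add, par_mul, par_mul, hy, par_maj, ← smul_neg]
  congr 1
  noncomm_ring

theorem par_ex {l : List V} {y : A} (hy : R.par y = -y) : R.par (R.ex l y) = - R.ex l y := by
  induction l with
  | nil => exact hy
  | cons v l ih => exact R.par_tw (R.par_tw ih)

theorem par_E {L : ℕ} {y : A} (hy : R.par y = -y) : R.par (R.E b L y) = - R.E b L y := R.par_ex hy

/-- The Klein trick: for odd `y`, the truncation `E_L(y P) P` lies in the near algebra. -/
theorem klein_mem (htop : ∀ a : A, a ∈ R.alg Set.univ) {L : ℕ} (hL : 1 ≤ L) (hn : 0 < n)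
    {y : A} (hy : R.par y = -y) : R.E b L (y * R.th) * R.th ∈ R.nalg b L := by
  refine R.mul_th_mem_nalg b htop hL hn (R.par_E b ?_) fun j hj => R.E_cm b L _ j hj
  rw [par_mul_th, hy, neg_mul]

theorem norm_th_le : ‖R.th‖ ≤ 1 := by
  rcases subsingleton_or_nontrivial A with hA | hA
  · rw [Subsingleton.elim R.th 0, norm_zero]; exact zero_le_one
  · have h1 := CStarRing.norm_star_mul_self (x := R.th)
    rw [R.th_star, R.th_sq, CStarRing.norm_one] at h1
    nlinarith [norm_nonneg R.th]

theorem norm_sub_klein_le {L : ℕ} {y : A} :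
    ‖y - R.E b L (y * R.th) * R.th‖ ≤ ‖y * R.th - R.E b L (y * R.th)‖ := by
  have h : y - R.E b L (y * R.th) * R.th = (y * R.th - R.E b L (y * R.th)) * R.th := by
    rw [sub_mul, mul_assoc, R.th_sq, mul_one]
  rw [h]
  have := R.norm_th_le
  calc _ ≤ ‖y * R.th - R.E b L (y * R.th)‖ * ‖R.th‖ := norm_mul_le _ _
    _ ≤ ‖y * R.th - R.E b L (y * R.th)‖ * 1 := by gcongr
    _ = _ := mul_one _

/-- commutators of `y P` with the (odd) generators are anticommutators of `y`. -/
theorem br_mul_th_an (y : A) (v : V) :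
    br (y * R.th) (R.an v) = -((y * R.an v + R.an v * y) * R.th) := by
  unfold br
  calc y * R.th * R.an v - R.an v * (y * R.th)
      = y * (R.th * R.an v) - R.an v * y * R.th := by noncomm_ring
    _ = _ := by rw [R.th_anti]; noncomm_ring

theorem br_mul_th_cr (y : A) (v : V) :
    br (y * R.th) (R.cr v) = -((y * R.cr v + R.cr v * y) * R.th) := by
  unfold br
  calc y * R.th * R.cr v - R.cr v * (y * R.th)
      = y * (R.th * R.cr v) - R.cr v * y * R.th := by noncomm_ring
    _ = _ := by rw [R.th_anti_cr]; noncomm_ring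

end Car

end Crest.Agent.R340.QL331
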