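import Crest.Agent.R340.FiltQL_867
import Crest.Agent.R340.QL5_331
import Crest.Agent.R340.FlowB_644

/-!
R340 (S0532), block L9b (helper644): Lieb-Robinson bound for the spectral flow.

`D_r = ∫ φ(z) Dz_r(z) dμ(z)` with `Dz_r(z)` even and quasi-local about `z`
(profile `K/(1+D)^(2m+14)`), `U' = i D_r U`.  Then conjugation by `U_s` preserves the profile class
with the same exponent `m`.
-/

set_option autoImplicit false
set_option linter.unusedSectionVars false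

open scoped ENNReal NNReal
open MeasureTheory

namespace Crest.Agent.R340.FlowLR644

open Crest.Agent.R340.QL331 Crest.Agent.R340.LR667 Crest.Agent.R340.DC867
open Crest.Agent.R340.Filt867 Crest.Agent.R340.Flow644

section weighted

variable {A : Type*} [CStarAlgebra A] {S ι : Type*}

/-- **Lieb-Robinson bound for a unitary flow, weighted sup-norm version** (no kernel). -/
theorem lr_flow_w {V K : ℝ → A} {T : ℝ} (hV : ∀ t, V t ∈ unitary A) (hV0 : V 0 = 1)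
    (hK : ∀ t, star (K t) = -K t)
    (hd : ∀ t ∈ Set.Icc 0 T, HasDerivAt V (V t * K t) t) {g : ι → S → A} {G : ℝ} (hG : 0 ≤ G)
    (hg : ∀ k z, ‖g k z‖ ≤ G)
    {ρ : S → ℝ} {δ : ℝ} (hδ : 0 < δ) (hρ : ∀ z, δ ≤ ρ z) {v : ℝ} (hv : 0 ≤ v)
    (hκ : ∀ t ∈ Set.Icc 0 T, ∀ (X : A) (P : ℝ), 0 ≤ P → (∀ k z, ‖⁅X, g k z⁆‖ ≤ P * ρ z) →
      ∀ k w, ‖⁅X, ⁅K t, g k w⁆⁆‖ ≤ v * P * ρ w)
    {X : A} {C : ℝ} (hC : 0 ≤ C) (h0 : ∀ k z, ‖⁅X, g k z⁆‖ ≤ C * ρ z) {t : ℝ}
    (ht : t ∈ Set.Icc 0 T)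
    (k : ι) (w : S) : ‖⁅star (V t) * X * V t, g k w⁆‖ ≤ C * Real.exp (v * t) * ρ w := by
  have hρ0 : ∀ z, 0 < ρ z := fun z => hδ.trans_le (hρ z)
  set R : ℝ := 2 * ‖X‖ * G / δ with hR
  have hR0 : 0 ≤ R := by positivity
  have hVn : ∀ t, ‖star (V t) * X * V t‖ = ‖X‖ := by
    intro t
    have h := norm_conj_unitary (Unitary.star_mem (hV t)) X
    rwa [star_star] at h
  have key : ∀ n : ℕ, ∀ s ∈ Set.Icc 0 T, ∀ (k : ι) (w : S),
      ‖⁅star (V s) * X * V s, g k w⁆‖ ≤ maj v C R n s * ρ w := by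
    intro n
    induction n with
    | zero =>
      intro s hs k w
      have h1 : ‖⁅star (V s) * X * V s, g k w⁆‖ ≤ 2 * ‖X‖ * G := by
        calc ‖⁅star (V s) * X * V s, g k w⁆‖ ≤ 2 * ‖star (V s) * X * V s‖ * ‖g k w‖ :=
              norm_lie_le _ _
          _ = 2 * ‖X‖ * ‖g k w‖ := by rw [hVn]
          _ ≤ 2 * ‖X‖ * G := by gcongr; exact hg k w
      have h2 : 2 * ‖X‖ * G = R * δ := by rw [hR]; field_simp
      have h3 : maj v C R 0 s = R := by simp [maj]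
      rw [h3]
      calc ‖⁅star (V s) * X * V s, g k w⁆‖ ≤ R * δ := h1.trans_eq h2
        _ ≤ R * ρ w := by gcongr; exact hρ w
    | succ n ih =>
      intro s hs k w
      have hd' : ∀ r ∈ Set.Icc 0 s, HasDerivAt (fun r => ⁅X, V r * g k w * star (V r)⁆)
          (⁅X, V r * ⁅K r, g k w⁆ * star (V r)⁆) r := by
        intro r hr
        have h1 := hd r ⟨hr.1, hr.2.trans hs.2⟩
        have h2 : HasDerivAt (fun r => star (V r)) (star (V r * K r)) r := h1.star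
        have h3 : HasDerivAt (fun r => V r * g k w * star (V r))
            (V r * ⁅K r, g k w⁆ * star (V r)) r := by
          refine ((h1.mul_const (g k w)).mul h2).congr_deriv ?_
          rw [star_mul, hK]
          simp only [Ring.lie_def, mul_sub, sub_mul, mul_neg, neg_mul, mul_assoc]
          abel
        simp only [Ring.lie_def] at h3 ⊢
        exact (h3.const_mul X).sub (h3.mul_const X)
      have hb : ∀ r ∈ Set.Ico (0 : ℝ) s, ‖⁅X, V r * ⁅K r, g k w⁆ * star (V r)⁆‖ ≤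
          v * maj v C R n r * ρ w := by
        intro r hr
        have hrT : r ∈ Set.Icc 0 T := ⟨hr.1, hr.2.le.trans hs.2⟩
        rw [← norm_lie_conj (hV r)]
        exact hκ r hrT _ _ (maj_nonneg hv hC hR0 n hr.1) (ih r hrT) k w
      have hB : ∀ r, HasDerivAt (fun r => maj v C R (n + 1) r * ρ w)
          (v * maj v C R n r * ρ w) r := fun r => (hasDerivAt_maj v C R n r).mul_const (ρ w)
      have hfin := image_norm_le_of_norm_deriv_right_le_deriv_boundary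
        (f := fun r => ⁅X, V r * g k w * star (V r)⁆) (a := 0) (b := s)
        (fun r hr => (hd' r hr).continuousAt.continuousWithinAt)
        (fun r hr => (hd' r ⟨hr.1, hr.2.le⟩).hasDerivWithinAt)
        (B := fun r => maj v C R (n + 1) r * ρ w) (B' := fun r => v * maj v C R n r * ρ w)
        (by
          simp only [hV0, star_one, one_mul, mul_one, maj_zero]
          exact h0 k w) hB hb (Set.right_mem_Icc.2 hs.1)
      rw [norm_lie_conj (hV s)]
      exact hfin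
  have hlim : Filter.Tendsto (fun n => maj v C R n t * ρ w) Filter.atTop
      (nhds (C * Real.exp (v * t) * ρ w)) := (tendsto_maj v C R t).mul_const (ρ w)
  exact ge_of_tendsto' hlim fun n => key n t ht k w

/-- reversing the flow: `V_r = U_s U_{s-r}^*` solves `V' = V (i D_{s-r})`, `V_s = U_s`. -/
theorem lr_isFlow {D U : ℝ → A} (hU : IsFlow D U) (hUu : ∀ s, U s ∈ unitary A)
    (hD : ∀ s, IsSelfAdjoint (D s)) {T : ℝ} {g : ι → S → A} {G : ℝ} (hG : 0 ≤ G)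
    (hg : ∀ k z, ‖g k z‖ ≤ G)
    {ρ : S → ℝ} {δ : ℝ} (hδ : 0 < δ) (hρ : ∀ z, δ ≤ ρ z) {v : ℝ} (hv : 0 ≤ v)
    (hκ : ∀ t ∈ Set.Icc 0 T, ∀ (X : A) (P : ℝ), 0 ≤ P → (∀ k z, ‖⁅X, g k z⁆‖ ≤ P * ρ z) →
      ∀ k w, ‖⁅X, ⁅D t, g k w⁆⁆‖ ≤ v * P * ρ w)
    {X : A} {C : ℝ} (hC : 0 ≤ C) (h0 : ∀ k z, ‖⁅X, g k z⁆‖ ≤ C * ρ z) {s : ℝ}
    (hs : s ∈ Set.Icc 0 T)
    (k : ι) (w : S) : ‖⁅star (U s) * X * U s, g k w⁆‖ ≤ C * Real.exp (v * s) * ρ w := by
  set V : ℝ → A := fun r => U s * star (U (s - r)) with hVdef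
  set K : ℝ → A := fun r => Complex.I • D (s - r) with hKdef
  have hV : ∀ t, V t ∈ unitary A := fun t => mul_mem (hUu s) (Unitary.star_mem (hUu _))
  have hV0 : V 0 = 1 := by
    simp only [hVdef, sub_zero]
    exact (Unitary.mem_iff.1 (hUu s)).2
  have hKs : ∀ t, star (K t) = -K t := by
    intro t
    simp only [hKdef, star_smul, (hD _).star_eq]
    simp
  have hd : ∀ t ∈ Set.Icc 0 s, HasDerivAt V (V t * K t) t := by
    intro t _
    have h1 : HasDerivAt (fun r => U (s - r)) (-((Complex.I • D (s - t)) * U (s - t))) t := by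
      have := (hU.deriv (s - t)).scomp t ((hasDerivAt_id t).const_sub s)
      simpa [Function.comp_def] using this
    have h2 := h1.star.const_mul (U s)
    refine h2.congr_deriv ?_
    simp only [hVdef, hKdef, star_neg, star_mul, star_smul, (hD _).star_eq]
    simp [mul_assoc]
  have h := lr_flow_w (V := V) (K := K) (T := s) hV hV0 hKs hd hG hg hδ hρ hv
    (fun t ht X P hP hX k w => by
      have h1 : ⁅X, ⁅K t, g k w⁆⁆ = Complex.I • ⁅X, ⁅D (s - t), g k w⁆⁆ := by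
        simp only [hKdef, smul_lie', lie_smul']
      rw [h1, norm_smul, Complex.norm_I, one_mul]
      exact hκ (s - t) ⟨sub_nonneg.2 ht.2, by linarith [ht.1, hs.2]⟩ X P hP hX k w) hC h0
    (Set.right_mem_Icc.2 hs.1) k w
  have hVs : V s = U s := by
    simp only [hVdef, sub_self, hU.zero, star_one, mul_one]
  rwa [hVs] at h

end weighted

section klein

variable {A V : Type*} [CStarAlgebra A] [NormedAddCommGroup V] [InnerProductSpace ℂ V]
  (R : Car A V) {G : Type*}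

theorem acomm_gen_an (u : Fin 2 → G → V) (k : Fin 2 × Bool) (w : G) (v : V) :
    ∃ c : ℂ, gen R u k w * R.an v + R.an v * gen R u k w = c • (1 : A) := by
  obtain ⟨k, b⟩ := k
  cases b
  · exact ⟨0, by rw [gen_false, R.an_an, zero_smul]⟩
  · exact ⟨_, by rw [gen_true, R.cr_an]⟩

theorem acomm_gen_cr (u : Fin 2 → G → V) (k : Fin 2 × Bool) (w : G) (v : V) :
    ∃ c : ℂ, gen R u k w * R.cr v + R.cr v * gen R u k w = c • (1 : A) := by
  obtain ⟨k, b⟩ := k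
  cases b
  · exact ⟨_, by rw [gen_false]; exact R.an_cr _ _⟩
  · exact ⟨0, by rw [gen_true, R.cr_cr, zero_smul]⟩

/-- `{[D,g],c} = -{g,[D,c]}` when `{g,c}` is a scalar -/
theorem norm_acomm_le {D g c : A} (hg : ‖g‖ ≤ 1) {z : ℂ} (h : g * c + c * g = z • (1 : A)) :
    ‖⁅D, g⁆ * c + c * ⁅D, g⁆‖ ≤ 2 * ‖⁅D, c⁆‖ := by
  have h1 : D * (g * c + c * g) = (g * c + c * g) * D := by
    rw [h, mul_smul_comm, smul_mul_assoc, one_mul, mul_one]
  have e : ⁅D, g⁆ * c + c * ⁅D, g⁆ = -(g * ⁅D, c⁆ + ⁅D, c⁆ * g) := by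
    have e2 : ⁅D, g⁆ * c + c * ⁅D, g⁆ + (g * ⁅D, c⁆ + ⁅D, c⁆ * g) =
        D * (g * c + c * g) - (g * c + c * g) * D := by
      simp only [Ring.lie_def]
      noncomm_ring
    rw [h1, sub_self] at e2
    exact eq_neg_of_add_eq_zero_left e2
  rw [e, norm_neg]
  calc ‖g * ⁅D, c⁆ + ⁅D, c⁆ * g‖ ≤ ‖g * ⁅D, c⁆‖ + ‖⁅D, c⁆ * g‖ := norm_add_le _ _
    _ ≤ ‖g‖ * ‖⁅D, c⁆‖ + ‖⁅D, c⁆‖ * ‖g‖ := add_le_add (norm_mul_le _ _) (norm_mul_le _ _)
    _ ≤ 1 * ‖⁅D, c⁆‖ + ‖⁅D, c⁆‖ * 1 := by gcongr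
    _ = _ := by ring

theorem cs_klein_le {u : Fin 2 → G → V} (hu : ∀ k z, ‖u k z‖ ≤ 1) (D : A) (k : Fin 2 × Bool)
    (w : G) (v : V) : R.cs (⁅D, gen R u k w⁆ * R.th) v ≤ 2 * R.cs D v := by
  unfold Car.cs
  rw [R.br_mul_th_an, R.br_mul_th_cr, norm_neg, norm_neg, norm_mul_th, norm_mul_th]
  obtain ⟨z1, h1⟩ := acomm_gen_an R u k w v
  obtain ⟨z2, h2⟩ := acomm_gen_cr R u k w v
  have h3 := norm_acomm_le (D := D) (norm_gen_le R hu k w) h1
  have h4 := norm_acomm_le (D := D) (norm_gen_le R hu k w) h2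
  have e : ∀ c : A, br D c = ⁅D, c⁆ := fun c => by rw [Ring.lie_def]; rfl
  rw [e, e]
  linarith

theorem par_gen (u : Fin 2 → G → V) (k : Fin 2 × Bool) (w : G) :
    R.par (gen R u k w) = - gen R u k w := by
  obtain ⟨k, b⟩ := k
  cases b
  · exact R.par_an _
  · exact R.par_cr _

theorem par_lie_gen {D : A} (hD : R.Ev D) (u : Fin 2 → G → V) (k : Fin 2 × Bool) (w : G) :
    R.par ⁅D, gen R u k w⁆ = - ⁅D, gen R u k w⁆ := by
  have hD' : R.par D = D := hD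
  rw [Ring.lie_def, Car.par_sub, Car.par_mul, Car.par_mul, hD', par_gen]
  noncomm_ring

end klein

section frame

variable {A V : Type*} [CStarAlgebra A] [NormedAddCommGroup V] [InnerProductSpace ℂ V]
  (R : Car A V) {G : Type*} {n : ℕ}
  (b : G → OrthonormalBasis (Fin n) ℂ V)

theorem E_of_ge {w : G} {L : ℕ} (h : n ≤ L) (y : A) : R.E (b w) L y = y := by
  have hl : far (b w) L = [] := by
    unfold far
    rw [List.map_eq_nil_iff, List.filter_eq_nil_iff]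
    intro j _
    have h1 : (j : ℕ) < n := j.2
    simp only [decide_eq_true_eq, not_le]
    omega
  rw [Car.E, hl, Car.ex_nil]

/-- constant of the double commutator bound -/
noncomputable def cDC (K Cf Cn : ℝ) (m : ℕ) : ℝ :=
  2 * Cn * K + 2 ^ (m + 8) * (K * (Cf + 1) * Cn)

/-- **Double commutator bound** `‖⁅X, ⁅Dz, gen k w⁆⁆‖` for `Dz` quasi-local about `z`. -/
theorem norm_dc_le (htop : ∀ a : A, a ∈ R.alg Set.univ) (hn : 0 < n)
    {u : Fin 2 → G → V} (hu : ∀ k z, ‖u k z‖ ≤ 1)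
    {D : G → G → ℝ} (hD0 : ∀ x y, 0 ≤ D x y)
    {m : ℕ} {Cf Cn : ℝ} (hCf : 0 ≤ Cf) (hCn : 0 ≤ Cn) (hfar : FarB R b u D (2 * m + 14) Cf)
    (hnear : NearB R b u D m Cn) {Dz : A} (hDz : R.Ev Dz) {z : G} {K : ℝ} (hK : 0 ≤ K)
    (hDp : ∀ k w, ‖⁅Dz, gen R u k w⁆‖ ≤ K / (1 + D w z) ^ (2 * m + 14))
    {X : A} {x : G} {P : ℝ} (hP : 0 ≤ P) (hX : ∀ k w, ‖⁅X, gen R u k w⁆‖ ≤ P / (1 + D w x) ^ m)
    (k : Fin 2 × Bool) (w : G) :
    ‖⁅X, ⁅Dz, gen R u k w⁆⁆‖ ≤
      cDC K Cf Cn m * P / ((1 + D w z) ^ (m + 7) * (1 + D z x) ^ m) := by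
  set Y : A := ⁅Dz, gen R u k w⁆ with hY
  have hYodd : R.par Y = -Y := par_lie_gen R hDz u k w
  set N : ℕ := m + 7 with hN
  have hp1 : 1 ≤ 1 + D w z := by linarith [hD0 w z]
  have hp2 : 0 < (1 + D z x) ^ m := by have := hD0 z x; positivity
  have hq : 0 < (1 + D w z) ^ N := by positivity
  have hYn : ‖Y‖ ≤ K / (1 + D w z) ^ (2 * N) := by
    have := hDp k w
    rwa [show 2 * m + 14 = 2 * N by omega] at this
  -- truncations
  set y : ℕ → A := fun l => R.E (b z) (4 ^ l) (Y * R.th) with hy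
  have hmem : ∀ l, y l * R.th ∈ R.nalg (b z) (4 ^ l) := fun l =>
    R.klein_mem (b z) htop (Nat.one_le_pow _ _ (by norm_num)) hn hYodd
  have hylast : y n = Y * R.th := E_of_ge R b (Nat.lt_pow_self (by norm_num)).le _
  have hfarY : ∀ l, ‖Y * R.th - y l‖ ≤ 2 * (Cf * K / 2 ^ ((2 * m + 10) * l)) := by
    intro l
    refine (R.norm_sub_E_le (b z) (4 ^ l) _).trans ?_
    have h1 : ∑ j ∈ farS n (4 ^ l), R.cs (Y * R.th) (b z j) ≤
        2 * ∑ j ∈ farS n (4 ^ l), R.cs Dz (b z j) := by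
      rw [Finset.mul_sum]
      exact Finset.sum_le_sum fun j _ => cs_klein_le R hu Dz k w (b z j)
    have h2 := hfar Dz z K hK hDp l
    rw [show 2 * m + 14 - 4 = 2 * m + 10 by omega] at h2
    linarith
  have hdist : ∀ l, ‖Y * R.th - y l‖ ≤ 2 * (K / (1 + D w z) ^ (2 * N)) := by
    intro l
    have h1 : ‖y l‖ ≤ ‖Y‖ := (R.norm_E_le (b z) _ _).trans_eq (norm_mul_th R Y)
    calc ‖Y * R.th - y l‖ ≤ ‖Y * R.th‖ + ‖y l‖ := norm_sub_le _ _
      _ ≤ ‖Y‖ + ‖Y‖ := by rw [norm_mul_th]; gcongr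
      _ ≤ _ := by linarith
  -- interpolation
  have hmix : ∀ l, ‖Y * R.th - y l‖ ≤
      2 * (K * (Cf + 1)) / (2 ^ ((m + 5) * l) * (1 + D w z) ^ N) := by
    intro l
    set a := ‖Y * R.th - y l‖ with ha
    have ha0 : 0 ≤ a := norm_nonneg _
    have h1 := hfarY l
    have h2 := hdist l
    rw [← ha] at h1 h2
    have e1 : (2 : ℝ) ^ ((2 * m + 10) * l) = (2 ^ ((m + 5) * l)) ^ 2 := by
      rw [← pow_mul]; congr 1; ring
    have e2 : (1 + D w z) ^ (2 * N) = ((1 + D w z) ^ N) ^ 2 := by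
      rw [← pow_mul]; congr 1; ring
    rw [e1] at h1
    rw [e2] at h2
    set p : ℝ := 2 ^ ((m + 5) * l) with hp
    set q : ℝ := (1 + D w z) ^ N with hqq
    have hp0 : 0 < p := by positivity
    have hq0 : 0 < q := hq
    rw [le_div_iff₀ (by positivity)]
    have h3 : a * p ^ 2 ≤ 2 * (Cf * K) := by
      rw [← mul_div_assoc, le_div_iff₀ (by positivity)] at h1; exact h1
    have h4 : a * q ^ 2 ≤ 2 * K := by
      rw [← mul_div_assoc, le_div_iff₀ (by positivity)] at h2; exact h2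
    -- (a p q)^2 ≤ (a p^2)(a q^2)
    have h5 : (a * (p * q)) ^ 2 ≤ (2 * (K * (Cf + 1))) ^ 2 := by
      calc (a * (p * q)) ^ 2 = (a * p ^ 2) * (a * q ^ 2) := by ring
        _ ≤ (2 * (Cf * K)) * (2 * K) := by gcongr
        _ ≤ _ := by nlinarith [mul_nonneg hK hCf, mul_nonneg hK hK,
                      mul_nonneg (mul_nonneg hK hK) hCf, mul_nonneg (mul_nonneg hK hCf) (mul_nonneg hK hCf)]
    exact abs_le_of_sq_le_sq' h5 (by positivity) |>.2
  -- local commutators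
  have hloc : ∀ l (y' : A), y' ∈ R.nalg (b z) (4 ^ l) →
      ‖⁅X, y'⁆‖ ≤ 2 * ‖y'‖ * (Cn * P * 2 ^ ((m + 4) * l) / (1 + D z x) ^ m) := by
    intro l y' hy'
    have h1 := R.norm_br_le_of_nalg (b z) hy' X
    have h2 := hnear X x P hP hX z l
    have e : br X y' = ⁅X, y'⁆ := by rw [Ring.lie_def]; rfl
    rw [e] at h1
    refine h1.trans ?_
    gcongr
  have htel : Y = y 0 * R.th + ∑ l ∈ Finset.range n, (y (l + 1) - y l) * R.th := by
    rw [← Finset.sum_mul, Finset.sum_range_sub, ← add_mul]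
    rw [add_sub_cancel, hylast, mul_assoc, R.th_sq, mul_one]
  have hsub : ∀ l, (y (l + 1) - y l) * R.th ∈ R.nalg (b z) (4 ^ (l + 1)) := by
    intro l
    rw [sub_mul]
    refine Subalgebra.sub_mem _ (hmem (l + 1)) ?_
    refine R.alg_mono ?_ (hmem l)
    rintro v ⟨j, hj, rfl⟩
    exact ⟨j, hj.trans_le (Nat.pow_le_pow_right (by norm_num) (Nat.le_succ l)), rfl⟩
  have hterm : ∀ l, ‖⁅X, (y (l + 1) - y l) * R.th⁆‖ ≤
      2 ^ (m + 7) * (K * (Cf + 1) * Cn) * P / ((1 + D w z) ^ N * (1 + D z x) ^ m) *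
        (1 / 2) ^ l := by
    intro l
    refine (hloc (l + 1) _ (hsub l)).trans ?_
    have h1 : ‖(y (l + 1) - y l) * R.th‖ ≤
        2 * (2 * (K * (Cf + 1)) / (2 ^ ((m + 5) * l) * (1 + D w z) ^ N)) := by
      rw [norm_mul_th]
      have e : y (l + 1) - y l = (Y * R.th - y l) - (Y * R.th - y (l + 1)) := by abel
      rw [e]
      have h2 := hmix l
      have h3 := hmix (l + 1)
      have h4 : 2 * (K * (Cf + 1)) / (2 ^ ((m + 5) * (l + 1)) * (1 + D w z) ^ N) ≤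
          2 * (K * (Cf + 1)) / (2 ^ ((m + 5) * l) * (1 + D w z) ^ N) := by
        gcongr
        · norm_num
        · omega
      calc _ ≤ ‖Y * R.th - y l‖ + ‖Y * R.th - y (l + 1)‖ := norm_sub_le _ _
        _ ≤ _ := by linarith
    have e1 : (2 : ℝ) ^ ((m + 4) * (l + 1)) = 2 ^ (m + 4) * 2 ^ ((m + 4) * l) := by
      rw [← pow_add]; congr 1; ring
    have e2 : (2 : ℝ) ^ ((m + 5) * l) = 2 ^ ((m + 4) * l) * 2 ^ l := by
      rw [← pow_add]; congr 1; ring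
    have e3 : (2 : ℝ) ^ (m + 7) = 8 * 2 ^ (m + 4) := by
      rw [show m + 7 = 3 + (m + 4) by omega, pow_add]; norm_num
    calc 2 * ‖(y (l + 1) - y l) * R.th‖ *
          (Cn * P * 2 ^ ((m + 4) * (l + 1)) / (1 + D z x) ^ m)
        ≤ 2 * (2 * (2 * (K * (Cf + 1)) / (2 ^ ((m + 5) * l) * (1 + D w z) ^ N))) *
          (Cn * P * 2 ^ ((m + 4) * (l + 1)) / (1 + D z x) ^ m) := by gcongr
      _ = _ := by
        rw [e1, e2, e3, one_div, inv_pow]
        have h5 : (2 : ℝ) ^ ((m + 4) * l) ≠ 0 := by positivity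
        have h6 : (2 : ℝ) ^ l ≠ 0 := by positivity
        have h7 := hq.ne'
        have h8 := hp2.ne'
        field_simp
        ring
  have h00 : ‖⁅X, y 0 * R.th⁆‖ ≤ 2 * Cn * K * P / ((1 + D w z) ^ N * (1 + D z x) ^ m) := by
    refine (hloc 0 _ (hmem 0)).trans ?_
    have h1 : ‖y 0 * R.th‖ ≤ K / (1 + D w z) ^ N := by
      rw [norm_mul_th]
      have h2 : ‖y 0‖ ≤ ‖Y‖ := (R.norm_E_le (b z) _ _).trans_eq (norm_mul_th R Y)
      refine h2.trans (hYn.trans ?_)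
      gcongr
      omega
    rw [mul_zero, pow_zero, mul_one]
    calc 2 * ‖y 0 * R.th‖ * (Cn * P / (1 + D z x) ^ m)
        ≤ 2 * (K / (1 + D w z) ^ N) * (Cn * P / (1 + D z x) ^ m) := by gcongr
      _ = _ := by field_simp
  rw [htel, lie_add']
  have hsum : ⁅X, ∑ l ∈ Finset.range n, (y (l + 1) - y l) * R.th⁆ =
      ∑ l ∈ Finset.range n, ⁅X, (y (l + 1) - y l) * R.th⁆ := by
    have h := map_sum (adR X) (fun l => (y (l + 1) - y l) * R.th) (Finset.range n)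
    simpa only [adR_apply] using h
  rw [hsum]
  have hC0 : 0 ≤ 2 ^ (m + 7) * (K * (Cf + 1) * Cn) * P / ((1 + D w z) ^ N * (1 + D z x) ^ m) := by
    positivity
  calc ‖⁅X, y 0 * R.th⁆ + ∑ l ∈ Finset.range n, ⁅X, (y (l + 1) - y l) * R.th⁆‖
      ≤ ‖⁅X, y 0 * R.th⁆‖ + ∑ l ∈ Finset.range n, ‖⁅X, (y (l + 1) - y l) * R.th⁆‖ :=
        (norm_add_le _ _).trans (by gcongr; exact norm_sum_le _ _)
    _ ≤ 2 * Cn * K * P / ((1 + D w z) ^ N * (1 + D z x) ^ m) + ∑ l ∈ Finset.range n,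
        2 ^ (m + 7) * (K * (Cf + 1) * Cn) * P / ((1 + D w z) ^ N * (1 + D z x) ^ m) *
          (1 / 2) ^ l := add_le_add h00 (Finset.sum_le_sum fun l _ => hterm l)
    _ ≤ 2 * Cn * K * P / ((1 + D w z) ^ N * (1 + D z x) ^ m) +
        2 ^ (m + 7) * (K * (Cf + 1) * Cn) * P / ((1 + D w z) ^ N * (1 + D z x) ^ m) * 2 := by
        rw [← Finset.mul_sum]
        gcongr
        have h := summable_geometric_two.sum_le_tsum (Finset.range n)
          (fun i _ => by positivity)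
        rwa [tsum_geometric_two] at h
    _ = _ := by
        rw [cDC, show m + 8 = 1 + (m + 7) by omega, pow_add]
        ring

variable [MeasurableSpace G] (μ : Measure G)

/-- **The spectral flow preserves the profile class, with the same exponent.** -/
theorem flow_profile (htop : ∀ a : A, a ∈ R.alg Set.univ) (hn : 0 < n)
    {u : Fin 2 → G → V} (hu : ∀ k z, ‖u k z‖ ≤ 1)
    {D : G → G → ℝ} (hD0 : ∀ x y, 0 ≤ D x y)
    (hDtri : ∀ x y z, D x z ≤ D x y + D y z) (hDb : ∃ B, ∀ x y, D x y ≤ B)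
    {Cs : ℝ} (hCs : 0 ≤ Cs)
    (hS : ∀ w, Integrable (fun z => 1 / (1 + D w z) ^ 3) μ ∧ ∫ z, 1 / (1 + D w z) ^ 3 ∂μ ≤ Cs)
    {m : ℕ} {Cf Cn : ℝ} (hCf : 0 ≤ Cf) (hCn : 0 ≤ Cn) (hfar : FarB R b u D (2 * m + 14) Cf)
    (hnear : NearB R b u D m Cn) {K : ℝ} (hK : 0 ≤ K) {T : ℝ} {Dz : ℝ → G → A}
    (hDz : ∀ r z, R.Ev (Dz r z))
    (hDp : ∀ r ∈ Set.Icc 0 T, ∀ z k w,
      ‖⁅Dz r z, gen R u k w⁆‖ ≤ K / (1 + D w z) ^ (2 * m + 14))
    {φ : G → ℝ} (hφ : ∀ z, |φ z| ≤ 1) {Dg : ℝ → A}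
    (hint : ∀ r ∈ Set.Icc 0 T, Integrable (fun z => φ z • Dz r z) μ)
    (hDg : ∀ r ∈ Set.Icc 0 T, Dg r = ∫ z, φ z • Dz r z ∂μ)
    (hDsa : ∀ r, IsSelfAdjoint (Dg r)) {U : ℝ → A} (hU : IsFlow Dg U)
    (hUu : ∀ s, U s ∈ unitary A)
    {X : A} {x : G} {P : ℝ} (hP : 0 ≤ P) (hX : ∀ k w, ‖⁅X, gen R u k w⁆‖ ≤ P / (1 + D w x) ^ m)
    {s : ℝ} (hs : s ∈ Set.Icc 0 T) (k : Fin 2 × Bool) (w : G) :
    ‖⁅star (U s) * X * U s, gen R u k w⁆‖ ≤
      P * Real.exp (Cs * cDC K Cf Cn m * s) / (1 + D w x) ^ m := by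
  obtain ⟨B, hB⟩ := hDb
  have hc0 : 0 ≤ cDC K Cf Cn m := by unfold cDC; positivity
  have hB0 : 0 ≤ B := (hD0 x x).trans (hB x x)
  have hpos : ∀ z y, 0 < 1 + D z y := fun z y => by linarith [hD0 z y]
  have h := lr_isFlow (g := gen R u) (G := 1) (T := T) hU hUu hDsa zero_le_one
    (norm_gen_le R hu)
    (ρ := fun z => 1 / (1 + D z x) ^ m) (δ := 1 / (1 + B) ^ m) (by positivity)
    (fun z => by
      have h1 := hpos z x
      have h2 := hB z x
      show 1 / (1 + B) ^ m ≤ 1 / (1 + D z x) ^ m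
      gcongr)
    (v := Cs * cDC K Cf Cn m) (by positivity)
    (by
      intro t ht Y Q hQ hY k w
      have hY' : ∀ k w, ‖⁅Y, gen R u k w⁆‖ ≤ Q / (1 + D w x) ^ m := fun k w => by
        have := hY k w; rwa [mul_one_div] at this
      have e1 : ⁅Y, ⁅Dg t, gen R u k w⁆⁆ = ∫ z, ⁅Y, ⁅φ z • Dz t z, gen R u k w⁆⁆ ∂μ := by
        rw [hDg t ht, integral_lie μ (hint t ht), lie_integral μ (integrable_lie μ (hint t ht) _)]
      rw [e1]
      have hbound : ∀ z, ‖⁅Y, ⁅φ z • Dz t z, gen R u k w⁆⁆‖ ≤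
          cDC K Cf Cn m * Q / (1 + D w x) ^ m * (1 / (1 + D w z) ^ 3) := by
        intro z
        have e2 : ⁅Y, ⁅φ z • Dz t z, gen R u k w⁆⁆ = φ z • ⁅Y, ⁅Dz t z, gen R u k w⁆⁆ := by
          simp only [Ring.lie_def, smul_mul_assoc, mul_smul_comm, ← smul_sub]
        rw [e2, norm_smul, Real.norm_eq_abs]
        have h2 := norm_dc_le R b htop hn hu hD0 hCf hCn hfar hnear (hDz t z) hK (hDp t ht z)
          hQ hY' k w
        calc |φ z| * ‖⁅Y, ⁅Dz t z, gen R u k w⁆⁆‖ ≤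
              1 * (cDC K Cf Cn m * Q / ((1 + D w z) ^ (m + 7) * (1 + D z x) ^ m)) := by
              gcongr
              exact hφ z
          _ ≤ cDC K Cf Cn m * Q / ((1 + D w x) ^ m * (1 + D w z) ^ 3) := by
              rw [one_mul]
              have p1 := hpos w z
              have p2 := hpos z x
              have p3 := hpos w x
              refine div_le_div_of_nonneg_left (by positivity) (by positivity) ?_
              have h3 : 1 + D w x ≤ (1 + D w z) * (1 + D z x) := by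
                nlinarith [hDtri w z x, mul_nonneg (hD0 w z) (hD0 z x)]
              have h4 : (1 + D w x) ^ m ≤ (1 + D w z) ^ m * (1 + D z x) ^ m := by
                rw [← mul_pow]; gcongr
              have h5 : (1 + D w z) ^ 3 ≤ (1 + D w z) ^ 7 :=
                pow_le_pow_right₀ (by linarith [hD0 w z]) (by norm_num)
              calc (1 + D w x) ^ m * (1 + D w z) ^ 3
                  ≤ ((1 + D w z) ^ m * (1 + D z x) ^ m) * (1 + D w z) ^ 7 := by gcongr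
                _ = (1 + D w z) ^ (m + 7) * (1 + D z x) ^ m := by rw [pow_add]; ring
          _ = _ := by rw [mul_one_div, div_div]
      calc ‖∫ z, ⁅Y, ⁅φ z • Dz t z, gen R u k w⁆⁆ ∂μ‖
          ≤ ∫ z, cDC K Cf Cn m * Q / (1 + D w x) ^ m * (1 / (1 + D w z) ^ 3) ∂μ :=
            norm_integral_le_of_norm_le ((hS w).1.const_mul _)
              (Filter.Eventually.of_forall hbound)
        _ = cDC K Cf Cn m * Q / (1 + D w x) ^ m * ∫ z, 1 / (1 + D w z) ^ 3 ∂μ :=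
            integral_const_mul _ _
        _ ≤ cDC K Cf Cn m * Q / (1 + D w x) ^ m * Cs := by
            have := hpos w x
            gcongr
            exact (hS w).2
        _ = _ := by ring)
    hP (fun k z => by rw [mul_one_div]; exact hX k z) hs k w
  rwa [mul_one_div] at h

end frame

end Crest.Agent.R340.FlowLR644
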