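import Crest.Agent.R340.FlowE_644
import Crest.Agent.R340.Bridge_649

/-!
R340 (S0532), block L9 (helper644): the flow theorem on helper649's sealed operator algebra
`Op ι` of the Fock space.
-/

set_option autoImplicit false
set_option linter.unusedSectionVars false

open scoped InnerProductSpace
open MeasureTheory Complex
open Crest.Agent.R340
open Crest.Agent.R340.LR667 (tau U Fl SS Tt IsFilter)
open Crest.Agent.R340.Fock649

namespace Crest.Agent.R340.Flow644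

section alg

variable {A : Type*} [CStarAlgebra A]

theorem IsFlow.commute' {D U : ℝ → A} (h : IsFlow D U) (hUu : ∀ s, U s ∈ unitary A)
    (hD : ∀ s, IsSelfAdjoint (D s)) {P : A} (hP : ∀ s, Commute P (D s)) (s : ℝ) :
    Commute P (U s) := by
  have h1 := h.conj_const hD hP s
  have h2 : U s * (star (U s) * P * U s) = U s * P := by rw [h1]
  rw [← mul_assoc, ← mul_assoc, (Unitary.mem_iff.1 (hUu s)).2, one_mul] at h2
  exact h2

end alg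

variable {ι : Type*} [LinearOrder ι] [Fintype ι]

/-- `flow_main` on `Op ι`. -/
theorem flow_main_op {S : Submodule ℂ (Fk ι)} {H V : Op ι} (hH : IsSelfAdjoint H)
    (hV : IsSelfAdjoint V) (hHS : ∀ x ∈ S, H x ∈ S)
    (hVS : ∀ x ∈ S, V x ∈ S) {γ : ℝ} (hγ : 0 < γ) {w : ℝ → ℝ} (hw : IsBand w (γ / 2)) {Ψ : Fk ι}
    (h0 : HasGapS S H.ap γ 0 Ψ) {C c : ℝ} (hc : 0 ≤ c) (hC : 0 ≤ C) (hCc : C * c ≤ 1 / 4)
    (hUin : ∀ Ut : ℝ → Op ι, IsFlow (fun s => SS w (H + s • V) V) Ut →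
      (∀ s, Ut s ∈ unitary (Op ι)) →
      ∀ s1 ∈ Set.Icc 0 c,
      (∀ s ∈ Set.Icc 0 s1, ∃ e, HasGapS S (H + s • V).ap (γ / 2) e (Ut s Ψ)) →
      ∀ χ ∈ S,
        |(⟪χ, (star (Ut s1) * Fl w (H + s1 • V) V * Ut s1) χ⟫_ℂ).re -
          (⟪Ut s1 Ψ, V (Ut s1 Ψ)⟫_ℂ).re * ‖χ‖ ^ 2| ≤ C * (⟪χ, H χ⟫_ℂ).re) :
    ∃ (e : ℝ) (ψ : Fk ι), HasGapS S (H + c • V).ap (3 * γ / 4) e ψ := by
  refine flow_main (E := Fk ι) (S := S) (H := H.ap) (V := V.ap) hH hV hHS hVS hγ hw h0 hc hC hCc ?_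
  intro Ut hUt s1 hs1 hgap χ hχ
  exact hUin Ut ⟨hUt.hU.zero, hUt.hU.deriv⟩ hUt.uU s1 hs1 (fun s hs => ⟨_, hgap s hs⟩) χ hχ

end Crest.Agent.R340.Flow644
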