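import Crest.Agent.R340.Fock_649

/-!
# Kernel projections and the global gap on Fock space (helper467, R340, orphan O7)

`ker A`, `PK A` (orthogonal projection onto the kernel), commutation of `PK A` with symmetries,
`A² ≥ γ A  ⟹  A ≥ γ (1 - P)`, particle number sectors `prS N`, gluing of the sector inequalities.
-/

set_option autoImplicit false
set_option linter.unusedSectionVars false

namespace Crest.Agent.R340.GG467

open Finset Fock649

section Abstract

variable {κ : Type*} [Fintype κ]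

/-- orthogonal projection onto a subspace, as an operator on Fock space -/
noncomputable def pj (K : Submodule ℂ (Fk κ)) : Op κ := Op.of K.starProjection

theorem pj_mem (K : Submodule ℂ (Fk κ)) (v : Fk κ) : pj K v ∈ K :=
  Submodule.starProjection_apply_mem K v

theorem pj_eq_self_iff {K : Submodule ℂ (Fk κ)} {v : Fk κ} : pj K v = v ↔ v ∈ K :=
  Submodule.starProjection_eq_self_iff

theorem pj_of_mem {K : Submodule ℂ (Fk κ)} {v : Fk κ} (h : v ∈ K) : pj K v = v :=
  pj_eq_self_iff.2 h

theorem pj_mul_self (K : Submodule ℂ (Fk κ)) : pj K * pj K = pj K :=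
  Op.ext fun v => by rw [mul_ap]; exact pj_of_mem (pj_mem K v)

theorem star_pj (K : Submodule ℂ (Fk κ)) : star (pj K) = pj K := by
  have h : IsSelfAdjoint (K.starProjection) := isSelfAdjoint_starProjection K
  exact h

theorem isSelfAdjoint_pj (K : Submodule ℂ (Fk κ)) : IsSelfAdjoint (pj K) := star_pj K

theorem norm_pj_le (K : Submodule ℂ (Fk κ)) : ‖pj K‖ ≤ 1 :=
  Submodule.starProjection_norm_le K

/-- `⟪v, P v⟫ = ‖P v‖²` -/
theorem inner_pj_self (K : Submodule ℂ (Fk κ)) (v : Fk κ) :
    (inner ℂ v (pj K v) : ℂ) = ((‖pj K v‖ : ℂ)) ^ 2 := by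
  rw [← inner_star_mul_self, star_pj, pj_mul_self]

theorem norm_sub_pj_sq (K : Submodule ℂ (Fk κ)) (v : Fk κ) :
    ‖v - pj K v‖ ^ 2 = ‖v‖ ^ 2 - ‖pj K v‖ ^ 2 := by
  have h1 : ‖v - pj K v‖ ^ 2 = ‖v‖ ^ 2 - 2 * (inner ℂ v (pj K v) : ℂ).re + ‖pj K v‖ ^ 2 := by
    have := @norm_sub_sq ℂ _ _ _ _ v (pj K v)
    simpa using this
  rw [h1, inner_pj_self]
  have h2 : (((‖pj K v‖ : ℂ)) ^ 2).re = ‖pj K v‖ ^ 2 := by
    rw [← Complex.ofReal_pow, Complex.ofReal_re]
  rw [h2]; ring

/-- kernel of an operator -/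
noncomputable def ker (A : Op κ) : Submodule ℂ (Fk κ) := LinearMap.ker (A.ap : Fk κ →ₗ[ℂ] Fk κ)

theorem mem_ker {A : Op κ} {v : Fk κ} : v ∈ ker A ↔ A v = 0 := Iff.rfl

/-- projection onto the kernel -/
noncomputable def PK (A : Op κ) : Op κ := pj (ker A)

theorem mul_PK (A : Op κ) : A * PK A = 0 :=
  Op.ext fun v => by rw [mul_ap, zero_ap]; exact pj_mem (ker A) v

theorem PK_mul {A : Op κ} (hA : star A = A) : PK A * A = 0 := by
  have h := congrArg star (mul_PK A)
  rw [star_mul, star_zero, hA] at h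
  unfold PK at h ⊢
  rwa [star_pj] at h

theorem star_PK (A : Op κ) : star (PK A) = PK A := star_pj _

theorem PK_mul_self (A : Op κ) : PK A * PK A = PK A := pj_mul_self _

theorem norm_PK_le (A : Op κ) : ‖PK A‖ ≤ 1 := norm_pj_le _

/-- an operator mapping `K` to `K` together with its adjoint commutes with the projection -/
theorem commute_pj {K : Submodule ℂ (Fk κ)} {T : Op κ} (h1 : ∀ v ∈ K, T v ∈ K)
    (h2 : ∀ v ∈ K, (star T) v ∈ K) : T * pj K = pj K * T := by
  have e1 : pj K * T * pj K = T * pj K :=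
    Op.ext fun v => by
      rw [mul_ap, mul_ap, mul_ap]
      exact pj_of_mem (h1 _ (pj_mem K v))
  have e2 : pj K * star T * pj K = star T * pj K :=
    Op.ext fun v => by
      rw [mul_ap, mul_ap, mul_ap]
      exact pj_of_mem (h2 _ (pj_mem K v))
  have e3 := congrArg star e2
  rw [star_mul, star_mul, star_mul, star_star, star_pj, ← mul_assoc] at e3
  rw [← e1, e3]

/-- an operator commuting with `A` and whose adjoint commutes with `A` commutes with `PK A` -/
theorem commute_PK {A T : Op κ} (h1 : T * A = A * T) (h2 : star T * A = A * star T) :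
    T * PK A = PK A * T := by
  refine commute_pj (fun v hv => ?_) (fun v hv => ?_)
  · have : (A * T) v = 0 := by
      rw [← h1, mul_ap]
      have h0 : A v = 0 := hv
      rw [h0, map_zero]
    exact this
  · have : (A * star T) v = 0 := by
      rw [← h2, mul_ap]
      have h0 : A v = 0 := hv
      rw [h0, map_zero]
    exact this

theorem commute_PK' {A T : Op κ} (hA : star A = A) (h1 : T * A = A * T) :
    T * PK A = PK A * T := by
  refine commute_PK h1 ?_
  have h := congrArg star h1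
  rw [star_mul, star_mul, hA] at h
  exact h.symm

/-- invertible intertwining: `U A U⁻¹ = A'` with `U` unitary gives `U (PK A) U⁻¹ = PK A'`. -/
theorem conj_PK {A A' U : Op κ} (hU : star U * U = 1) (hU' : U * star U = 1)
    (h : U * A * star U = A') : U * PK A * star U = PK A' := by
  have hUA : U * A = A' * U := by
    rw [← h, mul_assoc, mul_assoc, hU, mul_one]
  have e1 : PK A' * (U * PK A) = U * PK A :=
    Op.ext fun v => by
      rw [mul_ap]
      refine pj_of_mem ?_
      show A' ((U * PK A) v) = 0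
      rw [← mul_ap, ← mul_assoc, ← hUA, mul_assoc, mul_PK, mul_zero, zero_ap]
  have hAU : A * star U = star U * A' := by
    rw [← h, ← mul_assoc, ← mul_assoc, hU, one_mul]
  have e2 : PK A * (star U * PK A') = star U * PK A' :=
    Op.ext fun v => by
      rw [mul_ap]
      refine pj_of_mem ?_
      show A ((star U * PK A') v) = 0
      rw [← mul_ap, ← mul_assoc, hAU, mul_assoc, mul_PK, mul_zero, zero_ap]
  have e3 := congrArg star e2
  rw [star_mul, star_mul, star_star, star_PK, star_PK] at e3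
  -- e3 : PK A' * U * PK A = PK A' * U
  have e4 : U * PK A = PK A' * U := by
    rw [← e1, ← mul_assoc, e3]
  rw [e4, mul_assoc, hU', mul_one]

/-! ### `A² ≥ γ A` versus `A ≥ γ (1 - P)` -/

/-- main abstract gap theorem: a positive `A` with `A² ≥ γ A` in form sense satisfies
`γ ‖v - P v‖² ≤ ⟪v, A v⟫`. -/
theorem gap_of_sq {A : Op κ} (hA : star A = A) {γ : ℝ}
    (hpos : ∀ v : Fk κ, 0 ≤ (inner ℂ v (A v) : ℂ).re)
    (hsq : ∀ v : Fk κ, γ * (inner ℂ v (A v) : ℂ).re ≤ ‖A v‖ ^ 2) (v : Fk κ) :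
    γ * ‖v - PK A v‖ ^ 2 ≤ (inner ℂ v (A v) : ℂ).re := by
  have hT : (A.ap : Fk κ →ₗ[ℂ] Fk κ).IsSymmetric := by
    intro x y
    have h := inner_star_left A x y
    rw [hA] at h
    exact h
  set n := Module.finrank ℂ (Fk κ) with hn
  set b := hT.eigenvectorBasis hn.symm with hb
  set lam := hT.eigenvalues hn.symm with hlam
  have hev : ∀ i, A (b i) = ((lam i : ℝ) : ℂ) • b i := fun i =>
    hT.apply_eigenvectorBasis hn.symm i
  have hnorm : ∀ i, inner ℂ (b i) (b i) = (1 : ℂ) := by
    intro i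
    rw [inner_self_eq_norm_sq_to_K, b.orthonormal.1 i]; simp
  have hl0 : ∀ i, 0 ≤ lam i := by
    intro i
    have h1 := hpos (b i)
    rwa [hev, inner_smul_right, hnorm, mul_one, Complex.ofReal_re] at h1
  have hl : ∀ i, lam i = 0 ∨ γ ≤ lam i := by
    intro i
    by_cases h0 : lam i = 0
    · exact Or.inl h0
    right
    have h1 : (inner ℂ (b i) (A (b i)) : ℂ).re = lam i := by
      rw [hev, inner_smul_right, hnorm, mul_one, Complex.ofReal_re]
    have h2 : ‖A (b i)‖ ^ 2 = lam i * lam i := by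
      rw [hev, norm_smul, b.orthonormal.1 i, mul_one]
      simp [sq]
    have h4 := hsq (b i)
    rw [h1, h2] at h4
    exact le_of_mul_le_mul_right h4 (lt_of_le_of_ne (hl0 i) (Ne.symm h0))
  -- coefficients
  have hco : ∀ i, (inner ℂ (b i) (A v) : ℂ) = ((lam i : ℝ) : ℂ) * inner ℂ (b i) v := by
    intro i
    have h1 : (inner ℂ (b i) (A v) : ℂ) = inner ℂ (A (b i)) v := (hT (b i) v).symm
    rw [h1, hev, inner_smul_left, Complex.conj_ofReal]
  have hx : inner ℂ v (A v) = ∑ i, ((lam i * ‖inner ℂ (b i) v‖ ^ 2 : ℝ) : ℂ) := by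
    rw [← b.sum_inner_mul_inner v (A v)]
    refine Finset.sum_congr rfl fun i _ => ?_
    rw [hco]
    have h2 : inner ℂ v (b i) * inner ℂ (b i) v = ((‖inner ℂ (b i) v‖ ^ 2 : ℝ) : ℂ) := by
      rw [← inner_conj_symm v (b i), ← Complex.normSq_eq_conj_mul_self,
        Complex.normSq_eq_norm_sq]
    push_cast at h2 ⊢
    linear_combination ((lam i : ℝ) : ℂ) * h2
  -- the vector v - P v has vanishing coefficients on zero eigenvectors
  have hz : ∀ i, ‖inner ℂ (b i) (v - PK A v)‖ ^ 2 * γ ≤ lam i * ‖inner ℂ (b i) v‖ ^ 2 := by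
    intro i
    rcases hl i with h | h
    · have hk : b i ∈ ker A := by
        rw [mem_ker, hev, h]; simp
      have h1 : inner ℂ (b i) (v - PK A v) = (0 : ℂ) := by
        have h2 : (inner ℂ (b i) (PK A v) : ℂ) = inner ℂ (b i) v := by
          have h3 := inner_star_right (PK A) (b i) v
          rw [star_PK] at h3
          rw [h3]
          unfold PK
          rw [pj_of_mem hk]
        rw [inner_sub_right, h2, sub_self]
      rw [h1, h]; simp
    · have h1 : inner ℂ (b i) (v - PK A v) = (inner ℂ (b i) v : ℂ) ∨ lam i = 0 := by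
        by_cases h0 : lam i = 0
        · exact Or.inr h0
        left
        have h2 : (inner ℂ (b i) (PK A v) : ℂ) = 0 := by
          have h3 : (inner ℂ (b i) (A (PK A v)) : ℂ) = ((lam i : ℝ) : ℂ) * inner ℂ (b i) (PK A v) := by
            have h1 : (inner ℂ (b i) (A (PK A v)) : ℂ) = inner ℂ (A (b i)) (PK A v) :=
              (hT (b i) (PK A v)).symm
            rw [h1, hev, inner_smul_left, Complex.conj_ofReal]
          have h4 : A (PK A v) = 0 := pj_mem (ker A) v
          rw [h4, inner_zero_right] at h3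
          rcases mul_eq_zero.1 h3.symm with h5 | h5
          · exact absurd (by exact_mod_cast h5) h0
          · exact h5
        rw [inner_sub_right, h2, sub_zero]
      rcases h1 with h1 | h1
      · rw [h1, mul_comm]
        exact mul_le_mul_of_nonneg_right h (by positivity)
      · have hk : b i ∈ ker A := by
          rw [mem_ker, hev, h1]; simp
        have h1' : inner ℂ (b i) (v - PK A v) = (0 : ℂ) := by
          have h2 : (inner ℂ (b i) (PK A v) : ℂ) = inner ℂ (b i) v := by
            have h3 := inner_star_right (PK A) (b i) v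
            rw [star_PK] at h3
            rw [h3]
            unfold PK
            rw [pj_of_mem hk]
          rw [inner_sub_right, h2, sub_self]
        rw [h1', h1]; simp
  rw [hx, ← Complex.ofReal_sum, Complex.ofReal_re, ← b.sum_sq_norm_inner_right (v - PK A v),
    Finset.mul_sum]
  refine Finset.sum_le_sum fun i _ => ?_
  rw [mul_comm]
  exact hz i

/-- operator form: `γ (1 - P) ≤ A` -/
theorem gap_op {A : Op κ} (hA : star A = A) {γ : ℝ}
    (hpos : ∀ v : Fk κ, 0 ≤ (inner ℂ v (A v) : ℂ).re)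
    (hsq : ∀ v : Fk κ, γ * (inner ℂ v (A v) : ℂ).re ≤ ‖A v‖ ^ 2) :
    (γ : ℂ) • (1 - PK A) ≤ A := by
  have hs : IsSelfAdjoint ((γ : ℂ) • (1 - PK A)) := by
    show star _ = _
    rw [star_smul, star_sub, star_one, star_PK]
    simp
  rw [Op.le_iff hs hA]
  intro v
  have h1 := gap_of_sq hA hpos hsq v
  have h2 : (inner ℂ v (((γ : ℂ) • (1 - PK A)) v) : ℂ).re = γ * ‖v - PK A v‖ ^ 2 := by
    have h3 : ‖v - PK A v‖ ^ 2 = ‖v‖ ^ 2 - ‖PK A v‖ ^ 2 := norm_sub_pj_sq (ker A) v
    have h4 : (inner ℂ v (PK A v) : ℂ) = ((‖PK A v‖ : ℂ)) ^ 2 := inner_pj_self (ker A) v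
    have h5 : (inner ℂ v v : ℂ) = ((‖v‖ : ℂ)) ^ 2 := inner_self_eq_norm_sq_to_K v
    rw [smul_ap, inner_smul_right, sub_ap, one_ap, inner_sub_right, h3, h4, h5]
    have : ((γ : ℂ) * ((‖v‖ : ℂ) ^ 2 - (‖PK A v‖ : ℂ) ^ 2)) =
      ((γ * (‖v‖ ^ 2 - ‖PK A v‖ ^ 2) : ℝ) : ℂ) := by push_cast; ring
    rw [this, Complex.ofReal_re]
  rw [h2]; exact h1

/-- converse: `γ ‖v - P v‖² ≤ ⟪v, A v⟫` implies `γ ⟪v, A v⟫ ≤ ‖A v‖²` -/
theorem sq_of_gap {A : Op κ} (hA : star A = A) {γ : ℝ}
    (h : ∀ v : Fk κ, γ * ‖v - PK A v‖ ^ 2 ≤ (inner ℂ v (A v) : ℂ).re) (hγ : 0 < γ) (v : Fk κ) :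
    γ * (inner ℂ v (A v) : ℂ).re ≤ ‖A v‖ ^ 2 := by
  set w := v - PK A v with hw
  have h1 : A v = A w := by
    rw [hw, map_sub]
    have : A (PK A v) = 0 := pj_mem (ker A) v
    rw [this, sub_zero]
  have h2 : (inner ℂ v (A v) : ℂ) = inner ℂ w (A v) := by
    rw [hw, inner_sub_left]
    have h3 := inner_star_left (PK A) v (A v)
    rw [star_PK] at h3
    rw [h3, ← mul_ap, PK_mul hA, zero_ap, inner_zero_right, sub_zero]
  have h3 : (inner ℂ v (A v) : ℂ).re ≤ ‖w‖ * ‖A v‖ := by
    rw [h2]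
    exact (Complex.re_le_norm _).trans (norm_inner_le_norm _ _)
  have h4 := h v
  rw [← hw] at h4
  -- γ‖w‖² ≤ ‖w‖ ‖Av‖, hence γ‖w‖ ≤ ‖Av‖
  have h5 : γ * ‖w‖ ≤ ‖A v‖ := by
    by_cases h0 : ‖w‖ = 0
    · rw [h0, mul_zero]; positivity
    · have hw0 : 0 < ‖w‖ := lt_of_le_of_ne (norm_nonneg _) (Ne.symm h0)
      have : ‖w‖ * (γ * ‖w‖) ≤ ‖w‖ * ‖A v‖ := by nlinarith
      exact le_of_mul_le_mul_left this hw0
  calc γ * (inner ℂ v (A v) : ℂ).re ≤ γ * (‖w‖ * ‖A v‖) :=
        mul_le_mul_of_nonneg_left h3 hγ.le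
    _ = (γ * ‖w‖) * ‖A v‖ := by ring
    _ ≤ ‖A v‖ * ‖A v‖ := mul_le_mul_of_nonneg_right h5 (norm_nonneg _)
    _ = ‖A v‖ ^ 2 := by ring

end Abstract

/-! ### sums of squares -/

section SumSq

variable {κ σ : Type*} [Fintype κ] [Fintype σ]

/-- `∑ p, B_p^* B_p` -/
noncomputable def hs (B : σ → Op κ) : Op κ := ∑ p, star (B p) * B p

theorem star_hs (B : σ → Op κ) : star (hs B) = hs B := by
  unfold hs
  rw [star_sum]
  refine Finset.sum_congr rfl fun p _ => ?_
  rw [star_mul, star_star]

theorem inner_hs (B : σ → Op κ) (v : Fk κ) :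
    (inner ℂ v (hs B v) : ℂ) = ((∑ p, ‖B p v‖ ^ 2 : ℝ) : ℂ) := by
  unfold hs
  rw [sum_ap, inner_sum]
  push_cast
  refine Finset.sum_congr rfl fun p _ => ?_
  rw [inner_star_mul_self]

theorem inner_hs_re (B : σ → Op κ) (v : Fk κ) :
    (inner ℂ v (hs B v) : ℂ).re = ∑ p, ‖B p v‖ ^ 2 := by
  rw [inner_hs, Complex.ofReal_re]

theorem inner_hs_nonneg (B : σ → Op κ) (v : Fk κ) : 0 ≤ (inner ℂ v (hs B v) : ℂ).re := by
  rw [inner_hs_re]; positivity

theorem hs_nonneg (B : σ → Op κ) : 0 ≤ hs B := by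
  rw [Op.nonneg_iff]
  exact ⟨star_hs B, inner_hs_nonneg B⟩

theorem mem_ker_hs {B : σ → Op κ} {v : Fk κ} : v ∈ ker (hs B) ↔ ∀ p, B p v = 0 := by
  constructor
  · intro h p
    have h1 : (inner ℂ v (hs B v) : ℂ).re = 0 := by
      have h0 : hs B v = 0 := h
      rw [h0, inner_zero_right]; simp
    rw [inner_hs_re] at h1
    have h2 := (Finset.sum_eq_zero_iff_of_nonneg (fun p _ => by positivity)).1 h1 p (mem_univ _)
    have h3 : ‖B p v‖ = 0 := by
      rcases pow_eq_zero_iff (two_ne_zero) |>.1 h2 with h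
      exact h
    exact norm_eq_zero.1 h3
  · intro h
    show hs B v = 0
    unfold hs
    rw [sum_ap]
    refine Finset.sum_eq_zero fun p _ => ?_
    rw [mul_ap, h p, map_zero]

theorem mul_PK_hs (B : σ → Op κ) (p : σ) : B p * PK (hs B) = 0 :=
  Op.ext fun v => by
    rw [mul_ap, zero_ap]
    exact mem_ker_hs.1 (pj_mem (ker (hs B)) v) p

theorem PK_hs_mul_star (B : σ → Op κ) (p : σ) : PK (hs B) * star (B p) = 0 := by
  have h := congrArg star (mul_PK_hs B p)
  rwa [star_mul, star_zero, star_PK] at h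

/-- vector form of the spectral gap for sums of squares -/
theorem gap_hs {B : σ → Op κ} {γ : ℝ}
    (hsq : ∀ v : Fk κ, γ * (inner ℂ v (hs B v) : ℂ).re ≤ ‖hs B v‖ ^ 2) (v : Fk κ) :
    γ * ‖v - PK (hs B) v‖ ^ 2 ≤ ∑ p, ‖B p v‖ ^ 2 := by
  rw [← inner_hs_re]
  exact gap_of_sq (star_hs B) (inner_hs_nonneg B) hsq v

end SumSq

/-! ### particle number sectors -/

section Sectors

variable {ι : Type*} [LinearOrder ι] [Fintype ι]

/-- projection onto the `N`-particle sector -/
noncomputable def prS (N : ℕ) : Op ι := diag fun S => if S.card = N then 1 else 0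

theorem prS_apply (N : ℕ) (v : Fk ι) (S : Finset ι) :
    prS N v S = if S.card = N then v S else 0 := by
  unfold prS
  rw [diag_apply]
  split_ifs <;> simp

theorem star_prS (N : ℕ) : star (prS N : Op ι) = prS N := by
  unfold prS
  rw [star_diag]
  congr 1
  funext S
  simp only [Pi.star_apply]
  split_ifs <;> simp

theorem prS_mul_self (N : ℕ) : (prS N : Op ι) * prS N = prS N := by
  refine Op.ext fun v => ?_
  ext S
  rw [mul_ap, prS_apply, prS_apply]
  split_ifs <;> rfl

theorem prS_mul_of_ne {N M : ℕ} (h : N ≠ M) : (prS N : Op ι) * prS M = 0 := by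
  refine Op.ext fun v => ?_
  ext S
  rw [mul_ap, prS_apply, prS_apply, zero_ap]
  split_ifs with h1 h2
  · exact absurd (h1.symm.trans h2) h
  · rfl
  · rfl

theorem sum_prS : (∑ N ∈ range (Fintype.card ι + 1), prS N : Op ι) = 1 := by
  refine Op.ext fun v => ?_
  ext S
  rw [sum_ap, one_ap, WithLp.ofLp_sum, Finset.sum_apply]
  have h : ∀ N ∈ range (Fintype.card ι + 1), (prS N v) S = if S.card = N then v S else 0 :=
    fun N _ => prS_apply N v S
  rw [Finset.sum_congr rfl h, Finset.sum_ite_eq, if_pos]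
  rw [mem_range]
  exact Nat.lt_succ_of_le (Finset.card_le_univ S)

theorem sum_prS_ap (v : Fk ι) : ∑ N ∈ range (Fintype.card ι + 1), prS N v = v := by
  have h := congrArg (fun A : Op ι => A v) (sum_prS (ι := ι))
  rwa [sum_ap, one_ap] at h

theorem Nh_mul_prS (N : ℕ) : Nh * prS N = (N : ℂ) • (prS N : Op ι) := by
  refine Op.ext fun v => ?_
  ext S
  rw [Nh_eq, mul_ap, diag_apply, prS_apply, smul_ap, PiLp.smul_apply, prS_apply, smul_eq_mul]
  split_ifs with h
  · rw [h]
  · simp

theorem prS_mul_Nh (N : ℕ) : prS N * Nh = (N : ℂ) • (prS N : Op ι) := by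
  refine Op.ext fun v => ?_
  ext S
  rw [Nh_eq, mul_ap, prS_apply, diag_apply, smul_ap, PiLp.smul_apply, prS_apply, smul_eq_mul]
  split_ifs with h
  · rw [h]
  · simp

/-- membership in the sector: `Nh v = N v` iff `prS N v = v` iff `v` is supported on `card = N` -/
theorem mem_sector_iff {N : ℕ} {v : Fk ι} :
    Nh v = (N : ℂ) • v ↔ ∀ S : Finset ι, S.card ≠ N → v S = 0 := by
  rw [Nh_eq]
  constructor
  · intro h S hS
    have h1 := congrArg (fun w : Fk ι => w S) h
    simp only [diag_apply, PiLp.smul_apply, smul_eq_mul] at h1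
    have h2 : ((S.card : ℂ) - N) * v S = 0 := by rw [sub_mul, h1, sub_self]
    rcases mul_eq_zero.1 h2 with h3 | h3
    · exact absurd (by exact_mod_cast sub_eq_zero.1 h3) hS
    · exact h3
  · intro h
    ext S
    rw [diag_apply, PiLp.smul_apply, smul_eq_mul]
    by_cases hS : S.card = N
    · rw [hS]
    · rw [h S hS]; simp

theorem prS_eq_self_iff {N : ℕ} {v : Fk ι} :
    prS N v = v ↔ Nh v = (N : ℂ) • v := by
  rw [mem_sector_iff]
  constructor
  · intro h S hS
    rw [← h, prS_apply, if_neg hS]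
  · intro h
    ext S
    rw [prS_apply]
    split_ifs with h1
    · rfl
    · exact (h S h1).symm

theorem Nh_prS_ap (N : ℕ) (v : Fk ι) : Nh (prS N v) = (N : ℂ) • prS N v := by
  rw [← mul_ap, Nh_mul_prS, smul_ap]

/-- an operator commuting with `Nh` commutes with the sector projections -/
theorem commute_prS {A : Op ι} (h : A * Nh = Nh * A) (N : ℕ) : A * prS N = prS N * A := by
  have h1 : ∀ M, M ≠ N → prS M * A * prS N = 0 := by
    intro M hM
    have e : (M : ℂ) • (prS M * A * prS N) = (N : ℂ) • (prS M * A * prS N) := by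
      calc (M : ℂ) • (prS M * A * prS N) = (prS M * Nh) * A * prS N := by
            rw [prS_mul_Nh]; simp only [smul_mul_assoc]
        _ = prS M * (Nh * A) * prS N := by noncomm_ring
        _ = prS M * A * (Nh * prS N) := by rw [← h]; noncomm_ring
        _ = (N : ℂ) • (prS M * A * prS N) := by rw [Nh_mul_prS, mul_smul_comm]
    have e2 : ((M : ℂ) - N) • (prS M * A * prS N) = 0 := by rw [sub_smul, e, sub_self]
    rcases smul_eq_zero.1 e2 with h3 | h3
    · exact absurd (by exact_mod_cast sub_eq_zero.1 h3) hM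
    · exact h3
  have h2 : ∀ M, M ≠ N → prS N * A * prS M = 0 := by
    intro M hM
    have e : (M : ℂ) • (prS N * A * prS M) = (N : ℂ) • (prS N * A * prS M) := by
      calc (M : ℂ) • (prS N * A * prS M) = prS N * A * (Nh * prS M) := by
            rw [Nh_mul_prS, mul_smul_comm]
        _ = prS N * (A * Nh) * prS M := by noncomm_ring
        _ = (prS N * Nh) * A * prS M := by rw [h]; noncomm_ring
        _ = (N : ℂ) • (prS N * A * prS M) := by rw [prS_mul_Nh]; simp only [smul_mul_assoc]
    have e2 : ((M : ℂ) - N) • (prS N * A * prS M) = 0 := by rw [sub_smul, e, sub_self]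
    rcases smul_eq_zero.1 e2 with h3 | h3
    · exact absurd (by exact_mod_cast sub_eq_zero.1 h3) hM
    · exact h3
  have e1 : A * prS N = prS N * A * prS N := by
    by_cases hN : N ∈ range (Fintype.card ι + 1)
    · calc A * prS N = (∑ M ∈ range (Fintype.card ι + 1), prS M) * (A * prS N) := by
            rw [sum_prS, one_mul]
        _ = ∑ M ∈ range (Fintype.card ι + 1), prS M * A * prS N := by
            rw [Finset.sum_mul]
            refine Finset.sum_congr rfl fun M _ => by rw [mul_assoc]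
        _ = prS N * A * prS N := by
            rw [Finset.sum_eq_single N (fun M _ hM => h1 M hM) (fun h => absurd hN h)]
    · have : (prS N : Op ι) = 0 := by
        refine Op.ext fun v => ?_
        ext S
        rw [prS_apply, if_neg, zero_ap]; · rfl
        intro hS
        apply hN
        rw [mem_range, ← hS]
        exact Nat.lt_succ_of_le (Finset.card_le_univ S)
      rw [this]; simp
  have e3 : prS N * A = prS N * A * prS N := by
    by_cases hN : N ∈ range (Fintype.card ι + 1)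
    · calc prS N * A = (prS N * A) * (∑ M ∈ range (Fintype.card ι + 1), prS M) := by
            rw [sum_prS, mul_one]
        _ = ∑ M ∈ range (Fintype.card ι + 1), prS N * A * prS M := by
            rw [Finset.mul_sum]
        _ = prS N * A * prS N := by
            rw [Finset.sum_eq_single N (fun M _ hM => h2 M hM) (fun h => absurd hN h)]
    · have : (prS N : Op ι) = 0 := by
        refine Op.ext fun v => ?_
        ext S
        rw [prS_apply, if_neg, zero_ap]; · rfl
        intro hS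
        apply hN
        rw [mem_range, ← hS]
        exact Nat.lt_succ_of_le (Finset.card_le_univ S)
      rw [this]; simp
  exact e1.trans e3.symm

theorem inner_eq_sum_prS {A : Op ι} (h : A * Nh = Nh * A) (v : Fk ι) :
    (inner ℂ v (A v) : ℂ) =
      ∑ N ∈ range (Fintype.card ι + 1), inner ℂ (prS N v) (A (prS N v)) := by
  have h1 : A v = ∑ N ∈ range (Fintype.card ι + 1), A (prS N v) := by
    rw [← map_sum, sum_prS_ap]
  rw [h1, inner_sum]
  refine Finset.sum_congr rfl fun N _ => ?_
  have h2 : A (prS N v) = prS N (A (prS N v)) := by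
    rw [← mul_ap, ← mul_ap, commute_prS h, ← mul_assoc, prS_mul_self]
  have h3 := inner_star_left (prS N : Op ι) v (A (prS N v))
  rw [star_prS] at h3
  rw [h3, ← h2]

theorem norm_sq_eq_sum_prS (v : Fk ι) :
    ‖v‖ ^ 2 = ∑ N ∈ range (Fintype.card ι + 1), ‖prS N v‖ ^ 2 := by
  have h := inner_eq_sum_prS (A := (1 : Op ι)) (by rw [one_mul, mul_one]) v
  simp only [one_ap] at h
  have h2 : ((‖v‖ ^ 2 : ℝ) : ℂ) =
      ((∑ N ∈ range (Fintype.card ι + 1), ‖prS N v‖ ^ 2 : ℝ) : ℂ) := by
    have e : ∀ w : Fk ι, (inner ℂ w w : ℂ) = ((‖w‖ ^ 2 : ℝ) : ℂ) := by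
      intro w
      rw [inner_self_eq_norm_sq_to_K]; push_cast; rfl
    rw [e v] at h
    rw [h]
    push_cast
    refine Finset.sum_congr rfl fun N _ => ?_
    rw [e]; push_cast; rfl
  exact_mod_cast h2

/-- gluing sector inequalities -/
theorem sq_of_sectors {A : Op ι} (h : A * Nh = Nh * A) {γ : ℝ}
    (hs : ∀ (N : ℕ) (v : Fk ι), Nh v = (N : ℂ) • v →
      γ * (inner ℂ v (A v) : ℂ).re ≤ ‖A v‖ ^ 2) (v : Fk ι) :
    γ * (inner ℂ v (A v) : ℂ).re ≤ ‖A v‖ ^ 2 := by
  rw [inner_eq_sum_prS h, Complex.re_sum, Finset.mul_sum, norm_sq_eq_sum_prS (A v)]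
  refine Finset.sum_le_sum fun N _ => ?_
  have h2 : prS N (A v) = A (prS N v) := by
    rw [← mul_ap, ← mul_ap, commute_prS h]
  rw [h2]
  exact hs N _ (Nh_prS_ap N v)

/-- gluing sector lower bounds -/
theorem re_inner_ge_of_sectors {A : Op ι} (h : A * Nh = Nh * A) {L : ℕ → ℝ}
    (hs : ∀ (N : ℕ) (v : Fk ι), Nh v = (N : ℂ) • v →
      L N * ‖v‖ ^ 2 ≤ (inner ℂ v (A v) : ℂ).re) (v : Fk ι) :
    ∑ N ∈ range (Fintype.card ι + 1), L N * ‖prS N v‖ ^ 2 ≤ (inner ℂ v (A v) : ℂ).re := by
  rw [inner_eq_sum_prS h, Complex.re_sum]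
  exact Finset.sum_le_sum fun N _ => hs N _ (Nh_prS_ap N v)

/-- pair annihilators lower the particle number by two -/
theorem Nh_comm_pa (w : Matrix ι ι ℂ) : Nh * pa w - pa w * Nh = -(2 : ℂ) • pa w := by
  unfold Nh
  rw [dG_comm_pa]
  have : (1 : Matrix ι ι ℂ).conjTranspose * w + w * (1 : Matrix ι ι ℂ).map (starRingEnd ℂ) =
      (2 : ℂ) • w := by
    have h1 : (1 : Matrix ι ι ℂ).map (starRingEnd ℂ) = 1 := by
      ext i j
      simp [Matrix.one_apply, apply_ite]
    rw [Matrix.conjTranspose_one, one_mul, h1, mul_one, two_smul]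
  rw [this, pa_smul, Complex.conj_ofNat, neg_smul]

theorem Nh_comm_star_mul {B B' : Op ι} {a : ℂ} (ha : (starRingEnd ℂ) a = a)
    (h : Nh * B - B * Nh = a • B) (h' : Nh * B' - B' * Nh = a • B') :
    (star B * B') * Nh = Nh * (star B * B') := by
  have hN : star (Nh : Op ι) = Nh := by
    unfold Nh
    rw [star_dG, Matrix.conjTranspose_one]
  have e1 : B' * Nh = Nh * B' - a • B' := by rw [← h']; abel
  have e2 : star B * Nh = Nh * star B + a • star B := by
    have h3 := congrArg star h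
    rw [star_sub, star_mul, star_mul, hN, star_smul] at h3
    have : star a = a := ha
    rw [this] at h3
    rw [← h3]; abel
  calc (star B * B') * Nh = star B * (B' * Nh) := by rw [mul_assoc]
    _ = (star B * Nh) * B' - a • (star B * B') := by
        rw [e1, mul_sub, mul_smul_comm, mul_assoc]
    _ = Nh * (star B * B') := by
        rw [e2, add_mul, smul_mul_assoc]
        rw [mul_assoc]
        abel

theorem star_Nh : star (Nh : Op ι) = Nh := by
  unfold Nh
  rw [star_dG, Matrix.conjTranspose_one]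

/-- the pair Hamiltonian commutes with the number operator -/
theorem hs_pa_comm_Nh {σ : Type*} [Fintype σ] (w : σ → Matrix ι ι ℂ) :
    hs (fun p => pa (w p)) * Nh = Nh * hs (fun p => pa (w p)) := by
  unfold hs
  rw [Finset.sum_mul, Finset.mul_sum]
  refine Finset.sum_congr rfl fun p _ => ?_
  exact Nh_comm_star_mul (a := -(2 : ℂ)) (by rw [map_neg, Complex.conj_ofNat])
    (Nh_comm_pa (w p)) (Nh_comm_pa (w p))

/-- a one-body operator commuting with every weight space structure: if
`[dG A, pa (w p)] = a p • pa (w p)` with real `a p` then `dG A` commutes with the Hamiltonian -/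
theorem hs_comm_of_weight {σ : Type*} [Fintype σ] {B : σ → Op ι} {T : Op ι} (hT : star T = T)
    {a : σ → ℂ} (ha : ∀ p, (starRingEnd ℂ) (a p) = a p)
    (h : ∀ p, T * B p - B p * T = a p • B p) : hs B * T = T * hs B := by
  unfold hs
  rw [Finset.sum_mul, Finset.mul_sum]
  refine Finset.sum_congr rfl fun p _ => ?_
  have e1 : B p * T = T * B p - a p • B p := by rw [← h p]; abel
  have e2 : star (B p) * T = T * star (B p) + a p • star (B p) := by
    have h3 := congrArg star (h p)
    rw [star_sub, star_mul, star_mul, hT, star_smul] at h3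
    have : star (a p) = a p := ha p
    rw [this] at h3
    rw [← h3]; abel
  calc (star (B p) * B p) * T = star (B p) * (B p * T) := by rw [mul_assoc]
    _ = (star (B p) * T) * B p - a p • (star (B p) * B p) := by
        rw [e1, mul_sub, mul_smul_comm, mul_assoc]
    _ = T * (star (B p) * B p) := by
        rw [e2, add_mul, smul_mul_assoc]
        rw [mul_assoc]
        abel

end Sectors

end Crest.Agent.R340.GG467
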