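import Mathlib
import Crest.Agent.R340.CS1_809

set_option autoImplicit false

/-!
# Row 340 (O1): locality of the dilated coherent vectors (helper927)

Matrix elements of `sp Q (hᴴ * dil τ * g)` between the orbitals `0, 1`.
-/

namespace Crest.Agent.R340.Geo927

open Matrix Finset Crest.Agent.R340.CS809

/-- the dilation `diag (e^{-τ}, 1)` -/
noncomputable def dil (τ : ℝ) : Matrix (Fin 2) (Fin 2) ℂ :=
  Matrix.diagonal ![((Real.exp (-τ) : ℝ) : ℂ), 1]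

/-- second quantised dilation is diagonal -/
theorem sp_dil (Q : ℕ) (τ : ℝ) :
    sp Q (dil τ) = Matrix.diagonal fun j : Fin (Q + 1) =>
      ((Real.exp (-(τ * ((Q : ℝ) - (j : ℕ)))) : ℝ) : ℂ) := by
  apply ext_kap
  intro ζ
  rw [sp_mulVec_kap]
  ext j
  have hj : (j : ℕ) ≤ Q := Nat.lt_succ_iff.1 j.2
  have h0 : (dil τ *ᵥ ζ) 0 = ((Real.exp (-τ) : ℝ) : ℂ) * ζ 0 := by
    simp [dil, mulVec_diagonal]
  have h1 : (dil τ *ᵥ ζ) 1 = ζ 1 := by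
    simp [dil, mulVec_diagonal]
  rw [mulVec_diagonal]
  simp only [kap, h0, h1, mul_pow]
  have : ((Real.exp (-τ) : ℝ) : ℂ) ^ (Q - (j : ℕ)) =
      ((Real.exp (-(τ * ((Q : ℝ) - (j : ℕ)))) : ℝ) : ℂ) := by
    rw [← Complex.ofReal_pow, ← Real.exp_nat_mul, Nat.cast_sub hj]
    congr 2
    ring
  rw [this]
  ring

/-! ## explicit low matrix elements -/

lemma coeff_one_pow (a b : ℂ) (n : ℕ) :
    ((Polynomial.C a + Polynomial.C b * Polynomial.X) ^ n).coeff 1 = n * a ^ (n - 1) * b := by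
  induction n with
  | zero => simp [Polynomial.coeff_one]
  | succ n ih =>
    have h0 : ((Polynomial.C a + Polynomial.C b * Polynomial.X) ^ n).coeff 0 = a ^ n := by
      rw [Polynomial.coeff_zero_eq_eval_zero]; simp
    rw [pow_succ, mul_add, Polynomial.coeff_add, Polynomial.coeff_mul_C, ← mul_assoc,
      Polynomial.coeff_mul_X, Polynomial.coeff_mul_C, ih, h0]
    rcases n with _ | n
    · simp
    · simp only [Nat.add_sub_cancel]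
      push_cast
      ring

lemma coeff_zero_pow (a b : ℂ) (n : ℕ) :
    ((Polynomial.C a + Polynomial.C b * Polynomial.X) ^ n).coeff 0 = a ^ n := by
  rw [Polynomial.coeff_zero_eq_eval_zero]; simp

lemma sp_00 (Q : ℕ) (M : Matrix (Fin 2) (Fin 2) ℂ) (j k : Fin (Q + 1))
    (hj : (j : ℕ) = 0) (hk : (k : ℕ) = 0) : sp Q M j k = M 0 0 ^ Q := by
  simp only [sp, of_apply, hj, hk, rp, lf, Nat.sub_zero, pow_zero, mul_one, sb_zero,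
    Complex.ofReal_one, div_one, one_mul]
  exact coeff_zero_pow _ _ _

lemma sb_one (Q : ℕ) : sb Q 1 = Real.sqrt Q := by simp [sb]

lemma sp_01 (Q : ℕ) (M : Matrix (Fin 2) (Fin 2) ℂ) (j k : Fin (Q + 1))
    (hj : (j : ℕ) = 0) (hk : (k : ℕ) = 1) :
    sp Q M j k = ((Real.sqrt Q : ℝ) : ℂ) * M 0 0 ^ (Q - 1) * M 0 1 := by
  have hQ : 0 < Q := by have := k.2; omega
  simp only [sp, of_apply, hj, hk, rp, lf, Nat.sub_zero, pow_zero, mul_one, sb_zero,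
    Complex.ofReal_one, sb_one]
  rw [coeff_one_pow]
  have hs : ((Real.sqrt Q : ℝ) : ℂ) ≠ 0 := by
    have : 0 < Real.sqrt (Q : ℝ) := Real.sqrt_pos.2 (by exact_mod_cast hQ)
    exact_mod_cast this.ne'
  have h2 : (Q : ℂ) = ((Real.sqrt Q : ℝ) : ℂ) * ((Real.sqrt Q : ℝ) : ℂ) := by
    rw [← Complex.ofReal_mul, Real.mul_self_sqrt (Nat.cast_nonneg _)]; simp
  rw [h2]
  field_simp

lemma sp_10 (Q : ℕ) (M : Matrix (Fin 2) (Fin 2) ℂ) (j k : Fin (Q + 1))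
    (hj : (j : ℕ) = 1) (hk : (k : ℕ) = 0) :
    sp Q M j k = ((Real.sqrt Q : ℝ) : ℂ) * M 0 0 ^ (Q - 1) * M 1 0 := by
  simp only [sp, of_apply, hj, hk, rp, lf, pow_one, sb_zero,
    Complex.ofReal_one, sb_one, div_one]
  rw [Polynomial.mul_coeff_zero, coeff_zero_pow]
  simp
  ring

lemma sp_11 (Q : ℕ) (M : Matrix (Fin 2) (Fin 2) ℂ) (j k : Fin (Q + 1))
    (hj : (j : ℕ) = 1) (hk : (k : ℕ) = 1) :
    sp Q M j k = M 0 0 ^ (Q - 1) * M 1 1 + ((Q : ℂ) - 1) * M 0 0 ^ (Q - 2) * M 0 1 * M 1 0 := by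
  have hQ : 0 < Q := by have := k.2; omega
  have hs : ((Real.sqrt Q : ℝ) : ℂ) ≠ 0 := by
    have : 0 < Real.sqrt (Q : ℝ) := Real.sqrt_pos.2 (by exact_mod_cast hQ)
    exact_mod_cast this.ne'
  simp only [sp, of_apply, hj, hk, rp, lf, pow_one, sb_one]
  rw [div_self hs, one_mul, mul_add, Polynomial.coeff_add, Polynomial.coeff_mul_C, ← mul_assoc,
    Polynomial.coeff_mul_X, Polynomial.coeff_mul_C, coeff_one_pow, coeff_zero_pow]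
  have h1 : ((Q - 1 : ℕ) : ℂ) = (Q : ℂ) - 1 := by
    rw [Nat.cast_sub hQ]; simp
  have h2 : Q - 1 - 1 = Q - 2 := by omega
  rw [h1, h2]
  ring

/-! ## two by two estimates -/

/-- the matrix `hᴴ T g` -/
noncomputable def MM (τ : ℝ) (g h : Matrix (Fin 2) (Fin 2) ℂ) : Matrix (Fin 2) (Fin 2) ℂ :=
  hᴴ * dil τ * g

lemma MM_apply (τ : ℝ) (g h : Matrix (Fin 2) (Fin 2) ℂ) (a b : Fin 2) :
    MM τ g h a b = star (h 0 a) * ((Real.exp (-τ) : ℝ) : ℂ) * g 0 b + star (h 1 a) * g 1 b := by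
  simp [MM, dil, Matrix.mul_apply, Fin.sum_univ_two, Matrix.diagonal_apply]

lemma MM_sub (τ : ℝ) (g h : Matrix (Fin 2) (Fin 2) ℂ) (a b : Fin 2) :
    (hᴴ * g) a b - MM τ g h a b = star (h 0 a) * (((1 - Real.exp (-τ) : ℝ)) : ℂ) * g 0 b := by
  rw [MM_apply]
  simp [Matrix.mul_apply, Fin.sum_univ_two]
  ring

/-- a unitary `2 × 2` matrix: columns -/
lemma col_norm {g : Matrix (Fin 2) (Fin 2) ℂ} (hg : gᴴ * g = 1) (a : Fin 2) :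
    ‖g 0 a‖ ^ 2 + ‖g 1 a‖ ^ 2 = 1 := by
  have h := congrFun (congrFun hg a) a
  simp only [Matrix.mul_apply, Fin.sum_univ_two, conjTranspose_apply, one_apply_eq,
    Complex.star_def] at h
  rw [← Complex.normSq_eq_norm_sq, ← Complex.normSq_eq_norm_sq]
  rw [← Complex.normSq_eq_conj_mul_self, ← Complex.normSq_eq_conj_mul_self] at h
  exact_mod_cast h

lemma row_norm {g : Matrix (Fin 2) (Fin 2) ℂ} (hg : gᴴ * g = 1) (a : Fin 2) :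
    ‖g a 0‖ ^ 2 + ‖g a 1‖ ^ 2 = 1 := by
  have hg' : g * gᴴ = 1 := mul_eq_one_comm.1 hg
  have h := congrFun (congrFun hg' a) a
  simp only [Matrix.mul_apply, Fin.sum_univ_two, conjTranspose_apply, one_apply_eq,
    Complex.star_def] at h
  rw [← Complex.normSq_eq_norm_sq, ← Complex.normSq_eq_norm_sq]
  rw [Complex.mul_conj, Complex.mul_conj] at h
  exact_mod_cast h

lemma norm_le_one_of {g : Matrix (Fin 2) (Fin 2) ℂ} (hg : gᴴ * g = 1) (a b : Fin 2) :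
    ‖g a b‖ ≤ 1 := by
  have h := row_norm hg a
  have h0 : ‖g a b‖ ^ 2 ≤ 1 := by
    fin_cases b
    · simp only [Fin.zero_eta, Fin.isValue]; nlinarith [sq_nonneg ‖g a 1‖]
    · simp only [Fin.mk_one, Fin.isValue]; nlinarith [sq_nonneg ‖g a 0‖]
  nlinarith [norm_nonneg (g a b)]

lemma unitary_mul {g h : Matrix (Fin 2) (Fin 2) ℂ} (hg : gᴴ * g = 1) (hh : hᴴ * h = 1) :
    (hᴴ * g)ᴴ * (hᴴ * g) = 1 := by
  have hh' : h * hᴴ = 1 := mul_eq_one_comm.1 hh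
  rw [conjTranspose_mul, conjTranspose_conjTranspose]
  calc gᴴ * h * (hᴴ * g) = gᴴ * (h * hᴴ) * g := by simp only [Matrix.mul_assoc]
    _ = 1 := by rw [hh', Matrix.mul_one, hg]

/-- the distance: sine of half the angle between the two points of the sphere, that is half the
chordal distance -/
noncomputable def dd (g h : Matrix (Fin 2) (Fin 2) ℂ) : ℝ := ‖(hᴴ * g) 1 0‖

lemma dd_nonneg (g h : Matrix (Fin 2) (Fin 2) ℂ) : 0 ≤ dd g h := norm_nonneg _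

lemma dd_sq {g h : Matrix (Fin 2) (Fin 2) ℂ} (hg : gᴴ * g = 1) (hh : hᴴ * h = 1) :
    dd g h ^ 2 = 1 - ‖(hᴴ * g) 0 0‖ ^ 2 := by
  have := col_norm (unitary_mul hg hh) 0
  rw [dd]; linarith

lemma dd_eq_01 {g h : Matrix (Fin 2) (Fin 2) ℂ} (hg : gᴴ * g = 1) (hh : hᴴ * h = 1) :
    ‖(hᴴ * g) 0 1‖ = dd g h := by
  have h1 := row_norm (unitary_mul hg hh) 0
  have h2 := dd_sq hg hh
  have h3 : ‖(hᴴ * g) 0 1‖ ^ 2 = dd g h ^ 2 := by rw [h2]; linarith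
  exact (pow_left_inj₀ (norm_nonneg _) (dd_nonneg g h) two_ne_zero).1 h3

lemma dd_le_one {g h : Matrix (Fin 2) (Fin 2) ℂ} (hg : gᴴ * g = 1) (hh : hᴴ * h = 1) :
    dd g h ≤ 1 := norm_le_one_of (unitary_mul hg hh) 1 0

lemma dd_comm {g h : Matrix (Fin 2) (Fin 2) ℂ} (hg : gᴴ * g = 1) (hh : hᴴ * h = 1) :
    dd h g = dd g h := by
  rw [← dd_eq_01 hg hh, dd]
  have : (gᴴ * h) 1 0 = star ((hᴴ * g) 0 1) := by
    rw [← conjTranspose_apply, conjTranspose_mul, conjTranspose_conjTranspose]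
  rw [this, norm_star]

/-- `s = 1 - e^{-τ}` -/
noncomputable def ss (τ : ℝ) : ℝ := 1 - Real.exp (-τ)

lemma ss_nonneg {τ : ℝ} (hτ : 0 ≤ τ) : 0 ≤ ss τ := by
  have : Real.exp (-τ) ≤ 1 := Real.exp_le_one_iff.2 (by linarith)
  rw [ss]; linarith

lemma ss_le_one (τ : ℝ) : ss τ ≤ 1 := by
  have := Real.exp_pos (-τ)
  rw [ss]; linarith

lemma norm_MM_sub {τ : ℝ} (hτ : 0 ≤ τ) (g h : Matrix (Fin 2) (Fin 2) ℂ) (a b : Fin 2) :
    ‖(hᴴ * g) a b - MM τ g h a b‖ = ss τ * (‖h 0 a‖ * ‖g 0 b‖) := by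
  rw [MM_sub, norm_mul, norm_mul, norm_star, Complex.norm_real, Real.norm_of_nonneg]
  · rw [ss]; ring
  · exact ss_nonneg hτ

lemma dd_le {τ : ℝ} (hτ : 0 ≤ τ) {g h : Matrix (Fin 2) (Fin 2) ℂ} (hh : hᴴ * h = 1) :
    dd g h ≤ ‖MM τ g h 1 0‖ + ss τ * ‖g 0 0‖ := by
  have h1 := norm_MM_sub hτ g h 1 0
  have h2 : ‖h 0 1‖ * ‖g 0 0‖ ≤ 1 * ‖g 0 0‖ :=
    mul_le_mul_of_nonneg_right (norm_le_one_of hh 0 1) (norm_nonneg _)
  have h3 : ss τ * (‖h 0 1‖ * ‖g 0 0‖) ≤ ss τ * (1 * ‖g 0 0‖) :=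
    mul_le_mul_of_nonneg_left h2 (ss_nonneg hτ)
  have h4 : dd g h ≤ ‖(hᴴ * g) 1 0 - MM τ g h 1 0‖ + ‖MM τ g h 1 0‖ := by
    rw [dd]
    simpa using norm_add_le ((hᴴ * g) 1 0 - MM τ g h 1 0) (MM τ g h 1 0)
  rw [h1] at h4
  linarith

lemma norm_h00_le {g h : Matrix (Fin 2) (Fin 2) ℂ} (hg : gᴴ * g = 1) (hh : hᴴ * h = 1) :
    ‖h 0 0‖ ≤ ‖g 0 0‖ + dd g h := by
  have hN := unitary_mul hg hh
  have e1 : h = g * (hᴴ * g)ᴴ := by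
    have hg' : g * gᴴ = 1 := mul_eq_one_comm.1 hg
    rw [conjTranspose_mul, conjTranspose_conjTranspose, ← Matrix.mul_assoc, hg', Matrix.one_mul]
  have e2 : h 0 0 = g 0 0 * star ((hᴴ * g) 0 0) + g 0 1 * star ((hᴴ * g) 0 1) := by
    conv_lhs => rw [e1]
    rw [Matrix.mul_apply, Fin.sum_univ_two, conjTranspose_apply, conjTranspose_apply]
  rw [e2]
  calc ‖g 0 0 * star ((hᴴ * g) 0 0) + g 0 1 * star ((hᴴ * g) 0 1)‖
      ≤ ‖g 0 0 * star ((hᴴ * g) 0 0)‖ + ‖g 0 1 * star ((hᴴ * g) 0 1)‖ := norm_add_le _ _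
    _ = ‖g 0 0‖ * ‖(hᴴ * g) 0 0‖ + ‖g 0 1‖ * dd g h := by
        rw [norm_mul, norm_mul, norm_star, norm_star, dd_eq_01 hg hh]
    _ ≤ ‖g 0 0‖ * 1 + 1 * dd g h := by
        gcongr
        · exact norm_le_one_of hN 0 0
        · exact dd_nonneg _ _
        · exact norm_le_one_of hg 0 1
    _ = _ := by ring

lemma norm_MM01_le {τ : ℝ} (hτ : 0 ≤ τ) {g h : Matrix (Fin 2) (Fin 2) ℂ} (hg : gᴴ * g = 1)
    (hh : hᴴ * h = 1) :
    ‖MM τ g h 0 1‖ ≤ 2 * ‖MM τ g h 1 0‖ + 3 * (ss τ * ‖g 0 0‖) := by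
  have h1 := norm_MM_sub hτ g h 0 1
  have h4 : ‖MM τ g h 0 1‖ ≤ ‖(hᴴ * g) 0 1‖ + ‖(hᴴ * g) 0 1 - MM τ g h 0 1‖ := by
    have := norm_sub_le ((hᴴ * g) 0 1) ((hᴴ * g) 0 1 - MM τ g h 0 1)
    simpa using this
  have h5 : ‖h 0 0‖ * ‖g 0 1‖ ≤ (‖g 0 0‖ + dd g h) * 1 :=
    mul_le_mul (norm_h00_le hg hh) (norm_le_one_of hg 0 1) (norm_nonneg _)
      (add_nonneg (norm_nonneg _) (dd_nonneg _ _))
  have h6 := dd_le hτ (g := g) hh
  have s0 := ss_nonneg hτ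
  have s1 := ss_le_one τ
  have h7 : ss τ * (‖h 0 0‖ * ‖g 0 1‖) ≤ ss τ * ((‖g 0 0‖ + dd g h) * 1) :=
    mul_le_mul_of_nonneg_left h5 s0
  have h8 : ss τ * dd g h ≤ 1 * dd g h := mul_le_mul_of_nonneg_right s1 (dd_nonneg _ _)
  rw [h1, dd_eq_01 hg hh] at h4
  nlinarith [norm_nonneg (g 0 0)]

lemma norm_MM11_le {τ : ℝ} (hτ : 0 ≤ τ) {g h : Matrix (Fin 2) (Fin 2) ℂ} (hg : gᴴ * g = 1)
    (hh : hᴴ * h = 1) (a b : Fin 2) : ‖MM τ g h a b‖ ≤ 1 := by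
  have e : ‖((Real.exp (-τ) : ℝ) : ℂ)‖ ≤ 1 := by
    rw [Complex.norm_real, Real.norm_of_nonneg (Real.exp_pos _).le]
    exact Real.exp_le_one_iff.2 (by linarith)
  have hc := col_norm hg b
  have hc' := col_norm hh a
  rw [MM_apply]
  calc _ ≤ ‖star (h 0 a) * ((Real.exp (-τ) : ℝ) : ℂ) * g 0 b‖ + ‖star (h 1 a) * g 1 b‖ :=
        norm_add_le _ _
    _ = ‖h 0 a‖ * ‖((Real.exp (-τ) : ℝ) : ℂ)‖ * ‖g 0 b‖ + ‖h 1 a‖ * ‖g 1 b‖ := by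
        rw [norm_mul, norm_mul, norm_mul, norm_star, norm_star]
    _ ≤ ‖h 0 a‖ * 1 * ‖g 0 b‖ + ‖h 1 a‖ * ‖g 1 b‖ := by gcongr
    _ ≤ 1 := by nlinarith [sq_nonneg (‖h 0 a‖ - ‖g 0 b‖), sq_nonneg (‖h 1 a‖ - ‖g 1 b‖)]

/-- the key decay: `|M₀₀|² ≤ 1 - s a - |M₁₀|²` -/
lemma norm_MM00_sq {τ : ℝ} (hτ : 0 ≤ τ) {g h : Matrix (Fin 2) (Fin 2) ℂ} (hg : gᴴ * g = 1)
    (hh : hᴴ * h = 1) :
    ‖MM τ g h 0 0‖ ^ 2 ≤ 1 - ss τ * ‖g 0 0‖ ^ 2 - ‖MM τ g h 1 0‖ ^ 2 := by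
  have hh' : h * hᴴ = 1 := mul_eq_one_comm.1 hh
  -- the column `0` of `hᴴ T g`
  have key : (MM τ g h)ᴴ * MM τ g h = gᴴ * (dil τ)ᴴ * dil τ * g := by
    rw [MM, conjTranspose_mul, conjTranspose_mul, conjTranspose_conjTranspose]
    calc gᴴ * ((dil τ)ᴴ * h) * (hᴴ * dil τ * g)
        = gᴴ * (dil τ)ᴴ * (h * hᴴ) * (dil τ * g) := by simp only [Matrix.mul_assoc]
      _ = _ := by rw [hh', Matrix.mul_one]; simp only [Matrix.mul_assoc]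
  have k0 := congrFun (congrFun key 0) 0
  have k1 : ((MM τ g h)ᴴ * MM τ g h) 0 0 =
      ((‖MM τ g h 0 0‖ ^ 2 + ‖MM τ g h 1 0‖ ^ 2 : ℝ) : ℂ) := by
    simp only [Matrix.mul_apply, Fin.sum_univ_two, conjTranspose_apply, Complex.star_def]
    rw [← Complex.normSq_eq_conj_mul_self, ← Complex.normSq_eq_conj_mul_self,
      Complex.normSq_eq_norm_sq, Complex.normSq_eq_norm_sq]
    push_cast; ring
  have k2 : (gᴴ * (dil τ)ᴴ * dil τ * g) 0 0 =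
      ((Real.exp (-τ) ^ 2 * ‖g 0 0‖ ^ 2 + ‖g 1 0‖ ^ 2 : ℝ) : ℂ) := by
    have d2 : gᴴ * (dil τ)ᴴ * dil τ * g = (dil τ * g)ᴴ * (dil τ * g) := by
      rw [conjTranspose_mul]; simp only [Matrix.mul_assoc]
    have e0 : (dil τ * g) 0 0 = ((Real.exp (-τ) : ℝ) : ℂ) * g 0 0 := by
      simp [dil, Matrix.diagonal_mul]
    have e1 : (dil τ * g) 1 0 = g 1 0 := by
      simp [dil, Matrix.diagonal_mul]
    rw [d2]
    simp only [Matrix.mul_apply (M := (dil τ * g)ᴴ), Fin.sum_univ_two, conjTranspose_apply,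
      Complex.star_def]
    rw [← Complex.normSq_eq_conj_mul_self, ← Complex.normSq_eq_conj_mul_self,
      Complex.normSq_eq_norm_sq, Complex.normSq_eq_norm_sq, e0, e1, norm_mul, Complex.norm_real,
      Real.norm_of_nonneg (Real.exp_pos _).le]
    push_cast; ring
  rw [k1, k2] at k0
  have k3 : ‖MM τ g h 0 0‖ ^ 2 + ‖MM τ g h 1 0‖ ^ 2 =
      Real.exp (-τ) ^ 2 * ‖g 0 0‖ ^ 2 + ‖g 1 0‖ ^ 2 := by exact_mod_cast k0
  have hc := col_norm hg 0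
  have he : Real.exp (-τ) ≤ 1 := Real.exp_le_one_iff.2 (by linarith)
  have he0 := (Real.exp_pos (-τ)).le
  have : Real.exp (-τ) ^ 2 ≤ Real.exp (-τ) := by nlinarith
  rw [ss]
  nlinarith [sq_nonneg ‖g 0 0‖, mul_le_mul_of_nonneg_right this (sq_nonneg ‖g 0 0‖)]


/-! ## decay of the low matrix elements -/

lemma pow_le_exp {Q : ℕ} {u y : ℝ} (hu : 0 ≤ u) (hu2 : u ^ 2 ≤ 1 - 2 * y) (hy0 : 0 ≤ y)
    (hy1 : y ≤ 1) (r : ℕ) (hr : r ≤ 2) :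
    u ^ (Q - r) ≤ Real.exp 2 * Real.exp (-(Q * y)) := by
  have h1 : u ≤ Real.exp (-y) := by
    have h2 : u ^ 2 ≤ Real.exp (-y) ^ 2 := by
      rw [← Real.exp_nat_mul]
      have := Real.add_one_le_exp (((2 : ℕ) : ℝ) * -y)
      push_cast at this ⊢
      linarith
    exact (pow_le_pow_iff_left₀ hu (Real.exp_pos _).le two_ne_zero).1 h2
  have h3 : u ^ (Q - r) ≤ Real.exp (-y) ^ (Q - r) := pow_le_pow_left₀ hu h1 _
  refine h3.trans ?_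
  rw [← Real.exp_nat_mul, ← Real.exp_add]
  apply Real.exp_le_exp.2
  have h4 : (Q : ℝ) - 2 ≤ ((Q - r : ℕ) : ℝ) := by
    have : Q ≤ (Q - r) + 2 := by omega
    have h5 : (Q : ℝ) ≤ ((Q - r : ℕ) : ℝ) + 2 := by exact_mod_cast this
    linarith
  nlinarith

/-- abstract form of the four cases -/
lemma four_cases {Q : ℕ} (hQ : 1 ≤ Q) (M : Matrix (Fin 2) (Fin 2) ℂ) {E V : ℝ} (hE0 : 0 ≤ E)
    (hpow : ∀ r ≤ 2, ‖M 0 0‖ ^ (Q - r) ≤ E) (h01 : Real.sqrt Q * ‖M 0 1‖ ≤ V) (h11 : ‖M 1 1‖ ≤ 1)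
    (l k : Fin (Q + 1)) (hl : (l : ℕ) ≤ 1) (hk : (k : ℕ) ≤ 1) :
    ‖sp Q M l k‖ ≤ E * ((1 + Real.sqrt Q * ‖M 1 0‖) * (1 + V)) := by
  set q := Real.sqrt Q with hq
  have hq0 : 0 ≤ q := Real.sqrt_nonneg _
  have hqq : q * q = (Q : ℝ) := Real.mul_self_sqrt (Nat.cast_nonneg _)
  have hQ1 : (1 : ℝ) ≤ Q := by exact_mod_cast hQ
  have hX0 : 0 ≤ q * ‖M 1 0‖ := by positivity
  have hV0 : 0 ≤ V := le_trans (by positivity) h01
  have hone : 1 + V * (q * ‖M 1 0‖) ≤ (1 + q * ‖M 1 0‖) * (1 + V) := by nlinarith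
  have hone1 : 1 ≤ (1 + q * ‖M 1 0‖) * (1 + V) := by nlinarith [mul_nonneg hV0 hX0]
  have hone2 : V ≤ (1 + q * ‖M 1 0‖) * (1 + V) := by nlinarith [mul_nonneg hV0 hX0]
  have hone3 : q * ‖M 1 0‖ ≤ (1 + q * ‖M 1 0‖) * (1 + V) := by nlinarith [mul_nonneg hV0 hX0]
  have hle : ∀ n : ℕ, (n : ℕ) ≤ 1 → n = 0 ∨ n = 1 := by intro n hn; omega
  rcases hle _ hl with hl' | hl' <;> rcases hle _ hk with hk' | hk'
  · rw [sp_00 Q _ l k hl' hk', norm_pow]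
    have h1 := hpow 0 (by norm_num)
    simp only [Nat.sub_zero] at h1
    calc ‖M 0 0‖ ^ Q ≤ E * 1 := by rw [mul_one]; exact h1
      _ ≤ _ := mul_le_mul_of_nonneg_left hone1 hE0
  · rw [sp_01 Q _ l k hl' hk', norm_mul, norm_mul, norm_pow, Complex.norm_real,
      Real.norm_of_nonneg hq0]
    have h1 := hpow 1 (by norm_num)
    calc q * ‖M 0 0‖ ^ (Q - 1) * ‖M 0 1‖
        = ‖M 0 0‖ ^ (Q - 1) * (q * ‖M 0 1‖) := by ring
      _ ≤ E * V := mul_le_mul h1 h01 (by positivity) hE0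
      _ ≤ _ := mul_le_mul_of_nonneg_left hone2 hE0
  · rw [sp_10 Q _ l k hl' hk', norm_mul, norm_mul, norm_pow, Complex.norm_real,
      Real.norm_of_nonneg hq0]
    have h1 := hpow 1 (by norm_num)
    calc q * ‖M 0 0‖ ^ (Q - 1) * ‖M 1 0‖
        = ‖M 0 0‖ ^ (Q - 1) * (q * ‖M 1 0‖) := by ring
      _ ≤ E * (q * ‖M 1 0‖) := mul_le_mul_of_nonneg_right h1 hX0
      _ ≤ _ := mul_le_mul_of_nonneg_left hone3 hE0
  · rw [sp_11 Q _ l k hl' hk']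
    have h1 := hpow 1 (by norm_num)
    have h2 := hpow 2 le_rfl
    have h3 : ‖((Q : ℂ) - 1)‖ ≤ q * q := by
      rw [hqq]
      have : ((Q : ℂ) - 1) = (((Q : ℝ) - 1 : ℝ) : ℂ) := by push_cast; ring
      rw [this, Complex.norm_real, Real.norm_of_nonneg (by linarith)]
      linarith
    calc ‖M 0 0 ^ (Q - 1) * M 1 1 + ((Q : ℂ) - 1) * M 0 0 ^ (Q - 2) * M 0 1 * M 1 0‖
        ≤ ‖M 0 0‖ ^ (Q - 1) * ‖M 1 1‖ +
          ‖((Q : ℂ) - 1)‖ * ‖M 0 0‖ ^ (Q - 2) * ‖M 0 1‖ * ‖M 1 0‖ := by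
          refine (norm_add_le _ _).trans ?_
          rw [norm_mul, norm_mul, norm_mul, norm_mul, norm_pow, norm_pow]
      _ ≤ E * 1 + E * V * (q * ‖M 1 0‖) := by
          apply add_le_add
          · exact mul_le_mul h1 h11 (norm_nonneg _) hE0
          · calc ‖((Q : ℂ) - 1)‖ * ‖M 0 0‖ ^ (Q - 2) * ‖M 0 1‖ * ‖M 1 0‖
                ≤ (q * q) * ‖M 0 0‖ ^ (Q - 2) * ‖M 0 1‖ * ‖M 1 0‖ := by gcongr
              _ = ‖M 0 0‖ ^ (Q - 2) * (q * ‖M 0 1‖) * (q * ‖M 1 0‖) := by ring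
              _ ≤ E * V * (q * ‖M 1 0‖) := by gcongr
      _ = E * (1 + V * (q * ‖M 1 0‖)) := by ring
      _ ≤ _ := mul_le_mul_of_nonneg_left hone hE0

/-- master bound for the matrix elements between the orbitals `0, 1` -/
theorem elem_bound {Q : ℕ} (hQ : 1 ≤ Q) {τ : ℝ} (hτ : 0 ≤ τ) {g h : Matrix (Fin 2) (Fin 2) ℂ}
    (hg : gᴴ * g = 1) (hh : hᴴ * h = 1) (l k : Fin (Q + 1)) (hl : (l : ℕ) ≤ 1)
    (hk : (k : ℕ) ≤ 1) :
    ‖sp Q (MM τ g h) l k‖ ≤ Real.exp 2 * Real.exp (-((ss τ * (Q * ‖g 0 0‖ ^ 2) +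
        (Real.sqrt Q * ‖MM τ g h 1 0‖) ^ 2) / 2)) *
      ((1 + Real.sqrt Q * ‖MM τ g h 1 0‖) *
        (1 + (2 * (Real.sqrt Q * ‖MM τ g h 1 0‖) + 3 * (ss τ * (Real.sqrt Q * ‖g 0 0‖))))) := by
  have hM00 := norm_MM00_sq hτ hg hh
  have hM01 := norm_MM01_le hτ hg hh
  have hM11 := norm_MM11_le hτ hg hh 1 1
  have hx1 : ‖MM τ g h 1 0‖ ≤ 1 := norm_MM11_le hτ hg hh 1 0
  have ha1 : ‖g 0 0‖ ≤ 1 := norm_le_one_of hg 0 0
  have hs0 : 0 ≤ ss τ := ss_nonneg hτ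
  have hs1 : ss τ ≤ 1 := ss_le_one τ
  have hq0 : 0 ≤ Real.sqrt Q := Real.sqrt_nonneg _
  have hqq : Real.sqrt Q * Real.sqrt Q = (Q : ℝ) := Real.mul_self_sqrt (Nat.cast_nonneg _)
  have hx0 : 0 ≤ ‖MM τ g h 1 0‖ := norm_nonneg _
  have ha0 : 0 ≤ ‖g 0 0‖ := norm_nonneg _
  set y := (ss τ * ‖g 0 0‖ ^ 2 + ‖MM τ g h 1 0‖ ^ 2) / 2 with hy
  have hy0 : 0 ≤ y := by rw [hy]; positivity
  have hy1 : y ≤ 1 := by
    have h0 : ‖g 0 0‖ ^ 2 ≤ 1 := pow_le_one₀ ha0 ha1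
    have h1 : ss τ * ‖g 0 0‖ ^ 2 ≤ 1 * 1 := mul_le_mul hs1 h0 (sq_nonneg _) zero_le_one
    have h2 : ‖MM τ g h 1 0‖ ^ 2 ≤ 1 := pow_le_one₀ hx0 hx1
    rw [hy]; linarith
  have hu2 : ‖MM τ g h 0 0‖ ^ 2 ≤ 1 - 2 * y := by rw [hy]; linarith
  have hexp : (ss τ * (Q * ‖g 0 0‖ ^ 2) + (Real.sqrt Q * ‖MM τ g h 1 0‖) ^ 2) / 2 = Q * y := by
    rw [hy, mul_pow, sq (Real.sqrt Q), hqq]; ring
  rw [hexp]
  refine four_cases hQ _ (by positivity) (fun r hr => pow_le_exp (norm_nonneg _) hu2 hy0 hy1 r hr)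
    ?_ hM11 l k hl hk
  calc Real.sqrt Q * ‖MM τ g h 0 1‖
      ≤ Real.sqrt Q * (2 * ‖MM τ g h 1 0‖ + 3 * (ss τ * ‖g 0 0‖)) :=
        mul_le_mul_of_nonneg_left hM01 hq0
    _ = _ := by ring

/-- the constant -/
noncomputable def KK (μ : ℝ) : ℝ := Real.exp (2 + 3 / 2 * (μ + 3) ^ 2)

/-- decay with exponential weight; what is left is `exp (- s A / 4)`, `A = Q |g₀₀|²` -/
theorem elem_decay {μ : ℝ} (hμ : 0 ≤ μ) {Q : ℕ} (hQ : 1 ≤ Q) {τ : ℝ} (hτ : 0 ≤ τ)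
    {g h : Matrix (Fin 2) (Fin 2) ℂ} (hg : gᴴ * g = 1) (hh : hᴴ * h = 1) (l k : Fin (Q + 1))
    (hl : (l : ℕ) ≤ 1) (hk : (k : ℕ) ≤ 1) :
    ‖sp Q (MM τ g h) l k‖ * Real.exp (μ * (Real.sqrt Q * dd g h)) ≤
      KK μ * Real.exp (-(ss τ * (Q * ‖g 0 0‖ ^ 2) / 4)) := by
  have hb := elem_bound hQ hτ hg hh l k hl hk
  have hd := dd_le hτ (g := g) hh
  set x := ‖MM τ g h 1 0‖ with hx
  set a := ‖g 0 0‖ with ha
  set s := ss τ with hs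
  set q := Real.sqrt Q with hq
  have hq0 : 0 ≤ q := Real.sqrt_nonneg _
  have hqq : q * q = (Q : ℝ) := Real.mul_self_sqrt (Nat.cast_nonneg _)
  have hx0 : 0 ≤ x := norm_nonneg _
  have ha0 : 0 ≤ a := norm_nonneg _
  have hs0 : 0 ≤ s := ss_nonneg hτ
  have hs1 : s ≤ 1 := ss_le_one τ
  have hA : (Q : ℝ) * a ^ 2 = (q * a) ^ 2 := by rw [mul_pow, sq q, hqq]
  set X := q * x with hX
  set B := q * a with hB
  have hX0 : 0 ≤ X := by positivity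
  have hB0 : 0 ≤ B := by positivity
  rw [hA] at hb ⊢
  have h1 : 1 + X ≤ Real.exp X := by have := Real.add_one_le_exp X; linarith
  have h2 : 1 + (2 * X + 3 * (s * B)) ≤ Real.exp (2 * X + 3 * (s * B)) := by
    have := Real.add_one_le_exp (2 * X + 3 * (s * B)); linarith
  have h3 : μ * (q * dd g h) ≤ μ * (X + s * B) := by
    apply mul_le_mul_of_nonneg_left _ hμ
    rw [hX, hB]
    nlinarith
  calc ‖sp Q (MM τ g h) l k‖ * Real.exp (μ * (q * dd g h))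
      ≤ (Real.exp 2 * Real.exp (-((s * B ^ 2 + X ^ 2) / 2)) *
          (Real.exp X * Real.exp (2 * X + 3 * (s * B)))) * Real.exp (μ * (X + s * B)) := by
        apply mul_le_mul _ (Real.exp_le_exp.2 h3) (Real.exp_pos _).le (by positivity)
        refine hb.trans ?_
        apply mul_le_mul_of_nonneg_left _ (by positivity)
        exact mul_le_mul h1 h2 (by positivity) (Real.exp_pos _).le
    _ = Real.exp (2 + -((s * B ^ 2 + X ^ 2) / 2) + (X + (2 * X + 3 * (s * B))) +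
          μ * (X + s * B)) := by
        simp only [Real.exp_add]
    _ ≤ Real.exp ((2 + 3 / 2 * (μ + 3) ^ 2) + -(s * B ^ 2 / 4)) := by
        apply Real.exp_le_exp.2
        have e1 : (μ + 3) * X - X ^ 2 / 2 ≤ (μ + 3) ^ 2 / 2 := by
          nlinarith [sq_nonneg (X - (μ + 3))]
        have e2 : s * ((μ + 3) * B - B ^ 2 / 4) ≤ 1 * (μ + 3) ^ 2 := by
          have e3 : (μ + 3) * B - B ^ 2 / 4 ≤ (μ + 3) ^ 2 := by
            nlinarith [sq_nonneg (B / 2 - (μ + 3))]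
          calc s * ((μ + 3) * B - B ^ 2 / 4) ≤ s * (μ + 3) ^ 2 :=
                mul_le_mul_of_nonneg_left e3 hs0
            _ ≤ 1 * (μ + 3) ^ 2 := mul_le_mul_of_nonneg_right hs1 (sq_nonneg _)
        nlinarith
    _ = _ := by rw [Real.exp_add, KK]

end Crest.Agent.R340.Geo927
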