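import Mathlib
import Crest.Agent.R340.Geo1_927

set_option autoImplicit false

/-!
# Row 340 (O1): the radial weights as positive mixtures of dilations (helper927)
-/

namespace Crest.Agent.R340.Geo927

open Matrix Finset MeasureTheory Crest.Agent.R340.CS809

/-- the weight `D_i^{-1} = ∏_{k<3} (i+k+1)^{-t_k}`, `i = Q - j` -/
noncomputable def Gt (t : Fin 3 → ℝ) (i : ℝ) : ℝ := ∏ k : Fin 3, (i + (k : ℕ) + 1) ^ (-(t k))

/-- `m` represents `G` as a positive mixture of the exponentials `e^{-τ i}` -/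
structure Mix (m : Measure ℝ) (G : ℝ → ℝ) : Prop where
  fin : IsFiniteMeasure m
  supp : ∀ᵐ τ ∂m, 0 ≤ τ
  rep : ∀ i : ℝ, 0 ≤ i → ∫ τ, Real.exp (-(τ * i)) ∂m = G i

lemma Mix.integrable {m : Measure ℝ} {G : ℝ → ℝ} (h : Mix m G) {i : ℝ} (hi : 0 ≤ i) :
    Integrable (fun τ => Real.exp (-(τ * i))) m := by
  have := h.fin
  refine Integrable.mono' (integrable_const (1 : ℝ)) (by fun_prop) ?_
  filter_upwards [h.supp] with τ hτ
  rw [Real.norm_of_nonneg (Real.exp_pos _).le]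
  exact Real.exp_le_one_iff.2 (by nlinarith [mul_nonneg hτ hi])

lemma mix_dirac : Mix (Measure.dirac 0) (fun _ => 1) where
  fin := inferInstance
  supp := by rw [ae_dirac_eq]; simp
  rep := by intro i _; simp

lemma mix_gamma {c t : ℝ} (hc : 0 < c) (ht : 0 < t) :
    ∃ m, Mix m (fun i => (i + c) ^ (-t)) := by
  set f : ℝ → ℝ := fun τ => τ ^ (t - 1) * Real.exp (-(c * τ)) / Real.Gamma t with hf
  have hΓ : 0 < Real.Gamma t := Real.Gamma_pos_of_pos ht
  have hf0 : ∀ τ ∈ Set.Ioi (0 : ℝ), 0 ≤ f τ := fun τ hτ => by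
    have : 0 < τ := hτ
    positivity
  have hfm : Measurable f := by rw [hf]; fun_prop
  have hint : IntegrableOn f (Set.Ioi 0) := by
    have h := integrableOn_rpow_mul_exp_neg_mul_rpow (s := t - 1) (p := 1) (b := c) (by linarith)
      one_pos hc
    have h2 : IntegrableOn (fun x : ℝ => x ^ (t - 1) * Real.exp (-c * x ^ (1 : ℝ)) / Real.Gamma t)
      (Set.Ioi 0) := Integrable.div_const h (Real.Gamma t)
    refine h2.congr_fun ?_ measurableSet_Ioi
    intro τ _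
    simp [hf]
  set m : Measure ℝ := (volume.restrict (Set.Ioi 0)).withDensity (fun τ => ENNReal.ofReal (f τ))
    with hm
  have hrep : ∀ i : ℝ, 0 ≤ i → ∫ τ, Real.exp (-(τ * i)) ∂m = (i + c) ^ (-t) := by
    intro i hi
    rw [hm, integral_withDensity_eq_integral_toReal_smul (by fun_prop)
      (Filter.Eventually.of_forall fun τ => ENNReal.ofReal_lt_top)]
    have hr : 0 < i + c := by linarith
    have h1 := Real.integral_rpow_mul_exp_neg_mul_Ioi ht hr
    have h2 : ∫ τ in Set.Ioi (0 : ℝ), (ENNReal.ofReal (f τ)).toReal • Real.exp (-(τ * i)) =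
        ∫ τ in Set.Ioi (0 : ℝ), (Real.Gamma t)⁻¹ * (τ ^ (t - 1) * Real.exp (-((i + c) * τ))) := by
      refine setIntegral_congr_fun measurableSet_Ioi ?_
      intro τ hτ
      simp only [smul_eq_mul]
      rw [ENNReal.toReal_ofReal (hf0 τ hτ), hf]
      have : Real.exp (-((i + c) * τ)) = Real.exp (-(c * τ)) * Real.exp (-(τ * i)) := by
        rw [← Real.exp_add]; congr 1; ring
      simp only [this]
      field_simp
    rw [h2, integral_const_mul, h1, one_div, Real.inv_rpow hr.le, Real.rpow_neg hr.le]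
    field_simp
  refine ⟨m, ⟨?_, ?_, hrep⟩⟩
  · rw [hm]
    exact isFiniteMeasure_withDensity_ofReal hint.2
  · rw [hm]
    refine (withDensity_absolutelyContinuous _ _).ae_le ?_
    filter_upwards [ae_restrict_mem measurableSet_Ioi] with τ hτ
    exact le_of_lt hτ

lemma mix_factor {c t : ℝ} (hc : 0 < c) (ht : 0 ≤ t) :
    ∃ m, Mix m (fun i => (i + c) ^ (-t)) := by
  rcases ht.eq_or_lt with rfl | ht
  · refine ⟨Measure.dirac 0, ?_⟩
    have := mix_dirac
    simpa using this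
  · exact mix_gamma hc ht

lemma Mix.mul {m₁ m₂ : Measure ℝ} {G₁ G₂ : ℝ → ℝ} (h₁ : Mix m₁ G₁) (h₂ : Mix m₂ G₂) :
    ∃ m, Mix m (fun i => G₁ i * G₂ i) := by
  have := h₁.fin
  have := h₂.fin
  have hmeas : Measurable fun p : ℝ × ℝ => p.1 + p.2 := by fun_prop
  refine ⟨(m₁.prod m₂).map (fun p => p.1 + p.2), ⟨?_, ?_, ?_⟩⟩
  · infer_instance
  · refine (ae_map_iff hmeas.aemeasurable measurableSet_Ici).2 ?_
    have a1 : ∀ᵐ p ∂(m₁.prod m₂), 0 ≤ p.1 :=
      Measure.quasiMeasurePreserving_fst.ae h₁.supp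
    have a2 : ∀ᵐ p ∂(m₁.prod m₂), 0 ≤ p.2 :=
      Measure.quasiMeasurePreserving_snd.ae h₂.supp
    filter_upwards [a1, a2] with p h1 h2
    exact add_nonneg h1 h2
  · intro i hi
    rw [integral_map hmeas.aemeasurable (by fun_prop), ← h₁.rep i hi, ← h₂.rep i hi,
      ← integral_prod_mul]
    refine integral_congr_ae (Filter.Eventually.of_forall fun p => ?_)
    simp only
    rw [← Real.exp_add]
    congr 1
    ring

theorem exists_mix (t : Fin 3 → ℝ) (ht : ∀ k, 0 ≤ t k) : ∃ m, Mix m (Gt t) := by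
  obtain ⟨m0, h0⟩ := mix_factor (c := ((0 : ℕ) : ℝ) + 1) (by positivity) (ht 0)
  obtain ⟨m1, h1⟩ := mix_factor (c := ((1 : ℕ) : ℝ) + 1) (by positivity) (ht 1)
  obtain ⟨m2, h2⟩ := mix_factor (c := ((2 : ℕ) : ℝ) + 1) (by positivity) (ht 2)
  obtain ⟨m01, h01⟩ := h0.mul h1
  obtain ⟨m, h⟩ := h01.mul h2
  refine ⟨m, ?_⟩
  have e : (fun i : ℝ => Gt t i) = fun i : ℝ => (i + (((0 : ℕ) : ℝ) + 1)) ^ (-(t 0)) *
      (i + (((1 : ℕ) : ℝ) + 1)) ^ (-(t 1)) * (i + (((2 : ℕ) : ℝ) + 1)) ^ (-(t 2)) := by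
    funext i
    rw [Gt, Fin.prod_univ_three]
    simp only [Fin.val_zero, Fin.val_one, Fin.val_two, ← add_assoc]
  change Mix m (fun i => Gt t i)
  rw [e]
  exact h


/-! ## bounds for the mixture -/

lemma Gt_nonneg (t : Fin 3 → ℝ) {i : ℝ} (hi : 0 ≤ i) : 0 ≤ Gt t i :=
  prod_nonneg fun k _ => Real.rpow_nonneg (by positivity) _

lemma Gt_pos (t : Fin 3 → ℝ) {i : ℝ} (hi : 0 ≤ i) : 0 < Gt t i :=
  prod_pos fun k _ => Real.rpow_pos_of_pos (by positivity) _

lemma Gt_le (t : Fin 3 → ℝ) (ht : ∀ k, 0 ≤ t k) {i : ℝ} (hi : 0 ≤ i) :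
    Gt t i ≤ (1 + i) ^ (-∑ k, t k) := by
  have h1 : (0 : ℝ) < 1 + i := by linarith
  have : (1 + i) ^ (-∑ k, t k) = ∏ k : Fin 3, (1 + i) ^ (-(t k)) := by
    rw [← Real.rpow_sum_of_pos h1, Finset.sum_neg_distrib]
  rw [this, Gt]
  refine prod_le_prod (fun k _ => Real.rpow_nonneg (by positivity) _) fun k _ => ?_
  apply Real.rpow_le_rpow_of_nonpos h1
  · have : (0 : ℝ) ≤ (k : ℕ) := Nat.cast_nonneg _
    linarith
  · have := ht k; linarith

lemma ss_ge_left {τ : ℝ} (h0 : 0 ≤ τ) (h1 : τ ≤ 1) : τ / 2 ≤ ss τ := by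
  have h2 : (1 + τ) * Real.exp (-τ) ≤ 1 := by
    have := Real.add_one_le_exp τ
    have h3 : (1 + τ) * Real.exp (-τ) ≤ Real.exp τ * Real.exp (-τ) :=
      mul_le_mul_of_nonneg_right (by linarith) (Real.exp_pos _).le
    rwa [← Real.exp_add, add_neg_cancel, Real.exp_zero] at h3
  have h4 : (1 + τ) * (1 - τ / 2) ≥ 1 := by nlinarith
  have h5 : Real.exp (-τ) ≤ 1 - τ / 2 := by
    by_contra hcon
    push Not at hcon
    nlinarith
  rw [ss]; linarith

lemma ss_ge_right {τ : ℝ} (h1 : 1 ≤ τ) : 1 / 2 ≤ ss τ := by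
  have h2 := ss_ge_left (τ := 1) zero_le_one le_rfl
  have h3 : Real.exp (-τ) ≤ Real.exp (-1) := Real.exp_le_exp.2 (by linarith)
  rw [ss] at *
  linarith

lemma exp_ss_le {τ A : ℝ} (h0 : 0 ≤ τ) (hA : 0 ≤ A) :
    Real.exp (-(ss τ * A / 4)) ≤ Real.exp (-(τ * (A / 8))) + Real.exp (-(A / 8)) := by
  rcases le_total τ 1 with h | h
  · have := ss_ge_left h0 h
    have h2 : Real.exp (-(ss τ * A / 4)) ≤ Real.exp (-(τ * (A / 8))) := by
      apply Real.exp_le_exp.2
      nlinarith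
    linarith [Real.exp_pos (-(A / 8))]
  · have := ss_ge_right h
    have h2 : Real.exp (-(ss τ * A / 4)) ≤ Real.exp (-(A / 8)) := by
      apply Real.exp_le_exp.2
      nlinarith
    linarith [Real.exp_pos (-(τ * (A / 8)))]

/-- the numerical constant of the mixture bound -/
noncomputable def KG : ℝ := 8 ^ 3 + 24 ^ 3 * Real.exp (1 / 8)

lemma KG_pos : 0 < KG := by rw [KG]; positivity

lemma weight_bound (t : Fin 3 → ℝ) (ht : ∀ k, 0 ≤ t k) (ht1 : ∀ k, t k ≤ 1) {A : ℝ} (hA : 0 ≤ A) :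
    (1 + A) ^ (∑ k, t k) * (Gt t (A / 8) + Real.exp (-(A / 8)) * Gt t 0) ≤ KG := by
  set S := ∑ k, t k with hS
  have hS0 : 0 ≤ S := sum_nonneg fun k _ => ht k
  have hS3 : S ≤ 3 := by
    rw [hS, Fin.sum_univ_three]; linarith [ht1 0, ht1 1, ht1 2]
  have hA1 : (0 : ℝ) < 1 + A := by linarith
  have h1 : (1 + A) ^ S * Gt t (A / 8) ≤ 8 ^ 3 := by
    have h2 := Gt_le t ht (i := A / 8) (by positivity)
    have h3 : (1 + A / 8) ^ (-S) ≤ ((1 + A) / 8) ^ (-S) := by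
      apply Real.rpow_le_rpow_of_nonpos (by positivity) (by linarith) (by linarith)
    have h4 : ((1 + A) / 8) ^ (-S) = (8 : ℝ) ^ S * (1 + A) ^ (-S) := by
      rw [Real.div_rpow hA1.le (by norm_num), Real.rpow_neg (by norm_num : (0 : ℝ) ≤ 8), div_inv_eq_mul,
        mul_comm]
    have h5 : (8 : ℝ) ^ S ≤ 8 ^ 3 := by
      have := Real.rpow_le_rpow_of_exponent_le (by norm_num : (1 : ℝ) ≤ 8) hS3
      have h6 : (8 : ℝ) ^ (3 : ℝ) = 8 ^ 3 := by norm_num
      rwa [h6] at this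
    calc (1 + A) ^ S * Gt t (A / 8) ≤ (1 + A) ^ S * ((8 : ℝ) ^ S * (1 + A) ^ (-S)) := by
          apply mul_le_mul_of_nonneg_left _ (Real.rpow_nonneg hA1.le _)
          exact h2.trans (h3.trans h4.le)
      _ = (8 : ℝ) ^ S * ((1 + A) ^ S * (1 + A) ^ (-S)) := by ring
      _ = (8 : ℝ) ^ S := by
          rw [← Real.rpow_add hA1]; simp
      _ ≤ 8 ^ 3 := h5
  have h2 : (1 + A) ^ S * (Real.exp (-(A / 8)) * Gt t 0) ≤ 24 ^ 3 * Real.exp (1 / 8) := by
    have g0 : Gt t 0 ≤ 1 := by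
      have := Gt_le t ht (i := 0) le_rfl
      simpa using this
    have g1 : (1 + A) ^ S ≤ (1 + A) ^ 3 := by
      have := Real.rpow_le_rpow_of_exponent_le (by linarith : (1 : ℝ) ≤ 1 + A) hS3
      have h6 : (1 + A) ^ (3 : ℝ) = (1 + A) ^ 3 := by
        have := Real.rpow_natCast (1 + A) 3
        exact_mod_cast this
      rwa [h6] at this
    have g2 : 1 + A ≤ 24 * Real.exp ((1 + A) / 24) := by
      have := Real.add_one_le_exp ((1 + A) / 24)
      nlinarith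
    have g3 : (1 + A) ^ 3 ≤ 24 ^ 3 * Real.exp ((1 + A) / 8) := by
      have := pow_le_pow_left₀ hA1.le g2 3
      rw [mul_pow, ← Real.exp_nat_mul] at this
      refine this.trans (le_of_eq ?_)
      congr 2
      push_cast
      ring
    calc (1 + A) ^ S * (Real.exp (-(A / 8)) * Gt t 0)
        ≤ (24 ^ 3 * Real.exp ((1 + A) / 8)) * (Real.exp (-(A / 8)) * 1) := by
          apply mul_le_mul (g1.trans g3) _ (mul_nonneg (Real.exp_pos _).le (Gt_nonneg t le_rfl))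
            (by positivity)
          exact mul_le_mul_of_nonneg_left g0 (Real.exp_pos _).le
      _ = 24 ^ 3 * (Real.exp ((1 + A) / 8) * Real.exp (-(A / 8))) := by ring
      _ = 24 ^ 3 * Real.exp (1 / 8) := by
          rw [← Real.exp_add]; congr 2; ring
  rw [mul_add, KG]
  linarith

/-- integrated decay -/
theorem Mix.decay {m : Measure ℝ} {t : Fin 3 → ℝ} (h : Mix m (Gt t)) (ht : ∀ k, 0 ≤ t k)
    (ht1 : ∀ k, t k ≤ 1) {A : ℝ} (hA : 0 ≤ A) :
    Integrable (fun τ => Real.exp (-(ss τ * A / 4))) m ∧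
    (1 + A) ^ (∑ k, t k) * ∫ τ, Real.exp (-(ss τ * A / 4)) ∂m ≤ KG := by
  have := h.fin
  have hA8 : 0 ≤ A / 8 := by positivity
  have i1 := h.integrable hA8
  have i0 : Integrable (fun _ : ℝ => Real.exp (-(A / 8))) m := integrable_const _
  have hmeas : Measurable fun τ => Real.exp (-(ss τ * A / 4)) := by
    unfold ss; fun_prop
  have hbd : ∀ᵐ τ ∂m, Real.exp (-(ss τ * A / 4)) ≤
      Real.exp (-(τ * (A / 8))) + Real.exp (-(A / 8)) := by
    filter_upwards [h.supp] with τ hτ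
    exact exp_ss_le hτ hA
  have hi : Integrable (fun τ => Real.exp (-(ss τ * A / 4))) m := by
    refine Integrable.mono' (i1.add i0) hmeas.aestronglyMeasurable ?_
    filter_upwards [hbd] with τ hτ
    rw [Real.norm_of_nonneg (Real.exp_pos _).le]
    exact hτ
  refine ⟨hi, ?_⟩
  have h0 : ∫ _τ : ℝ, Real.exp (-(A / 8)) ∂m = Real.exp (-(A / 8)) * Gt t 0 := by
    have := h.rep 0 le_rfl
    simp only [mul_zero, neg_zero, Real.exp_zero, integral_const, smul_eq_mul, mul_one] at this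
    rw [integral_const, smul_eq_mul, this, mul_comm]
  have h1 : ∫ τ, Real.exp (-(ss τ * A / 4)) ∂m ≤ Gt t (A / 8) + Real.exp (-(A / 8)) * Gt t 0 := by
    calc ∫ τ, Real.exp (-(ss τ * A / 4)) ∂m
        ≤ ∫ τ, (Real.exp (-(τ * (A / 8))) + Real.exp (-(A / 8))) ∂m :=
          integral_mono_ae hi (i1.add i0) hbd
      _ = _ := by rw [integral_add i1 i0, h.rep _ hA8, h0]
  exact (mul_le_mul_of_nonneg_left h1 (Real.rpow_nonneg (by linarith) _)).trans
    (weight_bound t ht ht1 hA)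

end Crest.Agent.R340.Geo927
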