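import Crest.Agent.R340.CS1_809

/-!
# R340 (helper303), rotation layer 1: complements on the spin-`Q/2` representation

Everything is stated for helper809's `sp Q g` (matrix of the `Q`-th symmetric power) and
`kap Q ζ` (coherent vector): bilinear pairing, transpose, complex conjugate, torus, first column,
the homomorphism `DU Q` on the unitary group.
-/

set_option autoImplicit false

open Matrix Polynomial

namespace Crest.Agent.R340.Rot303

open Crest.Agent.R340.CS809

noncomputable section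

lemma star_kap (Q : ℕ) (a : Fin 2 → ℂ) : star (kap Q a) = kap Q (star a) := by
  funext j
  simp [kap, Complex.conj_ofReal]

/-- bilinear pairing of coherent vectors -/
theorem sum_kap_mul_kap (Q : ℕ) (a b : Fin 2 → ℂ) :
    ∑ j, kap Q a j * kap Q b j = (a 0 * b 0 + a 1 * b 1) ^ Q := by
  have h := kap_inner Q (star a) b
  rw [star_kap, star_star] at h
  rw [dotProduct, dotProduct, Fin.sum_univ_two] at h
  simpa using h

/-- inner products of coherent vectors -/
theorem sum_star_kap_mul_kap (Q : ℕ) (a b : Fin 2 → ℂ) :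
    ∑ j, star (kap Q a j) * kap Q b j = (star (a 0) * b 0 + star (a 1) * b 1) ^ Q := by
  have h := kap_inner Q a b
  rw [dotProduct, dotProduct, Fin.sum_univ_two] at h
  simpa using h

theorem eq_of_sum_kap {Q : ℕ} {f g : Fin (Q + 1) → ℂ}
    (h : ∀ a : Fin 2 → ℂ, ∑ j, f j * kap Q a j = ∑ j, g j * kap Q a j) : f = g := by
  have : f - g = 0 := by
    refine kap_sep fun a => ?_
    rw [sub_dotProduct, dotProduct, dotProduct, h a, sub_self]
  exact sub_eq_zero.1 this

theorem sp_transpose (Q : ℕ) (g : Matrix (Fin 2) (Fin 2) ℂ) : (sp Q g)ᵀ = sp Q gᵀ := by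
  refine ext_kap fun a => ?_
  rw [sp_mulVec_kap]
  refine eq_of_sum_kap fun b => ?_
  have h1 : ∑ j, ((sp Q g)ᵀ *ᵥ kap Q a) j * kap Q b j = ∑ j, kap Q a j * (sp Q g *ᵥ kap Q b) j := by
    have h2 : ((sp Q g)ᵀ *ᵥ kap Q a) ⬝ᵥ kap Q b = kap Q a ⬝ᵥ (sp Q g *ᵥ kap Q b) := by
      rw [Matrix.mulVec_transpose, ← Matrix.dotProduct_mulVec]
    exact h2
  rw [h1, sp_mulVec_kap, sum_kap_mul_kap, sum_kap_mul_kap]
  congr 1
  simp [Matrix.mulVec, dotProduct, Fin.sum_univ_two]
  ring

theorem sp_map_star (Q : ℕ) (g : Matrix (Fin 2) (Fin 2) ℂ) :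
    (sp Q g).map star = sp Q (g.map star) := by
  have h := sp_conjTranspose Q gᵀ
  rw [← sp_transpose] at h
  exact h

theorem sp_diagonal (Q : ℕ) (d : Fin 2 → ℂ) :
    sp Q (Matrix.diagonal d) =
      Matrix.diagonal fun j : Fin (Q + 1) => d 0 ^ (Q - (j : ℕ)) * d 1 ^ (j : ℕ) := by
  refine ext_kap fun a => ?_
  rw [sp_mulVec_kap]
  funext j
  rw [Matrix.mulVec_diagonal]
  unfold kap
  rw [Matrix.mulVec_diagonal, Matrix.mulVec_diagonal, mul_pow, mul_pow]
  ring

lemma kap_north (Q : ℕ) : kap Q ![1, 0] = Pi.single 0 1 := by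
  funext j
  unfold kap
  rcases Nat.eq_zero_or_pos (j : ℕ) with hj | hj
  · have : j = 0 := Fin.ext hj
    subst this
    simp
  · have : j ≠ 0 := by
      intro h; rw [h] at hj; simp at hj
    simp [this]

/-- the first column of `sp Q g` is the coherent vector of the first column of `g` -/
theorem sp_apply_zero (Q : ℕ) (g : Matrix (Fin 2) (Fin 2) ℂ) (i : Fin (Q + 1)) :
    sp Q g i 0 = kap Q (fun k => g k 0) i := by
  have h := sp_mulVec_kap Q g ![1, 0]
  rw [kap_north, Matrix.mulVec_single_one] at h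
  have h2 := congrFun h i
  have h3 : g *ᵥ ![1, 0] = fun k => g k 0 := by
    funext k
    simp [Matrix.mulVec, dotProduct, Fin.sum_univ_two]
  rw [h3] at h2
  exact h2

theorem sp_mem_unitary (Q : ℕ) {g : Matrix (Fin 2) (Fin 2) ℂ}
    (hg : g ∈ Matrix.unitaryGroup (Fin 2) ℂ) : sp Q g ∈ Matrix.unitaryGroup (Fin (Q + 1)) ℂ := by
  rw [Matrix.mem_unitaryGroup_iff'] at hg ⊢
  rw [Matrix.star_eq_conjTranspose] at hg ⊢
  rw [sp_conjTranspose, ← sp_mul, hg, sp_one]

/-- the representation as a group homomorphism -/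
def DU (Q : ℕ) : Matrix.unitaryGroup (Fin 2) ℂ →* Matrix.unitaryGroup (Fin (Q + 1)) ℂ where
  toFun g := ⟨sp Q g, sp_mem_unitary Q g.2⟩
  map_one' := Subtype.ext (sp_one Q)
  map_mul' g h := Subtype.ext (sp_mul Q g h)

@[simp] lemma coe_DU (Q : ℕ) (g : Matrix.unitaryGroup (Fin 2) ℂ) :
    ((DU Q g : Matrix.unitaryGroup (Fin (Q + 1)) ℂ) : Matrix (Fin (Q + 1)) (Fin (Q + 1)) ℂ) =
      sp Q g := rfl

/-- entries of `sp` are polynomials in the entries of `g`, hence continuous -/
theorem continuous_sp (Q : ℕ) : Continuous fun g : Matrix (Fin 2) (Fin 2) ℂ => sp Q g := by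
  refine continuous_matrix fun i k => ?_
  simp only [sp, of_apply]
  refine continuous_const.mul ?_
  have hlin : ∀ (n : ℕ) (a b : Fin 2) (m : ℕ), Continuous fun g : Matrix (Fin 2) (Fin 2) ℂ =>
      ((C (g a b) : ℂ[X])).coeff m := by
    intro n a b m
    rcases Nat.eq_zero_or_pos m with rfl | hm
    · simp only [coeff_C_zero]
      exact (continuous_apply b).comp (continuous_apply a)
    · have : (fun g : Matrix (Fin 2) (Fin 2) ℂ => ((C (g a b) : ℂ[X])).coeff m) = fun _ => 0 := by
        funext g; rw [coeff_C_of_ne_zero hm.ne']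
      rw [this]; exact continuous_const
  have hmul : ∀ (f h : Matrix (Fin 2) (Fin 2) ℂ → ℂ[X]), (∀ m, Continuous fun g => (f g).coeff m) →
      (∀ m, Continuous fun g => (h g).coeff m) → ∀ m, Continuous fun g => (f g * h g).coeff m := by
    intro f h hf hh m
    simp only [coeff_mul]
    exact continuous_finsetSum _ fun x _ => (hf _).mul (hh _)
  have hpow : ∀ (f : Matrix (Fin 2) (Fin 2) ℂ → ℂ[X]), (∀ m, Continuous fun g => (f g).coeff m) →
      ∀ n m, Continuous fun g => (f g ^ n).coeff m := by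
    intro f hf n
    induction n with
    | zero => intro m; simp only [pow_zero]; exact continuous_const
    | succ n ih => intro m; simp only [pow_succ]; exact hmul _ _ ih hf m
  have hlf : ∀ a m, Continuous fun g : Matrix (Fin 2) (Fin 2) ℂ => (lf g a).coeff m := by
    intro a m
    simp only [lf, coeff_add]
    refine (hlin 0 a 0 m).add ?_
    exact hmul _ (fun _ => X) (hlin 0 a 1) (fun _ => continuous_const) m
  exact hmul _ _ (hpow _ (hlf 0) _) (hpow _ (hlf 1) _) _

end

end Crest.Agent.R340.Rot303
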