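import Mathlib
import Crest.Agent.R340.Geo2_927
import Crest.Agent.R340.Rot1_303

set_option autoImplicit false

/-!
# Row 340 (O1): locality of the coherent vectors in the geometry `θ` (helper927)

`uu Q g k` is the `k`-th vector of the frame at `g`, `vv t Q g k` its image under the inverse
weight, normalised.  `overlap_exp`, `overlap_poly`: all overlaps decay, uniformly in
`Q ≥ 1`, `t ∈ [0,1]^3` and `g, h`.
-/

namespace Crest.Agent.R340.Geo927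

open Matrix Finset MeasureTheory Crest.Agent.R340.CS809

/-- frame vector number `k` at `g` -/
noncomputable def uu (Q : ℕ) (g : Matrix (Fin 2) (Fin 2) ℂ) (k : Fin (Q + 1)) :
    Fin (Q + 1) → ℂ := fun j => sp Q g j k

/-- the frame vector multiplied by the inverse weight -/
noncomputable def wv (t : Fin 3 → ℝ) (Q : ℕ) (g : Matrix (Fin 2) (Fin 2) ℂ) (k : Fin (Q + 1)) :
    Fin (Q + 1) → ℂ := fun j => ((Gt t ((Q : ℝ) - (j : ℕ)) : ℝ) : ℂ) * sp Q g j k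

/-- the normalisation `(1 + i(z))^{t_0+t_1+t_2}`, `i(z) = Q |g₀₀|²` -/
noncomputable def nz (t : Fin 3 → ℝ) (Q : ℕ) (g : Matrix (Fin 2) (Fin 2) ℂ) : ℝ :=
  (1 + Q * ‖g 0 0‖ ^ 2) ^ (∑ k, t k)

/-- the normalised dilated frame vector -/
noncomputable def vv (t : Fin 3 → ℝ) (Q : ℕ) (g : Matrix (Fin 2) (Fin 2) ℂ) (k : Fin (Q + 1)) :
    Fin (Q + 1) → ℂ := fun j => ((nz t Q g : ℝ) : ℂ) * wv t Q g k j

lemma nz_pos (t : Fin 3 → ℝ) (Q : ℕ) (g : Matrix (Fin 2) (Fin 2) ℂ) : 0 < nz t Q g :=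
  Real.rpow_pos_of_pos (by positivity) _

lemma sp_MM (Q : ℕ) (τ : ℝ) (g h : Matrix (Fin 2) (Fin 2) ℂ) (l k : Fin (Q + 1)) :
    sp Q (MM τ g h) l k = ∑ j : Fin (Q + 1), star (sp Q h j l) *
      (((Real.exp (-(τ * ((Q : ℝ) - (j : ℕ)))) : ℝ) : ℂ) * sp Q g j k) := by
  rw [MM, sp_mul, sp_mul, ← sp_conjTranspose, sp_dil, Matrix.mul_assoc, Matrix.mul_apply]
  refine sum_congr rfl fun j _ => ?_
  rw [conjTranspose_apply, diagonal_mul]

theorem overlap_eq {t : Fin 3 → ℝ} {m : Measure ℝ} (hm : Mix m (Gt t)) (Q : ℕ)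
    (g h : Matrix (Fin 2) (Fin 2) ℂ) (l k : Fin (Q + 1)) :
    star (uu Q h l) ⬝ᵥ wv t Q g k = ∫ τ, sp Q (MM τ g h) l k ∂m := by
  have hj : ∀ j : Fin (Q + 1), (0 : ℝ) ≤ (Q : ℝ) - (j : ℕ) := fun j => by
    have : ((j : ℕ) : ℝ) ≤ Q := by exact_mod_cast Nat.lt_succ_iff.1 j.2
    linarith
  simp only [sp_MM]
  rw [integral_finsetSum]
  · rw [dotProduct]
    refine sum_congr rfl fun j _ => ?_
    rw [integral_const_mul, integral_mul_const]
    have e1 : ∫ τ : ℝ, ((Real.exp (-(τ * ((Q : ℝ) - (j : ℕ)))) : ℝ) : ℂ) ∂m =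
        ((Gt t ((Q : ℝ) - (j : ℕ)) : ℝ) : ℂ) := by
      rw [← hm.rep _ (hj j)]
      exact integral_ofReal
    rw [e1]
    rfl
  · intro j _
    exact (((hm.integrable (hj j)).ofReal).mul_const _).const_mul _

/-- the overlap, with an exponential weight -/
theorem overlap_exp {μ : ℝ} (hμ : 0 ≤ μ) {Q : ℕ} (hQ : 1 ≤ Q) {t : Fin 3 → ℝ}
    (ht : ∀ k, 0 ≤ t k) (ht1 : ∀ k, t k ≤ 1) {g h : Matrix (Fin 2) (Fin 2) ℂ}
    (hg : gᴴ * g = 1) (hh : hᴴ * h = 1) (l k : Fin (Q + 1)) (hl : (l : ℕ) ≤ 1)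
    (hk : (k : ℕ) ≤ 1) :
    ‖star (uu Q h l) ⬝ᵥ vv t Q g k‖ * Real.exp (μ * (Real.sqrt Q * dd g h)) ≤ KK μ * KG := by
  obtain ⟨m, hm⟩ := exists_mix t ht
  set A : ℝ := Q * ‖g 0 0‖ ^ 2 with hA
  have hA0 : 0 ≤ A := by positivity
  obtain ⟨hi, hd⟩ := hm.decay ht ht1 hA0
  set e := Real.exp (μ * (Real.sqrt Q * dd g h)) with he
  have he0 : 0 < e := Real.exp_pos _
  have h1 : ‖star (uu Q h l) ⬝ᵥ wv t Q g k‖ * e ≤
      KK μ * ∫ τ, Real.exp (-(ss τ * A / 4)) ∂m := by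
    rw [overlap_eq hm]
    have h2 : ‖∫ τ, sp Q (MM τ g h) l k ∂m‖ ≤
        ∫ τ, (KK μ * e⁻¹) * Real.exp (-(ss τ * A / 4)) ∂m := by
      apply norm_integral_le_of_norm_le (hi.const_mul _)
      filter_upwards [hm.supp] with τ hτ
      have := elem_decay hμ hQ hτ hg hh l k hl hk
      rw [← he, ← hA] at this
      rw [mul_right_comm, ← div_eq_mul_inv, le_div_iff₀ he0]
      exact this
    rw [integral_const_mul] at h2
    calc ‖∫ τ, sp Q (MM τ g h) l k ∂m‖ * e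
        ≤ ((KK μ * e⁻¹) * ∫ τ, Real.exp (-(ss τ * A / 4)) ∂m) * e :=
          mul_le_mul_of_nonneg_right h2 he0.le
      _ = (KK μ * ∫ τ, Real.exp (-(ss τ * A / 4)) ∂m) * (e⁻¹ * e) := by ring
      _ = _ := by rw [inv_mul_cancel₀ he0.ne', mul_one]
  have h3 : star (uu Q h l) ⬝ᵥ vv t Q g k =
      ((nz t Q g : ℝ) : ℂ) * (star (uu Q h l) ⬝ᵥ wv t Q g k) := by
    have : vv t Q g k = ((nz t Q g : ℝ) : ℂ) • wv t Q g k := rfl
    rw [this, dotProduct_smul, smul_eq_mul]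
  rw [h3, norm_mul, Complex.norm_real, Real.norm_of_nonneg (nz_pos t Q g).le]
  have hK : 0 ≤ KK μ := (Real.exp_pos _).le
  calc nz t Q g * ‖star (uu Q h l) ⬝ᵥ wv t Q g k‖ * e
      = nz t Q g * (‖star (uu Q h l) ⬝ᵥ wv t Q g k‖ * e) := by ring
    _ ≤ nz t Q g * (KK μ * ∫ τ, Real.exp (-(ss τ * A / 4)) ∂m) :=
        mul_le_mul_of_nonneg_left h1 (nz_pos t Q g).le
    _ = KK μ * (nz t Q g * ∫ τ, Real.exp (-(ss τ * A / 4)) ∂m) := by ring
    _ ≤ KK μ * KG := mul_le_mul_of_nonneg_left hd hK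

/-- the overlap, with a polynomial weight -/
theorem overlap_poly (n : ℕ) {Q : ℕ} (hQ : 1 ≤ Q) {t : Fin 3 → ℝ}
    (ht : ∀ k, 0 ≤ t k) (ht1 : ∀ k, t k ≤ 1) {g h : Matrix (Fin 2) (Fin 2) ℂ}
    (hg : gᴴ * g = 1) (hh : hᴴ * h = 1) (l k : Fin (Q + 1)) (hl : (l : ℕ) ≤ 1)
    (hk : (k : ℕ) ≤ 1) :
    ‖star (uu Q h l) ⬝ᵥ vv t Q g k‖ ≤ KK n * KG * (1 + Real.sqrt Q * dd g h)⁻¹ ^ n := by
  have h1 := overlap_exp (μ := n) (Nat.cast_nonneg n) hQ ht ht1 hg hh l k hl hk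
  have h0 : 0 < 1 + Real.sqrt Q * dd g h := by
    have := dd_nonneg g h
    positivity
  have h2 : (1 + Real.sqrt Q * dd g h) ^ n ≤ Real.exp (n * (Real.sqrt Q * dd g h)) := by
    rw [Real.exp_nat_mul]
    apply pow_le_pow_left₀ h0.le
    have := Real.add_one_le_exp (Real.sqrt Q * dd g h)
    linarith
  rw [inv_pow, ← div_eq_mul_inv, le_div_iff₀ (by positivity)]
  exact (mul_le_mul_of_nonneg_left h2 (norm_nonneg _)).trans h1

/-- the norm of the normalised dilated frame vector -/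
theorem norm_vv_sq_le {Q : ℕ} (hQ : 1 ≤ Q) {t : Fin 3 → ℝ} (ht : ∀ k, 0 ≤ t k)
    (ht1 : ∀ k, t k ≤ 1 / 2) {g : Matrix (Fin 2) (Fin 2) ℂ} (hg : gᴴ * g = 1)
    (k : Fin (Q + 1)) (hk : (k : ℕ) ≤ 1) : ∑ j, ‖vv t Q g k j‖ ^ 2 ≤ KK 0 * KG := by
  have h2 : ∀ k, 0 ≤ 2 * t k := fun k => by have := ht k; positivity
  have h3 : ∀ k, 2 * t k ≤ 1 := fun k => by have := ht1 k; linarith
  have h1 := overlap_exp (μ := 0) le_rfl hQ (t := fun k => 2 * t k) h2 h3 hg hg k k hk hk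
  simp only [zero_mul, Real.exp_zero, mul_one] at h1
  refine le_trans (le_of_eq ?_) h1
  have hGt : ∀ i : ℝ, 0 ≤ i → Gt (fun k => 2 * t k) i = Gt t i ^ 2 := by
    intro i hi
    rw [Gt, Gt, ← prod_pow]
    refine prod_congr rfl fun k _ => ?_
    rw [← Real.rpow_natCast, ← Real.rpow_mul (by positivity)]
    congr 1
    push_cast
    ring
  have hnz : nz (fun k => 2 * t k) Q g = nz t Q g ^ 2 := by
    have hb : (0 : ℝ) ≤ 1 + Q * ‖g 0 0‖ ^ 2 := by positivity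
    rw [nz, nz, ← mul_sum]
    generalize (1 + (Q : ℝ) * ‖g 0 0‖ ^ 2) = b at hb
    rw [← Real.rpow_natCast, ← Real.rpow_mul hb]
    congr 1
    push_cast
    ring
  have hval : star (uu Q g k) ⬝ᵥ vv (fun k => 2 * t k) Q g k =
      ((∑ j, ‖vv t Q g k j‖ ^ 2 : ℝ) : ℂ) := by
    rw [dotProduct, Complex.ofReal_sum]
    refine sum_congr rfl fun j _ => ?_
    have hj : (0 : ℝ) ≤ (Q : ℝ) - (j : ℕ) := by
      have : ((j : ℕ) : ℝ) ≤ Q := by exact_mod_cast Nat.lt_succ_iff.1 j.2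
      linarith
    have e1 : ‖vv t Q g k j‖ ^ 2 =
        nz t Q g ^ 2 * (Gt t ((Q : ℝ) - (j : ℕ)) ^ 2 * ‖sp Q g j k‖ ^ 2) := by
      simp only [vv, wv]
      rw [norm_mul, norm_mul, Complex.norm_real, Complex.norm_real, mul_pow, mul_pow,
        Real.norm_eq_abs, Real.norm_eq_abs, sq_abs, sq_abs]
    have e2 : ((‖sp Q g j k‖ ^ 2 : ℝ) : ℂ) = star (sp Q g j k) * sp Q g j k := by
      rw [← Complex.normSq_eq_norm_sq, Complex.normSq_eq_conj_mul_self, Complex.star_def]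
    rw [e1, Complex.ofReal_mul, Complex.ofReal_mul, e2]
    simp only [vv, wv, uu, Pi.star_apply, hnz, hGt _ hj]
    push_cast
    ring
  rw [hval, Complex.norm_real, Real.norm_of_nonneg (sum_nonneg fun j _ => sq_nonneg _)]

/-! ## continuity in `g` -/

lemma continuous_uu (Q : ℕ) (k : Fin (Q + 1)) :
    Continuous fun g : Matrix (Fin 2) (Fin 2) ℂ => uu Q g k := by
  refine continuous_pi fun j => ?_
  exact (continuous_apply k).comp ((continuous_apply j).comp (Rot303.continuous_sp Q))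

lemma continuous_nz {t : Fin 3 → ℝ} (Q : ℕ) :
    Continuous fun g : Matrix (Fin 2) (Fin 2) ℂ => nz t Q g := by
  have h : Continuous fun g : Matrix (Fin 2) (Fin 2) ℂ => (1 + (Q : ℝ) * ‖g 0 0‖ ^ 2) := by
    have : Continuous fun g : Matrix (Fin 2) (Fin 2) ℂ => g 0 0 :=
      (continuous_apply 0).comp (continuous_apply 0)
    fun_prop
  refine h.rpow_const fun g => Or.inl ?_
  positivity

lemma continuous_vv {t : Fin 3 → ℝ} (Q : ℕ) (k : Fin (Q + 1)) :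
    Continuous fun g : Matrix (Fin 2) (Fin 2) ℂ => vv t Q g k := by
  refine continuous_pi fun j => ?_
  have h1 : Continuous fun g : Matrix (Fin 2) (Fin 2) ℂ => ((nz t Q g : ℝ) : ℂ) :=
    Complex.continuous_ofReal.comp (continuous_nz Q)
  have h2 : Continuous fun g : Matrix (Fin 2) (Fin 2) ℂ => sp Q g j k :=
    (continuous_apply k).comp ((continuous_apply j).comp (Rot303.continuous_sp Q))
  exact h1.mul (continuous_const.mul h2)

end Crest.Agent.R340.Geo927
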