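import Mathlib
import Crest.Agent.R340.Geo3_927

set_option autoImplicit false

/-!
# Row 340 (O1'): exponential tails of `vv t Q g k` in the frame at `g` (helper927)

`sum_tail_vv`: `∑_j (3/2)^j |⟨uu Q g j, vv t Q g k⟩|² ≤ CT` for `k = 0, 1`.
-/

namespace Crest.Agent.R340.Geo927

open Matrix Finset MeasureTheory Crest.Agent.R340.CS809

/-- the contraction `diag (1, r)` -/
noncomputable def dgr (r : ℝ) : Matrix (Fin 2) (Fin 2) ℂ := Matrix.diagonal ![1, (r : ℂ)]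

theorem sp_dgr (Q : ℕ) (r : ℝ) :
    sp Q (dgr r) = Matrix.diagonal fun j : Fin (Q + 1) => ((r : ℝ) : ℂ) ^ (j : ℕ) := by
  apply ext_kap
  intro ζ
  rw [sp_mulVec_kap]
  ext j
  have h0 : (dgr r *ᵥ ζ) 0 = ζ 0 := by
    simp [dgr, mulVec_diagonal]
  have h1 : (dgr r *ᵥ ζ) 1 = (r : ℂ) * ζ 1 := by
    simp [dgr, mulVec_diagonal]
  rw [mulVec_diagonal]
  simp only [kap, h0, h1, mul_pow]
  ring

lemma sp_dgr_mul (Q : ℕ) (r : ℝ) (M : Matrix (Fin 2) (Fin 2) ℂ) (j k : Fin (Q + 1)) :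
    sp Q (dgr r * M) j k = ((r : ℝ) : ℂ) ^ (j : ℕ) * sp Q M j k := by
  rw [sp_mul, sp_dgr, diagonal_mul]

lemma sum_norm_sq_col (Q : ℕ) (N : Matrix (Fin 2) (Fin 2) ℂ) (k : Fin (Q + 1)) :
    ((∑ j, ‖sp Q N j k‖ ^ 2 : ℝ) : ℂ) = sp Q (Nᴴ * N) k k := by
  rw [sp_mul, ← sp_conjTranspose, Matrix.mul_apply, Complex.ofReal_sum]
  refine sum_congr rfl fun j _ => ?_
  rw [conjTranspose_apply, Complex.star_def, ← Complex.normSq_eq_conj_mul_self,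
    Complex.normSq_eq_norm_sq]

/-- a version of `four_cases` for the diagonal elements -/
lemma diag_cases {Q : ℕ} (hQ : 1 ≤ Q) (M : Matrix (Fin 2) (Fin 2) ℂ) {E V W : ℝ} (hE0 : 0 ≤ E)
    (hpow : ∀ r ≤ 2, ‖M 0 0‖ ^ (Q - r) ≤ E) (h01 : Real.sqrt Q * ‖M 0 1‖ ≤ V)
    (h10 : Real.sqrt Q * ‖M 1 0‖ ≤ V) (h11 : ‖M 1 1‖ ≤ W) (hW : 1 ≤ W)
    (k : Fin (Q + 1)) (hk : (k : ℕ) ≤ 1) :
    ‖sp Q M k k‖ ≤ E * (W + V * V) := by
  set q := Real.sqrt Q with hq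
  have hq0 : 0 ≤ q := Real.sqrt_nonneg _
  have hqq : q * q = (Q : ℝ) := Real.mul_self_sqrt (Nat.cast_nonneg _)
  have hQ1 : (1 : ℝ) ≤ Q := by exact_mod_cast hQ
  have hV0 : 0 ≤ V := le_trans (by positivity) h01
  have hle : ∀ n : ℕ, (n : ℕ) ≤ 1 → n = 0 ∨ n = 1 := by intro n hn; omega
  rcases hle _ hk with hk' | hk'
  · rw [sp_00 Q _ k k hk' hk', norm_pow]
    have h1 := hpow 0 (by norm_num)
    simp only [Nat.sub_zero] at h1
    calc ‖M 0 0‖ ^ Q ≤ E * 1 := by rw [mul_one]; exact h1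
      _ ≤ _ := mul_le_mul_of_nonneg_left (by nlinarith [mul_nonneg hV0 hV0]) hE0
  · rw [sp_11 Q _ k k hk' hk']
    have h1 := hpow 1 (by norm_num)
    have h2 := hpow 2 le_rfl
    have h3 : ‖((Q : ℂ) - 1)‖ ≤ q * q := by
      rw [hqq]
      have : ((Q : ℂ) - 1) = (((Q : ℝ) - 1 : ℝ) : ℂ) := by push_cast; ring
      rw [this, Complex.norm_real, Real.norm_of_nonneg (by linarith)]
      linarith
    calc ‖M 0 0 ^ (Q - 1) * M 1 1 + ((Q : ℂ) - 1) * M 0 0 ^ (Q - 2) * M 0 1 * M 1 0‖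
        ≤ ‖M 0 0‖ ^ (Q - 1) * ‖M 1 1‖ +
          ‖((Q : ℂ) - 1)‖ * ‖M 0 0‖ ^ (Q - 2) * ‖M 0 1‖ * ‖M 1 0‖ := by
          refine (norm_add_le _ _).trans ?_
          rw [norm_mul, norm_mul, norm_mul, norm_mul, norm_pow, norm_pow]
      _ ≤ E * W + E * V * V := by
          apply add_le_add
          · exact mul_le_mul h1 h11 (norm_nonneg _) hE0
          · calc ‖((Q : ℂ) - 1)‖ * ‖M 0 0‖ ^ (Q - 2) * ‖M 0 1‖ * ‖M 1 0‖
                ≤ (q * q) * ‖M 0 0‖ ^ (Q - 2) * ‖M 0 1‖ * ‖M 1 0‖ := by gcongr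
              _ = ‖M 0 0‖ ^ (Q - 2) * (q * ‖M 0 1‖) * (q * ‖M 1 0‖) := by ring
              _ ≤ E * V * V := by gcongr
      _ = _ := by ring

/-- the ratio of the tail weight, `r² = 3/2` -/
noncomputable def rt : ℝ := Real.sqrt (3 / 2)

lemma rt_sq : rt ^ 2 = 3 / 2 := Real.sq_sqrt (by norm_num)

lemma rt_nonneg : 0 ≤ rt := Real.sqrt_nonneg _

lemma MM_self_apply {τ : ℝ} {g : Matrix (Fin 2) (Fin 2) ℂ} (hg : gᴴ * g = 1) (a b : Fin 2) :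
    MM τ g g a b = (1 : Matrix (Fin 2) (Fin 2) ℂ) a b -
      star (g 0 a) * ((ss τ : ℝ) : ℂ) * g 0 b := by
  have h := MM_sub τ g g a b
  rw [hg] at h
  rw [ss, ← h]
  ring

/-- the Gram matrix of `diag (1, r) gᴴ T g`, bounds of its entries -/
lemma gram_bounds {τ : ℝ} (hτ : 0 ≤ τ) {g : Matrix (Fin 2) (Fin 2) ℂ} (hg : gᴴ * g = 1) :
    ‖((dgr rt * MM τ g g)ᴴ * (dgr rt * MM τ g g)) 0 0‖ ≤ 1 - ss τ * ‖g 0 0‖ ^ 2 / 2 ∧
    ‖((dgr rt * MM τ g g)ᴴ * (dgr rt * MM τ g g)) 0 1‖ ≤ 5 / 2 * (ss τ * ‖g 0 0‖) ∧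
    ‖((dgr rt * MM τ g g)ᴴ * (dgr rt * MM τ g g)) 1 0‖ ≤ 5 / 2 * (ss τ * ‖g 0 0‖) ∧
    ‖((dgr rt * MM τ g g)ᴴ * (dgr rt * MM τ g g)) 1 1‖ ≤ 5 / 2 := by
  set M := MM τ g g with hM
  have hs0 := ss_nonneg hτ
  have hs1 := ss_le_one τ
  have ha0 : 0 ≤ ‖g 0 0‖ := norm_nonneg _
  have ha1 : ‖g 0 0‖ ≤ 1 := norm_le_one_of hg 0 0
  have hb1 : ‖g 0 1‖ ≤ 1 := norm_le_one_of hg 0 1
  have hab := row_norm hg 0
  have hE : ∀ a b : Fin 2, ((dgr rt * M)ᴴ * (dgr rt * M)) a b =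
      star (M 0 a) * M 0 b + ((3 / 2 : ℝ) : ℂ) * (star (M 1 a) * M 1 b) := by
    intro a b
    have e0 : ∀ c, (dgr rt * M) 0 c = M 0 c := fun c => by simp [dgr, Matrix.diagonal_mul]
    have e1 : ∀ c, (dgr rt * M) 1 c = (rt : ℂ) * M 1 c := fun c => by
      simp [dgr, Matrix.diagonal_mul]
    rw [Matrix.mul_apply, Fin.sum_univ_two, conjTranspose_apply, conjTranspose_apply, e0, e0, e1,
      e1, ← rt_sq]
    simp only [star_mul', Complex.star_def, Complex.conj_ofReal]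
    push_cast
    ring
  have m00 : M 0 0 = ((1 - ss τ * ‖g 0 0‖ ^ 2 : ℝ) : ℂ) := by
    rw [hM, MM_self_apply hg, one_apply_eq]
    push_cast
    rw [← Complex.ofReal_pow, ← Complex.normSq_eq_norm_sq, Complex.normSq_eq_conj_mul_self,
      Complex.star_def]
    ring
  have m11 : M 1 1 = ((1 - ss τ * ‖g 0 1‖ ^ 2 : ℝ) : ℂ) := by
    rw [hM, MM_self_apply hg, one_apply_eq]
    push_cast
    rw [← Complex.ofReal_pow, ← Complex.normSq_eq_norm_sq, Complex.normSq_eq_conj_mul_self,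
      Complex.star_def]
    ring
  have n10 : ‖M 1 0‖ = ss τ * (‖g 0 0‖ * ‖g 0 1‖) := by
    rw [hM, MM_self_apply hg, one_apply_ne (by decide), zero_sub, norm_neg, norm_mul, norm_mul,
      norm_star, Complex.norm_real, Real.norm_of_nonneg hs0]
    ring
  have n01 : ‖M 0 1‖ = ss τ * (‖g 0 0‖ * ‖g 0 1‖) := by
    rw [hM, MM_self_apply hg, one_apply_ne (by decide), zero_sub, norm_neg, norm_mul, norm_mul,
      norm_star, Complex.norm_real, Real.norm_of_nonneg hs0]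
    ring
  have n00 : ‖M 0 0‖ ≤ 1 := norm_MM11_le hτ hg hg 0 0
  have n11 : ‖M 1 1‖ ≤ 1 := norm_MM11_le hτ hg hg 1 1
  have h32 : ‖((3 / 2 : ℝ) : ℂ)‖ = 3 / 2 := by
    rw [Complex.norm_real, Real.norm_of_nonneg (by norm_num)]
  have hsab : ss τ * (‖g 0 0‖ * ‖g 0 1‖) ≤ ss τ * ‖g 0 0‖ := by
    apply mul_le_mul_of_nonneg_left _ hs0
    nlinarith
  have hsab0 : 0 ≤ ss τ * (‖g 0 0‖ * ‖g 0 1‖) := by positivity
  refine ⟨?_, ?_, ?_, ?_⟩
  · have e : ((dgr rt * M)ᴴ * (dgr rt * M)) 0 0 =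
        (((1 - ss τ * ‖g 0 0‖ ^ 2) ^ 2 + 3 / 2 * (ss τ * (‖g 0 0‖ * ‖g 0 1‖)) ^ 2 : ℝ) : ℂ) := by
      rw [hE, ← n10]
      have e1 : star (M 1 0) * M 1 0 = ((‖M 1 0‖ ^ 2 : ℝ) : ℂ) := by
        rw [← Complex.normSq_eq_norm_sq, Complex.normSq_eq_conj_mul_self, Complex.star_def]
      rw [e1, m00, Complex.star_def, Complex.conj_ofReal]
      push_cast
      ring
    rw [e, Complex.norm_real, Real.norm_of_nonneg (by positivity)]
    set a := ‖g 0 0‖ ^ 2 with ha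
    have hb : ‖g 0 1‖ ^ 2 = 1 - a := by rw [ha]; linarith
    have e2 : (ss τ * (‖g 0 0‖ * ‖g 0 1‖)) ^ 2 = ss τ ^ 2 * (a * (1 - a)) := by
      rw [← hb, ha]; ring
    rw [e2]
    have ha2 : 0 ≤ a := by positivity
    have ha3 : a ≤ 1 := by rw [ha]; exact pow_le_one₀ ha0 ha1
    have h1 : ss τ ^ 2 ≤ ss τ := by nlinarith
    nlinarith [mul_nonneg hs0 ha2, mul_nonneg ha2 ha2,
      mul_le_mul_of_nonneg_right h1 (mul_nonneg ha2 (by linarith : (0 : ℝ) ≤ 1 - a)),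
      mul_le_mul_of_nonneg_right h1 (mul_nonneg ha2 ha2)]
  · rw [hE]
    refine (norm_add_le _ _).trans ?_
    rw [norm_mul, norm_mul, norm_mul, norm_star, norm_star, h32, n01, n10]
    nlinarith [mul_le_mul_of_nonneg_right n00 hsab0, mul_le_mul_of_nonneg_left n11 hsab0]
  · rw [hE]
    refine (norm_add_le _ _).trans ?_
    rw [norm_mul, norm_mul, norm_mul, norm_star, norm_star, h32, n01, n10]
    nlinarith [mul_le_mul_of_nonneg_left n00 hsab0, mul_le_mul_of_nonneg_right n11 hsab0]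
  · rw [hE]
    refine (norm_add_le _ _).trans ?_
    rw [norm_mul, norm_mul, norm_mul, norm_star, norm_star, h32]
    have n01' : ‖M 0 1‖ ≤ 1 := norm_MM11_le hτ hg hg 0 1
    have h1 : ‖M 0 1‖ * ‖M 0 1‖ ≤ 1 * 1 := mul_le_mul n01' n01' (norm_nonneg _) zero_le_one
    have h2 : ‖M 1 1‖ * ‖M 1 1‖ ≤ 1 * 1 := mul_le_mul n11 n11 (norm_nonneg _) zero_le_one
    linarith

lemma pow_le_exp' {Q : ℕ} {p y : ℝ} (hp : 0 ≤ p) (hp2 : p ≤ 1 - y) (hy0 : 0 ≤ y)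
    (hy1 : y ≤ 1 / 2) (r : ℕ) (hr : r ≤ 2) :
    p ^ (Q - r) ≤ Real.exp 1 * Real.exp (-(Q * y)) := by
  have h1 : p ≤ Real.exp (-y) := by
    have := Real.add_one_le_exp (-y)
    linarith
  have h3 : p ^ (Q - r) ≤ Real.exp (-y) ^ (Q - r) := pow_le_pow_left₀ hp h1 _
  refine h3.trans ?_
  rw [← Real.exp_nat_mul, ← Real.exp_add]
  apply Real.exp_le_exp.2
  have h4 : (Q : ℝ) - 2 ≤ ((Q - r : ℕ) : ℝ) := by
    have : Q ≤ (Q - r) + 2 := by omega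
    have h5 : (Q : ℝ) ≤ ((Q - r : ℕ) : ℝ) + 2 := by exact_mod_cast this
    linarith
  nlinarith

/-- the weighted column norms of the dilation at fixed `τ` -/
theorem sum_tail_dil {Q : ℕ} (hQ : 1 ≤ Q) {τ : ℝ} (hτ : 0 ≤ τ) {g : Matrix (Fin 2) (Fin 2) ℂ}
    (hg : gᴴ * g = 1) (k : Fin (Q + 1)) (hk : (k : ℕ) ≤ 1) :
    ∑ j : Fin (Q + 1), ‖((rt : ℝ) : ℂ) ^ (j : ℕ) * sp Q (MM τ g g) j k‖ ^ 2 ≤
      25 * Real.exp 1 * Real.exp (-(ss τ * (Q * ‖g 0 0‖ ^ 2) / 4)) := by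
  obtain ⟨b00, b01, b10, b11⟩ := gram_bounds hτ hg
  set N := dgr rt * MM τ g g with hN
  have e1 : ∑ j : Fin (Q + 1), ‖((rt : ℝ) : ℂ) ^ (j : ℕ) * sp Q (MM τ g g) j k‖ ^ 2 =
      ‖sp Q (Nᴴ * N) k k‖ := by
    rw [← sum_norm_sq_col, Complex.norm_real,
      Real.norm_of_nonneg (sum_nonneg fun j _ => sq_nonneg _)]
    refine sum_congr rfl fun j _ => ?_
    rw [hN, sp_dgr_mul]
  rw [e1]
  have hs0 := ss_nonneg hτ
  have hs1 := ss_le_one τ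
  have ha0 : 0 ≤ ‖g 0 0‖ := norm_nonneg _
  have ha1 : ‖g 0 0‖ ≤ 1 := norm_le_one_of hg 0 0
  have hq0 : 0 ≤ Real.sqrt Q := Real.sqrt_nonneg _
  have hqq : Real.sqrt Q * Real.sqrt Q = (Q : ℝ) := Real.mul_self_sqrt (Nat.cast_nonneg _)
  set a := ‖g 0 0‖ ^ 2 with ha
  have ha2 : 0 ≤ a := by positivity
  have ha3 : a ≤ 1 := by rw [ha]; exact pow_le_one₀ ha0 ha1
  set E := Real.exp 1 * Real.exp (-(Q * (ss τ * a / 2))) with hE
  have hE0 : 0 ≤ E := by positivity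
  have hsa : ss τ * a ≤ 1 := by nlinarith
  have hpow : ∀ r ≤ 2, ‖(Nᴴ * N) 0 0‖ ^ (Q - r) ≤ E := fun r hr =>
    pow_le_exp' (norm_nonneg _) b00 (by positivity) (by linarith) r hr
  have hV : ∀ z : ℝ, z ≤ 5 / 2 * (ss τ * ‖g 0 0‖) →
      Real.sqrt Q * z ≤ Real.sqrt Q * (5 / 2 * (ss τ * ‖g 0 0‖)) := fun z hz =>
    mul_le_mul_of_nonneg_left hz hq0
  have h := diag_cases hQ (Nᴴ * N) hE0 hpow (hV _ b01) (hV _ b10) b11 (by norm_num) k hk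
  refine h.trans ?_
  have hVV : Real.sqrt Q * (5 / 2 * (ss τ * ‖g 0 0‖)) * (Real.sqrt Q * (5 / 2 * (ss τ * ‖g 0 0‖)))
      ≤ 25 / 4 * (ss τ * (Q * a)) := by
    have : Real.sqrt Q * (5 / 2 * (ss τ * ‖g 0 0‖)) * (Real.sqrt Q * (5 / 2 * (ss τ * ‖g 0 0‖))) =
        25 / 4 * (ss τ * (ss τ * (Real.sqrt Q * Real.sqrt Q * ‖g 0 0‖ ^ 2))) := by
      ring
    rw [this, hqq, ← ha]
    have h0 : 0 ≤ ss τ * (Q * a) := by positivity
    nlinarith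
  set y := ss τ * (Q * a) with hy
  have hy0 : 0 ≤ y := by positivity
  have hE' : E = Real.exp 1 * Real.exp (-(y / 2)) := by
    rw [hE]; congr 2; rw [hy]; ring
  calc E * (5 / 2 + Real.sqrt Q * (5 / 2 * (ss τ * ‖g 0 0‖)) *
        (Real.sqrt Q * (5 / 2 * (ss τ * ‖g 0 0‖))))
      ≤ E * (25 * Real.exp (y / 4)) := by
        apply mul_le_mul_of_nonneg_left _ hE0
        have := Real.add_one_le_exp (y / 4)
        linarith
    _ = 25 * Real.exp 1 * (Real.exp (-(y / 2)) * Real.exp (y / 4)) := by rw [hE']; ring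
    _ = _ := by
        rw [← Real.exp_add]; congr 2; ring

/-- half of the decay exponent is enough -/
lemma Mix.decay_half {m : Measure ℝ} {t : Fin 3 → ℝ} (h : Mix m (Gt t)) (ht : ∀ k, 0 ≤ t k)
    (ht1 : ∀ k, t k ≤ 1) {A : ℝ} (hA : 0 ≤ A) :
    Integrable (fun τ => Real.exp (-(ss τ * A / 8))) m ∧
    (1 + A) ^ (∑ k, t k) * ∫ τ, Real.exp (-(ss τ * A / 8)) ∂m ≤ 8 * KG := by
  obtain ⟨h1, h2⟩ := h.decay ht ht1 (A := A / 2) (by positivity)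
  have e : (fun τ => Real.exp (-(ss τ * A / 8))) = fun τ => Real.exp (-(ss τ * (A / 2) / 4)) := by
    funext τ; congr 1; ring
  rw [e]
  refine ⟨h1, ?_⟩
  set I := ∫ τ, Real.exp (-(ss τ * (A / 2) / 4)) ∂m with hI
  have hI0 : 0 ≤ I := integral_nonneg fun τ => (Real.exp_pos _).le
  set S := ∑ k, t k with hS
  have hS0 : 0 ≤ S := sum_nonneg fun k _ => ht k
  have hS3 : S ≤ 3 := by
    rw [hS, Fin.sum_univ_three]; linarith [ht1 0, ht1 1, ht1 2]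
  have h3 : (1 + A) ^ S ≤ 8 * (1 + A / 2) ^ S := by
    have h4 : (1 + A) ^ S ≤ (2 * (1 + A / 2)) ^ S :=
      Real.rpow_le_rpow (by positivity) (by linarith) hS0
    rw [Real.mul_rpow (by norm_num) (by positivity)] at h4
    have h5 : (2 : ℝ) ^ S ≤ 8 := by
      have := Real.rpow_le_rpow_of_exponent_le (by norm_num : (1 : ℝ) ≤ 2) hS3
      have h6 : (2 : ℝ) ^ (3 : ℝ) = 8 := by norm_num
      rwa [h6] at this
    exact h4.trans (mul_le_mul_of_nonneg_right h5 (Real.rpow_nonneg (by positivity) _))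
  calc (1 + A) ^ S * I ≤ 8 * (1 + A / 2) ^ S * I := mul_le_mul_of_nonneg_right h3 hI0
    _ = 8 * ((1 + A / 2) ^ S * I) := by ring
    _ ≤ 8 * KG := by linarith

/-- the constant of the tail bound -/
noncomputable def CT : ℝ := (40 * Real.exp 1 * KG) ^ 2

/-- exponential tails of the dilated frame vectors in the frame -/
theorem sum_tail_vv {Q : ℕ} (hQ : 1 ≤ Q) {t : Fin 3 → ℝ} (ht : ∀ k, 0 ≤ t k)
    (ht1 : ∀ k, t k ≤ 1) {g : Matrix (Fin 2) (Fin 2) ℂ} (hg : gᴴ * g = 1) (k : Fin (Q + 1))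
    (hk : (k : ℕ) ≤ 1) :
    ∑ j : Fin (Q + 1), (3 / 2 : ℝ) ^ (j : ℕ) * ‖star (uu Q g j) ⬝ᵥ vv t Q g k‖ ^ 2 ≤ CT := by
  obtain ⟨m, hm⟩ := exists_mix t ht
  set A : ℝ := Q * ‖g 0 0‖ ^ 2 with hA
  have hA0 : 0 ≤ A := by positivity
  obtain ⟨hi, hd⟩ := hm.decay_half ht ht1 hA0
  -- the vector valued function
  let F : ℝ → EuclideanSpace ℂ (Fin (Q + 1)) := fun τ =>
    WithLp.toLp 2 fun j : Fin (Q + 1) => ((rt : ℝ) : ℂ) ^ (j : ℕ) * sp Q (MM τ g g) j k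
  have hFj : ∀ τ j, F τ j = ((rt : ℝ) : ℂ) ^ (j : ℕ) * sp Q (MM τ g g) j k := fun τ j => rfl
  have hFcont : Continuous F := by
    refine (PiLp.continuous_toLp 2 _).comp (continuous_pi fun j => ?_)
    refine continuous_const.mul ?_
    simp only [sp_MM]
    refine continuous_finsetSum _ fun i _ => ?_
    refine continuous_const.mul (Continuous.mul ?_ continuous_const)
    exact Complex.continuous_ofReal.comp (by fun_prop)
  have hFn : ∀ τ, 0 ≤ τ → ‖F τ‖ ≤ 5 * Real.exp 1 * Real.exp (-(ss τ * A / 8)) := by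
    intro τ hτ
    rw [EuclideanSpace.norm_eq]
    refine Real.sqrt_le_iff.2 ⟨by positivity, ?_⟩
    have h1 := sum_tail_dil hQ hτ hg k hk
    rw [← hA] at h1
    refine h1.trans ?_
    have e1 : (5 * Real.exp 1 * Real.exp (-(ss τ * A / 8))) ^ 2 =
        25 * (Real.exp 1 * Real.exp 1) * Real.exp (-(ss τ * A / 4)) := by
      rw [mul_pow, mul_pow, ← Real.exp_nat_mul (-(ss τ * A / 8))]
      have : ((2 : ℕ) : ℝ) * -(ss τ * A / 8) = -(ss τ * A / 4) := by push_cast; ring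
      rw [this]; ring
    rw [e1]
    have h2 : 1 ≤ Real.exp 1 := Real.one_le_exp (by norm_num)
    have h3 : Real.exp 1 ≤ Real.exp 1 * Real.exp 1 := by nlinarith
    have h4 := Real.exp_pos (-(ss τ * A / 4))
    nlinarith
  have hbd : ∀ᵐ τ ∂m, ‖F τ‖ ≤ 5 * Real.exp 1 * Real.exp (-(ss τ * A / 8)) := by
    filter_upwards [hm.supp] with τ hτ
    exact hFn τ hτ
  have hFi : Integrable F m :=
    Integrable.mono' (hi.const_mul _) hFcont.aestronglyMeasurable hbd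
  have hnorm : ‖∫ τ, F τ ∂m‖ ≤ 5 * Real.exp 1 * ∫ τ, Real.exp (-(ss τ * A / 8)) ∂m := by
    rw [← integral_const_mul]
    exact norm_integral_le_of_norm_le (hi.const_mul _) hbd
  have hcomp : ∀ j, (∫ τ, F τ ∂m) j =
      ((rt : ℝ) : ℂ) ^ (j : ℕ) * (star (uu Q g j) ⬝ᵥ wv t Q g k) := by
    intro j
    have h1 := (EuclideanSpace.proj (𝕜 := ℂ) j).integral_comp_comm hFi
    rw [overlap_eq hm, ← integral_const_mul]
    exact h1.symm
  have hvv : ∀ j, star (uu Q g j) ⬝ᵥ vv t Q g k =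
      ((nz t Q g : ℝ) : ℂ) * (star (uu Q g j) ⬝ᵥ wv t Q g k) := by
    intro j
    have : vv t Q g k = ((nz t Q g : ℝ) : ℂ) • wv t Q g k := rfl
    rw [this, dotProduct_smul, smul_eq_mul]
  have hsum : ∑ j : Fin (Q + 1), (3 / 2 : ℝ) ^ (j : ℕ) * ‖star (uu Q g j) ⬝ᵥ vv t Q g k‖ ^ 2 =
      (nz t Q g * ‖∫ τ, F τ ∂m‖) ^ 2 := by
    rw [mul_pow, EuclideanSpace.norm_sq_eq, mul_sum]
    refine sum_congr rfl fun j _ => ?_
    rw [hcomp, hvv, norm_mul, norm_mul, norm_pow, Complex.norm_real, Complex.norm_real,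
      Real.norm_of_nonneg (nz_pos t Q g).le, Real.norm_of_nonneg rt_nonneg, ← rt_sq]
    ring
  rw [hsum, CT]
  apply pow_le_pow_left₀ (mul_nonneg (nz_pos t Q g).le (norm_nonneg _))
  calc nz t Q g * ‖∫ τ, F τ ∂m‖
      ≤ nz t Q g * (5 * Real.exp 1 * ∫ τ, Real.exp (-(ss τ * A / 8)) ∂m) :=
        mul_le_mul_of_nonneg_left hnorm (nz_pos t Q g).le
    _ = 5 * Real.exp 1 * (nz t Q g * ∫ τ, Real.exp (-(ss τ * A / 8)) ∂m) := by ring
    _ ≤ 5 * Real.exp 1 * (8 * KG) :=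
        mul_le_mul_of_nonneg_left hd (by positivity)
    _ = _ := by ring

end Crest.Agent.R340.Geo927
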