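import Crest.Agent.R340.GeoA_986

/-!
R340, block L2 = GEOMETRY (helper986), part 4: far step and near step of the gap transfer.

* `far_step`  : `ν' = ν / g`, coefficients of the pair operators within `T p` (ℓ¹ norm) of a multiple
  of those of `ν`, `∑ T p² ≤ ε²`: `GapG ν γ → GapG ν' (((√γ-ε)/(1+ε))²)`.
* `near_step` : `ν' = ν · ρ`, `m ≤ ρ ≤ 1`, `ρ j = 1` except for `j > Q - B`:
  `GapG ν γ → GapG ν' (m^(2B+4) γ)`.
-/

set_option autoImplicit false
open scoped InnerProductSpace ComplexConjugate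

namespace Crest.Agent.R340.Geo986

open Fock649 Finset

theorem norm_c_mul_c_le {ι : Type*} [Fintype ι] [LinearOrder ι] (i j : ι) :
    ‖(c j * c i : Op ι)‖ ≤ 1 := by
  refine (norm_mul_le _ _).trans ?_
  rw [norm_c, norm_c, mul_one]

/-- `ℓ¹` bound for a quadratic annihilation operator -/
theorem norm_sum_smul_cc_le {ι : Type*} [Fintype ι] [LinearOrder ι] (s : Finset (ι × ι))
    (r : ι × ι → ℝ) :
    ‖∑ x ∈ s, ((r x : ℝ) : ℂ) • (c x.2 * c x.1 : Op ι)‖ ≤ ∑ x ∈ s, |r x| := by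
  refine (norm_sum_le _ _).trans (sum_le_sum fun x _ => ?_)
  rw [norm_smul, Complex.norm_real, Real.norm_eq_abs]
  exact mul_le_of_le_one_right (abs_nonneg _) (norm_c_mul_c_le _ _)

/-- a family of multiples of the `bz` -/
theorem ker_fam_smul {ν : ℕ → ℝ} {Q : ℕ} (a : ℕ → ℝ) (ha : ∀ p, (pairs Q p).Nonempty → a p ≠ 0) :
    LinearMap.ker (fam (Q := Q) fun p => ((a p : ℝ) : ℂ) • bz ν Q p) = Zs ν Q := by
  ext ψ
  rw [LinearMap.mem_ker, fam_eq_zero_iff, mem_Zs]
  constructor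
  · intro h p
    rcases (pairs Q p).eq_empty_or_nonempty with hp | hp
    · rw [bz_eq_zero_of_empty hp]; rfl
    · have hp2 : p < 2 * Q := by
        by_contra hc
        rw [pairs_eq_empty_of_ge (by omega)] at hp
        exact not_nonempty_empty hp
      have h1 : ((a p : ℝ) : ℂ) • bz ν Q p ψ = 0 := h p (mem_range.mpr hp2)
      rcases smul_eq_zero.mp h1 with h2 | h2
      · exact absurd (by exact_mod_cast h2) (ha p hp)
      · exact h2
  · intro h p _
    show ((a p : ℝ) : ℂ) • bz ν Q p ψ = 0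
    rw [h p, smul_zero]

/-- FAR STEP of the gap transfer. -/
theorem far_step {ν g : ℕ → ℝ} {Q : ℕ} (hν : PosM ν Q) (hg : PosM g Q) (s T : ℕ → ℝ)
    (hs : ∀ p, 0 < s p) {ε γ : ℝ} (hε : 0 ≤ ε) (hγ : ε < √γ)
    (hT : ∀ p, (pairs Q p).Nonempty →
      ∑ x ∈ pairs Q p, bcoef ν x.1 x.2 / √(nz ν Q p) * |g x.1 * g x.2 / s p - 1| ≤ T p)
    (hT0 : ∀ p, 0 ≤ T p)
    (hTs : ∑ p ∈ range (2 * Q), T p ^ 2 ≤ ε ^ 2) (h : GapG ν Q γ) :
    GapG (ν * g⁻¹) Q (((√γ - ε) / (1 + ε)) ^ 2) := by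
  classical
  set ν' := ν * g⁻¹ with hν'
  have hν'p : PosM ν' Q := hν.mul hg.inv
  have hcoef : ∀ p, ∀ x ∈ pairs Q p, bcoef ν' x.1 x.2 = bcoef ν x.1 x.2 * (g x.1 * g x.2) := by
    intro p x _
    have h1 := (hg x.1 (by omega)).ne'
    have h2 := (hg x.2 (by omega)).ne'
    have h3 := (hν x.1 (by omega)).ne'
    have h4 := (hν x.2 (by omega)).ne'
    simp only [bcoef, hν', Pi.mul_apply, Pi.inv_apply]
    field_simp
  have hnzp : ∀ p, (pairs Q p).Nonempty → 0 < √(nz ν Q p) := fun p hp =>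
    Real.sqrt_pos.mpr (nz_pos hν hp)
  -- the intermediate family
  set a : ℕ → ℝ := fun p => (s p * √(nz ν Q p))⁻¹ with ha
  set B2 : ℕ → Op (Fin (Q + 1)) := fun p => ((a p : ℝ) : ℂ) • bz ν' Q p with hB2
  have hle1 : ∀ p ∈ range (2 * Q), T p ≤ ε := by
    intro p hp
    have : T p ^ 2 ≤ ε ^ 2 :=
      (single_le_sum (f := fun p => T p ^ 2) (fun i _ => sq_nonneg _) hp).trans hTs
    exact le_of_sq_le_sq this hε
  -- closeness
  have hcl : ∀ p, ‖B2 p - Bg ν Q p‖ ≤ T p := by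
    intro p
    rcases (pairs Q p).eq_empty_or_nonempty with hp | hp
    · have : B2 p - Bg ν Q p = 0 := by
        simp only [hB2, Bg, bz_eq_zero_of_empty hp, smul_zero, sub_zero]
      rw [this, norm_zero]; exact hT0 p
    · refine le_trans ?_ (hT p hp)
      have hN := hnzp p hp
      have e : B2 p - Bg ν Q p = ∑ x ∈ pairs Q p,
          ((bcoef ν x.1 x.2 / √(nz ν Q p) * (g x.1 * g x.2 / s p - 1) : ℝ) : ℂ) •
            (c x.2 * c x.1 : Op (Fin (Q + 1))) := by
        simp only [hB2, Bg, bz, smul_sum, smul_smul]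
        rw [← sum_sub_distrib]
        refine sum_congr rfl fun x hx => ?_
        rw [← sub_smul]
        congr 1
        rw [hcoef p x hx, ← Complex.ofReal_mul, ← Complex.ofReal_mul, ← Complex.ofReal_sub]
        congr 1
        have := (hs p).ne'
        simp only [ha]
        field_simp
      rw [e]
      refine (norm_sum_smul_cc_le _ _).trans (sum_le_sum fun x hx => ?_)
      rw [abs_mul, abs_of_nonneg (div_nonneg (bcoef_pos hν hx).le hN.le)]
  have hclose : ∀ ψ, ‖fam B2 ψ - fam (Bg ν Q) ψ‖ ≤ ε * ‖ψ‖ := by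
    intro ψ
    have e : fam B2 ψ - fam (Bg ν Q) ψ = fam (fun p => B2 p - Bg ν Q p) ψ := by
      ext p : 1
      rfl
    rw [e]
    have h1 : ‖fam (fun p => B2 p - Bg ν Q p) ψ‖ ^ 2 ≤ (ε * ‖ψ‖) ^ 2 := by
      rw [norm_fam_sq]
      calc ∑ p ∈ range (2 * Q), ‖(B2 p - Bg ν Q p) ψ‖ ^ 2
          ≤ ∑ p ∈ range (2 * Q), T p ^ 2 * ‖ψ‖ ^ 2 := by
            refine sum_le_sum fun p _ => ?_
            rw [← mul_pow]
            refine pow_le_pow_left₀ (norm_nonneg _) ?_ 2
            exact (Op.norm_ap_le _ _).trans (mul_le_mul_of_nonneg_right (hcl p) (norm_nonneg _))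
        _ = (∑ p ∈ range (2 * Q), T p ^ 2) * ‖ψ‖ ^ 2 := (sum_mul _ _ _).symm
        _ ≤ ε ^ 2 * ‖ψ‖ ^ 2 := by gcongr
        _ = _ := (mul_pow _ _ _).symm
    exact le_of_sq_le_sq h1 (by positivity)
  have hkerB2 : LinearMap.ker (fam B2) = Zs ν' Q :=
    ker_fam_smul a fun p hp => inv_ne_zero (mul_pos (hs p) (hnzp p hp)).ne'
  have hgap1 : GapK (fam B2) (√γ - ε) := by
    refine GapK.transfer (gapK_of_gapG hν h) hγ hclose ?_
    rw [hkerB2, ker_fam hν, hν', finrank_Zs hg.inv]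
  -- renormalisation
  have hgap2 : GapK (fam (Bg ν' Q)) ((√γ - ε) / (1 + ε)) := by
    intro ψ hψ
    have hψ' : ∀ z, fam B2 z = 0 → ⟪z, ψ⟫_ℂ = 0 := fun z hz => hψ z (by
      have : z ∈ LinearMap.ker (fam B2) := LinearMap.mem_ker.mpr hz
      rw [hkerB2, ← ker_fam hν'p] at this
      exact LinearMap.mem_ker.mp this)
    have h1 := hgap1 ψ hψ'
    have h2 : ‖fam B2 ψ‖ ≤ (1 + ε) * ‖fam (Bg ν' Q) ψ‖ := by
      refine le_of_sq_le_sq ?_ (by positivity)
      rw [mul_pow, norm_fam_sq, norm_fam_sq, mul_sum]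
      refine sum_le_sum fun p hp => ?_
      rcases (pairs Q p).eq_empty_or_nonempty with hpe | hpe
      · have : B2 p ψ = 0 := by
          simp only [hB2, bz_eq_zero_of_empty hpe, smul_zero]; rfl
        rw [this, norm_zero, zero_pow two_ne_zero]
        positivity
      · rw [← mul_pow]
        refine pow_le_pow_left₀ (norm_nonneg _) ?_ 2
        have hN := hnzp p hpe
        -- `√nz ν' ≤ (1 + T) s √nz ν`
        have hnz : √(nz ν' Q p) ≤ (1 + ε) * (s p * √(nz ν Q p)) := by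
          refine Real.sqrt_le_iff.mpr ⟨by have := hs p; positivity, ?_⟩
          have hmono : ∀ x ∈ pairs Q p, bcoef ν' x.1 x.2 ^ 2 ≤
              s p ^ 2 * (bcoef ν x.1 x.2 ^ 2 +
                2 * (bcoef ν x.1 x.2 ^ 2 * |g x.1 * g x.2 / s p - 1|) +
                bcoef ν x.1 x.2 ^ 2 * |g x.1 * g x.2 / s p - 1| ^ 2) := by
            intro x hx
            rw [hcoef p x hx]
            set y := g x.1 * g x.2 / s p - 1 with hy
            have hgy : g x.1 * g x.2 = s p * (1 + y) := by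
              have := (hs p).ne'
              rw [hy]; field_simp; ring
            rw [hgy]
            have hb := bcoef_pos hν hx
            have h3 : (1 + y) ^ 2 ≤ 1 + 2 * |y| + |y| ^ 2 := by
              rw [sq_abs]; nlinarith [le_abs_self y]
            calc (bcoef ν x.1 x.2 * (s p * (1 + y))) ^ 2
                = s p ^ 2 * bcoef ν x.1 x.2 ^ 2 * (1 + y) ^ 2 := by ring
              _ ≤ s p ^ 2 * bcoef ν x.1 x.2 ^ 2 * (1 + 2 * |y| + |y| ^ 2) := by gcongr
              _ = _ := by ring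
          have hS := sum_le_sum hmono
          -- Cauchy: bcoef ≤ √nz
          have hbN : ∀ x ∈ pairs Q p, bcoef ν x.1 x.2 ≤ √(nz ν Q p) := by
            intro x hx
            refine Real.le_sqrt_of_sq_le ?_
            exact single_le_sum (f := fun x : Fin (Q+1) × Fin (Q+1) => bcoef ν x.1 x.2 ^ 2)
              (fun _ _ => sq_nonneg _) hx
          have hTp := hT p hpe
          have hTe := hle1 p hp
          set N := √(nz ν Q p) with hNdef
          have hNsq : N ^ 2 = nz ν Q p := Real.sq_sqrt (nz_nonneg _ _ _)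
          -- linear sum
          have hlin : ∑ x ∈ pairs Q p, bcoef ν x.1 x.2 * |g x.1 * g x.2 / s p - 1| ≤ ε * N := by
            have : ∑ x ∈ pairs Q p, bcoef ν x.1 x.2 * |g x.1 * g x.2 / s p - 1| =
                N * ∑ x ∈ pairs Q p, bcoef ν x.1 x.2 / N * |g x.1 * g x.2 / s p - 1| := by
              rw [mul_sum]
              refine sum_congr rfl fun x _ => ?_
              field_simp
            rw [this, mul_comm ε]
            exact mul_le_mul_of_nonneg_left (hTp.trans hTe) hN.le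
          have h1' : ∑ x ∈ pairs Q p, bcoef ν x.1 x.2 ^ 2 * |g x.1 * g x.2 / s p - 1| ≤
              ε * N ^ 2 := by
            calc ∑ x ∈ pairs Q p, bcoef ν x.1 x.2 ^ 2 * |g x.1 * g x.2 / s p - 1|
                ≤ ∑ x ∈ pairs Q p, N * (bcoef ν x.1 x.2 * |g x.1 * g x.2 / s p - 1|) := by
                  refine sum_le_sum fun x hx => ?_
                  have hb := (bcoef_pos hν hx).le
                  rw [sq, mul_assoc]
                  exact mul_le_mul_of_nonneg_right (hbN x hx) (mul_nonneg hb (abs_nonneg _))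
              _ = N * ∑ x ∈ pairs Q p, bcoef ν x.1 x.2 * |g x.1 * g x.2 / s p - 1| :=
                  (mul_sum _ _ _).symm
              _ ≤ N * (ε * N) := mul_le_mul_of_nonneg_left hlin hN.le
              _ = _ := by ring
          have h2' : ∑ x ∈ pairs Q p, bcoef ν x.1 x.2 ^ 2 * |g x.1 * g x.2 / s p - 1| ^ 2 ≤
              (ε * N) ^ 2 := by
            calc ∑ x ∈ pairs Q p, bcoef ν x.1 x.2 ^ 2 * |g x.1 * g x.2 / s p - 1| ^ 2
                = ∑ x ∈ pairs Q p, (bcoef ν x.1 x.2 * |g x.1 * g x.2 / s p - 1|) ^ 2 :=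
                  sum_congr rfl fun x _ => (mul_pow _ _ _).symm
              _ ≤ (∑ x ∈ pairs Q p, bcoef ν x.1 x.2 * |g x.1 * g x.2 / s p - 1|) ^ 2 :=
                  sum_sq_le_sq_sum_of_nonneg fun x hx => mul_nonneg (bcoef_pos hν hx).le (abs_nonneg _)
              _ ≤ _ := by
                  refine pow_le_pow_left₀ (sum_nonneg fun x hx =>
                    mul_nonneg (bcoef_pos hν hx).le (abs_nonneg _)) hlin 2
          have hsp := hs p
          calc nz ν' Q p = ∑ x ∈ pairs Q p, bcoef ν' x.1 x.2 ^ 2 := rfl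
            _ ≤ _ := hS
            _ = s p ^ 2 * (nz ν Q p +
                2 * ∑ x ∈ pairs Q p, bcoef ν x.1 x.2 ^ 2 * |g x.1 * g x.2 / s p - 1| +
                ∑ x ∈ pairs Q p, bcoef ν x.1 x.2 ^ 2 * |g x.1 * g x.2 / s p - 1| ^ 2) := by
                rw [← mul_sum, sum_add_distrib, sum_add_distrib, ← mul_sum]; rfl
            _ ≤ s p ^ 2 * (N ^ 2 + 2 * (ε * N ^ 2) + (ε * N) ^ 2) := by
                rw [← hNsq]
                gcongr
            _ = _ := by ring
        have hpos' : 0 < √(nz ν' Q p) := Real.sqrt_pos.mpr (nz_pos hν'p hpe)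
        have hB : B2 p ψ = ((a p * √(nz ν' Q p) : ℝ) : ℂ) • Bg ν' Q p ψ := by
          simp only [hB2]
          rw [bz_eq_smul_Bg hν'p p, smul_smul, ← Complex.ofReal_mul]
          rfl
        rw [hB, norm_smul, Complex.norm_real, Real.norm_eq_abs,
          abs_of_nonneg (mul_nonneg (inv_nonneg.mpr (mul_pos (hs p) hN).le) hpos'.le)]
        refine mul_le_mul_of_nonneg_right ?_ (norm_nonneg _)
        have hden : 0 < s p * √(nz ν Q p) := mul_pos (hs p) hN
        show (s p * √(nz ν Q p))⁻¹ * √(nz ν' Q p) ≤ 1 + ε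
        rw [inv_mul_le_iff₀ hden]
        linarith
    have h3 : (√γ - ε) * ‖ψ‖ ≤ (1 + ε) * ‖fam (Bg ν' Q) ψ‖ := h1.trans h2
    rw [div_mul_eq_mul_div, div_le_iff₀ (by positivity)]
    linarith
  exact gapG_of_gapK hν'p (div_nonneg (by linarith) (by positivity)) hgap2

/-! ### near step -/

theorem norm_diag_le {ι : Type*} [Fintype ι] [LinearOrder ι] {f : Finset ι → ℂ} {M : ℝ}
    (hM : 0 ≤ M) (hf : ∀ S, ‖f S‖ ≤ M) (v : Fk ι) : ‖diag f v‖ ≤ M * ‖v‖ := by
  refine le_of_sq_le_sq ?_ (by positivity)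
  rw [mul_pow, EuclideanSpace.norm_sq_eq, EuclideanSpace.norm_sq_eq, mul_sum]
  refine sum_le_sum fun S _ => ?_
  rw [diag_apply, norm_mul, mul_pow]
  exact mul_le_mul_of_nonneg_right (pow_le_pow_left₀ (norm_nonneg _) (hf S) 2) (sq_nonneg _)

theorem le_norm_diag {ι : Type*} [Fintype ι] [LinearOrder ι] {f : Finset ι → ℂ} {m : ℝ}
    (hm : 0 ≤ m) (hf : ∀ S, m ≤ ‖f S‖) (v : Fk ι) : m * ‖v‖ ≤ ‖diag f v‖ := by
  refine le_of_sq_le_sq ?_ (norm_nonneg _)
  rw [mul_pow, EuclideanSpace.norm_sq_eq, EuclideanSpace.norm_sq_eq, mul_sum]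
  refine sum_le_sum fun S _ => ?_
  rw [diag_apply, norm_mul, mul_pow]
  exact mul_le_mul_of_nonneg_right (pow_le_pow_left₀ hm (hf S) 2) (sq_nonneg _)

theorem norm_prod_res {Q : ℕ} {ρ : ℕ → ℝ} (hρ : PosM ρ Q) (S : Finset (Fin (Q + 1))) :
    ‖∏ i ∈ S, res Q ρ i‖ = ∏ i ∈ S, ρ i := by
  rw [norm_prod]
  refine prod_congr rfl fun i _ => ?_
  rw [res, Complex.norm_real, Real.norm_eq_abs, abs_of_pos (hρ i (by omega))]

theorem near_step {ν ρ : ℕ → ℝ} {Q B : ℕ} (hν : PosM ν Q) {m : ℝ} (hm : 0 < m) (hm1 : m ≤ 1)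
    (hlow : ∀ j ≤ Q, m ≤ ρ j) (hup : ∀ j ≤ Q, ρ j ≤ 1) (hone : ∀ j, j + B ≤ Q → ρ j = 1)
    {γ : ℝ} (hγ : 0 ≤ γ) (h : GapG ν Q γ) : GapG (ν * ρ) Q (m ^ (2 * (B + 2)) * γ) := by
  have hρ : PosM ρ Q := fun j hj => hm.trans_le (hlow j hj)
  have hνρ : PosM (ν * ρ) Q := hν.mul hρ
  -- the two bounds on `Gd ρ`
  have hprod_le : ∀ S : Finset (Fin (Q + 1)), ‖∏ i ∈ S, res Q ρ i‖ ≤ 1 := fun S => by
    rw [norm_prod_res hρ]
    exact prod_le_one (fun i _ => (hρ i (by omega)).le) fun i _ => hup i (by omega)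
  have hprod_ge : ∀ S : Finset (Fin (Q + 1)), m ^ B ≤ ‖∏ i ∈ S, res Q ρ i‖ := fun S => by
    rw [norm_prod_res hρ]
    set S' := S.filter fun i : Fin (Q + 1) => Q < (i : ℕ) + B with hS'
    have h1 : ∏ i ∈ S, ρ i = ∏ i ∈ S', ρ i := by
      refine (prod_subset (filter_subset _ _) fun i hi hi' => ?_).symm
      refine hone i ?_
      by_contra hc
      exact hi' (mem_filter.mpr ⟨hi, by omega⟩)
    have h2 : m ^ S'.card ≤ ∏ i ∈ S', ρ (i : ℕ) := by
      rw [← prod_const]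
      exact prod_le_prod (fun _ _ => hm.le) fun i _ => hlow i (by omega)
    have h3 : S'.card ≤ B := by
      have : S'.card ≤ (range B).card := by
        refine card_le_card_of_injOn (fun i : Fin (Q + 1) => Q - (i : ℕ)) (fun i hi => ?_)
          fun i _ j _ hij => ?_
        · have := (mem_filter.mp (mem_coe.mp hi)).2
          simp only [coe_range, Set.mem_Iio]
          have := i.isLt
          omega
        · have h1 := i.isLt
          have h2 := j.isLt
          simp only at hij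
          exact Fin.ext (by omega)
      simpa using this
    rw [h1]
    exact (pow_le_pow_of_le_one hm.le hm1 h3).trans h2
  -- normalisations
  have hcoef : ∀ p, ∀ x ∈ pairs Q p, bcoef (ν * ρ) x.1 x.2 ≤ (m ^ 2)⁻¹ * bcoef ν x.1 x.2 := by
    intro p x hx
    have h1 := hρ x.1 (by omega)
    have h2 := hρ x.2 (by omega)
    have h3 := hν x.1 (by omega)
    have h4 := hν x.2 (by omega)
    have hb := bcoef_pos hν hx
    have e : bcoef (ν * ρ) x.1 x.2 = (ρ x.1 * ρ x.2)⁻¹ * bcoef ν x.1 x.2 := by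
      simp only [bcoef, Pi.mul_apply]
      field_simp
    rw [e]
    refine mul_le_mul_of_nonneg_right ?_ hb.le
    have : m ^ 2 ≤ ρ x.1 * ρ x.2 := by
      rw [sq]
      exact mul_le_mul (hlow _ (by omega)) (hlow _ (by omega)) hm.le h1.le
    exact inv_anti₀ (by positivity) this
  have hnz : ∀ p, m ^ 2 * √(nz (ν * ρ) Q p) ≤ √(nz ν Q p) := by
    intro p
    refine Real.le_sqrt_of_sq_le ?_
    rw [mul_pow, Real.sq_sqrt (nz_nonneg _ _ _), nz, nz, mul_sum]
    refine sum_le_sum fun x hx => ?_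
    have hb := bcoef_pos hνρ hx
    have := hcoef p x hx
    rw [← mul_pow]
    refine pow_le_pow_left₀ (by positivity) ?_ 2
    rw [inv_mul_eq_div, le_div_iff₀ (by positivity)] at this
    linarith
  have hK := gapK_of_gapG hν h
  have hgap : GapK (fam (Bg (ν * ρ) Q)) (m ^ (B + 2) * √γ / (1 * 1)) := by
    refine hK.conj (κ := m ^ (B + 2)) (Real.sqrt_nonneg _) (by positivity) one_pos (GdE Q ρ hρ)
      (fun ψ => ?_) one_pos (fun ψ => ?_) (fun ψ hψ => ?_)
    · exact norm_diag_le zero_le_one hprod_le ψ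
    · rw [one_mul]
      refine le_of_sq_le_sq ?_ (norm_nonneg _)
      rw [mul_pow, norm_fam_sq, norm_fam_sq, mul_sum]
      refine sum_le_sum fun p _ => ?_
      rw [← mul_pow]
      refine pow_le_pow_left₀ (by positivity) ?_ 2
      set φ := (GdE Q ρ hρ).symm ψ with hφ
      have hψφ : ψ = Gd (res Q ρ) φ := by
        rw [← GdE_apply Q ρ hρ, hφ, LinearEquiv.apply_symm_apply]
      have e : bz (ν * ρ) Q p ψ = Gd (res Q ρ) (bz ν Q p φ) := by
        rw [hψφ]
        exact congrArg (fun A : Op (Fin (Q + 1)) => A φ) (bz_mul_Gd (ν := ν) hρ p)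
      have hge : m ^ B * ‖bz ν Q p φ‖ ≤ ‖bz (ν * ρ) Q p ψ‖ := by
        rw [e]; exact le_norm_diag (by positivity) hprod_ge _
      rcases (pairs Q p).eq_empty_or_nonempty with hp | hp
      · have : Bg ν Q p φ = 0 := by
          rw [Bg_apply, bz_eq_zero_of_empty hp]
          exact smul_zero _
        rw [this, norm_zero, mul_zero]
        exact norm_nonneg _
      · have h1 : 0 < √(nz ν Q p) := Real.sqrt_pos.mpr (nz_pos hν hp)
        have h2 : 0 < √(nz (ν * ρ) Q p) := Real.sqrt_pos.mpr (nz_pos hνρ hp)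
        rw [Bg_apply, Bg_apply, norm_smul, norm_smul, Complex.norm_real, Complex.norm_real,
          Real.norm_eq_abs, Real.norm_eq_abs, abs_of_pos (inv_pos.mpr h1),
          abs_of_pos (inv_pos.mpr h2)]
        have h3 : m ^ 2 * (√(nz ν Q p))⁻¹ ≤ (√(nz (ν * ρ) Q p))⁻¹ := by
          rw [← div_eq_mul_inv, div_le_iff₀ h1, inv_mul_eq_div, le_div_iff₀ h2]
          exact hnz p
        calc m ^ (B + 2) * ((√(nz ν Q p))⁻¹ * ‖bz ν Q p φ‖)
            = (m ^ 2 * (√(nz ν Q p))⁻¹) * (m ^ B * ‖bz ν Q p φ‖) := by ring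
          _ ≤ (√(nz (ν * ρ) Q p))⁻¹ * ‖bz (ν * ρ) Q p ψ‖ :=
              mul_le_mul h3 hge (by positivity) (by positivity)
    · have h1 : ψ ∈ Zs ν Q := by rw [← ker_fam hν]; exact LinearMap.mem_ker.mpr hψ
      have h2 : GdE Q ρ hρ ψ ∈ Zs (ν * ρ) Q := Gd_mem_Zs hρ h1
      rw [← ker_fam hνρ] at h2
      exact LinearMap.mem_ker.mp h2
  have := gapG_of_gapK hνρ (by positivity) hgap
  convert this using 1
  rw [mul_one, div_one, mul_pow, Real.sq_sqrt hγ]
  ring

end Crest.Agent.R340.Geo986
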