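import Mathlib

/-!
R340, block L2 (helper986), part 2: closed form of the pair normalisation
`∑_{i+j=p} (j-i)² C(Q,i) C(Q,j) = 2 Q C(2Q-2, p-1)` and the weight of the extreme pair.
-/

set_option autoImplicit false

namespace Crest.Agent.R340.Geo986

open Finset

theorem choose_mul_sub (Q i : ℕ) :
    (Q.choose i : ℝ) * ((Q : ℝ) - i) = (Q.choose (i + 1) : ℝ) * ((i : ℝ) + 1) := by
  rcases le_or_gt i Q with h | h
  · have := Nat.choose_succ_right_eq Q i
    have h2 : ((Q.choose (i + 1) * (i + 1) : ℕ) : ℝ) = ((Q.choose i * (Q - i) : ℕ) : ℝ) := by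
      rw [this]
    push_cast [Nat.cast_sub h] at h2
    linarith
  · rw [Nat.choose_eq_zero_of_lt h, Nat.choose_eq_zero_of_lt (by omega : Q < i + 1)]
    simp

theorem choose_mul_sub' (n i : ℕ) :
    ((n + 1).choose i : ℝ) * (((n : ℝ) + 1) - i) = ((n : ℝ) + 1) * (n.choose i : ℝ) := by
  rcases le_or_gt i (n + 1) with h | h
  · have := Nat.choose_mul_succ_eq n i
    have h2 : ((n.choose i * (n + 1) : ℕ) : ℝ) = (((n + 1).choose i * (n + 1 - i) : ℕ) : ℝ) := by
      rw [this]
    rw [Nat.cast_mul, Nat.cast_mul, Nat.cast_sub h] at h2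
    push_cast at h2
    linarith
  · rw [Nat.choose_eq_zero_of_lt h, Nat.choose_eq_zero_of_lt (by omega : n < i)]
    simp

theorem choose_mul_self' (n i : ℕ) :
    ((n + 1).choose (i + 1) : ℝ) * ((i : ℝ) + 1) = ((n : ℝ) + 1) * (n.choose i : ℝ) := by
  have := Nat.add_one_mul_choose_eq n i
  have h2 : (((n + 1) * n.choose i : ℕ) : ℝ) = (((n + 1).choose (i + 1) * (i + 1) : ℕ) : ℝ) := by
    exact_mod_cast this
  push_cast at h2
  linarith

/-- Summation by parts for the hypergeometric weights. -/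
theorem sum_parts (Q p : ℕ) (f : ℕ → ℝ) :
    ∑ i ∈ range (p + 1), (Q.choose i : ℝ) * Q.choose (p - i) *
        (((p : ℝ) - i) * ((Q : ℝ) - i)) * f (i + 1) =
      ∑ i ∈ range (p + 1), (Q.choose i : ℝ) * Q.choose (p - i) *
        ((i : ℝ) * ((Q : ℝ) - p + i)) * f i := by
  rw [sum_range_succ, sum_range_succ' (fun i => (Q.choose i : ℝ) * Q.choose (p - i) *
        ((i : ℝ) * ((Q : ℝ) - p + i)) * f i)]
  simp only [sub_self, zero_mul, mul_zero, add_zero, CharP.cast_eq_zero]
  refine sum_congr rfl fun i hi => ?_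
  have hi' : i < p := mem_range.mp hi
  obtain ⟨k, hk⟩ : ∃ k, p = i + k + 1 := ⟨p - i - 1, by omega⟩
  subst hk
  have e1 : i + k + 1 - i = k + 1 := by omega
  have e2 : i + k + 1 - (i + 1) = k := by omega
  rw [e1, e2]
  have h1 := choose_mul_sub Q i
  have h2 := choose_mul_sub Q k
  push_cast
  have : (Q.choose i : ℝ) * Q.choose (k + 1) * (((i : ℝ) + k + 1 - i) * ((Q : ℝ) - i)) =
      ((Q.choose i : ℝ) * ((Q : ℝ) - i)) * ((Q.choose (k + 1) : ℝ) * ((k : ℝ) + 1)) := by ring
  rw [this, h1, ← h2]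
  ring

/-- `∑_{i ≤ p} C(Q,i) C(Q,p-i) (p-2i)² = 2 Q C(2Q-2,p-1)`, written with `Q = n+1`, `p = b+1`. -/
theorem sum_sq (n b : ℕ) :
    ∑ i ∈ range (b + 2), ((n + 1).choose i : ℝ) * (n + 1).choose (b + 1 - i) *
        (((b : ℝ) + 1) - 2 * i) ^ 2 = 2 * ((n : ℝ) + 1) * ((2 * n).choose b : ℝ) := by
  set Q := n + 1 with hQ
  set p := b + 1 with hp
  have hpar := sum_parts Q p (fun i => ((p : ℝ) - 2 * i))
  have h1 : ∑ i ∈ range (p + 1), (Q.choose i : ℝ) * Q.choose (p - i) *
        (Q * ((p : ℝ) - 2 * i) ^ 2) =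
      2 * ∑ i ∈ range (p + 1), (Q.choose i : ℝ) * Q.choose (p - i) *
        (((p : ℝ) - i) * ((Q : ℝ) - i)) := by
    rw [mul_sum]
    have : ∀ i ∈ range (p + 1), (Q.choose i : ℝ) * Q.choose (p - i) *
        (Q * ((p : ℝ) - 2 * i) ^ 2) =
        (Q.choose i : ℝ) * Q.choose (p - i) *
          (((p : ℝ) - i) * ((Q : ℝ) - i)) * ((p : ℝ) - 2 * i) -
        (Q.choose i : ℝ) * Q.choose (p - i) *
          ((i : ℝ) * ((Q : ℝ) - p + i)) * ((p : ℝ) - 2 * i) := by
      intro i _
      ring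
    rw [sum_congr rfl this, sum_sub_distrib, ← hpar, ← sum_sub_distrib]
    refine sum_congr rfl fun i _ => ?_
    push_cast
    ring
  have h2 : ∑ i ∈ range (p + 1), (Q.choose i : ℝ) * Q.choose (p - i) *
        (((p : ℝ) - i) * ((Q : ℝ) - i)) = (Q : ℝ) ^ 2 * ((2 * n).choose b : ℝ) := by
    rw [sum_range_succ]
    simp only [sub_self, zero_mul, mul_zero, add_zero]
    have hv : ((2 * n).choose b : ℝ) = ∑ i ∈ range (b + 1), (n.choose i : ℝ) * n.choose (b - i) := by
      rw [two_mul, Nat.add_choose_eq, Finset.Nat.sum_antidiagonal_eq_sum_range_succ_mk]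
      push_cast
      rfl
    rw [hv, mul_sum]
    refine sum_congr rfl fun i hi => ?_
    have hi' : i < p := mem_range.mp hi
    obtain ⟨k, hk⟩ : ∃ k, b = i + k := ⟨b - i, by omega⟩
    have e1 : p - i = k + 1 := by omega
    have e2 : b - i = k := by omega
    rw [e1, e2]
    have g1 := choose_mul_sub' n i
    have g2 := choose_mul_self' n k
    have e3 : (p : ℝ) - i = (k : ℝ) + 1 := by
      rw [hp, hk]; push_cast; ring
    rw [e3]
    have : (Q.choose i : ℝ) * Q.choose (k + 1) * (((k : ℝ) + 1) * ((Q : ℝ) - i)) =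
        ((n + 1).choose i * (((n : ℝ) + 1) - i)) * ((n + 1).choose (k + 1) * ((k : ℝ) + 1)) := by
      rw [hQ]; push_cast; ring
    rw [this, g1, g2, hQ]
    push_cast
    ring
  have h3 : (Q : ℝ) * ∑ i ∈ range (p + 1), (Q.choose i : ℝ) * Q.choose (p - i) *
        ((p : ℝ) - 2 * i) ^ 2 = 2 * ((Q : ℝ) ^ 2 * ((2 * n).choose b : ℝ)) := by
    rw [← h2, ← h1, mul_sum]
    exact sum_congr rfl fun i _ => by ring
  have hQ0 : (Q : ℝ) ≠ 0 := by rw [hQ]; positivity
  have h4 : ∑ i ∈ range (p + 1), (Q.choose i : ℝ) * Q.choose (p - i) *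
        ((p : ℝ) - 2 * i) ^ 2 = 2 * (Q : ℝ) * ((2 * n).choose b : ℝ) := by
    apply mul_left_cancel₀ hQ0
    rw [h3]; ring
  have e : (p : ℝ) = (b : ℝ) + 1 := by rw [hp]; push_cast; ring
  have e' : (Q : ℝ) = (n : ℝ) + 1 := by rw [hQ]; push_cast; ring
  rw [e, e'] at h4
  exact h4

/-- The strict half of the symmetric sum. -/
theorem sum_sq_half (n b : ℕ) :
    ∑ i ∈ (range (b + 2)).filter (fun i => 2 * i < b + 1),
        ((n + 1).choose i : ℝ) * (n + 1).choose (b + 1 - i) *
        (((b : ℝ) + 1) - 2 * i) ^ 2 = ((n : ℝ) + 1) * ((2 * n).choose b : ℝ) := by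
  have h := sum_sq n b
  set F : ℕ → ℝ := fun i => ((n + 1).choose i : ℝ) * (n + 1).choose (b + 1 - i) *
        (((b : ℝ) + 1) - 2 * i) ^ 2 with hF
  have hsplit : ∑ i ∈ range (b + 2), F i =
      ∑ i ∈ (range (b + 2)).filter (fun i => 2 * i < b + 1), F i +
      ∑ i ∈ (range (b + 2)).filter (fun i => b + 1 < 2 * i), F i := by
    rw [← sum_filter_add_sum_filter_not (range (b + 2)) (fun i => 2 * i < b + 1)]
    congr 1
    rw [← sum_subset (s₁ := (range (b + 2)).filter (fun i => b + 1 < 2 * i))]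
    · intro i hi
      simp only [mem_filter, mem_range] at hi ⊢
      omega
    · intro i hi hi'
      simp only [mem_filter, mem_range] at hi hi'
      have : 2 * i = b + 1 := by omega
      have h2 : ((b : ℝ) + 1) - 2 * i = 0 := by
        have : (2 * i : ℝ) = (b : ℝ) + 1 := by exact_mod_cast this
        linarith
      simp only [hF, h2]; ring
  have hrefl : ∑ i ∈ (range (b + 2)).filter (fun i => b + 1 < 2 * i), F i =
      ∑ i ∈ (range (b + 2)).filter (fun i => 2 * i < b + 1), F i := by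
    refine sum_nbij' (fun i => b + 1 - i) (fun i => b + 1 - i) ?_ ?_ ?_ ?_ ?_
    · intro i hi; simp only [mem_filter, mem_range] at hi ⊢; omega
    · intro i hi; simp only [mem_filter, mem_range] at hi ⊢; omega
    · intro i hi; simp only [mem_filter, mem_range] at hi; omega
    · intro i hi; simp only [mem_filter, mem_range] at hi; omega
    · intro i hi
      simp only [mem_filter, mem_range] at hi
      have e1 : b + 1 - (b + 1 - i) = i := by omega
      have e2 : ((b + 1 - i : ℕ) : ℝ) = (b : ℝ) + 1 - i := by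
        rw [Nat.cast_sub (by omega)]; push_cast; ring
      simp only [hF, e1, e2]
      ring
  have : ∑ i ∈ range (b + 2), F i = 2 * ((n : ℝ) + 1) * ((2 * n).choose b : ℝ) := h
  rw [hsplit, hrefl] at this
  linarith

/-- `2^k C(n,k) ≤ C(2n,k)`. -/
theorem two_pow_mul_choose_le (n k : ℕ) : 2 ^ k * n.choose k ≤ (2 * n).choose k := by
  have h : 2 ^ k * n.descFactorial k ≤ (2 * n).descFactorial k := by
    induction k with
    | zero => simp
    | succ k ih =>
      rw [Nat.descFactorial_succ, Nat.descFactorial_succ, pow_succ]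
      calc 2 ^ k * 2 * ((n - k) * n.descFactorial k)
          = (2 * (n - k)) * (2 ^ k * n.descFactorial k) := by ring
        _ ≤ (2 * n - k) * (2 * n).descFactorial k := Nat.mul_le_mul (by omega) ih
  rw [Nat.descFactorial_eq_factorial_mul_choose, Nat.descFactorial_eq_factorial_mul_choose] at h
  have hpos : 0 < Nat.factorial k := Nat.factorial_pos k
  nlinarith [h, hpos]

end Crest.Agent.R340.Geo986
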