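import Crest.Agent.R340.Path_924

/-!
# R340: abstract peeling algebra (doc 1094, section 4)

`E` (all orbitals), `F` (orbital `s` removed), `c : E → F` the annihilator of `s`, `n = c† c`,
`Z ⊆ E` the zero modes, `D` the detector on `E`, `DA` the shifted detector on `F`.
If `c D ≈ DA c`, if `⟪(1-P) n ψ, D φ⟫` is small on `Z` and if `‖c ψ‖² ≥ κ ‖ψ‖²` for
`ψ ∈ Z`, `ψ ⟂ Z ∩ ker c`, then the lowest eigenvalue of `D` on `Z` is at least the minimum of the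
lowest eigenvalues of `D` on `Z ∩ ker c` and of `DA` on `c Z`, up to `2 (δ + η) / κ`.
-/

set_option autoImplicit false
set_option linter.unusedSectionVars false

namespace Crest.Agent.R340.Peel924

open Set Filter Topology
open Crest.Agent.R340.Path924
open scoped InnerProductSpace ComplexConjugate

variable {E F : Type*} [NormedAddCommGroup E] [InnerProductSpace ℂ E] [FiniteDimensional ℂ E]
  [NormedAddCommGroup F] [InnerProductSpace ℂ F] [FiniteDimensional ℂ F]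

/-- Lowest eigenvector of the compression of a self-adjoint `D` to a subspace `W ≠ ⊥`. -/
theorem exists_min_eigen (W : Submodule ℂ E) (hW : W ≠ ⊥) (D : E →L[ℂ] E)
    (hD : ∀ x y, ⟪D x, y⟫_ℂ = ⟪x, D y⟫_ℂ) :
    ∃ lam : ℝ, ∃ χ ∈ W, ‖χ‖ = 1 ∧ (∀ φ ∈ W, ⟪φ, D χ⟫_ℂ = lam * ⟪φ, χ⟫_ℂ) ∧
      ∀ φ ∈ W, lam * ‖φ‖ ^ 2 ≤ (⟪φ, D φ⟫_ℂ).re := by
  obtain ⟨w, hw, hw0⟩ := Submodule.exists_mem_ne_zero_of_ne_bot hW
  have : ProperSpace E := FiniteDimensional.proper ℂ E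
  set S : Set E := Metric.sphere (0 : E) 1 ∩ (W : Set E) with hS
  have hcompact : IsCompact S :=
    (isCompact_sphere _ _).inter_right (Submodule.closed_of_finiteDimensional W)
  have hne : S.Nonempty := by
    refine ⟨((‖w‖⁻¹ : ℝ) : ℂ) • w, ?_, W.smul_mem _ hw⟩
    simp only [mem_sphere_iff_norm, sub_zero]
    rw [norm_smul, Complex.norm_real, norm_inv, norm_norm,
      inv_mul_cancel₀ (norm_ne_zero_iff.mpr hw0)]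
  have hcont : Continuous (fun x : E => (⟪x, D x⟫_ℂ).re) :=
    Complex.continuous_re.comp (continuous_id.inner D.continuous)
  obtain ⟨χ, ⟨hχ1, hχW⟩, hmin⟩ := hcompact.exists_isMinOn hne hcont.continuousOn
  have hχn : ‖χ‖ = 1 := by simpa using hχ1
  set lam := (⟪χ, D χ⟫_ℂ).re with hlam
  have hlow : ∀ φ ∈ W, lam * ‖φ‖ ^ 2 ≤ (⟪φ, D φ⟫_ℂ).re := by
    intro φ hφ
    by_cases h0 : φ = 0
    · simp [h0]
    have hn : (0 : ℝ) < ‖φ‖ := norm_pos_iff.mpr h0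
    have h1 : ((‖φ‖⁻¹ : ℝ) : ℂ) • φ ∈ S := by
      refine ⟨?_, W.smul_mem _ hφ⟩
      simp only [mem_sphere_iff_norm, sub_zero]
      rw [norm_smul, Complex.norm_real, norm_inv, norm_norm, inv_mul_cancel₀ hn.ne']
    have h2 : lam ≤ (⟪((‖φ‖⁻¹ : ℝ) : ℂ) • φ, D (((‖φ‖⁻¹ : ℝ) : ℂ) • φ)⟫_ℂ).re := hmin h1
    rw [map_smul, inner_smul_left, inner_smul_right, Complex.conj_ofReal,
      Complex.re_ofReal_mul, Complex.re_ofReal_mul] at h2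
    have h3 : ‖φ‖⁻¹ * (‖φ‖⁻¹ * (⟪φ, D φ⟫_ℂ).re) * ‖φ‖ ^ 2 = (⟪φ, D φ⟫_ℂ).re := by
      field_simp
    nlinarith [mul_le_mul_of_nonneg_right h2 (sq_nonneg ‖φ‖)]
  refine ⟨lam, χ, hχW, hχn, ?_, hlow⟩
  intro φ hφ
  -- the shifted form is nonnegative on `W` and vanishes at `χ`
  set T : E →L[ℂ] E := D - ((lam : ℝ) : ℂ) • (1 : E →L[ℂ] E) with hT
  have hTa : ∀ x, T x = D x - ((lam : ℝ) : ℂ) • x := fun x => rfl
  have hTs : ∀ x y, ⟪T x, y⟫_ℂ = ⟪x, T y⟫_ℂ := by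
    intro x y
    rw [hTa, hTa, inner_sub_left, inner_sub_right, inner_smul_left, inner_smul_right,
      Complex.conj_ofReal, hD]
  have hTf : ∀ x, (⟪x, T x⟫_ℂ).re = (⟪x, D x⟫_ℂ).re - lam * ‖x‖ ^ 2 := by
    intro x
    rw [hTa, inner_sub_right, Complex.sub_re, re_inner_smul_self]
  have hc := form_critical (V := W) (W.subtypeL) T hTs
    (fun G => by
      have := hlow G.1 G.2
      have h2 := hTf G.1
      simp only [Submodule.subtypeL_apply]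
      rw [h2]; linarith)
    ⟨χ, hχW⟩
    (by
      simp only [Submodule.subtypeL_apply]
      rw [hTf, hχn]; simp [hlam])
    ⟨φ, hφ⟩
  simp only [Submodule.subtypeL_apply] at hc
  rw [hTa, inner_sub_right, inner_smul_right] at hc
  exact sub_eq_zero.mp hc

/-- A form bounded below by `κ` on `W` is invertible on `W` with inverse bounded by `1/κ`. -/
theorem exists_preimage (W : Submodule ℂ E) (n : E →L[ℂ] E) (κ : ℝ) (hκ : 0 < κ)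
    (hn : ∀ χ ∈ W, κ * ‖χ‖ ^ 2 ≤ (⟪χ, n χ⟫_ℂ).re) (ψ : E) (hψ : ψ ∈ W) :
    ∃ χ ∈ W, W.starProjection (n χ) = ψ ∧ κ * ‖χ‖ ≤ ‖ψ‖ := by
  set T : W →ₗ[ℂ] W :=
    (W.orthogonalProjectionOnto.toLinearMap ∘ₗ n.toLinearMap) ∘ₗ W.subtype with hT
  have hTa : ∀ x : W, ((T x : W) : E) = W.starProjection (n x) := fun x => rfl
  have hbound : ∀ x : W, κ * ‖(x : E)‖ ≤ ‖((T x : W) : E)‖ := by
    intro x
    by_cases h0 : (x : E) = 0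
    · rw [h0]; simp
    have hpos : 0 < ‖(x : E)‖ := norm_pos_iff.mpr h0
    have h1 := hn x.1 x.2
    have h2 : ⟪(x : E), n x⟫_ℂ = ⟪(x : E), W.starProjection (n x)⟫_ℂ := by
      have h3 : ⟪(x : E), n x - W.starProjection (n x)⟫_ℂ = 0 :=
        Submodule.inner_right_of_mem_orthogonal x.2
          (Submodule.sub_starProjection_mem_orthogonal _)
      rw [inner_sub_right] at h3
      exact sub_eq_zero.mp h3
    rw [h2, ← hTa] at h1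
    have h3 : (⟪(x : E), ((T x : W) : E)⟫_ℂ).re ≤ ‖(x : E)‖ * ‖((T x : W) : E)‖ :=
      (Complex.re_le_norm _).trans (norm_inner_le_norm _ _)
    have h4 : κ * ‖(x : E)‖ * ‖(x : E)‖ ≤ ‖((T x : W) : E)‖ * ‖(x : E)‖ := by
      calc κ * ‖(x : E)‖ * ‖(x : E)‖ = κ * ‖(x : E)‖ ^ 2 := by ring
        _ ≤ _ := h1
        _ ≤ _ := h3
        _ = _ := by ring
    exact le_of_mul_le_mul_right h4 hpos
  have hinj : Function.Injective T := by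
    rw [← LinearMap.ker_eq_bot, LinearMap.ker_eq_bot']
    intro x hx
    have h1 := hbound x
    rw [hx] at h1
    simp only [Submodule.coe_zero, norm_zero] at h1
    have h2 : ‖(x : E)‖ ≤ 0 := by
      by_contra h; push Not at h
      nlinarith
    exact Subtype.ext (norm_le_zero_iff.mp h2)
  obtain ⟨χ, hχ⟩ := (LinearMap.injective_iff_surjective.mp hinj) ⟨ψ, hψ⟩
  refine ⟨χ, χ.2, ?_, ?_⟩
  · rw [← hTa, hχ]
  · have := hbound χ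
    rw [hχ] at this
    exact this

/-- **Peeling lemma.** -/
theorem peel (Z : Submodule ℂ E) (c : E →L[ℂ] F) (D : E →L[ℂ] E) (DA : F →L[ℂ] F)
    (hD : ∀ x y, ⟪D x, y⟫_ℂ = ⟪x, D y⟫_ℂ)
    (κ δ η lamA lamB : ℝ) (hκ : 0 < κ) (hδ : 0 ≤ δ) (hη : 0 ≤ η)
    (hc1 : ∀ x, ‖c x‖ ≤ ‖x‖)
    (hG0 : ∀ ψ ∈ Z, (∀ φ ∈ Z, c φ = 0 → ⟪φ, ψ⟫_ℂ = 0) → κ * ‖ψ‖ ^ 2 ≤ ‖c ψ‖ ^ 2)
    (hcomm : ∀ ψ ∈ Z, ‖c (D ψ) - DA (c ψ)‖ ≤ η * ‖ψ‖)
    (hcross : ∀ ψ ∈ Z, ∀ φ ∈ Z,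
      ‖⟪c.adjoint (c ψ) - Z.starProjection (c.adjoint (c ψ)), D φ⟫_ℂ‖ ≤ δ * ‖ψ‖ * ‖φ‖)
    (hB : ∀ ψ ∈ Z, c ψ = 0 → lamB * ‖ψ‖ ^ 2 ≤ (⟪ψ, D ψ⟫_ℂ).re)
    (hA : ∀ ψ ∈ Z, lamA * ‖c ψ‖ ^ 2 ≤ (⟪c ψ, DA (c ψ)⟫_ℂ).re) :
    ∀ ψ ∈ Z, (min lamA lamB - 2 * ((δ + η) / κ)) * ‖ψ‖ ^ 2 ≤ (⟪ψ, D ψ⟫_ℂ).re := by
  set n : E →L[ℂ] E := c.adjoint.comp c with hn
  have hna : ∀ x, n x = c.adjoint (c x) := fun x => rfl
  have hnin : ∀ x y, ⟪x, n y⟫_ℂ = ⟪c x, c y⟫_ℂ := by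
    intro x y; rw [hna, ContinuousLinearMap.adjoint_inner_right]
  have hnin' : ∀ x y, ⟪n x, y⟫_ℂ = ⟪c x, c y⟫_ℂ := by
    intro x y; rw [hna, ContinuousLinearMap.adjoint_inner_left]
  -- the two blocks
  set Z1 : Submodule ℂ E := Z ⊓ LinearMap.ker c.toLinearMap with hZ1
  set Z2 : Submodule ℂ E := Z ⊓ Z1ᗮ with hZ2
  have hZ1m : ∀ x, x ∈ Z1 ↔ x ∈ Z ∧ c x = 0 := by
    intro x; simp [hZ1, Submodule.mem_inf, LinearMap.mem_ker]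
  have hZ2m : ∀ x, x ∈ Z2 ↔ x ∈ Z ∧ ∀ φ ∈ Z, c φ = 0 → ⟪φ, x⟫_ℂ = 0 := by
    intro x
    rw [hZ2, Submodule.mem_inf, Submodule.mem_orthogonal]
    constructor
    · rintro ⟨h1, h2⟩
      exact ⟨h1, fun φ hφ hc => h2 φ ((hZ1m φ).mpr ⟨hφ, hc⟩)⟩
    · rintro ⟨h1, h2⟩
      exact ⟨h1, fun φ hφ => h2 φ ((hZ1m φ).mp hφ).1 ((hZ1m φ).mp hφ).2⟩
  -- `P_Z n χ ∈ Z2` for `χ ∈ E`
  have hPn : ∀ χ, Z.starProjection (n χ) ∈ Z2 := by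
    intro χ
    rw [hZ2m]
    refine ⟨Submodule.starProjection_apply_mem _ _, ?_⟩
    intro φ hφ hcφ
    have h1 : ⟪φ, n χ - Z.starProjection (n χ)⟫_ℂ = 0 :=
      Submodule.inner_right_of_mem_orthogonal hφ (Submodule.sub_starProjection_mem_orthogonal _)
    rw [inner_sub_right, hnin, hcφ, inner_zero_left, zero_sub, neg_eq_zero] at h1
    exact h1
  have hP2 : ∀ χ, Z2.starProjection (n χ) = Z.starProjection (n χ) := by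
    intro χ
    apply Submodule.eq_starProjection_of_mem_of_inner_eq_zero (hPn χ)
    intro w hw
    have h1 : ⟪n χ - Z.starProjection (n χ), w⟫_ℂ = 0 :=
      Submodule.inner_left_of_mem_orthogonal ((hZ2m w).mp hw).1
        (Submodule.sub_starProjection_mem_orthogonal _)
    exact h1
  have hlow2 : ∀ χ ∈ Z2, κ * ‖χ‖ ^ 2 ≤ (⟪χ, n χ⟫_ℂ).re := by
    intro χ hχ
    have h1 := hG0 χ ((hZ2m χ).mp hχ).1 ((hZ2m χ).mp hχ).2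
    rw [hnin, inner_self_eq_norm_sq_to_K]
    have : (((‖c χ‖ : ℝ) : ℂ) ^ 2).re = ‖c χ‖ ^ 2 := by norm_cast
    calc κ * ‖χ‖ ^ 2 ≤ ‖c χ‖ ^ 2 := h1
      _ = _ := this.symm
  set e := (δ + η) / κ with he
  have he0 : 0 ≤ e := div_nonneg (add_nonneg hδ hη) hκ.le
  -- A-block
  have hAblock : ∀ ψ ∈ Z2, (lamA - e) * ‖ψ‖ ^ 2 ≤ (⟪ψ, D ψ⟫_ℂ).re := by
    by_cases hbot : Z2 = ⊥
    · intro ψ hψ
      rw [hbot, Submodule.mem_bot] at hψ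
      simp [hψ]
    obtain ⟨lam, χ, hχ, hχ1, heig, hlow⟩ := exists_min_eigen Z2 hbot D hD
    have hχZ : χ ∈ Z := ((hZ2m χ).mp hχ).1
    have hcχ : κ ≤ ‖c χ‖ ^ 2 := by
      have := hG0 χ hχZ ((hZ2m χ).mp hχ).2
      rw [hχ1] at this; simpa using this
    have hcχ1 : ‖c χ‖ ≤ 1 := by simpa [hχ1] using hc1 χ
    have h1 := heig _ (hPn χ)
    have h2 : ⟪Z.starProjection (n χ), χ⟫_ℂ = ((‖c χ‖ ^ 2 : ℝ) : ℂ) := by
      have h3 : ⟪n χ - Z.starProjection (n χ), χ⟫_ℂ = 0 :=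
        Submodule.inner_left_of_mem_orthogonal hχZ
          (Submodule.sub_starProjection_mem_orthogonal _)
      rw [inner_sub_left, hnin', inner_self_eq_norm_sq_to_K] at h3
      rw [← sub_eq_zero.mp h3]
      push_cast; rfl
    have h3 : ⟪Z.starProjection (n χ), D χ⟫_ℂ = ⟪c χ, DA (c χ)⟫_ℂ
        + ⟪c χ, c (D χ) - DA (c χ)⟫_ℂ - ⟪n χ - Z.starProjection (n χ), D χ⟫_ℂ := by
      rw [inner_sub_left, hnin', inner_sub_right]; ring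
    have h4 : (⟪c χ, c (D χ) - DA (c χ)⟫_ℂ).re ≥ -η := by
      have h5 : ‖⟪c χ, c (D χ) - DA (c χ)⟫_ℂ‖ ≤ η := by
        calc ‖⟪c χ, c (D χ) - DA (c χ)⟫_ℂ‖ ≤ ‖c χ‖ * ‖c (D χ) - DA (c χ)‖ :=
              norm_inner_le_norm _ _
          _ ≤ 1 * (η * ‖χ‖) := mul_le_mul hcχ1 (hcomm χ hχZ) (norm_nonneg _) zero_le_one
          _ = η := by rw [hχ1]; ring
      have := Complex.abs_re_le_norm (⟪c χ, c (D χ) - DA (c χ)⟫_ℂ)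
      have := abs_le.mp (this.trans h5)
      linarith [this.1]
    have h5 : (⟪n χ - Z.starProjection (n χ), D χ⟫_ℂ).re ≤ δ := by
      have h6 := hcross χ hχZ χ hχZ
      rw [hχ1, mul_one, mul_one] at h6
      exact (Complex.re_le_norm _).trans h6
    have h6 := hA χ hχZ
    have h7 : (⟪Z.starProjection (n χ), D χ⟫_ℂ).re = lam * ‖c χ‖ ^ 2 := by
      rw [h1, h2, Complex.re_ofReal_mul, Complex.ofReal_re]
    rw [h3, Complex.sub_re, Complex.add_re] at h7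
    have h8 : (lam - lamA) * ‖c χ‖ ^ 2 ≥ -(δ + η) := by nlinarith
    have h9 : lamA - e ≤ lam := by
      by_cases hle : lamA ≤ lam
      · linarith
      push Not at hle
      have h10 : (lam - lamA) * κ ≥ -(δ + η) := by
        nlinarith
      have h11 : lam - lamA ≥ -e := by
        rw [he, ge_iff_le, ← neg_div, div_le_iff₀ hκ]
        exact h10
      linarith
    intro ψ hψ
    exact (mul_le_mul_of_nonneg_right h9 (sq_nonneg _)).trans (hlow ψ hψ)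
  -- off-diagonal
  have hoff : ∀ ψ1 ∈ Z1, ∀ ψ2 ∈ Z2, ‖⟪ψ1, D ψ2⟫_ℂ‖ ≤ e * ‖ψ1‖ * ‖ψ2‖ := by
    intro ψ1 h1 ψ2 h2
    obtain ⟨hZ, hc0⟩ := (hZ1m ψ1).mp h1
    obtain ⟨χ, hχ, hχe, hχn⟩ := exists_preimage Z2 n κ hκ hlow2 ψ2 h2
    rw [hP2] at hχe
    have hχZ : χ ∈ Z := ((hZ2m χ).mp hχ).1
    have e1 : ⟪ψ1, D ψ2⟫_ℂ = ⟪c (D ψ1), c χ⟫_ℂ
        - ⟪D ψ1, n χ - Z.starProjection (n χ)⟫_ℂ := by
      rw [inner_sub_right, hnin, hχe, ← hD]; ring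
    have e2 : ‖⟪c (D ψ1), c χ⟫_ℂ‖ ≤ η * ‖ψ1‖ * ‖χ‖ := by
      have h3 := hcomm ψ1 hZ
      rw [hc0, map_zero, sub_zero] at h3
      calc ‖⟪c (D ψ1), c χ⟫_ℂ‖ ≤ ‖c (D ψ1)‖ * ‖c χ‖ := norm_inner_le_norm _ _
        _ ≤ (η * ‖ψ1‖) * ‖χ‖ := mul_le_mul h3 (hc1 χ) (norm_nonneg _) (by positivity)
    have e3 : ‖⟪D ψ1, n χ - Z.starProjection (n χ)⟫_ℂ‖ ≤ δ * ‖ψ1‖ * ‖χ‖ := by
      rw [← inner_conj_symm, RCLike.norm_conj]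
      have h3 := hcross χ hχZ ψ1 hZ
      calc _ ≤ δ * ‖χ‖ * ‖ψ1‖ := h3
        _ = δ * ‖ψ1‖ * ‖χ‖ := by ring
    have e4 : ‖χ‖ ≤ ‖ψ2‖ / κ := by
      rw [le_div_iff₀ hκ]; linarith
    calc ‖⟪ψ1, D ψ2⟫_ℂ‖ ≤ ‖⟪c (D ψ1), c χ⟫_ℂ‖
          + ‖⟪D ψ1, n χ - Z.starProjection (n χ)⟫_ℂ‖ := by rw [e1]; exact norm_sub_le _ _
      _ ≤ η * ‖ψ1‖ * ‖χ‖ + δ * ‖ψ1‖ * ‖χ‖ := add_le_add e2 e3
      _ = (δ + η) * ‖ψ1‖ * ‖χ‖ := by ring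
      _ ≤ (δ + η) * ‖ψ1‖ * (‖ψ2‖ / κ) :=
          mul_le_mul_of_nonneg_left e4 (by positivity)
      _ = e * ‖ψ1‖ * ‖ψ2‖ := by rw [he]; ring
  -- conclusion
  intro ψ hψ
  set ψ1 := Z1.starProjection ψ with hψ1
  set ψ2 := ψ - ψ1 with hψ2
  have m1 : ψ1 ∈ Z1 := Submodule.starProjection_apply_mem _ _
  have m1Z : ψ1 ∈ Z := ((hZ1m ψ1).mp m1).1
  have m2 : ψ2 ∈ Z2 := by
    rw [hZ2, Submodule.mem_inf]
    exact ⟨Z.sub_mem hψ m1Z, Submodule.sub_starProjection_mem_orthogonal _⟩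
  have hsum : ψ = ψ1 + ψ2 := by rw [hψ2]; abel
  have hort : ⟪ψ1, ψ2⟫_ℂ = 0 := by
    have : ψ2 ∈ Z1ᗮ := (Submodule.mem_inf.mp (hZ2 ▸ m2)).2
    exact Submodule.inner_right_of_mem_orthogonal m1 this
  have hnorm : ‖ψ‖ ^ 2 = ‖ψ1‖ ^ 2 + ‖ψ2‖ ^ 2 := by
    rw [hsum]
    have := norm_add_sq_eq_norm_sq_add_norm_sq_of_inner_eq_zero ψ1 ψ2 hort
    nlinarith [this]
  have hexp : (⟪ψ, D ψ⟫_ℂ).re = (⟪ψ1, D ψ1⟫_ℂ).re + (⟪ψ2, D ψ2⟫_ℂ).re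
      + 2 * (⟪ψ1, D ψ2⟫_ℂ).re := by
    have h1 : ⟪ψ2, D ψ1⟫_ℂ = conj (⟪ψ1, D ψ2⟫_ℂ) := by
      rw [← hD, inner_conj_symm]
    rw [hsum, map_add, inner_add_left, inner_add_right, inner_add_right, h1]
    simp only [Complex.add_re, Complex.conj_re]
    ring
  have b1 := hB ψ1 m1Z ((hZ1m ψ1).mp m1).2
  have b2 := hAblock ψ2 m2
  have b3 : -(e * ‖ψ1‖ * ‖ψ2‖) ≤ (⟪ψ1, D ψ2⟫_ℂ).re := by
    have := (Complex.abs_re_le_norm (⟪ψ1, D ψ2⟫_ℂ)).trans (hoff ψ1 m1 ψ2 m2)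
    exact (abs_le.mp this).1
  have b4 : 2 * (e * ‖ψ1‖ * ‖ψ2‖) ≤ e * (‖ψ1‖ ^ 2 + ‖ψ2‖ ^ 2) := by
    nlinarith [mul_nonneg he0 (sq_nonneg (‖ψ1‖ - ‖ψ2‖))]
  have b5 : min lamA lamB * ‖ψ1‖ ^ 2 ≤ lamB * ‖ψ1‖ ^ 2 :=
    mul_le_mul_of_nonneg_right (min_le_right _ _) (sq_nonneg _)
  have b6 : min lamA lamB * ‖ψ2‖ ^ 2 ≤ lamA * ‖ψ2‖ ^ 2 :=
    mul_le_mul_of_nonneg_right (min_le_left _ _) (sq_nonneg _)
  rw [hexp, hnorm]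
  nlinarith [sq_nonneg ‖ψ1‖, sq_nonneg ‖ψ2‖, mul_nonneg he0 (sq_nonneg ‖ψ1‖)]

end Crest.Agent.R340.Peel924
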