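import Crest.Agent.R340.Emb_596
import Crest.Agent.R340.GeoA_986
import Crest.Agent.R340.Peel_924

/-!
# Peeling on the Fock model (helper596, R340 block L3b; doc 1094, section 4)

`Zn ν Q n` : zero modes of the metric `ν`, flux `Q`, in the sector of `n` particles.
* `emb_mem_Zn_iff` : a state supported on the orbitals `≤ Q'` is a zero mode for `Q` iff for `Q'`.
* `Bblock` : zero modes with the last orbital empty are the zero modes of flux `Q - 1`.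
* `Ablock` : `c_Q` maps zero modes `(Q+3, n+1)` into zero modes `(Q, n)` of the same metric.
* `Dop` and `peel_step` : the peeling inequality for `D = s - a dΓ(f) - X`.
-/

set_option autoImplicit false
set_option linter.unusedSectionVars false
open scoped InnerProductSpace ComplexConjugate
open Crest.Agent.R340.Fock649 Crest.Agent.R340.Emb596 Crest.Agent.R340.Geo986

namespace Crest.Agent.R340.Peel596

open Finset

/-! ### the embedding of the orbitals `≤ Q'` into the orbitals `≤ Q` -/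

/-- the inclusion of the orbitals `0..Q'` into the orbitals `0..Q` -/
def ee {Q' Q : ℕ} (h : Q' ≤ Q) : Fin (Q' + 1) ↪o Fin (Q + 1) :=
  Fin.castLEOrderEmb (Nat.add_le_add_right h 1)

theorem ee_val {Q' Q : ℕ} (h : Q' ≤ Q) (i : Fin (Q' + 1)) : ((ee h i : Fin (Q + 1)) : ℕ) = i := rfl

theorem mem_range_ee {Q' Q : ℕ} (h : Q' ≤ Q) (j : Fin (Q + 1)) :
    j ∈ Set.range (ee h) ↔ (j : ℕ) ≤ Q' := by
  constructor
  · rintro ⟨i, rfl⟩
    rw [ee_val]; omega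
  · intro hj
    exact ⟨⟨j, by omega⟩, Fin.ext rfl⟩

theorem bz_emb {Q' Q : ℕ} (h : Q' ≤ Q) (ν : ℕ → ℝ) (p : ℕ) (ψ : Fk (Fin (Q' + 1))) :
    bz ν Q p (emb (ee h) ψ) = emb (ee h) (bz ν Q' p ψ) := by
  unfold bz
  rw [sum_ap, sum_ap, map_sum]
  set g : Fin (Q' + 1) × Fin (Q' + 1) ↪ Fin (Q + 1) × Fin (Q + 1) :=
    (ee h).toEmbedding.prodMap (ee h).toEmbedding with hg
  have hsub : (pairs Q' p).map g ⊆ pairs Q p := by
    intro x hx
    obtain ⟨y, hy, rfl⟩ := Finset.mem_map.1 hx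
    rw [mem_pairs] at hy ⊢
    exact ⟨(ee h).strictMono hy.1, hy.2⟩
  rw [← Finset.sum_subset hsub, Finset.sum_map]
  · refine Finset.sum_congr rfl fun y _ => ?_
    have h1 : (g y).1 = ee h y.1 := rfl
    have h2 : (g y).2 = ee h y.2 := rfl
    rw [h1, h2, smul_ap, smul_ap, mul_ap, mul_ap, c_emb, c_emb, map_smul, ee_val, ee_val]
  · intro x hx hnx
    rw [mem_pairs] at hx
    rw [smul_ap, mul_ap]
    by_cases h1 : x.1 ∈ Set.range (ee h)
    · by_cases h2 : x.2 ∈ Set.range (ee h)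
      · exfalso
        obtain ⟨a, ha⟩ := h1
        obtain ⟨b, hb⟩ := h2
        refine hnx (Finset.mem_map.2 ⟨(a, b), ?_, ?_⟩)
        · rw [mem_pairs]
          rw [← ha, ← hb] at hx
          exact ⟨(ee h).lt_iff_lt.1 hx.1, hx.2⟩
        · exact Prod.ext ha hb
      · obtain ⟨a, ha⟩ := h1
        rw [← ha, c_emb, c_emb_not _ _ h2, smul_zero]
    · rw [c_emb_not _ _ h1, map_zero, smul_zero]

theorem emb_mem_Zs_iff {Q' Q : ℕ} (h : Q' ≤ Q) (ν : ℕ → ℝ) (ψ : Fk (Fin (Q' + 1))) :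
    emb (ee h) ψ ∈ Zs ν Q ↔ ψ ∈ Zs ν Q' := by
  rw [mem_Zs, mem_Zs]
  constructor
  · intro H p
    have := H p
    rw [bz_emb] at this
    exact emb_injective (ee h) (by rw [this, map_zero])
  · intro H p
    rw [bz_emb, H p, map_zero]

/-! ### sectors -/

/-- zero modes of flux `Q`, metric `ν`, with `n` particles -/
def Zn (ν : ℕ → ℝ) (Q n : ℕ) : Submodule ℂ (Fk (Fin (Q + 1))) where
  carrier := {ψ | ψ ∈ Zs ν Q ∧ Nh ψ = (n : ℂ) • ψ}
  add_mem' := fun {a b} ha hb => ⟨(Zs ν Q).add_mem ha.1 hb.1, by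
    rw [map_add, ha.2, hb.2, smul_add]⟩
  zero_mem' := ⟨(Zs ν Q).zero_mem, by rw [map_zero, smul_zero]⟩
  smul_mem' := fun k a ha => ⟨(Zs ν Q).smul_mem k ha.1, by
    rw [map_smul, ha.2, smul_comm]⟩

theorem mem_Zn {ν : ℕ → ℝ} {Q n : ℕ} {ψ : Fk (Fin (Q + 1))} :
    ψ ∈ Zn ν Q n ↔ ψ ∈ Zs ν Q ∧ Nh ψ = (n : ℂ) • ψ := Iff.rfl

theorem Zn_le_Zs (ν : ℕ → ℝ) (Q n : ℕ) : Zn ν Q n ≤ Zs ν Q := fun _ h => h.1

theorem emb_mem_Zn_iff {Q' Q : ℕ} (h : Q' ≤ Q) (ν : ℕ → ℝ) (n : ℕ) (ψ : Fk (Fin (Q' + 1))) :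
    emb (ee h) ψ ∈ Zn ν Q n ↔ ψ ∈ Zn ν Q' n := by
  rw [mem_Zn, mem_Zn, emb_mem_Zs_iff, Nh_emb_eq_iff]

theorem Zn_congr {ν ν' : ℕ → ℝ} {Q : ℕ} (h : ∀ j ≤ Q, ν j = ν' j) (n : ℕ) :
    Zn ν Q n = Zn ν' Q n := by
  ext ψ
  rw [mem_Zn, mem_Zn, Zs_congr h]

section general
variable {ι : Type*} [Fintype ι] [LinearOrder ι]

theorem cc_c (i j k : ι) : (c j * c i) * c k = c k * (c j * c i : Op ι) := by
  have h1 : ∀ a b : ι, (c a * c b : Op ι) = - (c b * c a) := by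
    intro a b
    rw [eq_neg_iff_add_eq_zero]; exact c_c a b
  calc (c j * c i) * c k = c j * (c i * c k : Op ι) := by rw [mul_assoc]
    _ = -(c j * c k) * c i := by rw [h1 i k]; noncomm_ring
    _ = c k * (c j * c i) := by rw [h1 j k]; noncomm_ring

theorem c_c_eq (i j : ι) : (c i * c j : Op ι) = -(c j * c i) := by
  rw [eq_neg_iff_add_eq_zero]; exact c_c i j

theorem Nh_mul_c (k : ι) : (Nh * c k : Op ι) = c k * Nh - c k := by
  have h := Nh_comm_an (e k : L ι)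
  rw [an_e] at h
  rw [sub_eq_iff_eq_add] at h
  rw [h]; abel

theorem Nh_c_ap (k : ι) (n : ℕ) (φ : Fk ι) (h : Nh φ = ((n + 1 : ℕ) : ℂ) • φ) :
    Nh (c k φ) = (n : ℂ) • c k φ := by
  have h1 := congrArg (fun A : Op ι => A φ) (Nh_mul_c k)
  simp only [mul_ap, sub_ap] at h1
  rw [h1, h, map_smul]
  push_cast
  rw [add_smul, one_smul, add_sub_cancel_right]

/-- `c_k dΓ(f) = (dΓ(f) + f_k) c_k` -/
theorem c_mul_dG_diagonal (f : ι → ℂ) (k : ι) :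
    c k * dG (Matrix.diagonal f) = dG (Matrix.diagonal f) * c k + f k • (c k : Op ι) := by
  have h := dG_comm_c (Matrix.diagonal f) k
  have h2 : ∑ j, (Matrix.diagonal f) k j • (c j : Op ι) = f k • c k := by
    rw [Finset.sum_eq_single k]
    · rw [Matrix.diagonal_apply_eq]
    · intro b _ hb
      rw [Matrix.diagonal_apply_ne _ (Ne.symm hb), zero_smul]
    · intro h; exact absurd (Finset.mem_univ k) h
  rw [h2] at h
  rw [sub_eq_iff_eq_add] at h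
  rw [h]
  abel

end general

theorem bz_mul_c (ν : ℕ → ℝ) (Q p : ℕ) (k : Fin (Q + 1)) : bz ν Q p * c k = c k * bz ν Q p := by
  unfold bz
  rw [Finset.sum_mul, Finset.mul_sum]
  refine Finset.sum_congr rfl fun x _ => ?_
  rw [smul_mul_assoc, mul_smul_comm, cc_c]

theorem c_mem_Zs {ν : ℕ → ℝ} {Q : ℕ} (k : Fin (Q + 1)) {φ : Fk (Fin (Q + 1))}
    (h : φ ∈ Zs ν Q) : c k φ ∈ Zs ν Q := by
  intro p
  have h1 := congrArg (fun A : Op (Fin (Q + 1)) => A φ) (bz_mul_c ν Q p k)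
  simp only [mul_ap] at h1
  rw [h1, h p, map_zero]

theorem c_mem_Zn {ν : ℕ → ℝ} {Q n : ℕ} (k : Fin (Q + 1)) {φ : Fk (Fin (Q + 1))}
    (h : φ ∈ Zn ν Q (n + 1)) : c k φ ∈ Zn ν Q n :=
  ⟨c_mem_Zs k h.1, Nh_c_ap k n φ h.2⟩

/-- **B-block**: zero modes with the last orbital empty are the zero modes of flux one less. -/
theorem Bblock {ν : ℕ → ℝ} {Q n : ℕ} {φ : Fk (Fin (Q + 1 + 1))} (h : φ ∈ Zn ν (Q + 1) n)
    (h0 : c (Fin.last (Q + 1)) φ = 0) :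
    ∃ ψ ∈ Zn ν Q n, emb (ee (Nat.le_succ Q)) ψ = φ := by
  obtain ⟨ψ, hψ⟩ := (mem_range_emb_iff (ee (Nat.le_succ Q)) φ).2 (fun j hj => by
    rw [mem_range_ee] at hj
    have : j = Fin.last (Q + 1) := Fin.ext (by rw [Fin.val_last]; omega)
    rw [this, h0])
  refine ⟨ψ, ?_, hψ⟩
  rw [← emb_mem_Zn_iff (Nat.le_succ Q), hψ]
  exact h

/-- two particles cannot sit in the last two orbitals of a zero mode -/
theorem last_pair {ν : ℕ → ℝ} {Q : ℕ} (hν : PosM ν Q) {φ : Fk (Fin (Q + 1))} (h : φ ∈ Zs ν Q)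
    {i j : Fin (Q + 1)} (hij : i < j) (hp : pairs Q ((i : ℕ) + j) = {(i, j)}) :
    c j (c i φ) = 0 := by
  have h1 := h ((i : ℕ) + j)
  unfold bz at h1
  rw [hp, Finset.sum_singleton, smul_ap, mul_ap] at h1
  have hne : ((bcoef ν i j : ℝ) : ℂ) ≠ 0 := by
    rw [Complex.ofReal_ne_zero]
    exact (bcoef_pos hν (x := (i, j)) (p := (i : ℕ) + j) (mem_pairs.2 ⟨hij, rfl⟩)).ne'
  exact (smul_eq_zero.1 h1).resolve_left hne

theorem c_c_ap_zero {ι : Type*} [Fintype ι] [LinearOrder ι] {i j : ι} {φ : Fk ι}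
    (h : c j (c i φ) = 0) : c i (c j φ) = 0 := by
  have h1 := congrArg (fun A : Op ι => A φ) (c_c_eq i j)
  simp only [mul_ap, neg_ap] at h1
  rw [h1, h, neg_zero]

/-- **A-block**: the annihilator of the last orbital maps zero modes `(Q+3, n+1)` to zero modes
`(Q, n)` of the same metric (the number of holes `K` is unchanged). -/
theorem Ablock {ν : ℕ → ℝ} {Q n : ℕ} (hν : PosM ν (Q + 3)) {φ : Fk (Fin (Q + 3 + 1))}
    (h : φ ∈ Zn ν (Q + 3) (n + 1)) :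
    ∃ ψ ∈ Zn ν Q n, emb (ee (Nat.le_add_right Q 3)) ψ = c (Fin.last (Q + 3)) φ := by
  set L : Fin (Q + 3 + 1) := Fin.last (Q + 3) with hL
  have hLv : (L : ℕ) = Q + 3 := Fin.val_last _
  have hmem : c L φ ∈ Zn ν (Q + 3) n := c_mem_Zn L h
  have hzero : ∀ j : Fin (Q + 3 + 1), Q < (j : ℕ) → c j (c L φ) = 0 := by
    intro j hj
    by_cases hjL : j = L
    · rw [hjL]
      have h1 := congrArg (fun A : Op (Fin (Q + 3 + 1)) => A φ) (c_mul_self L)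
      simpa only [mul_ap, zero_ap] using h1
    · have hjlt : j < L := lt_of_le_of_ne (Fin.le_last j) hjL
      have hjv : (j : ℕ) < Q + 3 := lt_of_lt_of_eq hjlt hLv
      refine c_c_ap_zero (last_pair hν h.1 hjlt ?_)
      ext x
      rw [mem_pairs, Finset.mem_singleton]
      have hx1 := x.1.isLt
      have hx2 := x.2.isLt
      constructor
      · rintro ⟨ha, hb⟩
        have ha' : (x.1 : ℕ) < x.2 := ha
        rw [hLv] at hb
        refine Prod.ext (Fin.ext ?_) (Fin.ext ?_)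
        · show (x.1 : ℕ) = j
          omega
        · show (x.2 : ℕ) = L
          omega
      · intro hx
        rw [hx]
        exact ⟨hjlt, rfl⟩
  obtain ⟨ψ, hψ⟩ := (mem_range_emb_iff (ee (Nat.le_add_right Q 3)) (c L φ)).2 (fun j hj => by
    rw [mem_range_ee] at hj
    exact hzero j (by omega))
  refine ⟨ψ, ?_, hψ⟩
  rw [← emb_mem_Zn_iff (Nat.le_add_right Q 3), hψ]
  exact hmem

/-! ### the detector operator and the peeling inequality -/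

/-- `D = s - a dΓ(f) - X` on flux `Q` -/
noncomputable def Dop (Q : ℕ) (s a : ℝ) (f : ℕ → ℝ) (X : Op (Fin (Q + 1))) : Op (Fin (Q + 1)) :=
  (s : ℂ) • 1 - (a : ℂ) • dG (Matrix.diagonal fun j : Fin (Q + 1) => ((f j : ℝ) : ℂ)) - X

/-- lower bound predicate on the zero modes of a sector -/
def LB (ν : ℕ → ℝ) (Q n : ℕ) (D : Op (Fin (Q + 1))) (lam : ℝ) : Prop :=
  ∀ ψ ∈ Zn ν Q n, lam * ‖ψ‖ ^ 2 ≤ (⟪ψ, D ψ⟫_ℂ).re

theorem LB.mono {ν : ℕ → ℝ} {Q n : ℕ} {D : Op (Fin (Q + 1))} {lam lam' : ℝ}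
    (h : LB ν Q n D lam) (hle : lam' ≤ lam) : LB ν Q n D lam' := fun ψ hψ =>
  (mul_le_mul_of_nonneg_right hle (sq_nonneg _)).trans (h ψ hψ)

theorem Dop_selfAdjoint {Q : ℕ} (s a : ℝ) (f : ℕ → ℝ) {X : Op (Fin (Q + 1))} (hX : star X = X) :
    star (Dop Q s a f X) = Dop Q s a f X := by
  unfold Dop
  rw [star_sub, star_sub, star_smul, star_smul, star_one, hX, star_dG]
  congr 2
  · rw [Complex.star_def, Complex.conj_ofReal]
  · rw [Complex.star_def, Complex.conj_ofReal]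
    congr 2
    ext i j
    rw [Matrix.conjTranspose_apply]
    by_cases h : i = j
    · subst h
      rw [Matrix.diagonal_apply_eq, Complex.star_def, Complex.conj_ofReal]
    · rw [Matrix.diagonal_apply_ne _ h, Matrix.diagonal_apply_ne _ (Ne.symm h), star_zero]

theorem cmp_Dop {Q' Q : ℕ} (h : Q' ≤ Q) (s a : ℝ) (f : ℕ → ℝ) (X : Op (Fin (Q + 1))) :
    cmp (ee h) (Dop Q s a f X) = Dop Q' s a f (cmp (ee h) X) := by
  unfold Dop
  rw [cmp_sub, cmp_sub, cmp_smul, cmp_smul, cmp_one, cmp_dG_diagonal]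
  rfl

/-- `c_k D(s) = D(s - a f_k) c_k - [c_k, X]` -/
theorem c_mul_Dop {Q : ℕ} (s a : ℝ) (f : ℕ → ℝ) (X : Op (Fin (Q + 1))) (k : Fin (Q + 1)) :
    c k * Dop Q s a f X = Dop Q (s - a * f k) a f X * c k - (c k * X - X * c k) := by
  unfold Dop
  rw [mul_sub, mul_sub, sub_mul, sub_mul, mul_smul_comm, mul_smul_comm, smul_mul_assoc,
    smul_mul_assoc, c_mul_dG_diagonal, mul_one, one_mul, smul_add, smul_smul]
  push_cast
  rw [sub_smul]
  abel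

theorem Dop_add_const {Q : ℕ} (s t a : ℝ) (f : ℕ → ℝ) (X : Op (Fin (Q + 1))) :
    Dop Q (s + t) a f X = Dop Q s a f X + (t : ℂ) • 1 := by
  unfold Dop
  push_cast
  rw [add_smul]
  abel

/-- shifting the scalar shifts the bound -/
theorem LB.add_const {ν : ℕ → ℝ} {Q n : ℕ} {s a : ℝ} {f : ℕ → ℝ} {X : Op (Fin (Q + 1))}
    {lam : ℝ} (h : LB ν Q n (Dop Q s a f X) lam) (t : ℝ) :
    LB ν Q n (Dop Q (s + t) a f X) (lam + t) := by
  intro ψ hψ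
  have h1 := h ψ hψ
  rw [Dop_add_const, add_ap, smul_ap, one_ap, inner_add_right, Complex.add_re, inner_smul_right,
    Complex.re_ofReal_mul, inner_self_eq_norm_sq_to_K]
  have h2 : (((‖ψ‖ : ℝ) : ℂ) ^ 2).re = ‖ψ‖ ^ 2 := by norm_cast
  have h3 : ((RCLike.ofReal ‖ψ‖ : ℂ) ^ 2).re = ‖ψ‖ ^ 2 := h2
  rw [h3]
  nlinarith

/-- **Peeling step** on the Fock model. -/
theorem peel_step {ν : ℕ → ℝ} {Q n : ℕ} (hν : PosM ν (Q + 3)) (s a : ℝ) (f : ℕ → ℝ)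
    (X : Op (Fin (Q + 3 + 1))) (hX : star X = X) (κ δ η lamA lamB : ℝ) (hκ : 0 < κ)
    (hδ : 0 ≤ δ)
    (hG0 : ∀ ψ ∈ Zn ν (Q + 3) (n + 1),
      (∀ φ ∈ Zn ν (Q + 3) (n + 1), c (Fin.last (Q + 3)) φ = 0 → ⟪φ, ψ⟫_ℂ = 0) →
        κ * ‖ψ‖ ^ 2 ≤ ‖c (Fin.last (Q + 3)) ψ‖ ^ 2)
    (hcomm : ‖c (Fin.last (Q + 3)) * X - X * c (Fin.last (Q + 3))‖ ≤ η)
    (hcross : ∀ ψ ∈ Zn ν (Q + 3) (n + 1), ∀ φ ∈ Zn ν (Q + 3) (n + 1),
      ‖⟪d (Fin.last (Q + 3)) (c (Fin.last (Q + 3)) ψ) -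
          (Zn ν (Q + 3) (n + 1)).starProjection (d (Fin.last (Q + 3)) (c (Fin.last (Q + 3)) ψ)),
        Dop (Q + 3) s a f X φ⟫_ℂ‖ ≤ δ * ‖ψ‖ * ‖φ‖)
    (hB : LB ν (Q + 2) (n + 1) (Dop (Q + 2) s a f (cmp (ee (Nat.le_succ (Q + 2))) X)) lamB)
    (hA : LB ν Q n (Dop Q (s - a * f (Q + 3)) a f (cmp (ee (Nat.le_add_right Q 3)) X)) lamA) :
    LB ν (Q + 3) (n + 1) (Dop (Q + 3) s a f X) (min lamA lamB - 2 * ((δ + η) / κ)) := by
  have hη : 0 ≤ η := (norm_nonneg _).trans hcomm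
  set ℓ : Fin (Q + 3 + 1) := Fin.last (Q + 3) with hℓ
  have hadj : ∀ x, (c ℓ).ap.adjoint x = d ℓ x := by
    intro x
    rw [← star_c]
    rfl
  refine Peel924.peel (Zn ν (Q + 3) (n + 1)) (c ℓ).ap (Dop (Q + 3) s a f X).ap
    (Dop (Q + 3) (s - a * f (Q + 3)) a f X).ap ?_ κ δ η lamA lamB hκ hδ hη ?_ hG0 ?_ ?_ ?_ ?_
  · intro x y
    have := inner_star_left (Dop (Q + 3) s a f X) x y
    rw [Dop_selfAdjoint s a f hX] at this
    exact this
  · intro x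
    have := Op.norm_ap_le (c ℓ) x
    rw [norm_c, one_mul] at this
    exact this
  · intro ψ _
    have h1 := congrArg (fun A : Op (Fin (Q + 3 + 1)) => A ψ) (c_mul_Dop s a f X ℓ)
    simp only [mul_ap, sub_ap] at h1
    have hfl : f (ℓ : ℕ) = f (Q + 3) := by rw [hℓ, Fin.val_last]
    rw [hfl] at h1
    have h2 : c ℓ (Dop (Q + 3) s a f X ψ) - Dop (Q + 3) (s - a * f (Q + 3)) a f X (c ℓ ψ) =
        -((c ℓ * X - X * c ℓ) ψ) := by
      rw [h1, sub_ap, mul_ap, mul_ap]; abel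
    have h3 : ‖c ℓ (Dop (Q + 3) s a f X ψ) - Dop (Q + 3) (s - a * f (Q + 3)) a f X (c ℓ ψ)‖ ≤
        η * ‖ψ‖ := by
      rw [h2, norm_neg]
      exact (Op.norm_ap_le _ _).trans (mul_le_mul_of_nonneg_right hcomm (norm_nonneg _))
    exact h3
  · intro ψ hψ φ hφ
    rw [hadj]
    exact hcross ψ hψ φ hφ
  · intro ψ hψ h0
    obtain ⟨χ, hχ, rfl⟩ := Bblock hψ h0
    have h1 := hB χ hχ
    rw [← cmp_Dop, inner_cmp] at h1
    rw [norm_emb]
    exact h1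
  · intro ψ hψ
    obtain ⟨χ, hχ, hχ2⟩ := Ablock hν hψ
    have h1 := hA χ hχ
    rw [← cmp_Dop, inner_cmp, hχ2] at h1
    have h2 : ‖c ℓ ψ‖ = ‖χ‖ := by rw [← hχ2, norm_emb]
    show lamA * ‖c ℓ ψ‖ ^ 2 ≤ _
    rw [h2]
    exact h1

end Crest.Agent.R340.Peel596
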