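import Crest.Agent.R340.GeoM_986
import Crest.Agent.R340.Peel_596
import Crest.Agent.R340.PairNorm_986

/-!
R340, block L2 = GEOMETRY (helper986), part 6: scaling, shift of the metric, and the abstract form
of the inequality (G0): `κ ‖ψ‖² ≤ ‖c_L ψ‖²` for zero modes `ψ` orthogonal to the zero modes with the
last orbital `L` empty.
-/

set_option autoImplicit false
open scoped InnerProductSpace ComplexConjugate

namespace Crest.Agent.R340.Geo986

open Fock649 Finset Emb596 Peel596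
open PV341 (Adm G Gf sp Tp half nrm beta aa xx)

/-! ### scaling -/

theorem bz_scale {ν ν' : ℕ → ℝ} {Q : ℕ} {a : ℝ} (ha : 0 < a) (h : ∀ j ≤ Q, ν' j = a * ν j)
    (p : ℕ) : bz ν' Q p = (((a ^ 2)⁻¹ : ℝ) : ℂ) • bz ν Q p := by
  unfold bz
  rw [smul_sum]
  refine sum_congr rfl fun x _ => ?_
  rw [smul_smul, ← Complex.ofReal_mul]
  congr 2
  unfold bcoef
  rw [h _ (by omega), h _ (by omega)]
  rcases eq_or_ne (ν x.1) 0 with h3 | h3
  · simp [h3]
  rcases eq_or_ne (ν x.2) 0 with h4 | h4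
  · simp [h4]
  field_simp

theorem nz_scale {ν ν' : ℕ → ℝ} {Q : ℕ} {a : ℝ} (ha : 0 < a) (h : ∀ j ≤ Q, ν' j = a * ν j)
    (p : ℕ) : nz ν' Q p = ((a ^ 2)⁻¹) ^ 2 * nz ν Q p := by
  unfold nz
  rw [mul_sum]
  refine sum_congr rfl fun x _ => ?_
  rw [← mul_pow]
  congr 1
  unfold bcoef
  rw [h _ (by omega), h _ (by omega)]
  rcases eq_or_ne (ν x.1) 0 with h3 | h3
  · simp [h3]
  rcases eq_or_ne (ν x.2) 0 with h4 | h4
  · simp [h4]
  field_simp

theorem Bg_scale {ν ν' : ℕ → ℝ} {Q : ℕ} {a : ℝ} (ha : 0 < a) (h : ∀ j ≤ Q, ν' j = a * ν j)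
    (p : ℕ) : Bg ν' Q p = Bg ν Q p := by
  unfold Bg
  rw [bz_scale ha h, nz_scale ha h, smul_smul, ← Complex.ofReal_mul,
    Real.sqrt_mul (by positivity), Real.sqrt_sq (by positivity), mul_inv, inv_inv]
  congr 2
  have := ha.ne'
  field_simp

theorem Zs_scale {ν ν' : ℕ → ℝ} {Q : ℕ} {a : ℝ} (ha : 0 < a) (h : ∀ j ≤ Q, ν' j = a * ν j) :
    Zs ν' Q = Zs ν Q := by
  ext ψ
  rw [mem_Zs, mem_Zs]
  refine forall_congr' fun p => ?_
  rw [bz_scale ha h]
  show (((a ^ 2)⁻¹ : ℝ) : ℂ) • bz ν Q p ψ = 0 ↔ _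
  rw [smul_eq_zero]
  constructor
  · rintro (h1 | h1)
    · have h2 : (a ^ 2)⁻¹ ≠ 0 := by positivity
      exact absurd (by exact_mod_cast h1) h2
    · exact h1
  · exact Or.inr

theorem GapG_scale {ν ν' : ℕ → ℝ} {Q : ℕ} {a γ : ℝ} (ha : 0 < a) (h : ∀ j ≤ Q, ν' j = a * ν j)
    (H : GapG ν Q γ) : GapG ν' Q γ := by
  intro ψ hψ
  rw [Zs_scale ha h] at hψ
  simp only [Bg_scale ha h]
  exact H ψ hψ

/-! ### shift of the metric: flux `Q+1`, last orbital empty = flux `Q`, more weight -/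

/-- shift of the exponents -/
noncomputable def shT (t : Fin 3 → ℝ) : Fin 3 → ℝ := ![1 / 2, t 0, t 1]

theorem Adm_shT {t : Fin 3 → ℝ} (ht : Adm t) : Adm (shT t) := by
  intro k
  fin_cases k
  · simp [shT]
  · simpa [shT] using ht 0
  · simpa [shT] using ht 1

theorem G_shT {t : Fin 3 → ℝ} (h2 : t 2 = 0) (u : ℕ) :
    G (shT t) u = (√((u : ℝ) + 1))⁻¹ * G t (u + 1) := by
  unfold PV341.G
  rw [Fin.prod_univ_three, Fin.prod_univ_three]
  simp only [shT, h2, Fin.isValue, Matrix.cons_val_zero, Matrix.cons_val_one, Fin.val_zero,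
    Fin.val_one, Fin.val_two, Nat.cast_zero, Nat.cast_one, Nat.cast_ofNat, add_zero,
    neg_zero, Real.rpow_zero, mul_one, Nat.cast_add]
  rw [Real.rpow_neg (by positivity), ← Real.sqrt_eq_rpow]
  have e1 : (u : ℝ) + 1 + 1 = u + 1 + 1 := rfl
  have e2 : (u : ℝ) + 2 + 1 = u + 1 + 1 + 1 := by ring
  show _ * _ * ((u : ℝ) + 2 + 1) ^ (-(t 1)) = _
  rw [e2, mul_assoc]

theorem nuT_succ {t : Fin 3 → ℝ} (h2 : t 2 = 0) {Q j : ℕ} (hj : j ≤ Q) :
    nuT t (Q + 1) j = (√((Q : ℝ) + 1))⁻¹ * nuT (shT t) Q j := by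
  simp only [nuT, Pi.mul_apply, Pi.inv_apply, nu0]
  rw [G_shT h2, show Q + 1 - j = Q - j + 1 by omega]
  have hc := choose_mul_sub' Q j
  have hQ : (0 : ℝ) < Q.choose j := by exact_mod_cast Nat.choose_pos hj
  have hu : ((Q - j : ℕ) : ℝ) = Q - j := Nat.cast_sub hj
  have hu0 : (0 : ℝ) ≤ Q - j := by rw [← hu]; positivity
  have hs : √((Q + 1).choose j : ℝ) * √((Q : ℝ) - j + 1) = √((Q : ℝ) + 1) * √(Q.choose j : ℝ) := by
    rw [← Real.sqrt_mul (by positivity), ← Real.sqrt_mul (by positivity), ← hc]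
    congr 1; ring
  rw [hu]
  have h1 : 0 < √((Q + 1).choose j : ℝ) := Real.sqrt_pos.mpr (by
    exact_mod_cast Nat.choose_pos (by omega : j ≤ Q + 1))
  have h2' : 0 < √((Q : ℝ) - j + 1) := Real.sqrt_pos.mpr (by linarith)
  have h3 : 0 < √((Q : ℝ) + 1) := Real.sqrt_pos.mpr (by positivity)
  have h4 : 0 < √(Q.choose j : ℝ) := Real.sqrt_pos.mpr hQ
  have h5 := PV341.G_pos t (Q - j + 1)
  rw [mul_inv, inv_inv]
  have : (√((Q + 1).choose j : ℝ))⁻¹ = √((Q : ℝ) - j + 1) * ((√((Q : ℝ) + 1))⁻¹ *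
      (√(Q.choose j : ℝ))⁻¹) := by
    field_simp
    linarith
  rw [this]
  ring

/-! ### the abstract (G0) -/

/-- the sum of the squared amplitudes of the pairs containing the last orbital, relative to the rest -/
noncomputable def Wsum (ν : ℕ → ℝ) (Q : ℕ) : ℝ :=
  ∑ p ∈ range (2 * Q), if Q + 1 ≤ p then bcoef ν (p - (Q + 1)) (Q + 1) ^ 2 / nz ν Q p else 0

/-- pairs of flux `Q+1` = pairs of flux `Q` and possibly the pair containing the last orbital -/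
theorem sum_pairs_succ {M : Type*} [AddCommMonoid M] (Q p : ℕ)
    (f : Fin (Q + 1 + 1) × Fin (Q + 1 + 1) → M) :
    ∑ x ∈ pairs (Q + 1) p, f x = (∑ x ∈ pairs Q p, f (x.1.castSucc, x.2.castSucc)) +
      if h : Q + 1 ≤ p ∧ p < 2 * (Q + 1) then f (⟨p - (Q + 1), by omega⟩, Fin.last (Q + 1))
      else 0 := by
  classical
  set g : Fin (Q + 1) × Fin (Q + 1) ↪ Fin (Q + 1 + 1) × Fin (Q + 1 + 1) :=
    ⟨fun x => (x.1.castSucc, x.2.castSucc), fun x y h => by
      simp only [Prod.mk.injEq, Fin.castSucc_inj] at h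
      exact Prod.ext h.1 h.2⟩ with hg
  have hfil : (pairs (Q + 1) p).filter (fun x => x.2 ≠ Fin.last (Q + 1)) = (pairs Q p).map g := by
    ext x
    rw [mem_filter, mem_pairs, Finset.mem_map]
    constructor
    · rintro ⟨⟨h1, h2⟩, h3⟩
      have h1' : (x.1 : ℕ) < x.2 := h1
      have h3' : (x.2 : ℕ) ≠ Q + 1 := fun h => h3 (Fin.ext (by rw [Fin.val_last]; exact h))
      have := x.2.isLt
      refine ⟨(⟨x.1, by omega⟩, ⟨x.2, by omega⟩), mem_pairs.mpr ⟨h1', h2⟩, ?_⟩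
      rfl
    · rintro ⟨y, hy, rfl⟩
      rw [mem_pairs] at hy
      refine ⟨⟨hy.1, hy.2⟩, fun h => ?_⟩
      have h' : y.2.castSucc = Fin.last (Q + 1) := h
      have := congrArg Fin.val h'
      rw [Fin.val_castSucc, Fin.val_last] at this
      omega
  rw [← sum_filter_add_sum_filter_not (pairs (Q + 1) p) (fun x => x.2 ≠ Fin.last (Q + 1)), hfil,
    sum_map]
  congr 1
  split_ifs with h
  · have : (pairs (Q + 1) p).filter (fun x => ¬ x.2 ≠ Fin.last (Q + 1)) =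
        {(⟨p - (Q + 1), by omega⟩, Fin.last (Q + 1))} := by
      ext x
      rw [mem_filter, mem_pairs, mem_singleton]
      constructor
      · rintro ⟨⟨h1, h2⟩, h3⟩
        have h3' : x.2 = Fin.last (Q + 1) := by simpa using h3
        refine Prod.ext (Fin.ext ?_) h3'
        rw [h3', Fin.val_last] at h2
        show (x.1 : ℕ) = p - (Q + 1)
        omega
      · rintro rfl
        refine ⟨⟨?_, ?_⟩, by simp⟩
        · show p - (Q + 1) < Q + 1
          omega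
        · show p - (Q + 1) + (Q + 1) = p
          omega
    rw [this, sum_singleton]
  · refine sum_eq_zero fun x hx => ?_
    exfalso
    rw [mem_filter, mem_pairs] at hx
    obtain ⟨⟨h1, h2⟩, h3⟩ := hx
    have h3' : x.2 = Fin.last (Q + 1) := by simpa using h3
    have h1' : (x.1 : ℕ) < x.2 := h1
    rw [h3', Fin.val_last] at h2 h1'
    exact h ⟨by omega, by omega⟩

theorem last_notMem_range_ee (Q : ℕ) : Fin.last (Q + 1) ∉ Set.range (ee (Nat.le_succ Q)) := by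
  rw [mem_range_ee, Fin.val_last]
  omega

/-- norm of the restricted pair annihilator on the part of a zero mode with `L` empty -/
theorem norm_bz_rst_le {ν : ℕ → ℝ} {Q : ℕ} {ψ : Fk (Fin (Q + 1 + 1))}
    (hψ : ψ ∈ Zs ν (Q + 1)) (p : ℕ) :
    ‖bz ν Q p (rst (ee (Nat.le_succ Q)) ψ)‖ ≤
      if Q + 1 ≤ p then |bcoef ν (p - (Q + 1)) (Q + 1)| * ‖c (Fin.last (Q + 1)) ψ‖ else 0 := by
  set E := ee (Nat.le_succ Q) with hE
  set L := Fin.last (Q + 1) with hL
  have h0 : rst E (bz ν (Q + 1) p ψ) = 0 := by rw [hψ p, map_zero]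
  unfold bz at h0
  rw [sum_pairs_succ, add_ap, map_add, sum_ap, map_sum] at h0
  have h1 : ∑ x ∈ pairs Q p, rst E ((((bcoef ν (x.1.castSucc : Fin (Q + 1 + 1))
      (x.2.castSucc : Fin (Q + 1 + 1)) : ℝ) : ℂ) •
        (c x.2.castSucc * c x.1.castSucc : Op (Fin (Q + 1 + 1)))) ψ) = bz ν Q p (rst E ψ) := by
    unfold bz
    rw [sum_ap]
    refine sum_congr rfl fun x _ => ?_
    have e1 : (x.1.castSucc : Fin (Q + 1 + 1)) = E x.1 := rfl
    have e2 : (x.2.castSucc : Fin (Q + 1 + 1)) = E x.2 := rfl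
    rw [smul_ap, smul_ap, mul_ap, mul_ap, map_smul, e1, e2, rst_c, rst_c]
    rfl
  rw [h1] at h0
  have h2 := eq_neg_of_add_eq_zero_left h0
  rw [h2, norm_neg]
  split_ifs with h3 h4 h5
  · rw [smul_ap, map_smul, norm_smul, Complex.norm_real, Real.norm_eq_abs, hL, Fin.val_last]
    refine mul_le_mul_of_nonneg_left ?_ (abs_nonneg _)
    refine (norm_rst_le _ _).trans ?_
    have e : (c (Fin.last (Q + 1)) * c (⟨p - (Q + 1), by omega⟩ : Fin (Q + 1 + 1)) :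
        Op (Fin (Q + 1 + 1))) = - (c ⟨p - (Q + 1), by omega⟩ * c (Fin.last (Q + 1))) := c_c_eq _ _
    rw [e, neg_ap, norm_neg, mul_ap]
    refine (Op.norm_ap_le _ _).trans ?_
    rw [norm_c, one_mul]
  · exact absurd h3.1 h4
  · rw [zero_ap, map_zero, norm_zero]
    positivity
  · rw [zero_ap, map_zero, norm_zero]

/-- the part with `L` empty -/
theorem norm_sq_le_rst {Q : ℕ} (ψ : Fk (Fin (Q + 1 + 1))) :
    ‖ψ‖ ^ 2 = ‖rst (ee (Nat.le_succ Q)) ψ‖ ^ 2 + ‖c (Fin.last (Q + 1)) ψ‖ ^ 2 := by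
  set E := ee (Nat.le_succ Q) with hE
  set L := Fin.last (Q + 1) with hL
  have hcd := c_d L L
  rw [if_pos rfl] at hcd
  have h1 : ψ = c L (d L ψ) + d L (c L ψ) := by
    have := congrArg (fun A : Op (Fin (Q + 1 + 1)) => A ψ) hcd
    simp only [add_ap, mul_ap, one_ap] at this
    exact this.symm
  have hcc : ∀ φ : Fk (Fin (Q + 1 + 1)), c L (c L φ) = 0 := fun φ =>
    congrArg (fun A : Op (Fin (Q + 1 + 1)) => A φ) (c_mul_self L)
  have hdd : ∀ φ : Fk (Fin (Q + 1 + 1)), d L (d L φ) = 0 := fun φ =>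
    congrArg (fun A : Op (Fin (Q + 1 + 1)) => A φ) (d_mul_self L)
  have h2 : emb E (rst E (c L (d L ψ))) = c L (d L ψ) := by
    refine emb_rst_of_c_eq_zero E _ fun j hj => ?_
    have : j = L := by
      rw [hE, mem_range_ee] at hj
      exact Fin.ext (by rw [hL, Fin.val_last]; omega)
    rw [this, hcc]
  have h3 : rst E ψ = rst E (c L (d L ψ)) := by
    conv_lhs => rw [h1]
    rw [map_add, rst_d_not E L (last_notMem_range_ee Q), add_zero]
  have h4 : ‖c L (d L ψ)‖ = ‖rst E ψ‖ := by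
    rw [← h2, norm_emb, h3]
  have h5 : (⟪c L (d L ψ), d L (c L ψ)⟫_ℂ) = 0 := by
    rw [← star_c, inner_star_right, hcc, inner_zero_left]
  have h6 : ‖d L (c L ψ)‖ ^ 2 = ‖c L ψ‖ ^ 2 := by
    have h7 : c L (d L (c L ψ)) = c L ψ := by
      have := congrArg (fun A : Op (Fin (Q + 1 + 1)) => A (c L ψ)) hcd
      simp only [add_ap, mul_ap, one_ap] at this
      rw [hcc, map_zero, add_zero] at this
      exact this
    have h8 : (⟪d L (c L ψ), d L (c L ψ)⟫_ℂ) = ⟪c L ψ, c L ψ⟫_ℂ := by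
      conv_lhs => rw [← star_c, inner_star_left, star_c, h7]
    rw [← inner_self_eq_norm_sq (𝕜 := ℂ), ← inner_self_eq_norm_sq (𝕜 := ℂ), h8]
  have h7 : ‖ψ‖ * ‖ψ‖ = ‖c L (d L ψ)‖ * ‖c L (d L ψ)‖ + ‖d L (c L ψ)‖ * ‖d L (c L ψ)‖ := by
    conv_lhs => rw [h1]
    exact norm_add_sq_eq_norm_sq_add_norm_sq_of_inner_eq_zero _ _ (by exact_mod_cast h5)
  rw [← h6, ← h4]
  nlinarith [h7]

theorem G0_abstract {ν : ℕ → ℝ} {Q : ℕ} (hν : PosM ν (Q + 1)) {γ C : ℝ} (hγ : 0 < γ)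
    (hC : 0 ≤ C) (hgap : GapG ν Q γ) (hW : Wsum ν Q ≤ C) {ψ : Fk (Fin (Q + 1 + 1))}
    (hψ : ψ ∈ Zs ν (Q + 1))
    (hort : ∀ φ ∈ Zs ν (Q + 1), c (Fin.last (Q + 1)) φ = 0 → ⟪φ, ψ⟫_ℂ = 0) :
    γ / (γ + C) * ‖ψ‖ ^ 2 ≤ ‖c (Fin.last (Q + 1)) ψ‖ ^ 2 := by
  set E := ee (Nat.le_succ Q) with hE
  set L := Fin.last (Q + 1) with hL
  have hνQ : PosM ν Q := fun j hj => hν j (by omega)
  have h1 : ∀ z ∈ Zs ν Q, ⟪z, rst E ψ⟫_ℂ = 0 := by
    intro z hz
    rw [inner_rst_right]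
    exact hort _ ((emb_mem_Zs_iff (Nat.le_succ Q) ν z).mpr hz)
      (c_emb_not E L (last_notMem_range_ee Q) z)
  have h2 := hgap _ h1
  have h3 : ∑ p ∈ range (2 * Q), ‖Bg ν Q p (rst E ψ)‖ ^ 2 ≤ Wsum ν Q * ‖c L ψ‖ ^ 2 := by
    unfold Wsum
    rw [sum_mul]
    refine sum_le_sum fun p _ => ?_
    have hb := norm_bz_rst_le hψ p
    rcases (pairs Q p).eq_empty_or_nonempty with hp | hp
    · have : Bg ν Q p (rst E ψ) = 0 := by
        rw [Bg_apply, bz_eq_zero_of_empty hp]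
        exact smul_zero _
      rw [this, norm_zero, zero_pow two_ne_zero]
      have hnn := nz_nonneg ν Q p
      split_ifs <;> positivity
    · have hn := nz_pos hνQ hp
      rw [Bg_apply, norm_smul, Complex.norm_real, Real.norm_eq_abs, mul_pow, sq_abs, inv_pow,
        Real.sq_sqrt hn.le]
      split_ifs at hb ⊢ with h4
      · rw [div_mul_eq_mul_div, inv_mul_eq_div]
        refine div_le_div_of_nonneg_right ?_ hn.le
        have := pow_le_pow_left₀ (norm_nonneg _) hb 2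
        rw [mul_pow, sq_abs] at this
        exact this
      · have : ‖bz ν Q p (rst E ψ)‖ = 0 := le_antisymm hb (norm_nonneg _)
        rw [this]
        simp
  have h4 : γ * ‖rst E ψ‖ ^ 2 ≤ C * ‖c L ψ‖ ^ 2 :=
    (h2.trans h3).trans (mul_le_mul_of_nonneg_right hW (sq_nonneg _))
  rw [norm_sq_le_rst ψ, div_mul_eq_mul_div, div_le_iff₀ (by positivity)]
  linarith

end Crest.Agent.R340.Geo986
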