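import Crest.Agent.R340.GeoC_986

/-!
R340, block L2 = GEOMETRY (helper986), part 7: the inequality (G0), uniformly in the flux and in the
geometries `nuT t N`, `t 2 = 0` (one, two or three of the last orbitals peeled off).
-/

set_option autoImplicit false
open scoped InnerProductSpace ComplexConjugate

namespace Crest.Agent.R340.Geo986

open Fock649 Finset Emb596 Peel596
open PV341 (Adm G Gf sp Tp half nrm beta aa xx)

theorem nrm_eq_choose (Q b : ℕ) :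
    nrm (Q + 1) (b + 1) = ((Q : ℝ) + 1) * ((2 * Q).choose b : ℝ) := by
  rw [← sum_sq_half Q b]
  unfold PV341.nrm
  refine (sum_subset_zero_on_sdiff ?_ ?_ ?_)
  · intro i hi
    have := PV341.mem_half.mp hi
    exact mem_filter.mpr ⟨mem_range.mpr (by omega), by omega⟩
  · intro i hi
    rw [mem_sdiff, mem_filter] at hi
    have h1 : Q + 1 < b + 1 - i := by
      by_contra hc
      exact hi.2 (PV341.mem_half.mpr ⟨hi.1.2, by omega⟩)
    rw [Nat.choose_eq_zero_of_lt h1]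
    simp
  · intro i _
    unfold PV341.aa PV341.xx
    push_cast
    ring

/-- extreme pair in the round metric -/
theorem extreme_le {Q P : ℕ} (hP : 3 ≤ P) (hPQ : P ≤ Q + 1) :
    bcoef (nu0 (Q + 1)) (Q + 1 - P) (Q + 1) ^ 2 ≤
      8 * P * (1 / 2) ^ P * nz (nu0 (Q + 1)) Q (2 * (Q + 1) - P) := by
  set p := 2 * (Q + 1) - P with hp
  have hsum : nz (nu0 (Q + 1)) (Q + 1) p =
      nz (nu0 (Q + 1)) Q p + bcoef (nu0 (Q + 1)) (Q + 1 - P) (Q + 1) ^ 2 := by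
    unfold nz
    rw [sum_pairs_succ Q p (fun x => bcoef (nu0 (Q + 1)) x.1 x.2 ^ 2), dif_pos (by omega)]
    congr 3
    show p - (Q + 1) = Q + 1 - P
    omega
  have hnz : nz (nu0 (Q + 1)) (Q + 1) p = ((Q : ℝ) + 1) * ((2 * Q).choose (P - 1) : ℝ) := by
    have e : p = (p - 1) + 1 := by omega
    rw [nz_nu0, e, nrm_eq_choose]
    congr 2
    rw [← Nat.choose_symm (by omega : P - 1 ≤ 2 * Q)]
    congr 1
    omega
  have hw : bcoef (nu0 (Q + 1)) (Q + 1 - P) (Q + 1) ^ 2 =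
      (P : ℝ) * (((Q : ℝ) + 1) * (Q.choose (P - 1) : ℝ)) := by
    have h1 := choose_mul_self' Q (P - 1)
    have e1 : P - 1 + 1 = P := by omega
    have e2 : ((P - 1 : ℕ) : ℝ) + 1 = P := by
      have : ((P - 1 + 1 : ℕ) : ℝ) = P := by rw [e1]
      push_cast at this
      exact this
    rw [e1, e2] at h1
    rw [← h1]
    unfold bcoef nu0
    rw [Nat.choose_self, Nat.cast_one, Real.sqrt_one, inv_one, mul_one,
      Nat.choose_symm hPQ, div_inv_eq_mul, mul_pow, Real.sq_sqrt (by positivity),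
      Nat.cast_sub hPQ]
    push_cast
    ring
  have h2 : ((2 : ℝ) ^ (P - 1)) * (Q.choose (P - 1) : ℝ) ≤ ((2 * Q).choose (P - 1) : ℝ) := by
    exact_mod_cast two_pow_mul_choose_le Q (P - 1)
  have h3 : (P : ℝ) * 4 ≤ 3 * 2 ^ (P - 1) := by
    obtain ⟨k, rfl⟩ : ∃ k, P = k + 3 := ⟨P - 3, by omega⟩
    have e : k + 3 - 1 = k + 2 := by omega
    rw [e]
    clear * -
    induction k with
    | zero => norm_num
    | succ k ih =>
      rw [show k + 1 + 2 = (k + 2) + 1 by ring, pow_succ]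
      push_cast at ih ⊢
      have : (0 : ℝ) ≤ k := by positivity
      linarith
  have h4 : ((1 : ℝ) / 2) ^ P = (1 / 2) * (1 / 2 ^ (P - 1)) := by
    have e1 : P = P - 1 + 1 := by omega
    conv_lhs => rw [e1]
    rw [pow_succ, one_div_pow]
    ring
  set w := bcoef (nu0 (Q + 1)) (Q + 1 - P) (Q + 1) ^ 2 with hwdef
  set n0 := nz (nu0 (Q + 1)) Q p with hn0
  set θ : ℝ := (P : ℝ) * (1 / 2 ^ (P - 1)) with hθ
  have h2p : (0 : ℝ) < 2 ^ (P - 1) := by positivity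
  have hθ1 : θ ≤ 3 / 4 := by
    rw [hθ, mul_one_div, div_le_iff₀ h2p]
    linarith
  have hθ0 : 0 ≤ θ := by positivity
  have hwle : w ≤ θ * (n0 + w) := by
    rw [← hsum, hnz, hw, hθ]
    have : (P : ℝ) * (1 / 2 ^ (P - 1)) * (((Q : ℝ) + 1) * ((2 * Q).choose (P - 1) : ℝ)) =
        (P : ℝ) * (((Q : ℝ) + 1) * (((2 * Q).choose (P - 1) : ℝ) / 2 ^ (P - 1))) := by
      ring
    rw [this]
    have h5 : (Q.choose (P - 1) : ℝ) ≤ ((2 * Q).choose (P - 1) : ℝ) / 2 ^ (P - 1) := by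
      rw [le_div_iff₀ h2p]; linarith
    gcongr
  have hw0 : 0 ≤ w := sq_nonneg _
  have hn00 : 0 ≤ n0 := nz_nonneg _ _ _
  rw [h4]
  have : 8 * (P : ℝ) * (1 / 2 * (1 / 2 ^ (P - 1))) * n0 = 4 * θ * n0 := by rw [hθ]; ring
  rw [this]
  nlinarith

theorem G_antitone {t : Fin 3 → ℝ} (ht : Adm t) : Antitone (G t) :=
  antitone_nat_of_succ_le fun i =>
    (Real.log_le_log_iff (PV341.G_pos _ _) (PV341.G_pos _ _)).mp (PV341.log_G_anti ht i)

theorem bcoef_nuT (t : Fin 3 → ℝ) (N i j : ℕ) :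
    bcoef (nuT t N) i j = bcoef (nu0 N) i j * (G t (N - i) * G t (N - j)) := by
  simp only [bcoef, nuT, Pi.mul_apply, Pi.inv_apply]
  have h1 := (PV341.G_pos t (N - i)).ne'
  have h2 := (PV341.G_pos t (N - j)).ne'
  rw [div_eq_mul_inv, div_eq_mul_inv, mul_inv, mul_inv, mul_inv, inv_inv, inv_inv, mul_inv]
  ring

theorem nz_nuT_ge {t : Fin 3 → ℝ} (ht : Adm t) {N Q P p : ℕ} (hP : 2 * N = P + p) (hQ : Q ≤ N) :
    (G t P * G t 0) ^ 2 * nz (nu0 N) Q p ≤ ((P : ℝ) + 3) ^ 3 * nz (nuT t N) Q p := by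
  unfold nz
  rw [mul_sum, mul_sum]
  refine sum_le_sum fun x hx => ?_
  obtain ⟨h1, h2⟩ := mem_pairs.mp hx
  have hx1 := x.1.isLt
  have hx2 := x.2.isLt
  rw [bcoef_nuT, mul_pow (bcoef (nu0 N) x.1 x.2)]
  set u := N - (x.1 : ℕ) with hu
  set v := N - (x.2 : ℕ) with hv
  have hu1 : G t P ≤ G t u := G_antitone ht (by omega)
  have hv1 : G t P ≤ G t v := G_antitone ht (by omega)
  have hq := rpow_le_G ht P
  set q : ℝ := ((P : ℝ) + 3) ^ (-(3 / 2) : ℝ) with hqdef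
  have hq0 : 0 < q := Real.rpow_pos_of_pos (by positivity) _
  have hqsq : ((P : ℝ) + 3) ^ 3 * q ^ 2 = 1 := by
    rw [hqdef, ← Real.rpow_natCast (((P : ℝ) + 3) ^ (-(3 / 2) : ℝ)) 2, ← Real.rpow_mul
      (by positivity), ← Real.rpow_natCast ((P : ℝ) + 3) 3, ← Real.rpow_add (by positivity)]
    norm_num
  have hGP := PV341.G_pos t P
  have hG0 := PV341.G_pos t 0
  have hG01 := G_le_one ht 0
  have hkey : q * (G t P * G t 0) ≤ G t u * G t v := by
    calc q * (G t P * G t 0) = (q * G t 0) * G t P := by ring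
      _ ≤ (G t u) * G t v := by
        refine mul_le_mul ?_ hv1 hGP.le (PV341.G_pos _ _).le
        calc q * G t 0 ≤ q * 1 := by gcongr
          _ = q := mul_one _
          _ ≤ G t P := hq
          _ ≤ _ := hu1
  have hsq : q ^ 2 * (G t P * G t 0) ^ 2 ≤ (G t u * G t v) ^ 2 := by
    rw [← mul_pow]
    exact pow_le_pow_left₀ (by positivity) hkey 2
  calc (G t P * G t 0) ^ 2 * bcoef (nu0 N) x.1 x.2 ^ 2
      = ((P : ℝ) + 3) ^ 3 * (bcoef (nu0 N) x.1 x.2 ^ 2 * (q ^ 2 * (G t P * G t 0) ^ 2)) := by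
        linear_combination (-(G t P * G t 0) ^ 2 * bcoef (nu0 N) x.1 x.2 ^ 2) * hqsq
    _ ≤ _ := by gcongr

/-- bounding function -/
noncomputable def fW (n : ℕ) : ℝ := 8 * ((n : ℝ) + 3) ^ 4 * (1 / 2) ^ n

theorem fW_nonneg (n : ℕ) : 0 ≤ fW n := by unfold fW; positivity

theorem summable_fW : Summable fW := by
  have h1 : Summable fun n : ℕ => ((n : ℝ) ^ 4 * (1 / 2) ^ n : ℝ) :=
    summable_pow_mul_geometric_of_norm_lt_one 4 (by norm_num)
  have h2 := (summable_nat_add_iff 3).mpr h1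
  have h3 := h2.mul_left 64
  refine h3.congr fun n => ?_
  unfold fW
  push_cast
  ring

theorem term_le {t : Fin 3 → ℝ} (ht : Adm t) {Q p : ℕ} (hp1 : Q + 1 ≤ p) (hp2 : p < 2 * Q) :
    bcoef (nuT t (Q + 1)) (p - (Q + 1)) (Q + 1) ^ 2 / nz (nuT t (Q + 1)) Q p ≤
      fW (2 * (Q + 1) - p) := by
  set N := Q + 1 with hN
  obtain ⟨P, hP⟩ : ∃ P, 2 * N = P + p := ⟨2 * N - p, by omega⟩
  have hP3 : 3 ≤ P := by omega
  have hPN : P ≤ N := by omega
  have e1 : p - N = N - P := by omega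
  have e2 : 2 * N - p = P := by omega
  have e3 : p = 2 * N - P := by omega
  have hpne : (pairs Q p).Nonempty := by
    refine ⟨(⟨p - Q, by omega⟩, ⟨Q, by omega⟩), mem_pairs.mpr ⟨?_, ?_⟩⟩
    · show p - Q < Q
      omega
    · show p - Q + Q = p
      omega
  have hpos : 0 < nz (nuT t N) Q p := nz_pos (fun j hj => posM_nuT t N j (by omega)) hpne
  rw [div_le_iff₀ hpos, e1, e2, bcoef_nuT, mul_pow]
  have e4 : N - (N - P) = P := by omega
  rw [e4, Nat.sub_self]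
  have h1 := extreme_le (Q := Q) hP3 hPN
  have h2 := nz_nuT_ge ht (Q := Q) hP (by omega)
  rw [← hN, ← e3] at h1
  have hP0 : (0 : ℝ) ≤ P := by positivity
  calc bcoef (nu0 N) (N - P) N ^ 2 * (G t P * G t 0) ^ 2
      ≤ (8 * P * (1 / 2) ^ P * nz (nu0 N) Q p) * (G t P * G t 0) ^ 2 := by gcongr
    _ = 8 * P * (1 / 2) ^ P * ((G t P * G t 0) ^ 2 * nz (nu0 N) Q p) := by ring
    _ ≤ 8 * P * (1 / 2) ^ P * (((P : ℝ) + 3) ^ 3 * nz (nuT t N) Q p) := by gcongr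
    _ = (8 * (P * ((P : ℝ) + 3) ^ 3) * (1 / 2) ^ P) * nz (nuT t N) Q p := by ring
    _ ≤ fW P * nz (nuT t N) Q p := by
        refine mul_le_mul_of_nonneg_right ?_ hpos.le
        unfold fW
        refine mul_le_mul_of_nonneg_right (mul_le_mul_of_nonneg_left ?_ (by norm_num))
          (by positivity)
        rw [pow_succ ((P : ℝ) + 3) 3, mul_comm (((P : ℝ) + 3) ^ 3)]
        refine mul_le_mul_of_nonneg_right (by linarith) (by positivity)

theorem Wsum_le {t : Fin 3 → ℝ} (ht : Adm t) (Q : ℕ) :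
    Wsum (nuT t (Q + 1)) Q ≤ ∑' n, fW n := by
  unfold Wsum
  rw [← sum_filter]
  calc ∑ p ∈ (range (2 * Q)).filter (fun p => Q + 1 ≤ p),
        bcoef (nuT t (Q + 1)) (p - (Q + 1)) (Q + 1) ^ 2 / nz (nuT t (Q + 1)) Q p
      ≤ ∑ p ∈ (range (2 * Q)).filter (fun p => Q + 1 ≤ p), fW (2 * (Q + 1) - p) := by
        refine sum_le_sum fun p hp => ?_
        rw [mem_filter, mem_range] at hp
        exact term_le ht hp.2 hp.1
    _ = ∑ P ∈ ((range (2 * Q)).filter (fun p => Q + 1 ≤ p)).image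
          (fun p => 2 * (Q + 1) - p), fW P := by
        rw [sum_image]
        intro x hx y hy hxy
        simp only [coe_filter, mem_range, Set.mem_ofPred_eq] at hx hy
        simp only at hxy
        omega
    _ ≤ ∑' n, fW n := summable_fW.sum_le_tsum _ fun i _ => fW_nonneg i

/-- **(G0)**: zero modes orthogonal to the zero modes with the last orbital empty have the last orbital
occupied with probability bounded below. -/
theorem G0_all {γ : ℝ} (hγ : 0 < γ) : ∃ κ : ℝ, 0 < κ ∧ κ ≤ 1 ∧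
    ((∀ Q : ℕ, GapG (nu0 Q) Q γ) → ∀ t : Fin 3 → ℝ, Adm t → t 2 = 0 → ∀ Q : ℕ,
      ∀ ψ ∈ Zs (nuT t (Q + 1)) (Q + 1),
        (∀ φ ∈ Zs (nuT t (Q + 1)) (Q + 1), c (Fin.last (Q + 1)) φ = 0 → ⟪φ, ψ⟫_ℂ = 0) →
          κ * ‖ψ‖ ^ 2 ≤ ‖c (Fin.last (Q + 1)) ψ‖ ^ 2) := by
  obtain ⟨γ', hγ', hall⟩ := gap_all_geometries hγ
  have hC : 0 ≤ ∑' n, fW n := tsum_nonneg fW_nonneg
  refine ⟨γ' / (γ' + ∑' n, fW n), by positivity, ?_, fun H t ht h2 Q ψ hψ hort => ?_⟩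
  · rw [div_le_one (by positivity)]
    linarith
  · have hgap : GapG (nuT t (Q + 1)) Q γ' :=
      GapG_scale (a := (√((Q : ℝ) + 1))⁻¹) (by positivity) (fun j hj => nuT_succ h2 hj)
        (hall (shT t) (Adm_shT ht) Q (H Q))
    exact G0_abstract (posM_nuT t (Q + 1)) hγ' hC hgap (Wsum_le ht Q) hψ hort

/-! ### sectors -/

/-- projection onto the states with `n` particles -/
noncomputable def Pr {ι : Type*} [Fintype ι] [LinearOrder ι] (n : ℕ) : Op ι :=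
  diag fun S => if S.card = n then 1 else 0

section sectors
variable {ι : Type*} [Fintype ι] [LinearOrder ι]

theorem Pr_ket (n : ℕ) (S : Finset ι) :
    Pr n (ket S) = (if S.card = n then (1 : ℂ) else 0) • ket S := diag_ket _ _

theorem c_mul_Pr_succ (i : ι) (n : ℕ) : (c i * Pr (n + 1) : Op ι) = Pr n * c i := by
  refine op_ext fun S => ?_
  rw [mul_ap, mul_ap, Pr_ket, map_smul, c_ket]
  by_cases hi : i ∈ S
  · rw [if_pos hi, map_smul, Pr_ket, smul_comm]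
    congr 2
    have h := Finset.card_erase_add_one hi
    by_cases h1 : S.card = n + 1
    · rw [if_pos h1, if_pos (by omega)]
    · rw [if_neg h1, if_neg (by omega)]
  · rw [if_neg hi, smul_zero, map_zero]

theorem c_mul_Pr_zero (i : ι) : (c i * Pr 0 : Op ι) = 0 := by
  refine op_ext fun S => ?_
  rw [mul_ap, Pr_ket, map_smul, c_ket, zero_ap]
  by_cases hi : i ∈ S
  · rw [if_neg (Finset.card_ne_zero_of_mem hi), zero_smul]
  · rw [if_neg hi, smul_zero]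

theorem c_Pr_eq_zero {i : ι} {φ : Fk ι} (h : c i φ = 0) (n : ℕ) : c i (Pr n φ) = 0 := by
  rcases n with _ | n
  · exact congrArg (fun A : Op ι => A φ) (c_mul_Pr_zero i)
  · have := congrArg (fun A : Op ι => A φ) (c_mul_Pr_succ i n)
    simp only [mul_ap] at this
    rw [this, h, map_zero]

theorem star_Pr (n : ℕ) : star (Pr n : Op ι) = Pr n := by
  unfold Pr
  rw [star_diag]
  congr 1
  funext S
  simp only [Pi.star_apply]
  split_ifs <;> simp

theorem Pr_eq_self {n : ℕ} {ψ : Fk ι} (h : Nh ψ = (n : ℂ) • ψ) : Pr n ψ = ψ := by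
  ext S
  have h1 := congrArg (fun v : Fk ι => v S) h
  rw [Nh_eq] at h1
  simp only [diag_apply, PiLp.smul_apply, smul_eq_mul] at h1
  unfold Pr
  rw [diag_apply]
  by_cases hS : S.card = n
  · rw [if_pos hS, one_mul]
  · rw [if_neg hS, zero_mul]
    have h2 : ((S.card : ℂ) - n) * ψ S = 0 := by rw [sub_mul, h1, sub_self]
    rcases mul_eq_zero.mp h2 with h3 | h3
    · exfalso
      rw [sub_eq_zero] at h3
      exact hS (by exact_mod_cast h3)
    · exact h3.symm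

theorem Nh_Pr (n : ℕ) (ψ : Fk ι) : Nh (Pr n ψ) = (n : ℂ) • Pr n ψ := by
  ext S
  rw [Nh_eq]
  simp only [Pr, diag_apply, PiLp.smul_apply, smul_eq_mul]
  by_cases hS : S.card = n
  · rw [if_pos hS, hS]
  · rw [if_neg hS]; ring

end sectors

theorem bz_Pr_eq_zero {ν : ℕ → ℝ} {Q p : ℕ} {φ : Fk (Fin (Q + 1))} (h : bz ν Q p φ = 0) (n : ℕ) :
    bz ν Q p (Pr n φ) = 0 := by
  have hcc : ∀ m : ℕ, ∀ x : Fin (Q + 1) × Fin (Q + 1), (c x.2 * c x.1 * Pr (m + 2) :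
      Op (Fin (Q + 1))) = Pr m * (c x.2 * c x.1) := fun m x => by
    rw [mul_assoc, c_mul_Pr_succ, ← mul_assoc, c_mul_Pr_succ, mul_assoc]
  rcases n with _ | _ | m
  · have : bz ν Q p * Pr 0 = 0 := by
      unfold bz
      rw [sum_mul]
      refine sum_eq_zero fun x _ => ?_
      rw [smul_mul_assoc, mul_assoc, c_mul_Pr_zero, mul_zero, smul_zero]
    exact congrArg (fun A : Op (Fin (Q + 1)) => A φ) this
  · have : bz ν Q p * Pr (0 + 1) = 0 := by
      unfold bz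
      rw [sum_mul]
      refine sum_eq_zero fun x _ => ?_
      rw [smul_mul_assoc, mul_assoc, c_mul_Pr_succ, ← mul_assoc, c_mul_Pr_zero, zero_mul, smul_zero]
    exact congrArg (fun A : Op (Fin (Q + 1)) => A φ) this
  · have : bz ν Q p * Pr (m + 2) = Pr m * bz ν Q p := by
      unfold bz
      rw [sum_mul, mul_sum]
      refine sum_congr rfl fun x _ => ?_
      rw [smul_mul_assoc, hcc, mul_smul_comm]
    have h2 := congrArg (fun A : Op (Fin (Q + 1)) => A φ) this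
    simp only [mul_ap] at h2
    show bz ν Q p (Pr (m + 2) φ) = 0
    rw [h2, h, map_zero]

theorem Pr_mem_Zn {ν : ℕ → ℝ} {Q : ℕ} {φ : Fk (Fin (Q + 1))} (h : φ ∈ Zs ν Q) (n : ℕ) :
    Pr n φ ∈ Zn ν Q n := ⟨fun p => bz_Pr_eq_zero (h p) n, Nh_Pr n φ⟩

/-- orthogonality within the sector is enough -/
theorem orth_of_sector {ν : ℕ → ℝ} {Q n : ℕ} {k : Fin (Q + 1)} {ψ : Fk (Fin (Q + 1))}
    (hψ : ψ ∈ Zn ν Q n) (hort : ∀ φ ∈ Zn ν Q n, c k φ = 0 → ⟪φ, ψ⟫_ℂ = 0) :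
    ∀ φ ∈ Zs ν Q, c k φ = 0 → ⟪φ, ψ⟫_ℂ = 0 := by
  intro φ hφ h0
  have h1 := hort _ (Pr_mem_Zn hφ n) (c_Pr_eq_zero h0 n)
  rw [← star_Pr n, inner_star_left, Pr_eq_self hψ.2] at h1
  exact h1

/-- (G0) in the sector of `n` particles, all the geometries with `t 2 = 0` -/
theorem G0_sector {γ : ℝ} (hγ : 0 < γ) : ∃ κ : ℝ, 0 < κ ∧ κ ≤ 1 ∧
    ((∀ Q : ℕ, GapG (nu0 Q) Q γ) → ∀ t : Fin 3 → ℝ, Adm t → t 2 = 0 → ∀ Q n : ℕ,
      ∀ ψ ∈ Zn (nuT t (Q + 1)) (Q + 1) n,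
        (∀ φ ∈ Zn (nuT t (Q + 1)) (Q + 1) n, c (Fin.last (Q + 1)) φ = 0 → ⟪φ, ψ⟫_ℂ = 0) →
          κ * ‖ψ‖ ^ 2 ≤ ‖c (Fin.last (Q + 1)) ψ‖ ^ 2) := by
  obtain ⟨κ, h1, h2, h3⟩ := G0_all hγ
  exact ⟨κ, h1, h2, fun H t ht ht2 Q n ψ hψ hort =>
    h3 H t ht ht2 Q ψ hψ.1 (orth_of_sector hψ hort)⟩

theorem G_zero (i : ℕ) : G (fun _ => 0) i = 1 := by
  unfold PV341.G
  simp

theorem nuT_zero (Q : ℕ) : nuT (fun _ => 0) Q = nu0 Q := by
  funext j
  simp [nuT, G_zero]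

theorem Adm_zero : Adm fun _ => 0 := fun _ => ⟨le_rfl, by norm_num⟩

/-- (G0) in the round geometry: literal hypothesis of `Peel596.peel_step` -/
theorem G0_round {γ : ℝ} (hγ : 0 < γ) : ∃ κ : ℝ, 0 < κ ∧ κ ≤ 1 ∧
    ((∀ Q : ℕ, GapG (nu0 Q) Q γ) → ∀ Q n : ℕ, ∀ ψ ∈ Zn (nu0 (Q + 1)) (Q + 1) n,
        (∀ φ ∈ Zn (nu0 (Q + 1)) (Q + 1) n, c (Fin.last (Q + 1)) φ = 0 → ⟪φ, ψ⟫_ℂ = 0) →
          κ * ‖ψ‖ ^ 2 ≤ ‖c (Fin.last (Q + 1)) ψ‖ ^ 2) := by
  obtain ⟨κ, h1, h2, h3⟩ := G0_sector hγ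
  refine ⟨κ, h1, h2, fun H Q n => ?_⟩
  have := h3 H _ Adm_zero rfl Q n
  rw [nuT_zero] at this
  exact this

end Crest.Agent.R340.Geo986
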