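import Crest.Agent.R340.PV2_341

/-!
R340, pair-vector estimates, part 3 (helper341).
The change of metric `G`, `Gf` (helper986's `PV2`): `∑_p T_p² ≤ C / √B`.
-/

set_option autoImplicit false

namespace Crest.Agent.R340.PV341

open Finset

/-! ### discrete convexity -/

/-- second difference -/
def d2 (l : ℕ → ℝ) (m : ℕ) : ℝ := l (m + 2) + l m - 2 * l (m + 1)

lemma slope_sub (l : ℕ → ℝ) (u n : ℕ) :
    (l (u + n + 1) - l (u + n)) - (l (u + 1) - l u) = ∑ m ∈ range n, d2 l (u + m) := by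
  induction n with
  | zero => simp
  | succ n ih =>
    rw [Finset.sum_range_succ, ← ih]
    unfold d2
    have e1 : u + (n + 1) + 1 = u + n + 2 := by ring
    have e2 : u + (n + 1) = u + n + 1 := by ring
    rw [e1, e2]; ring

/-- comparison of a pair with the pair `n` steps further inside -/
lemma conv_steps (l : ℕ → ℝ) (κ : ℝ) (hκ : 0 ≤ κ) (n : ℕ) : ∀ (u v : ℕ), u + 2 * n ≤ v →
    (∀ m, u ≤ m → m + 2 ≤ v → 0 ≤ d2 l m ∧ d2 l m ≤ κ) →
    0 ≤ l u + l v - l (u + n) - l (v - n) ∧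
      l u + l v - l (u + n) - l (v - n) ≤ κ * (n * ((v : ℝ) - u)) := by
  induction n with
  | zero => intro u v _ _; simp
  | succ n ih =>
    intro u v huv h
    obtain ⟨w, rfl⟩ : ∃ w, v = u + w + 1 := ⟨v - u - 1, by omega⟩
    have h1 := slope_sub l u w
    have h2 : ∀ m ∈ range w, 0 ≤ d2 l (u + m) ∧ d2 l (u + m) ≤ κ := by
      intro m hm
      rw [Finset.mem_range] at hm
      exact h (u + m) (by omega) (by omega)
    have h3 : 0 ≤ ∑ m ∈ range w, d2 l (u + m) := Finset.sum_nonneg fun m hm => (h2 m hm).1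
    have h4 : ∑ m ∈ range w, d2 l (u + m) ≤ w * κ := by
      calc ∑ m ∈ range w, d2 l (u + m) ≤ ∑ m ∈ range w, κ := Finset.sum_le_sum fun m hm => (h2 m hm).2
        _ = w * κ := by rw [Finset.sum_const, Finset.card_range, nsmul_eq_mul]
    have h5 := ih (u + 1) (u + w) (by omega) (fun m hm1 hm2 => h m (by omega) (by omega))
    have e1 : u + 1 + n = u + (n + 1) := by ring
    have e2 : u + w + 1 - (n + 1) = u + w - n := by omega
    rw [e1] at h5
    rw [e2]
    have hw : (0 : ℝ) ≤ w := by positivity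
    have hn : (0 : ℝ) ≤ n := by positivity
    push_cast at h5 ⊢
    constructor
    · linarith [h5.1]
    · have h6 : κ * (n * ((u : ℝ) + w - (u + 1))) ≤ κ * (n * (w + 1)) := by
        apply mul_le_mul_of_nonneg_left _ hκ
        apply mul_le_mul_of_nonneg_left _ hn
        linarith
      have h7 : (w : ℝ) * κ ≤ κ * (w + 1) := by nlinarith
      have h8 : κ * (((n : ℝ) + 1) * (u + w + 1 - u)) = κ * (n * (w + 1)) + κ * (w + 1) := by ring
      rw [h8]
      linarith [h5.2]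

/-! ### the weights -/

/-- `G i = ∏_{k<3} (i+k+1)^{-t_k}` -/
noncomputable def G (t : Fin 3 → ℝ) (i : ℕ) : ℝ := ∏ k : Fin 3, ((i : ℝ) + k + 1) ^ (-(t k))

/-- log-affine continuation of `G` below `B` -/
noncomputable def Gf (t : Fin 3 → ℝ) (B i : ℕ) : ℝ :=
  if B ≤ i then G t i else G t B * (G t B / G t (B + 1)) ^ (B - i)

lemma G_pos (t : Fin 3 → ℝ) (i : ℕ) : 0 < G t i := by
  unfold G
  exact Finset.prod_pos fun k _ => Real.rpow_pos_of_pos (by positivity) _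

lemma Gf_pos (t : Fin 3 → ℝ) (B i : ℕ) : 0 < Gf t B i := by
  unfold Gf
  split_ifs
  · exact G_pos t i
  · exact mul_pos (G_pos t B) (pow_pos (div_pos (G_pos t B) (G_pos t (B + 1))) _)

lemma log_G (t : Fin 3 → ℝ) (i : ℕ) :
    Real.log (G t i) = - ∑ k : Fin 3, t k * Real.log ((i : ℝ) + k + 1) := by
  unfold G
  rw [Real.log_prod (fun k _ => (Real.rpow_pos_of_pos (by positivity) _).ne')]
  rw [← Finset.sum_neg_distrib]
  refine Finset.sum_congr rfl fun k _ => ?_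
  rw [Real.log_rpow (by positivity)]
  ring

lemma log_Gf (t : Fin 3 → ℝ) (B i : ℕ) :
    Real.log (Gf t B i) = if B ≤ i then Real.log (G t i) else
      Real.log (G t B) + ((B : ℝ) - i) * (Real.log (G t B) - Real.log (G t (B + 1))) := by
  unfold Gf
  split_ifs with h
  · rfl
  · rw [Real.log_mul (G_pos t B).ne' (pow_pos (div_pos (G_pos t B) (G_pos t (B + 1))) _).ne',
      Real.log_pow, Real.log_div (G_pos t B).ne' (G_pos t (B + 1)).ne', Nat.cast_sub (by omega)]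

/-- admissible exponents -/
def Adm (t : Fin 3 → ℝ) : Prop := ∀ k, 0 ≤ t k ∧ t k ≤ 1 / 2

lemma log_G_anti {t : Fin 3 → ℝ} (ht : Adm t) (i : ℕ) :
    Real.log (G t (i + 1)) ≤ Real.log (G t i) := by
  rw [log_G, log_G]
  apply neg_le_neg
  refine Finset.sum_le_sum fun k _ => ?_
  apply mul_le_mul_of_nonneg_left _ (ht k).1
  apply Real.log_le_log (by positivity)
  push_cast; linarith

lemma log_G_slope {t : Fin 3 → ℝ} (ht : Adm t) (i : ℕ) :
    (i : ℝ) * (Real.log (G t i) - Real.log (G t (i + 1))) ≤ 3 / 2 := by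
  rw [log_G, log_G]
  have e : - ∑ k : Fin 3, t k * Real.log ((i : ℝ) + k + 1) -
      - ∑ k : Fin 3, t k * Real.log (((i + 1 : ℕ) : ℝ) + k + 1) =
      ∑ k : Fin 3, t k * Real.log ((((i + 1 : ℕ) : ℝ) + k + 1) / ((i : ℝ) + k + 1)) := by
    rw [neg_sub_neg, ← Finset.sum_sub_distrib]
    refine Finset.sum_congr rfl fun k _ => ?_
    rw [Real.log_div (by positivity) (by positivity)]
    ring
  rw [e, Finset.mul_sum]
  have h : ∀ k ∈ (Finset.univ : Finset (Fin 3)), (i : ℝ) * (t k *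
      Real.log ((((i + 1 : ℕ) : ℝ) + k + 1) / ((i : ℝ) + k + 1))) ≤ 1 / 2 := by
    intro k _
    have h1 : Real.log ((((i + 1 : ℕ) : ℝ) + k + 1) / ((i : ℝ) + k + 1)) ≤
        1 / ((i : ℝ) + k + 1) := by
      have := Real.log_le_sub_one_of_pos
        (show 0 < (((i + 1 : ℕ) : ℝ) + k + 1) / ((i : ℝ) + k + 1) by positivity)
      have e2 : (((i + 1 : ℕ) : ℝ) + k + 1) / ((i : ℝ) + k + 1) - 1 = 1 / ((i : ℝ) + k + 1) := by
        push_cast
        field_simp
        ring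
      rwa [e2] at this
    have h2 : (i : ℝ) * (1 / ((i : ℝ) + k + 1)) ≤ 1 := by
      rw [mul_one_div, div_le_one (by positivity)]
      have : (0 : ℝ) ≤ k := by positivity
      linarith
    have h3 := (ht k).1
    have h4 := (ht k).2
    have h5 : (0 : ℝ) ≤ i := by positivity
    calc (i : ℝ) * (t k * Real.log ((((i + 1 : ℕ) : ℝ) + k + 1) / ((i : ℝ) + k + 1)))
        ≤ (i : ℝ) * (t k * (1 / ((i : ℝ) + k + 1))) := by gcongr
      _ = t k * ((i : ℝ) * (1 / ((i : ℝ) + k + 1))) := by ring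
      _ ≤ t k * 1 := by gcongr
      _ ≤ 1 / 2 := by linarith
  calc _ ≤ ∑ k : Fin 3, (1 / 2 : ℝ) := Finset.sum_le_sum h
    _ = 3 / 2 := by simp; norm_num

lemma log_G_nonpos {t : Fin 3 → ℝ} (ht : Adm t) (i : ℕ) : Real.log (G t i) ≤ 0 := by
  rw [log_G]
  have : 0 ≤ ∑ k : Fin 3, t k * Real.log ((i : ℝ) + k + 1) := by
    refine Finset.sum_nonneg fun k _ => mul_nonneg (ht k).1 (Real.log_nonneg ?_)
    have : (0 : ℝ) ≤ i := by positivity
    have : (0 : ℝ) ≤ k := by positivity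
    linarith
  linarith

lemma log_G_ge {t : Fin 3 → ℝ} (ht : Adm t) (i : ℕ) :
    -(3 / 2) * Real.log ((i : ℝ) + 3) ≤ Real.log (G t i) := by
  rw [log_G]
  have h : ∑ k : Fin 3, t k * Real.log ((i : ℝ) + k + 1) ≤
      ∑ k : Fin 3, (1 / 2) * Real.log ((i : ℝ) + 3) := by
    refine Finset.sum_le_sum fun k _ => ?_
    have hk : (k : ℝ) ≤ 2 := by exact_mod_cast (by omega : (k : ℕ) ≤ 2)
    have h1 : Real.log ((i : ℝ) + k + 1) ≤ Real.log ((i : ℝ) + 3) :=
      Real.log_le_log (by positivity) (by linarith)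
    have h2 : 0 ≤ Real.log ((i : ℝ) + k + 1) := by
      apply Real.log_nonneg
      have : (0 : ℝ) ≤ i := by positivity
      have : (0 : ℝ) ≤ k := by positivity
      linarith
    calc t k * Real.log ((i : ℝ) + k + 1) ≤ (1 / 2) * Real.log ((i : ℝ) + k + 1) := by
          apply mul_le_mul_of_nonneg_right (ht k).2 h2
      _ ≤ _ := by linarith
  have h3 : ∑ k : Fin 3, (1 / 2) * Real.log ((i : ℝ) + 3) = (3 / 2) * Real.log ((i : ℝ) + 3) := by
    simp; ring
  rw [h3] at h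
  linarith

/-- second difference of `log G` -/
lemma d2_log_G {t : Fin 3 → ℝ} (ht : Adm t) (m : ℕ) :
    0 ≤ d2 (fun i => Real.log (G t i)) m ∧
      d2 (fun i => Real.log (G t i)) m ≤ (3 / 2) / ((m : ℝ) + 1) ^ 2 := by
  have e : d2 (fun i => Real.log (G t i)) m =
      ∑ k : Fin 3, t k * Real.log (1 + 1 / (((m : ℝ) + k + 1) * ((m : ℝ) + k + 3))) := by
    unfold d2
    simp only [log_G]
    have : ∀ a b c : ℝ, -a + -b - 2 * -c = 2 * c - a - b := fun a b c => by ring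
    rw [this, Finset.mul_sum, ← Finset.sum_sub_distrib, ← Finset.sum_sub_distrib]
    refine Finset.sum_congr rfl fun k _ => ?_
    have e1 : 1 + 1 / (((m : ℝ) + k + 1) * ((m : ℝ) + k + 3)) =
        ((m : ℝ) + k + 2) ^ 2 / (((m : ℝ) + k + 1) * ((m : ℝ) + k + 3)) := by
      field_simp
      ring
    rw [e1, Real.log_div (by positivity) (by positivity), Real.log_pow,
      Real.log_mul (by positivity) (by positivity)]
    push_cast
    have e2 : (m : ℝ) + 1 + k + 1 = m + k + 2 := by ring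
    have e3 : (m : ℝ) + 2 + k + 1 = m + k + 3 := by ring
    rw [e2, e3]
    ring
  rw [e]
  constructor
  · refine Finset.sum_nonneg fun k _ => mul_nonneg (ht k).1 (Real.log_nonneg ?_)
    have : 0 ≤ 1 / (((m : ℝ) + k + 1) * ((m : ℝ) + k + 3)) := by positivity
    linarith
  · have h : ∀ k ∈ (Finset.univ : Finset (Fin 3)),
        t k * Real.log (1 + 1 / (((m : ℝ) + k + 1) * ((m : ℝ) + k + 3))) ≤
        (1 / 2) * (1 / ((m : ℝ) + 1) ^ 2) := by
      intro k _
      have h1 : Real.log (1 + 1 / (((m : ℝ) + k + 1) * ((m : ℝ) + k + 3))) ≤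
          1 / (((m : ℝ) + k + 1) * ((m : ℝ) + k + 3)) := by
        have := Real.log_le_sub_one_of_pos
          (show 0 < 1 + 1 / (((m : ℝ) + k + 1) * ((m : ℝ) + k + 3)) by positivity)
        linarith
      have h2 : 1 / (((m : ℝ) + k + 1) * ((m : ℝ) + k + 3)) ≤ 1 / ((m : ℝ) + 1) ^ 2 := by
        apply one_div_le_one_div_of_le (by positivity)
        have hk : (0 : ℝ) ≤ k := by positivity
        have hm : (0 : ℝ) ≤ m := by positivity
        nlinarith
      have h0 : 0 ≤ 1 / ((m : ℝ) + 1) ^ 2 := by positivity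
      calc _ ≤ t k * (1 / ((m : ℝ) + 1) ^ 2) :=
            mul_le_mul_of_nonneg_left (h1.trans h2) (ht k).1
        _ ≤ _ := mul_le_mul_of_nonneg_right (ht k).2 h0
    calc _ ≤ ∑ k : Fin 3, (1 / 2 : ℝ) * (1 / ((m : ℝ) + 1) ^ 2) := Finset.sum_le_sum h
      _ = _ := by simp; ring

/-- second difference of `log Gf` -/
lemma d2_log_Gf {t : Fin 3 → ℝ} (ht : Adm t) (B m : ℕ) :
    0 ≤ d2 (fun i => Real.log (Gf t B i)) m ∧
      d2 (fun i => Real.log (Gf t B i)) m ≤ (3 / 2) / ((m : ℝ) + 1) ^ 2 ∧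
      (m + 1 ≤ B → d2 (fun i => Real.log (Gf t B i)) m = 0) := by
  rcases le_or_gt B m with h | h
  · have e : d2 (fun i => Real.log (Gf t B i)) m = d2 (fun i => Real.log (G t i)) m := by
      unfold d2
      simp only [log_Gf]
      rw [if_pos (by omega), if_pos (by omega), if_pos (by omega)]
    rw [e]
    have := d2_log_G ht m
    exact ⟨this.1, this.2, fun hc => absurd hc (by omega)⟩
  · have e : d2 (fun i => Real.log (Gf t B i)) m = 0 := by
      unfold d2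
      simp only [log_Gf]
      rw [if_neg (by omega : ¬ B ≤ m)]
      rcases lt_trichotomy (m + 1) B with h1 | h1 | h1
      · rw [if_neg (by omega : ¬ B ≤ m + 1)]
        rcases lt_trichotomy (m + 2) B with h2 | h2 | h2
        · rw [if_neg (by omega : ¬ B ≤ m + 2)]
          push_cast; ring
        · rw [if_pos (by omega : B ≤ m + 2)]
          subst h2
          push_cast; ring
        · omega
      · rw [if_pos (by omega : B ≤ m + 1), if_pos (by omega : B ≤ m + 2)]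
        subst h1
        push_cast; ring
      · omega
    rw [e]
    exact ⟨le_rfl, by positivity, fun _ => rfl⟩

lemma log_Gf_anti {t : Fin 3 → ℝ} (ht : Adm t) (B i : ℕ) :
    Real.log (Gf t B (i + 1)) ≤ Real.log (Gf t B i) := by
  have hs := log_G_anti ht B
  rw [log_Gf, log_Gf]
  rcases lt_trichotomy (i + 1) B with h | h | h
  · rw [if_neg (by omega), if_neg (by omega)]
    push_cast
    nlinarith
  · rw [if_pos (by omega), if_neg (by omega)]
    subst h
    push_cast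
    linarith
  · rw [if_pos (by omega), if_pos (by omega)]
    exact log_G_anti ht i

lemma log_Gf_antitone {t : Fin 3 → ℝ} (ht : Adm t) (B : ℕ) :
    Antitone fun i => Real.log (Gf t B i) := antitone_nat_of_succ_le (log_Gf_anti ht B)

lemma log_Gf_le {t : Fin 3 → ℝ} (ht : Adm t) (B i : ℕ) : Real.log (Gf t B i) ≤ 3 / 2 := by
  rw [log_Gf]
  split_ifs with h
  · exact (log_G_nonpos ht i).trans (by norm_num)
  · have h1 := log_G_nonpos ht B
    have h2 := log_G_slope ht B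
    have h3 := log_G_anti ht B
    have h4 : (0 : ℝ) ≤ i := by positivity
    nlinarith

/-! ### the ratio -/

/-- the reference scalar `s_p = Gf ⌊P/2⌋ Gf ⌈P/2⌉`, `P = 2Q - p` -/
noncomputable def sp (t : Fin 3 → ℝ) (B P : ℕ) : ℝ := Gf t B (P / 2) * Gf t B (P - P / 2)

lemma sp_pos (t : Fin 3 → ℝ) (B P : ℕ) : 0 < sp t B P := mul_pos (Gf_pos _ _ _) (Gf_pos _ _ _)

lemma ratio_eq (t : Fin 3 → ℝ) (B r s : ℕ) :
    Gf t B r * Gf t B s / sp t B (r + s) = Real.exp (Real.log (Gf t B r) + Real.log (Gf t B s) -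
      Real.log (Gf t B ((r + s) / 2)) - Real.log (Gf t B (r + s - (r + s) / 2))) := by
  unfold sp
  rw [Real.exp_sub, Real.exp_sub, Real.exp_add, Real.exp_log (Gf_pos _ _ _),
    Real.exp_log (Gf_pos _ _ _), Real.exp_log (Gf_pos _ _ _), Real.exp_log (Gf_pos _ _ _),
    div_div]

/-- exponent bounds for the ratio -/
lemma ratio_exp {t : Fin 3 → ℝ} (ht : Adm t) (B r s : ℕ) (hrs : r ≤ s) :
    let δ := Real.log (Gf t B r) + Real.log (Gf t B s) -
      Real.log (Gf t B ((r + s) / 2)) - Real.log (Gf t B (r + s - (r + s) / 2))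
    0 ≤ δ ∧ δ ≤ (3 / 2) / ((r : ℝ) + 1) ^ 2 * (((s : ℝ) - r) ^ 2 / 2) ∧
      (r + s ≤ B → δ = 0) := by
  intro δ
  set n := (r + s) / 2 - r with hn
  have h1 : r + n = (r + s) / 2 := by omega
  have h2 : s - n = r + s - (r + s) / 2 := by omega
  have h3 : r + 2 * n ≤ s := by omega
  have hδ : δ = Real.log (Gf t B r) + Real.log (Gf t B s) - Real.log (Gf t B (r + n)) -
      Real.log (Gf t B (s - n)) := by rw [h1, h2]
  have hn2 : (n : ℝ) ≤ ((s : ℝ) - r) / 2 := by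
    have : ((r + 2 * n : ℕ) : ℝ) ≤ s := by exact_mod_cast h3
    push_cast at this
    linarith
  have hsr : (0 : ℝ) ≤ (s : ℝ) - r := by
    have : (r : ℝ) ≤ s := by exact_mod_cast hrs
    linarith
  have key := conv_steps (fun i => Real.log (Gf t B i)) ((3 / 2) / ((r : ℝ) + 1) ^ 2)
    (by positivity) n r s h3 (by
      intro m hm1 _
      have h := d2_log_Gf ht B m
      refine ⟨h.1, h.2.1.trans ?_⟩
      apply div_le_div_of_nonneg_left (by norm_num) (by positivity)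
      have : (r : ℝ) ≤ m := by exact_mod_cast hm1
      gcongr)
  refine ⟨by rw [hδ]; exact key.1, ?_, ?_⟩
  · rw [hδ]
    refine key.2.trans ?_
    apply mul_le_mul_of_nonneg_left _ (by positivity)
    calc (n : ℝ) * ((s : ℝ) - r) ≤ ((s : ℝ) - r) / 2 * ((s : ℝ) - r) := by gcongr
      _ = _ := by ring
  · intro hB
    have key2 := conv_steps (fun i => Real.log (Gf t B i)) 0 le_rfl n r s h3 (by
      intro m _ hm2
      have h := (d2_log_Gf ht B m).2.2 (by omega)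
      rw [h]
      exact ⟨le_rfl, le_rfl⟩)
    rw [hδ]
    have h4 := key2.2
    rw [zero_mul] at h4
    exact le_antisymm h4 key2.1

/-- crude bound -/
lemma ratio_crude {t : Fin 3 → ℝ} (ht : Adm t) (B r s : ℕ) (hB : B ≤ r + s) :
    Real.log (Gf t B r) + Real.log (Gf t B s) -
      Real.log (Gf t B ((r + s) / 2)) - Real.log (Gf t B (r + s - (r + s) / 2)) ≤
      3 + 3 * Real.log (((r + s : ℕ) : ℝ) + 3) := by
  have h1 := log_Gf_le ht B r
  have h2 := log_Gf_le ht B s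
  have h3 := log_Gf_antitone ht B (show (r + s) / 2 ≤ r + s by omega)
  have h4 := log_Gf_antitone ht B (show r + s - (r + s) / 2 ≤ r + s by omega)
  have h5 : -(3 / 2) * Real.log (((r + s : ℕ) : ℝ) + 3) ≤ Real.log (Gf t B (r + s)) := by
    rw [log_Gf, if_pos hB]
    exact log_G_ge ht (r + s)
  simp only at h3 h4
  linarith

/-- **pointwise bound for the ratio**: for `P = r + s ≥ 1`,
`0 ≤ ratio - 1 ≤ C (x²/P² + x⁸/P⁵)` -/
lemma ratio_bound : ∃ C : ℝ, 0 ≤ C ∧ ∀ (t : Fin 3 → ℝ), Adm t → ∀ (B r s : ℕ), r ≤ s →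
    1 ≤ r + s →
    |Gf t B r * Gf t B s / sp t B (r + s) - 1| ≤
      C * (((s : ℝ) - r) ^ 2 / ((r + s : ℕ) : ℝ) ^ 2 + ((s : ℝ) - r) ^ 8 / ((r + s : ℕ) : ℝ) ^ 5) ∧
    (r + s ≤ B → Gf t B r * Gf t B s / sp t B (r + s) - 1 = 0) := by
  refine ⟨12 * Real.exp 3 + Real.exp 3 * 64 * 256, by positivity, ?_⟩
  intro t ht B r s hrs hP
  have hE := ratio_exp ht B r s hrs
  simp only at hE
  set δ := Real.log (Gf t B r) + Real.log (Gf t B s) -
      Real.log (Gf t B ((r + s) / 2)) - Real.log (Gf t B (r + s - (r + s) / 2)) with hδ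
  rw [ratio_eq, ← hδ]
  have hP' : (1 : ℝ) ≤ ((r + s : ℕ) : ℝ) := by exact_mod_cast hP
  set P : ℝ := ((r + s : ℕ) : ℝ) with hPdef
  have hPrs : P = r + s := by rw [hPdef]; push_cast; ring
  have hx : (0 : ℝ) ≤ (s : ℝ) - r := by
    have : (r : ℝ) ≤ s := by exact_mod_cast hrs
    linarith
  set x : ℝ := (s : ℝ) - r with hxdef
  have hxP : x ≤ P := by
    have : (0 : ℝ) ≤ r := by positivity
    rw [hPrs, hxdef]; linarith
  have hnn : 0 ≤ Real.exp δ - 1 := by
    have := Real.one_le_exp hE.1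
    linarith
  refine ⟨?_, fun hB => by rw [hE.2.2 hB]; simp⟩
  rcases le_or_gt (r + s) B with hB | hB
  · rw [hE.2.2 hB]
    simp only [Real.exp_zero, sub_self, abs_zero]
    positivity
  rw [abs_of_nonneg hnn]
  rcases le_or_gt P (4 * r) with hr | hr
  · -- both indices of order `P`
    have h1 : δ ≤ 12 * (x ^ 2 / P ^ 2) := by
      refine hE.2.1.trans ?_
      have h2 : P / 4 ≤ (r : ℝ) + 1 := by linarith
      have h3 : (P / 4) ^ 2 ≤ ((r : ℝ) + 1) ^ 2 := by gcongr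
      calc (3 / 2) / ((r : ℝ) + 1) ^ 2 * (x ^ 2 / 2) ≤ (3 / 2) / (P / 4) ^ 2 * (x ^ 2 / 2) := by
            gcongr
        _ = 12 * (x ^ 2 / P ^ 2) := by
            field_simp
            ring
    have h4 : x ^ 2 / P ^ 2 ≤ 1 / 4 := by
      rw [div_le_iff₀ (by positivity)]
      have h5 : 2 * x ≤ P := by
        rw [hPrs, hxdef] at *
        linarith
      nlinarith
    have h6 : δ ≤ 3 := by linarith
    have h7 : Real.exp δ - 1 ≤ δ * Real.exp δ := by
      have := Real.add_one_le_exp (-δ)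
      have h8 : Real.exp (-δ) * Real.exp δ = 1 := by rw [← Real.exp_add]; simp
      nlinarith [Real.exp_pos δ]
    have h9 : Real.exp δ ≤ Real.exp 3 := Real.exp_le_exp.2 h6
    have h10 : 0 ≤ x ^ 2 / P ^ 2 := by positivity
    have h11 : 0 ≤ x ^ 8 / P ^ 5 := by positivity
    have hE3 := Real.exp_pos 3
    calc Real.exp δ - 1 ≤ δ * Real.exp δ := h7
      _ ≤ 12 * (x ^ 2 / P ^ 2) * Real.exp 3 := by
          apply mul_le_mul h1 h9 (Real.exp_pos δ).le (by positivity)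
      _ ≤ _ := by nlinarith [mul_nonneg hE3.le h10, mul_nonneg hE3.le h11]
  · -- one index small
    have h1 := ratio_crude ht B r s hB.le
    rw [← hδ, ← hPdef] at h1
    have h2 : Real.exp δ ≤ Real.exp 3 * (P + 3) ^ 3 := by
      calc Real.exp δ ≤ Real.exp (3 + 3 * Real.log (P + 3)) := Real.exp_le_exp.2 h1
        _ = _ := by
          rw [Real.exp_add]
          congr 1
          rw [show 3 * Real.log (P + 3) = Real.log ((P + 3) ^ 3) by
            rw [Real.log_pow]; push_cast; ring]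
          rw [Real.exp_log (by positivity)]
    have h3 : (P + 3) ^ 3 ≤ 64 * P ^ 3 := by
      calc (P + 3) ^ 3 ≤ (4 * P) ^ 3 := by gcongr; linarith
        _ = _ := by ring
    have h4 : P ≤ 2 * x := by
      rw [hPrs, hxdef] at *
      linarith
    have h5 : P ^ 3 ≤ 256 * (x ^ 8 / P ^ 5) := by
      rw [← mul_div_assoc, le_div_iff₀ (by positivity)]
      calc P ^ 3 * P ^ 5 = P ^ 8 := by ring
        _ ≤ (2 * x) ^ 8 := by gcongr
        _ = _ := by ring
    have hE3 := Real.exp_pos 3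
    have h10 : 0 ≤ x ^ 2 / P ^ 2 := by positivity
    have h11 : 0 ≤ x ^ 8 / P ^ 5 := by positivity
    calc Real.exp δ - 1 ≤ Real.exp 3 * (64 * (256 * (x ^ 8 / P ^ 5))) := by
          have : Real.exp 3 * (P + 3) ^ 3 ≤ Real.exp 3 * (64 * (256 * (x ^ 8 / P ^ 5))) := by
            apply mul_le_mul_of_nonneg_left _ hE3.le
            linarith
          linarith
      _ ≤ _ := by nlinarith [mul_nonneg hE3.le h10, mul_nonneg hE3.le h11]

/-! ### the sum over `p` -/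

/-- `T_p = ∑_{i<j} β |ratio - 1|` -/
noncomputable def Tp (t : Fin 3 → ℝ) (B Q p : ℕ) : ℝ :=
  ∑ i ∈ half Q p, beta Q p i *
    |Gf t B (Q - i) * Gf t B (Q - (p - i)) / sp t B (2 * Q - p) - 1|

/-- bound for a single `p` -/
lemma Tp_bound : ∃ C : ℝ, 0 ≤ C ∧ ∀ (t : Fin 3 → ℝ), Adm t → ∀ (B Q p : ℕ), p ≤ 2 * Q - 1 →
    1 ≤ Q → Tp t B Q p ^ 2 ≤ (if 2 * Q - p ≤ B then 0 else
      C * (√((2 * Q - p : ℕ) : ℝ) / ((2 * Q - p : ℕ) : ℝ) ^ 2)) := by
  obtain ⟨C0, hC0, h0⟩ := ratio_bound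
  obtain ⟨C2, hC2, h2⟩ := l1_mom 2
  obtain ⟨C8, hC8, h8⟩ := l1_mom 8
  refine ⟨2 * C0 ^ 2 * (C2 + C8), by positivity, ?_⟩
  intro t ht B Q p hp hQ
  have hPpos : 1 ≤ 2 * Q - p := by omega
  have hP' : (1 : ℝ) ≤ ((2 * Q - p : ℕ) : ℝ) := by exact_mod_cast hPpos
  -- the indices
  have hidx : ∀ i ∈ half Q p, (Q - (p - i)) + (Q - i) = 2 * Q - p ∧ Q - (p - i) ≤ Q - i ∧
      ((Q - i : ℕ) : ℝ) - ((Q - (p - i) : ℕ) : ℝ) = xx p i := by
    intro i hi
    have hi' := mem_half.1 hi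
    refine ⟨by omega, by omega, ?_⟩
    rw [Nat.cast_sub (by omega), Nat.cast_sub (by omega), Nat.cast_sub (by omega)]
    unfold xx; ring
  split_ifs with hB
  · have : Tp t B Q p = 0 := by
      unfold Tp
      refine Finset.sum_eq_zero fun i hi => ?_
      obtain ⟨e1, e2, _⟩ := hidx i hi
      have := (h0 t ht B _ _ e2 (by omega)).2 (by omega)
      rw [e1] at this
      rw [mul_comm (Gf t B (Q - i)), this]
      simp
    rw [this]; simp
  · set P : ℝ := ((2 * Q - p : ℕ) : ℝ) with hPdef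
    have hd : (dd Q p : ℝ) ≤ P := by
      rw [hPdef]
      exact_mod_cast min_le_right _ _
    have hle : Tp t B Q p ≤ C0 * ((∑ i ∈ half Q p, beta Q p i * xx p i ^ 2) / P ^ 2 +
        (∑ i ∈ half Q p, beta Q p i * xx p i ^ 8) / P ^ 5) := by
      unfold Tp
      rw [Finset.sum_div, Finset.sum_div, ← Finset.sum_add_distrib, Finset.mul_sum]
      refine Finset.sum_le_sum fun i hi => ?_
      obtain ⟨e1, e2, e3⟩ := hidx i hi
      have h := (h0 t ht B _ _ e2 (by omega)).1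
      rw [e1, e3, ← hPdef] at h
      rw [mul_comm (Gf t B (Q - i))]
      calc beta Q p i * |Gf t B (Q - (p - i)) * Gf t B (Q - i) / sp t B (2 * Q - p) - 1|
          ≤ beta Q p i * (C0 * (xx p i ^ 2 / P ^ 2 + xx p i ^ 8 / P ^ 5)) :=
            mul_le_mul_of_nonneg_left h (beta_nonneg _ _ _)
        _ = _ := by ring
    have hT0 : 0 ≤ Tp t B Q p :=
      Finset.sum_nonneg fun i _ => mul_nonneg (beta_nonneg _ _ _) (abs_nonneg _)
    have hPp : 0 < P := by linarith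
    have k2 := h2 Q p P hPp hd
    have k8 := h8 Q p P hPp hd
    set A := ∑ i ∈ half Q p, beta Q p i * xx p i ^ 2
    set D := ∑ i ∈ half Q p, beta Q p i * xx p i ^ 8
    have hs : 0 ≤ √P := Real.sqrt_nonneg _
    calc Tp t B Q p ^ 2 ≤ (C0 * (A / P ^ 2 + D / P ^ 5)) ^ 2 := by gcongr
      _ ≤ 2 * C0 ^ 2 * (A ^ 2 / P ^ 4 + D ^ 2 / P ^ 10) := by
          have : (A / P ^ 2 + D / P ^ 5) ^ 2 ≤ 2 * ((A / P ^ 2) ^ 2 + (D / P ^ 5) ^ 2) := by
            nlinarith [sq_nonneg (A / P ^ 2 - D / P ^ 5)]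
          have e1 : (A / P ^ 2) ^ 2 = A ^ 2 / P ^ 4 := by rw [div_pow]; ring
          have e2 : (D / P ^ 5) ^ 2 = D ^ 2 / P ^ 10 := by rw [div_pow]; ring
          rw [e1, e2] at this
          rw [mul_pow]
          nlinarith [sq_nonneg C0]
      _ ≤ 2 * C0 ^ 2 * (C2 * √P * P ^ 2 / P ^ 4 + C8 * √P * P ^ 8 / P ^ 10) := by gcongr
      _ = 2 * C0 ^ 2 * (C2 + C8) * (√P / P ^ 2) := by
          field_simp

lemma sqrt_div_sq_le (n : ℕ) (hn : 1 ≤ n) :
    √(n : ℝ) / (n : ℝ) ^ 2 ≤ 4 * (1 / √(n : ℝ) - 1 / √((n : ℝ) + 1)) := by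
  have hn' : (1 : ℝ) ≤ n := by exact_mod_cast hn
  have h1 : 0 < √(n : ℝ) := Real.sqrt_pos.2 (by linarith)
  have h2 : 0 < √((n : ℝ) + 1) := Real.sqrt_pos.2 (by linarith)
  have e1 : (n : ℝ) = √(n : ℝ) ^ 2 := (Real.sq_sqrt (by linarith)).symm
  have e2 : √((n : ℝ) + 1) ^ 2 = n + 1 := Real.sq_sqrt (by linarith)
  set a := √(n : ℝ) with ha
  set b := √((n : ℝ) + 1) with hb
  have hab : b ^ 2 = a ^ 2 + 1 := by rw [e2, ← e1]
  have ha1 : 1 ≤ a := by
    rw [ha]
    exact Real.one_le_sqrt.2 hn'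
  have hb2 : b ≤ 3 / 2 * a := by
    apply le_of_sq_le_sq _ (by positivity)
    rw [hab]; nlinarith
  rw [e1]
  have e3 : a / (a ^ 2) ^ 2 = 1 / a ^ 3 := by field_simp
  rw [e3]
  have e4 : 4 * (1 / a - 1 / b) = 4 * ((b - a) / (a * b)) := by
    field_simp
  have e5 : b - a = 1 / (b + a) := by
    rw [eq_div_iff (by positivity)]
    nlinarith
  rw [e4, e5, div_div, ← mul_div_assoc, mul_one, div_le_div_iff₀ (by positivity) (by positivity)]
  -- `(b+a) a b ≤ 4 a³`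
  have : (b + a) * (a * b) ≤ 4 * a ^ 3 := by
    calc (b + a) * (a * b) ≤ (3 / 2 * a + a) * (a * (3 / 2 * a)) := by gcongr
      _ = 15 / 4 * a ^ 3 := by ring
      _ ≤ 4 * a ^ 3 := by nlinarith [pow_pos h1 3]
  linarith
where
  le_of_sq_le_sq {x y : ℝ} (h : x ^ 2 ≤ y ^ 2) (hy : 0 ≤ y) : x ≤ y :=
    abs_le_of_sq_le_sq' h hy |>.2

lemma tail_sum (B n : ℕ) :
    ∑ P ∈ Finset.Ico (B + 1) n, √(P : ℝ) / (P : ℝ) ^ 2 ≤ 4 / √((B : ℝ) + 1) := by
  rcases le_or_gt n (B + 1) with h | h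
  · rw [Finset.Ico_eq_empty (by omega)]; simp; positivity
  have key : ∀ m, B + 1 ≤ m → ∑ P ∈ Finset.Ico (B + 1) m, √(P : ℝ) / (P : ℝ) ^ 2 ≤
      4 * (1 / √((B : ℝ) + 1) - 1 / √(m : ℝ)) := by
    intro m hm
    induction m, hm using Nat.le_induction with
    | base => simp
    | succ m hm ih =>
      rw [Finset.sum_Ico_succ_top hm]
      have := sqrt_div_sq_le m (by omega)
      push_cast
      linarith
  have h1 := key n h.le
  have h2 : 0 ≤ 1 / √(n : ℝ) := by positivity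
  have h3 : 4 / √((B : ℝ) + 1) = 4 * (1 / √((B : ℝ) + 1)) := by ring
  rw [h3]
  linarith

/-- **PV2** (helper986's form): the total squared deviation is `≤ C/√B`. -/
theorem PV2 : ∃ C : ℝ, 0 ≤ C ∧ ∀ (t : Fin 3 → ℝ), Adm t → ∀ (B Q : ℕ), 1 ≤ Q → 1 ≤ B →
    ∑ p ∈ Finset.Icc 1 (2 * Q - 1), Tp t B Q p ^ 2 ≤ C / √(B : ℝ) := by
  obtain ⟨C, hC, h⟩ := Tp_bound
  refine ⟨4 * C, by positivity, fun t ht B Q hQ hB => ?_⟩
  have h1 : ∑ p ∈ Finset.Icc 1 (2 * Q - 1), Tp t B Q p ^ 2 ≤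
      ∑ p ∈ Finset.Icc 1 (2 * Q - 1), (if 2 * Q - p ≤ B then 0 else
      C * (√((2 * Q - p : ℕ) : ℝ) / ((2 * Q - p : ℕ) : ℝ) ^ 2)) :=
    Finset.sum_le_sum fun p hp => h t ht B Q p (Finset.mem_Icc.1 hp).2 hQ
  have h2 : ∑ p ∈ Finset.Icc 1 (2 * Q - 1), (if 2 * Q - p ≤ B then 0 else
      C * (√((2 * Q - p : ℕ) : ℝ) / ((2 * Q - p : ℕ) : ℝ) ^ 2)) =
      ∑ P ∈ Finset.Icc 1 (2 * Q - 1), (if P ≤ B then 0 else C * (√(P : ℝ) / (P : ℝ) ^ 2)) := by
    refine Finset.sum_nbij' (fun p => 2 * Q - p) (fun P => 2 * Q - P) ?_ ?_ ?_ ?_ ?_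
    · intro p hp; rw [Finset.mem_Icc] at hp ⊢; omega
    · intro p hp; rw [Finset.mem_Icc] at hp ⊢; omega
    · intro p hp; rw [Finset.mem_Icc] at hp; omega
    · intro p hp; rw [Finset.mem_Icc] at hp; omega
    · intro p _; rfl
  have h3 : ∑ P ∈ Finset.Icc 1 (2 * Q - 1), (if P ≤ B then 0 else C * (√(P : ℝ) / (P : ℝ) ^ 2)) ≤
      C * ∑ P ∈ Finset.Ico (B + 1) (2 * Q), √(P : ℝ) / (P : ℝ) ^ 2 := by
    have h4 : ∑ P ∈ Finset.Icc 1 (2 * Q - 1),
        (if P ≤ B then 0 else C * (√(P : ℝ) / (P : ℝ) ^ 2)) =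
        ∑ P ∈ (Finset.Icc 1 (2 * Q - 1)).filter (fun P => ¬ P ≤ B),
          C * (√(P : ℝ) / (P : ℝ) ^ 2) := by
      rw [Finset.sum_filter]
      refine Finset.sum_congr rfl fun P _ => ?_
      by_cases hPB : P ≤ B
      · rw [if_pos hPB, if_neg (by simpa using hPB)]
      · rw [if_neg hPB, if_pos hPB]
    rw [h4, Finset.mul_sum]
    refine Finset.sum_le_sum_of_subset_of_nonneg ?_ fun _ _ _ => by positivity
    intro P hP
    simp only [Finset.mem_filter, Finset.mem_Icc, Finset.mem_Ico] at hP ⊢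
    omega
  have h5 := tail_sum B (2 * Q)
  have h6 : √(B : ℝ) ≤ √((B : ℝ) + 1) := Real.sqrt_le_sqrt (by linarith)
  have hB' : (0 : ℝ) < B := by exact_mod_cast hB
  have h7 : 0 < √(B : ℝ) := Real.sqrt_pos.2 hB'
  calc _ ≤ _ := h1
    _ = _ := h2
    _ ≤ _ := h3
    _ ≤ C * (4 / √((B : ℝ) + 1)) := by gcongr
    _ ≤ C * (4 / √(B : ℝ)) := by gcongr
    _ = _ := by ring

end Crest.Agent.R340.PV341
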