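import Crest.Agent.R340.GeoB_986
import Crest.Agent.R340.PV3_341

/-!
R340, block L2 = GEOMETRY (helper986), part 5: the gap inequality holds in all the geometries
`nuT t Q`, uniformly in `Q` and `t ∈ [0,1/2]³`, as soon as it holds for `nu0 Q` (uniformly in `Q`).
-/

set_option autoImplicit false
open scoped InnerProductSpace ComplexConjugate

namespace Crest.Agent.R340.Geo986

open Fock649 Finset
open PV341 (Adm G Gf sp Tp half nrm beta aa xx)

/-- the round metric: `ν_j = 1 / √C(Q,j)` -/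
noncomputable def nu0 (Q : ℕ) : ℕ → ℝ := fun j => (√(Q.choose j : ℝ))⁻¹

/-- the metric `ν_j = C(Q,j)^{-1/2} ∏_{k<3} (Q-j+k+1)^{t_k}` -/
noncomputable def nuT (t : Fin 3 → ℝ) (Q : ℕ) : ℕ → ℝ :=
  nu0 Q * (fun j => G t (Q - j))⁻¹

theorem posM_nu0 (Q : ℕ) : PosM (nu0 Q) Q := fun j hj => by
  have : 0 < Q.choose j := Nat.choose_pos hj
  have : (0 : ℝ) < Q.choose j := by exact_mod_cast this
  unfold nu0
  positivity

theorem posM_G (t : Fin 3 → ℝ) (Q : ℕ) : PosM (fun j => G t (Q - j)) Q := fun _ _ => PV341.G_pos _ _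

theorem posM_Gf (t : Fin 3 → ℝ) (B Q : ℕ) : PosM (fun j => Gf t B (Q - j)) Q :=
  fun _ _ => PV341.Gf_pos _ _ _

theorem posM_nuT (t : Fin 3 → ℝ) (Q : ℕ) : PosM (nuT t Q) Q := (posM_nu0 Q).mul (posM_G t Q).inv

/-- reindexing of the pairs -/
theorem sum_pairs {M : Type*} [AddCommMonoid M] (Q p : ℕ) (f : ℕ → ℕ → M) :
    ∑ x ∈ pairs Q p, f x.1 x.2 = ∑ i ∈ half Q p, f i (p - i) := by
  refine sum_bij' (fun x _ => (x.1 : ℕ)) (fun i hi => (⟨i, ?_⟩, ⟨p - i, ?_⟩)) ?_ ?_ ?_ ?_ ?_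
  · have := PV341.mem_half.mp hi; omega
  · have := PV341.mem_half.mp hi; omega
  · intro x hx
    have h1 := (mem_pairs.mp hx).1
    have h2 := (mem_pairs.mp hx).2
    have h3 := x.2.isLt
    have h4 : (x.1 : ℕ) < x.2 := h1
    exact PV341.mem_half.mpr ⟨by omega, by omega⟩
  · intro i hi
    have := PV341.mem_half.mp hi
    refine mem_pairs.mpr ⟨?_, ?_⟩
    · show i < p - i
      omega
    · show i + (p - i) = p
      omega
  · intro x hx
    have h2 := (mem_pairs.mp hx).2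
    refine Prod.ext (Fin.ext rfl) (Fin.ext ?_)
    show p - (x.1 : ℕ) = x.2
    omega
  · intro i hi
    rfl
  · intro x hx
    have h2 := (mem_pairs.mp hx).2
    have : p - (x.1 : ℕ) = x.2 := by omega
    rw [this]

theorem pairs_nonempty_iff {Q p : ℕ} : (pairs Q p).Nonempty ↔ (half Q p).Nonempty := by
  constructor
  · rintro ⟨x, hx⟩
    obtain ⟨h1, h2⟩ := mem_pairs.mp hx
    have h3 := x.2.isLt
    have h4 : (x.1 : ℕ) < x.2 := h1
    exact ⟨x.1, PV341.mem_half.mpr ⟨by omega, by omega⟩⟩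
  · rintro ⟨i, hi⟩
    have := PV341.mem_half.mp hi
    refine ⟨(⟨i, by omega⟩, ⟨p - i, by omega⟩), mem_pairs.mpr ⟨?_, ?_⟩⟩
    · show i < p - i
      omega
    · show i + (p - i) = p
      omega

theorem bcoef_nu0 {Q p i : ℕ} (hi : i ∈ half Q p) :
    bcoef (nu0 Q) i (p - i) = |xx p i| * √(aa Q p i) := by
  have h := PV341.mem_half.mp hi
  have hx := PV341.xx_pos hi
  rw [abs_of_pos (by linarith)]
  unfold bcoef nu0 aa xx
  rw [Real.sqrt_mul (by positivity), Nat.cast_sub (by omega)]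
  rw [div_eq_mul_inv, mul_inv, inv_inv, inv_inv]
  ring

theorem nz_nu0 (Q p : ℕ) : nz (nu0 Q) Q p = nrm Q p := by
  unfold nz nrm
  rw [sum_pairs Q p (fun i j => bcoef (nu0 Q) i j ^ 2)]
  refine sum_congr rfl fun i hi => ?_
  rw [bcoef_nu0 hi, mul_pow, sq_abs, Real.sq_sqrt (PV341.aa_nonneg _ _ _), mul_comm]

theorem sum_bcoef_nu0 (Q p : ℕ) (f : ℕ → ℕ → ℝ) :
    ∑ x ∈ pairs Q p, bcoef (nu0 Q) x.1 x.2 / √(nz (nu0 Q) Q p) * f x.1 x.2 =
      ∑ i ∈ half Q p, beta Q p i * f i (p - i) := by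
  rw [sum_pairs Q p (fun i j => bcoef (nu0 Q) i j / √(nz (nu0 Q) Q p) * f i j)]
  refine sum_congr rfl fun i hi => ?_
  rw [bcoef_nu0 hi, nz_nu0]
  rfl

/-! ### the near ratio `Gf / G` -/

theorem log_Gf_le_log_G {t : Fin 3 → ℝ} (ht : Adm t) (B i : ℕ) :
    Real.log (Gf t B i) ≤ Real.log (G t i) := by
  rw [PV341.log_Gf]
  split_ifs with h
  · exact le_rfl
  · -- induction on the distance to `B`
    have key : ∀ n : ℕ, n ≤ B → Real.log (G t B) + (n : ℝ) *
        (Real.log (G t B) - Real.log (G t (B + 1))) ≤ Real.log (G t (B - n)) ∧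
        Real.log (G t B) - Real.log (G t (B + 1)) ≤
          Real.log (G t (B - n)) - Real.log (G t (B - n + 1)) := by
      intro n
      induction n with
      | zero => intro _; simp
      | succ n ih =>
        intro hn
        obtain ⟨h1, h2⟩ := ih (by omega)
        obtain ⟨m, rfl⟩ : ∃ m, B = m + n + 1 := ⟨B - n - 1, by omega⟩
        have h3 := (PV341.d2_log_G ht m).1
        unfold PV341.d2 at h3
        have e1 : m + n + 1 - n = m + 1 := by omega
        have e2 : m + n + 1 - (n + 1) = m := by omega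
        rw [e1] at h1 h2
        rw [e2]
        have e3 : m + 1 + 1 = m + 2 := rfl
        rw [e3] at h2
        push_cast
        constructor <;> nlinarith
    have := (key (B - i) (by omega)).1
    have e : B - (B - i) = i := by omega
    rw [e, Nat.cast_sub (by omega)] at this
    exact this

theorem Gf_le_G {t : Fin 3 → ℝ} (ht : Adm t) (B i : ℕ) : Gf t B i ≤ G t i :=
  (Real.log_le_log_iff (PV341.Gf_pos _ _ _) (PV341.G_pos _ _)).mp (log_Gf_le_log_G ht B i)

theorem G_le_one {t : Fin 3 → ℝ} (ht : Adm t) (i : ℕ) : G t i ≤ 1 := by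
  have := PV341.log_G_nonpos ht i
  rwa [Real.log_nonpos_iff (PV341.G_pos t i).le] at this

theorem rpow_le_G {t : Fin 3 → ℝ} (ht : Adm t) (i : ℕ) : ((i : ℝ) + 3) ^ (-(3 / 2) : ℝ) ≤ G t i := by
  have h := PV341.log_G_ge ht i
  rw [← Real.log_le_log_iff (Real.rpow_pos_of_pos (by positivity) _) (PV341.G_pos t i),
    Real.log_rpow (by positivity)]
  exact h

theorem G_B_le_Gf {t : Fin 3 → ℝ} (ht : Adm t) {B i : ℕ} (hi : i ≤ B) : G t B ≤ Gf t B i := by
  have h1 := PV341.log_Gf_antitone ht B hi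
  have h2 : Real.log (Gf t B B) = Real.log (G t B) := by rw [PV341.log_Gf, if_pos le_rfl]
  simp only at h1
  rw [h2] at h1
  exact (Real.log_le_log_iff (PV341.G_pos _ _) (PV341.Gf_pos _ _ _)).mp h1

/-! ### the theorem -/

theorem gap_all_geometries {γ : ℝ} (hγ : 0 < γ) : ∃ γ' : ℝ, 0 < γ' ∧ ∀ t : Fin 3 → ℝ, Adm t →
    ∀ Q : ℕ, GapG (nu0 Q) Q γ → GapG (nuT t Q) Q γ' := by
  obtain ⟨C, hC, hPV⟩ := PV341.PV2
  have hsq : 0 < √γ := Real.sqrt_pos.mpr hγ
  set ε : ℝ := min 1 (√γ / 2) with hε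
  have hε0 : 0 < ε := lt_min one_pos (by positivity)
  have hε1 : ε ≤ 1 := min_le_left _ _
  have hεγ : ε < √γ := lt_of_le_of_lt (min_le_right _ _) (by linarith)
  obtain ⟨B0, hB0⟩ := exists_nat_ge ((C / ε ^ 2) ^ 2)
  set B : ℕ := B0 + 1 with hB
  have hB1 : 1 ≤ B := by omega
  have hBr : (C / ε ^ 2) ^ 2 ≤ (B : ℝ) := by
    rw [hB]; push_cast; linarith
  have hCB : C / √(B : ℝ) ≤ ε ^ 2 := by
    have h1 : C / ε ^ 2 ≤ √(B : ℝ) := Real.le_sqrt_of_sq_le hBr
    have h2 : 0 < √(B : ℝ) := Real.sqrt_pos.mpr (by positivity)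
    rw [div_le_iff₀ (by positivity)] at h1
    rw [div_le_iff₀ h2]
    linarith
  set m : ℝ := ((B : ℝ) + 3) ^ (-(3 / 2) : ℝ) with hm
  have hm0 : 0 < m := Real.rpow_pos_of_pos (by positivity) _
  set γ1 : ℝ := ((√γ - ε) / (1 + ε)) ^ 2 with hγ1
  have hγ1p : 0 < γ1 := by
    have : 0 < √γ - ε := by linarith
    positivity
  refine ⟨m ^ (2 * (B + 2)) * γ1, by positivity, fun t ht Q hgap => ?_⟩
  have hm1 : m ≤ 1 := by
    have : ((B : ℝ) + 3) ^ (-(3 / 2) : ℝ) ≤ G t B := rpow_le_G ht B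
    exact this.trans (G_le_one ht B)
  have hfar : GapG (nu0 Q * (fun j => Gf t B (Q - j))⁻¹) Q γ1 := by
    refine far_step (posM_nu0 Q) (posM_Gf t B Q) (fun p => sp t B (2 * Q - p)) (Tp t B Q)
      (fun p => PV341.sp_pos _ _ _) hε0.le hεγ (fun p hp => ?_) (fun p => ?_) ?_ hgap
    · rw [sum_bcoef_nu0 Q p fun i j => |Gf t B (Q - i) * Gf t B (Q - j) / sp t B (2 * Q - p) - 1|]
      exact le_rfl
    · exact sum_nonneg fun i _ => mul_nonneg (PV341.beta_nonneg _ _ _) (abs_nonneg _)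
    · rcases Nat.eq_zero_or_pos Q with hQ | hQ
      · subst hQ; simp; positivity
      · have h1 := hPV t ht B Q hQ hB1
        have h2 : ∑ p ∈ range (2 * Q), Tp t B Q p ^ 2 = ∑ p ∈ Icc 1 (2 * Q - 1), Tp t B Q p ^ 2 := by
          have h0 : Tp t B Q 0 = 0 := by
            unfold Tp
            have : half Q 0 = ∅ := eq_empty_of_forall_notMem fun i hi => by
              have := PV341.mem_half.mp hi; omega
            rw [this, sum_empty]
          symm
          refine sum_subset (fun p hp => ?_) fun p hp hp' => ?_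
          · have := mem_Icc.mp hp
            exact mem_range.mpr (by omega)
          · have h3 := mem_range.mp hp
            have h4 : p = 0 := by
              by_contra hc
              exact hp' (mem_Icc.mpr ⟨by omega, by omega⟩)
            rw [h4, h0]; norm_num
        rw [h2]
        exact h1.trans hCB
  -- near step
  set ρ : ℕ → ℝ := fun j => Gf t B (Q - j) / G t (Q - j) with hρ
  have hlow : ∀ j ≤ Q, m ≤ ρ j := by
    intro j hj
    simp only [hρ]
    rcases le_or_gt (Q - j) B with h | h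
    · have h1 := G_B_le_Gf ht h
      have h2 := G_le_one ht (Q - j)
      have h3 := PV341.G_pos t (Q - j)
      rw [le_div_iff₀ h3]
      have h4 := rpow_le_G ht B
      calc m * G t (Q - j) ≤ m * 1 := by gcongr
        _ = m := mul_one _
        _ ≤ _ := h4.trans h1
    · have : Gf t B (Q - j) = G t (Q - j) := by
        unfold PV341.Gf; rw [if_pos h.le]
      rw [this, div_self (PV341.G_pos _ _).ne']
      exact hm1
  have hup : ∀ j ≤ Q, ρ j ≤ 1 := by
    intro j hj
    simp only [hρ]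
    rw [div_le_one (PV341.G_pos _ _)]
    exact Gf_le_G ht B _
  have hone : ∀ j, j + B ≤ Q → ρ j = 1 := by
    intro j hj
    simp only [hρ]
    have : Gf t B (Q - j) = G t (Q - j) := by
      unfold PV341.Gf; rw [if_pos (by omega)]
    rw [this, div_self (PV341.G_pos _ _).ne']
  have hnear := near_step ((posM_nu0 Q).mul (posM_Gf t B Q).inv) hm0 hm1 hlow hup hone hγ1p.le hfar
  have e : nu0 Q * (fun j => Gf t B (Q - j))⁻¹ * ρ = nuT t Q := by
    funext j
    have h1 := (PV341.Gf_pos t B (Q - j)).ne'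
    simp only [nuT, Pi.mul_apply, Pi.inv_apply, hρ]
    field_simp
  rwa [e] at hnear

end Crest.Agent.R340.Geo986
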