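import Crest.Agent.R340.PathStep2_880
import Crest.Agent.R340.Fock_649

/-!
# R340, doc 1094 sections 3/4/5: the path half of the A/B steps on Fock space (helper880)

`TT Q f = dG (diag f)`; `Gm b Q θ = Gd (exp (-(θ/2) g))` moves the zero mode space along the metrics
`ν_θ(j)² = j! (Q-j)! ∏_{k<b} (Q-j+k+1)^θ`.
* `path_general`: first-time theorem for `D_θ = c(θ) - 3 C(θ) dG f - X`;
* `path_weak`: constant `D`, PSD estimate + clustering estimate as hypotheses.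
-/

set_option autoImplicit false

namespace Crest.Agent.R340.PathStep880

open Finset Set
open Crest.Agent.R340.Scal725 (dd prof)
open Crest.Agent.R340.Fock649

/-! ### 1. radial one-body operators -/

/-- `dG (diag f)` as a continuous linear map. -/
noncomputable def TTf (Q : ℕ) (f : ℕ → ℝ) : Fk (Fin (Q + 1)) →L[ℂ] Fk (Fin (Q + 1)) :=
  (dG (Matrix.diagonal fun i : Fin (Q + 1) => ((f i : ℝ) : ℂ))).ap

theorem TTf_apply (Q : ℕ) (f : ℕ → ℝ) (v : Fk (Fin (Q + 1))) (S : Finset (Fin (Q + 1))) :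
    TTf Q f v S = ((∑ i ∈ S, f i : ℝ) : ℂ) * v S := by
  unfold TTf
  have h := dG_diagonal fun i : Fin (Q + 1) => ((f i : ℝ) : ℂ)
  rw [h]
  have h2 := diag_apply (fun S : Finset (Fin (Q + 1)) => ∑ i ∈ S, ((f i : ℝ) : ℂ)) v S
  rw [Complex.ofReal_sum]
  exact h2

/-- `dG (diag f)`, real-linear in `f`. -/
noncomputable def TT (Q : ℕ) :
    (ℕ → ℝ) →ₗ[ℝ] (Fk (Fin (Q + 1)) →L[ℂ] Fk (Fin (Q + 1))) where
  toFun f := TTf Q f
  map_add' f g := by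
    ext v S
    have h : (TTf Q f + TTf Q g) v = TTf Q f v + TTf Q g v := rfl
    rw [h, PiLp.add_apply, TTf_apply, TTf_apply, TTf_apply]
    simp only [Pi.add_apply, sum_add_distrib]
    push_cast; ring
  map_smul' a f := by
    ext v S
    have h : ((RingHom.id ℝ) a • TTf Q f) v = (a : ℂ) • TTf Q f v := rfl
    rw [h, PiLp.smul_apply, TTf_apply, TTf_apply]
    simp only [Pi.smul_apply, smul_eq_mul, ← mul_sum]
    push_cast; ring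

theorem TT_apply (Q : ℕ) (f : ℕ → ℝ) (v : Fk (Fin (Q + 1))) (S : Finset (Fin (Q + 1))) :
    TT Q f v S = ((∑ i ∈ S, f i : ℝ) : ℂ) * v S := TTf_apply Q f v S

theorem TT_eq_dG (Q : ℕ) (f : ℕ → ℝ) :
    TT Q f = (dG (Matrix.diagonal fun i : Fin (Q + 1) => ((f i : ℝ) : ℂ))).ap := rfl

theorem TT_congr {Q : ℕ} {f g : ℕ → ℝ} (h : ∀ j ≤ Q, f j = g j) : TT Q f = TT Q g := by
  ext v S
  have e : ∑ i ∈ S, f i = ∑ i ∈ S, g i := sum_congr rfl fun i _ => h _ (Nat.lt_succ_iff.1 i.2)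
  rw [TT_apply, TT_apply, e]

theorem TT_one (Q : ℕ) : TT Q (fun _ => 1) = (Nh : Op (Fin (Q + 1))).ap := by
  rw [TT_eq_dG]
  unfold Nh
  congr 2

theorem inner_TT (Q : ℕ) (f : ℕ → ℝ) (v w : Fk (Fin (Q + 1))) :
    inner ℂ (TT Q f v) w = inner ℂ v (TT Q f w) := by
  have h : star (dG (Matrix.diagonal fun i : Fin (Q + 1) => ((f i : ℝ) : ℂ))) =
      dG (Matrix.diagonal fun i : Fin (Q + 1) => ((f i : ℝ) : ℂ)) := by
    rw [star_dG, Matrix.diagonal_conjTranspose]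
    congr 2
    ext i
    simp
  have h2 := inner_star_left (dG (Matrix.diagonal fun i : Fin (Q + 1) => ((f i : ℝ) : ℂ))) v w
  rw [h] at h2
  exact h2

/-! ### 2. the moving metric -/

/-- `Gd (exp (-(θ/2) g))`. -/
noncomputable def Gm (b Q : ℕ) (θ : ℝ) : Fk (Fin (Q + 1)) →L[ℂ] Fk (Fin (Q + 1)) :=
  (Gd fun i : Fin (Q + 1) => ((Real.exp (-(θ / 2) * gm b Q i) : ℝ) : ℂ)).ap

theorem Gm_apply (b Q : ℕ) (θ : ℝ) (v : Fk (Fin (Q + 1))) (S : Finset (Fin (Q + 1))) :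
    Gm b Q θ v S = ((Real.exp (-(θ / 2) * ∑ i ∈ S, gm b Q i) : ℝ) : ℂ) * v S := by
  have h : Gm b Q θ v S =
      (∏ i ∈ S, ((Real.exp (-(θ / 2) * gm b Q i) : ℝ) : ℂ)) * v S := diag_apply _ v S
  rw [h, mul_sum, Real.exp_sum, Complex.ofReal_prod]

theorem Gm_zero (b Q : ℕ) : Gm b Q 0 = ContinuousLinearMap.id ℂ _ := by
  ext v S
  rw [Gm_apply]
  simp

theorem Gm_injective (b Q : ℕ) (θ : ℝ) : Function.Injective (Gm b Q θ) := by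
  intro v w h
  ext S
  have h1 := congrArg (fun x : Fk (Fin (Q + 1)) => x S) h
  simp only [Gm_apply] at h1
  exact mul_left_cancel₀ (by exact_mod_cast (Real.exp_pos _).ne') h1

theorem TT_Gm (b Q : ℕ) (θ : ℝ) (f : ℕ → ℝ) (v : Fk (Fin (Q + 1))) :
    TT Q f (Gm b Q θ v) = Gm b Q θ (TT Q f v) := by
  ext S
  rw [TT_apply, Gm_apply, Gm_apply, TT_apply]
  ring

theorem fk_sum_coord {κ : Type*} [Fintype κ] [DecidableEq κ] (v : Fk κ) :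
    v = ∑ S, v S • EuclideanSpace.single S (1 : ℂ) := by
  ext T
  rw [WithLp.ofLp_sum, Finset.sum_apply]
  simp [PiLp.smul_apply, smul_eq_mul, PiLp.single_apply]

theorem hasDerivAt_Gm (b Q : ℕ) (θ : ℝ) (F : Fk (Fin (Q + 1))) :
    HasDerivAt (fun t => Gm b Q t F) (-(1 / 2 : ℂ) • TT Q (gm b Q) (Gm b Q θ F)) θ := by
  have e1 : (fun t => Gm b Q t F) = fun t => ∑ S : Finset (Fin (Q + 1)),
      (((Real.exp (-(t / 2) * ∑ i ∈ S, gm b Q i) : ℝ) : ℂ) * F S) •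
        (ket S : Fk (Fin (Q + 1))) := by
    funext t
    conv_lhs => rw [fk_eq_sum (Gm b Q t F)]
    refine sum_congr rfl fun S _ => ?_
    rw [Gm_apply]
  have e2 : -(1 / 2 : ℂ) • TT Q (gm b Q) (Gm b Q θ F) = ∑ S : Finset (Fin (Q + 1)),
      (((-(1 / 2) * (∑ i ∈ S, gm b Q i) * Real.exp (-(θ / 2) * ∑ i ∈ S, gm b Q i) : ℝ) : ℂ) * F S) •
        (ket S : Fk (Fin (Q + 1))) := by
    conv_lhs => rw [fk_eq_sum (-(1 / 2 : ℂ) • TT Q (gm b Q) (Gm b Q θ F))]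
    refine sum_congr rfl fun S _ => ?_
    rw [PiLp.smul_apply, TT_apply, Gm_apply]
    congr 1
    rw [smul_eq_mul]
    push_cast
    ring
  rw [e1, e2]
  apply HasDerivAt.fun_sum
  intro S _
  apply HasDerivAt.smul_const
  apply HasDerivAt.mul_const
  apply HasDerivAt.ofReal_comp
  have h1 : HasDerivAt (fun t : ℝ => -(t / 2) * ∑ i ∈ S, gm b Q i)
      (-(1 / 2) * ∑ i ∈ S, gm b Q i) θ := by
    have h2 : HasDerivAt (fun t : ℝ => -(t / 2)) (-(1 / 2)) θ :=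
      ((hasDerivAt_id θ).div_const 2).neg
    exact h2.mul_const _
  have h3 := h1.exp
  convert h3 using 1
  ring

/-- The moving zero mode space. -/
noncomputable def Zt (b Q : ℕ) (Z0 : Submodule ℂ (Fk (Fin (Q + 1)))) (θ : ℝ) :
    Submodule ℂ (Fk (Fin (Q + 1))) := Z0.map (Gm b Q θ).toLinearMap

theorem Zt_zero (b Q : ℕ) (Z0 : Submodule ℂ (Fk (Fin (Q + 1)))) : Zt b Q Z0 0 = Z0 := by
  unfold Zt
  rw [Gm_zero]
  exact Submodule.map_id Z0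

theorem TT_mem_Zt {b Q : ℕ} {Z0 : Submodule ℂ (Fk (Fin (Q + 1)))} {f : ℕ → ℝ}
    (h : ∀ ψ ∈ Z0, TT Q f ψ ∈ Z0) (θ : ℝ) {ψ : Fk (Fin (Q + 1))} (hψ : ψ ∈ Zt b Q Z0 θ) :
    TT Q f ψ ∈ Zt b Q Z0 θ := by
  obtain ⟨φ, hφ, rfl⟩ := hψ
  exact ⟨TT Q f φ, h φ hφ, (TT_Gm b Q θ f φ).symm⟩

/-! ### 3. the general path theorem -/

/-- `c - 3 C dG f - X`. -/
noncomputable def DD (Q : ℕ) (c C : ℝ) (f : ℕ → ℝ) (X : Op (Fin (Q + 1))) :
    Fk (Fin (Q + 1)) →L[ℂ] Fk (Fin (Q + 1)) :=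
  (c : ℂ) • ContinuousLinearMap.id ℂ _ - ((3 * C : ℝ) : ℂ) • TT Q f - X.ap

theorem DD_apply (Q : ℕ) (c C : ℝ) (f : ℕ → ℝ) (X : Op (Fin (Q + 1))) (ψ : Fk (Fin (Q + 1))) :
    DD Q c C f X ψ = (c : ℂ) • ψ - ((3 * C : ℝ) : ℂ) • TT Q f ψ - X ψ := rfl

theorem DD_symm {Q : ℕ} (c C : ℝ) (f : ℕ → ℝ) {X : Op (Fin (Q + 1))} (hX : IsSelfAdjoint X)
    (v w : Fk (Fin (Q + 1))) : inner ℂ (DD Q c C f X v) w = inner ℂ v (DD Q c C f X w) := by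
  have h1 : inner ℂ (X v) w = inner ℂ v (X w) := by
    have := inner_star_left X v w
    rw [hX.star_eq] at this
    exact this
  rw [DD_apply, DD_apply]
  simp only [inner_sub_left, inner_sub_right, inner_smul_left, inner_smul_right,
    Complex.conj_ofReal, inner_TT, h1]

/-- the derivative number. -/
theorem deriv_number {Q : ℕ} (c C : ℝ) (f : ℕ → ℝ) (X : Op (Fin (Q + 1)))
    (Z : Submodule ℂ (Fk (Fin (Q + 1)))) {ψ : Fk (Fin (Q + 1))} (hψ : ψ ∈ Z) (v : Fk (Fin (Q + 1))) :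
    -(inner ℂ v (off Z (DD Q c C f X ψ))).re =
      3 * C * (inner ℂ v (off Z (TT Q f ψ))).re + (inner ℂ v (off Z (X ψ))).re := by
  rw [DD_apply]
  simp only [map_sub, map_smul, inner_sub_right, inner_smul_right, off_of_mem hψ, smul_zero,
    zero_sub, inner_neg_right, Complex.sub_re, Complex.neg_re, Complex.re_ofReal_mul]
  simp
  ring

theorem hasDerivAt_DD {Q : ℕ} {c c' C C' : ℝ → ℝ} (f : ℕ → ℝ) (X : Op (Fin (Q + 1))) {θ : ℝ}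
    (hc : HasDerivAt c (c' θ) θ) (hC : HasDerivAt C (C' θ) θ) :
    HasDerivAt (fun t => DD Q (c t) (C t) f X) (DD Q (c' θ) (C' θ) f 0) θ := by
  unfold DD
  have h1 : HasDerivAt (fun t => ((c t : ℝ) : ℂ) •
      ContinuousLinearMap.id ℂ (Fk (Fin (Q + 1)))) (((c' θ : ℝ) : ℂ) •
      ContinuousLinearMap.id ℂ (Fk (Fin (Q + 1)))) θ := 
    hc.ofReal_comp.smul_const (ContinuousLinearMap.id ℂ (Fk (Fin (Q + 1))))
  have h2 : HasDerivAt (fun t => ((3 * C t : ℝ) : ℂ) • TT Q f)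
      (((3 * C' θ : ℝ) : ℂ) • TT Q f) θ := (hC.const_mul 3).ofReal_comp.smul_const (TT Q f)
  have h3 := (h1.sub h2).sub_const X.ap
  have e : ((0 : Op (Fin (Q + 1)))).ap = 0 := rfl
  rw [e, sub_zero]
  exact h3

/-- **General path theorem** for `D_θ = c(θ) - 3 C(θ) dG f - X` on the moving zero mode space. -/
theorem path_general {b Q : ℕ} (Z0 : Submodule ℂ (Fk (Fin (Q + 1)))) (f : ℕ → ℝ)
    (X : Op (Fin (Q + 1))) (hX : IsSelfAdjoint X) (c c' C C' : ℝ → ℝ)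
    (hc : ∀ θ ∈ Icc (0 : ℝ) 1, HasDerivAt c (c' θ) θ)
    (hC : ∀ θ ∈ Icc (0 : ℝ) 1, HasDerivAt C (C' θ) θ)
    (h0 : ∀ ψ ∈ Z0, 0 ≤ (inner ℂ ψ (DD Q (c 0) (C 0) f X ψ)).re)
    (hR : ∀ θ ∈ Ioc (0 : ℝ) 1, ∀ ψ ∈ Zt b Q Z0 θ, ∀ lam : ℝ, lam < 0 →
      (∀ φ ∈ Zt b Q Z0 θ, inner ℂ φ (DD Q (c θ) (C θ) f X ψ) = lam * inner ℂ φ ψ) →
      0 ≤ 3 * C θ * (inner ℂ (off (Zt b Q Z0 θ) (TT Q (gm b Q) ψ))
            (off (Zt b Q Z0 θ) (TT Q f ψ))).re +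
          (inner ℂ (off (Zt b Q Z0 θ) (TT Q (gm b Q) ψ)) (off (Zt b Q Z0 θ) (X ψ))).re +
          (inner ℂ ψ (DD Q (c' θ) (C' θ) f 0 ψ)).re) :
    ∀ θ ∈ Icc (0 : ℝ) 1, ∀ ψ ∈ Zt b Q Z0 θ, 0 ≤ (inner ℂ ψ (DD Q (c θ) (C θ) f X ψ)).re := by
  refine Path924.path_nonneg_map Z0 (Gm b Q) (fun _ => TT Q (gm b Q))
    (fun θ => DD Q (c θ) (C θ) f X) (fun θ => DD Q (c' θ) (C' θ) f 0) 1
    (fun θ _ => Gm_injective b Q θ) (fun θ _ F => hasDerivAt_Gm b Q θ F)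
    (fun θ hθ => hasDerivAt_DD f X (hc θ hθ) (hC θ hθ)) (fun θ _ => DD_symm _ _ f hX) ?_ ?_
  · intro ψ hψ
    have : ψ ∈ Z0 := by
      have h1 : Zt b Q Z0 0 = Z0 := Zt_zero b Q Z0
      rw [← h1]; exact hψ
    exact h0 ψ this
  · intro θ hθ ψ hψ lam hlam heig
    have h1 := hR θ hθ ψ hψ lam hlam heig
    have h2 := deriv_number (c θ) (C θ) f X (Zt b Q Z0 θ) hψ
      (off (Zt b Q Z0 θ) (TT Q (gm b Q) ψ))
    rw [← h2] at h1
    exact h1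

/-! ### 4. the weak step -/

/-- the cross term `⟪v(g), v(f)⟫`, PSD estimate of `PSD716` (`κ = 6`). -/
theorem cross_ge {b Q : ℕ} (hb : 0 < b) (Z : Submodule ℂ (Fk (Fin (Q + 1))))
    {ψ : Fk (Fin (Q + 1))} (h1 : TT Q (fun _ => 1) ψ ∈ Z) (hj : TT Q (fun j => (j : ℝ)) ψ ∈ Z)
    {a R : ℝ} (ha0 : 0 < a) (ha2 : a ≤ 2) (haR : a ≤ R) {CG m : ℝ} (hCG : 0 ≤ CG) (hm : 20 ≤ m)
    (hG : ∀ p < Q - 1, ∀ q < Q - 1,
      ‖inner ℂ (off Z (TT Q (kink (p + 1)) ψ)) (off Z (TT Q (kink (q + 1)) ψ))‖ ≤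
        CG * (PSD716.dd Q p * Real.sqrt (PSD716.dd Q p)) * (1 + PSD716.DD Q p q) ^ (-m)) :
    -(1008 * CG * b * (4 * (1 + a) / Q ^ 2 + 24 * dd (prof a R) Q * Real.log Q)) ≤
      (inner ℂ (off Z (TT Q (gm b Q) ψ)) (off Z (TT Q (prof a R) ψ))).re := by
  have hT : ∀ f g : ℕ → ℝ, (∀ j ≤ Q, f j = g j) → TT Q f = TT Q g := fun f g h => TT_congr h
  rw [off_eq_sum (TT Q) hT Z h1 hj (gm b Q), off_eq_sum (TT Q) hT Z h1 hj (prof a R)]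
  have h := PSD716.cross_lower (Q := Q) (range (Q - 1))
    (fun p hp => by have := mem_range.1 hp; omega)
    (fun p => off Z (TT Q (kink (p + 1)) ψ)) (dd (gm b Q)) (dd (prof a R))
    (fun p hp => dd_gm_pos hb (mem_range.1 hp)) (fun p _ => dd_prof_pos ha0 haR p) 6 CG
    (by norm_num) hCG m (by linarith)
    (fun p hp q hq => hG p (mem_range.1 hp) q (mem_range.1 hq))
    (fun p hp q hq => log_ratio ha0 ha2 haR hb (mem_range.1 hp) (mem_range.1 hq))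
  refine le_trans ?_ h
  have h2 := sum_cross ha0.le ha2 haR b Q
  have h3 : 21 * (6 : ℝ) ^ 2 * CG *
      ∑ p ∈ range (Q - 1), PSD716.dd Q p * (dd (gm b Q) p * dd (prof a R) p) ≤
      21 * (6 : ℝ) ^ 2 * CG *
        (4 / 3 * b * (4 * (1 + a) / Q ^ 2 + 24 * dd (prof a R) Q * Real.log Q)) := by
    gcongr
  linarith

/-- the `X` term. -/
theorem X_le {b Q : ℕ} (Z : Submodule ℂ (Fk (Fin (Q + 1))))
    {ψ y : Fk (Fin (Q + 1))} (h1 : TT Q (fun _ => 1) ψ ∈ Z) (hj : TT Q (fun j => (j : ℝ)) ψ ∈ Z)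
    {CX : ℝ} (hCX : 0 ≤ CX)
    (hX : ∀ p < Q - 1, ‖inner ℂ (off Z (TT Q (kink (p + 1)) ψ)) y‖ ≤
      CX * (((p : ℝ) + 1) ^ 2)⁻¹) :
    ‖inner ℂ (off Z (TT Q (gm b Q) ψ)) y‖ ≤ 16 * b * CX / Q ^ 2 := by
  have hT : ∀ f g : ℕ → ℝ, (∀ j ≤ Q, f j = g j) → TT Q f = TT Q g := fun f g h => TT_congr h
  rw [off_eq_sum (TT Q) hT Z h1 hj (gm b Q), sum_inner]
  refine (norm_sum_le _ _).trans ?_
  have h2 : ∀ p ∈ range (Q - 1), ‖inner ℂ (((dd (gm b Q) p : ℝ) : ℂ) •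
      off Z (TT Q (kink (p + 1)) ψ)) y‖ ≤ CX * (dd (gm b Q) p * (((p : ℝ) + 1) ^ 2)⁻¹) := by
    intro p hp
    have hp' := mem_range.1 hp
    rw [inner_smul_left, norm_mul, Complex.conj_ofReal, Complex.norm_real, Real.norm_of_nonneg
      (dd_gm_nonneg hp')]
    calc dd (gm b Q) p * ‖inner ℂ (off Z (TT Q (kink (p + 1)) ψ)) y‖
        ≤ dd (gm b Q) p * (CX * (((p : ℝ) + 1) ^ 2)⁻¹) :=
          mul_le_mul_of_nonneg_left (hX p hp') (dd_gm_nonneg hp')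
      _ = _ := by ring
  refine (sum_le_sum h2).trans ?_
  rw [← mul_sum]
  calc CX * ∑ p ∈ range (Q - 1), dd (gm b Q) p * (((p : ℝ) + 1) ^ 2)⁻¹
      ≤ CX * (16 * b / Q ^ 2) := by
        apply mul_le_mul_of_nonneg_left (sum_X b Q) hCX
    _ = _ := by ring

theorem scal_inner {E : Type*} [NormedAddCommGroup E] [InnerProductSpace ℂ E]
    [FiniteDimensional ℂ E] (Z : Submodule ℂ E) (A B : E →L[ℂ] E) (r : ℝ) (φ : E) :
    (inner ℂ (off Z (A ((r : ℂ) • φ))) (off Z (B ((r : ℂ) • φ)))).re =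
      r ^ 2 * (inner ℂ (off Z (A φ)) (off Z (B φ))).re := by
  rw [map_smul, map_smul, map_smul, map_smul, inner_smul_left, inner_smul_right,
    Complex.conj_ofReal, Complex.re_ofReal_mul, Complex.re_ofReal_mul]
  ring

theorem exists_unit {E : Type*} [NormedAddCommGroup E] [InnerProductSpace ℂ E]
    {Z : Submodule ℂ E} {ψ : E} (hψ : ψ ∈ Z) (hne : ψ ≠ 0) :
    ∃ φ ∈ Z, ‖φ‖ = 1 ∧ ψ = ((‖ψ‖ : ℝ) : ℂ) • φ := by
  have hn : 0 < ‖ψ‖ := norm_pos_iff.2 hne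
  refine ⟨((‖ψ‖⁻¹ : ℝ) : ℂ) • ψ, Z.smul_mem _ hψ, ?_, ?_⟩
  · rw [norm_smul, Complex.norm_real, norm_inv, norm_norm, inv_mul_cancel₀ hn.ne']
  · rw [smul_smul, ← Complex.ofReal_mul, mul_inv_cancel₀ hn.ne']; simp

/-- lower bound of a form on a subspace -/
def LBZ {E : Type*} [NormedAddCommGroup E] [InnerProductSpace ℂ E] (Z : Submodule ℂ E)
    (D : E →L[ℂ] E) (L : ℝ) : Prop := ∀ ψ ∈ Z, L * ‖ψ‖ ^ 2 ≤ (inner ℂ ψ (D ψ)).re

/-- **The weak path step.** `D = c - 3 C dG f - X`, `f = prof a R`; hypotheses: `Z0` invariant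
under `N` and `L_z`; the clustering bounds of the ring vectors, for all `θ ∈ (0,1]`. -/
theorem path_weak {b Q : ℕ} (hb : 0 < b) (Z0 : Submodule ℂ (Fk (Fin (Q + 1))))
    (hN : ∀ ψ ∈ Z0, TT Q (fun _ => 1) ψ ∈ Z0) (hL : ∀ ψ ∈ Z0, TT Q (fun j => (j : ℝ)) ψ ∈ Z0)
    {a R : ℝ} (ha0 : 0 < a) (ha2 : a ≤ 2) (haR : a ≤ R) (c C : ℝ) (hC : 0 ≤ C)
    (X : Op (Fin (Q + 1))) (hX : IsSelfAdjoint X) {CG CX m : ℝ} (hCG : 0 ≤ CG) (hCX : 0 ≤ CX)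
    (hm : 20 ≤ m)
    (hG : ∀ θ ∈ Ioc (0 : ℝ) 1, ∀ ψ ∈ Zt b Q Z0 θ, ‖ψ‖ = 1 → ∀ p < Q - 1, ∀ q < Q - 1,
      ‖inner ℂ (off (Zt b Q Z0 θ) (TT Q (kink (p + 1)) ψ))
          (off (Zt b Q Z0 θ) (TT Q (kink (q + 1)) ψ))‖ ≤
        CG * (PSD716.dd Q p * Real.sqrt (PSD716.dd Q p)) * (1 + PSD716.DD Q p q) ^ (-m))
    (hXc : ∀ θ ∈ Ioc (0 : ℝ) 1, ∀ ψ ∈ Zt b Q Z0 θ, ‖ψ‖ = 1 → ∀ p < Q - 1,
      ‖inner ℂ (off (Zt b Q Z0 θ) (TT Q (kink (p + 1)) ψ)) (off (Zt b Q Z0 θ) (X ψ))‖ ≤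
        CX * (((p : ℝ) + 1) ^ 2)⁻¹)
    (L : ℝ) (h0 : LBZ Z0 (DD Q c C (prof a R) X) L) :
    LBZ (Zt b Q Z0 1) (DD Q c C (prof a R) X)
      (L - (3 * C * (1008 * CG * b * (4 * (1 + a) / Q ^ 2 +
        24 * dd (prof a R) Q * Real.log Q)) + 16 * b * CX / Q ^ 2)) := by
  set e1 := 1008 * CG * b * (4 * (1 + a) / Q ^ 2 + 24 * dd (prof a R) Q * Real.log Q) with he1
  set e2 := 16 * b * CX / Q ^ 2 with he2
  have key := path_general (b := b) Z0 (prof a R) X hX (fun θ => c - L + θ * (3 * C * e1 + e2))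
    (fun _ => 3 * C * e1 + e2) (fun _ => C) (fun _ => 0)
    (fun θ _ => by
      have := ((hasDerivAt_id θ).mul_const (3 * C * e1 + e2)).const_add (c - L)
      simpa using this)
    (fun θ _ => hasDerivAt_const θ C) ?_ ?_ 1 ⟨zero_le_one, le_rfl⟩
  · intro ψ hψ
    have h1 := key ψ hψ
    rw [DD_apply] at h1 ⊢
    simp only [inner_sub_right, inner_smul_right, Complex.sub_re, Complex.re_ofReal_mul] at h1 ⊢
    have h2 : (inner ℂ ψ ψ).re = ‖ψ‖ ^ 2 := by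
      rw [inner_self_eq_norm_sq_to_K]; norm_cast
    rw [h2] at h1 ⊢
    linarith
  · intro ψ hψ
    have h1 := h0 ψ hψ
    rw [DD_apply] at h1 ⊢
    simp only [inner_sub_right, inner_smul_right, Complex.sub_re, Complex.re_ofReal_mul] at h1 ⊢
    have h2 : (inner ℂ ψ ψ).re = ‖ψ‖ ^ 2 := by
      rw [inner_self_eq_norm_sq_to_K]; norm_cast
    rw [h2] at h1 ⊢
    linarith
  · intro θ hθ ψ hψ lam _ _
    -- reduce to unit vectors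
    rcases eq_or_ne ψ 0 with rfl | hne
    · simp
    obtain ⟨φ, hφZ, hφ1, hψφ⟩ := exists_unit hψ hne
    have hφN := TT_mem_Zt hN θ hφZ
    have hφL := TT_mem_Zt hL θ hφZ
    have hcr := cross_ge hb (Zt b Q Z0 θ) hφN hφL ha0 ha2 haR hCG hm (hG θ hθ φ hφZ hφ1)
    have hx := X_le (b := b) (Zt b Q Z0 θ) hφN hφL hCX (hXc θ hθ φ hφZ hφ1)
    have hx' : -e2 ≤ (inner ℂ (off (Zt b Q Z0 θ) (TT Q (gm b Q) φ))
        (off (Zt b Q Z0 θ) (X φ))).re :=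
      neg_le_of_abs_le ((Complex.abs_re_le_norm _).trans hx)
    have scal : ∀ A B : Fk (Fin (Q + 1)) →L[ℂ] Fk (Fin (Q + 1)),
        (inner ℂ (off (Zt b Q Z0 θ) (A ψ)) (off (Zt b Q Z0 θ) (B ψ))).re =
        ‖ψ‖ ^ 2 * (inner ℂ (off (Zt b Q Z0 θ) (A φ)) (off (Zt b Q Z0 θ) (B φ))).re := by
      intro A B
      have h := scal_inner (Zt b Q Z0 θ) A B ‖ψ‖ φ
      rw [← hψφ] at h
      exact h
    have s1 := scal (TT Q (gm b Q)) (TT Q (prof a R))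
    have s2 := scal (TT Q (gm b Q)) X.ap
    have s3 : (inner ℂ ψ (DD Q (3 * C * e1 + e2) 0 (prof a R) 0 ψ)).re =
        ‖ψ‖ ^ 2 * (3 * C * e1 + e2) := by
      rw [DD_apply]
      have h2 : (inner ℂ ψ ψ).re = ‖ψ‖ ^ 2 := by
        rw [inner_self_eq_norm_sq_to_K]; norm_cast
      simp only [inner_sub_right, inner_smul_right, Complex.sub_re, Complex.re_ofReal_mul,
        zero_ap, inner_zero_right, Complex.zero_re, h2]
      ring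
    rw [s1, s3]
    have s2' : (inner ℂ (off (Zt b Q Z0 θ) (TT Q (gm b Q) ψ)) (off (Zt b Q Z0 θ) (X ψ))).re =
        ‖ψ‖ ^ 2 * (inner ℂ (off (Zt b Q Z0 θ) (TT Q (gm b Q) φ))
          (off (Zt b Q Z0 θ) (X φ))).re := s2
    rw [s2']
    have hC3 : 0 ≤ 3 * C := by linarith
    have := mul_le_mul_of_nonneg_left hcr hC3
    have hsq : 0 ≤ ‖ψ‖ ^ 2 := sq_nonneg _
    nlinarith

end Crest.Agent.R340.PathStep880
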