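import Crest.Agent.R340.Step_596
import Crest.Agent.R340.PathStep3_880

/-!
# The cross term of the peeling step (helper596, R340 block L3c)

`n_Q = dG(kink (Q-1))`, so the off-diagonal part of `n_Q ψ` is the ring vector `v_{Q-2}` (in the
indexing of `PathStep880`), and the cross term of `peel_step` is bounded by the ring clustering
bounds: it is at most `a · 59049 · CG · dd f Q + CX / (Q-1)²` for `f = prof α R`.
-/

set_option autoImplicit false
set_option linter.unusedSectionVars false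
open scoped InnerProductSpace ComplexConjugate
open Crest.Agent.R340.Fock649 Crest.Agent.R340.Emb596 Crest.Agent.R340.Geo986
  Crest.Agent.R340.Peel596 Crest.Agent.R340.PathStep880
open Crest.Agent.R340.Scal725 (prof dd)
open Crest.Agent.R340

namespace Crest.Agent.R340.PeelX596

open Finset

/-! ### real estimate -/

theorem one_add_sub_sqrt_three {y : ℝ} (hy : 3 ≤ y) : √(y / 3) ≤ 1 + (√y - √3) := by
  have h3 : (0 : ℝ) < √3 := Real.sqrt_pos.2 (by norm_num)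
  have hsq : √3 * √3 = 3 := Real.mul_self_sqrt (by norm_num)
  have h1 : √3 ≤ √y := Real.sqrt_le_sqrt hy
  have h31 : 1 ≤ √3 := Real.one_le_sqrt.2 (by norm_num)
  rw [Real.sqrt_div (by linarith), div_le_iff₀ h3]
  nlinarith

theorem rpow_neg_le_pow {y m : ℝ} (hy : 3 ≤ y) (hm : 20 ≤ m) {D : ℝ} (hD : √y - √3 ≤ D) :
    (1 + D) ^ (-m) ≤ (3 / y) ^ 10 := by
  have h1 := one_add_sub_sqrt_three hy
  have hy3 : 1 ≤ y / 3 := by rw [le_div_iff₀ (by norm_num)]; linarith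
  have h2 : 1 ≤ √(y / 3) := Real.one_le_sqrt.2 hy3
  have h3 : √(y / 3) ≤ 1 + D := h1.trans (by linarith)
  have hpos : 0 < 1 + D := by linarith
  have h4 : (√(y / 3)) ^ (20 : ℕ) ≤ (1 + D) ^ m := by
    calc (√(y / 3)) ^ (20 : ℕ) ≤ (1 + D) ^ (20 : ℕ) := pow_le_pow_left₀ (by positivity) h3 20
      _ = (1 + D) ^ ((20 : ℕ) : ℝ) := (Real.rpow_natCast _ _).symm
      _ ≤ (1 + D) ^ m := Real.rpow_le_rpow_of_exponent_le (by linarith) (by exact_mod_cast hm)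
  have h5 : (√(y / 3)) ^ (20 : ℕ) = (y / 3) ^ 10 := by
    rw [show (20 : ℕ) = 2 * 10 by norm_num, pow_mul, Real.sq_sqrt (by linarith)]
  rw [h5] at h4
  rw [Real.rpow_neg hpos.le]
  calc ((1 + D) ^ m)⁻¹ ≤ ((y / 3) ^ 10)⁻¹ := inv_anti₀ (by positivity) h4
    _ = (3 / y) ^ 10 := by rw [← inv_pow, inv_div]

/-- the sum of the ring clustering bounds against the second differences of the profile -/
theorem sum_peel {α R : ℝ} (hα0 : 0 ≤ α) (hα2 : α ≤ 2) (hαR : α ≤ R) {q : ℕ} (hq : 2 ≤ q)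
    {m : ℝ} (hm : 20 ≤ m) :
    ∑ p ∈ range (q - 1), dd (prof α R) p *
        ((PSD716.dd q p * √(PSD716.dd q p)) * (1 + PSD716.DD q p (q - 2)) ^ (-m)) ≤
      59049 * dd (prof α R) q := by
  have hR : 0 ≤ R := hα0.trans hαR
  have h0 : 0 ≤ dd (prof α R) q := Scal725.dd_prof_nonneg hR hα0 (by linarith) q
  rw [← sum_range_reflect]
  have key : ∀ i ∈ range (q - 1), dd (prof α R) (q - 1 - 1 - i) *
      ((PSD716.dd q (q - 1 - 1 - i) * √(PSD716.dd q (q - 1 - 1 - i))) *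
        (1 + PSD716.DD q (q - 1 - 1 - i) (q - 2)) ^ (-m)) ≤
      59049 * dd (prof α R) q * (((i : ℝ) + 2) ^ 2)⁻¹ := by
    intro i hi
    have hi' := mem_range.1 hi
    set p := q - 1 - 1 - i with hp
    have hpq : p + i + 2 = q := by omega
    have hqr : (q : ℝ) = p + i + 2 := by rw [← hpq]; push_cast; ring
    have hi0 : (0 : ℝ) ≤ i := Nat.cast_nonneg i
    have hp0 : (0 : ℝ) ≤ p := Nat.cast_nonneg p
    have hy : (3 : ℝ) ≤ (i : ℝ) + 3 := by linarith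
    -- the profile
    have e1 : dd (prof α R) p ≤ ((i : ℝ) + 3) ^ 4 * dd (prof α R) q := by
      refine (dd_prof_ratio hα0 hα2 hαR (show p ≤ q by omega)).2.trans ?_
      apply mul_le_mul_of_nonneg_right _ h0
      apply pow_le_pow_left₀ (by positivity)
      rw [div_le_iff₀ (by positivity), hqr]
      nlinarith
    -- the weight
    have e2 : PSD716.dd q p ≤ (i : ℝ) + 3 := by
      unfold PSD716.dd
      refine (min_le_right _ _).trans (le_of_eq ?_)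
      rw [hqr]; ring
    have e2' : 1 ≤ PSD716.dd q p := PSD716.one_le_dd (by omega)
    have e3 : PSD716.dd q p * √(PSD716.dd q p) ≤ ((i : ℝ) + 3) ^ 2 := by
      have h1 : √(PSD716.dd q p) ≤ PSD716.dd q p := by
        rw [Real.sqrt_le_left (by linarith)]
        nlinarith
      nlinarith [Real.sqrt_nonneg (PSD716.dd q p)]
    -- the decay
    have e4 : (1 + PSD716.DD q p (q - 2)) ^ (-m) ≤ (3 / ((i : ℝ) + 3)) ^ 10 := by
      apply rpow_neg_le_pow hy hm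
      unfold PSD716.DD
      have h1 : (q : ℝ) - p + 1 = (i : ℝ) + 3 := by rw [hqr]; ring
      have h2 : (q : ℝ) - ((q - 2 : ℕ) : ℝ) + 1 = 3 := by
        rw [Nat.cast_sub hq]; push_cast; ring
      rw [h1, h2]
      have h3 := le_abs_self (√((i : ℝ) + 3) - √3)
      have h4 := abs_nonneg (√((p : ℝ) + 1) - √(((q - 2 : ℕ) : ℝ) + 1))
      linarith
    have hrp : 0 ≤ (1 + PSD716.DD q p (q - 2)) ^ (-m) :=
      Real.rpow_nonneg (by have := PSD716.DD_nonneg q p (q - 2); linarith) _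
    have hddp : 0 ≤ dd (prof α R) p := Scal725.dd_prof_nonneg hR hα0 (by linarith) p
    calc dd (prof α R) p * ((PSD716.dd q p * √(PSD716.dd q p)) *
          (1 + PSD716.DD q p (q - 2)) ^ (-m))
        ≤ (((i : ℝ) + 3) ^ 4 * dd (prof α R) q) * (((i : ℝ) + 3) ^ 2 *
          (3 / ((i : ℝ) + 3)) ^ 10) := by
          apply mul_le_mul e1 (mul_le_mul e3 e4 hrp (by positivity)) (by positivity)
          exact mul_nonneg (by positivity) h0
      _ = 59049 * dd (prof α R) q * (((i : ℝ) + 3) ^ 4)⁻¹ := by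
          have : (i : ℝ) + 3 ≠ 0 := by positivity
          field_simp
          ring
      _ ≤ 59049 * dd (prof α R) q * (((i : ℝ) + 2) ^ 2)⁻¹ := by
          apply mul_le_mul_of_nonneg_left _ (by positivity)
          apply inv_anti₀ (by positivity)
          have h5 : ((i : ℝ) + 2) ^ 2 ≤ ((i : ℝ) + 3) ^ 2 := by nlinarith
          have h6 : ((i : ℝ) + 3) ^ 2 ≤ ((i : ℝ) + 3) ^ 4 := by
            apply pow_le_pow_right₀ (by linarith) (by norm_num)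
          linarith
  refine (sum_le_sum key).trans ?_
  rw [← mul_sum]
  have h1 := sum_inv_sq_le_one (q - 1)
  calc 59049 * dd (prof α R) q * ∑ i ∈ range (q - 1), (((i : ℝ) + 2) ^ 2)⁻¹
      ≤ 59049 * dd (prof α R) q * 1 := mul_le_mul_of_nonneg_left h1 (by positivity)
    _ = _ := by ring

/-! ### the operator side -/

/-- the occupation number of the last orbital is `dG` of the kink at `Q - 1` -/
theorem n_last_eq {Q : ℕ} (hQ : 1 ≤ Q) (ψ : Fk (Fin (Q + 1))) :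
    d (Fin.last Q) (c (Fin.last Q) ψ) = TT Q (kink (Q - 1)) ψ := by
  ext S
  rw [TT_apply, ← mul_ap, d_mul_c, diag_apply]
  congr 1
  by_cases h : Fin.last Q ∈ S
  · rw [if_pos h, ← Finset.sum_erase_add _ _ h, Finset.sum_eq_zero]
    · unfold kink
      rw [Fin.val_last]
      rw [show Q - (Q - 1) = 1 by omega]
      simp
    · intro j hj
      rw [Finset.mem_erase] at hj
      have hjv : (j : ℕ) < Q := by
        have h1 := lt_of_le_of_ne (Fin.le_last j) hj.1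
        exact lt_of_lt_of_eq h1 (Fin.val_last Q)
      rw [kink_of_le (by omega)]
  · rw [if_neg h, Finset.sum_eq_zero]
    · simp
    · intro j hj
      have hjne : j ≠ Fin.last Q := fun h' => h (h' ▸ hj)
      have hjv : (j : ℕ) < Q := by
        have h1 := lt_of_le_of_ne (Fin.le_last j) hjne
        exact lt_of_lt_of_eq h1 (Fin.val_last Q)
      rw [kink_of_le (by omega)]

/-- two-state ring clustering on `Z` (the operator-norm form of `PathStep880.path_weak`'s `hG`) -/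
def RC2 (Q : ℕ) (Z : Submodule ℂ (Fk (Fin (Q + 1)))) (CG m : ℝ) : Prop :=
  ∀ ψ ∈ Z, ∀ φ ∈ Z, ∀ p < Q - 1, ∀ q < Q - 1,
    ‖⟪off Z (TT Q (kink (p + 1)) ψ), off Z (TT Q (kink (q + 1)) φ)⟫_ℂ‖ ≤
      CG * (PSD716.dd Q p * √(PSD716.dd Q p)) * (1 + PSD716.DD Q p q) ^ (-m) * (‖ψ‖ * ‖φ‖)

/-- two-state clustering of the ring vectors against `X` (operator-norm form of `hXc`) -/
def RX2 (Q : ℕ) (Z : Submodule ℂ (Fk (Fin (Q + 1)))) (X : Op (Fin (Q + 1))) (CX : ℝ) : Prop :=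
  ∀ ψ ∈ Z, ∀ φ ∈ Z, ∀ p < Q - 1,
    ‖⟪off Z (TT Q (kink (p + 1)) ψ), off Z (X φ)⟫_ℂ‖ ≤
      CX * (((p : ℝ) + 1) ^ 2)⁻¹ * (‖ψ‖ * ‖φ‖)

theorem RC2.unit {Q : ℕ} {Z : Submodule ℂ (Fk (Fin (Q + 1)))} {CG m : ℝ} (h : RC2 Q Z CG m)
    {ψ : Fk (Fin (Q + 1))} (hψ : ψ ∈ Z) (h1 : ‖ψ‖ = 1) {p q : ℕ} (hp : p < Q - 1)
    (hq : q < Q - 1) :
    ‖⟪off Z (TT Q (kink (p + 1)) ψ), off Z (TT Q (kink (q + 1)) ψ)⟫_ℂ‖ ≤
      CG * (PSD716.dd Q p * √(PSD716.dd Q p)) * (1 + PSD716.DD Q p q) ^ (-m) := by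
  have := h ψ hψ ψ hψ p hp q hq
  rwa [h1, mul_one, mul_one] at this

theorem RX2.unit {Q : ℕ} {Z : Submodule ℂ (Fk (Fin (Q + 1)))} {X : Op (Fin (Q + 1))} {CX : ℝ}
    (h : RX2 Q Z X CX) {ψ : Fk (Fin (Q + 1))} (hψ : ψ ∈ Z) (h1 : ‖ψ‖ = 1) {p : ℕ}
    (hp : p < Q - 1) :
    ‖⟪off Z (TT Q (kink (p + 1)) ψ), off Z (X ψ)⟫_ℂ‖ ≤ CX * (((p : ℝ) + 1) ^ 2)⁻¹ := by
  have := h ψ hψ ψ hψ p hp
  rwa [h1, mul_one, mul_one] at this

theorem Dop_ap {Q : ℕ} (s a : ℝ) (f : ℕ → ℝ) (X : Op (Fin (Q + 1))) (φ : Fk (Fin (Q + 1))) :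
    Dop Q s a f X φ = (s : ℂ) • φ - (a : ℂ) • TT Q f φ - X φ := rfl

/-- `Dop` is the operator `DD` of `PathStep880` -/
theorem Dop_eq_DD {Q : ℕ} (s C : ℝ) (f : ℕ → ℝ) (X : Op (Fin (Q + 1))) :
    (Dop Q s (3 * C) f X).ap = DD Q s C f X := rfl

theorem inner_off_left {E : Type*} [NormedAddCommGroup E] [InnerProductSpace ℂ E]
    [FiniteDimensional ℂ E] (Z : Submodule ℂ E) (x y : E) :
    inner ℂ (off Z x) y = inner ℂ (off Z x) (off Z y) := by
  rw [← inner_conj_symm, ← inner_off_off, inner_conj_symm]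

/-- **The cross term of the peeling step.** -/
theorem cross_le {Q : ℕ} (hQ : 2 ≤ Q) (Z : Submodule ℂ (Fk (Fin (Q + 1))))
    (hN : ∀ ψ ∈ Z, TT Q (fun _ => 1) ψ ∈ Z) (hL : ∀ ψ ∈ Z, TT Q (fun j => (j : ℝ)) ψ ∈ Z)
    {α R : ℝ} (hα0 : 0 ≤ α) (hα2 : α ≤ 2) (hαR : α ≤ R) (s a : ℝ) (ha : 0 ≤ a)
    (X : Op (Fin (Q + 1))) {CG CX m : ℝ} (hCG : 0 ≤ CG) (hm : 20 ≤ m)
    (hG : RC2 Q Z CG m) (hX : RX2 Q Z X CX) :
    ∀ ψ ∈ Z, ∀ φ ∈ Z,
      ‖⟪d (Fin.last Q) (c (Fin.last Q) ψ) -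
          Z.starProjection (d (Fin.last Q) (c (Fin.last Q) ψ)),
        Dop Q s a (prof α R) X φ⟫_ℂ‖ ≤
      (a * (CG * (59049 * dd (prof α R) Q)) + CX * (((Q : ℝ) - 1) ^ 2)⁻¹) * ‖ψ‖ * ‖φ‖ := by
  intro ψ hψ φ hφ
  have hR : 0 ≤ R := hα0.trans hαR
  have hT : ∀ f g : ℕ → ℝ, (∀ j ≤ Q, f j = g j) → TT Q f = TT Q g := fun f g h => TT_congr h
  rw [n_last_eq (by omega) ψ, ← off_apply, inner_off_left, ← inner_conj_symm, RCLike.norm_conj]
  have hD : off Z (Dop Q s a (prof α R) X φ) =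
      -(((a : ℝ) : ℂ) • off Z (TT Q (prof α R) φ)) - off Z (X φ) := by
    rw [Dop_ap, map_sub, map_sub, map_smul, map_smul, off_of_mem hφ, smul_zero, zero_sub]
  rw [hD, inner_sub_left, inner_neg_left]
  refine (norm_sub_le _ _).trans ?_
  rw [norm_neg]
  have hkk : Q - 1 = (Q - 2) + 1 := by omega
  -- the radial part
  have h1 : ‖⟪((a : ℝ) : ℂ) • off Z (TT Q (prof α R) φ), off Z (TT Q (kink (Q - 1)) ψ)⟫_ℂ‖ ≤
      a * (CG * (59049 * dd (prof α R) Q)) * (‖ψ‖ * ‖φ‖) := by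
    rw [inner_smul_left, norm_mul, Complex.conj_ofReal, Complex.norm_real,
      Real.norm_of_nonneg ha, mul_assoc]
    apply mul_le_mul_of_nonneg_left _ ha
    rw [off_eq_sum (TT Q) hT Z (hN φ hφ) (hL φ hφ) (prof α R), sum_inner]
    refine (norm_sum_le _ _).trans ?_
    have h2 : ∀ p ∈ range (Q - 1), ‖⟪((dd (prof α R) p : ℝ) : ℂ) •
        off Z (TT Q (kink (p + 1)) φ), off Z (TT Q (kink (Q - 1)) ψ)⟫_ℂ‖ ≤
        dd (prof α R) p * ((PSD716.dd Q p * √(PSD716.dd Q p)) *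
          (1 + PSD716.DD Q p (Q - 2)) ^ (-m)) * (CG * (‖ψ‖ * ‖φ‖)) := by
      intro p hp
      have hp' := mem_range.1 hp
      have hdd : 0 ≤ dd (prof α R) p := Scal725.dd_prof_nonneg hR hα0 (by linarith) p
      rw [inner_smul_left, norm_mul, Complex.conj_ofReal, Complex.norm_real,
        Real.norm_of_nonneg hdd]
      have h3 := hG φ hφ ψ hψ p hp' (Q - 2) (by omega)
      rw [← hkk] at h3
      calc dd (prof α R) p * ‖⟪off Z (TT Q (kink (p + 1)) φ), off Z (TT Q (kink (Q - 1)) ψ)⟫_ℂ‖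
          ≤ dd (prof α R) p * (CG * (PSD716.dd Q p * √(PSD716.dd Q p)) *
            (1 + PSD716.DD Q p (Q - 2)) ^ (-m) * (‖φ‖ * ‖ψ‖)) :=
            mul_le_mul_of_nonneg_left h3 hdd
        _ = _ := by ring
    refine (sum_le_sum h2).trans ?_
    rw [← sum_mul]
    have h4 := sum_peel hα0 hα2 hαR hQ hm
    calc _ ≤ 59049 * dd (prof α R) Q * (CG * (‖ψ‖ * ‖φ‖)) :=
          mul_le_mul_of_nonneg_right h4 (by positivity)
      _ = _ := by ring
  -- the `X` part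
  have h5 : ‖⟪off Z (X φ), off Z (TT Q (kink (Q - 1)) ψ)⟫_ℂ‖ ≤
      CX * (((Q : ℝ) - 1) ^ 2)⁻¹ * (‖ψ‖ * ‖φ‖) := by
    rw [← inner_conj_symm, RCLike.norm_conj]
    have h6 := hX ψ hψ φ hφ (Q - 2) (by omega)
    rw [← hkk] at h6
    have h7 : (((Q - 2 : ℕ) : ℝ) + 1) = (Q : ℝ) - 1 := by
      rw [Nat.cast_sub hQ]; push_cast; ring
    rw [h7] at h6
    exact h6
  calc _ ≤ a * (CG * (59049 * dd (prof α R) Q)) * (‖ψ‖ * ‖φ‖) +
        CX * (((Q : ℝ) - 1) ^ 2)⁻¹ * (‖ψ‖ * ‖φ‖) := add_le_add h1 h5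
    _ = _ := by ring

end Crest.Agent.R340.PeelX596
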