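import Crest.Agent.R340.Scal_725

/-!
R340 (S0532), block L5: the recursions of the weak pass (doc 1094, Sec. 6) as pure real analysis
(helper735).

`LB n Q L` is an arbitrary lower-bound predicate ("`D_Q ≥ L` on the zero modes with `n` particles on
flux `Q`"), antitone in `L`; `K = Q + 3 - 3 n`.
-/

set_option autoImplicit false

open Finset

namespace Crest.Agent.R340.Rec735

open Crest.Agent.R340.Dom735 (Cvx)
open Crest.Agent.R340.Scal725

/-! ### The abstract recursion -/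

/-- Two-step recursion: from `(n, Q)` (A-step, same `K`) and `(n+1, Q+2)` (B-step, `K - 1`) to
`(n+1, Q+3)`, for all `K ≥ 2`, with the cases `n = 0`, `K = 1`, `Q < Q0` given. -/
theorem rec_main (LB : ℕ → ℕ → ℝ → Prop)
    (hmono : ∀ n Q L L', L' ≤ L → LB n Q L → LB n Q L')
    (T : ℕ → ℕ → ℝ) (gA gB : ℕ → ℕ → ℝ) (Q0 : ℕ)
    (hbase : ∀ n Q, Q < Q0 → 3 * n ≤ Q + 2 → LB n Q (T n Q))
    (hzero : ∀ Q, LB 0 Q (T 0 Q))
    (hone : ∀ n Q, Q + 2 = 3 * n → LB n Q (T n Q))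
    (hstep : ∀ n Q, Q0 ≤ Q + 3 → 3 * n ≤ Q + 1 → ∀ L1 L2, LB n Q L1 → LB (n + 1) (Q + 2) L2 →
      LB (n + 1) (Q + 3) (min (L1 + gA n Q) (L2 + gB n Q)))
    (hA : ∀ n Q, Q0 ≤ Q + 3 → 3 * n ≤ Q + 1 → T (n + 1) (Q + 3) ≤ T n Q + gA n Q)
    (hB : ∀ n Q, Q0 ≤ Q + 3 → 3 * n ≤ Q + 1 → T (n + 1) (Q + 3) ≤ T (n + 1) (Q + 2) + gB n Q)
    (hQ0 : 3 ≤ Q0) :
    ∀ Q n, 3 * n ≤ Q + 2 → LB n Q (T n Q) := by
  intro Q
  induction Q using Nat.strong_induction_on with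
  | _ Q ih =>
    intro n hn
    rcases lt_or_ge Q Q0 with h0 | h0
    · exact hbase n Q h0 hn
    rcases Nat.eq_zero_or_pos n with hn0 | hn0
    · subst hn0; exact hzero Q
    rcases Nat.lt_or_ge (3 * n) (Q + 2) with h1 | h1
    · obtain ⟨q, rfl⟩ : ∃ q, Q = q + 3 := ⟨Q - 3, by omega⟩
      obtain ⟨m, rfl⟩ : ∃ m, n = m + 1 := ⟨n - 1, by omega⟩
      have hm : 3 * m ≤ q + 1 := by omega
      have i1 := ih q (by omega) m (by omega)
      have i2 := ih (q + 2) (by omega) (m + 1) (by omega)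
      exact hmono _ _ _ _ (le_min (hA m q h0 hm) (hB m q h0 hm)) (hstep m q h0 hm _ _ i1 i2)
    · exact hone n Q (by omega)

/-! ### Scalars of the weak pass -/

/-- value on the empty state -/
theorem cs_ge {f : ℕ → ℝ} (hanti : Antitone f) (Q : ℕ) : ((Q : ℝ) + 3) * f Q ≤ 3 * cs f Q := by
  have h1 : ((Q : ℝ) + 1) * f Q ≤ ∑ j ∈ range (Q + 1), f j := by
    have h := card_nsmul_le_sum (range (Q + 1)) f (f Q)
      (fun j hj => hanti (by simp only [mem_range] at hj; omega))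
    simpa [nsmul_eq_mul] using h
  have hw : 3 * cs f Q = (Q + 3) / (Q + 1) * ∑ j ∈ range (Q + 1), f j := by
    unfold cs w
    have : ((Q : ℝ) + 1) ≠ 0 := by positivity
    field_simp
  rw [hw]
  have h2 : (0 : ℝ) ≤ ((Q : ℝ) + 3) / (Q + 1) := by positivity
  calc ((Q : ℝ) + 3) * f Q = (Q + 3) / (Q + 1) * ((Q + 1) * f Q) := by
        have : ((Q : ℝ) + 1) ≠ 0 := by positivity
        field_simp
    _ ≤ _ := mul_le_mul_of_nonneg_left h1 h2

theorem ratio_le {Q : ℕ} (hQ : 40 ≤ Q) :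
    ((Q : ℝ) + 3) ^ 2 / ((Q + 4) * (Q + 1)) ≤ 103 / 100 := by
  have h : (40 : ℝ) ≤ Q := by exact_mod_cast hQ
  rw [div_le_div_iff₀ (by positivity) (by norm_num)]
  nlinarith

/-- **A-step of the weak pass**: target inequality for `K ≥ 2`. -/
theorem A_target {a R C θ K : ℝ} {Q : ℕ} {e : ℝ} (hR : 0 < R) (ha0 : 0 < a) (ha1 : a ≤ 1 / 100)
    (hC : 0 ≤ C) (hθ : 4 / 5 ≤ θ) (hK : 2 ≤ K) (hQ : 40 ≤ Q)
    (he : e ≤ C * (a * prof a R (Q + 3) / (R + Q + 3))) :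
    θ * C * K * prof a R (Q + 3) ≤
      θ * C * K * prof a R Q +
        (3 * C * (cs (prof a R) (Q + 3) - prof a R (Q + 3) - cs (prof a R) Q) - e) := by
  have ha : a < R + 1 := by linarith
  have h1 := A_step_weak hR ha0.le (by linarith : a < 1) Q
  have h2 := prof_sub_ge hR.le ha0.le ha Q 3
  set F := a * prof a R (Q + 3) / (Q + 3 + R) with hF
  have hp := prof_pos hR.le ha (Q + 3)
  have hF0 : 0 ≤ F := by positivity
  have e2 : a * prof a R (Q + 3) / (R + Q + (3 : ℕ)) = F := by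
    rw [hF]; congr 1; push_cast; ring
  rw [e2] at h2
  push_cast at h2
  have he' : e ≤ C * F := by
    refine he.trans (le_of_eq ?_)
    rw [hF]; congr 2; ring
  have h3 : 6 / (1 - a) ≤ 606061 / 100000 := by
    rw [div_le_iff₀ (by linarith)]; nlinarith
  have h4 := ratio_le hQ
  have h40 : 0 ≤ ((Q : ℝ) + 3) ^ 2 / ((Q + 4) * (Q + 1)) := by positivity
  have h5 : 6 / (1 - a) * (((Q : ℝ) + 3) ^ 2 / ((Q + 4) * (Q + 1))) ≤ 63 / 10 := by
    calc _ ≤ 606061 / 100000 * (103 / 100 : ℝ) := mul_le_mul h3 h4 h40 (by norm_num)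
      _ ≤ _ := by norm_num
  have h6 : -(F * (63 / 10 - 3)) ≤
      3 * (cs (prof a R) (Q + 3) - prof a R (Q + 3) - cs (prof a R) Q) := by
    refine le_trans ?_ h1
    apply neg_le_neg
    apply mul_le_mul_of_nonneg_left _ hF0
    linarith
  have h7 : C * -(F * (63 / 10 - 3)) ≤
      C * (3 * (cs (prof a R) (Q + 3) - prof a R (Q + 3) - cs (prof a R) Q)) :=
    mul_le_mul_of_nonneg_left h6 hC
  have hθK : 8 / 5 ≤ θ * K := by nlinarith
  have h8 : 8 / 5 * C * (3 * F) ≤ θ * K * C * (prof a R Q - prof a R (Q + 3)) := by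
    have h9 : 0 ≤ prof a R Q - prof a R (Q + 3) := le_trans (by positivity) h2
    have h10 : 8 / 5 * C ≤ θ * K * C := mul_le_mul_of_nonneg_right hθK hC
    exact mul_le_mul h10 h2 (by positivity) (by positivity)
  have hCF : 0 ≤ C * F := mul_nonneg hC hF0
  nlinarith

/-- **B-step of the weak pass**: target inequality. -/
theorem B_target {a R C θ K : ℝ} {Q : ℕ} {e : ℝ} (hR : 0 < R) (ha0 : 0 < a) (ha1 : a ≤ 1 / 100)
    (hC : 0 ≤ C) (hθ0 : 0 ≤ θ) (hθ : θ ≤ 9 / 10) (hK : 1 ≤ K) (hQ : 1 ≤ Q)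
    (he : e ≤ C * prof a R (Q + 1) / 20) :
    θ * C * K * prof a R (Q + 1) ≤
      θ * C * (K - 1) * prof a R Q +
        (3 * C * (cs (prof a R) (Q + 1) - cs (prof a R) Q) - e) := by
  have ha : a < R + 1 := by linarith
  have h1 := B_step_weak hR ha0.le (by linarith : a < 1) Q
  have hp := prof_pos hR.le ha (Q + 1)
  have h2 : prof a R (Q + 1) ≤ prof a R Q := prof_antitone hR.le ha0.le ha (by omega)
  have hQ' : (1 : ℝ) ≤ Q := by exact_mod_cast hQ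
  have h3 : 2 * a / (1 - a) / ((Q : ℝ) + 1 + R) ≤ 1 / 20 := by
    have h31 : 2 * a / (1 - a) ≤ 1 / 20 := by
      rw [div_le_iff₀ (by linarith)]; linarith
    have h32 : 0 ≤ 2 * a / (1 - a) := div_nonneg (by linarith) (by linarith)
    calc _ ≤ 2 * a / (1 - a) := div_le_self h32 (by linarith)
      _ ≤ _ := h31
  have h4 : C * (prof a R (Q + 1) * (1 - 1 / 20)) ≤
      C * (3 * (cs (prof a R) (Q + 1) - cs (prof a R) Q)) := by
    apply mul_le_mul_of_nonneg_left _ hC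
    refine le_trans ?_ h1
    apply mul_le_mul_of_nonneg_left _ hp.le
    linarith
  have h5 : θ * C * (K - 1) * prof a R (Q + 1) ≤ θ * C * (K - 1) * prof a R Q := by
    apply mul_le_mul_of_nonneg_left h2
    have : 0 ≤ K - 1 := by linarith
    positivity
  have h6 : θ * (C * prof a R (Q + 1)) ≤ 9 / 10 * (C * prof a R (Q + 1)) :=
    mul_le_mul_of_nonneg_right hθ (by positivity)
  nlinarith

/-- **Base of the weak pass**: for `Q ≤ R` dominance alone gives the target. `x` is the error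
coming from the perturbation `X` (twice its norm). -/
theorem base_target {a R C θ K D x : ℝ} {Q : ℕ} (hR : 0 < R) (ha0 : 0 < a) (ha1 : a ≤ 1 / 100)
    (hC : 0 ≤ C) (hθ : θ ≤ 9 / 10) (hK : 1 ≤ K) (hQ : (Q : ℝ) ≤ R + 1)
    (hx : x ≤ C / 20)
    (hD : C * (K * prof a R Q - 2 * (prof a R 0 - prof a R Q)) - x ≤ D) :
    θ * C * K * prof a R Q ≤ D := by
  have ha : a < R + 1 := by linarith
  have h1 := one_sub_prof_le hR.le ha0.le ha Q
  have h2 : a * Q / (R + 1) ≤ a := by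
    rw [div_le_iff₀ (by linarith)]
    exact mul_le_mul_of_nonneg_left hQ ha0.le
  have h3 : 99 / 100 ≤ prof a R Q := by linarith
  rw [prof_zero] at hD
  refine le_trans ?_ hD
  have h4 : C * (1 - prof a R Q) ≤ C * (1 / 100) :=
    mul_le_mul_of_nonneg_left (by linarith) hC
  have h5 : C * (99 / 100) ≤ C * prof a R Q := mul_le_mul_of_nonneg_left h3 hC
  have h6 : 0 ≤ C * prof a R Q := le_trans (by positivity) h5
  have h7 : C * prof a R Q ≤ C * prof a R Q * K := le_mul_of_one_le_right h6 hK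
  have h8 : θ * (C * prof a R Q * K) ≤ 9 / 10 * (C * prof a R Q * K) :=
    mul_le_mul_of_nonneg_right hθ (le_trans h6 h7)
  nlinarith

/-- **Weak pass** (`K ≥ 1`): all particle numbers, all fluxes. `LB n Q L` : `D_Q ≥ L` on the zero
modes with `n` particles and flux `Q`, where `D_Q = 3 C (c(Q) - dΓ(f)) - (X - x_Q)`,
`f = prof a R`. -/
theorem weak_pass (LB : ℕ → ℕ → ℝ → Prop)
    (hmono : ∀ n Q L L', L' ≤ L → LB n Q L → LB n Q L')
    {a R C θ : ℝ} (hR : 0 < R) (ha0 : 0 < a) (ha1 : a ≤ 1 / 100) (hC : 0 ≤ C)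
    (hθ0 : 4 / 5 ≤ θ) (hθ1 : θ ≤ 9 / 10) (Q0 : ℕ) (hQ0 : 43 ≤ Q0)
    (eA eB : ℕ → ℝ)
    (hbase : ∀ n Q, Q < Q0 → 3 * n ≤ Q + 2 → LB n Q (θ * C * (Q + 3 - 3 * n) * prof a R Q))
    (hzero : ∀ Q, LB 0 Q (θ * C * (Q + 3) * prof a R Q))
    (hone : ∀ n Q, Q + 2 = 3 * n → LB n Q (θ * C * prof a R Q))
    (hstep : ∀ n Q, Q0 ≤ Q + 3 → 3 * n ≤ Q + 1 → ∀ L1 L2, LB n Q L1 → LB (n + 1) (Q + 2) L2 →
      LB (n + 1) (Q + 3)
        (min (L1 + (3 * C * (cs (prof a R) (Q + 3) - prof a R (Q + 3) - cs (prof a R) Q) -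
            eA (Q + 3)))
          (L2 + (3 * C * (cs (prof a R) (Q + 3) - cs (prof a R) (Q + 2)) - eB (Q + 3)))))
    (heA : ∀ Q : ℕ, Q0 ≤ Q → eA Q ≤ C * (a * prof a R Q / (R + Q)))
    (heB : ∀ Q, Q0 ≤ Q → eB Q ≤ C * prof a R Q / 20) :
    ∀ Q n, 3 * n ≤ Q + 2 → LB n Q (θ * C * (Q + 3 - 3 * n) * prof a R Q) := by
  apply rec_main LB hmono (fun n Q => θ * C * (Q + 3 - 3 * n) * prof a R Q)
    (fun _ Q => 3 * C * (cs (prof a R) (Q + 3) - prof a R (Q + 3) - cs (prof a R) Q) - eA (Q + 3))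
    (fun _ Q => 3 * C * (cs (prof a R) (Q + 3) - cs (prof a R) (Q + 2)) - eB (Q + 3)) Q0
  · exact hbase
  · intro Q
    simpa using hzero Q
  · intro n Q h
    have h' : (Q : ℝ) + 2 = 3 * n := by exact_mod_cast h
    have e : (Q : ℝ) + 3 - 3 * n = 1 := by linarith
    have := hone n Q h
    rw [show θ * C * (Q + 3 - 3 * n) * prof a R Q = θ * C * prof a R Q by rw [e, mul_one]]
    exact this
  · exact hstep
  · intro n Q hQ hn
    have hn' : (3 : ℝ) * n ≤ Q + 1 := by exact_mod_cast hn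
    have he := heA (Q + 3) hQ
    push_cast at he
    have h := A_target (K := (Q : ℝ) + 3 - 3 * n) (θ := θ) hR ha0 ha1 hC hθ0 (by linarith)
      (Q := Q) (by omega) (e := eA (Q + 3)) (by rw [← add_assoc] at he; exact he)
    push_cast
    rw [show (Q : ℝ) + 3 + 3 - 3 * (n + 1) = Q + 3 - 3 * n by ring]
    exact h
  · intro n Q hQ hn
    have hn' : (3 : ℝ) * n ≤ Q + 1 := by exact_mod_cast hn
    have h := B_target (K := (Q : ℝ) + 3 - 3 * n) (θ := θ) hR ha0 ha1 hC (by linarith) hθ1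
      (by linarith) (Q := Q + 2) (by omega) (e := eB (Q + 3)) (heB (Q + 3) hQ)
    push_cast
    rw [show (Q : ℝ) + 3 + 3 - 3 * (n + 1) = Q + 3 - 3 * n by ring,
      show (Q : ℝ) + 2 + 3 - 3 * (n + 1) = Q + 3 - 3 * n - 1 by ring]
    exact h
  · omega

/-! ### Absorbing the errors -/

theorem prof_ge_sqrt {a R : ℝ} (hR : 0 < R) (ha0 : 0 ≤ a) (ha1 : a ≤ 1 / 2) (Q : ℕ) :
    Real.sqrt (R / (R + Q)) ≤ prof a R Q := by
  refine le_trans ?_ (rpow_le_prof hR ha0 (by linarith) Q)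
  rw [Real.sqrt_eq_rpow]
  apply Real.rpow_le_rpow_of_exponent_ge (by positivity) _ ha1
  rw [div_le_one (by positivity)]
  have : (0 : ℝ) ≤ Q := Nat.cast_nonneg Q
  linarith

/-- `R / 3 ≤ prof a R Q * Q² / (R + Q)` for `Q ≥ R`. -/
theorem prof_mul_sq_ge {a R : ℝ} (hR : 0 < R) (ha0 : 0 ≤ a) (ha1 : a ≤ 1 / 2) {Q : ℕ}
    (hQ : R ≤ Q) : R / 3 ≤ prof a R Q * (Q : ℝ) ^ 2 / (R + Q) := by
  have h1 := prof_ge_sqrt hR ha0 ha1 Q
  have hQ0 : (0 : ℝ) < Q := lt_of_lt_of_le hR hQ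
  have h2 : Real.sqrt (R / (2 * Q)) ≤ prof a R Q := by
    refine le_trans (Real.sqrt_le_sqrt ?_) h1
    apply div_le_div_of_nonneg_left hR.le (by positivity); linarith
  have h3 : (Q : ℝ) / 2 ≤ (Q : ℝ) ^ 2 / (R + Q) := by
    rw [div_le_div_iff₀ (by norm_num) (by positivity)]; nlinarith
  have h4 : R / 3 ≤ Real.sqrt (R / (2 * Q)) * (Q / 2) := by
    have e : Real.sqrt (R / (2 * Q)) * (Q / 2) = Real.sqrt (R * Q / 8) := by
      rw [show R * Q / 8 = R / (2 * Q) * (Q / 2) ^ 2 by field_simp; ring,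
        Real.sqrt_mul (by positivity), Real.sqrt_sq (by positivity)]
    rw [e]
    apply Real.le_sqrt_of_sq_le
    nlinarith
  calc R / 3 ≤ Real.sqrt (R / (2 * Q)) * (Q / 2) := h4
    _ ≤ prof a R Q * ((Q : ℝ) ^ 2 / (R + Q)) :=
        mul_le_mul h2 h3 (by positivity) (prof_pos hR.le (by linarith) Q).le
    _ = _ := by ring

/-- `M / Q² ≤ ε · prof a R Q / (R + Q)` as soon as `3 M / ε ≤ R ≤ Q`. -/
theorem inv_sq_absorb {a R M ε : ℝ} (hR : 0 < R) (ha0 : 0 ≤ a) (ha1 : a ≤ 1 / 2) (hε : 0 < ε)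
    (hM : 3 * M / ε ≤ R) {Q : ℕ} (hQ : R ≤ Q) :
    M / (Q : ℝ) ^ 2 ≤ ε * (prof a R Q / (R + Q)) := by
  have h1 := prof_mul_sq_ge hR ha0 ha1 hQ
  have hQ0 : (0 : ℝ) < Q := lt_of_lt_of_le hR hQ
  rw [div_le_iff₀ (by positivity)]
  have h2 : M ≤ ε * (R / 3) := by
    rw [div_le_iff₀ hε] at hM; linarith
  refine h2.trans ?_
  have := mul_le_mul_of_nonneg_left h1 hε.le
  refine this.trans (le_of_eq ?_)
  ring

/-- logarithms are absorbed: for every `M`, `ε > 0`, `M log(Q+2) ≤ ε (R + Q)` for `R ≥ R0`. -/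
theorem exists_log_absorb (M ε : ℝ) (hε : 0 < ε) :
    ∃ R0 : ℝ, 0 < R0 ∧ ∀ R : ℝ, R0 ≤ R → ∀ Q : ℕ, R ≤ Q → M * Real.log (Q + 2) ≤ ε * (R + Q) := by
  have h := Real.isLittleO_log_id_atTop.def (show (0 : ℝ) < ε / (2 * (|M| + 1)) by positivity)
  rw [Filter.eventually_atTop] at h
  obtain ⟨x0, hx0⟩ := h
  refine ⟨max x0 2, by positivity, fun R hR Q hQ => ?_⟩
  have hQ2 : (2 : ℝ) ≤ Q := le_trans (le_trans (le_max_right _ _) hR) hQ
  have h1 := hx0 ((Q : ℝ) + 2) (by linarith [le_max_left x0 2])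
  rw [Real.norm_eq_abs, id, Real.norm_eq_abs, abs_of_nonneg (Real.log_nonneg (by linarith)),
    abs_of_nonneg (by linarith : (0 : ℝ) ≤ Q + 2)] at h1
  have hlog : 0 ≤ Real.log ((Q : ℝ) + 2) := Real.log_nonneg (by linarith)
  have h2 : M * Real.log ((Q : ℝ) + 2) ≤ (|M| + 1) * Real.log (Q + 2) :=
    mul_le_mul_of_nonneg_right (by linarith [le_abs_self M]) hlog
  have h3 : (|M| + 1) * Real.log ((Q : ℝ) + 2) ≤
      (|M| + 1) * (ε / (2 * (|M| + 1)) * (Q + 2)) :=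
    mul_le_mul_of_nonneg_left h1 (by positivity)
  have h4 : (|M| + 1) * (ε / (2 * (|M| + 1)) * ((Q : ℝ) + 2)) = ε * ((Q + 2) / 2) := by
    field_simp
  have hR2 : 2 ≤ R := le_trans (le_max_right _ _) hR
  rw [h4] at h3
  refine (h2.trans h3).trans ?_
  apply mul_le_mul_of_nonneg_left _ hε.le
  linarith

/-- **Parameters of the weak pass.** If the errors of the A- and B-steps are at most
`C M (Q⁻² + f_Q log(Q+2) / (R+Q)²)` then for `R ≥ R0(M, a)` they are absorbed for all `Q ≥ R`. -/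
theorem exists_R_weak (M a : ℝ) (ha0 : 0 < a) (ha1 : a ≤ 1 / 100) :
    ∃ R0 : ℝ, 43 ≤ R0 ∧ ∀ R : ℝ, R0 ≤ R → ∀ C : ℝ, 0 ≤ C → ∀ Q : ℕ, R ≤ Q → ∀ e : ℝ,
      e ≤ C * M * (1 / (Q : ℝ) ^ 2 + prof a R Q * Real.log (Q + 2) / (R + Q) ^ 2) →
      e ≤ C * (a * prof a R Q / (R + Q)) ∧ e ≤ C * prof a R Q / 20 := by
  obtain ⟨R1, hR1, hlog⟩ := exists_log_absorb |M| (a / 2) (by positivity)
  refine ⟨max (max 43 R1) (3 * |M| / (a / 2)), by simp, fun R hR C hC Q hQ e he => ?_⟩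
  have hR43 : 43 ≤ R := le_trans (le_trans (le_max_left _ _) (le_max_left _ _)) hR
  have hRR1 : R1 ≤ R := le_trans (le_trans (le_max_right _ _) (le_max_left _ _)) hR
  have hRM : 3 * |M| / (a / 2) ≤ R := le_trans (le_max_right _ _) hR
  have hR0 : 0 < R := by linarith
  have hQ0 : (0 : ℝ) < Q := lt_of_lt_of_le hR0 hQ
  have hp := prof_pos hR0.le (by linarith : a < R + 1) Q
  have h1 := inv_sq_absorb (M := |M|) (ε := a / 2) hR0 ha0.le (by linarith) (by positivity) hRM hQ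
  have h2 := hlog R hRR1 Q hQ
  have h3 : |M| * (prof a R Q * Real.log (Q + 2) / (R + Q) ^ 2) ≤
      a / 2 * (prof a R Q / (R + Q)) := by
    have e1 : |M| * (prof a R Q * Real.log (Q + 2) / (R + Q) ^ 2) =
        prof a R Q / (R + Q) ^ 2 * (|M| * Real.log (Q + 2)) := by ring
    have e2 : a / 2 * (prof a R Q / (R + Q)) = prof a R Q / (R + Q) ^ 2 * (a / 2 * (R + Q)) := by
      field_simp
    rw [e1, e2]
    exact mul_le_mul_of_nonneg_left h2 (by positivity)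
  have hl : 0 ≤ Real.log ((Q : ℝ) + 2) := Real.log_nonneg (by linarith)
  have h4 : C * M * (1 / (Q : ℝ) ^ 2 + prof a R Q * Real.log (Q + 2) / (R + Q) ^ 2) ≤
      C * (a * prof a R Q / (R + Q)) := by
    rw [mul_assoc]
    apply mul_le_mul_of_nonneg_left _ hC
    have h5 : M * (1 / (Q : ℝ) ^ 2 + prof a R Q * Real.log (Q + 2) / (R + Q) ^ 2) ≤
        |M| * (1 / (Q : ℝ) ^ 2 + prof a R Q * Real.log (Q + 2) / (R + Q) ^ 2) :=
      mul_le_mul_of_nonneg_right (le_abs_self M) (by positivity)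
    refine h5.trans ?_
    rw [mul_add, mul_one_div]
    have e3 : a * prof a R Q / (R + Q) =
        a / 2 * (prof a R Q / (R + Q)) + a / 2 * (prof a R Q / (R + Q)) := by ring
    rw [e3]
    exact add_le_add h1 h3
  have h6 := he.trans h4
  refine ⟨h6, h6.trans ?_⟩
  rw [mul_div_assoc C (prof a R Q) 20]
  apply mul_le_mul_of_nonneg_left _ hC
  rw [div_le_div_iff₀ (by positivity) (by norm_num)]
  have : a * prof a R Q * 20 ≤ prof a R Q * 1 := by nlinarith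
  nlinarith

end Crest.Agent.R340.Rec735
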