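import Crest.Agent.R340.PathStep4_880
import Crest.Agent.R340.PeelX_596
import Crest.Agent.R340.GeoD_986
import Crest.Agent.R340.Rec_735

/-!
# The step of the weak pass (helper596, R340 block L3b/L3c)

`WIn` collects the inputs of the weak pass for a class `𝒳` of perturbations stable under compression
and a scalar `x` (vacuum value): ring clustering (operator form, all sectors), (G0), the commutator
with the last orbital and the flux dependence of `x`.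

* `hstep` : the literal hypothesis `hstep` of `Rec735.weak_pass` for `LBW`;
* `eN_le` : its errors are at most `C M (1/Q² + f_Q log (Q+2) / (R+Q)²)`;
* `weak` : the weak pass, with base, vacuum and `K = 1` cases as hypotheses.
-/

set_option autoImplicit false
set_option linter.unusedSectionVars false
open scoped InnerProductSpace ComplexConjugate
open Crest.Agent.R340.Fock649 Crest.Agent.R340.Emb596 Crest.Agent.R340.Geo986
  Crest.Agent.R340.Peel596 Crest.Agent.R340.PathStep880 Crest.Agent.R340.Step596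
  Crest.Agent.R340.PeelX596
open Crest.Agent.R340.Scal725 (prof dd cs)
open Crest.Agent.R340.GG467 (pj pj_mem pj_of_mem star_pj pj_mul_self)
open Crest.Agent.R340.PV341 (Adm)
open Crest.Agent.R340

namespace Crest.Agent.R340.Hstep596

open Finset

/-! ### 1. clustering in operator form -/

/-- ring clustering, operator form on all zero modes (667's output) -/
def OpG (ν : ℕ → ℝ) (Q : ℕ) (CG : ℝ) : Prop :=
  ∀ p < Q - 1, ∀ q < Q - 1,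
    ‖pj (Zs ν Q) * dG (Matrix.diagonal fun i : Fin (Q + 1) => ((kink (p + 1) i : ℝ) : ℂ)) *
        (1 - pj (Zs ν Q)) *
        dG (Matrix.diagonal fun i : Fin (Q + 1) => ((kink (q + 1) i : ℝ) : ℂ)) *
        pj (Zs ν Q)‖ ≤
      CG * (PSD716.dd Q p * Real.sqrt (PSD716.dd Q p)) * (1 + PSD716.DD Q p q) ^ (-(20 : ℝ))

/-- clustering of the ring operators against `X`, operator form -/
def OpX (ν : ℕ → ℝ) (Q : ℕ) (X : Op (Fin (Q + 1))) (CX : ℝ) : Prop :=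
  ∀ p < Q - 1,
    ‖pj (Zs ν Q) * dG (Matrix.diagonal fun i : Fin (Q + 1) => ((kink (p + 1) i : ℝ) : ℂ)) *
        (1 - pj (Zs ν Q)) * X * pj (Zs ν Q)‖ ≤ CX * (((p : ℝ) + 1) ^ 2)⁻¹

theorem OpG.ringG {ν : ℕ → ℝ} {Q : ℕ} {CG : ℝ} (h : OpG ν Q CG) (n : ℕ) :
    RingG Q (Zn ν Q n) CG 20 := RingG_of_op h n

theorem OpX.ringX {ν : ℕ → ℝ} {Q : ℕ} {X : Op (Fin (Q + 1))} {CX : ℝ} (h : OpX ν Q X CX) (n : ℕ) :
    RingX Q (Zn ν Q n) X CX := RingX_of_op h n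

/-- two-state version of `PathStep880.inner_off_le` -/
theorem inner_off_le₂ {Q : ℕ} (Z : Submodule ℂ (Fk (Fin (Q + 1)))) (A Y : Op (Fin (Q + 1)))
    {ψ φ : Fk (Fin (Q + 1))} (hψ : ψ ∈ Z) (hφ : φ ∈ Z) :
    ‖inner ℂ (off Z (A ψ)) (off Z (Y φ))‖ ≤
      ‖pj Z * star A * (1 - pj Z) * Y * pj Z‖ * (‖ψ‖ * ‖φ‖) := by
  have hP : pj Z ψ = ψ := pj_of_mem hψ
  have hP' : pj Z φ = φ := pj_of_mem hφ
  have h1 : inner ℂ (off Z (A ψ)) (off Z (Y φ)) =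
      inner ℂ ψ ((pj Z * star A * (1 - pj Z) * Y * pj Z) φ) := by
    rw [inner_off_off, off_eq_pj]
    simp only [mul_ap]
    rw [hP']
    have h2 : inner ℂ ψ (pj Z (star A ((1 - pj Z) (Y φ)))) =
        inner ℂ (pj Z ψ) (star A ((1 - pj Z) (Y φ))) := by
      have := inner_star_right (pj Z) ψ (star A ((1 - pj Z) (Y φ)))
      rw [star_pj] at this
      exact this
    rw [h2, hP, inner_star_right]
  rw [h1]
  refine (norm_inner_le_norm _ _).trans ?_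
  have h3 := Op.norm_ap_le (pj Z * star A * (1 - pj Z) * Y * pj Z) φ
  calc ‖ψ‖ * ‖(pj Z * star A * (1 - pj Z) * Y * pj Z) φ‖
      ≤ ‖ψ‖ * (‖pj Z * star A * (1 - pj Z) * Y * pj Z‖ * ‖φ‖) := by gcongr
    _ = _ := by ring

theorem OpG.rc2 {ν : ℕ → ℝ} {Q : ℕ} {CG : ℝ} (h : OpG ν Q CG) (n : ℕ) :
    RC2 Q (Zn ν Q n) CG 20 := by
  intro ψ hψ φ hφ p hp q hq
  have e : ∀ χ ∈ Zn ν Q n, ∀ r, off (Zn ν Q n) (TT Q (kink r) χ) = off (Zs ν Q) (TT Q (kink r) χ) := by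
    intro χ hχ r
    apply off_Zn
    rw [TT_Nh, hχ.2, map_smul]
  rw [e ψ hψ, e φ hφ]
  have h1 := inner_off_le₂ (Zs ν Q)
    (dG (Matrix.diagonal fun i : Fin (Q + 1) => ((kink (p + 1) i : ℝ) : ℂ)))
    (dG (Matrix.diagonal fun i : Fin (Q + 1) => ((kink (q + 1) i : ℝ) : ℂ))) hψ.1 hφ.1
  rw [star_dG_real] at h1
  exact h1.trans (mul_le_mul_of_nonneg_right (h p hp q hq) (by positivity))

theorem OpX.rx2 {ν : ℕ → ℝ} {Q : ℕ} {X : Op (Fin (Q + 1))} {CX : ℝ} (h : OpX ν Q X CX) (n : ℕ) :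
    RX2 Q (Zn ν Q n) X CX := by
  intro ψ hψ φ hφ p hp
  have e : off (Zn ν Q n) (TT Q (kink (p + 1)) ψ) = off (Zs ν Q) (TT Q (kink (p + 1)) ψ) := by
    apply off_Zn
    rw [TT_Nh, hψ.2, map_smul]
  have e2 : inner ℂ (off (Zn ν Q n) (TT Q (kink (p + 1)) ψ)) (off (Zn ν Q n) (X φ)) =
      inner ℂ (off (Zs ν Q) (TT Q (kink (p + 1)) ψ)) (off (Zs ν Q) (X φ)) := by
    rw [← inner_off_left, ← inner_off_left, e]
  rw [e2]
  have h1 := inner_off_le₂ (Zs ν Q)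
    (dG (Matrix.diagonal fun i : Fin (Q + 1) => ((kink (p + 1) i : ℝ) : ℂ))) X hψ.1 hφ.1
  rw [star_dG_real] at h1
  exact h1.trans (mul_le_mul_of_nonneg_right (h p hp) (by positivity))

theorem ringG_of_RC2 {Q : ℕ} {Z : Submodule ℂ (Fk (Fin (Q + 1)))} {CG m : ℝ} (h : RC2 Q Z CG m) :
    RingG Q Z CG m := fun _ hψ h1 _ hp _ hq => h.unit hψ h1 hp hq

theorem ringX_of_RX2 {Q : ℕ} {Z : Submodule ℂ (Fk (Fin (Q + 1)))} {X : Op (Fin (Q + 1))} {CX : ℝ}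
    (h : RX2 Q Z X CX) : RingX Q Z X CX := fun _ hψ h1 _ hp => h.unit hψ h1 hp

/-! ### 2. the inputs -/

/-- Inputs of the weak pass, for a class `𝒳` of perturbations and the vacuum values `x`. -/
structure WIn (𝒳 : ∀ Q : ℕ, Op (Fin (Q + 1)) → Prop) (x : ∀ Q : ℕ, Op (Fin (Q + 1)) → ℝ)
    (κ CG CX Cx Cc : ℝ) (Qc : ℕ) : Prop where
  κpos : 0 < κ
  CGn : 0 ≤ CG
  CXn : 0 ≤ CX
  Cxn : 0 ≤ Cx
  Ccn : 0 ≤ Cc
  cl : ∀ {Q' Q : ℕ} (h : Q' ≤ Q) (X : Op (Fin (Q + 1))), 𝒳 Q X → 𝒳 Q' (cmp (ee h) X)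
  sa : ∀ (Q : ℕ) (X : Op (Fin (Q + 1))), 𝒳 Q X → star X = X
  G : ∀ Q : ℕ, Qc ≤ Q → ∀ t : Fin 3 → ℝ, Adm t → ∀ n : ℕ, RC2 Q (Zn (nuT t Q) Q n) CG 20
  X : ∀ Q : ℕ, Qc ≤ Q → ∀ t : Fin 3 → ℝ, Adm t → ∀ X : Op (Fin (Q + 1)), 𝒳 Q X →
    ∀ n : ℕ, RX2 Q (Zn (nuT t Q) Q n) X CX
  G0 : ∀ Q n : ℕ, ∀ ψ ∈ Zn (nu0 (Q + 1)) (Q + 1) n,
    (∀ φ ∈ Zn (nu0 (Q + 1)) (Q + 1) n, c (Fin.last (Q + 1)) φ = 0 → ⟪φ, ψ⟫_ℂ = 0) →
      κ * ‖ψ‖ ^ 2 ≤ ‖c (Fin.last (Q + 1)) ψ‖ ^ 2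
  comm : ∀ (Q : ℕ), Qc ≤ Q → ∀ (X : Op (Fin (Q + 1))), 𝒳 Q X →
    ‖c (Fin.last Q) * X - X * c (Fin.last Q)‖ ≤ Cc / (Q : ℝ) ^ 2
  x3 : ∀ (Q : ℕ), Qc ≤ Q → ∀ (X : Op (Fin (Q + 3 + 1))), 𝒳 (Q + 3) X →
    |x (Q + 3) X - x Q (cmp (ee (Nat.le_add_right Q 3)) X)| ≤ Cx / ((Q + 3 : ℕ) : ℝ) ^ 2
  x1 : ∀ (Q : ℕ), Qc ≤ Q → ∀ (X : Op (Fin (Q + 3 + 1))), 𝒳 (Q + 3) X →
    |x (Q + 3) X - x (Q + 2) (cmp (ee (Nat.le_succ (Q + 2))) X)| ≤ Cx / ((Q + 3 : ℕ) : ℝ) ^ 2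

/-- the lower bound predicate of the weak pass, `f = prof a R`: for all perturbations of the class,
`3 C (c(Q) - dΓ f) - (X - x) ≥ L` on the zero modes with `n` particles. -/
def LBW (𝒳 : ∀ Q : ℕ, Op (Fin (Q + 1)) → Prop) (x : ∀ Q : ℕ, Op (Fin (Q + 1)) → ℝ) (C : ℝ)
    (f : ℕ → ℝ) (n Q : ℕ) (L : ℝ) : Prop :=
  ∀ X : Op (Fin (Q + 1)), 𝒳 Q X → LB (nu0 Q) Q n (Dop Q (3 * C * cs f Q + x Q X) (3 * C) f X) L

theorem LBW.mono {𝒳 : ∀ Q : ℕ, Op (Fin (Q + 1)) → Prop} {x : ∀ Q : ℕ, Op (Fin (Q + 1)) → ℝ}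
    {C : ℝ} {f : ℕ → ℝ} {n Q : ℕ} {L L' : ℝ} (hL : L' ≤ L) (h : LBW 𝒳 x C f n Q L) :
    LBW 𝒳 x C f n Q L' := fun X hX => (h X hX).mono hL

/-- error of the cross term at flux `N` -/
noncomputable def eX (κ CG CX Cc C a R : ℝ) (N : ℕ) : ℝ :=
  2 * ((3 * C * (CG * (59049 * dd (prof a R) N)) + CX * (((N : ℝ) - 1) ^ 2)⁻¹ +
    Cc / (N : ℝ) ^ 2) / κ)

/-- error of the step to flux `N`, from flux `N - 3` (`b = 3`) or `N - 1` (`b = 1`) -/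
noncomputable def eN (b : ℕ) (κ CG CX Cx Cc C a R : ℝ) (N : ℕ) : ℝ :=
  eMove b CG CX C a R (N - b) + Cx / (N : ℝ) ^ 2 + eX κ CG CX Cc C a R N

/-- **the step of the weak pass** -/
theorem hstep {𝒳 : ∀ Q : ℕ, Op (Fin (Q + 1)) → Prop} {x : ∀ Q : ℕ, Op (Fin (Q + 1)) → ℝ}
    {κ CG CX Cx Cc : ℝ} {Qc : ℕ} (hin : WIn 𝒳 x κ CG CX Cx Cc Qc) {a R C : ℝ} (ha0 : 0 < a)
    (ha2 : a ≤ 2) (haR : a ≤ R) (hC : 0 ≤ C) (n Q : ℕ) (hQ : Qc ≤ Q) (L1 L2 : ℝ)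
    (h1 : LBW 𝒳 x C (prof a R) n Q L1) (h2 : LBW 𝒳 x C (prof a R) (n + 1) (Q + 2) L2) :
    LBW 𝒳 x C (prof a R) (n + 1) (Q + 3)
      (min (L1 + (3 * C * (cs (prof a R) (Q + 3) - prof a R (Q + 3) - cs (prof a R) Q) -
            eN 3 κ CG CX Cx Cc C a R (Q + 3)))
          (L2 + (3 * C * (cs (prof a R) (Q + 3) - cs (prof a R) (Q + 2)) -
            eN 1 κ CG CX Cx Cc C a R (Q + 3)))) := by
  intro X hX
  set f := prof a R with hf
  have h3C : 0 ≤ 3 * C := by linarith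
  have hR : 0 ≤ R := ha0.le.trans haR
  set s := 3 * C * cs f (Q + 3) + x (Q + 3) X with hs
  set XA := cmp (ee (Nat.le_add_right Q 3)) X with hXA
  set XB := cmp (ee (Nat.le_succ (Q + 2))) X with hXB
  have hcA : 𝒳 Q XA := hin.cl _ X hX
  have hcB : 𝒳 (Q + 2) XB := hin.cl _ X hX
  set sA := 3 * C * cs f Q + x Q XA with hsA
  set sB := 3 * C * cs f (Q + 2) + x (Q + 2) XB with hsB
  have hxA := (abs_le.1 (hin.x3 Q hQ X hX)).1
  have hxB := (abs_le.1 (hin.x1 Q hQ X hX)).1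
  set δ := 3 * C * (CG * (59049 * dd f (Q + 3))) + CX * ((((Q + 3 : ℕ) : ℝ) - 1) ^ 2)⁻¹ with hδ
  set η := Cc / ((Q + 3 : ℕ) : ℝ) ^ 2 with hη
  have hdd : 0 ≤ dd f (Q + 3) := Scal725.dd_prof_nonneg hR ha0.le (by linarith) _
  have hδ0 : 0 ≤ δ := by
    have := hin.CGn
    have := hin.CXn
    positivity
  have hZ0 : RC2 (Q + 3) (Zn (nu0 (Q + 3)) (Q + 3) (n + 1)) CG 20 := by
    have := hin.G (Q + 3) (by omega) (fun _ => 0) Adm_zero (n + 1)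
    rwa [nuT_zero] at this
  have hX0 : RX2 (Q + 3) (Zn (nu0 (Q + 3)) (Q + 3) (n + 1)) X CX := by
    have := hin.X (Q + 3) (by omega) (fun _ => 0) Adm_zero X hX (n + 1)
    rwa [nuT_zero] at this
  have hcross := cross_le (Q := Q + 3) (by omega) (Zn (nu0 (Q + 3)) (Q + 3) (n + 1))
    (fun ψ hψ => TT_one_mem_Zn hψ) (fun ψ hψ => TT_lin_mem_Zn hψ) ha0.le ha2 haR s (3 * C) h3C X
    hin.CGn (le_refl (20 : ℝ)) hZ0 hX0
  have hmA := move_A (Q := Q) (n := n) ha0 ha2 haR sA C hC XA (hin.sa Q XA hcA) hin.CGn hin.CXn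
    (le_refl (20 : ℝ))
    (fun θ hθ => ringG_of_RC2 (hin.G Q hQ (tA θ) (adm_tA ⟨hθ.1.le, hθ.2⟩) n))
    (fun θ hθ => ringX_of_RX2 (hin.X Q hQ (tA θ) (adm_tA ⟨hθ.1.le, hθ.2⟩) XA hcA n))
  have hmB := move_B (Q := Q + 2) (n := n + 1) ha0 ha2 haR sB C hC XB (hin.sa (Q + 2) XB hcB)
    hin.CGn hin.CXn (le_refl (20 : ℝ))
    (fun θ hθ => ringG_of_RC2 (hin.G (Q + 2) (by omega) (tB θ) (adm_tB ⟨hθ.1.le, hθ.2⟩) (n + 1)))
    (fun θ hθ => ringX_of_RX2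
      (hin.X (Q + 2) (by omega) (tB θ) (adm_tB ⟨hθ.1.le, hθ.2⟩) XB hcB (n + 1)))
  have hmain := AB_step (Q := Q) (n := n) s sA sB (3 * C) f X (hin.sa (Q + 3) X hX) κ δ η
    (eMove 3 CG CX C a R Q) (eMove 1 CG CX C a R (Q + 2)) L1 L2 hin.κpos hδ0
    (hin.G0 (Q + 2) (n + 1)) (hin.comm (Q + 3) (by omega) X hX) hcross hmA hmB (h1 XA hcA)
    (h2 XB hcB)
  refine hmain.mono ?_
  have eAeq : eN 3 κ CG CX Cx Cc C a R (Q + 3) =
      eMove 3 CG CX C a R Q + Cx / ((Q + 3 : ℕ) : ℝ) ^ 2 + 2 * ((δ + η) / κ) := by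
    unfold eN eX
    rw [Nat.add_sub_cancel]
  have eBeq : eN 1 κ CG CX Cx Cc C a R (Q + 3) =
      eMove 1 CG CX C a R (Q + 2) + Cx / ((Q + 3 : ℕ) : ℝ) ^ 2 + 2 * ((δ + η) / κ) := by
    unfold eN eX
    rw [show Q + 3 - 1 = Q + 2 by omega]
  rw [eAeq, eBeq]
  refine le_sub_iff_add_le.2 (le_min ?_ ?_)
  · refine (add_le_add (min_le_left _ _) le_rfl).trans ?_
    have : s - 3 * C * f (Q + 3) - sA = 3 * C * (cs f (Q + 3) - f (Q + 3) - cs f Q) +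
        (x (Q + 3) X - x Q XA) := by
      rw [hs, hsA]; ring
    rw [this]
    linarith
  · refine (add_le_add (min_le_right _ _) le_rfl).trans ?_
    have : s - sB = 3 * C * (cs f (Q + 3) - cs f (Q + 2)) +
        (x (Q + 3) X - x (Q + 2) XB) := by
      rw [hs, hsB]; ring
    rw [this]
    linarith

/-! ### 3. the size of the errors -/

theorem one_le_log {N : ℕ} (hN : 43 ≤ N) : 1 ≤ Real.log ((N : ℝ) + 2) := by
  have h : (43 : ℝ) ≤ N := by exact_mod_cast hN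
  rw [Real.le_log_iff_exp_le (by linarith)]
  have := Real.exp_one_lt_d9
  linarith

/-- second difference at flux `N - b` in terms of the profile at `N` -/
theorem dd_le {a R : ℝ} (ha0 : 0 < a) (ha1 : a ≤ 1 / 100) (hR : 1 ≤ R) {N Q : ℕ} (hN : 43 ≤ N)
    (hQ : N ≤ Q + 3) (_ : Q ≤ N) :
    dd (prof a R) Q ≤ prof a R N / (R + N) ^ 2 := by
  have hR0 : 0 ≤ R := by linarith
  have ha : a < R + 1 := by linarith
  have hN' : (43 : ℝ) ≤ N := by exact_mod_cast hN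
  have hQ' : (N : ℝ) ≤ Q + 3 := by exact_mod_cast hQ
  have hp := Scal725.prof_pos hR0 ha Q
  have hpN := Scal725.prof_pos hR0 ha N
  -- the profile
  have h1 : prof a R Q ≤ 2 * prof a R N := by
    have hanti := Scal725.prof_antitone hR0 ha0.le ha
    have step : ∀ j : ℕ, prof a R j ≤ 101 / 100 * prof a R (j + 1) := by
      intro j
      have hd := Scal725.prof_diff (a := a) (R := R) j
      have hj : (0 : ℝ) ≤ j := Nat.cast_nonneg j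
      have hpj := Scal725.prof_pos hR0 ha j
      have h2 : a * prof a R j / (R + j + 1) ≤ 1 / 200 * prof a R j := by
        rw [div_le_iff₀ (by linarith)]
        have : a ≤ 1 / 200 * (R + j + 1) := by linarith
        nlinarith
      linarith
    have h3 : prof a R Q ≤ (101 / 100) * ((101 / 100) * ((101 / 100) * prof a R (Q + 3))) := by
      have s1 := step Q
      have s2 := step (Q + 1)
      have s3 := step (Q + 2)
      linarith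
    have h4 : prof a R (Q + 3) ≤ prof a R N := hanti hQ
    linarith
  rw [Scal725.dd_prof hR0]
  rw [div_le_div_iff₀ (by positivity) (by positivity)]
  have h5 : a * (1 + a) ≤ 1 / 90 := by nlinarith
  have h6 : (R + N) ^ 2 ≤ 2 * ((R + Q + 1) * (R + Q + 2)) := by
    have : R + N ≤ R + Q + 3 := by linarith
    have h40 : (40 : ℝ) ≤ Q := by linarith
    nlinarith
  have h7 : a * (1 + a) * prof a R Q ≤ 1 / 90 * (2 * prof a R N) :=
    mul_le_mul h5 h1 hp.le (by norm_num)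
  calc a * (1 + a) * prof a R Q * (R + N) ^ 2
      ≤ (1 / 90 * (2 * prof a R N)) * (2 * ((R + Q + 1) * (R + Q + 2))) := by
        apply mul_le_mul h7 h6 (by positivity) (by positivity)
    _ ≤ prof a R N * ((R + Q + 1) * (R + Q + 2)) := by
        have : 0 ≤ prof a R N * ((R + Q + 1) * (R + Q + 2)) := by positivity
        nlinarith

/-- the constant of the weak pass -/
noncomputable def Mw (κ CG CX Cx Cc : ℝ) : ℝ :=
  217728 * CG + 96 * CX + Cx + 2 * ((177147 * CG + 2 * CX + Cc) / κ)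

theorem eMove_le {a R : ℝ} (ha0 : 0 < a) (ha1 : a ≤ 1 / 100) (hR : 1 ≤ R) {b N : ℕ} (hN : 43 ≤ N)
    (hb : b ≤ 3) {CG CX C : ℝ} (hCG : 0 ≤ CG) (hCX : 0 ≤ CX) (hC : 1 ≤ C) :
    eMove b CG CX C a R (N - b) ≤ C * (217728 * CG + 96 * CX) *
      (1 / (N : ℝ) ^ 2 + prof a R N * Real.log (N + 2) / (R + N) ^ 2) := by
  have hR0 : 0 ≤ R := by linarith
  have ha : a < R + 1 := by linarith
  have hN' : (43 : ℝ) ≤ N := by exact_mod_cast hN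
  have hpN := Scal725.prof_pos hR0 ha N
  have hlog := one_le_log hN
  set Q := N - b with hQ
  have hQ1 : Q ≤ N := by omega
  have hQ2 : N ≤ Q + 3 := by omega
  have hQN : (Q : ℝ) ≤ N := by exact_mod_cast hQ1
  have hQN' : (N : ℝ) ≤ Q + 3 := by exact_mod_cast hQ2
  have hQpos : (0 : ℝ) < Q := by linarith
  have hdd := dd_le ha0 ha1 hR hN hQ2 hQ1
  have hdd0 := Scal725.dd_prof_nonneg hR0 ha0.le ha Q
  set F := prof a R N * Real.log (N + 2) / (R + N) ^ 2 with hF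
  have hF0 : 0 ≤ F := by positivity
  have h1 : 1 / (Q : ℝ) ^ 2 ≤ 2 * (1 / (N : ℝ) ^ 2) := by
    rw [mul_one_div, div_le_div_iff₀ (by positivity) (by positivity)]
    nlinarith
  have h2 : dd (prof a R) Q * Real.log Q ≤ F := by
    have hl : Real.log (Q : ℝ) ≤ Real.log ((N : ℝ) + 2) :=
      Real.log_le_log hQpos (by linarith)
    calc dd (prof a R) Q * Real.log Q ≤ dd (prof a R) Q * Real.log ((N : ℝ) + 2) :=
          mul_le_mul_of_nonneg_left hl hdd0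
      _ ≤ prof a R N / (R + N) ^ 2 * Real.log ((N : ℝ) + 2) :=
          mul_le_mul_of_nonneg_right hdd (by linarith)
      _ = F := by rw [hF]; ring
  have hb' : (b : ℝ) ≤ 3 := by exact_mod_cast hb
  have hb0 : (0 : ℝ) ≤ b := Nat.cast_nonneg b
  have hN2 : 0 < 1 / (N : ℝ) ^ 2 := by positivity
  have h3 : 4 * (1 + a) / (Q : ℝ) ^ 2 + 24 * dd (prof a R) Q * Real.log Q ≤
      24 * (1 / (N : ℝ) ^ 2 + F) := by
    have e1 : 4 * (1 + a) / (Q : ℝ) ^ 2 = 4 * (1 + a) * (1 / (Q : ℝ) ^ 2) := by ring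
    have e2 : 4 * (1 + a) * (1 / (Q : ℝ) ^ 2) ≤ 5 * (2 * (1 / (N : ℝ) ^ 2)) :=
      mul_le_mul (by linarith) h1 (by positivity) (by norm_num)
    rw [e1]
    nlinarith
  have h30 : 0 ≤ 4 * (1 + a) / (Q : ℝ) ^ 2 + 24 * dd (prof a R) Q * Real.log Q := by
    have : 0 ≤ Real.log (Q : ℝ) := Real.log_nonneg (by linarith)
    positivity
  unfold eMove
  have h4 : 3 * C * (1008 * CG * b * (4 * (1 + a) / (Q : ℝ) ^ 2 +
      24 * dd (prof a R) Q * Real.log Q)) ≤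
      3 * C * (1008 * CG * 3 * (24 * (1 / (N : ℝ) ^ 2 + F))) := by
    apply mul_le_mul_of_nonneg_left _ (by linarith)
    apply mul_le_mul _ h3 h30 (by positivity)
    exact mul_le_mul_of_nonneg_left hb' (by positivity)
  have h5 : 16 * b * CX / (Q : ℝ) ^ 2 ≤ C * (96 * CX) * (1 / (N : ℝ) ^ 2) := by
    have e1 : 16 * b * CX / (Q : ℝ) ^ 2 = 16 * b * CX * (1 / (Q : ℝ) ^ 2) := by ring
    rw [e1]
    have e2 : 16 * b * CX * (1 / (Q : ℝ) ^ 2) ≤ 16 * 3 * CX * (2 * (1 / (N : ℝ) ^ 2)) := by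
      apply mul_le_mul _ h1 (by positivity) (by positivity)
      apply mul_le_mul_of_nonneg_right _ hCX
      linarith
    have e3 : 96 * CX * (1 / (N : ℝ) ^ 2) ≤ C * (96 * CX * (1 / (N : ℝ) ^ 2)) :=
      le_mul_of_one_le_left (by positivity) hC
    linarith
  have h6 : 0 ≤ C * (96 * CX) * F := by
    have : 0 ≤ C := by linarith
    positivity
  calc _ ≤ 3 * C * (1008 * CG * 3 * (24 * (1 / (N : ℝ) ^ 2 + F))) +
        C * (96 * CX) * (1 / (N : ℝ) ^ 2) := add_le_add h4 h5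
    _ ≤ _ := by nlinarith

theorem eX_le {a R : ℝ} (ha0 : 0 < a) (ha1 : a ≤ 1 / 100) (hR : 1 ≤ R) {N : ℕ} (hN : 43 ≤ N)
    {κ CG CX Cc C : ℝ} (hκ : 0 < κ) (hCG : 0 ≤ CG) (hCX : 0 ≤ CX) (hCc : 0 ≤ Cc) (hC : 1 ≤ C) :
    eX κ CG CX Cc C a R N ≤ C * (2 * ((177147 * CG + 2 * CX + Cc) / κ)) *
      (1 / (N : ℝ) ^ 2 + prof a R N * Real.log (N + 2) / (R + N) ^ 2) := by
  have hR0 : 0 ≤ R := by linarith
  have ha : a < R + 1 := by linarith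
  have hN' : (43 : ℝ) ≤ N := by exact_mod_cast hN
  have hpN := Scal725.prof_pos hR0 ha N
  have hlog := one_le_log hN
  have hdd := dd_le ha0 ha1 hR hN (show N ≤ N + 3 by omega) le_rfl
  have hdd0 := Scal725.dd_prof_nonneg hR0 ha0.le ha N
  set F := prof a R N * Real.log (N + 2) / (R + N) ^ 2 with hF
  have hF0 : 0 ≤ F := by positivity
  have h2 : dd (prof a R) N ≤ F := by
    refine hdd.trans ?_
    rw [hF]
    apply div_le_div_of_nonneg_right _ (by positivity)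
    exact le_mul_of_one_le_right hpN.le hlog
  have h1 : (((N : ℝ) - 1) ^ 2)⁻¹ ≤ 2 * (1 / (N : ℝ) ^ 2) := by
    rw [mul_one_div, inv_eq_one_div, div_le_div_iff₀ (by nlinarith) (by positivity)]
    nlinarith
  have hN2 : 0 < 1 / (N : ℝ) ^ 2 := by positivity
  have hC0 : 0 ≤ C := by linarith
  have key : 3 * C * (CG * (59049 * dd (prof a R) N)) + CX * (((N : ℝ) - 1) ^ 2)⁻¹ +
      Cc / (N : ℝ) ^ 2 ≤ C * (177147 * CG + 2 * CX + Cc) * (1 / (N : ℝ) ^ 2 + F) := by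
    have e1 : 3 * C * (CG * (59049 * dd (prof a R) N)) ≤ C * (177147 * CG) * F := by
      have : 3 * C * (CG * (59049 * dd (prof a R) N)) = C * (177147 * CG) * dd (prof a R) N := by
        ring
      rw [this]
      exact mul_le_mul_of_nonneg_left h2 (by positivity)
    have e2 : CX * (((N : ℝ) - 1) ^ 2)⁻¹ ≤ C * (2 * CX) * (1 / (N : ℝ) ^ 2) := by
      have s1 := mul_le_mul_of_nonneg_left h1 hCX
      have s2 : 2 * CX * (1 / (N : ℝ) ^ 2) ≤ C * (2 * CX * (1 / (N : ℝ) ^ 2)) :=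
        le_mul_of_one_le_left (by positivity) hC
      linarith
    have e3 : Cc / (N : ℝ) ^ 2 ≤ C * Cc * (1 / (N : ℝ) ^ 2) := by
      have s2 : Cc * (1 / (N : ℝ) ^ 2) ≤ C * (Cc * (1 / (N : ℝ) ^ 2)) :=
        le_mul_of_one_le_left (by positivity) hC
      rw [div_eq_mul_one_div]
      linarith
    have e4 : 0 ≤ C * (177147 * CG) * (1 / (N : ℝ) ^ 2) := by positivity
    have e5 : 0 ≤ C * (2 * CX) * F := by positivity
    have e6 : 0 ≤ C * Cc * F := by positivity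
    nlinarith
  unfold eX
  calc 2 * ((3 * C * (CG * (59049 * dd (prof a R) N)) + CX * (((N : ℝ) - 1) ^ 2)⁻¹ +
        Cc / (N : ℝ) ^ 2) / κ)
      ≤ 2 * ((C * (177147 * CG + 2 * CX + Cc) * (1 / (N : ℝ) ^ 2 + F)) / κ) := by
        apply mul_le_mul_of_nonneg_left _ (by norm_num)
        exact div_le_div_of_nonneg_right key hκ.le
    _ = _ := by ring

theorem eN_le {a R : ℝ} (ha0 : 0 < a) (ha1 : a ≤ 1 / 100) (hR : 1 ≤ R) {b N : ℕ} (hN : 43 ≤ N)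
    (hb : b ≤ 3) {κ CG CX Cx Cc C : ℝ} (hκ : 0 < κ) (hCG : 0 ≤ CG) (hCX : 0 ≤ CX) (hCx : 0 ≤ Cx)
    (hCc : 0 ≤ Cc) (hC : 1 ≤ C) :
    eN b κ CG CX Cx Cc C a R N ≤ C * Mw κ CG CX Cx Cc *
      (1 / (N : ℝ) ^ 2 + prof a R N * Real.log (N + 2) / (R + N) ^ 2) := by
  have hR0 : 0 ≤ R := by linarith
  have ha : a < R + 1 := by linarith
  have hN' : (43 : ℝ) ≤ N := by exact_mod_cast hN
  have hpN := Scal725.prof_pos hR0 ha N
  have hlog := one_le_log hN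
  have h1 := eMove_le ha0 ha1 hR hN hb hCG hCX hC
  have h2 := eX_le ha0 ha1 hR hN hκ hCG hCX hCc hC
  set F := prof a R N * Real.log (N + 2) / (R + N) ^ 2 with hF
  have hF0 : 0 ≤ F := by positivity
  have hC0 : 0 ≤ C := by linarith
  have h3 : Cx / (N : ℝ) ^ 2 ≤ C * Cx * (1 / (N : ℝ) ^ 2 + F) := by
    have s2 : Cx * (1 / (N : ℝ) ^ 2) ≤ C * (Cx * (1 / (N : ℝ) ^ 2)) :=
      le_mul_of_one_le_left (by positivity) hC
    have s3 : 0 ≤ C * Cx * F := by positivity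
    rw [div_eq_mul_one_div]
    nlinarith
  unfold eN Mw
  calc _ ≤ C * (217728 * CG + 96 * CX) * (1 / (N : ℝ) ^ 2 + F) +
        C * Cx * (1 / (N : ℝ) ^ 2 + F) +
        C * (2 * ((177147 * CG + 2 * CX + Cc) / κ)) * (1 / (N : ℝ) ^ 2 + F) :=
        add_le_add (add_le_add h1 h3) h2
    _ = _ := by ring

/-! ### 4. the weak pass -/

/-- **The weak pass** from the inputs `WIn`, with the base, vacuum and `K = 1` cases as
hypotheses. -/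
theorem weak {𝒳 : ∀ Q : ℕ, Op (Fin (Q + 1)) → Prop} {x : ∀ Q : ℕ, Op (Fin (Q + 1)) → ℝ}
    {κ CG CX Cx Cc : ℝ} {Qc : ℕ} (hin : WIn 𝒳 x κ CG CX Cx Cc Qc) {a : ℝ} (ha0 : 0 < a)
    (ha1 : a ≤ 1 / 100) {θ : ℝ} (hθ0 : 4 / 5 ≤ θ) (hθ1 : θ ≤ 9 / 10) :
    ∃ R0 : ℝ, 43 ≤ R0 ∧ (Qc : ℝ) + 3 ≤ R0 ∧ ∀ R : ℝ, R0 ≤ R → ∀ C : ℝ, 1 ≤ C → ∀ Q0 : ℕ, R ≤ Q0 →
      (∀ n Q, Q < Q0 → 3 * n ≤ Q + 2 →
        LBW 𝒳 x C (prof a R) n Q (θ * C * (Q + 3 - 3 * n) * prof a R Q)) →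
      (∀ Q, LBW 𝒳 x C (prof a R) 0 Q (θ * C * (Q + 3) * prof a R Q)) →
      (∀ n Q, Q + 2 = 3 * n → LBW 𝒳 x C (prof a R) n Q (θ * C * prof a R Q)) →
      ∀ Q n, 3 * n ≤ Q + 2 →
        LBW 𝒳 x C (prof a R) n Q (θ * C * (Q + 3 - 3 * n) * prof a R Q) := by
  obtain ⟨R0, hR0, hR⟩ := Rec735.exists_R_weak (Mw κ CG CX Cx Cc) a ha0 ha1
  refine ⟨max R0 (Qc + 3), le_max_of_le_left hR0, le_max_right _ _,
    fun R hR1 C hC Q0 hQ0 hbase hzero hone => ?_⟩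
  have hRR0 : R0 ≤ R := (le_max_left _ _).trans hR1
  have hRQc : (Qc : ℝ) + 3 ≤ R := (le_max_right _ _).trans hR1
  have hR43 : 43 ≤ R := hR0.trans hRR0
  have hC0 : 0 ≤ C := by linarith
  have hQ43 : 43 ≤ Q0 := by
    have : (43 : ℝ) ≤ Q0 := hR43.trans hQ0
    exact_mod_cast this
  have hQc3 : Qc + 3 ≤ Q0 := by
    have : ((Qc + 3 : ℕ) : ℝ) ≤ Q0 := by push_cast; exact hRQc.trans hQ0
    exact_mod_cast this
  have herr : ∀ b ≤ 3, ∀ Q : ℕ, Q0 ≤ Q →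
      eN b κ CG CX Cx Cc C a R Q ≤ C * (a * prof a R Q / (R + Q)) ∧
        eN b κ CG CX Cx Cc C a R Q ≤ C * prof a R Q / 20 := by
    intro b hb Q hQ
    have hRQ : R ≤ Q := hQ0.trans (by exact_mod_cast hQ)
    exact hR R hRR0 C hC0 Q hRQ _ (eN_le ha0 ha1 (by linarith) (by omega) hb hin.κpos hin.CGn
      hin.CXn hin.Cxn hin.Ccn hC)
  exact Rec735.weak_pass (LBW 𝒳 x C (prof a R)) (fun n Q L L' h h' => h'.mono h) (by linarith) ha0
    ha1 hC0 hθ0 hθ1 Q0 hQ43 (fun Q => eN 3 κ CG CX Cx Cc C a R Q)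
    (fun Q => eN 1 κ CG CX Cx Cc C a R Q) hbase hzero hone
    (fun n Q hQ hn L1 L2 h1 h2 => hstep hin ha0 (by linarith) (by linarith) hC0 n Q (by omega) L1 L2
      h1 h2)
    (fun Q hQ => (herr 3 le_rfl Q hQ).1) (fun Q hQ => (herr 1 (by norm_num) Q hQ).2)

end Crest.Agent.R340.Hstep596
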