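import Crest.Agent.R340.U3_856

/-!
R340 (helper421): the `W`-part of the descending lemma, abstract half.

`W = ∫ s(x) X_x dν(x)`, `X ∈ Fam` (profile class of U3_856).  Frame modes `b g j` are coherent
integrals of the localized annihilators `a 0 z`.  Bounds on `[W, b g j]` (LOSS-W) and on
`A_g = [B_g, W]` and its commutators with the frame modes (input of R1q).
-/

set_option autoImplicit false
set_option linter.unusedSectionVars false

namespace Crest.Agent.R340.J3421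

open MeasureTheory
open Crest.Agent.R340.U856
open scoped InnerProductSpace ComplexConjugate

variable {𝒜 : Type*} [CStarAlgebra 𝒜]

section Alg

/-- commutator norm -/
theorem com_smul (z : ℂ) (X Y : 𝒜) : X * (z • Y) - (z • Y) * X = z • (X * Y - Y * X) := by
  rw [mul_smul_comm, smul_mul_assoc, ← smul_sub]

theorem smul_com (z : ℂ) (X Y : 𝒜) : (z • X) * Y - Y * (z • X) = z • (X * Y - Y * X) := by
  rw [mul_smul_comm, smul_mul_assoc, ← smul_sub]

theorem norm_com_star (X Y : 𝒜) : ‖star X * star Y - star Y * star X‖ = ‖X * Y - Y * X‖ := by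
  have h : star X * star Y - star Y * star X = - star (X * Y - Y * X) := by
    rw [star_sub, star_mul, star_mul]; abel
  rw [h, norm_neg, norm_star]

theorem norm_com_star_right {X : 𝒜} (hX : IsSelfAdjoint X) (Y : 𝒜) :
    ‖X * star Y - star Y * X‖ = ‖X * Y - Y * X‖ := by
  have h := norm_com_star X Y
  rwa [hX.star_eq] at h

theorem norm_com_swap (X Y : 𝒜) : ‖X * Y - Y * X‖ = ‖Y * X - X * Y‖ := norm_sub_rev _ _

end Alg

variable {G : Type*} [TopologicalSpace G] [CompactSpace G] [SecondCountableTopology G] [T2Space G]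
  [MeasurableSpace G] [BorelSpace G] {ν : Measure G} [IsFiniteMeasure ν]

section Int

theorem isfam {F : G → 𝒜} (hF : Continuous F) {s : G → ℝ} (hs : Measurable s)
    (hs1 : ∀ x, |s x| ≤ 1) : Integrable (fun x => (s x : ℂ) • F x) ν := by
  refine Integrable.mono' (g := fun x => ‖F x‖) (cint hF.norm) ?_ ?_
  · exact (Complex.measurable_ofReal.comp hs).aestronglyMeasurable.smul hF.aestronglyMeasurable
  · refine Filter.Eventually.of_forall fun x => ?_
    rw [norm_smul, Complex.norm_real, Real.norm_eq_abs]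
    exact mul_le_of_le_one_left (norm_nonneg _) (hs1 x)

/-- commutator of an integral with a fixed operator -/
theorem int_com {F : G → 𝒜} (hF : Integrable F ν) (Y : 𝒜) :
    (∫ x, F x ∂ν) * Y - Y * (∫ x, F x ∂ν) = ∫ x, (F x * Y - Y * F x) ∂ν := by
  have e1 : (∫ x, F x ∂ν) * Y = ∫ x, F x * Y ∂ν :=
    (((ContinuousLinearMap.mul ℂ 𝒜).flip Y).integral_comp_comm hF).symm
  have e2 : Y * (∫ x, F x ∂ν) = ∫ x, Y * F x ∂ν :=
    ((ContinuousLinearMap.mul ℂ 𝒜 Y).integral_comp_comm hF).symm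
  rw [e1, e2, ← integral_sub]
  · exact ((ContinuousLinearMap.mul ℂ 𝒜).flip Y).integrable_comp hF
  · exact (ContinuousLinearMap.mul ℂ 𝒜 Y).integrable_comp hF

theorem norm_int_le {F : G → 𝒜} {s : G → ℝ}
    (hs1 : ∀ x, |s x| ≤ 1) {f : G → ℝ} (hf : Integrable f ν) (h : ∀ x, ‖F x‖ ≤ f x) :
    ‖∫ x, (s x : ℂ) • F x ∂ν‖ ≤ ∫ x, f x ∂ν := by
  refine (norm_integral_le_integral_norm _).trans ?_
  refine integral_mono_of_nonneg (Filter.Eventually.of_forall fun x => norm_nonneg _) hf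
    (Filter.Eventually.of_forall fun x => ?_)
  simp only
  rw [norm_smul, Complex.norm_real, Real.norm_eq_abs]
  exact (mul_le_of_le_one_left (norm_nonneg _) (hs1 x)).trans (h x)

theorem norm_int_com_le {F : G → 𝒜} (hF : Continuous F) {s : G → ℝ} (hs : Measurable s)
    (hs1 : ∀ x, |s x| ≤ 1) (Y : 𝒜) {f : G → ℝ} (hf : Integrable f ν)
    (h : ∀ x, ‖F x * Y - Y * F x‖ ≤ f x) :
    ‖(∫ x, (s x : ℂ) • F x ∂ν) * Y - Y * (∫ x, (s x : ℂ) • F x ∂ν)‖ ≤ ∫ x, f x ∂ν := by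
  rw [int_com (isfam hF hs hs1)]
  have e : (fun x => ((s x : ℂ) • F x) * Y - Y * ((s x : ℂ) • F x)) =
      fun x => (s x : ℂ) • (F x * Y - Y * F x) := by
    funext x; rw [smul_com]
  rw [e]
  exact norm_int_le hs1 hf h

end Int

/-- frame modes as coherent integrals of the localized annihilators -/
structure Modes (ν : Measure G) (a : Fin 2 → G → 𝒜) {n : ℕ} (b : G → Fin n → 𝒜)
    (kr : G → Fin n → G → ℂ) : Prop where
  kcont : ∀ g j, Continuous (kr g j)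
  rep : ∀ g j, b g j = ∫ z, kr g j z • a 0 z ∂ν

section Main

variable {a : Fin 2 → G → 𝒜} {d : G → G → ℝ} {kap : G → G → ℝ} {Nh : 𝒜} {m : ℕ}
  {S₁ S₂ Ck : ℝ} {n : ℕ} {b : G → Fin n → 𝒜} {kr : G → Fin n → G → ℂ}

/-- (A1) commutator with a frame mode from the coherent profile -/
theorem Modes.norm_com_le (M : Modes ν a b kr) (ha : Continuous (a 0)) (X : 𝒜) (g : G) (j : Fin n)
    {f : G → ℝ} (hf : Continuous f) (h : ∀ z, ‖X * a 0 z - a 0 z * X‖ ≤ f z) :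
    ‖X * b g j - b g j * X‖ ≤ ∫ z, ‖kr g j z‖ * f z ∂ν := by
  have hc : Continuous (fun z => kr g j z • a 0 z) := (M.kcont g j).smul ha
  rw [norm_com_swap, M.rep g j, int_com (cint hc)]
  refine (norm_integral_le_integral_norm _).trans ?_
  refine integral_mono_of_nonneg (Filter.Eventually.of_forall fun x => norm_nonneg _)
    (cint ((M.kcont g j).norm.mul hf)) (Filter.Eventually.of_forall fun z => ?_)
  simp only
  rw [smul_com, norm_smul, norm_com_swap]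
  exact mul_le_mul_of_nonneg_left (h z) (norm_nonneg _)

theorem Modes.norm_com_star_le (M : Modes ν a b kr) (ha : Continuous (a 0)) (X : 𝒜) (g : G)
    (j : Fin n) {f : G → ℝ} (hf : Continuous f)
    (h : ∀ z, ‖X * star (a 0 z) - star (a 0 z) * X‖ ≤ f z) :
    ‖X * star (b g j) - star (b g j) * X‖ ≤ ∫ z, ‖kr g j z‖ * f z ∂ν := by
  have h1 : ‖X * star (b g j) - star (b g j) * X‖ = ‖star X * b g j - b g j * star X‖ := by
    rw [← norm_com_star X (star (b g j)), star_star]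
  rw [h1]
  refine M.norm_com_le ha (star X) g j hf fun z => ?_
  rw [← norm_com_star (star X) (a 0 z), star_star]
  exact h z

/-- pointwise: `(1+d)^-m ≤ (1+d)^-3` -/
theorem div_pow_le {C t : ℝ} (hC : 0 ≤ C) (ht : 0 ≤ t) {m k : ℕ} (h : k ≤ m) :
    C / (1 + t) ^ m ≤ C * ((1 + t) ^ k)⁻¹ := by
  rw [div_eq_mul_inv]
  refine mul_le_mul_of_nonneg_left ?_ hC
  exact inv_anti₀ (by positivity) (pow_le_pow_right₀ (by linarith) h)

variable (F : Frame ν a d kap Nh m S₁ S₂ Ck)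

include F

theorem cont_x (g : G) : Continuous fun x => d x g :=
  F.d_cont.comp (by fun_prop : Continuous fun x => ((x, g) : G × G))

theorem cont_inv_pow (g : G) (k : ℕ) : Continuous fun x => ((1 + d x g) ^ k)⁻¹ := by
  refine Continuous.inv₀ ((continuous_const.add (cont_x F g)).pow k) fun x => ?_
  have := F.d_nonneg x g
  positivity

theorem Ck_nonneg (g : G) : 0 ≤ Ck :=
  (integral_nonneg (μ := ν) (f := fun x => ((1 + d x g) ^ 3)⁻¹)
    fun x => by have := F.d_nonneg x g; positivity).trans (F.schur3 g)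

/-- `‖[W, a_k(z)]‖ ≤ C Ck` -/
theorem com_W_a (hm : 3 ≤ m) {C : ℝ} (hC : 0 ≤ C) {X : G → 𝒜} (hX : Fam a d Nh m C X)
    {s : G → ℝ} (hs : Measurable s) (hs1 : ∀ x, |s x| ≤ 1) (k : Fin 2) (z : G) :
    ‖(∫ x, (s x : ℂ) • X x ∂ν) * a k z - a k z * (∫ x, (s x : ℂ) • X x ∂ν)‖ ≤ C * Ck := by
  refine (norm_int_com_le hX.cont hs hs1 (a k z)
    (f := fun x => C * ((1 + d x z) ^ 3)⁻¹) (cint (continuous_const.mul (cont_inv_pow F z 3))) ?_).trans ?_
  · intro x
    exact (hX.com x k z).trans (div_pow_le hC (F.d_nonneg x z) hm)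
  · rw [integral_const_mul]
    exact mul_le_mul_of_nonneg_left (F.schur3 z) hC

/-- **(LOSS-W), mode by mode**: `‖[W, b g j]‖ ≤ C Ck κ₁(j)` -/
theorem com_W_b (M : Modes ν a b kr) (hm : 3 ≤ m) {C : ℝ} (hC : 0 ≤ C) {X : G → 𝒜}
    (hX : Fam a d Nh m C X) {s : G → ℝ} (hs : Measurable s) (hs1 : ∀ x, |s x| ≤ 1)
    (g : G) (j : Fin n) {κ₁ : ℝ} (hκ : ∫ z, ‖kr g j z‖ ∂ν ≤ κ₁) :
    ‖(∫ x, (s x : ℂ) • X x ∂ν) * b g j - b g j * (∫ x, (s x : ℂ) • X x ∂ν)‖ ≤ C * Ck * κ₁ := by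
  refine (M.norm_com_le (F.acont 0) _ g j (f := fun _ => C * Ck) continuous_const
    fun z => com_W_a F hm hC hX hs hs1 0 z).trans ?_
  rw [integral_mul_const, mul_comm]
  exact mul_le_mul_of_nonneg_left hκ (mul_nonneg hC (Ck_nonneg F g))

/-- LOSS-W, summed over the modes -/
theorem loss_W (M : Modes ν a b kr) (hm : 3 ≤ m) {C : ℝ} (hC : 0 ≤ C) {X : G → 𝒜}
    (hX : Fam a d Nh m C X) {s : G → ℝ} (hs : Measurable s) (hs1 : ∀ x, |s x| ≤ 1)
    (g : G) {κ₁ : Fin n → ℝ} (hκ : ∀ j, ∫ z, ‖kr g j z‖ ∂ν ≤ κ₁ j) {l : Fin n → ℝ}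
    (hl : ∀ j, 0 ≤ l j) {K : ℝ} (hK : ∑ j, l j * κ₁ j ≤ K) {W : 𝒜}
    (hW : W = ∫ x, (s x : ℂ) • X x ∂ν) :
    ∑ j, l j * (3 * ‖star (b g j) * W - W * star (b g j)‖ + ‖b g j * W - W * b g j‖) ≤
      4 * Ck * K * C := by
  have hsa : IsSelfAdjoint W := by rw [hW]; exact sa_integral_fam hX hs hs1
  have h1 : ∀ j, ‖b g j * W - W * b g j‖ ≤ C * Ck * κ₁ j := by
    intro j
    rw [norm_com_swap, hW]
    exact com_W_b F M hm hC hX hs hs1 g j (hκ j)
  have h2 : ∀ j, ‖star (b g j) * W - W * star (b g j)‖ ≤ C * Ck * κ₁ j := by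
    intro j
    rw [norm_com_swap, norm_com_star_right hsa, norm_com_swap]
    exact h1 j
  have hCk := Ck_nonneg F g
  calc ∑ j, l j * (3 * ‖star (b g j) * W - W * star (b g j)‖ + ‖b g j * W - W * b g j‖)
      ≤ ∑ j, l j * (3 * (C * Ck * κ₁ j) + C * Ck * κ₁ j) := by
        refine Finset.sum_le_sum fun j _ => mul_le_mul_of_nonneg_left ?_ (hl j)
        have := h1 j
        have := h2 j
        linarith
    _ = 4 * Ck * (∑ j, l j * κ₁ j) * C := by
        rw [Finset.mul_sum, Finset.sum_mul]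
        exact Finset.sum_congr rfl fun j _ => by ring
    _ ≤ 4 * Ck * K * C := by gcongr

/-! ### the jump commutator `A_g = [B_g, W]` -/

/-- `A_g = ∫ s(x) [B_g, X_x] dν(x)` -/
theorem Ag_eq {C : ℝ} {X : G → 𝒜}
    (hX : Fam a d Nh m C X) {s : G → ℝ} (hs : Measurable s) (hs1 : ∀ x, |s x| ≤ 1) (g : G) :
    pB a g * (∫ x, (s x : ℂ) • X x ∂ν) - (∫ x, (s x : ℂ) • X x ∂ν) * pB a g =
      ∫ x, (s x : ℂ) • TT (pB a) X g x ∂ν := by
  rw [← neg_sub, int_com (isfam hX.cont hs hs1), ← integral_neg]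
  refine integral_congr_ae (Filter.Eventually.of_forall fun x => ?_)
  simp only [TT]
  rw [smul_com, ← smul_neg, neg_sub]

theorem cont_TT {C : ℝ} {X : G → 𝒜} (hX : Fam a d Nh m C X) (g : G) :
    Continuous fun x => TT (pB a) X g x :=
  (continuous_TT F.pB_cont hX.cont).comp (by fun_prop : Continuous fun x => ((x, g) : G × G))

/-- `‖A_g‖ ≤ 2 C Ck` -/
theorem norm_Ag (hm : 3 ≤ m) {C : ℝ} (hC : 0 ≤ C) {X : G → 𝒜} (hX : Fam a d Nh m C X)
    {s : G → ℝ} (hs : Measurable s) (hs1 : ∀ x, |s x| ≤ 1) (g : G) :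
    ‖pB a g * (∫ x, (s x : ℂ) • X x ∂ν) - (∫ x, (s x : ℂ) • X x ∂ν) * pB a g‖ ≤
      2 * Ck * C := by
  rw [Ag_eq F hX hs hs1 g]
  refine (norm_int_le hs1 (f := fun x => 2 * C * ((1 + d x g) ^ 3)⁻¹)
    (cint (continuous_const.mul (cont_inv_pow F g 3))) fun x => ?_).trans ?_
  · refine (F.norm_TT hX g x).trans ?_
    rw [mul_assoc]
    exact mul_le_mul_of_nonneg_left (div_pow_le hC (F.d_nonneg x g) hm) (by norm_num)
  · rw [integral_const_mul]
    have := mul_le_mul_of_nonneg_left (F.schur3 g) (by positivity : 0 ≤ 2 * C)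
    linarith

omit F in
/-- elementary: the minimum of two polynomial profiles -/
theorem min_profile {t u r C f : ℝ} (ht : 0 ≤ t) (hu : 0 ≤ u) (hr : 0 ≤ r) (hC : 0 ≤ C)
    (htri : r ≤ t + u) (k : ℕ) (h1 : f ≤ C / (1 + t) ^ (k + 3)) (h2 : f ≤ C / (1 + u) ^ (k + 3)) :
    f ≤ C * 2 ^ k * ((1 + r) ^ k)⁻¹ * (((1 + t) ^ 3)⁻¹ + ((1 + u) ^ 3)⁻¹) := by
  have key : ∀ v : ℝ, 0 ≤ v → r ≤ 2 * v → f ≤ C / (1 + v) ^ (k + 3) →
      f ≤ C * 2 ^ k * ((1 + r) ^ k)⁻¹ * ((1 + v) ^ 3)⁻¹ := by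
    intro v hv hrv hf
    refine hf.trans ?_
    have e1 : (1 + r) ^ k ≤ 2 ^ k * (1 + v) ^ k := by
      rw [← mul_pow]
      exact pow_le_pow_left₀ (by linarith) (by linarith) k
    have e2 : ((1 + v) ^ k)⁻¹ ≤ 2 ^ k * ((1 + r) ^ k)⁻¹ := by
      rw [← div_eq_mul_inv, le_div_iff₀ (by positivity), inv_mul_le_iff₀ (by positivity)]
      linarith
    calc C / (1 + v) ^ (k + 3) = C * ((1 + v) ^ k)⁻¹ * ((1 + v) ^ 3)⁻¹ := by
          rw [pow_add]; field_simp
      _ ≤ C * (2 ^ k * ((1 + r) ^ k)⁻¹) * ((1 + v) ^ 3)⁻¹ := by gcongr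
      _ = _ := by ring
  have hp1 : 0 ≤ ((1 + t) ^ 3)⁻¹ := by positivity
  have hp2 : 0 ≤ ((1 + u) ^ 3)⁻¹ := by positivity
  have hp : 0 ≤ C * 2 ^ k * ((1 + r) ^ k)⁻¹ := by positivity
  rcases le_total u t with h | h
  · have := key t ht (by linarith) h1
    nlinarith [mul_nonneg hp hp2]
  · have := key u hu (by linarith) h2
    nlinarith [mul_nonneg hp hp1]

theorem norm_com_le_two {T : 𝒜} {Y : 𝒜} (hY : ‖Y‖ ≤ 1) : ‖T * Y - Y * T‖ ≤ 2 * ‖T‖ := by
  refine (norm_sub_le _ _).trans ?_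
  have h1 := norm_mul_le T Y
  have h2 := norm_mul_le Y T
  nlinarith [norm_nonneg T]

/-- constant of the profile of `A_g` -/
noncomputable def cA (k : ℕ) (Kκ Ck : ℝ) : ℝ := (2 ^ (k + 3) + 2 * Kκ) * Ck

/-- profile of `A_g`, annihilators -/
theorem com_Ag {k : ℕ} (hm : m = k + 3) {C : ℝ} (hC : 0 ≤ C) {X : G → 𝒜}
    (hX : Fam a d Nh m C X) {s : G → ℝ} (hs : Measurable s) (hs1 : ∀ x, |s x| ≤ 1)
    (htri : ∀ x g w, d g w ≤ d x g + d x w) {Kκ : ℝ} (hK0 : 0 ≤ Kκ) (g w : G) (i : Fin 2) :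
    ‖(pB a g * (∫ x, (s x : ℂ) • X x ∂ν) - (∫ x, (s x : ℂ) • X x ∂ν) * pB a g) * a i w -
      a i w * (pB a g * (∫ x, (s x : ℂ) • X x ∂ν) - (∫ x, (s x : ℂ) • X x ∂ν) * pB a g)‖ ≤
      cA k Kκ Ck * C / (1 + d g w) ^ k := by
  rw [Ag_eq F hX hs hs1 g]
  have hint : Integrable (fun x => 4 * C * 2 ^ k * ((1 + d g w) ^ k)⁻¹ *
      (((1 + d x g) ^ 3)⁻¹ + ((1 + d x w) ^ 3)⁻¹)) ν :=
    cint (continuous_const.mul ((cont_inv_pow F g 3).add (cont_inv_pow F w 3)))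
  refine (norm_int_com_le (cont_TT F hX g) hs hs1 (a i w) hint fun x => ?_).trans ?_
  · have ht := F.d_nonneg x g
    have hu := F.d_nonneg x w
    refine min_profile ht hu (F.d_nonneg g w) (by positivity) (htri x g w) k ?_ ?_
    · refine (norm_com_le_two F (F.norm_a i w)).trans ?_
      have := F.norm_TT hX g x
      rw [hm] at this
      rw [mul_div_assoc]
      linarith
    · refine (F.norm_TT_com hX g x w i).trans ?_
      rw [hm, mul_div_assoc]
      have : 0 ≤ C / (1 + d x w) ^ (k + 3) := by positivity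
      linarith
  · rw [integral_const_mul, integral_add (cint (cont_inv_pow F g 3)) (cint (cont_inv_pow F w 3))]
    have h3 := F.schur3 g
    have h4 := F.schur3 w
    have hr : 0 < (1 + d g w) ^ k := by have := F.d_nonneg g w; positivity
    have hCk := Ck_nonneg F g
    calc 4 * C * 2 ^ k * ((1 + d g w) ^ k)⁻¹ *
          (∫ x, ((1 + d x g) ^ 3)⁻¹ ∂ν + ∫ x, ((1 + d x w) ^ 3)⁻¹ ∂ν)
        ≤ 4 * C * 2 ^ k * ((1 + d g w) ^ k)⁻¹ * (Ck + Ck) := by gcongr
      _ = (2 ^ (k + 3) * Ck) * C / (1 + d g w) ^ k := by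
          rw [pow_add]; field_simp; ring
      _ ≤ _ := by
          unfold cA
          gcongr
          nlinarith [mul_nonneg hK0 hCk]

/-- profile of `A_g`, creators -/
theorem com_star_Ag {k : ℕ} (hm : m = k + 3) {C : ℝ} (hC : 0 ≤ C) {X : G → 𝒜}
    (hX : Fam a d Nh m C X) {s : G → ℝ} (hs : Measurable s) (hs1 : ∀ x, |s x| ≤ 1)
    (htri : ∀ x g w, d g w ≤ d x g + d x w) {Kκ : ℝ}
    (g w : G) (hκ : kap g w ≤ Kκ / (1 + d g w) ^ k) (i : Fin 2) :
    ‖(pB a g * (∫ x, (s x : ℂ) • X x ∂ν) - (∫ x, (s x : ℂ) • X x ∂ν) * pB a g) * star (a i w) -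
      star (a i w) *
        (pB a g * (∫ x, (s x : ℂ) • X x ∂ν) - (∫ x, (s x : ℂ) • X x ∂ν) * pB a g)‖ ≤
      cA k Kκ Ck * C / (1 + d g w) ^ k := by
  rw [Ag_eq F hX hs hs1 g]
  have hkap := F.kap_nonneg g w
  have hint : Integrable (fun x => 4 * C * 2 ^ k * ((1 + d g w) ^ k)⁻¹ *
      (((1 + d x g) ^ 3)⁻¹ + ((1 + d x w) ^ 3)⁻¹) + 2 * kap g w * C * ((1 + d x g) ^ 3)⁻¹) ν :=
    cint ((continuous_const.mul ((cont_inv_pow F g 3).add (cont_inv_pow F w 3))).add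
      (continuous_const.mul (cont_inv_pow F g 3)))
  have hna : ‖star (a i w)‖ ≤ 1 := by rw [norm_star]; exact F.norm_a i w
  refine (norm_int_com_le (cont_TT F hX g) hs hs1 (star (a i w)) hint fun x => ?_).trans ?_
  · have ht := F.d_nonneg x g
    have hu := F.d_nonneg x w
    have e0 : 0 ≤ 2 * kap g w * C * ((1 + d x g) ^ 3)⁻¹ := by positivity
    rw [← sub_le_iff_le_add]
    refine min_profile ht hu (F.d_nonneg g w) (by positivity) (htri x g w) k ?_ ?_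
    · have h1 := norm_com_le_two F (T := TT (pB a) X g x) hna
      have h2 := F.norm_TT hX g x
      rw [hm] at h2
      rw [mul_div_assoc]
      linarith
    · have h1 := F.norm_TT_com_star hX g x w i
      have h2 : 2 * (kap g w * (C / (1 + d x g) ^ m)) ≤
          2 * kap g w * C * ((1 + d x g) ^ 3)⁻¹ := by
        have := div_pow_le hC ht (by omega : 3 ≤ m)
        calc 2 * (kap g w * (C / (1 + d x g) ^ m)) ≤
            2 * (kap g w * (C * ((1 + d x g) ^ 3)⁻¹)) := by gcongr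
          _ = _ := by ring
      have h3 : 0 ≤ C / (1 + d x w) ^ (k + 3) := by positivity
      rw [hm] at h1
      rw [hm] at h2
      rw [mul_div_assoc]
      linarith
  · have i1 : Integrable (fun x => 4 * C * 2 ^ k * ((1 + d g w) ^ k)⁻¹ *
        (((1 + d x g) ^ 3)⁻¹ + ((1 + d x w) ^ 3)⁻¹)) ν :=
      cint (continuous_const.mul ((cont_inv_pow F g 3).add (cont_inv_pow F w 3)))
    have i2 : Integrable (fun x => 2 * kap g w * C * ((1 + d x g) ^ 3)⁻¹) ν :=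
      cint (continuous_const.mul (cont_inv_pow F g 3))
    rw [integral_add i1 i2, integral_const_mul, integral_const_mul,
      integral_add (cint (cont_inv_pow F g 3)) (cint (cont_inv_pow F w 3))]
    have h3 := F.schur3 g
    have h4 := F.schur3 w
    have hr : 0 < (1 + d g w) ^ k := by have := F.d_nonneg g w; positivity
    have hCk := Ck_nonneg F g
    have h5 : 0 ≤ ∫ x, ((1 + d x g) ^ 3)⁻¹ ∂ν := integral_nonneg fun x => by
      have := F.d_nonneg x g; positivity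
    have h6 : 0 ≤ Kκ / (1 + d g w) ^ k := hkap.trans hκ
    calc 4 * C * 2 ^ k * ((1 + d g w) ^ k)⁻¹ *
          (∫ x, ((1 + d x g) ^ 3)⁻¹ ∂ν + ∫ x, ((1 + d x w) ^ 3)⁻¹ ∂ν) +
          2 * kap g w * C * ∫ x, ((1 + d x g) ^ 3)⁻¹ ∂ν
        ≤ 4 * C * 2 ^ k * ((1 + d g w) ^ k)⁻¹ * (Ck + Ck) +
          2 * (Kκ / (1 + d g w) ^ k) * C * Ck := by gcongr
      _ = cA k Kκ Ck * C / (1 + d g w) ^ k := by
          unfold cA
          rw [pow_add]; field_simp; ring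

/-- far modes of `A_g` -/
theorem far_Ag (M : Modes ν a b kr) {k : ℕ} (hm : m = k + 3) {C : ℝ} (hC : 0 ≤ C) {X : G → 𝒜}
    (hX : Fam a d Nh m C X) {s : G → ℝ} (hs : Measurable s) (hs1 : ∀ x, |s x| ≤ 1)
    (htri : ∀ x g w, d g w ≤ d x g + d x w) {Kκ : ℝ} (hK0 : 0 ≤ Kκ) (g : G)
    (hκ : ∀ w, kap g w ≤ Kκ / (1 + d g w) ^ k) (j : Fin n) {κ₂ : ℝ}
    (hκ₂ : ∫ z, ‖kr g j z‖ * ((1 + d g z) ^ k)⁻¹ ∂ν ≤ κ₂) {A : 𝒜}
    (hA : A = pB a g * (∫ x, (s x : ℂ) • X x ∂ν) - (∫ x, (s x : ℂ) • X x ∂ν) * pB a g) :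
    ‖A * b g j - b g j * A‖ + ‖A * star (b g j) - star (b g j) * A‖ ≤
      2 * (cA k Kκ Ck * C) * κ₂ := by
  have hd : Continuous fun z => ((1 + d g z) ^ k)⁻¹ := by
    have h1 : Continuous fun z => d g z :=
      F.d_cont.comp (by fun_prop : Continuous fun z => ((g, z) : G × G))
    refine Continuous.inv₀ ((continuous_const.add h1).pow k) fun z => ?_
    have := F.d_nonneg g z
    positivity
  have hCk := Ck_nonneg F g
  have hcA : 0 ≤ cA k Kκ Ck * C := by unfold cA; positivity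
  have h1 : ‖A * b g j - b g j * A‖ ≤
      ∫ z, ‖kr g j z‖ * (cA k Kκ Ck * C * ((1 + d g z) ^ k)⁻¹) ∂ν := by
    refine M.norm_com_le (F.acont 0) A g j (continuous_const.mul hd) fun z => ?_
    have := com_Ag F hm hC hX hs hs1 htri hK0 g z 0
    rw [← hA, div_eq_mul_inv] at this
    exact this
  have h2 : ‖A * star (b g j) - star (b g j) * A‖ ≤
      ∫ z, ‖kr g j z‖ * (cA k Kκ Ck * C * ((1 + d g z) ^ k)⁻¹) ∂ν := by
    refine M.norm_com_star_le (F.acont 0) A g j (continuous_const.mul hd) fun z => ?_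
    have := com_star_Ag F hm hC hX hs hs1 htri g z (hκ z) 0
    rw [← hA, div_eq_mul_inv] at this
    exact this
  have h3 : ∫ z, ‖kr g j z‖ * (cA k Kκ Ck * C * ((1 + d g z) ^ k)⁻¹) ∂ν ≤
      cA k Kκ Ck * C * κ₂ := by
    have e : (fun z => ‖kr g j z‖ * (cA k Kκ Ck * C * ((1 + d g z) ^ k)⁻¹)) =
        fun z => cA k Kκ Ck * C * (‖kr g j z‖ * ((1 + d g z) ^ k)⁻¹) := by
      funext z; ring
    rw [e, integral_const_mul]
    exact mul_le_mul_of_nonneg_left hκ₂ hcA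
  linarith

end Main

end Crest.Agent.R340.J3421
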