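import Mathlib

/-!
Loss (amplitude damping) channel on a family of fermionic annihilation operators, mode by mode.
Everything is stated for an abstract CAR family `c : ι → (E →L[ℂ] E)` on a complex Hilbert space.
-/

set_option autoImplicit false
set_option linter.unusedSectionVars false
set_option linter.unusedSimpArgs false
set_option linter.style.haveILetI false

namespace Crest.Agent.R340.Loss674

open scoped InnerProductSpace

/-! ### Algebraic part -/
section alg

variable {ι : Type*} [DecidableEq ι]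
variable {A : Type*} [Ring A] [StarRing A] [Algebra ℂ A] [StarModule ℂ A]

/-- canonical anticommutation relations -/
structure CAR (c : ι → A) : Prop where
  anti : ∀ i j, c i * c j + c j * c i = 0
  car : ∀ i j, c i * star (c j) + star (c j) * c i = if i = j then 1 else 0

/-- `s ^ (number operator of mode j)` -/
def k0 (c : ι → A) (j : ι) (s : ℝ) : A := 1 - ((1 - s : ℝ) : ℂ) • (star (c j) * c j)

/-- one mode of the loss channel -/
def ph (c : ι → A) (j : ι) (s : ℝ) (X : A) : A :=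
  k0 c j s * X * k0 c j s + ((1 - s ^ 2 : ℝ) : ℂ) • (star (c j) * X * c j)

/-- `X ↦ X + a c* X c` -/
def th (c : ι → A) (j : ι) (a : ℝ) (X : A) : A :=
  X + (a : ℂ) • (star (c j) * X * c j)

/-- loss channel over a finite set of modes -/
noncomputable def Ph (c : ι → A) (s : ι → ℝ) (T : Finset ι) (X : A) : A :=
  T.toList.foldr (fun j Y => ph c j (s j) Y) X

/-- the `th` part over a finite set of modes -/
noncomputable def Th (c : ι → A) (a : ι → ℝ) (T : Finset ι) (X : A) : A :=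
  T.toList.foldr (fun j Y => th c j (a j) Y) X

/-- product of the `k0`'s -/
noncomputable def Gm (c : ι → A) (s : ι → ℝ) (T : Finset ι) : A :=
  T.toList.foldr (fun j Y => k0 c j (s j) * Y) 1

variable {c : ι → A}

theorem CAR.sq (hc : CAR c) (j : ι) : c j * c j = 0 := by
  have h := hc.anti j j
  have h2 : (2 : ℂ) • (c j * c j) = 0 := by
    rw [two_smul]; exact h
  have h3 : ((2 : ℂ)⁻¹ * 2) • (c j * c j) = 0 := by rw [mul_smul, h2, smul_zero]
  simpa using h3

theorem CAR.ssq (hc : CAR c) (j : ι) : star (c j) * star (c j) = 0 := by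
  rw [← star_mul, hc.sq, star_zero]

theorem CAR.cs (hc : CAR c) (j : ι) : c j * star (c j) = 1 - star (c j) * c j := by
  have h := hc.car j j
  rw [if_pos rfl] at h
  exact eq_sub_of_add_eq h

/-- `c c* c = c` -/
theorem CAR.csc (hc : CAR c) (j : ι) : c j * (star (c j) * c j) = c j := by
  rw [← mul_assoc, hc.cs, sub_mul, one_mul, mul_assoc, hc.sq, mul_zero, sub_zero]

theorem CAR.scs (hc : CAR c) (j : ι) :
    star (c j) * c j * star (c j) = star (c j) := by
  rw [mul_assoc, hc.cs, mul_sub, mul_one, ← mul_assoc, hc.ssq, zero_mul, sub_zero]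

theorem CAR.nc (hc : CAR c) (j : ι) : star (c j) * c j * c j = 0 := by
  rw [mul_assoc, hc.sq, mul_zero]

theorem CAR.sn (hc : CAR c) (j : ι) : star (c j) * (star (c j) * c j) = 0 := by
  rw [← mul_assoc, hc.ssq, zero_mul]

theorem CAR.nn (hc : CAR c) (j : ι) :
    star (c j) * c j * (star (c j) * c j) = star (c j) * c j := by
  rw [← mul_assoc, hc.scs]

theorem CAR.cc (hc : CAR c) (i j : ι) : c i * c j = - (c j * c i) :=
  eq_neg_of_add_eq_zero_left (hc.anti i j)

theorem CAR.ss (hc : CAR c) (i j : ι) :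
    star (c i) * star (c j) = - (star (c j) * star (c i)) := by
  rw [← star_mul, hc.cc, star_neg, star_mul]

theorem CAR.cs' (hc : CAR c) {i j : ι} (h : i ≠ j) :
    c i * star (c j) = - (star (c j) * c i) := by
  have h1 := hc.car i j
  rw [if_neg h] at h1
  exact eq_neg_of_add_eq_zero_left h1

theorem CAR.sc' (hc : CAR c) {i j : ι} (h : i ≠ j) :
    star (c j) * c i = - (c i * star (c j)) := by
  rw [hc.cs' h, neg_neg]

/-- `c_i` commutes with `n_j`, `i ≠ j` -/
theorem CAR.c_n (hc : CAR c) {i j : ι} (h : i ≠ j) :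
    c i * (star (c j) * c j) = star (c j) * c j * c i := by
  rw [← mul_assoc, hc.cs' h, neg_mul, mul_assoc, hc.cc i j, mul_neg, neg_neg, mul_assoc]

theorem CAR.s_n (hc : CAR c) {i j : ι} (h : i ≠ j) :
    star (c i) * (star (c j) * c j) = star (c j) * c j * star (c i) := by
  have := congrArg star (hc.c_n h)
  simp only [star_mul, star_star] at this
  exact this.symm

theorem CAR.n_n (hc : CAR c) {i j : ι} (h : i ≠ j) :
    star (c i) * c i * (star (c j) * c j) = star (c j) * c j * (star (c i) * c i) := by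
  rw [mul_assoc, hc.c_n h, ← mul_assoc, hc.s_n h, mul_assoc]

theorem star_k0 (j : ι) (s : ℝ) : star (k0 c j s) = k0 c j s := by
  simp only [k0, star_sub, star_one, star_smul, star_mul, star_star, RCLike.star_def,
    Complex.conj_ofReal]

theorem k0_mul_c (hc : CAR c) (j : ι) (s : ℝ) : k0 c j s * c j = c j := by
  rw [k0, sub_mul, smul_mul_assoc, hc.nc, smul_zero, sub_zero, one_mul]

theorem c_mul_k0 (hc : CAR c) (j : ι) (s : ℝ) : c j * k0 c j s = (s : ℂ) • c j := by
  rw [k0, mul_sub, mul_smul_comm, hc.csc, mul_one]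
  push_cast
  rw [sub_smul, one_smul, sub_sub_cancel]

theorem s_mul_k0 (hc : CAR c) (j : ι) (s : ℝ) : star (c j) * k0 c j s = star (c j) := by
  rw [k0, mul_sub, mul_smul_comm, hc.sn, smul_zero, sub_zero, mul_one]

theorem k0_mul_s (hc : CAR c) (j : ι) (s : ℝ) :
    k0 c j s * star (c j) = (s : ℂ) • star (c j) := by
  rw [k0, sub_mul, smul_mul_assoc, hc.scs, one_mul]
  push_cast
  rw [sub_smul, one_smul, sub_sub_cancel]

theorem k0_mul_k0 (hc : CAR c) (j : ι) (s t : ℝ) :
    k0 c j s * k0 c j t = k0 c j (s * t) := by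
  simp only [k0, sub_mul, mul_sub, one_mul, mul_one, smul_mul_assoc, mul_smul_comm, hc.nn,
    smul_smul]
  push_cast
  module

theorem k0_one (j : ι) : k0 c j 1 = 1 := by
  simp [k0]

theorem k0_c_comm (hc : CAR c) {i j : ι} (h : i ≠ j) (s : ℝ) :
    c i * k0 c j s = k0 c j s * c i := by
  simp only [k0, sub_mul, mul_sub, one_mul, mul_one, smul_mul_assoc, mul_smul_comm, hc.c_n h]

theorem k0_s_comm (hc : CAR c) {i j : ι} (h : i ≠ j) (s : ℝ) :
    star (c i) * k0 c j s = k0 c j s * star (c i) := by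
  simp only [k0, sub_mul, mul_sub, one_mul, mul_one, smul_mul_assoc, mul_smul_comm, hc.s_n h]

theorem k0_comm (hc : CAR c) (i j : ι) (s t : ℝ) :
    k0 c i s * k0 c j t = k0 c j t * k0 c i s := by
  by_cases h : i = j
  · subst h
    rw [k0_mul_k0 hc, k0_mul_k0 hc, mul_comm]
  · have hk := k0_c_comm hc h t
    have hs := k0_s_comm hc h t
    have : star (c i) * c i * k0 c j t = k0 c j t * (star (c i) * c i) := by
      rw [mul_assoc, hk, ← mul_assoc, hs, mul_assoc]
    have hi : k0 c i s = 1 - ((1 - s : ℝ) : ℂ) • (star (c i) * c i) := rfl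
    rw [hi, sub_mul, mul_sub, one_mul, mul_one, smul_mul_assoc, mul_smul_comm, this]

/-- loss channel = `th` after conjugation by `k0` -/
theorem ph_eq_th (hc : CAR c) (j : ι) (s : ℝ) (X : A) :
    ph c j s X = th c j (1 - s ^ 2) (k0 c j s * X * k0 c j s) := by
  rw [ph, th]
  congr 2
  rw [← mul_assoc, ← mul_assoc, s_mul_k0 hc, mul_assoc, mul_assoc, mul_assoc, k0_mul_c hc]

theorem ph_add (j : ι) (s : ℝ) (X Y : A) : ph c j s (X + Y) = ph c j s X + ph c j s Y := by
  simp only [ph, mul_add, add_mul, smul_add]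
  abel

theorem ph_smul (j : ι) (s : ℝ) (a : ℂ) (X : A) : ph c j s (a • X) = a • ph c j s X := by
  simp only [ph, smul_mul_assoc, mul_smul_comm, smul_add]
  rw [smul_comm]

theorem ph_zero (j : ι) (s : ℝ) : ph c j s (0 : A) = 0 := by
  simp [ph]

theorem ph_neg (j : ι) (s : ℝ) (X : A) : ph c j s (-X) = - ph c j s X := by
  simp only [ph, mul_neg, neg_mul, smul_neg]
  abel

theorem ph_sub (j : ι) (s : ℝ) (X Y : A) : ph c j s (X - Y) = ph c j s X - ph c j s Y := by
  rw [sub_eq_add_neg, ph_add, ph_neg, ← sub_eq_add_neg]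

theorem star_ph (j : ι) (s : ℝ) (X : A) : star (ph c j s X) = ph c j s (star X) := by
  simp only [ph, star_add, star_mul, star_smul, star_k0, star_star, RCLike.star_def,
    Complex.conj_ofReal, mul_assoc]

theorem ph_one (hc : CAR c) (j : ι) (s : ℝ) : ph c j s (1 : A) = 1 := by
  rw [ph, mul_one, mul_one, k0_mul_k0 hc, k0]
  push_cast
  module

/-- single mode semigroup property, for ALL operators -/
theorem ph_ph (hc : CAR c) (j : ι) (s t : ℝ) (X : A) :
    ph c j s (ph c j t X) = ph c j (s * t) X := by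
  have e1 : k0 c j s * (k0 c j t * X * k0 c j t) * k0 c j s
      = k0 c j (s * t) * X * k0 c j (s * t) := by
    calc k0 c j s * (k0 c j t * X * k0 c j t) * k0 c j s
        = (k0 c j s * k0 c j t) * X * (k0 c j t * k0 c j s) := by noncomm_ring
      _ = _ := by rw [k0_mul_k0 hc, k0_mul_k0 hc, mul_comm t s]
  have e2 : k0 c j s * (star (c j) * X * c j) * k0 c j s
      = ((s ^ 2 : ℝ) : ℂ) • (star (c j) * X * c j) := by
    calc k0 c j s * (star (c j) * X * c j) * k0 c j s
        = (k0 c j s * star (c j)) * X * (c j * k0 c j s) := by noncomm_ring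
      _ = _ := by
        rw [k0_mul_s hc, c_mul_k0 hc]
        simp only [smul_mul_assoc, mul_smul_comm, smul_smul]
        push_cast
        rw [sq]
  have e3 : star (c j) * (k0 c j t * X * k0 c j t) * c j = star (c j) * X * c j := by
    calc star (c j) * (k0 c j t * X * k0 c j t) * c j
        = (star (c j) * k0 c j t) * X * (k0 c j t * c j) := by noncomm_ring
      _ = _ := by rw [s_mul_k0 hc, k0_mul_c hc]
  have e4 : star (c j) * (star (c j) * X * c j) * c j = 0 := by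
    calc star (c j) * (star (c j) * X * c j) * c j
        = (star (c j) * star (c j)) * X * (c j * c j) := by noncomm_ring
      _ = 0 := by rw [hc.sq, mul_zero]
  have h1 : ph c j s (ph c j t X) = k0 c j s * (k0 c j t * X * k0 c j t) * k0 c j s
      + ((1 - t ^ 2 : ℝ) : ℂ) • (k0 c j s * (star (c j) * X * c j) * k0 c j s)
      + ((1 - s ^ 2 : ℝ) : ℂ) • (star (c j) * (k0 c j t * X * k0 c j t) * c j)
      + ((1 - s ^ 2 : ℝ) : ℂ) • (((1 - t ^ 2 : ℝ) : ℂ) •
          (star (c j) * (star (c j) * X * c j) * c j)) := by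
    simp only [ph, mul_add, add_mul, smul_add, mul_smul_comm, smul_mul_assoc]
    abel
  rw [h1, e1, e2, e3, e4, smul_zero, smul_zero, add_zero, add_assoc, smul_smul, ← add_smul, ph]
  congr 2
  push_cast
  ring

theorem ph_s_one (j : ι) (X : A) : ph c j 1 X = X := by
  simp [ph, k0_one]

theorem ph_inv (hc : CAR c) (j : ι) {s : ℝ} (hs : s ≠ 0) (X : A) :
    ph c j s (ph c j s⁻¹ X) = X := by
  rw [ph_ph hc, mul_inv_cancel₀ hs, ph_s_one]

theorem ph_inv' (hc : CAR c) (j : ι) {s : ℝ} (hs : s ≠ 0) (X : A) :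
    ph c j s⁻¹ (ph c j s X) = X := by
  rw [ph_ph hc, inv_mul_cancel₀ hs, ph_s_one]

/-- different modes commute, for ALL operators -/
theorem ph_comm (hc : CAR c) {i j : ι} (h : i ≠ j) (s t : ℝ) (X : A) :
    ph c i s (ph c j t X) = ph c j t (ph c i s X) := by
  have h' : j ≠ i := fun e => h e.symm
  have e1 : k0 c i s * (k0 c j t * X * k0 c j t) * k0 c i s
      = k0 c j t * (k0 c i s * X * k0 c i s) * k0 c j t := by
    calc k0 c i s * (k0 c j t * X * k0 c j t) * k0 c i s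
        = (k0 c i s * k0 c j t) * X * (k0 c j t * k0 c i s) := by noncomm_ring
      _ = (k0 c j t * k0 c i s) * X * (k0 c i s * k0 c j t) := by
          rw [k0_comm hc i j, k0_comm hc j i]
      _ = _ := by noncomm_ring
  have e2 : k0 c i s * (star (c j) * X * c j) * k0 c i s
      = star (c j) * (k0 c i s * X * k0 c i s) * c j := by
    calc k0 c i s * (star (c j) * X * c j) * k0 c i s
        = (k0 c i s * star (c j)) * X * (c j * k0 c i s) := by noncomm_ring
      _ = (star (c j) * k0 c i s) * X * (k0 c i s * c j) := by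
          rw [k0_s_comm hc h', k0_c_comm hc h']
      _ = _ := by noncomm_ring
  have e3 : star (c i) * (k0 c j t * X * k0 c j t) * c i
      = k0 c j t * (star (c i) * X * c i) * k0 c j t := by
    calc star (c i) * (k0 c j t * X * k0 c j t) * c i
        = (star (c i) * k0 c j t) * X * (k0 c j t * c i) := by noncomm_ring
      _ = (k0 c j t * star (c i)) * X * (c i * k0 c j t) := by
          rw [k0_s_comm hc h, k0_c_comm hc h]
      _ = _ := by noncomm_ring
  have e4 : star (c i) * (star (c j) * X * c j) * c i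
      = star (c j) * (star (c i) * X * c i) * c j := by
    calc star (c i) * (star (c j) * X * c j) * c i
        = (star (c i) * star (c j)) * X * (c j * c i) := by noncomm_ring
      _ = (star (c j) * star (c i)) * X * (c i * c j) := by
          rw [hc.ss i j, hc.cc j i]; noncomm_ring
      _ = _ := by noncomm_ring
  simp only [ph, mul_add, add_mul, smul_add, mul_smul_comm, smul_mul_assoc]
  rw [e1, e2, e3, e4, smul_comm (((1 - s ^ 2 : ℝ) : ℂ)) (((1 - t ^ 2 : ℝ) : ℂ))]
  abel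

theorem ph_comm' (hc : CAR c) (i j : ι) (s t : ℝ) (X : A) :
    ph c i s (ph c j t X) = ph c j t (ph c i s X) := by
  by_cases h : i = j
  · subst h; rw [ph_ph hc, ph_ph hc, mul_comm]
  · exact ph_comm hc h s t X

/-! #### finite sets of modes -/

theorem Ph_empty (s : ι → ℝ) (X : A) : Ph c s ∅ X = X := by
  simp [Ph]

theorem Ph_insert (hc : CAR c) (s : ι → ℝ) {j : ι} {T : Finset ι} (h : j ∉ T) (X : A) :
    Ph c s (insert j T) X = ph c j (s j) (Ph c s T X) := by
  haveI : LeftCommutative (fun (j : ι) (Y : A) => ph c j (s j) Y) :=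
    ⟨fun a b X => ph_comm' hc a b (s a) (s b) X⟩
  have := (Finset.toList_insert h).foldr_eq (f := fun (j : ι) (Y : A) => ph c j (s j) Y) X
  rw [Ph, this, List.foldr_cons]
  rfl

theorem Ph_singleton (hc : CAR c) (s : ι → ℝ) (j : ι) (X : A) :
    Ph c s {j} X = ph c j (s j) X := by
  rw [← LawfulSingleton.insert_empty_eq j, Ph_insert hc s (Finset.notMem_empty j), Ph_empty]

theorem Ph_add (hc : CAR c) (s : ι → ℝ) (T : Finset ι) (X Y : A) :
    Ph c s T (X + Y) = Ph c s T X + Ph c s T Y := by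
  induction T using Finset.induction_on with
  | empty => simp [Ph_empty]
  | insert j T hj ih => rw [Ph_insert hc s hj, Ph_insert hc s hj, Ph_insert hc s hj, ih, ph_add]

theorem Ph_smul (hc : CAR c) (s : ι → ℝ) (T : Finset ι) (a : ℂ) (X : A) :
    Ph c s T (a • X) = a • Ph c s T X := by
  induction T using Finset.induction_on with
  | empty => simp [Ph_empty]
  | insert j T hj ih => rw [Ph_insert hc s hj, Ph_insert hc s hj, ih, ph_smul]

theorem Ph_zero (hc : CAR c) (s : ι → ℝ) (T : Finset ι) : Ph c s T (0 : A) = 0 := by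
  induction T using Finset.induction_on with
  | empty => simp [Ph_empty]
  | insert j T hj ih => rw [Ph_insert hc s hj, ih, ph_zero]

theorem Ph_neg (hc : CAR c) (s : ι → ℝ) (T : Finset ι) (X : A) :
    Ph c s T (-X) = - Ph c s T X := by
  rw [← neg_one_smul ℂ X, Ph_smul hc, neg_one_smul]

theorem Ph_sub (hc : CAR c) (s : ι → ℝ) (T : Finset ι) (X Y : A) :
    Ph c s T (X - Y) = Ph c s T X - Ph c s T Y := by
  rw [sub_eq_add_neg, Ph_add hc, Ph_neg hc, ← sub_eq_add_neg]

theorem Ph_sum (hc : CAR c) (s : ι → ℝ) (T : Finset ι) {κ : Type*} (K : Finset κ) (X : κ → A) :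
    Ph c s T (∑ k ∈ K, X k) = ∑ k ∈ K, Ph c s T (X k) := by
  classical
  induction K using Finset.induction_on with
  | empty => simp [Ph_zero hc]
  | insert k K hk ih => rw [Finset.sum_insert hk, Finset.sum_insert hk, Ph_add hc, ih]

/-- `Ph` as a linear map -/
noncomputable def PhL (hc : CAR c) (s : ι → ℝ) (T : Finset ι) : A →ₗ[ℂ] A where
  toFun := Ph c s T
  map_add' := Ph_add hc s T
  map_smul' := Ph_smul hc s T

@[simp] theorem PhL_apply (hc : CAR c) (s : ι → ℝ) (T : Finset ι) (X : A) :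
    PhL hc s T X = Ph c s T X := rfl

theorem star_Ph (hc : CAR c) (s : ι → ℝ) (T : Finset ι) (X : A) :
    star (Ph c s T X) = Ph c s T (star X) := by
  induction T using Finset.induction_on with
  | empty => simp [Ph_empty]
  | insert j T hj ih => rw [Ph_insert hc s hj, Ph_insert hc s hj, star_ph, ih]

theorem Ph_one (hc : CAR c) (s : ι → ℝ) (T : Finset ι) : Ph c s T (1 : A) = 1 := by
  induction T using Finset.induction_on with
  | empty => simp [Ph_empty]
  | insert j T hj ih => rw [Ph_insert hc s hj, ih, ph_one hc]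

theorem ph_Ph_comm (hc : CAR c) (s : ι → ℝ) (T : Finset ι) (j : ι) (t : ℝ) (X : A) :
    ph c j t (Ph c s T X) = Ph c s T (ph c j t X) := by
  induction T using Finset.induction_on with
  | empty => simp [Ph_empty]
  | insert k T hk ih =>
    rw [Ph_insert hc s hk, Ph_insert hc s hk, ph_comm' hc, ih]

/-- semigroup property -/
theorem Ph_Ph (hc : CAR c) (s t : ι → ℝ) (T : Finset ι) (X : A) :
    Ph c s T (Ph c t T X) = Ph c (fun j => s j * t j) T X := by
  induction T using Finset.induction_on with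
  | empty => simp [Ph_empty]
  | insert j T hj ih =>
    rw [Ph_insert hc s hj, Ph_insert hc t hj, Ph_insert hc _ hj, ← ph_Ph_comm hc, ph_ph hc, ih]

theorem Ph_congr (hc : CAR c) {s t : ι → ℝ} {T : Finset ι} (h : ∀ j ∈ T, s j = t j) (X : A) :
    Ph c s T X = Ph c t T X := by
  induction T using Finset.induction_on with
  | empty => simp [Ph_empty]
  | insert j T hj ih =>
    rw [Ph_insert hc s hj, Ph_insert hc t hj, h j (Finset.mem_insert_self j T),
      ih (fun k hk => h k (Finset.mem_insert_of_mem hk))]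

theorem Ph_s_one (hc : CAR c) {s : ι → ℝ} {T : Finset ι} (h : ∀ j ∈ T, s j = 1) (X : A) :
    Ph c s T X = X := by
  induction T using Finset.induction_on with
  | empty => simp [Ph_empty]
  | insert j T hj ih =>
    rw [Ph_insert hc s hj, h j (Finset.mem_insert_self j T), ph_s_one,
      ih (fun k hk => h k (Finset.mem_insert_of_mem hk))]

theorem Ph_inv (hc : CAR c) {s : ι → ℝ} {T : Finset ι} (hs : ∀ j ∈ T, s j ≠ 0) (X : A) :
    Ph c s T (Ph c (fun j => (s j)⁻¹) T X) = X := by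
  rw [Ph_Ph hc]
  exact Ph_s_one hc (fun j hj => mul_inv_cancel₀ (hs j hj)) X

theorem Ph_inv' (hc : CAR c) {s : ι → ℝ} {T : Finset ι} (hs : ∀ j ∈ T, s j ≠ 0) (X : A) :
    Ph c (fun j => (s j)⁻¹) T (Ph c s T X) = X := by
  rw [Ph_Ph hc]
  exact Ph_s_one hc (fun j hj => inv_mul_cancel₀ (hs j hj)) X

theorem Ph_union (hc : CAR c) (s : ι → ℝ) {S T : Finset ι} (h : Disjoint S T) (X : A) :
    Ph c s (S ∪ T) X = Ph c s S (Ph c s T X) := by
  induction S using Finset.induction_on with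
  | empty => simp [Ph_empty]
  | insert j S hj ih =>
    have hjT : j ∉ T := fun hh =>
      (Finset.disjoint_left.mp h (Finset.mem_insert_self j S)) hh
    have hd : Disjoint S T := h.mono_left (Finset.subset_insert j S)
    rw [Finset.insert_union, Ph_insert hc s (by simp [hj, hjT]), ih hd, Ph_insert hc s hj]

/-! #### commutants -/

/-- `X` commutes with `c_j` and `c_j^*` -/
def Cm (c : ι → A) (j : ι) (X : A) : Prop :=
  c j * X = X * c j ∧ star (c j) * X = X * star (c j)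

/-- `X` commutes with all the modes outside `S` -/
def Loc (c : ι → A) (S : Finset ι) (X : A) : Prop := ∀ j, j ∉ S → Cm c j X

theorem Cm.star {j : ι} {X : A} (h : Cm c j X) : Cm c j (star X) := by
  constructor
  · have := congrArg Star.star h.2
    simpa [star_mul] using this.symm
  · have := congrArg Star.star h.1
    simpa [star_mul] using this.symm

theorem Cm.mul {j : ι} {X Y : A} (h : Cm c j X) (h' : Cm c j Y) : Cm c j (X * Y) := by
  constructor
  · rw [← mul_assoc, h.1, mul_assoc, h'.1, mul_assoc]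
  · rw [← mul_assoc, h.2, mul_assoc, h'.2, mul_assoc]

theorem Cm.add {j : ι} {X Y : A} (h : Cm c j X) (h' : Cm c j Y) : Cm c j (X + Y) := by
  constructor
  · rw [mul_add, add_mul, h.1, h'.1]
  · rw [mul_add, add_mul, h.2, h'.2]

theorem Cm.sub {j : ι} {X Y : A} (h : Cm c j X) (h' : Cm c j Y) : Cm c j (X - Y) := by
  constructor
  · rw [mul_sub, sub_mul, h.1, h'.1]
  · rw [mul_sub, sub_mul, h.2, h'.2]

theorem Cm.smul {j : ι} {X : A} (a : ℂ) (h : Cm c j X) : Cm c j (a • X) := by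
  constructor
  · rw [mul_smul_comm, smul_mul_assoc, h.1]
  · rw [mul_smul_comm, smul_mul_assoc, h.2]

theorem Cm.one (j : ι) : Cm c j (1 : A) := by
  constructor <;> simp

theorem Cm.k0 {j : ι} {X : A} (h : Cm c j X) (s : ℝ) : k0 c j s * X = X * k0 c j s := by
  have : Star.star (c j) * c j * X = X * (Star.star (c j) * c j) := by
    rw [mul_assoc, h.1, ← mul_assoc, h.2, mul_assoc]
  rw [Loss674.k0, sub_mul, mul_sub, smul_mul_assoc, mul_smul_comm, this, one_mul, mul_one]

theorem ph_of_Cm (hc : CAR c) {j : ι} {X : A} (h : Cm c j X) (s : ℝ) : ph c j s X = X := by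
  have e1 : k0 c j s * X * k0 c j s = X * (k0 c j s * k0 c j s) := by
    rw [h.k0, mul_assoc]
  have e2 : star (c j) * X * c j = X * (star (c j) * c j) := by
    rw [h.2, mul_assoc]
  rw [ph, e1, e2, ← mul_smul_comm, ← mul_add]
  have := ph_one hc j s
  rw [ph, mul_one, mul_one] at this
  rw [this, mul_one]

theorem Cm_ph (hc : CAR c) {i j : ι} (h : i ≠ j) {X : A} (hX : Cm c j X) (s : ℝ) :
    Cm c j (ph c i s X) := by
  have hji : j ≠ i := fun e => h e.symm
  have k1 : c j * k0 c i s = k0 c i s * c j := k0_c_comm hc hji s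
  have k2 : star (c j) * k0 c i s = k0 c i s * star (c j) := k0_s_comm hc hji s
  constructor
  · have e1 : c j * (k0 c i s * X * k0 c i s) = k0 c i s * X * k0 c i s * c j := by
      calc c j * (k0 c i s * X * k0 c i s) = (c j * k0 c i s) * X * k0 c i s := by noncomm_ring
        _ = k0 c i s * (c j * X) * k0 c i s := by rw [k1]; noncomm_ring
        _ = k0 c i s * X * (c j * k0 c i s) := by rw [hX.1]; noncomm_ring
        _ = _ := by rw [k1]; noncomm_ring
    have e2 : c j * (star (c i) * X * c i) = star (c i) * X * c i * c j := by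
      calc c j * (star (c i) * X * c i) = (c j * star (c i)) * X * c i := by noncomm_ring
        _ = - (star (c i) * (c j * X) * c i) := by rw [hc.cs' hji]; noncomm_ring
        _ = - (star (c i) * X * (c j * c i)) := by rw [hX.1]; noncomm_ring
        _ = _ := by rw [hc.cc j i]; noncomm_ring
    rw [ph, mul_add, add_mul, e1, mul_smul_comm, smul_mul_assoc, e2]
  · have e1 : star (c j) * (k0 c i s * X * k0 c i s) = k0 c i s * X * k0 c i s * star (c j) := by
      calc star (c j) * (k0 c i s * X * k0 c i s)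
          = (star (c j) * k0 c i s) * X * k0 c i s := by noncomm_ring
        _ = k0 c i s * (star (c j) * X) * k0 c i s := by rw [k2]; noncomm_ring
        _ = k0 c i s * X * (star (c j) * k0 c i s) := by rw [hX.2]; noncomm_ring
        _ = _ := by rw [k2]; noncomm_ring
    have e2 : star (c j) * (star (c i) * X * c i) = star (c i) * X * c i * star (c j) := by
      calc star (c j) * (star (c i) * X * c i)
          = (star (c j) * star (c i)) * X * c i := by noncomm_ring
        _ = - (star (c i) * (star (c j) * X) * c i) := by rw [hc.ss j i]; noncomm_ring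
        _ = - (star (c i) * X * (star (c j) * c i)) := by rw [hX.2]; noncomm_ring
        _ = _ := by rw [hc.sc' h]; noncomm_ring
    rw [ph, mul_add, add_mul, e1, mul_smul_comm, smul_mul_assoc, e2]

theorem Cm_ph_self (hc : CAR c) {j : ι} {X : A} (hX : Cm c j X) (s : ℝ) :
    Cm c j (ph c j s X) := by
  rw [ph_of_Cm hc hX]; exact hX

theorem Loc.ph (hc : CAR c) {S : Finset ι} {X : A} (h : Loc c S X) (i : ι) (s : ℝ) :
    Loc c S (ph c i s X) := by
  intro j hj
  by_cases hij : i = j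
  · subst hij; exact Cm_ph_self hc (h _ hj) s
  · exact Cm_ph hc hij (h j hj) s

theorem Loc.Ph (hc : CAR c) {S : Finset ι} {X : A} (h : Loc c S X) (s : ι → ℝ) (T : Finset ι) :
    Loc c S (Ph c s T X) := by
  induction T using Finset.induction_on with
  | empty => simpa [Ph_empty] using h
  | insert j T hj ih => rw [Ph_insert hc s hj]; exact Loc.ph hc ih j (s j)

theorem Ph_of_Loc_disj (hc : CAR c) {S T : Finset ι} {X : A} (h : Loc c S X)
    (hd : Disjoint T S) (s : ι → ℝ) : Loss674.Ph c s T X = X := by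
  induction T using Finset.induction_on with
  | empty => simp [Ph_empty]
  | insert j T hj ih =>
    have hjS : j ∉ S := Finset.disjoint_left.mp hd (Finset.mem_insert_self j T)
    rw [Ph_insert hc s hj, ih (hd.mono_left (Finset.subset_insert j T)),
      ph_of_Cm hc (h j hjS)]

/-- on `Loc S` only the modes of `S` act -/
theorem Ph_of_Loc (hc : CAR c) {S T : Finset ι} {X : A} (h : Loc c S X) (s : ι → ℝ) :
    Loss674.Ph c s T X = Loss674.Ph c s (T ∩ S) X := by
  have hd : Disjoint (T ∩ S) (T \ S) := Finset.disjoint_left.mpr (by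
    intro a ha hb
    exact (Finset.mem_sdiff.mp hb).2 (Finset.mem_inter.mp ha).2)
  have hu : T = (T ∩ S) ∪ (T \ S) := by
    ext a; simp only [Finset.mem_union, Finset.mem_inter, Finset.mem_sdiff]; tauto
  conv_lhs => rw [hu]
  rw [Ph_union hc s hd, Ph_of_Loc_disj hc h (Finset.sdiff_disjoint) s]

theorem Ph_of_Loc_sub (hc : CAR c) {S T : Finset ι} {X : A} (h : Loc c S X) (hST : S ⊆ T)
    (s : ι → ℝ) : Loss674.Ph c s T X = Loss674.Ph c s S X := by
  rw [Ph_of_Loc hc h, Finset.inter_eq_right.mpr hST]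

/-! #### `Th` and `Gm` -/

theorem th_comm (hc : CAR c) (i j : ι) (a b : ℝ) (X : A) :
    th c i a (th c j b X) = th c j b (th c i a X) := by
  have e4 : star (c i) * (star (c j) * X * c j) * c i
      = star (c j) * (star (c i) * X * c i) * c j := by
    calc star (c i) * (star (c j) * X * c j) * c i
        = (star (c i) * star (c j)) * X * (c j * c i) := by noncomm_ring
      _ = (star (c j) * star (c i)) * X * (c i * c j) := by
          rw [hc.ss i j, hc.cc j i]; noncomm_ring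
      _ = _ := by noncomm_ring
  simp only [th, mul_add, add_mul, smul_add, mul_smul_comm, smul_mul_assoc]
  rw [e4, smul_comm ((a : ℂ)) ((b : ℂ))]
  abel

theorem Th_empty (a : ι → ℝ) (X : A) : Th c a ∅ X = X := by
  simp [Th]

theorem Th_insert (hc : CAR c) (a : ι → ℝ) {j : ι} {T : Finset ι} (h : j ∉ T) (X : A) :
    Th c a (insert j T) X = th c j (a j) (Th c a T X) := by
  haveI : LeftCommutative (fun (j : ι) (Y : A) => th c j (a j) Y) :=
    ⟨fun i k X => th_comm hc i k (a i) (a k) X⟩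
  have := (Finset.toList_insert h).foldr_eq (f := fun (j : ι) (Y : A) => th c j (a j) Y) X
  rw [Th, this, List.foldr_cons]
  rfl

theorem Gm_empty (s : ι → ℝ) : Gm c s ∅ = 1 := by
  simp [Gm]

theorem Gm_insert (hc : CAR c) (s : ι → ℝ) {j : ι} {T : Finset ι} (h : j ∉ T) :
    Gm c s (insert j T) = k0 c j (s j) * Gm c s T := by
  haveI : LeftCommutative (fun (j : ι) (Y : A) => k0 c j (s j) * Y) :=
    ⟨fun a b X => by
      show k0 c a (s a) * (k0 c b (s b) * X) = k0 c b (s b) * (k0 c a (s a) * X)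
      rw [← mul_assoc, k0_comm hc, mul_assoc]⟩
  have := (Finset.toList_insert h).foldr_eq (f := fun (j : ι) (Y : A) => k0 c j (s j) * Y) 1
  rw [Gm, this, List.foldr_cons]
  rfl

theorem k0_Gm_comm (hc : CAR c) (s : ι → ℝ) (T : Finset ι) (j : ι) (t : ℝ) :
    k0 c j t * Gm c s T = Gm c s T * k0 c j t := by
  induction T using Finset.induction_on with
  | empty => simp [Gm_empty]
  | insert k T hk ih =>
    rw [Gm_insert hc s hk, ← mul_assoc, k0_comm hc, mul_assoc, ih, mul_assoc]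

theorem star_Gm (hc : CAR c) (s : ι → ℝ) (T : Finset ι) : star (Gm c s T) = Gm c s T := by
  induction T using Finset.induction_on with
  | empty => simp [Gm_empty]
  | insert j T hj ih =>
    rw [Gm_insert hc s hj, star_mul, ih, star_k0, k0_Gm_comm hc]

theorem th_k0 (hc : CAR c) {i j : ι} (h : i ≠ j) (a s : ℝ) (X : A) :
    th c j a (k0 c i s * X * k0 c i s) = k0 c i s * th c j a X * k0 c i s := by
  have e2 : star (c j) * (k0 c i s * X * k0 c i s) * c j
      = k0 c i s * (star (c j) * X * c j) * k0 c i s := by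
    calc star (c j) * (k0 c i s * X * k0 c i s) * c j
        = (star (c j) * k0 c i s) * X * (k0 c i s * c j) := by noncomm_ring
      _ = (k0 c i s * star (c j)) * X * (c j * k0 c i s) := by
          rw [k0_s_comm hc (fun e => h e.symm), k0_c_comm hc (fun e => h e.symm)]
      _ = _ := by noncomm_ring
  rw [th, th, e2, mul_add, add_mul, mul_smul_comm, smul_mul_assoc]

theorem Th_k0 (hc : CAR c) {i : ι} {T : Finset ι} (h : i ∉ T) (a : ι → ℝ) (s : ℝ) (X : A) :
    Th c a T (k0 c i s * X * k0 c i s) = k0 c i s * Th c a T X * k0 c i s := by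
  induction T using Finset.induction_on with
  | empty => simp [Th_empty]
  | insert j T hj ih =>
    have hij : i ≠ j := fun e => h (e ▸ Finset.mem_insert_self j T)
    have hiT : i ∉ T := fun hh => h (Finset.mem_insert_of_mem hh)
    rw [Th_insert hc a hj, Th_insert hc a hj, ih hiT, th_k0 hc hij]

theorem Ph_eq_Th (hc : CAR c) (s : ι → ℝ) (T : Finset ι) (X : A) :
    Ph c s T X = Th c (fun j => 1 - s j ^ 2) T (Gm c s T * X * Gm c s T) := by
  induction T using Finset.induction_on generalizing X with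
  | empty => simp [Ph_empty, Th_empty, Gm_empty]
  | insert j T hj ih =>
    rw [Ph_insert hc s hj, Th_insert hc _ hj, Gm_insert hc s hj, ph_eq_th hc, ih]
    congr 1
    rw [← Th_k0 hc hj]
    congr 1
    rw [k0_Gm_comm hc]
    have : k0 c j (s j) * Gm c s T = Gm c s T * k0 c j (s j) := k0_Gm_comm hc s T j (s j)
    calc k0 c j (s j) * (Gm c s T * X * Gm c s T) * k0 c j (s j)
        = (k0 c j (s j) * Gm c s T) * X * (Gm c s T * k0 c j (s j)) := by noncomm_ring
      _ = _ := by rw [this]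

/-- multiplication rule: `X`, `Y` annihilator polynomials of the same parity, scaled by `Gm`. -/
theorem Ph_mul (hc : CAR c) (s : ι → ℝ) (T : Finset ι) (e : ℝ)
    (he : e * e = 1)
    {X Y X' Y' : A} (hX : X * Gm c s T = Gm c s T * X') (hY : Y * Gm c s T = Gm c s T * Y')
    (cX : ∀ j ∈ T, X' * c j = (e : ℂ) • (c j * X'))
    (cY : ∀ j ∈ T, Y' * c j = (e : ℂ) • (c j * Y')) :
    Ph c s T (star X * Y) = star X' * Y' := by
  have key : ∀ (T' : Finset ι) (a : ι → ℝ) (Z : A), T' ⊆ T →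
      Th c a T' (star X' * Z * Y') = star X' * Th c a T' Z * Y' := by
    intro T' a Z
    induction T' using Finset.induction_on with
    | empty => intro _; simp [Th_empty]
    | insert j T' hj ih =>
      intro hsub
      have hjT : j ∈ T := hsub (Finset.mem_insert_self j T')
      rw [Th_insert hc a hj, Th_insert hc a hj,
        ih (fun x hx => hsub (Finset.mem_insert_of_mem hx)), th, th]
      have hs : star (c j) * star X' = (e : ℂ) • (star X' * star (c j)) := by
        have := congrArg star (cX j hjT)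
        simpa [star_mul, star_smul] using this
      have : star (c j) * (star X' * Th c a T' Z * Y') * c j
          = star X' * (star (c j) * Th c a T' Z * c j) * Y' := by
        calc star (c j) * (star X' * Th c a T' Z * Y') * c j
            = (star (c j) * star X') * Th c a T' Z * (Y' * c j) := by noncomm_ring
          _ = ((e : ℂ) * (e : ℂ)) • (star X' * star (c j) * Th c a T' Z * (c j * Y')) := by
              rw [hs, cY j hjT]
              simp only [smul_mul_assoc, mul_smul_comm, smul_smul]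
          _ = star X' * star (c j) * Th c a T' Z * (c j * Y') := by
              rw [← Complex.ofReal_mul, he, Complex.ofReal_one, one_smul]
          _ = _ := by noncomm_ring
      rw [this, mul_add, add_mul, mul_smul_comm, smul_mul_assoc]
  have h1 : Gm c s T * (star X * Y) * Gm c s T = star X' * (Gm c s T * 1 * Gm c s T) * Y' := by
    have hXs : Gm c s T * star X = star X' * Gm c s T := by
      have := congrArg star hX
      simpa [star_mul, star_Gm hc] using this
    calc Gm c s T * (star X * Y) * Gm c s T = (Gm c s T * star X) * (Y * Gm c s T) := by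
          noncomm_ring
      _ = _ := by rw [hXs, hY]; noncomm_ring
  rw [Ph_eq_Th hc, h1, key T _ _ (Finset.Subset.refl T), ← Ph_eq_Th hc, Ph_one hc, mul_one]

theorem c_mul_Gm_notMem (hc : CAR c) (s : ι → ℝ) {j : ι} {T : Finset ι} (h : j ∉ T) :
    c j * Gm c s T = Gm c s T * c j := by
  induction T using Finset.induction_on with
  | empty => simp [Gm_empty]
  | insert k T hk ih =>
    have hjk : j ≠ k := fun e => h (e ▸ Finset.mem_insert_self k T)
    have hjT : j ∉ T := fun hh => h (Finset.mem_insert_of_mem hh)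
    rw [Gm_insert hc s hk, ← mul_assoc, k0_c_comm hc hjk, mul_assoc, ih hjT, mul_assoc]

/-- `c_j Gm = s_j Gm c_j` -/
theorem c_mul_Gm (hc : CAR c) (s : ι → ℝ) {j : ι} {T : Finset ι} (h : j ∈ T) :
    c j * Gm c s T = (s j : ℂ) • (Gm c s T * c j) := by
  obtain ⟨T', hT', rfl⟩ : ∃ T', j ∉ T' ∧ insert j T' = T :=
    ⟨T.erase j, Finset.notMem_erase j T, Finset.insert_erase h⟩
  rw [Gm_insert hc s hT', ← mul_assoc, c_mul_k0 hc, smul_mul_assoc, mul_assoc,
    ← c_mul_Gm_notMem hc s hT', ← mul_assoc, k0_mul_c hc]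

theorem cc_mul_Gm (hc : CAR c) (s : ι → ℝ) {i j : ι} {T : Finset ι} (hi : i ∈ T) (hj : j ∈ T) :
    (c j * c i) * Gm c s T = Gm c s T * (((s i * s j : ℝ) : ℂ) • (c j * c i)) := by
  rw [mul_assoc, c_mul_Gm hc s hi, mul_smul_comm, ← mul_assoc, c_mul_Gm hc s hj,
    smul_mul_assoc, smul_smul, mul_smul_comm, mul_assoc]
  push_cast
  rfl

theorem Th_kill (hc : CAR c) {P : A} (T : Finset ι) (a : ι → ℝ)
    (hP : ∀ j ∈ T, c j * P = P * (c j * P)) {X : A} (hX : X * P = 0) :
    Th c a T X * P = 0 := by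
  induction T using Finset.induction_on with
  | empty => simpa [Th_empty] using hX
  | insert j T hj ih =>
    have h0 := ih (fun k hk => hP k (Finset.mem_insert_of_mem hk))
    rw [Th_insert hc a hj, th, add_mul, h0, zero_add, smul_mul_assoc, mul_assoc,
      hP j (Finset.mem_insert_self j T), mul_assoc, ← mul_assoc (Th c a T X) P, h0, zero_mul,
      mul_zero, smul_zero]

/-- operators killing `P` are mapped to operators killing `P`, for all real `s`. -/
theorem Ph_kill (hc : CAR c) {P : A} (s : ι → ℝ) (T : Finset ι)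
    (hP : ∀ j ∈ T, c j * P = P * (c j * P)) (hG : Gm c s T * P = P * (Gm c s T * P))
    {X : A} (hX : X * P = 0) : Ph c s T X * P = 0 := by
  rw [Ph_eq_Th hc]
  refine Th_kill hc T _ hP ?_
  rw [mul_assoc, hG, mul_assoc, ← mul_assoc X P, hX, zero_mul, mul_zero]

end alg

/-! ### Analytic part: operators on a Hilbert space -/
section hil

variable {ι : Type*} [DecidableEq ι]
variable {E : Type*} [NormedAddCommGroup E] [InnerProductSpace ℂ E] [CompleteSpace E]
variable {c : ι → (E →L[ℂ] E)}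

theorem inner_star (X : E →L[ℂ] E) (φ ψ : E) : ⟪φ, (star X) ψ⟫_ℂ = ⟪X φ, ψ⟫_ℂ := by
  rw [ContinuousLinearMap.star_eq_adjoint, ContinuousLinearMap.adjoint_inner_right]

theorem inner_star' (X : E →L[ℂ] E) (φ ψ : E) : ⟪(star X) φ, ψ⟫_ℂ = ⟪φ, X ψ⟫_ℂ := by
  rw [ContinuousLinearMap.star_eq_adjoint, ContinuousLinearMap.adjoint_inner_left]

theorem norm_sq_re (ψ : E) : ‖ψ‖ ^ 2 = (⟪ψ, ψ⟫_ℂ).re := by
  have := inner_self_eq_norm_sq (𝕜 := ℂ) ψ
  simpa using this.symm

theorem c_norm_sq (hc : CAR c) (j : ι) (ψ : E) :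
    ‖c j ψ‖ ^ 2 + ‖(star (c j)) ψ‖ ^ 2 = ‖ψ‖ ^ 2 := by
  have h : c j * star (c j) + star (c j) * c j = 1 := by
    have := hc.car j j; rwa [if_pos rfl] at this
  have h2 : ⟪ψ, (c j * star (c j) + star (c j) * c j) ψ⟫_ℂ = ⟪ψ, ψ⟫_ℂ := by rw [h]; rfl
  have h3 : ⟪ψ, (c j * star (c j) + star (c j) * c j) ψ⟫_ℂ
      = ⟪(star (c j)) ψ, (star (c j)) ψ⟫_ℂ + ⟪c j ψ, c j ψ⟫_ℂ := by
    rw [add_apply, inner_add_right, mul_apply_eq_comp,
      mul_apply_eq_comp, inner_star]
    congr 1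
    rw [← inner_star' (c j)]
  rw [norm_sq_re, norm_sq_re, norm_sq_re, ← h2, h3, Complex.add_re, add_comm]

theorem c_norm_le (hc : CAR c) (j : ι) (ψ : E) : ‖c j ψ‖ ≤ ‖ψ‖ := by
  have := c_norm_sq hc j ψ
  nlinarith [norm_nonneg (c j ψ), norm_nonneg ψ, sq_nonneg ‖(star (c j)) ψ‖]

theorem s_norm_le (hc : CAR c) (j : ι) (ψ : E) : ‖(star (c j)) ψ‖ ≤ ‖ψ‖ := by
  have := c_norm_sq hc j ψ
  nlinarith [norm_nonneg ((star (c j)) ψ), norm_nonneg ψ, sq_nonneg ‖c j ψ‖]

theorem c_opnorm (hc : CAR c) (j : ι) : ‖c j‖ ≤ 1 :=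
  ContinuousLinearMap.opNorm_le_bound _ zero_le_one (fun ψ => by
    simpa using c_norm_le hc j ψ)

theorem s_opnorm (hc : CAR c) (j : ι) : ‖star (c j)‖ ≤ 1 := by
  rw [norm_star]; exact c_opnorm hc j

theorem k0_norm_sq (hc : CAR c) (j : ι) (s : ℝ) (ψ : E) :
    ‖k0 c j s ψ‖ ^ 2 + (1 - s ^ 2) * ‖c j ψ‖ ^ 2 = ‖ψ‖ ^ 2 := by
  have h := ph_one hc j s
  rw [ph, mul_one, mul_one] at h
  have h2 : ⟪ψ, (k0 c j s * k0 c j s + ((1 - s ^ 2 : ℝ) : ℂ) • (star (c j) * c j)) ψ⟫_ℂ
      = ⟪ψ, ψ⟫_ℂ := by rw [h]; rfl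
  have h3 : ⟪ψ, (k0 c j s * k0 c j s + ((1 - s ^ 2 : ℝ) : ℂ) • (star (c j) * c j)) ψ⟫_ℂ
      = ⟪k0 c j s ψ, k0 c j s ψ⟫_ℂ + ((1 - s ^ 2 : ℝ) : ℂ) * ⟪c j ψ, c j ψ⟫_ℂ := by
    rw [add_apply, inner_add_right, mul_apply_eq_comp,
      smul_apply, mul_apply_eq_comp, inner_smul_right, inner_star]
    congr 1
    conv_lhs => rw [← inner_star' (k0 c j s), star_k0]
  rw [norm_sq_re, norm_sq_re, norm_sq_re, ← h2, h3, Complex.add_re, Complex.re_ofReal_mul]

theorem inner_ph (_hc : CAR c) (j : ι) (s : ℝ) (X : E →L[ℂ] E) (φ ψ : E) :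
    ⟪φ, ph c j s X ψ⟫_ℂ = ⟪k0 c j s φ, X (k0 c j s ψ)⟫_ℂ
      + ((1 - s ^ 2 : ℝ) : ℂ) * ⟪c j φ, X (c j ψ)⟫_ℂ := by
  rw [ph, add_apply, inner_add_right]
  simp only [mul_apply_eq_comp, smul_apply, inner_smul_right]
  rw [inner_star]
  congr 1
  conv_lhs => rw [← inner_star' (k0 c j s), star_k0]

theorem ph_norm_le (hc : CAR c) (j : ι) {s : ℝ} (hs : s ^ 2 ≤ 1) (X : E →L[ℂ] E) :
    ‖ph c j s X‖ ≤ ‖X‖ := by
  refine ContinuousLinearMap.opNorm_le_bound _ (norm_nonneg _) (fun ψ => ?_)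
  -- bound via inner product with itself
  have h1 : ∀ φ : E, ‖⟪φ, ph c j s X ψ⟫_ℂ‖ ≤ ‖X‖ * (‖φ‖ * ‖ψ‖) := by
    intro φ
    rw [inner_ph hc]
    have a1 : ‖⟪k0 c j s φ, X (k0 c j s ψ)⟫_ℂ‖ ≤ ‖X‖ * (‖k0 c j s φ‖ * ‖k0 c j s ψ‖) := by
      refine (norm_inner_le_norm _ _).trans ?_
      have := X.le_opNorm (k0 c j s ψ)
      calc ‖k0 c j s φ‖ * ‖X (k0 c j s ψ)‖ ≤ ‖k0 c j s φ‖ * (‖X‖ * ‖k0 c j s ψ‖) := by gcongr
        _ = _ := by ring
    have a2 : ‖((1 - s ^ 2 : ℝ) : ℂ) * ⟪c j φ, X (c j ψ)⟫_ℂ‖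
        ≤ ‖X‖ * ((1 - s ^ 2) * (‖c j φ‖ * ‖c j ψ‖)) := by
      rw [norm_mul, Complex.norm_real, Real.norm_of_nonneg (by linarith)]
      have h2 : ‖⟪c j φ, X (c j ψ)⟫_ℂ‖ ≤ ‖c j φ‖ * (‖X‖ * ‖c j ψ‖) := by
        refine (norm_inner_le_norm _ _).trans ?_
        gcongr
        exact X.le_opNorm _
      calc (1 - s ^ 2) * ‖⟪c j φ, X (c j ψ)⟫_ℂ‖ ≤ (1 - s ^ 2) * (‖c j φ‖ * (‖X‖ * ‖c j ψ‖)) :=
            mul_le_mul_of_nonneg_left h2 (by linarith)
        _ = _ := by ring
    refine (norm_add_le _ _).trans ((add_le_add a1 a2).trans ?_)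
    rw [← mul_add]
    refine mul_le_mul_of_nonneg_left ?_ (norm_nonneg _)
    have e1 := k0_norm_sq hc j s φ
    have e2 := k0_norm_sq hc j s ψ
    set a := ‖k0 c j s φ‖
    set b := ‖k0 c j s ψ‖
    set p := ‖c j φ‖
    set q := ‖c j ψ‖
    have ha : 0 ≤ a := norm_nonneg _
    have hb : 0 ≤ b := norm_nonneg _
    have hp : 0 ≤ p := norm_nonneg _
    have hq : 0 ≤ q := norm_nonneg _
    have ht : 0 ≤ 1 - s ^ 2 := by linarith
    have key : (a * b + (1 - s ^ 2) * (p * q)) ^ 2 ≤ (‖φ‖ * ‖ψ‖) ^ 2 := by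
      have : (‖φ‖ * ‖ψ‖) ^ 2 = (a ^ 2 + (1 - s ^ 2) * p ^ 2) * (b ^ 2 + (1 - s ^ 2) * q ^ 2) := by
        rw [e1, e2]; ring
      rw [this]
      have : 0 ≤ (1 - s ^ 2) * (a * q - b * p) ^ 2 := mul_nonneg ht (sq_nonneg _)
      nlinarith
    exact abs_le_of_sq_le_sq' key (by positivity) |>.2
  by_cases h0 : ph c j s X ψ = 0
  · rw [h0, norm_zero]; positivity
  have h2 := h1 (ph c j s X ψ)
  rw [inner_self_eq_norm_sq_to_K] at h2
  have h3 : 0 < ‖ph c j s X ψ‖ := norm_pos_iff.mpr h0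
  have h4 : ‖ph c j s X ψ‖ * ‖ph c j s X ψ‖ ≤ ‖ph c j s X ψ‖ * (‖X‖ * ‖ψ‖) := by
    have h5 : ‖((‖ph c j s X ψ‖ : ℂ)) ^ 2‖ = ‖ph c j s X ψ‖ * ‖ph c j s X ψ‖ := by
      rw [norm_pow, Complex.norm_real, norm_norm, sq]
    have h6 : ‖((‖ph c j s X ψ‖ : ℂ)) ^ 2‖ ≤ ‖X‖ * (‖ph c j s X ψ‖ * ‖ψ‖) := h2
    rw [h5] at h6
    linarith [h6]
  exact le_of_mul_le_mul_left h4 h3

theorem k0_opnorm (hc : CAR c) (j : ι) {s : ℝ} (hs : s ^ 2 ≤ 1) : ‖k0 c j s‖ ≤ 1 := by
  refine ContinuousLinearMap.opNorm_le_bound _ zero_le_one (fun ψ => ?_)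
  rw [one_mul]
  have := k0_norm_sq hc j s ψ
  have h2 : 0 ≤ (1 - s ^ 2) * ‖c j ψ‖ ^ 2 := mul_nonneg (by linarith) (sq_nonneg _)
  exact abs_le_of_sq_le_sq' (by linarith : ‖k0 c j s ψ‖ ^ 2 ≤ ‖ψ‖ ^ 2) (norm_nonneg _) |>.2

theorem k0_opnorm' (hc : CAR c) (j : ι) {s : ℝ} (hs : 1 ≤ s) : ‖k0 c j s‖ ≤ s := by
  refine ContinuousLinearMap.opNorm_le_bound _ (by linarith) (fun ψ => ?_)
  have h := k0_norm_sq hc j s ψ
  have h1 := c_norm_le hc j ψ
  have h2 : ‖c j ψ‖ ^ 2 ≤ ‖ψ‖ ^ 2 := by gcongr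
  have h4 : 0 ≤ (s ^ 2 - 1) * (‖ψ‖ ^ 2 - ‖c j ψ‖ ^ 2) :=
    mul_nonneg (by nlinarith) (by linarith)
  have h3 : ‖k0 c j s ψ‖ ^ 2 ≤ (s * ‖ψ‖) ^ 2 := by
    rw [mul_pow]; nlinarith
  exact abs_le_of_sq_le_sq' h3 (by positivity) |>.2

/-- norm bound of the inverse channel (`s ≥ 1`) -/
theorem ph_norm_le' (hc : CAR c) (j : ι) {s : ℝ} (hs : 1 ≤ s) (X : E →L[ℂ] E) :
    ‖ph c j s X‖ ≤ (2 * s ^ 2 - 1) * ‖X‖ := by
  rw [ph]
  have h1 : ‖k0 c j s * X * k0 c j s‖ ≤ s * ‖X‖ * s := by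
    refine (norm_mul_le _ _).trans ?_
    refine mul_le_mul ((norm_mul_le _ _).trans ?_) (k0_opnorm' hc j hs) (norm_nonneg _)
      (by positivity)
    exact mul_le_mul_of_nonneg_right (k0_opnorm' hc j hs) (norm_nonneg _)
  have h2 : ‖star (c j) * X * c j‖ ≤ ‖X‖ := by
    refine (norm_mul_le _ _).trans ?_
    calc ‖star (c j) * X‖ * ‖c j‖ ≤ (1 * ‖X‖) * 1 := by
          refine mul_le_mul ((norm_mul_le _ _).trans ?_) (c_opnorm hc j) (norm_nonneg _)
            (by positivity)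
          exact mul_le_mul_of_nonneg_right (s_opnorm hc j) (norm_nonneg _)
      _ = ‖X‖ := by ring
  have h3 : ‖((1 - s ^ 2 : ℝ) : ℂ) • (star (c j) * X * c j)‖ ≤ (s ^ 2 - 1) * ‖X‖ := by
    rw [norm_smul, Complex.norm_real, Real.norm_eq_abs, abs_of_nonpos (by nlinarith), neg_sub]
    exact mul_le_mul_of_nonneg_left h2 (by nlinarith)
  refine (norm_add_le _ _).trans ((add_le_add h1 h3).trans (le_of_eq ?_))
  ring

theorem Ph_norm_le (hc : CAR c) {s : ι → ℝ} {T : Finset ι} (hs : ∀ j ∈ T, s j ^ 2 ≤ 1)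
    (X : E →L[ℂ] E) : ‖Ph c s T X‖ ≤ ‖X‖ := by
  induction T using Finset.induction_on with
  | empty => simp [Ph_empty]
  | insert j T hj ih =>
    rw [Ph_insert hc s hj]
    exact (ph_norm_le hc j (hs j (Finset.mem_insert_self j T)) _).trans
      (ih (fun k hk => hs k (Finset.mem_insert_of_mem hk)))

theorem Ph_norm_le' (hc : CAR c) {s : ι → ℝ} {T : Finset ι} (hs : ∀ j ∈ T, 1 ≤ s j)
    (X : E →L[ℂ] E) : ‖Ph c s T X‖ ≤ (∏ j ∈ T, (2 * s j ^ 2 - 1)) * ‖X‖ := by
  induction T using Finset.induction_on with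
  | empty => simp [Ph_empty]
  | insert j T hj ih =>
    rw [Ph_insert hc s hj, Finset.prod_insert hj, mul_assoc]
    have h1 := hs j (Finset.mem_insert_self j T)
    exact (ph_norm_le' hc j h1 _).trans
      (mul_le_mul_of_nonneg_left (ih (fun k hk => hs k (Finset.mem_insert_of_mem hk)))
        (by nlinarith))

theorem two_exp_sub_one_le (x : ℝ) : 2 * (Real.exp x) ^ 2 - 1 ≤ Real.exp (4 * x) := by
  have h : Real.exp (4 * x) = ((Real.exp x) ^ 2) ^ 2 := by
    rw [← pow_mul, ← Real.exp_nat_mul]; norm_num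
  rw [h]
  nlinarith [sq_nonneg ((Real.exp x) ^ 2 - 1)]

/-- norm bound for the inverse of the exponential damping -/
theorem Ph_norm_exp (hc : CAR c) {x : ι → ℝ} {T : Finset ι} (hx : ∀ j ∈ T, 0 ≤ x j)
    (X : E →L[ℂ] E) :
    ‖Ph c (fun j => Real.exp (x j)) T X‖ ≤ Real.exp (4 * ∑ j ∈ T, x j) * ‖X‖ := by
  refine (Ph_norm_le' hc (fun j hj => Real.one_le_exp (hx j hj)) X).trans ?_
  refine mul_le_mul_of_nonneg_right ?_ (norm_nonneg _)
  rw [Finset.mul_sum, Real.exp_sum]
  refine Finset.prod_le_prod (fun j hj => ?_) (fun j _ => two_exp_sub_one_le _)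
  nlinarith [Real.one_le_exp (hx j hj)]

/-- real part of the quadratic form, one mode -/
theorem re_inner_ph (hc : CAR c) (j : ι) (s : ℝ) (X : E →L[ℂ] E) (ψ : E) :
    (⟪ψ, ph c j s X ψ⟫_ℂ).re = (⟪k0 c j s ψ, X (k0 c j s ψ)⟫_ℂ).re
      + (1 - s ^ 2) * (⟪c j ψ, X (c j ψ)⟫_ℂ).re := by
  rw [inner_ph hc, Complex.add_re, Complex.re_ofReal_mul]

/-- positivity in quadratic form sense -/
theorem ph_nonneg (hc : CAR c) (j : ι) {s : ℝ} (hs : s ^ 2 ≤ 1) {X : E →L[ℂ] E}
    (hX : ∀ ψ, 0 ≤ (⟪ψ, X ψ⟫_ℂ).re) (ψ : E) : 0 ≤ (⟪ψ, ph c j s X ψ⟫_ℂ).re := by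
  rw [re_inner_ph hc]
  exact add_nonneg (hX _) (mul_nonneg (by linarith) (hX _))

theorem Ph_nonneg (hc : CAR c) {s : ι → ℝ} {T : Finset ι} (hs : ∀ j ∈ T, s j ^ 2 ≤ 1)
    {X : E →L[ℂ] E} (hX : ∀ ψ, 0 ≤ (⟪ψ, X ψ⟫_ℂ).re) :
    ∀ ψ, 0 ≤ (⟪ψ, Ph c s T X ψ⟫_ℂ).re := by
  induction T using Finset.induction_on with
  | empty => simpa [Ph_empty] using hX
  | insert j T hj ih =>
    intro ψ
    rw [Ph_insert hc s hj]
    exact ph_nonneg hc j (hs j (Finset.mem_insert_self j T))
      (ih (fun k hk => hs k (Finset.mem_insert_of_mem hk))) ψ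

theorem Ph_mono (hc : CAR c) {s : ι → ℝ} {T : Finset ι} (hs : ∀ j ∈ T, s j ^ 2 ≤ 1)
    {X Y : E →L[ℂ] E} (hX : ∀ ψ, (⟪ψ, X ψ⟫_ℂ).re ≤ (⟪ψ, Y ψ⟫_ℂ).re) (ψ : E) :
    (⟪ψ, Ph c s T X ψ⟫_ℂ).re ≤ (⟪ψ, Ph c s T Y ψ⟫_ℂ).re := by
  have h := Ph_nonneg hc hs (X := Y - X) (fun φ => by
    rw [sub_apply, inner_sub_right, Complex.sub_re]
    linarith [hX φ]) ψ
  rw [Ph_sub hc, sub_apply, inner_sub_right, Complex.sub_re] at h
  linarith

/-! #### closeness to the identity -/

theorem sub_ph_eq (hc : CAR c) (j : ι) (s : ℝ) (X : E →L[ℂ] E) :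
    X - ph c j s X = ((1 - s : ℝ) : ℂ) • (((star (c j) * X - X * star (c j)) * c j
        + star (c j) * (c j * X - X * c j)) * k0 c j s)
      - ((1 - s ^ 2 : ℝ) : ℂ) • ((star (c j) * X - X * star (c j)) * c j) := by
  have h1 : (star (c j) * X - X * star (c j)) * c j + star (c j) * (c j * X - X * c j)
      = star (c j) * c j * X - X * (star (c j) * c j) := by noncomm_ring
  have h2 : k0 c j s * X * k0 c j s = X * (k0 c j s * k0 c j s)
      - ((1 - s : ℝ) : ℂ) • ((star (c j) * c j * X - X * (star (c j) * c j)) * k0 c j s) := by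
    have : k0 c j s * X = X * k0 c j s
        - ((1 - s : ℝ) : ℂ) • (star (c j) * c j * X - X * (star (c j) * c j)) := by
      simp only [k0, sub_mul, mul_sub, smul_mul_assoc, mul_smul_comm, smul_sub, one_mul, mul_one]
      abel
    rw [this, sub_mul, smul_mul_assoc, mul_assoc]
  have h3 : star (c j) * X * c j = X * (star (c j) * c j)
      + (star (c j) * X - X * star (c j)) * c j := by noncomm_ring
  have h4 := ph_one hc j s
  rw [ph, mul_one, mul_one] at h4
  have h5 : X * (k0 c j s * k0 c j s) + ((1 - s ^ 2 : ℝ) : ℂ) • (X * (star (c j) * c j)) = X := by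
    rw [← mul_smul_comm, ← mul_add, h4, mul_one]
  rw [h1, ph, h2, h3, smul_add]
  nth_rewrite 1 [← h5]
  abel

/-- closeness in terms of commutators with the mode -/
theorem norm_sub_ph (hc : CAR c) (j : ι) {s : ℝ} (h0 : 0 ≤ s) (h1 : s ≤ 1) (X : E →L[ℂ] E) :
    ‖X - ph c j s X‖ ≤ (1 - s) * (3 * ‖star (c j) * X - X * star (c j)‖
      + ‖c j * X - X * c j‖) := by
  rw [sub_ph_eq hc]
  set a := ‖star (c j) * X - X * star (c j)‖ with ha
  set b := ‖c j * X - X * c j‖ with hb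
  have hs : s ^ 2 ≤ 1 := by nlinarith
  have e1 : ‖(star (c j) * X - X * star (c j)) * c j‖ ≤ a := by
    refine (norm_mul_le _ _).trans ?_
    calc a * ‖c j‖ ≤ a * 1 := mul_le_mul_of_nonneg_left (c_opnorm hc j) (norm_nonneg _)
      _ = a := mul_one _
  have e2 : ‖star (c j) * (c j * X - X * c j)‖ ≤ b := by
    refine (norm_mul_le _ _).trans ?_
    calc ‖star (c j)‖ * b ≤ 1 * b := mul_le_mul_of_nonneg_right (s_opnorm hc j) (norm_nonneg _)
      _ = b := one_mul _
  have e3 : ‖((star (c j) * X - X * star (c j)) * c j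
        + star (c j) * (c j * X - X * c j)) * k0 c j s‖ ≤ a + b := by
    refine (norm_mul_le _ _).trans ?_
    calc _ ≤ (a + b) * 1 := mul_le_mul ((norm_add_le _ _).trans (add_le_add e1 e2))
            (k0_opnorm hc j hs) (norm_nonneg _) (by positivity)
      _ = a + b := mul_one _
  refine (norm_sub_le _ _).trans ?_
  rw [norm_smul, norm_smul, Complex.norm_real, Complex.norm_real,
    Real.norm_of_nonneg (by linarith : (0:ℝ) ≤ 1 - s),
    Real.norm_of_nonneg (by linarith : (0:ℝ) ≤ 1 - s ^ 2)]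
  have f1 := mul_le_mul_of_nonneg_left e3 (by linarith : (0:ℝ) ≤ 1 - s)
  have f2 := mul_le_mul_of_nonneg_left e1 (by linarith : (0:ℝ) ≤ 1 - s ^ 2)
  have f3 : (1 - s ^ 2) * a ≤ (1 - s) * (2 * a) := by
    have : (0:ℝ) ≤ a := norm_nonneg _
    have h3 : 1 - s ^ 2 ≤ (1 - s) * 2 := by nlinarith
    nlinarith
  nlinarith

/-- closeness without locality -/
theorem norm_sub_ph' (hc : CAR c) (j : ι) {s : ℝ} (h0 : 0 ≤ s) (h1 : s ≤ 1) (X : E →L[ℂ] E) :
    ‖X - ph c j s X‖ ≤ 8 * (1 - s) * ‖X‖ := by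
  refine (norm_sub_ph hc j h0 h1 X).trans ?_
  have e1 : ‖star (c j) * X - X * star (c j)‖ ≤ 2 * ‖X‖ := by
    refine (norm_sub_le _ _).trans ?_
    have a1 := norm_mul_le (star (c j)) X
    have a2 := norm_mul_le X (star (c j))
    have := s_opnorm hc j
    nlinarith [norm_nonneg X]
  have e2 : ‖c j * X - X * c j‖ ≤ 2 * ‖X‖ := by
    refine (norm_sub_le _ _).trans ?_
    have a1 := norm_mul_le (c j) X
    have a2 := norm_mul_le X (c j)
    have := c_opnorm hc j
    nlinarith [norm_nonneg X]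
  have : (0:ℝ) ≤ 1 - s := by linarith
  nlinarith

theorem norm_sub_Ph (hc : CAR c) {s : ι → ℝ} {T : Finset ι} (h0 : ∀ j ∈ T, 0 ≤ s j)
    (h1 : ∀ j ∈ T, s j ≤ 1) (X : E →L[ℂ] E) :
    ‖X - Ph c s T X‖ ≤ ∑ j ∈ T, (1 - s j) * (3 * ‖star (c j) * X - X * star (c j)‖
      + ‖c j * X - X * c j‖) := by
  induction T using Finset.induction_on with
  | empty => simp [Ph_empty]
  | insert j T hj ih =>
    have hj0 := h0 j (Finset.mem_insert_self j T)
    have hj1 := h1 j (Finset.mem_insert_self j T)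
    rw [Ph_insert hc s hj, Finset.sum_insert hj, ph_Ph_comm hc]
    have e : X - Ph c s T (ph c j (s j) X) = (X - Ph c s T X) + Ph c s T (X - ph c j (s j) X) := by
      rw [Ph_sub hc]; abel
    rw [e]
    refine (norm_add_le _ _).trans ?_
    have i1 := ih (fun k hk => h0 k (Finset.mem_insert_of_mem hk))
      (fun k hk => h1 k (Finset.mem_insert_of_mem hk))
    have i2 : ‖Ph c s T (X - ph c j (s j) X)‖ ≤ ‖X - ph c j (s j) X‖ :=
      Ph_norm_le hc (fun k hk => by
        have a0 := h0 k (Finset.mem_insert_of_mem hk)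
        have a1 := h1 k (Finset.mem_insert_of_mem hk)
        nlinarith) _
    have i3 := norm_sub_ph hc j hj0 hj1 X
    linarith

theorem norm_sub_Ph' (hc : CAR c) {s : ι → ℝ} {T : Finset ι} (h0 : ∀ j ∈ T, 0 ≤ s j)
    (h1 : ∀ j ∈ T, s j ≤ 1) (X : E →L[ℂ] E) :
    ‖X - Ph c s T X‖ ≤ 8 * (∑ j ∈ T, (1 - s j)) * ‖X‖ := by
  refine (norm_sub_Ph hc h0 h1 X).trans ?_
  rw [Finset.mul_sum, Finset.sum_mul]
  refine Finset.sum_le_sum (fun j hj => ?_)
  have e1 : ‖star (c j) * X - X * star (c j)‖ ≤ 2 * ‖X‖ := by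
    refine (norm_sub_le _ _).trans ?_
    have a1 := norm_mul_le (star (c j)) X
    have a2 := norm_mul_le X (star (c j))
    have := s_opnorm hc j
    nlinarith [norm_nonneg X]
  have e2 : ‖c j * X - X * c j‖ ≤ 2 * ‖X‖ := by
    refine (norm_sub_le _ _).trans ?_
    have a1 := norm_mul_le (c j) X
    have a2 := norm_mul_le X (c j)
    have := c_opnorm hc j
    nlinarith [norm_nonneg X]
  have : (0:ℝ) ≤ 1 - s j := by linarith [h1 j hj]
  nlinarith

/-! #### descent: lower bounds sector by sector -/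

/-- sectors lowered by the annihilators -/
structure Lowers (c : ι → (E →L[ℂ] E)) (Sec : ℕ → Submodule ℂ E) : Prop where
  zero : ∀ j, ∀ ψ ∈ Sec 0, c j ψ = 0
  succ : ∀ j n, ∀ ψ ∈ Sec (n + 1), c j ψ ∈ Sec n
  num : ∀ j n, ∀ ψ ∈ Sec n, (star (c j) * c j) ψ ∈ Sec n

/-- lower bounds `e n` for the quadratic form of `X` on the sectors `n ≤ M` -/
def LB (Sec : ℕ → Submodule ℂ E) (M : ℕ) (e : ℕ → ℝ) (X : E →L[ℂ] E) : Prop :=
  ∀ n ≤ M, ∀ ψ ∈ Sec n, e n * ‖ψ‖ ^ 2 ≤ (⟪ψ, X ψ⟫_ℂ).re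

theorem Lowers.k0 {Sec : ℕ → Submodule ℂ E} (h : Lowers c Sec) (j : ι) (s : ℝ) {n : ℕ} {ψ : E}
    (hψ : ψ ∈ Sec n) : Loss674.k0 c j s ψ ∈ Sec n := by
  rw [Loss674.k0, sub_apply, smul_apply]
  exact Submodule.sub_mem _ hψ (Submodule.smul_mem _ _ (h.num j n ψ hψ))

theorem LB_ph (hc : CAR c) {Sec : ℕ → Submodule ℂ E} (h : Lowers c Sec) (j : ι) {s : ℝ}
    (hs : s ^ 2 ≤ 1) {M : ℕ} {e e' : ℕ → ℝ} {X : E →L[ℂ] E} (hX : LB Sec M e X)
    (h1 : ∀ n ≤ M, e' n ≤ e n) (h2 : ∀ n, n + 1 ≤ M → e' (n + 1) ≤ e n) :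
    LB Sec M e' (ph c j s X) := by
  intro n hn ψ hψ
  rw [re_inner_ph hc, ← k0_norm_sq hc j s ψ, mul_add]
  have a1 : e' n * ‖Loss674.k0 c j s ψ‖ ^ 2
      ≤ (⟪Loss674.k0 c j s ψ, X (Loss674.k0 c j s ψ)⟫_ℂ).re :=
    (mul_le_mul_of_nonneg_right (h1 n hn) (sq_nonneg _)).trans (hX n hn _ (h.k0 j s hψ))
  refine add_le_add a1 ?_
  rw [mul_left_comm]
  refine mul_le_mul_of_nonneg_left ?_ (by linarith)
  cases n with
  | zero =>
    rw [h.zero j ψ hψ]
    simp
  | succ m =>
    exact (mul_le_mul_of_nonneg_right (h2 m hn) (sq_nonneg _)).trans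
      (hX m (by omega) _ (h.succ j m ψ hψ))

/-- minimum over the sectors `n - i`, `i ≤ m` -/
theorem LB_Ph (hc : CAR c) {Sec : ℕ → Submodule ℂ E} (h : Lowers c Sec) {s : ι → ℝ}
    {T : Finset ι} (hs : ∀ j ∈ T, s j ^ 2 ≤ 1) {M : ℕ} {e : ℕ → ℕ → ℝ} {X : E →L[ℂ] E}
    (hX : LB Sec M (e 0) X) (h1 : ∀ k, ∀ n ≤ M, e (k + 1) n ≤ e k n)
    (h2 : ∀ k n, n + 1 ≤ M → e (k + 1) (n + 1) ≤ e k n) :
    LB Sec M (e T.card) (Ph c s T X) := by
  induction T using Finset.induction_on with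
  | empty => simpa [Ph_empty] using hX
  | insert j T hj ih =>
    rw [Ph_insert hc s hj, Finset.card_insert_of_notMem hj]
    exact LB_ph hc h j (hs j (Finset.mem_insert_self j T))
      (ih (fun k hk => hs k (Finset.mem_insert_of_mem hk))) (h1 _) (h2 _)

/-- linear version: `X ≥ - a (K - n) - b` on the sector `n ≤ M` gives
`Ph X ≥ - a (K + #T - n) - b` -/
theorem LB_Ph_linear (hc : CAR c) {Sec : ℕ → Submodule ℂ E} (h : Lowers c Sec) {s : ι → ℝ}
    {T : Finset ι} (hs : ∀ j ∈ T, s j ^ 2 ≤ 1) {M : ℕ} {a b K : ℝ} (ha : 0 ≤ a)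
    {X : E →L[ℂ] E} (hX : LB Sec M (fun n => - a * (K - n) - b) X) :
    LB Sec M (fun n => - a * (K + T.card - n) - b) (Ph c s T X) := by
  have := LB_Ph hc h hs (M := M) (e := fun k n => - a * (K + k - n) - b) (X := X)
    (by simpa using hX) (fun k n _ => by push_cast; nlinarith) (fun k n _ => by push_cast; nlinarith)
  exact this

/-- expected-number version (no cutoff needed): `X ≥ - a (K - n) - b` on the sectors `n ≤ M` gives
`Ph X ≥ - a (K + ∑ (1 - s_j²) - n) - b`. -/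
theorem LB_Ph_sum (hc : CAR c) {Sec : ℕ → Submodule ℂ E} (h : Lowers c Sec) {s : ι → ℝ}
    {T : Finset ι} (hs : ∀ j ∈ T, s j ^ 2 ≤ 1) {M : ℕ} {a b K : ℝ} (ha : 0 ≤ a)
    {X : E →L[ℂ] E} (hX : LB Sec M (fun n => - a * (K - n) - b) X) :
    LB Sec M (fun n => - a * (K + ∑ j ∈ T, (1 - s j ^ 2) - n) - b) (Ph c s T X) := by
  induction T using Finset.induction_on with
  | empty => simpa [Ph_empty] using hX
  | insert j T hj ih =>
    have ih' := ih (fun k hk => hs k (Finset.mem_insert_of_mem hk))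
    have hsj := hs j (Finset.mem_insert_self j T)
    intro n hn ψ hψ
    rw [Ph_insert hc s hj, re_inner_ph hc, Finset.sum_insert hj]
    set S := ∑ k ∈ T, (1 - s k ^ 2) with hS
    have hk := k0_norm_sq hc j (s j) ψ
    have a1 := ih' n hn _ (h.k0 j (s j) hψ)
    have hcl := c_norm_le hc j ψ
    have hcl2 : ‖c j ψ‖ ^ 2 ≤ ‖ψ‖ ^ 2 := by gcongr
    have ht : 0 ≤ 1 - s j ^ 2 := by linarith
    have hat : 0 ≤ a * (1 - s j ^ 2) := mul_nonneg ha ht
    have a3 : 0 ≤ a * (1 - s j ^ 2) * (‖ψ‖ ^ 2 - ‖c j ψ‖ ^ 2) :=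
      mul_nonneg hat (by linarith)
    have a2 : (- a * (K + S - n) - b) * ((1 - s j ^ 2) * ‖c j ψ‖ ^ 2)
        - a * ((1 - s j ^ 2) * ‖c j ψ‖ ^ 2)
        ≤ (1 - s j ^ 2) * (⟪c j ψ, Ph c s T X (c j ψ)⟫_ℂ).re := by
      cases n with
      | zero =>
        rw [h.zero j ψ hψ]
        simp
      | succ m =>
        have := ih' m (by omega) _ (h.succ j m ψ hψ)
        have h3 := mul_le_mul_of_nonneg_left this ht
        push_cast at h3 ⊢
        nlinarith
    rw [← hk]
    rw [← hk] at a3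
    simp only at a1 a2 ⊢
    nlinarith

/-- restriction to the modes with `s ≠ 1` -/
theorem Ph_filter_ne_one (hc : CAR c) (s : ι → ℝ) (T : Finset ι) (X : E →L[ℂ] E) :
    Ph c s T X = Ph c s (T.filter (fun j => s j ≠ 1)) X := by
  classical
  have hd : Disjoint (T.filter (fun j => s j ≠ 1)) (T.filter (fun j => ¬ s j ≠ 1)) :=
    Finset.disjoint_filter_filter_not T T _
  have hu : T = (T.filter (fun j => s j ≠ 1)) ∪ (T.filter (fun j => ¬ s j ≠ 1)) :=
    (Finset.filter_union_filter_not_eq _ T).symm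
  conv_lhs => rw [hu]
  rw [Ph_union hc s hd, Ph_s_one hc (T := T.filter (fun j => ¬ s j ≠ 1)) (fun j hj => by
    have := (Finset.mem_filter.mp hj).2
    simpa using this)]

end hil

end Crest.Agent.R340.Loss674
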