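import Crest.Agent.R340.Fock_649
import Crest.Agent.R340.Loss_674

/-!
H-part of the jump inequality (J1) and the sector descent (J2) of docs 1205 on the Fock model.
-/

set_option autoImplicit false
set_option linter.unusedSectionVars false

namespace Crest.Agent.R340.JumpH674

open Crest.Agent.R340.Fock649 Crest.Agent.R340.Loss674
open scoped InnerProductSpace

variable {ι : Type*} [Fintype ι] [LinearOrder ι]

/-- rotated modes -/
noncomputable def rc (U : Op ι) (j : ι) : Op ι := U * c j * star U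

theorem star_rc (U : Op ι) (j : ι) : star (rc U j) = U * d j * star U := by
  rw [rc, star_mul, star_mul, star_star, star_c, mul_assoc]

theorem car_rc {U : Op ι} (hU : star U * U = 1) (hU' : U * star U = 1) : CAR (rc U) where
  anti i j := by
    have h := c_c i j
    calc rc U i * rc U j + rc U j * rc U i
        = U * c i * (star U * U) * c j * star U + U * c j * (star U * U) * c i * star U := by
          simp only [rc]; noncomm_ring
      _ = U * (c i * c j + c j * c i) * star U := by rw [hU]; noncomm_ring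
      _ = 0 := by rw [h]; simp
  car i j := by
    have h := c_d i j
    calc rc U i * star (rc U j) + star (rc U j) * rc U i
        = U * c i * (star U * U) * d j * star U + U * d j * (star U * U) * c i * star U := by
          rw [star_rc]; simp only [rc]; noncomm_ring
      _ = U * (c i * d j + d j * c i) * star U := by rw [hU]; noncomm_ring
      _ = _ := by
        rw [h]
        split_ifs
        · rw [mul_one, hU']
        · simp

/-- the `n`-particle sector -/
noncomputable def secN (n : ℕ) : Submodule ℂ (Fk ι) where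
  carrier := {v | (Nh : Op ι) v = (n : ℂ) • v}
  add_mem' := by
    intro a b ha hb
    simp only [Set.mem_ofPred_eq] at ha hb ⊢
    rw [map_add, ha, hb, smul_add]
  zero_mem' := by simp
  smul_mem' := by
    intro r a ha
    simp only [Set.mem_ofPred_eq] at ha ⊢
    rw [map_smul, ha, smul_comm]

theorem mem_secN {n : ℕ} {v : Fk ι} : v ∈ secN n ↔ (Nh : Op ι) v = (n : ℂ) • v := Iff.rfl

theorem Nh_c (j : ι) : (Nh : Op ι) * c j = c j * Nh - c j := by
  have h := Nh_comm_an (e j : L ι)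
  rw [an_e] at h
  rw [eq_sub_iff_add_eq]
  rw [sub_eq_iff_eq_add] at h
  rw [h]; abel

theorem lowers_rc {U : Op ι} (hN : U * Nh = Nh * U) :
    Lowers (fun j => (rc U j).ap) (secN (ι := ι)) := by
  have hN' : star U * Nh = Nh * star U := by
    have h := congrArg star hN
    have hs : star (Nh : Op ι) = Nh := by
      rw [Nh_eq, star_diag]; congr 1; funext S; simp
    rw [star_mul, star_mul, hs] at h
    exact h.symm
  have hc : ∀ j, (Nh : Op ι) * rc U j = rc U j * Nh - rc U j := by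
    intro j
    calc (Nh : Op ι) * rc U j = (Nh * U) * c j * star U := by simp only [rc]; noncomm_ring
      _ = U * (Nh * c j) * star U := by rw [← hN]; noncomm_ring
      _ = U * c j * (Nh * star U) - U * c j * star U := by rw [Nh_c]; noncomm_ring
      _ = _ := by rw [← hN']; simp only [rc]; noncomm_ring
  have hd : ∀ j, (Nh : Op ι) * star (rc U j) = star (rc U j) * Nh + star (rc U j) := by
    intro j
    have h := congrArg star (hc j)
    have hs : star (Nh : Op ι) = Nh := by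
      rw [Nh_eq, star_diag]; congr 1; funext S; simp
    rw [star_mul, star_sub, star_mul, hs] at h
    rw [h]; abel
  have e1 : ∀ j (n : ℕ) (ψ : Fk ι), ψ ∈ secN n → (Nh : Op ι) (rc U j ψ) = ((n : ℂ) - 1) • (rc U j ψ) := by
    intro j n ψ hψ
    rw [mem_secN] at hψ
    rw [← mul_ap, hc, sub_ap, mul_ap, hψ, map_smul, sub_smul, one_smul]
  refine ⟨?_, ?_, ?_⟩
  · intro j ψ hψ
    have h := e1 j 0 ψ hψ
    -- `Nh` is positive
    have hpos : 0 ≤ (⟪rc U j ψ, (Nh : Op ι) (rc U j ψ)⟫_ℂ).re := by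
      have : ∀ v : Fk ι, 0 ≤ (⟪v, (Nh : Op ι) v⟫_ℂ).re := by
        intro v
        rw [Nh_eq, EuclideanSpace.inner_eq_star_dotProduct]
        unfold dotProduct
        rw [Complex.re_sum]
        refine Finset.sum_nonneg fun T _ => ?_
        rw [diag_apply]
        simp only [Pi.star_apply, RCLike.star_def]
        have : ((T.card : ℂ) * v.ofLp T * (starRingEnd ℂ) (v.ofLp T)).re
            = T.card * Complex.normSq (v.ofLp T) := by
          rw [mul_assoc, Complex.mul_conj]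
          rw [← Complex.ofReal_natCast, ← Complex.ofReal_mul, Complex.ofReal_re]
        rw [this]
        exact mul_nonneg (Nat.cast_nonneg _) (Complex.normSq_nonneg _)
      exact this _
    rw [h, inner_smul_right] at hpos
    rw [inner_self_eq_norm_sq_to_K] at hpos
    have h2 : ((((0:ℕ) : ℂ) - 1) * ((‖rc U j ψ‖ : ℂ)) ^ 2).re = - ‖rc U j ψ‖ ^ 2 := by
      have : ((((0:ℕ) : ℂ) - 1) * ((‖rc U j ψ‖ : ℂ)) ^ 2) = ((- ‖rc U j ψ‖ ^ 2 : ℝ) : ℂ) := by
        push_cast; ring
      rw [this, Complex.ofReal_re]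
    have h3 : 0 ≤ - ‖rc U j ψ‖ ^ 2 := by rw [← h2]; exact hpos
    have h4 : ‖rc U j ψ‖ = 0 := by
      have := sq_nonneg ‖rc U j ψ‖
      have h5 : ‖rc U j ψ‖ ^ 2 = 0 := by linarith
      exact pow_eq_zero_iff (two_ne_zero) |>.mp h5
    exact norm_eq_zero.mp h4
  · intro j n ψ hψ
    have h := e1 j (n + 1) ψ hψ
    rw [mem_secN]
    change (Nh : Op ι) (rc U j ψ) = (n : ℂ) • (rc U j ψ)
    rw [h]; push_cast; rw [add_sub_cancel_right]
  · intro j n ψ hψ
    have h := e1 j n ψ hψ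
    rw [mem_secN]
    change (Nh : Op ι) (star (rc U j) (rc U j ψ)) = (n : ℂ) • (star (rc U j) (rc U j ψ))
    rw [← mul_ap, hd, add_ap, mul_ap, h, map_smul, sub_smul, one_smul, sub_add_cancel]

/-- the loss channel with rotated modes -/
noncomputable def Phi (U : Op ι) (s : ι → ℝ) (A : Op ι) : Op ι := Ph (rc U) s Finset.univ A

theorem foldr_ap (f : ι → Op ι → Op ι) (g : ι → (Fk ι →L[ℂ] Fk ι) → (Fk ι →L[ℂ] Fk ι))
    (h : ∀ j X, (f j X).ap = g j X.ap) (l : List ι) (X : Op ι) :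
    (l.foldr f X).ap = l.foldr g X.ap := by
  induction l with
  | nil => rfl
  | cons a l ih => rw [List.foldr_cons, List.foldr_cons, h, ih]

theorem Ph_ap (cc : ι → Op ι) (s : ι → ℝ) (T : Finset ι) (A : Op ι) :
    (Ph cc s T A).ap = Ph (fun j => (cc j).ap) s T A.ap := by
  unfold Ph
  exact foldr_ap (fun j Y => ph cc j (s j) Y) (fun j Y => ph (fun j => (cc j).ap) j (s j) Y)
    (fun j X => rfl) _ A

theorem car_ap {cc : ι → Op ι} (h : CAR cc) : CAR (fun j => (cc j).ap) where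
  anti i j := h.anti i j
  car i j := by
    have := congrArg Op.ap (h.car i j)
    refine this.trans ?_
    split_ifs <;> rfl

/-- (J2) descent through the loss channel -/
theorem J2 {U : Op ι} (hU : star U * U = 1) (hU' : U * star U = 1) (hN : U * Nh = Nh * U)
    {s : ι → ℝ} (hs : ∀ j, s j ^ 2 ≤ 1) {a b K : ℝ} (ha : 0 ≤ a) {A : Op ι} {M : ℕ}
    (hA : ∀ n ≤ M, ∀ φ ∈ secN (ι := ι) n, (- a * (K - n) - b) * ‖φ‖ ^ 2 ≤ (⟪φ, A φ⟫_ℂ).re)
    {n : ℕ} (hn : n ≤ M) {φ : Fk ι} (hφ : φ ∈ secN (ι := ι) n) :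
    (- a * (K + ∑ j, (1 - s j ^ 2) - n) - b) * ‖φ‖ ^ 2 ≤ (⟪φ, Phi U s A φ⟫_ℂ).re := by
  have h := LB_Ph_sum (car_ap (car_rc hU hU')) (lowers_rc hN) (T := Finset.univ)
    (fun j _ => hs j) (M := M) (a := a) (b := b) (K := K) ha (X := A.ap) hA
  have := h n hn φ hφ
  rw [← Ph_ap] at this
  exact this

/-! ### basic facts about `Phi` in Fock notation -/

theorem Phi_add {U : Op ι} (hU : star U * U = 1) (hU' : U * star U = 1) (s : ι → ℝ) (A B : Op ι) :
    Phi U s (A + B) = Phi U s A + Phi U s B := Ph_add (car_rc hU hU') s _ A B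

theorem Phi_smul {U : Op ι} (hU : star U * U = 1) (hU' : U * star U = 1) (s : ι → ℝ) (a : ℂ)
    (A : Op ι) : Phi U s (a • A) = a • Phi U s A := Ph_smul (car_rc hU hU') s _ a A

theorem Phi_one {U : Op ι} (hU : star U * U = 1) (hU' : U * star U = 1) (s : ι → ℝ) :
    Phi U s (1 : Op ι) = 1 := Ph_one (car_rc hU hU') s _

theorem star_Phi {U : Op ι} (hU : star U * U = 1) (hU' : U * star U = 1) (s : ι → ℝ) (A : Op ι) :
    star (Phi U s A) = Phi U s (star A) := star_Ph (car_rc hU hU') s _ A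

theorem Phi_norm_le {U : Op ι} (hU : star U * U = 1) (hU' : U * star U = 1) {s : ι → ℝ}
    (hs : ∀ j, s j ^ 2 ≤ 1) (A : Op ι) : ‖Phi U s A‖ ≤ ‖A‖ := by
  rw [Op.norm_eq, Op.norm_eq, Phi, Ph_ap]
  exact Ph_norm_le (car_ap (car_rc hU hU')) (fun j _ => hs j) _

/-- closeness in terms of commutators with the rotated modes -/
theorem norm_sub_Phi {U : Op ι} (hU : star U * U = 1) (hU' : U * star U = 1) {s : ι → ℝ}
    (h0 : ∀ j, 0 ≤ s j) (h1 : ∀ j, s j ≤ 1) (A : Op ι) :
    ‖A - Phi U s A‖ ≤ ∑ j, (1 - s j) * (3 * ‖star (rc U j) * A - A * star (rc U j)‖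
      + ‖rc U j * A - A * rc U j‖) := by
  have h := norm_sub_Ph (car_ap (car_rc hU hU')) (T := Finset.univ) (fun j _ => h0 j)
    (fun j _ => h1 j) A.ap
  rw [← Ph_ap] at h
  exact h

/-- monotonicity in the quadratic form sense -/
theorem Phi_mono {U : Op ι} (hU : star U * U = 1) (hU' : U * star U = 1) {s : ι → ℝ}
    (hs : ∀ j, s j ^ 2 ≤ 1) {A B : Op ι}
    (h : ∀ v, (⟪v, A v⟫_ℂ).re ≤ (⟪v, B v⟫_ℂ).re) (v : Fk ι) :
    (⟪v, Phi U s A v⟫_ℂ).re ≤ (⟪v, Phi U s B v⟫_ℂ).re := by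
  have := Ph_mono (car_ap (car_rc hU hU')) (T := Finset.univ) (fun j _ => hs j)
    (X := A.ap) (Y := B.ap) h v
  rw [← Ph_ap, ← Ph_ap] at this
  exact this

/-! ### covariance and pair annihilators -/

theorem rc_one (j : ι) : rc (1 : Op ι) j = c j := by
  rw [rc, star_one, one_mul, mul_one]

theorem car_c : CAR (c : ι → Op ι) where
  anti i j := c_c i j
  car i j := by rw [star_c]; exact c_d i j

theorem ph_conj {U : Op ι} (hU : star U * U = 1) (hU' : U * star U = 1) (j : ι) (s : ℝ)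
    (X : Op ι) : ph (rc U) j s (U * X * star U) = U * ph c j s X * star U := by
  have hk : k0 (rc U) j s = U * k0 c j s * star U := by
    have : star (rc U j) * rc U j = U * (star (c j) * c j) * star U := by
      calc star (rc U j) * rc U j = U * d j * (star U * U) * c j * star U := by
            rw [star_rc]; simp only [rc]; noncomm_ring
        _ = _ := by rw [hU, star_c]; noncomm_ring
    rw [k0, k0, this, mul_sub, sub_mul, mul_one, hU', mul_smul_comm, smul_mul_assoc]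
  have h1 : k0 (rc U) j s * (U * X * star U) * k0 (rc U) j s
      = U * (k0 c j s * X * k0 c j s) * star U := by
    rw [hk]
    calc U * k0 c j s * star U * (U * X * star U) * (U * k0 c j s * star U)
        = U * k0 c j s * (star U * U) * X * (star U * U) * k0 c j s * star U := by noncomm_ring
      _ = _ := by rw [hU]; noncomm_ring
  have h2 : star (rc U j) * (U * X * star U) * rc U j
      = U * (star (c j) * X * c j) * star U := by
    calc star (rc U j) * (U * X * star U) * rc U j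
        = U * d j * (star U * U) * X * (star U * U) * c j * star U := by
          rw [star_rc]; simp only [rc]; noncomm_ring
      _ = _ := by rw [hU, star_c]; noncomm_ring
  rw [ph, h1, h2, ph, mul_add, add_mul, mul_smul_comm, smul_mul_assoc]

/-- covariance of the channel -/
theorem Phi_conj {U : Op ι} (hU : star U * U = 1) (hU' : U * star U = 1) (s : ι → ℝ)
    (X : Op ι) : Phi U s (U * X * star U) = U * Phi 1 s X * star U := by
  have key : ∀ T : Finset ι, Ph (rc U) s T (U * X * star U) = U * Ph c s T X * star U := by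
    intro T
    induction T using Finset.induction_on with
    | empty => simp [Ph_empty]
    | insert j T hj ih =>
      rw [Ph_insert (car_rc hU hU') s hj, Ph_insert car_c s hj, ih, ph_conj hU hU']
  have h1 : (rc (1 : Op ι)) = c := funext rc_one
  rw [Phi, key, Phi, h1]

theorem Phi_one_eq (s : ι → ℝ) (X : Op ι) : Phi 1 s X = Ph c s Finset.univ X := by
  have h1 : (rc (1 : Op ι)) = c := funext rc_one
  rw [Phi, h1]

theorem pa_c_comm (w : Matrix ι ι ℂ) (k : ι) : pa w * c k = c k * pa w := by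
  unfold pa
  rw [smul_mul_assoc, mul_smul_comm]
  congr 1
  rw [Finset.sum_mul, Finset.mul_sum]
  refine Finset.sum_congr rfl fun i _ => ?_
  rw [Finset.sum_mul, Finset.mul_sum]
  refine Finset.sum_congr rfl fun j _ => ?_
  rw [smul_mul_assoc, mul_smul_comm]
  congr 1
  have h1 : ∀ a b : ι, (c a : Op ι) * c b = - (c b * c a) := by
    intro a b
    rw [eq_neg_iff_add_eq_zero]; exact c_c a b
  calc c j * c i * c k = c j * (c i * c k) := by noncomm_ring
    _ = - (c j * c k) * c i := by rw [h1 i k]; noncomm_ring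
    _ = _ := by rw [h1 j k]; noncomm_ring

/-- two-particle tensor damped by `s` -/
def dmp (s : ι → ℝ) (w : Matrix ι ι ℂ) : Matrix ι ι ℂ := Matrix.of fun i j => ((s i * s j : ℝ) : ℂ) * w i j

theorem pa_mul_Gm (s : ι → ℝ) (w : Matrix ι ι ℂ) :
    pa w * Gm c s Finset.univ = Gm c s Finset.univ * pa (dmp s w) := by
  unfold pa
  rw [smul_mul_assoc, mul_smul_comm]
  congr 1
  rw [Finset.sum_mul, Finset.mul_sum]
  refine Finset.sum_congr rfl fun i _ => ?_
  rw [Finset.sum_mul, Finset.mul_sum]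
  refine Finset.sum_congr rfl fun j _ => ?_
  rw [smul_mul_assoc, cc_mul_Gm car_c s (Finset.mem_univ i) (Finset.mem_univ j), mul_smul_comm,
    mul_smul_comm, smul_smul]
  congr 1
  simp [dmp, mul_comm]

/-- `Phi (B_w^* B_w') = B_{ssw}^* B_{ssw'}` -/
theorem Phi_pa (s : ι → ℝ) (w w' : Matrix ι ι ℂ) :
    Phi 1 s (star (pa w) * pa w') = star (pa (dmp s w)) * pa (dmp s w') := by
  rw [Phi_one_eq]
  refine Ph_mul car_c s Finset.univ 1 (by norm_num) (pa_mul_Gm s w) (pa_mul_Gm s w') ?_ ?_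
  · intro j _; rw [pa_c_comm]; simp
  · intro j _; rw [pa_c_comm]; simp

/-- (J1) near form + profile estimate ⇒ H-part of the jump inequality.
`J = ∑ B_q^* H B_q`; all integrals over an arbitrary measure space. -/
theorem J1 {G : Type*} [MeasurableSpace G] (ν : MeasureTheory.Measure G)
    (B Φ h : G → Op ι) (H J : Op ι) {γ η : ℝ}
    (hprof : ∀ g v, (⟪v, Φ g v⟫_ℂ).re ≤ (⟪v, H v⟫_ℂ).re - (⟪v, h g v⟫_ℂ).re + η * ‖v‖ ^ 2)
    (ψ : Fk ι)
    (i0 : MeasureTheory.Integrable (fun g => (⟪B g ψ, Φ g (B g ψ)⟫_ℂ).re) ν)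
    (i1 : MeasureTheory.Integrable (fun g => ‖B g ψ‖ ^ 2) ν)
    (i2 : MeasureTheory.Integrable (fun g => (⟪B g ψ, H (B g ψ)⟫_ℂ).re) ν)
    (i3 : MeasureTheory.Integrable (fun g => (⟪B g ψ, h g (B g ψ)⟫_ℂ).re) ν)
    (rot1 : ∫ g, ‖B g ψ‖ ^ 2 ∂ν = (⟪ψ, H ψ⟫_ℂ).re)
    (rot2 : ∫ g, (⟪B g ψ, H (B g ψ)⟫_ℂ).re ∂ν = (⟪ψ, J ψ⟫_ℂ).re)
    (near : γ * (⟪ψ, H ψ⟫_ℂ).re ≤ ‖H ψ‖ ^ 2 - (⟪ψ, J ψ⟫_ℂ).re
      + ∫ g, (⟪B g ψ, h g (B g ψ)⟫_ℂ).re ∂ν) :
    ∫ g, (⟪B g ψ, Φ g (B g ψ)⟫_ℂ).re ∂ν ≤ ‖H ψ‖ ^ 2 - (γ - η) * (⟪ψ, H ψ⟫_ℂ).re := by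
  have h1 : ∫ g, (⟪B g ψ, Φ g (B g ψ)⟫_ℂ).re ∂ν
      ≤ ∫ g, ((⟪B g ψ, H (B g ψ)⟫_ℂ).re - (⟪B g ψ, h g (B g ψ)⟫_ℂ).re + η * ‖B g ψ‖ ^ 2) ∂ν :=
    MeasureTheory.integral_mono i0 ((i2.sub i3).add (i1.const_mul η)) (fun g => hprof g _)
  have h2 : ∫ g, ((⟪B g ψ, H (B g ψ)⟫_ℂ).re - (⟪B g ψ, h g (B g ψ)⟫_ℂ).re + η * ‖B g ψ‖ ^ 2) ∂ν
      = (⟪ψ, J ψ⟫_ℂ).re - (∫ g, (⟪B g ψ, h g (B g ψ)⟫_ℂ).re ∂ν) + η * (⟪ψ, H ψ⟫_ℂ).re := by
    have i23 : MeasureTheory.Integrable
        (fun g => (⟪B g ψ, H (B g ψ)⟫_ℂ).re - (⟪B g ψ, h g (B g ψ)⟫_ℂ).re) ν := i2.sub i3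
    rw [MeasureTheory.integral_add i23 (i1.const_mul η),
      MeasureTheory.integral_sub i2 i3, MeasureTheory.integral_const_mul, rot1, rot2]
  rw [h2] at h1
  linarith

end Crest.Agent.R340.JumpH674
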