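import Crest.Agent.R340.Scal_725

/-!
R340 (S0532), K = 1 block of Sec 6 (doc 1253, helper725): abstract sequence part.

* `W1_ind`, `W1` : the recursion `E_{n+1} = (E_n ⊕ e_{n+1}) + Δ_{n+1}` with `‖Δ_n‖ ≤ C/n²`,
  `|e_n - x_n| ≤ C/n`, `|x_{n+1} - x_n| ≤ C/n²` gives `|E_n - x_n| ≤ diag (C'/(m+1))`.
* `K1_diag` : the recursion for the radial operator `h_f` gives `h n m ≥ (1-η) f_{3m}`.
* `K1_final` : combination `C h_f - (X - x) ≥ θ C diag (f_{3m})`.
-/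

set_option autoImplicit false

open Finset

namespace Crest.Agent.R340.K1725

open Crest.Agent.R340.Scal725

/-! ### Elementary sums -/

theorem sum_inv_sq_le (m n : ℕ) (hm : 1 ≤ m) :
    ∑ k ∈ Icc m n, (1 : ℝ) / (k : ℝ) ^ 2 ≤ 2 / m := by
  -- sharper: `≤ 2/m - 1/n` for `m ≤ n`
  have key : ∀ n, m ≤ n → ∑ k ∈ Icc m n, (1 : ℝ) / (k : ℝ) ^ 2 ≤ 2 / m - 1 / n := by
    intro n hn
    induction n, hn using Nat.le_induction with
    | base =>
      have h0 : (1 : ℝ) ≤ m := by exact_mod_cast hm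
      rw [Icc_self, sum_singleton]
      have : (1 : ℝ) / (m : ℝ) ^ 2 ≤ 1 / m := by
        apply one_div_le_one_div_of_le (by positivity)
        nlinarith
      have e : (2 : ℝ) / m - 1 / m = 1 / m := by ring
      rw [e]; exact this
    | succ k hk ih =>
      have h0 : (1 : ℝ) ≤ k := by exact_mod_cast (hm.trans hk)
      rw [sum_Icc_succ_top (by omega : m ≤ k + 1)]
      have : (1 : ℝ) / ((k + 1 : ℕ) : ℝ) ^ 2 ≤ 1 / k - 1 / ((k + 1 : ℕ) : ℝ) := by
        push_cast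
        rw [div_sub_div _ _ (by positivity) (by positivity),
          div_le_div_iff₀ (by positivity) (by positivity)]
        nlinarith
      linarith
  rcases le_or_gt m n with h | h
  · have := key n h
    have h1 : (0 : ℝ) ≤ 1 / n := by positivity
    linarith
  · rw [Icc_eq_empty (by omega), sum_empty]; positivity

/-- `∑_{k=m}^n k^(-3/2) ≤ 3/√m`. -/
theorem sum_inv_three_half_le (m n : ℕ) (hm : 1 ≤ m) :
    ∑ k ∈ Icc m n, (1 : ℝ) / ((k : ℝ) * Real.sqrt k) ≤ 3 / Real.sqrt m := by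
  have key : ∀ n, m ≤ n → ∑ k ∈ Icc m n, (1 : ℝ) / ((k : ℝ) * Real.sqrt k) ≤
      3 / Real.sqrt m - 2 / Real.sqrt n := by
    intro n hn
    induction n, hn using Nat.le_induction with
    | base =>
      have h0 : (1 : ℝ) ≤ m := by exact_mod_cast hm
      rw [Icc_self, sum_singleton]
      have hs : 0 < Real.sqrt m := Real.sqrt_pos.2 (by linarith)
      have : (1 : ℝ) / ((m : ℝ) * Real.sqrt m) ≤ 1 / Real.sqrt m := by
        apply one_div_le_one_div_of_le hs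
        nlinarith
      have e : (3 : ℝ) / Real.sqrt m - 2 / Real.sqrt m = 1 / Real.sqrt m := by ring
      rw [e]; exact this
    | succ k hk ih =>
      have h0 : (1 : ℝ) ≤ k := by exact_mod_cast (hm.trans hk)
      rw [sum_Icc_succ_top (by omega : m ≤ k + 1)]
      have : (1 : ℝ) / (((k + 1 : ℕ) : ℝ) * Real.sqrt ((k + 1 : ℕ) : ℝ)) ≤
          2 / Real.sqrt k - 2 / Real.sqrt ((k + 1 : ℕ) : ℝ) := by
        push_cast
        set s := Real.sqrt (k : ℝ) with hsdef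
        set t := Real.sqrt ((k : ℝ) + 1) with htdef
        have hs : 0 < s := Real.sqrt_pos.2 (by linarith)
        have ht : 0 < t := Real.sqrt_pos.2 (by linarith)
        have hs2 : s ^ 2 = k := Real.sq_sqrt (by linarith)
        have ht2 : t ^ 2 = (k : ℝ) + 1 := Real.sq_sqrt (by linarith)
        have hst : s ≤ t := Real.sqrt_le_sqrt (by linarith)
        rw [← ht2, div_sub_div _ _ hs.ne' ht.ne', div_le_div_iff₀ (by positivity) (by positivity)]
        -- 1 * (s*t) ≤ (2 t - s * 2) * (t^2 * t)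
        have h1 : (t - s) * (t + s) = 1 := by ring_nf; nlinarith
        have h2 : 0 ≤ t - s := by linarith
        have h3 : s * t ≤ 2 * (t - s) * t ^ 3 := by
          have h4 : s * t = (s * t) * ((t - s) * (t + s)) := by rw [h1, mul_one]
          rw [h4]
          have h5 : (s * t) * ((t - s) * (t + s)) = (t - s) * (t * (s * (t + s))) := by ring
          have h6 : 2 * (t - s) * t ^ 3 = (t - s) * (t * (2 * t ^ 2)) := by ring
          rw [h5, h6]
          apply mul_le_mul_of_nonneg_left _ h2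
          apply mul_le_mul_of_nonneg_left _ ht.le
          nlinarith
        nlinarith
      linarith
  rcases le_or_gt m n with h | h
  · have := key n h
    have h1 : (0 : ℝ) ≤ 2 / Real.sqrt n := by positivity
    linarith
  · rw [Icc_eq_empty (by omega), sum_empty]; positivity

/-! ### STEP 1 -/

/-- The weights `A n m`. -/
noncomputable def wt (ep del : ℕ → ℝ) (n0 n m : ℕ) : ℝ :=
  ep m + 2 * ∑ k ∈ Icc (max m (n0 + 1)) n, del k

theorem wt_succ {ep del : ℕ → ℝ} {n0 n m : ℕ} (h : m ≤ n + 1) (h0 : n0 ≤ n) :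
    wt ep del n0 (n + 1) m = wt ep del n0 n m + 2 * del (n + 1) := by
  unfold wt
  rw [sum_Icc_succ_top (by omega : max m (n0 + 1) ≤ n + 1)]
  ring

theorem wt_self {ep del : ℕ → ℝ} {n0 n m : ℕ} (h : n < max m (n0 + 1)) :
    wt ep del n0 n m = ep m := by
  unfold wt
  rw [Icc_eq_empty (by omega), sum_empty]; ring

/-- **STEP 1 (abstract)**. `q n α` is the quadratic form of `P0 X P0` on the vector
`∑_{m ≤ n} α m ψ_m`. -/
theorem W1_ind (q : ℕ → (ℕ → ℂ) → ℝ) (e x del ep : ℕ → ℝ) (n0 : ℕ)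
    (hbase : ∀ α : ℕ → ℂ, |q n0 α - x n0 * ∑ m ∈ range (n0 + 1), ‖α m‖ ^ 2| ≤
      ∑ m ∈ range (n0 + 1), ep m * ‖α m‖ ^ 2)
    (hstep : ∀ n, n0 ≤ n → ∀ α : ℕ → ℂ, |q (n + 1) α - q n α - e (n + 1) * ‖α (n + 1)‖ ^ 2| ≤
      del (n + 1) * ∑ m ∈ range (n + 2), ‖α m‖ ^ 2)
    (hx : ∀ n, n0 ≤ n → |x (n + 1) - x n| ≤ del (n + 1))
    (he : ∀ n, n0 ≤ n → |e (n + 1) - x (n + 1)| ≤ ep (n + 1)) (n : ℕ) (hn : n0 ≤ n)
    (α : ℕ → ℂ) :
    |q n α - x n * ∑ m ∈ range (n + 1), ‖α m‖ ^ 2| ≤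
      ∑ m ∈ range (n + 1), wt ep del n0 n m * ‖α m‖ ^ 2 := by
  induction n, hn using Nat.le_induction with
  | base =>
    refine (hbase α).trans (le_of_eq ?_)
    apply sum_congr rfl
    intro m hm
    simp only [mem_range] at hm
    rw [wt_self (by omega)]
  | succ n hn ih =>
    set N := ∑ m ∈ range (n + 1), ‖α m‖ ^ 2 with hN
    have hN0 : 0 ≤ N := sum_nonneg fun m _ => sq_nonneg _
    set a := ‖α (n + 1)‖ ^ 2 with ha
    have ha0 : 0 ≤ a := sq_nonneg _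
    have eN : ∑ m ∈ range (n + 1 + 1), ‖α m‖ ^ 2 = N + a := sum_range_succ _ _
    have h1 := hstep n hn α
    rw [show n + 2 = n + 1 + 1 from rfl, eN] at h1
    rw [eN]
    have hd0 : 0 ≤ del (n + 1) := (abs_nonneg _).trans (hx n hn)
    have e1 : ∑ m ∈ range (n + 1 + 1), wt ep del n0 (n + 1) m * ‖α m‖ ^ 2 =
        ∑ m ∈ range (n + 1), wt ep del n0 n m * ‖α m‖ ^ 2 + 2 * del (n + 1) * N +
          (ep (n + 1) + 2 * del (n + 1)) * a := by
      rw [sum_range_succ, hN, mul_sum, ← sum_add_distrib]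
      congr 1
      · apply sum_congr rfl
        intro m hm
        simp only [mem_range] at hm
        rw [wt_succ (by omega) hn]; ring
      · rw [wt_succ (by omega) hn, wt_self (by omega)]
    rw [e1]
    have h2 := hx n hn
    have h3 := he n hn
    rw [abs_le] at ih h1 h2 h3 ⊢
    have h4 : |x (n + 1) - x n| * N ≤ del (n + 1) * N :=
      mul_le_mul_of_nonneg_right (hx n hn) hN0
    have h5 : |e (n + 1) - x (n + 1)| * a ≤ ep (n + 1) * a :=
      mul_le_mul_of_nonneg_right (he n hn) ha0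
    have h6 : (x (n + 1) - x n) * N ≤ |x (n + 1) - x n| * N :=
      mul_le_mul_of_nonneg_right (le_abs_self _) hN0
    have h7 : -(x (n + 1) - x n) * N ≤ |x (n + 1) - x n| * N :=
      mul_le_mul_of_nonneg_right (neg_le_abs _) hN0
    have h8 : (e (n + 1) - x (n + 1)) * a ≤ |e (n + 1) - x (n + 1)| * a :=
      mul_le_mul_of_nonneg_right (le_abs_self _) ha0
    have h9 : -(e (n + 1) - x (n + 1)) * a ≤ |e (n + 1) - x (n + 1)| * a :=
      mul_le_mul_of_nonneg_right (neg_le_abs _) ha0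
    have h10 : 0 ≤ del (n + 1) * a := mul_nonneg hd0 ha0
    constructor
    · nlinarith [ih.1, h1.1]
    · nlinarith [ih.2, h1.2]

/-- **STEP 1**, concrete rates. -/
theorem W1 (q : ℕ → (ℕ → ℂ) → ℝ) (e x : ℕ → ℝ) (n0 : ℕ) (C B : ℝ) (hC : 0 ≤ C) (hB : 0 ≤ B)
    (hbase : ∀ α : ℕ → ℂ, |q n0 α - x n0 * ∑ m ∈ range (n0 + 1), ‖α m‖ ^ 2| ≤
      B * ∑ m ∈ range (n0 + 1), ‖α m‖ ^ 2)
    (hstep : ∀ n, n0 ≤ n → ∀ α : ℕ → ℂ, |q (n + 1) α - q n α - e (n + 1) * ‖α (n + 1)‖ ^ 2| ≤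
      C / ((n + 1 : ℕ) : ℝ) ^ 2 * ∑ m ∈ range (n + 2), ‖α m‖ ^ 2)
    (hx : ∀ n, n0 ≤ n → |x (n + 1) - x n| ≤ C / ((n + 1 : ℕ) : ℝ) ^ 2)
    (he : ∀ n, n0 ≤ n → |e (n + 1) - x (n + 1)| ≤ C / ((n + 1 : ℕ) : ℝ)) (n : ℕ) (hn : n0 ≤ n)
    (α : ℕ → ℂ) :
    |q n α - x n * ∑ m ∈ range (n + 1), ‖α m‖ ^ 2| ≤
      ∑ m ∈ range (n + 1), ((10 * C + (n0 + 1) * B) / (m + 1)) * ‖α m‖ ^ 2 := by
  set ep : ℕ → ℝ := fun m => if m ≤ n0 then B else C / m with hep
  set del : ℕ → ℝ := fun k => C / (k : ℝ) ^ 2 with hdel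
  have h := W1_ind q e x del ep n0 ?_ hstep hx ?_ n hn α
  · refine h.trans ?_
    apply sum_le_sum
    intro m hm
    apply mul_le_mul_of_nonneg_right _ (sq_nonneg _)
    unfold wt
    have h1 : ∑ k ∈ Icc (max m (n0 + 1)) n, del k ≤ C * (2 / (max m (n0 + 1) : ℕ)) := by
      have := sum_inv_sq_le (max m (n0 + 1)) n (by omega)
      have e : ∑ k ∈ Icc (max m (n0 + 1)) n, del k =
          C * ∑ k ∈ Icc (max m (n0 + 1)) n, (1 : ℝ) / (k : ℝ) ^ 2 := by
        rw [mul_sum]; apply sum_congr rfl; intro k _; rw [hdel]; ring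
      rw [e]; exact mul_le_mul_of_nonneg_left this hC
    have h2 : (2 : ℝ) / (max m (n0 + 1) : ℕ) ≤ 4 / (m + 1) := by
      have hpos : (0 : ℝ) < (max m (n0 + 1) : ℕ) := by
        exact_mod_cast (by omega : 0 < max m (n0 + 1))
      rw [div_le_div_iff₀ hpos (by positivity)]
      have : ((m + 1 : ℕ) : ℝ) ≤ ((2 * max m (n0 + 1) : ℕ) : ℝ) := by
        exact_mod_cast (by omega : m + 1 ≤ 2 * max m (n0 + 1))
      push_cast at this ⊢
      linarith
    have h3 : C * (2 / (max m (n0 + 1) : ℕ)) ≤ C * (4 / (m + 1)) :=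
      mul_le_mul_of_nonneg_left h2 hC
    have h4 : ep m ≤ (2 * C + (n0 + 1) * B) / (m + 1) := by
      rw [hep]
      simp only
      split_ifs with hmn
      · rw [le_div_iff₀ (by positivity)]
        have : (m : ℝ) ≤ n0 := by exact_mod_cast hmn
        nlinarith
      · have hm1 : 1 ≤ m := by omega
        have hm1' : (1 : ℝ) ≤ m := by exact_mod_cast hm1
        rw [div_le_div_iff₀ (by positivity) (by positivity)]
        have : 0 ≤ ((n0 : ℝ) + 1) * B * m := by positivity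
        nlinarith
    have e5 : (10 * C + (n0 + 1) * B) / ((m : ℝ) + 1) =
        (2 * C + (n0 + 1) * B) / (m + 1) + 2 * (C * (4 / (m + 1))) := by ring
    rw [e5]
    linarith
  · intro α
    refine (hbase α).trans (le_of_eq ?_)
    rw [mul_sum]
    apply sum_congr rfl
    intro m hm
    simp only [mem_range] at hm
    rw [hep]
    simp only
    rw [if_pos (by omega)]
  · intro n hn
    rw [hep]
    simp only
    rw [if_neg (by omega)]
    exact he n hn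

/-! ### STEP 4 : the radial sequence -/

/-- Recursion for the radial operator: `h n m`, `m ≤ n`. -/
theorem K1_diag {a R : ℝ} (hR : 0 < R) (ha0 : 0 ≤ a) (ha1 : a ≤ 1 / 2) (n0 : ℕ) (hn0 : 1 ≤ n0)
    (h : ℕ → ℕ → ℝ) (ε0 c1 c2 : ℝ) (hc1 : 0 ≤ c1) (hc2 : 0 ≤ c2)
    (hbase : ∀ m ≤ n0, (1 - ε0) * prof a R (3 * m) ≤ h n0 m)
    (hnew : ∀ n, n0 ≤ n → (1 - ε0) * prof a R (3 * (n + 1)) ≤ h (n + 1) (n + 1))
    (hstep : ∀ n, n0 ≤ n → ∀ m ≤ n,
      h n m - (c1 * (prof a R (3 * n) - prof a R (3 * (n + 1))) +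
        c2 * (1 / (((n + 1 : ℕ) : ℝ) * Real.sqrt ((n + 1 : ℕ) : ℝ)))) ≤ h (n + 1) m)
    (n : ℕ) (hn : n0 ≤ n) (m : ℕ) (hm : m ≤ n) :
    (1 - ε0 - c1) * prof a R (3 * m) - c2 * (3 / Real.sqrt (max m n0 : ℕ)) ≤ h n m := by
  have ha : a < R + 1 := by linarith
  have hanti := prof_antitone hR.le ha0 ha
  -- stronger induction statement
  have key : ∀ n, n0 ≤ n → ∀ m ≤ n, (1 - ε0) * prof a R (3 * m) -
      c1 * (prof a R (3 * m) - prof a R (3 * n)) -
      c2 * ∑ k ∈ Icc (max m n0 + 1) n, (1 : ℝ) / ((k : ℝ) * Real.sqrt k) ≤ h n m := by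
    intro n hn
    induction n, hn using Nat.le_induction with
    | base =>
      intro m hm
      have h1 := hbase m hm
      have h2 : 0 ≤ c1 * (prof a R (3 * m) - prof a R (3 * n0)) :=
        mul_nonneg hc1 (sub_nonneg.2 (hanti (by omega)))
      rw [Icc_eq_empty (by omega), sum_empty]
      linarith
    | succ n hn ih =>
      intro m hm
      rcases Nat.lt_or_ge n m with hlt | hle
      · have hmn : m = n + 1 := by omega
        subst hmn
        rw [Icc_eq_empty (by omega), sum_empty]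
        have := hnew n hn
        linarith
      · have h1 := ih m hle
        have h2 := hstep n hn m hle
        rw [sum_Icc_succ_top (by omega : max m n0 + 1 ≤ n + 1)]
        push_cast at *
        linarith
  have h1 := key n hn m hm
  have h2 : ∑ k ∈ Icc (max m n0 + 1) n, (1 : ℝ) / ((k : ℝ) * Real.sqrt k) ≤
      3 / Real.sqrt (max m n0 : ℕ) := by
    refine le_trans ?_ (sum_inv_three_half_le (max m n0) n (by omega))
    apply sum_le_sum_of_subset_of_nonneg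
    · intro k hk; simp only [mem_Icc] at hk ⊢; omega
    · intro k _ _; positivity
  have h3 := mul_le_mul_of_nonneg_left h2 hc2
  have h4 : 0 ≤ c1 * prof a R (3 * n) := mul_nonneg hc1 (prof_pos hR.le ha _).le
  linarith

/-- `f_{3m} ≥ √(R/(R+3m))`, hence `1/√(max m n0) ≤ (small) f_{3m}`. -/
theorem inv_sqrt_le {a R : ℝ} (hR : 0 < R) (ha0 : 0 ≤ a) (ha1 : a ≤ 1 / 2) {n0 : ℕ}
    (hn0 : 1 ≤ n0) (m : ℕ) :
    3 / Real.sqrt (max m n0 : ℕ) ≤ 3 * Real.sqrt (1 / n0 + 3 / R) * prof a R (3 * m) := by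
  have h1 := rpow_le_prof hR ha0 (by linarith) (3 * m)
  have hpos : (0 : ℝ) < (max m n0 : ℕ) := by exact_mod_cast (by omega : 0 < max m n0)
  have hn0' : (0 : ℝ) < n0 := by exact_mod_cast hn0
  have h2 : Real.sqrt (R / (R + 3 * m)) ≤ prof a R (3 * m) := by
    refine le_trans ?_ h1
    push_cast
    have hb0 : 0 < R / (R + 3 * (m : ℝ)) := by positivity
    have hb1 : R / (R + 3 * (m : ℝ)) ≤ 1 := by
      rw [div_le_one (by positivity)]
      have : (0 : ℝ) ≤ m := Nat.cast_nonneg m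
      linarith
    rw [Real.sqrt_eq_rpow]
    exact Real.rpow_le_rpow_of_exponent_ge hb0 hb1 ha1
  have h3 : 1 / Real.sqrt (max m n0 : ℕ) ≤
      Real.sqrt (1 / n0 + 3 / R) * Real.sqrt (R / (R + 3 * m)) := by
    rw [← Real.sqrt_mul (by positivity), ← Real.sqrt_one, ← Real.sqrt_div (by norm_num)]
    rw [Real.sqrt_one]
    apply Real.sqrt_le_sqrt
    rw [div_le_iff₀ hpos]
    have hm1 : (m : ℝ) ≤ (max m n0 : ℕ) := by exact_mod_cast le_max_left m n0
    have hm2 : (n0 : ℝ) ≤ (max m n0 : ℕ) := by exact_mod_cast le_max_right m n0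
    have hRm : (0 : ℝ) < R + 3 * m := by positivity
    have e : (1 / (n0 : ℝ) + 3 / R) * (R / (R + 3 * m)) * ((max m n0 : ℕ) : ℝ) =
        (R * ((max m n0 : ℕ) : ℝ) / n0 + 3 * ((max m n0 : ℕ) : ℝ)) / (R + 3 * m) := by
      field_simp
    rw [e, le_div_iff₀ hRm]
    have h5 : R ≤ R * ((max m n0 : ℕ) : ℝ) / n0 := by
      rw [le_div_iff₀ hn0']
      exact mul_le_mul_of_nonneg_left hm2 hR.le
    linarith
  have h4 : Real.sqrt (1 / n0 + 3 / R) * Real.sqrt (R / (R + 3 * m)) ≤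
      Real.sqrt (1 / n0 + 3 / R) * prof a R (3 * m) :=
    mul_le_mul_of_nonneg_left h2 (Real.sqrt_nonneg _)
  have e : 3 / Real.sqrt (max m n0 : ℕ) = 3 * (1 / Real.sqrt (max m n0 : ℕ)) := by ring
  rw [e]
  linarith

/-- **STEP 4**: `h n m ≥ (1-η) f_{3m}`. -/
theorem K1_diag' {a R : ℝ} (hR : 0 < R) (ha0 : 0 ≤ a) (ha1 : a ≤ 1 / 2) (n0 : ℕ) (hn0 : 1 ≤ n0)
    (h : ℕ → ℕ → ℝ) (ε0 c1 c2 : ℝ) (hc1 : 0 ≤ c1) (hc2 : 0 ≤ c2)
    (hbase : ∀ m ≤ n0, (1 - ε0) * prof a R (3 * m) ≤ h n0 m)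
    (hnew : ∀ n, n0 ≤ n → (1 - ε0) * prof a R (3 * (n + 1)) ≤ h (n + 1) (n + 1))
    (hstep : ∀ n, n0 ≤ n → ∀ m ≤ n,
      h n m - (c1 * (prof a R (3 * n) - prof a R (3 * (n + 1))) +
        c2 * (1 / (((n + 1 : ℕ) : ℝ) * Real.sqrt ((n + 1 : ℕ) : ℝ)))) ≤ h (n + 1) m)
    (n : ℕ) (hn : n0 ≤ n) (m : ℕ) (hm : m ≤ n) :
    (1 - (ε0 + c1 + 3 * c2 * Real.sqrt (1 / n0 + 3 / R))) * prof a R (3 * m) ≤ h n m := by
  have h1 := K1_diag hR ha0 ha1 n0 hn0 h ε0 c1 c2 hc1 hc2 hbase hnew hstep n hn m hm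
  have h2 := mul_le_mul_of_nonneg_left (inv_sqrt_le hR ha0 ha1 hn0 m) hc2
  linarith

/-- **OUTPUT (K1)**: `C h_f - (X - x) ≥ θ C diag (f_{3m})`. -/
theorem K1_final {a R : ℝ} (hR : 1 ≤ R) (ha0 : 0 ≤ a) (ha1 : a ≤ 1) (n : ℕ)
    (h : ℕ → ℝ) (q : (ℕ → ℂ) → ℝ) (x η θ CX C : ℝ) (hCX : 0 ≤ CX)
    (hh : ∀ m ≤ n, (1 - η) * prof a R (3 * m) ≤ h m)
    (hq : ∀ α : ℕ → ℂ, |q α - x * ∑ m ∈ range (n + 1), ‖α m‖ ^ 2| ≤
      ∑ m ∈ range (n + 1), (CX / (m + 1)) * ‖α m‖ ^ 2)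
    (hC : 0 ≤ C) (hθ : 4 * CX ≤ C * (1 - η - θ)) (α : ℕ → ℂ) :
    θ * C * ∑ m ∈ range (n + 1), prof a R (3 * m) * ‖α m‖ ^ 2 ≤
      C * ∑ m ∈ range (n + 1), h m * ‖α m‖ ^ 2 -
        (q α - x * ∑ m ∈ range (n + 1), ‖α m‖ ^ 2) := by
  have h1 := (abs_le.1 (hq α)).2
  have hR0 : 0 < R := by linarith
  have h2 : ∀ m : ℕ, CX / ((m : ℝ) + 1) ≤ C * (1 - η - θ) * prof a R (3 * m) := by
    intro m
    have hp := rpow_le_prof hR0 ha0 ha1 (3 * m)
    have hp0 := prof_pos hR0.le (by linarith : a < R + 1) (3 * m)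
    have hb0 : 0 < R / (R + ((3 * m : ℕ) : ℝ)) := by positivity
    have hb1 : R / (R + ((3 * m : ℕ) : ℝ)) ≤ 1 := by
      rw [div_le_one (by positivity)]
      have : (0 : ℝ) ≤ ((3 * m : ℕ) : ℝ) := Nat.cast_nonneg _
      linarith
    have h3 : R / (R + ((3 * m : ℕ) : ℝ)) ≤ prof a R (3 * m) := by
      refine le_trans ?_ hp
      have := Real.rpow_le_rpow_of_exponent_ge hb0 hb1 ha1
      rwa [Real.rpow_one] at this
    have h4 : 1 / (3 * ((m : ℝ) + 1)) ≤ R / (R + ((3 * m : ℕ) : ℝ)) := by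
      rw [div_le_div_iff₀ (by positivity) (by positivity)]
      push_cast
      have : (0 : ℝ) ≤ m := Nat.cast_nonneg m
      nlinarith
    have h5 : 4 * CX * prof a R (3 * m) ≤ C * (1 - η - θ) * prof a R (3 * m) :=
      mul_le_mul_of_nonneg_right hθ hp0.le
    have h6 : 4 * CX * (1 / (3 * ((m : ℝ) + 1))) ≤ 4 * CX * prof a R (3 * m) :=
      mul_le_mul_of_nonneg_left (h4.trans h3) (by positivity)
    have h7 : CX / ((m : ℝ) + 1) ≤ 4 * CX * (1 / (3 * ((m : ℝ) + 1))) := by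
      have e : 4 * CX * (1 / (3 * ((m : ℝ) + 1))) = (4 / 3) * (CX / (m + 1)) := by
        field_simp
      rw [e]
      have : 0 ≤ CX / ((m : ℝ) + 1) := by positivity
      linarith
    linarith
  have h3 : ∑ m ∈ range (n + 1), (CX / ((m : ℝ) + 1)) * ‖α m‖ ^ 2 ≤
      ∑ m ∈ range (n + 1), C * (1 - η - θ) * prof a R (3 * m) * ‖α m‖ ^ 2 :=
    sum_le_sum fun m _ => mul_le_mul_of_nonneg_right (h2 m) (sq_nonneg _)
  have h4 : C * ∑ m ∈ range (n + 1), (1 - η) * prof a R (3 * m) * ‖α m‖ ^ 2 ≤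
      C * ∑ m ∈ range (n + 1), h m * ‖α m‖ ^ 2 := by
    apply mul_le_mul_of_nonneg_left _ hC
    apply sum_le_sum
    intro m hm
    simp only [mem_range] at hm
    exact mul_le_mul_of_nonneg_right (hh m (by omega)) (sq_nonneg _)
  have e5 : C * ∑ m ∈ range (n + 1), (1 - η) * prof a R (3 * m) * ‖α m‖ ^ 2 =
      θ * C * ∑ m ∈ range (n + 1), prof a R (3 * m) * ‖α m‖ ^ 2 +
      ∑ m ∈ range (n + 1), C * (1 - η - θ) * prof a R (3 * m) * ‖α m‖ ^ 2 := by
    rw [mul_sum, mul_sum, ← sum_add_distrib]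
    apply sum_congr rfl
    intro m _
    ring
  linarith

end Crest.Agent.R340.K1725
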