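import Mathlib

/-!
# R340 / S0532, doc 1094 section 5: the convex pair form is bounded below

`⟪∑ F_p v_p, ∑ H_q v_q⟫ ≥ - C ∑_p d_p F_p H_p` when the Gram matrix of the `v_p` decays on the
`sqrt` scale and `F/H` is log-Lipschitz.  (helper716)
-/

set_option autoImplicit false

namespace Crest.Agent.R340.PSD716

open Finset

/-! ## 1. elementary inequalities for `cosh` -/

theorem sinh_le_mul_cosh {y : ℝ} (hy : 0 ≤ y) : Real.sinh y ≤ y * Real.cosh y := by
  have h : MonotoneOn (fun y : ℝ => y * Real.cosh y - Real.sinh y) (Set.Ici 0) := by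
    apply monotoneOn_of_deriv_nonneg (convex_Ici 0)
    · fun_prop
    · fun_prop
    · intro x hx
      rw [interior_Ici] at hx
      have hd : deriv (fun y : ℝ => y * Real.cosh y - Real.sinh y) x = x * Real.sinh x := by
        have h1 : HasDerivAt (fun y : ℝ => y * Real.cosh y - Real.sinh y)
            (1 * Real.cosh x + x * Real.sinh x - Real.cosh x) x :=
          ((hasDerivAt_id x).mul (Real.hasDerivAt_cosh x)).sub (Real.hasDerivAt_sinh x)
        rw [h1.deriv]; ring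
      rw [hd]
      exact mul_nonneg (le_of_lt hx) (Real.sinh_nonneg_iff.2 (le_of_lt hx))
  have := h (Set.mem_Ici.2 le_rfl) (Set.mem_Ici.2 hy) hy
  simp at this
  linarith

theorem cosh_sub_one_le (x : ℝ) : Real.cosh x - 1 ≤ x ^ 2 / 2 * Real.cosh x := by
  wlog hx : 0 ≤ x generalizing x
  · have := this (-x) (by linarith [not_le.1 hx])
    rwa [Real.cosh_neg, neg_sq] at this
  have h2 : Real.cosh x = 1 + 2 * Real.sinh (x / 2) ^ 2 := by
    have := Real.cosh_two_mul (x / 2)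
    rw [show 2 * (x / 2) = x by ring] at this
    have hc := Real.cosh_sq (x / 2)
    rw [this, hc]; ring
  have h3 : Real.sinh (x / 2) ≤ x / 2 * Real.cosh (x / 2) := sinh_le_mul_cosh (by linarith)
  have h4 : 0 ≤ Real.sinh (x / 2) := Real.sinh_nonneg_iff.2 (by linarith)
  have h5 : Real.sinh (x / 2) ^ 2 ≤ (x / 2 * Real.cosh (x / 2)) ^ 2 := by gcongr
  have h6 : Real.cosh (x / 2) ^ 2 ≤ Real.cosh x := by
    have hc := Real.cosh_sq (x / 2)
    rw [hc, h2]; nlinarith [sq_nonneg (Real.sinh (x / 2))]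
  calc Real.cosh x - 1 = 2 * Real.sinh (x / 2) ^ 2 := by rw [h2]; ring
    _ ≤ 2 * (x / 2 * Real.cosh (x / 2)) ^ 2 := by gcongr
    _ = x ^ 2 / 2 * Real.cosh (x / 2) ^ 2 := by ring
    _ ≤ x ^ 2 / 2 * Real.cosh x := by gcongr

theorem cosh_le_exp_abs (x : ℝ) : Real.cosh x ≤ Real.exp |x| := by
  rw [← Real.cosh_abs, Real.cosh_eq]
  have : Real.exp (-|x|) ≤ Real.exp |x| := Real.exp_le_exp.2 (by linarith [abs_nonneg x])
  linarith

theorem cosh_sub_one_le' (x : ℝ) : Real.cosh x - 1 ≤ x ^ 2 / 2 * Real.exp |x| :=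
  (cosh_sub_one_le x).trans (by gcongr; exact cosh_le_exp_abs x)

/-! ## 2. the abstract symmetrisation lemma -/

variable {E : Type*} [NormedAddCommGroup E] [InnerProductSpace ℂ E]

/-- abstract form: `F_p = a_p e^{L_p}`, `H_p = a_p e^{-L_p}`. -/
theorem gram_core {ι : Type*} (S : Finset ι) (v : ι → E) (a L w : ι → ℝ)
    (hw : ∀ p ∈ S, ∑ q ∈ S, (Real.cosh (L p - L q) - 1) * ‖inner ℂ (v p) (v q)‖ ≤ w p) :
    -∑ p ∈ S, w p * (a p) ^ 2 ≤
      (inner ℂ (∑ p ∈ S, ((a p * Real.exp (L p) : ℝ) : ℂ) • v p)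
        (∑ q ∈ S, ((a q * Real.exp (-L q) : ℝ) : ℂ) • v q)).re := by
  classical
  set g : ι → ι → ℝ := fun p q => (inner ℂ (v p) (v q)).re with hg
  have hgs : ∀ p q, g p q = g q p := by
    intro p q
    rw [hg]; simp only
    rw [← inner_conj_symm (v p) (v q), Complex.conj_re]
  have hns : ∀ p q, ‖inner ℂ (v p) (v q)‖ = ‖inner ℂ (v q) (v p)‖ := fun p q =>
    norm_inner_symm _ _
  -- expansion of the form
  have hexp : ∀ x y : ι → ℝ, (inner ℂ (∑ p ∈ S, ((x p : ℝ) : ℂ) • v p)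
      (∑ q ∈ S, ((y q : ℝ) : ℂ) • v q)).re = ∑ p ∈ S, ∑ q ∈ S, x p * y q * g p q := by
    intro x y
    rw [sum_inner, Complex.re_sum]
    refine sum_congr rfl fun p _ => ?_
    rw [inner_sum, Complex.re_sum]
    refine sum_congr rfl fun q _ => ?_
    rw [inner_smul_left, inner_smul_right, Complex.conj_ofReal, ← mul_assoc, ← Complex.ofReal_mul,
      Complex.re_ofReal_mul]
  rw [hexp]
  -- symmetrise
  have hsym : ∑ p ∈ S, ∑ q ∈ S, (a p * Real.exp (L p)) * (a q * Real.exp (-L q)) * g p q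
      = ∑ p ∈ S, ∑ q ∈ S, a p * a q * Real.cosh (L p - L q) * g p q := by
    have h1 : ∑ p ∈ S, ∑ q ∈ S, (a p * Real.exp (L p)) * (a q * Real.exp (-L q)) * g p q
        = ∑ p ∈ S, ∑ q ∈ S, (a q * Real.exp (L q)) * (a p * Real.exp (-L p)) * g p q := by
      rw [sum_comm]
      refine sum_congr rfl fun p _ => sum_congr rfl fun q _ => ?_
      rw [hgs p q]
    have h2 : ∑ p ∈ S, ∑ q ∈ S, a p * a q * Real.cosh (L p - L q) * g p q
        = (∑ p ∈ S, ∑ q ∈ S, (a p * Real.exp (L p)) * (a q * Real.exp (-L q)) * g p q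
          + ∑ p ∈ S, ∑ q ∈ S, (a q * Real.exp (L q)) * (a p * Real.exp (-L p)) * g p q) / 2 := by
      rw [← sum_add_distrib, sum_div]
      refine sum_congr rfl fun p _ => ?_
      rw [← sum_add_distrib, sum_div]
      refine sum_congr rfl fun q _ => ?_
      rw [Real.cosh_eq, neg_sub, sub_eq_add_neg, sub_eq_add_neg, Real.exp_add, Real.exp_add]
      ring
    rw [h2, ← h1]; ring
  rw [hsym]
  have hmain : 0 ≤ ∑ p ∈ S, ∑ q ∈ S, a p * a q * g p q := by
    have := hexp a a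
    rw [← this]
    exact inner_self_nonneg (𝕜 := ℂ) (x := ∑ p ∈ S, ((a p : ℝ) : ℂ) • v p)
  have hcosh : ∀ p q, 0 ≤ Real.cosh (L p - L q) - 1 := fun p q => by
    linarith [Real.one_le_cosh (L p - L q)]
  have herr : -∑ p ∈ S, w p * (a p) ^ 2 ≤
      ∑ p ∈ S, ∑ q ∈ S, a p * a q * (Real.cosh (L p - L q) - 1) * g p q := by
    have h1 : ∀ p q, -(((a p) ^ 2 + (a q) ^ 2) / 2 *
        ((Real.cosh (L p - L q) - 1) * ‖inner ℂ (v p) (v q)‖)) ≤
        a p * a q * (Real.cosh (L p - L q) - 1) * g p q := by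
      intro p q
      have hg1 : |g p q| ≤ ‖inner ℂ (v p) (v q)‖ := Complex.abs_re_le_norm _
      have h2 : |a p * a q * (Real.cosh (L p - L q) - 1) * g p q| ≤
          ((a p) ^ 2 + (a q) ^ 2) / 2 *
            ((Real.cosh (L p - L q) - 1) * ‖inner ℂ (v p) (v q)‖) := by
        rw [abs_mul, abs_mul, abs_of_nonneg (hcosh p q), mul_assoc]
        have h3 : |a p * a q| ≤ ((a p) ^ 2 + (a q) ^ 2) / 2 := by
          rw [abs_le]; constructor <;> nlinarith [sq_nonneg (a p + a q), sq_nonneg (a p - a q)]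
        have h4 : (Real.cosh (L p - L q) - 1) * |g p q| ≤
            (Real.cosh (L p - L q) - 1) * ‖inner ℂ (v p) (v q)‖ :=
          mul_le_mul_of_nonneg_left hg1 (hcosh p q)
        exact mul_le_mul h3 h4 (mul_nonneg (hcosh p q) (abs_nonneg _)) (by positivity)
      exact neg_le_of_abs_le h2
    calc -∑ p ∈ S, w p * (a p) ^ 2
        ≤ -∑ p ∈ S, (∑ q ∈ S, (Real.cosh (L p - L q) - 1) * ‖inner ℂ (v p) (v q)‖) *
            (a p) ^ 2 := by
          apply neg_le_neg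
          apply sum_le_sum
          intro p hp
          exact mul_le_mul_of_nonneg_right (hw p hp) (sq_nonneg _)
      _ = ∑ p ∈ S, ∑ q ∈ S, -(((a p) ^ 2 + (a q) ^ 2) / 2 *
            ((Real.cosh (L p - L q) - 1) * ‖inner ℂ (v p) (v q)‖)) := by
          have e1 : ∑ p ∈ S, ∑ q ∈ S, (a q) ^ 2 *
              ((Real.cosh (L p - L q) - 1) * ‖inner ℂ (v p) (v q)‖) =
              ∑ p ∈ S, ∑ q ∈ S, (a p) ^ 2 *
              ((Real.cosh (L p - L q) - 1) * ‖inner ℂ (v p) (v q)‖) := by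
            rw [sum_comm]
            refine sum_congr rfl fun p _ => sum_congr rfl fun q _ => ?_
            rw [hns q p, show L q - L p = -(L p - L q) by ring, Real.cosh_neg]
          have e2 : ∑ p ∈ S, (∑ q ∈ S, (Real.cosh (L p - L q) - 1) *
              ‖inner ℂ (v p) (v q)‖) * (a p) ^ 2 = ∑ p ∈ S, ∑ q ∈ S, (a p) ^ 2 *
              ((Real.cosh (L p - L q) - 1) * ‖inner ℂ (v p) (v q)‖) := by
            refine sum_congr rfl fun p _ => ?_
            rw [mul_comm, mul_sum]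
          rw [e2]
          have e3 : ∑ p ∈ S, ∑ q ∈ S, -(((a p) ^ 2 + (a q) ^ 2) / 2 *
            ((Real.cosh (L p - L q) - 1) * ‖inner ℂ (v p) (v q)‖)) =
            -((∑ p ∈ S, ∑ q ∈ S, (a p) ^ 2 *
              ((Real.cosh (L p - L q) - 1) * ‖inner ℂ (v p) (v q)‖) +
              ∑ p ∈ S, ∑ q ∈ S, (a q) ^ 2 *
              ((Real.cosh (L p - L q) - 1) * ‖inner ℂ (v p) (v q)‖)) / 2) := by
            rw [← sum_add_distrib, sum_div, ← sum_neg_distrib]
            refine sum_congr rfl fun p _ => ?_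
            rw [← sum_add_distrib, sum_div, ← sum_neg_distrib]
            refine sum_congr rfl fun q _ => ?_
            ring
          rw [e3, e1]; ring
      _ ≤ _ := sum_le_sum fun p _ => sum_le_sum fun q _ => h1 p q
  have hsplit : ∑ p ∈ S, ∑ q ∈ S, a p * a q * Real.cosh (L p - L q) * g p q =
      ∑ p ∈ S, ∑ q ∈ S, a p * a q * g p q +
      ∑ p ∈ S, ∑ q ∈ S, a p * a q * (Real.cosh (L p - L q) - 1) * g p q := by
    rw [← sum_add_distrib]
    refine sum_congr rfl fun p _ => ?_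
    rw [← sum_add_distrib]
    refine sum_congr rfl fun q _ => ?_
    ring
  rw [hsplit]
  linarith

/-- form with two positive profiles `F`, `H`. -/
theorem gram_sym {ι : Type*} (S : Finset ι) (v : ι → E) (F H w : ι → ℝ)
    (hF : ∀ p ∈ S, 0 < F p) (hH : ∀ p ∈ S, 0 < H p)
    (hw : ∀ p ∈ S, ∑ q ∈ S, (Real.cosh ((Real.log (F p / H p) - Real.log (F q / H q)) / 2) - 1) *
      ‖inner ℂ (v p) (v q)‖ ≤ w p) :
    -∑ p ∈ S, w p * (F p * H p) ≤
      (inner ℂ (∑ p ∈ S, ((F p : ℝ) : ℂ) • v p) (∑ q ∈ S, ((H q : ℝ) : ℂ) • v q)).re := by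
  have h := gram_core S v (fun p => Real.sqrt (F p * H p)) (fun p => Real.log (F p / H p) / 2) w
    (by
      intro p hp
      refine le_trans (le_of_eq ?_) (hw p hp)
      refine sum_congr rfl fun q _ => ?_
      rw [show Real.log (F p / H p) / 2 - Real.log (F q / H q) / 2 =
        (Real.log (F p / H p) - Real.log (F q / H q)) / 2 by ring])
  have hFe : ∀ p ∈ S, Real.sqrt (F p * H p) * Real.exp (Real.log (F p / H p) / 2) = F p := by
    intro p hp
    have hf := hF p hp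
    have hh := hH p hp
    have h1 : Real.exp (Real.log (F p / H p) / 2) = Real.sqrt (F p / H p) := by
      rw [Real.sqrt_eq_rpow, Real.rpow_def_of_pos (div_pos hf hh)]; ring_nf
    rw [h1, ← Real.sqrt_mul (mul_pos hf hh).le]
    rw [show F p * H p * (F p / H p) = F p ^ 2 by field_simp]
    exact Real.sqrt_sq hf.le
  have hHe : ∀ p ∈ S, Real.sqrt (F p * H p) * Real.exp (-(Real.log (F p / H p) / 2)) = H p := by
    intro p hp
    have hf := hF p hp
    have hh := hH p hp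
    have h1 : Real.exp (-(Real.log (F p / H p) / 2)) = Real.sqrt (H p / F p) := by
      rw [Real.sqrt_eq_rpow, Real.rpow_def_of_pos (div_pos hh hf)]
      rw [show Real.log (H p / F p) = - Real.log (F p / H p) by
        rw [← Real.log_inv, inv_div]]
      ring_nf
    rw [h1, ← Real.sqrt_mul (mul_pos hf hh).le]
    rw [show F p * H p * (H p / F p) = H p ^ 2 by field_simp]
    exact Real.sqrt_sq hh.le
  have hsq : ∑ p ∈ S, w p * (Real.sqrt (F p * H p)) ^ 2 = ∑ p ∈ S, w p * (F p * H p) := by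
    refine sum_congr rfl fun p hp => ?_
    rw [Real.sq_sqrt (mul_pos (hF p hp) (hH p hp)).le]
  rw [← hsq]
  refine h.trans (le_of_eq ?_)
  congr 1
  congr 1
  · refine sum_congr rfl fun p hp => ?_
    rw [hFe p hp]
  · refine sum_congr rfl fun p hp => ?_
    rw [hHe p hp]


/-! ## 3. the two-pole scale -/

/-- distance (in orbitals, `≥ 1`) of ring `p` to the nearest pole of the sphere of flux `Q`. -/
noncomputable def dd (Q p : ℕ) : ℝ := min ((p : ℝ) + 1) ((Q : ℝ) - p + 1)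

/-- distance of the rings `p`, `q` on the `sqrt` scale. -/
noncomputable def DD (Q p q : ℕ) : ℝ :=
  |Real.sqrt ((p : ℝ) + 1) - Real.sqrt ((q : ℝ) + 1)| +
    |Real.sqrt ((Q : ℝ) - p + 1) - Real.sqrt ((Q : ℝ) - q + 1)|

theorem DD_nonneg (Q p q : ℕ) : 0 ≤ DD Q p q := by unfold DD; positivity

theorem DD_symm (Q p q : ℕ) : DD Q p q = DD Q q p := by
  unfold DD; rw [abs_sub_comm, abs_sub_comm (Real.sqrt ((Q : ℝ) - p + 1))]

theorem one_le_dd {Q p : ℕ} (hp : p ≤ Q) : 1 ≤ dd Q p := by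
  have : (p : ℝ) ≤ Q := by exact_mod_cast hp
  have h0 : (0 : ℝ) ≤ p := Nat.cast_nonneg p
  unfold dd
  exact le_min (by linarith) (by linarith)

theorem sqrt_dd {Q p : ℕ} : Real.sqrt (dd Q p) =
    min (Real.sqrt ((p : ℝ) + 1)) (Real.sqrt ((Q : ℝ) - p + 1)) := by
  unfold dd
  exact (Real.sqrt_monotone).map_min

theorem sqrt_dd_le {Q p q : ℕ} : Real.sqrt (dd Q p) ≤ Real.sqrt (dd Q q) + DD Q p q := by
  rw [sqrt_dd, sqrt_dd]
  unfold DD
  have h1 := le_abs_self (Real.sqrt ((p : ℝ) + 1) - Real.sqrt ((q : ℝ) + 1))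
  have h2 := le_abs_self (Real.sqrt ((Q : ℝ) - p + 1) - Real.sqrt ((Q : ℝ) - q + 1))
  have h3 := abs_nonneg (Real.sqrt ((p : ℝ) + 1) - Real.sqrt ((q : ℝ) + 1))
  have h4 := abs_nonneg (Real.sqrt ((Q : ℝ) - p + 1) - Real.sqrt ((Q : ℝ) - q + 1))
  rcases le_total (Real.sqrt ((q : ℝ) + 1)) (Real.sqrt ((Q : ℝ) - q + 1)) with h | h
  · rw [min_eq_left h]
    have := min_le_left (Real.sqrt ((p : ℝ) + 1)) (Real.sqrt ((Q : ℝ) - p + 1))
    linarith
  · rw [min_eq_right h]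
    have := min_le_right (Real.sqrt ((p : ℝ) + 1)) (Real.sqrt ((Q : ℝ) - p + 1))
    linarith

theorem sqrt_dd_le_mul {Q p q : ℕ} (hq : q ≤ Q) :
    Real.sqrt (dd Q p) ≤ Real.sqrt (dd Q q) * (1 + DD Q p q) := by
  have h1 : 1 ≤ Real.sqrt (dd Q q) := by
    rw [Real.one_le_sqrt]; exact one_le_dd hq
  have h2 := DD_nonneg Q p q
  nlinarith [@sqrt_dd_le Q p q]

theorem dd_le_mul {Q p q : ℕ} (hp : p ≤ Q) (hq : q ≤ Q) :
    dd Q p ≤ dd Q q * (1 + DD Q p q) ^ 2 := by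
  have h1 := one_le_dd hp
  have h2 := one_le_dd hq
  have h3 := sqrt_dd_le_mul (p := p) hq
  calc dd Q p = Real.sqrt (dd Q p) ^ 2 := (Real.sq_sqrt (by linarith)).symm
    _ ≤ (Real.sqrt (dd Q q) * (1 + DD Q p q)) ^ 2 := by gcongr
    _ = dd Q q * (1 + DD Q p q) ^ 2 := by rw [mul_pow, Real.sq_sqrt (by linarith)]

/-! ### counting -/

/-- `∑_{n<N} (1+(n+1)/R)^{-2} ≤ R`. -/
theorem sum_inv_sq_le {R : ℝ} (hR : 0 < R) (N : ℕ) :
    ∑ n ∈ range N, ((1 + ((n : ℝ) + 1) / R) ^ 2)⁻¹ ≤ R := by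
  have key : ∀ N : ℕ, ∑ n ∈ range N, ((1 + ((n : ℝ) + 1) / R) ^ 2)⁻¹ ≤
      R * (1 - (1 + (N : ℝ) / R)⁻¹) := by
    intro N
    induction N with
    | zero => simp
    | succ N ih =>
      rw [sum_range_succ]
      have h1 : 0 < 1 + (N : ℝ) / R := by positivity
      have h2 : 0 < 1 + ((N : ℝ) + 1) / R := by positivity
      have h3 : ((1 + ((N : ℝ) + 1) / R) ^ 2)⁻¹ ≤
          R * ((1 + (N : ℝ) / R)⁻¹ - (1 + ((N : ℝ) + 1) / R)⁻¹) := by
        rw [inv_sub_inv h1.ne' h2.ne']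
        have h4 : R * ((1 + ((N : ℝ) + 1) / R - (1 + (N : ℝ) / R)) /
            ((1 + (N : ℝ) / R) * (1 + ((N : ℝ) + 1) / R))) =
            ((1 + (N : ℝ) / R) * (1 + ((N : ℝ) + 1) / R))⁻¹ := by
          have : 1 + ((N : ℝ) + 1) / R - (1 + (N : ℝ) / R) = 1 / R := by ring
          rw [this]
          field_simp
        rw [h4]
        apply inv_anti₀ (by positivity)
        rw [sq]
        gcongr
        linarith
      push_cast
      nlinarith
  refine (key N).trans ?_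
  have : 0 ≤ (1 + (N : ℝ) / R)⁻¹ := by positivity
  nlinarith

theorem sum_inv_sq_nat (N : ℕ) : ∑ n ∈ range N, (((n : ℝ) + 1) ^ 2)⁻¹ ≤ 2 := by
  have h := sum_inv_sq_le (R := 1) one_pos N
  have h2 : ∀ N : ℕ, ∑ n ∈ range (N + 1), (((n : ℝ) + 1) ^ 2)⁻¹ ≤ 2 := by
    intro N
    rw [sum_range_succ']
    have h3 : ∑ k ∈ range N, ((((k + 1 : ℕ) : ℝ) + 1) ^ 2)⁻¹ =
        ∑ n ∈ range N, ((1 + ((n : ℝ) + 1) / 1) ^ 2)⁻¹ := by
      refine sum_congr rfl fun n _ => ?_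
      push_cast
      ring_nf
    rw [h3]
    have h4 := sum_inv_sq_le (R := 1) one_pos N
    have h5 : ((((0 : ℕ) : ℝ) + 1) ^ 2)⁻¹ = 1 := by norm_num
    rw [h5]
    linarith
  calc ∑ n ∈ range N, (((n : ℝ) + 1) ^ 2)⁻¹ ≤ ∑ n ∈ range (N + 1), (((n : ℝ) + 1) ^ 2)⁻¹ := by
        apply sum_le_sum_of_subset_of_nonneg
        · exact range_subset_range.2 (Nat.le_succ N)
        · intros; positivity
    _ ≤ 2 := h2 N

theorem sum_abs_le {R : ℝ} (hR : 1 ≤ R) (p N : ℕ) :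
    ∑ q ∈ range N, ((1 + |(p : ℝ) - q| / R) ^ 2)⁻¹ ≤ 3 * R := by
  have hR0 : 0 < R := by linarith
  set φ : ℕ → ℝ := fun q => ((1 + |(p : ℝ) - q| / R) ^ 2)⁻¹ with hφ
  have hφ0 : ∀ q, 0 ≤ φ q := fun q => by rw [hφ]; positivity
  have h1 : ∑ q ∈ range N, φ q ≤ ∑ q ∈ range (p + 1 + N), φ q := by
    apply sum_le_sum_of_subset_of_nonneg
    · exact range_subset_range.2 (by omega)
    · intros; exact hφ0 _
  have h2 : ∑ q ∈ range (p + 1 + N), φ q =
      ∑ q ∈ range (p + 1), φ q + ∑ n ∈ range N, φ (p + 1 + n) := sum_range_add _ _ _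
  have h3 : ∑ n ∈ range N, φ (p + 1 + n) = ∑ n ∈ range N, ((1 + ((n : ℝ) + 1) / R) ^ 2)⁻¹ := by
    refine sum_congr rfl fun n _ => ?_
    rw [hφ]
    simp only
    rw [show (p : ℝ) - ((p + 1 + n : ℕ) : ℝ) = -((n : ℝ) + 1) by push_cast; ring, abs_neg,
      abs_of_nonneg (by positivity)]
  have h4 : ∑ q ∈ range (p + 1), φ q = 1 + ∑ n ∈ range p, ((1 + ((n : ℝ) + 1) / R) ^ 2)⁻¹ := by
    rw [sum_range_succ, ← sum_range_reflect]
    have e1 : φ p = 1 := by rw [hφ]; simp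
    rw [e1, add_comm]
    congr 1
    refine sum_congr rfl fun n hn => ?_
    have hn' : n < p := mem_range.1 hn
    rw [hφ]
    simp only
    have : ((p - 1 - n : ℕ) : ℝ) = (p : ℝ) - 1 - n := by
      rw [Nat.cast_sub (by omega), Nat.cast_sub (by omega)]; simp
    rw [this, show (p : ℝ) - ((p : ℝ) - 1 - n) = (n : ℝ) + 1 by ring, abs_of_nonneg (by positivity)]
  have h5 := sum_inv_sq_le hR0 p
  have h6 := sum_inv_sq_le hR0 N
  rw [h2, h3, h4] at h1
  linarith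

theorem count_sqrt (p N : ℕ) :
    ∑ q ∈ range N, ((1 + |Real.sqrt ((p : ℝ) + 1) - Real.sqrt ((q : ℝ) + 1)|) ^ 4)⁻¹ ≤
      41 * Real.sqrt ((p : ℝ) + 1) := by
  set R := Real.sqrt ((p : ℝ) + 1) with hRdef
  have hR1 : 1 ≤ R := by
    rw [hRdef, Real.one_le_sqrt]; linarith [(Nat.cast_nonneg p : (0 : ℝ) ≤ p)]
  have hRsq : R ^ 2 = (p : ℝ) + 1 := Real.sq_sqrt (by positivity)
  have hterm : ∀ q : ℕ, ((1 + |R - Real.sqrt ((q : ℝ) + 1)|) ^ 4)⁻¹ ≤
      ((1 + |(p : ℝ) - q| / (3 * R)) ^ 2)⁻¹ + 16 * (((q : ℝ) + 1) ^ 2)⁻¹ := by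
    intro q
    set T := Real.sqrt ((q : ℝ) + 1) with hT
    have hT1 : 1 ≤ T := by
      rw [hT, Real.one_le_sqrt]; linarith [(Nat.cast_nonneg q : (0 : ℝ) ≤ q)]
    have hTsq : T ^ 2 = (q : ℝ) + 1 := Real.sq_sqrt (by positivity)
    have hx : 0 ≤ |R - T| := abs_nonneg _
    rcases le_total T (2 * R) with h | h
    · have h1 : |(p : ℝ) - q| / (3 * R) ≤ |R - T| := by
        rw [div_le_iff₀ (by positivity)]
        have : (p : ℝ) - q = (R - T) * (R + T) := by nlinarith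
        rw [this, abs_mul, abs_of_nonneg (by linarith : 0 ≤ R + T)]
        gcongr
        linarith
      have h2 : ((1 + |R - T|) ^ 4)⁻¹ ≤ ((1 + |(p : ℝ) - q| / (3 * R)) ^ 2)⁻¹ := by
        apply inv_anti₀ (by positivity)
        calc (1 + |(p : ℝ) - q| / (3 * R)) ^ 2 ≤ (1 + |R - T|) ^ 2 := by gcongr
          _ ≤ (1 + |R - T|) ^ 4 := by
              apply pow_le_pow_right₀ (by linarith) (by norm_num)
      have h3 : 0 ≤ 16 * (((q : ℝ) + 1) ^ 2)⁻¹ := by positivity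
      linarith
    · have h1 : T / 2 ≤ |R - T| := by
        rw [abs_sub_comm]
        exact le_trans (by linarith) (le_abs_self _)
      have h2 : ((1 + |R - T|) ^ 4)⁻¹ ≤ 16 * (((q : ℝ) + 1) ^ 2)⁻¹ := by
        rw [← hTsq]
        rw [show 16 * ((T ^ 2) ^ 2)⁻¹ = ((T / 2) ^ 4)⁻¹ by field_simp; norm_num]
        apply inv_anti₀ (by positivity)
        gcongr
        linarith
      have h3 : 0 ≤ ((1 + |(p : ℝ) - q| / (3 * R)) ^ 2)⁻¹ := by positivity
      linarith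
  calc ∑ q ∈ range N, ((1 + |R - Real.sqrt ((q : ℝ) + 1)|) ^ 4)⁻¹
      ≤ ∑ q ∈ range N, (((1 + |(p : ℝ) - q| / (3 * R)) ^ 2)⁻¹ + 16 * (((q : ℝ) + 1) ^ 2)⁻¹) :=
        sum_le_sum fun q _ => hterm q
    _ = ∑ q ∈ range N, ((1 + |(p : ℝ) - q| / (3 * R)) ^ 2)⁻¹ +
        16 * ∑ q ∈ range N, (((q : ℝ) + 1) ^ 2)⁻¹ := by rw [sum_add_distrib, mul_sum]
    _ ≤ 3 * (3 * R) + 16 * 2 := by
        have h1 := sum_abs_le (R := 3 * R) (by linarith) p N
        have h2 := sum_inv_sq_nat N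
        linarith
    _ ≤ 41 * R := by linarith

theorem count_DD {Q p : ℕ} (hp : p ≤ Q) (S : Finset ℕ) (hS : ∀ q ∈ S, q ≤ Q) :
    ∑ q ∈ S, ((1 + DD Q p q) ^ 4)⁻¹ ≤ 41 * Real.sqrt (dd Q p) := by
  have hsub : S ⊆ range (Q + 1) := fun q hq => mem_range.2 (Nat.lt_succ_of_le (hS q hq))
  have h0 : ∑ q ∈ S, ((1 + DD Q p q) ^ 4)⁻¹ ≤ ∑ q ∈ range (Q + 1), ((1 + DD Q p q) ^ 4)⁻¹ := by
    apply sum_le_sum_of_subset_of_nonneg hsub
    intro q _ _
    have := DD_nonneg Q p q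
    positivity
  refine h0.trans ?_
  rw [sqrt_dd]
  rcases le_total (Real.sqrt ((p : ℝ) + 1)) (Real.sqrt ((Q : ℝ) - p + 1)) with h | h
  · rw [min_eq_left h]
    refine le_trans (sum_le_sum fun q _ => ?_) (count_sqrt p (Q + 1))
    apply inv_anti₀ (by positivity)
    gcongr
    unfold DD
    linarith [abs_nonneg (Real.sqrt ((Q : ℝ) - p + 1) - Real.sqrt ((Q : ℝ) - q + 1))]
  · rw [min_eq_right h]
    have e1 : (Q : ℝ) - p = ((Q - p : ℕ) : ℝ) := by rw [Nat.cast_sub hp]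
    rw [e1]
    refine le_trans (le_of_eq_of_le (sum_range_reflect _ _).symm (sum_le_sum fun q hq => ?_))
      (count_sqrt (Q - p) (Q + 1))
    have hq' : q ≤ Q := Nat.lt_succ_iff.1 (mem_range.1 hq)
    have e2 : Q + 1 - 1 - q = Q - q := by omega
    rw [e2]
    apply inv_anti₀ (by positivity)
    gcongr
    unfold DD
    rw [← e1]
    have e3 : (Q : ℝ) - ((Q - q : ℕ) : ℝ) = q := by rw [Nat.cast_sub hq']; ring
    rw [e3]
    linarith [abs_nonneg (Real.sqrt ((p : ℝ) + 1) - Real.sqrt (((Q - q : ℕ) : ℝ) + 1))]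

/-! ### the log-ratio -/

/-- `|log (x/y)| ≤ 2 log (1 + |√x-√y| / min)`. -/
theorem abs_log_div_le {x y : ℝ} (hx : 1 ≤ x) (hy : 1 ≤ y) :
    |Real.log (x / y)| ≤
      2 * Real.log (1 + |Real.sqrt x - Real.sqrt y| / min (Real.sqrt x) (Real.sqrt y)) := by
  wlog h : y ≤ x generalizing x y
  · have := this hy hx (le_of_not_ge h)
    rw [show x / y = (y / x)⁻¹ by rw [inv_div], Real.log_inv, abs_neg, abs_sub_comm, min_comm]
    exact this
  have hy0 : 0 < Real.sqrt y := Real.sqrt_pos.2 (by linarith)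
  have hs : Real.sqrt y ≤ Real.sqrt x := Real.sqrt_le_sqrt h
  rw [min_eq_right hs, abs_of_nonneg (sub_nonneg.2 hs)]
  have e : 1 + (Real.sqrt x - Real.sqrt y) / Real.sqrt y = Real.sqrt x / Real.sqrt y := by
    field_simp; ring
  rw [e, ← Real.sqrt_div (by linarith), Real.log_sqrt (by positivity)]
  rw [abs_of_nonneg (Real.log_nonneg ((one_le_div (by linarith)).2 h))]
  linarith

/-- the main per-pair estimate. -/
theorem cosh_bound {Q p q : ℕ} (hp : p ≤ Q) (hq : q ≤ Q) {κ δ : ℝ} (hκ : 0 ≤ κ)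
    (hδ : |δ| ≤ κ / 2 * (|Real.log (((p : ℝ) + 1) / ((q : ℝ) + 1))| +
      |Real.log (((Q : ℝ) - p + 1) / ((Q : ℝ) - q + 1))|)) :
    Real.cosh δ - 1 ≤ κ ^ 2 / 2 * (1 + DD Q p q) ^ (2 * κ + 4) / dd Q p := by
  have hpQ : (p : ℝ) ≤ Q := by exact_mod_cast hp
  have hqQ : (q : ℝ) ≤ Q := by exact_mod_cast hq
  have hp0 : (0 : ℝ) ≤ p := Nat.cast_nonneg p
  have hq0 : (0 : ℝ) ≤ q := Nat.cast_nonneg q
  have hD0 := DD_nonneg Q p q
  set D := DD Q p q with hDdef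
  set D1 := |Real.sqrt ((p : ℝ) + 1) - Real.sqrt ((q : ℝ) + 1)| with hD1
  set D2 := |Real.sqrt ((Q : ℝ) - p + 1) - Real.sqrt ((Q : ℝ) - q + 1)| with hD2
  have hDD : D = D1 + D2 := rfl
  have hD10 : 0 ≤ D1 := abs_nonneg _
  have hD20 : 0 ≤ D2 := abs_nonneg _
  set m1 := min (Real.sqrt ((p : ℝ) + 1)) (Real.sqrt ((q : ℝ) + 1)) with hm1
  set m2 := min (Real.sqrt ((Q : ℝ) - p + 1)) (Real.sqrt ((Q : ℝ) - q + 1)) with hm2
  have hm11 : 1 ≤ m1 := le_min (Real.one_le_sqrt.2 (by linarith)) (Real.one_le_sqrt.2 (by linarith))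
  have hm21 : 1 ≤ m2 := le_min (Real.one_le_sqrt.2 (by linarith)) (Real.one_le_sqrt.2 (by linarith))
  have hl1 := abs_log_div_le (x := (p : ℝ) + 1) (y := (q : ℝ) + 1) (by linarith) (by linarith)
  have hl2 := abs_log_div_le (x := (Q : ℝ) - p + 1) (y := (Q : ℝ) - q + 1) (by linarith)
    (by linarith)
  rw [← hD1, ← hm1] at hl1
  rw [← hD2, ← hm2] at hl2
  have hd1 := one_le_dd hp
  have hd2 := one_le_dd hq
  set r := Real.sqrt (dd Q p) with hr
  have hr1 : 1 ≤ r := Real.one_le_sqrt.2 hd1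
  have hrr : r ^ 2 = dd Q p := Real.sq_sqrt (by linarith)
  -- lower bound of m1, m2 by r / (1 + D)
  have hrD : r ≤ (1 + D) * m1 ∧ r ≤ (1 + D) * m2 := by
    have a1 : r ≤ Real.sqrt (dd Q q) * (1 + D) := sqrt_dd_le_mul hq
    have a2 : r ≤ Real.sqrt ((p : ℝ) + 1) := by rw [hr, sqrt_dd]; exact min_le_left _ _
    have a3 : r ≤ Real.sqrt ((Q : ℝ) - p + 1) := by rw [hr, sqrt_dd]; exact min_le_right _ _
    have a4 : Real.sqrt (dd Q q) ≤ Real.sqrt ((q : ℝ) + 1) := by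
      rw [sqrt_dd]; exact min_le_left _ _
    have a5 : Real.sqrt (dd Q q) ≤ Real.sqrt ((Q : ℝ) - q + 1) := by
      rw [sqrt_dd]; exact min_le_right _ _
    have b0 : 0 ≤ Real.sqrt ((p : ℝ) + 1) := Real.sqrt_nonneg _
    have b1 : 0 ≤ Real.sqrt ((Q : ℝ) - p + 1) := Real.sqrt_nonneg _
    have aux : ∀ x y : ℝ, 0 ≤ x → r ≤ x → Real.sqrt (dd Q q) ≤ y → r ≤ (1 + D) * min x y := by
      intro x y hx0 hx hy
      rcases min_choice x y with e | e
      · rw [e]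
        have : 0 ≤ D * x := mul_nonneg hD0 hx0
        linarith
      · rw [e]
        have : Real.sqrt (dd Q q) * (1 + D) ≤ y * (1 + D) :=
          mul_le_mul_of_nonneg_right hy (by linarith)
        linarith
    exact ⟨aux _ _ b0 a2 a4, aux _ _ b1 a3 a5⟩
  -- first bound
  have hb1 : |δ| ≤ κ * (D * (1 + D) / r) := by
    have c1 : Real.log (1 + D1 / m1) ≤ D1 * (1 + D) / r := by
      have : Real.log (1 + D1 / m1) ≤ D1 / m1 := by
        have := Real.log_le_sub_one_of_pos (show 0 < 1 + D1 / m1 by positivity)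
        linarith
      refine this.trans ?_
      rw [div_le_div_iff₀ (by linarith) (by linarith)]
      have := mul_le_mul_of_nonneg_left hrD.1 hD10
      linarith
    have c2 : Real.log (1 + D2 / m2) ≤ D2 * (1 + D) / r := by
      have : Real.log (1 + D2 / m2) ≤ D2 / m2 := by
        have := Real.log_le_sub_one_of_pos (show 0 < 1 + D2 / m2 by positivity)
        linarith
      refine this.trans ?_
      rw [div_le_div_iff₀ (by linarith) (by linarith)]
      have := mul_le_mul_of_nonneg_left hrD.2 hD20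
      linarith
    calc |δ| ≤ κ / 2 * (2 * Real.log (1 + D1 / m1) + 2 * Real.log (1 + D2 / m2)) := by
          refine hδ.trans ?_
          gcongr
      _ ≤ κ / 2 * (2 * (D1 * (1 + D) / r) + 2 * (D2 * (1 + D) / r)) := by gcongr
      _ = κ * (D * (1 + D) / r) := by rw [hDD]; ring
  have hb2 : Real.exp |δ| ≤ (1 + D) ^ (2 * κ) := by
    have c1 : Real.log (1 + D1 / m1) ≤ Real.log (1 + D) := by
      apply Real.log_le_log (by positivity)
      have : D1 / m1 ≤ D1 := div_le_self hD10 hm11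
      linarith
    have c2 : Real.log (1 + D2 / m2) ≤ Real.log (1 + D) := by
      apply Real.log_le_log (by positivity)
      have : D2 / m2 ≤ D2 := div_le_self hD20 hm21
      linarith
    rw [Real.rpow_def_of_pos (by linarith)]
    apply Real.exp_le_exp.2
    calc |δ| ≤ κ / 2 * (2 * Real.log (1 + D1 / m1) + 2 * Real.log (1 + D2 / m2)) := by
          refine hδ.trans ?_
          gcongr
      _ ≤ κ / 2 * (2 * Real.log (1 + D) + 2 * Real.log (1 + D)) := by gcongr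
      _ = Real.log (1 + D) * (2 * κ) := by ring
  have hb3 : δ ^ 2 ≤ κ ^ 2 * (1 + D) ^ 4 / dd Q p := by
    have : |δ| ≤ κ * (1 + D) ^ 2 / r := by
      refine hb1.trans ?_
      rw [show κ * (1 + D) ^ 2 / r = κ * ((1 + D) ^ 2 / r) from mul_div_assoc _ _ _]
      gcongr
      nlinarith
    calc δ ^ 2 = |δ| ^ 2 := (sq_abs δ).symm
      _ ≤ (κ * (1 + D) ^ 2 / r) ^ 2 := by gcongr
      _ = κ ^ 2 * (1 + D) ^ 4 / dd Q p := by rw [div_pow, hrr]; ring
  calc Real.cosh δ - 1 ≤ δ ^ 2 / 2 * Real.exp |δ| := cosh_sub_one_le' δ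
    _ ≤ (κ ^ 2 * (1 + D) ^ 4 / dd Q p) / 2 * (1 + D) ^ (2 * κ) := by gcongr
    _ = κ ^ 2 / 2 * (1 + D) ^ (2 * κ + 4) / dd Q p := by
        rw [Real.rpow_add (by linarith)]
        have : (1 + D) ^ (4 : ℝ) = (1 + D) ^ 4 := by
          exact_mod_cast Real.rpow_natCast (1 + D) 4
        rw [this]; ring

/-- **Section 5 of doc 1094.**  Two positive profiles `F`, `H` (second differences of convex
functions) whose ratio is log-Lipschitz; Gram matrix of the kink vectors decaying on the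
`sqrt`-scale with the right size `d^{3/2}`. -/
theorem cross_lower {Q : ℕ} (S : Finset ℕ) (hS : ∀ p ∈ S, p ≤ Q) (v : ℕ → E) (F H : ℕ → ℝ)
    (hF : ∀ p ∈ S, 0 < F p) (hH : ∀ p ∈ S, 0 < H p) (κ C : ℝ) (hκ : 0 ≤ κ) (hC : 0 ≤ C)
    (m : ℝ) (hm : 2 * κ + 8 ≤ m)
    (hG : ∀ p ∈ S, ∀ q ∈ S, ‖inner ℂ (v p) (v q)‖ ≤
      C * (dd Q p * Real.sqrt (dd Q p)) * (1 + DD Q p q) ^ (-m))
    (hlog : ∀ p ∈ S, ∀ q ∈ S, |Real.log (F p / H p) - Real.log (F q / H q)| ≤
      κ * (|Real.log (((p : ℝ) + 1) / ((q : ℝ) + 1))| +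
        |Real.log (((Q : ℝ) - p + 1) / ((Q : ℝ) - q + 1))|)) :
    -(21 * κ ^ 2 * C * ∑ p ∈ S, dd Q p * (F p * H p)) ≤
      (inner ℂ (∑ p ∈ S, ((F p : ℝ) : ℂ) • v p) (∑ q ∈ S, ((H q : ℝ) : ℂ) • v q)).re := by
  have h := gram_sym S v F H (fun p => 21 * κ ^ 2 * C * dd Q p) hF hH (by
    intro p hp
    have hpQ := hS p hp
    have hd1 := one_le_dd hpQ
    have hbound : ∀ q ∈ S,
        (Real.cosh ((Real.log (F p / H p) - Real.log (F q / H q)) / 2) - 1) *
          ‖inner ℂ (v p) (v q)‖ ≤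
        κ ^ 2 / 2 * C * Real.sqrt (dd Q p) * ((1 + DD Q p q) ^ 4)⁻¹ := by
      intro q hq
      have hqQ := hS q hq
      have hD0 := DD_nonneg Q p q
      have h1 := cosh_bound (κ := κ) (δ := (Real.log (F p / H p) - Real.log (F q / H q)) / 2)
        hpQ hqQ hκ (by
          rw [abs_div, abs_two]
          have := hlog p hp q hq
          linarith)
      have h2 := hG p hp q hq
      have hc0 : 0 ≤ Real.cosh ((Real.log (F p / H p) - Real.log (F q / H q)) / 2) - 1 := by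
        linarith [Real.one_le_cosh ((Real.log (F p / H p) - Real.log (F q / H q)) / 2)]
      calc _ ≤ (κ ^ 2 / 2 * (1 + DD Q p q) ^ (2 * κ + 4) / dd Q p) *
            (C * (dd Q p * Real.sqrt (dd Q p)) * (1 + DD Q p q) ^ (-m)) := by
            exact mul_le_mul h1 h2 (norm_nonneg _) (by positivity)
        _ = κ ^ 2 / 2 * C * Real.sqrt (dd Q p) *
            ((1 + DD Q p q) ^ (2 * κ + 4) * (1 + DD Q p q) ^ (-m)) := by
            field_simp
        _ ≤ κ ^ 2 / 2 * C * Real.sqrt (dd Q p) * ((1 + DD Q p q) ^ 4)⁻¹ := by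
            gcongr
            rw [← Real.rpow_add (by linarith)]
            have : ((1 + DD Q p q) ^ 4)⁻¹ = (1 + DD Q p q) ^ (-(4 : ℝ)) := by
              rw [Real.rpow_neg (by linarith)]
              congr 1
              exact_mod_cast (Real.rpow_natCast (1 + DD Q p q) 4).symm
            rw [this]
            apply Real.rpow_le_rpow_of_exponent_le (by linarith)
            linarith
    calc _ ≤ ∑ q ∈ S, κ ^ 2 / 2 * C * Real.sqrt (dd Q p) * ((1 + DD Q p q) ^ 4)⁻¹ :=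
          sum_le_sum hbound
      _ = κ ^ 2 / 2 * C * Real.sqrt (dd Q p) * ∑ q ∈ S, ((1 + DD Q p q) ^ 4)⁻¹ := by
          rw [mul_sum]
      _ ≤ κ ^ 2 / 2 * C * Real.sqrt (dd Q p) * (41 * Real.sqrt (dd Q p)) := by
          gcongr
          exact count_DD hpQ S hS
      _ = 41 / 2 * κ ^ 2 * C * (Real.sqrt (dd Q p)) ^ 2 := by ring
      _ ≤ 21 * κ ^ 2 * C * dd Q p := by
          rw [Real.sq_sqrt (by linarith)]
          have : 0 ≤ κ ^ 2 * C * dd Q p := by positivity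
          nlinarith)
  refine le_trans (le_of_eq ?_) h
  rw [mul_sum]
  congr 1
  refine sum_congr rfl fun p _ => ?_
  ring


/-! ## 4. absolute bound of the cross term -/

theorem sqrt_south_le_mul {Q p q : ℕ} (hp : p ≤ Q) :
    Real.sqrt ((Q : ℝ) - q + 1) ≤ Real.sqrt ((Q : ℝ) - p + 1) * (1 + DD Q p q) := by
  have hpQ : (p : ℝ) ≤ Q := by exact_mod_cast hp
  have h1 : 1 ≤ Real.sqrt ((Q : ℝ) - p + 1) := Real.one_le_sqrt.2 (by linarith)
  have h2 : Real.sqrt ((Q : ℝ) - q + 1) ≤ Real.sqrt ((Q : ℝ) - p + 1) + DD Q p q := by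
    unfold DD
    have h3 := neg_abs_le (Real.sqrt ((Q : ℝ) - p + 1) - Real.sqrt ((Q : ℝ) - q + 1))
    have h4 := abs_nonneg (Real.sqrt ((p : ℝ) + 1) - Real.sqrt ((q : ℝ) + 1))
    linarith
  have h5 := DD_nonneg Q p q
  nlinarith

/-- weight of ring `p` for a strain `(Q-p+1)^{-2}` at the south pole. -/
noncomputable def om (Q p : ℕ) : ℝ := (dd Q p / ((Q : ℝ) - p + 1)) ^ 2

theorem om_nonneg (Q p : ℕ) : 0 ≤ om Q p := sq_nonneg _

/-- **absolute bound**: `|⟪∑ F_p v_p, ∑ H_q v_q⟫| ≤ 41 A C ∑_q |H_q| om Q q` if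
`|F_p| ≤ A (Q-p+1)^{-2}`. -/
theorem cross_abs {Q : ℕ} (S T : Finset ℕ) (hS : ∀ p ∈ S, p ≤ Q) (hT : ∀ p ∈ T, p ≤ Q)
    (v : ℕ → E) (F H : ℕ → ℝ) (A C : ℝ) (hA : 0 ≤ A) (hC : 0 ≤ C)
    (m : ℝ) (hm : 8 ≤ m)
    (hG : ∀ p ∈ S, ∀ q ∈ T, ‖inner ℂ (v p) (v q)‖ ≤
      C * (dd Q q * Real.sqrt (dd Q q)) * (1 + DD Q p q) ^ (-m))
    (hF : ∀ p ∈ S, |F p| ≤ A / ((Q : ℝ) - p + 1) ^ 2) :
    ‖inner ℂ (∑ p ∈ S, ((F p : ℝ) : ℂ) • v p) (∑ q ∈ T, ((H q : ℝ) : ℂ) • v q)‖ ≤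
      41 * A * C * ∑ q ∈ T, |H q| * om Q q := by
  have key : ∀ q ∈ T, ∑ p ∈ S, |F p| * ‖inner ℂ (v p) (v q)‖ ≤ 41 * A * C * om Q q := by
    intro q hq
    have hqQ := hT q hq
    have hd := one_le_dd hqQ
    have hqR : (q : ℝ) ≤ Q := by exact_mod_cast hqQ
    have hpos : 0 < (Q : ℝ) - q + 1 := by linarith
    have hb : ∀ p ∈ S, |F p| * ‖inner ℂ (v p) (v q)‖ ≤
        A * C / ((Q : ℝ) - q + 1) ^ 2 * (dd Q q * Real.sqrt (dd Q q)) *
          ((1 + DD Q q p) ^ 4)⁻¹ := by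
      intro p hp
      have hpQ := hS p hp
      have hpR : (p : ℝ) ≤ Q := by exact_mod_cast hpQ
      have hpos' : 0 < (Q : ℝ) - p + 1 := by linarith
      have hD0 := DD_nonneg Q p q
      have h1 := hF p hp
      have h2 := hG p hp q hq
      have h3 : 1 / ((Q : ℝ) - p + 1) ^ 2 ≤ (1 + DD Q p q) ^ 4 / ((Q : ℝ) - q + 1) ^ 2 := by
        rw [div_le_div_iff₀ (by positivity) (by positivity), one_mul]
        have h4 := sqrt_south_le_mul (q := q) hpQ
        have h5 : (Real.sqrt ((Q : ℝ) - q + 1)) ^ 4 ≤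
            (Real.sqrt ((Q : ℝ) - p + 1) * (1 + DD Q p q)) ^ 4 :=
          pow_le_pow_left₀ (Real.sqrt_nonneg _) h4 4
        have h6 : (Real.sqrt ((Q : ℝ) - q + 1)) ^ 4 = ((Q : ℝ) - q + 1) ^ 2 := by
          rw [show 4 = 2 * 2 by norm_num, pow_mul, Real.sq_sqrt hpos.le]
        have h7 : (Real.sqrt ((Q : ℝ) - p + 1)) ^ 4 = ((Q : ℝ) - p + 1) ^ 2 := by
          rw [show 4 = 2 * 2 by norm_num, pow_mul, Real.sq_sqrt hpos'.le]
        rw [mul_pow, h6, h7] at h5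
        linarith
      have h8 : (1 + DD Q p q) ^ (4 : ℕ) * (1 + DD Q p q) ^ (-m) ≤ ((1 + DD Q q p) ^ 4)⁻¹ := by
        rw [DD_symm Q q p]
        have e1 : (1 + DD Q p q) ^ (4 : ℕ) = (1 + DD Q p q) ^ (4 : ℝ) := by
          exact_mod_cast (Real.rpow_natCast (1 + DD Q p q) 4).symm
        rw [e1, ← Real.rpow_neg (by linarith), ← Real.rpow_add (by linarith)]
        apply Real.rpow_le_rpow_of_exponent_le (by linarith)
        linarith
      calc |F p| * ‖inner ℂ (v p) (v q)‖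
          ≤ (A / ((Q : ℝ) - p + 1) ^ 2) *
            (C * (dd Q q * Real.sqrt (dd Q q)) * (1 + DD Q p q) ^ (-m)) :=
            mul_le_mul h1 h2 (norm_nonneg _) (by positivity)
        _ = A * C * (dd Q q * Real.sqrt (dd Q q)) *
            ((1 / ((Q : ℝ) - p + 1) ^ 2) * (1 + DD Q p q) ^ (-m)) := by ring
        _ ≤ A * C * (dd Q q * Real.sqrt (dd Q q)) *
            (((1 + DD Q p q) ^ 4 / ((Q : ℝ) - q + 1) ^ 2) * (1 + DD Q p q) ^ (-m)) := by
            gcongr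
        _ = A * C / ((Q : ℝ) - q + 1) ^ 2 * (dd Q q * Real.sqrt (dd Q q)) *
            ((1 + DD Q p q) ^ (4 : ℕ) * (1 + DD Q p q) ^ (-m)) := by ring
        _ ≤ _ := by gcongr
    calc ∑ p ∈ S, |F p| * ‖inner ℂ (v p) (v q)‖
        ≤ ∑ p ∈ S, A * C / ((Q : ℝ) - q + 1) ^ 2 * (dd Q q * Real.sqrt (dd Q q)) *
          ((1 + DD Q q p) ^ 4)⁻¹ := sum_le_sum hb
      _ = A * C / ((Q : ℝ) - q + 1) ^ 2 * (dd Q q * Real.sqrt (dd Q q)) *
          ∑ p ∈ S, ((1 + DD Q q p) ^ 4)⁻¹ := by rw [mul_sum]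
      _ ≤ A * C / ((Q : ℝ) - q + 1) ^ 2 * (dd Q q * Real.sqrt (dd Q q)) *
          (41 * Real.sqrt (dd Q q)) := by
          gcongr
          exact count_DD hqQ S hS
      _ = 41 * A * C * om Q q := by
          unfold om
          rw [div_pow]
          have : Real.sqrt (dd Q q) * Real.sqrt (dd Q q) = dd Q q :=
            Real.mul_self_sqrt (by linarith)
          calc _ = 41 * A * C * (dd Q q * (Real.sqrt (dd Q q) * Real.sqrt (dd Q q)) /
                ((Q : ℝ) - q + 1) ^ 2) := by ring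
            _ = _ := by rw [this]; ring
  calc ‖inner ℂ (∑ p ∈ S, ((F p : ℝ) : ℂ) • v p) (∑ q ∈ T, ((H q : ℝ) : ℂ) • v q)‖
      ≤ ∑ q ∈ T, ∑ p ∈ S, |F p| * |H q| * ‖inner ℂ (v p) (v q)‖ := by
        rw [inner_sum]
        refine (norm_sum_le _ _).trans (sum_le_sum fun q _ => ?_)
        rw [sum_inner]
        refine (norm_sum_le _ _).trans (sum_le_sum fun p _ => ?_)
        rw [inner_smul_left, inner_smul_right, norm_mul, norm_mul, Complex.conj_ofReal,
          Complex.norm_real, Complex.norm_real, Real.norm_eq_abs, Real.norm_eq_abs, mul_assoc]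
    _ = ∑ q ∈ T, |H q| * ∑ p ∈ S, |F p| * ‖inner ℂ (v p) (v q)‖ := by
        refine sum_congr rfl fun q _ => ?_
        rw [mul_sum]
        refine sum_congr rfl fun p _ => ?_
        ring
    _ ≤ ∑ q ∈ T, |H q| * (41 * A * C * om Q q) :=
        sum_le_sum fun q hq => mul_le_mul_of_nonneg_left (key q hq) (abs_nonneg _)
    _ = 41 * A * C * ∑ q ∈ T, |H q| * om Q q := by
        rw [mul_sum]
        refine sum_congr rfl fun q _ => ?_
        ring

/-- `om Q q ≤ min 1 ((q+1)/(Q-q+1))^2`. -/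
theorem om_le_one {Q q : ℕ} (hq : q ≤ Q) : om Q q ≤ 1 := by
  have hqR : (q : ℝ) ≤ Q := by exact_mod_cast hq
  have hd := one_le_dd hq
  unfold om
  have h1 : dd Q q / ((Q : ℝ) - q + 1) ≤ 1 := by
    rw [div_le_one (by linarith)]; exact min_le_right _ _
  have h0 : 0 ≤ dd Q q / ((Q : ℝ) - q + 1) := div_nonneg (by linarith) (by linarith)
  nlinarith

theorem om_le_sq {Q q : ℕ} (hq : q ≤ Q) : om Q q ≤ (((q : ℝ) + 1) / ((Q : ℝ) - q + 1)) ^ 2 := by
  have hqR : (q : ℝ) ≤ Q := by exact_mod_cast hq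
  have hd := one_le_dd hq
  unfold om
  have h1 : dd Q q ≤ (q : ℝ) + 1 := min_le_left _ _
  have : 0 < (Q : ℝ) - q + 1 := by linarith
  gcongr

end Crest.Agent.R340.PSD716
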