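import Mathlib
import Crest.Agent.R340.Scal_725
import Crest.Agent.R340.PSD_716

/-!
# R340 / S0532: the one-hole sector, radial part (PLAN-S6, helper716)

`H n k f = 3 (cs f (3n+1) - e n k f)`, `e n k f` = expectation of `dG f` in the one-hole zero mode
with `n+1` particles on flux `3n+1`, `k` of them inside the hole ring (`0 ≤ k ≤ n+1`).
From the peel/path steps at `s` and (by reflection) at `x`, with *absolute* error bounds, and the
dominance bound we get `H n k (prof a R) ≥ (1 - C a) prof a R (3k)`.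
-/

set_option autoImplicit false

namespace Crest.Agent.R340.K1rad716

open Finset Crest.Agent.R340.Scal725 Crest.Agent.R340.Dom735
open Crest.Agent.R340.PSD716 (om)

/-! ## elementary -/

/-- `om Q p ≤ 4 (p+1)^2/(Q+2)^2`. -/
theorem om_le {Q p : ℕ} (hp : p ≤ Q) : om Q p ≤ 4 * ((p : ℝ) + 1) ^ 2 / ((Q : ℝ) + 2) ^ 2 := by
  have hpQ : (p : ℝ) ≤ Q := by exact_mod_cast hp
  have h0 : (0 : ℝ) ≤ p := Nat.cast_nonneg p
  have hy : 0 < (Q : ℝ) - p + 1 := by linarith
  have hd := PSD716.one_le_dd hp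
  unfold om
  have key : PSD716.dd Q p / ((Q : ℝ) - p + 1) ≤ 2 * ((p : ℝ) + 1) / ((Q : ℝ) + 2) := by
    rw [div_le_div_iff₀ hy (by positivity)]
    unfold PSD716.dd
    rcases le_total ((p : ℝ) + 1) ((Q : ℝ) - p + 1) with h | h
    · rw [min_eq_left h]; nlinarith
    · rw [min_eq_right h]; nlinarith
  have h1 : 0 ≤ PSD716.dd Q p / ((Q : ℝ) - p + 1) := div_nonneg (by linarith) hy.le
  calc (PSD716.dd Q p / ((Q : ℝ) - p + 1)) ^ 2 ≤ (2 * ((p : ℝ) + 1) / ((Q : ℝ) + 2)) ^ 2 := by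
        gcongr
    _ = 4 * ((p : ℝ) + 1) ^ 2 / ((Q : ℝ) + 2) ^ 2 := by rw [div_pow]; ring

theorem dd_add (f g : ℕ → ℝ) (j : ℕ) : dd (fun i => f i + g i) j = dd f j + dd g j := by
  unfold dd; ring

/-- scalar of the step at `x`: `g` flat on `0,1,2`. -/
theorem cs_north (g : ℕ → ℝ) (h1 : g 1 = g 0) (h2 : g 2 = g 0) (hg : ∀ j, g j ≤ g 0) (Q : ℕ) :
    0 ≤ 3 * (cs g (Q + 3) - g 0 - cs (fun j => g (j + 3)) Q) := by
  unfold cs
  have hs : ∑ j ∈ range (Q + 3 + 1), g j = ∑ j ∈ range (Q + 1), g (j + 3) + 3 * g 0 := by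
    rw [sum_range_succ', sum_range_succ', sum_range_succ']
    simp only [Nat.zero_add]
    rw [h1, h2]
    ring
  rw [hs]
  have hb : ∑ j ∈ range (Q + 1), g (j + 3) ≤ (Q + 1) * g 0 := by
    calc ∑ j ∈ range (Q + 1), g (j + 3) ≤ ∑ _j ∈ range (Q + 1), g 0 :=
          sum_le_sum fun j _ => hg _
      _ = (Q + 1) * g 0 := by rw [sum_const, card_range, nsmul_eq_mul]; push_cast; ring
  have e : 3 * (w (Q + 3) * (∑ j ∈ range (Q + 1), g (j + 3) + 3 * g 0) - g 0 -
      w Q * ∑ j ∈ range (Q + 1), g (j + 3)) =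
      6 / (((Q : ℝ) + 1) * (Q + 4)) * ((Q + 1) * g 0 - ∑ j ∈ range (Q + 1), g (j + 3)) := by
    unfold w
    push_cast
    field_simp
    ring
  rw [e]
  apply mul_nonneg (by positivity)
  linarith

/-- scalar of the last step at `x`. -/
theorem cs_north_one (g : ℕ → ℝ) (hg : ∀ j, g j ≤ g 0) (Q : ℕ) :
    g 0 ≤ 3 * (cs g (Q + 1) - cs (fun j => g (j + 1)) Q) := by
  unfold cs
  have hs : ∑ j ∈ range (Q + 1 + 1), g j = ∑ j ∈ range (Q + 1), g (j + 1) + g 0 := by
    rw [sum_range_succ']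
  rw [hs]
  have hb : ∑ j ∈ range (Q + 1), g (j + 1) ≤ (Q + 1) * g 0 := by
    calc ∑ j ∈ range (Q + 1), g (j + 1) ≤ ∑ _j ∈ range (Q + 1), g 0 :=
          sum_le_sum fun j _ => hg _
      _ = (Q + 1) * g 0 := by rw [sum_const, card_range, nsmul_eq_mul]; push_cast; ring
  have e : 3 * (w (Q + 1) * (∑ j ∈ range (Q + 1), g (j + 1) + g 0) -
      w Q * ∑ j ∈ range (Q + 1), g (j + 1)) =
      g 0 + 2 / (((Q : ℝ) + 1) * (Q + 2)) * ((Q + 1) * g 0 - ∑ j ∈ range (Q + 1), g (j + 1)) := by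
    unfold w
    push_cast
    field_simp
    ring
  rw [e]
  have : 0 ≤ 2 / (((Q : ℝ) + 1) * (Q + 2)) * ((Q + 1) * g 0 - ∑ j ∈ range (Q + 1), g (j + 1)) :=
    mul_nonneg (by positivity) (by linarith)
  linarith

/-! ## profiles -/

section prof

variable {a R : ℝ}

/-- `∑_{j<Q} (j+2)^2 f''_j ≤ 2 a Q f_Q` (for `a ≤ 1/4`). -/
theorem sum_sq_dd_prof (hR : 1 ≤ R) (ha0 : 0 < a) (ha : a ≤ 1 / 4) (Q : ℕ) :
    ∑ j ∈ range Q, ((j : ℝ) + 2) ^ 2 * |dd (prof a R) j| ≤ 2 * a * Q * prof a R Q := by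
  have hR0 : 0 ≤ R := by linarith
  have haR : a < R + 1 := by linarith
  have h1 : ∀ j : ℕ, ((j : ℝ) + 2) ^ 2 * |dd (prof a R) j| ≤ a * (1 + a) * prof a R j := by
    intro j
    rw [abs_of_nonneg (dd_prof_nonneg hR0 ha0.le haR j), dd_prof hR0, mul_div_assoc',
      div_le_iff₀ (by positivity)]
    have hp := prof_pos hR0 haR j
    have h2 : ((j : ℝ) + 2) ^ 2 ≤ (R + j + 1) * (R + j + 2) := by
      have : (0 : ℝ) ≤ j := Nat.cast_nonneg j
      nlinarith
    have h3 : 0 ≤ a * (1 + a) * prof a R j := by positivity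
    nlinarith
  have h2 : ∑ j ∈ range Q, ((j : ℝ) + 2) ^ 2 * |dd (prof a R) j| ≤
      a * (1 + a) * ∑ j ∈ range Q, prof a R j := by
    rw [mul_sum]; exact sum_le_sum fun j _ => h1 j
  have h3 := sum_prof (a := a) hR0 Q
  have hp := prof_pos hR0 haR Q
  have h4 : prof a R Q ≤ 1 := prof_le_one hR0 ha0.le haR Q
  have h5 : (1 - a) * ∑ j ∈ range Q, prof a R j ≤ Q * prof a R Q := by
    rw [h3]; nlinarith
  have h6 : ∑ j ∈ range Q, prof a R j ≤ 4 / 3 * (Q * prof a R Q) := by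
    have : 0 ≤ ∑ j ∈ range Q, prof a R j := sum_nonneg fun j _ => (prof_pos hR0 haR j).le
    nlinarith
  have h7 : a * (1 + a) ≤ 5 / 4 * a := by nlinarith
  have h8 : 0 ≤ (Q : ℝ) * prof a R Q := by positivity
  have h9 : 0 ≤ ∑ j ∈ range Q, prof a R j := sum_nonneg fun j _ => (prof_pos hR0 haR j).le
  calc _ ≤ a * (1 + a) * ∑ j ∈ range Q, prof a R j := h2
    _ ≤ 5 / 4 * a * (4 / 3 * (Q * prof a R Q)) := by gcongr
    _ ≤ 2 * a * Q * prof a R Q := by nlinarith

/-- difference of the profile. -/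
theorem prof_sub_succ_le (hR : 1 ≤ R) (ha0 : 0 < a) (ha : a ≤ 1 / 4) (M : ℕ) :
    ((M : ℝ) + 1) * (prof a R M - prof a R (M + 1)) ≤ a * prof a R M := by
  have hR0 : 0 ≤ R := by linarith
  have haR : a < R + 1 := by linarith
  have h := prof_diff (a := a) (R := R) M
  have hp := prof_pos hR0 haR M
  rw [h, mul_div_assoc', div_le_iff₀ (by positivity)]
  have : 0 ≤ a * prof a R M := by positivity
  nlinarith

/-- the inner part of the profile: `f_j - f_{max j M}`. -/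
noncomputable def inn (a R : ℝ) (M : ℕ) (j : ℕ) : ℝ := prof a R j - prof a R (max j M)

/-- the (shifted) outer part. -/
noncomputable def out (a R : ℝ) (M s : ℕ) (j : ℕ) : ℝ := prof a R (max (j + s) M)

theorem inn_add_out (M j : ℕ) : inn a R M j + out a R M 0 j = prof a R j := by
  unfold inn out; simp

theorem inn_of_le {M j : ℕ} (h : M ≤ j) : inn a R M j = 0 := by
  unfold inn; rw [max_eq_left h]; ring

theorem inn_of_le' {M j : ℕ} (h : j ≤ M) : inn a R M j = prof a R j - prof a R M := by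
  unfold inn; rw [max_eq_right h]

theorem inn_nonneg (hR : 0 ≤ R) (ha0 : 0 ≤ a) (ha : a < R + 1) (M j : ℕ) : 0 ≤ inn a R M j :=
  sub_nonneg.2 (prof_antitone hR ha0 ha (le_max_left _ _))

theorem inn_antitone (hR : 0 ≤ R) (ha0 : 0 ≤ a) (ha : a < R + 1) (M : ℕ) :
    Antitone (inn a R M) := by
  intro i j hij
  rcases le_total M j with h | h
  · rw [inn_of_le h]; exact inn_nonneg hR ha0 ha M i
  · rw [inn_of_le' h, inn_of_le' (hij.trans h)]
    have := prof_antitone hR ha0 ha hij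
    linarith

theorem inn_cvx (hR : 0 ≤ R) (ha0 : 0 ≤ a) (ha : a < R + 1) (M : ℕ) : Cvx (inn a R M) := by
  intro j
  rcases Nat.lt_or_ge (j + 1) M with h | h
  · rw [inn_of_le' (by omega : j + 2 ≤ M), inn_of_le' (by omega : j + 1 ≤ M),
      inn_of_le' (by omega : j ≤ M)]
    have := prof_cvx hR ha0 ha j
    linarith
  · rw [inn_of_le (by omega : M ≤ j + 2), inn_of_le (by omega : M ≤ j + 1)]
    have := inn_nonneg hR ha0 ha M j
    linarith

theorem sum_inn_le (hR : 1 ≤ R) (ha0 : 0 < a) (ha : a ≤ 1 / 4) (M N : ℕ) :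
    ∑ j ∈ range N, inn a R M j ≤ 4 / 3 * a * M * prof a R M := by
  have hR0 : 0 ≤ R := by linarith
  have haR : a < R + 1 := by linarith
  have h1 : ∑ j ∈ range N, inn a R M j ≤ ∑ j ∈ range M, inn a R M j := by
    calc ∑ j ∈ range N, inn a R M j ≤ ∑ j ∈ range (N + M), inn a R M j := by
          apply sum_le_sum_of_subset_of_nonneg
          · exact range_subset_range.2 (by omega)
          · intro j _ _; exact inn_nonneg hR0 ha0.le haR M j
      _ = ∑ j ∈ range (M + N), inn a R M j := by rw [add_comm]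
      _ = ∑ j ∈ range M, inn a R M j := by
          rw [sum_range_add]
          have : ∑ j ∈ range N, inn a R M (M + j) = 0 :=
            sum_eq_zero fun j _ => inn_of_le (by omega)
          rw [this, add_zero]
  have h2 : ∑ j ∈ range M, inn a R M j = ∑ j ∈ range M, (prof a R j - prof a R M) :=
    sum_congr rfl fun j hj => inn_of_le' (mem_range.1 hj).le
  have h3 := sum_prof_sub_le (a := a) (by linarith : 0 < R) ha0.le (by linarith) M
  have hp := prof_pos hR0 haR M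
  have h4 : (M : ℝ) ^ 2 * prof a R M / (M + R) ≤ M * prof a R M := by
    rw [div_le_iff₀ (by positivity)]
    have : 0 ≤ (M : ℝ) * prof a R M := by positivity
    nlinarith
  have h5 : a / (1 - a) ≤ 4 / 3 * a := by
    rw [div_le_iff₀ (by linarith)]; nlinarith
  have h6 : 0 ≤ a / (1 - a) := div_nonneg ha0.le (by linarith)
  calc ∑ j ∈ range N, inn a R M j ≤ ∑ j ∈ range M, (prof a R j - prof a R M) := by
        rw [← h2]; exact h1
    _ ≤ a / (1 - a) * (M ^ 2 * prof a R M / (M + R)) := h3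
    _ ≤ 4 / 3 * a * (M * prof a R M) := by gcongr
    _ = _ := by ring

theorem dd_inn_of_lt {M j : ℕ} (h : j + 2 ≤ M) : dd (inn a R M) j = dd (prof a R) j := by
  unfold dd
  rw [inn_of_le' (by omega : j + 2 ≤ M), inn_of_le' (by omega : j + 1 ≤ M),
      inn_of_le' (by omega : j ≤ M)]
  ring

theorem sum_sq_dd_inn (hR : 1 ≤ R) (ha0 : 0 < a) (ha : a ≤ 1 / 4) (M N : ℕ) :
    ∑ j ∈ range N, ((j : ℝ) + 2) ^ 2 * |dd (inn a R (M + 1)) j| ≤
      12 * a * (M + 1) * prof a R (M + 1) := by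
  have hR0 : 0 ≤ R := by linarith
  have haR : a < R + 1 := by linarith
  set φ : ℕ → ℝ := fun j => ((j : ℝ) + 2) ^ 2 * |dd (inn a R (M + 1)) j| with hφ
  have hφ0 : ∀ j, 0 ≤ φ j := fun j => by rw [hφ]; positivity
  have h1 : ∑ j ∈ range N, φ j ≤ ∑ j ∈ range (M + 1 + N), φ j := by
    apply sum_le_sum_of_subset_of_nonneg
    · exact range_subset_range.2 (by omega)
    · intro j _ _; exact hφ0 j
  have h2 : ∑ j ∈ range (M + 1 + N), φ j = ∑ j ∈ range (M + 1), φ j := by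
    rw [sum_range_add]
    have : ∑ j ∈ range N, φ (M + 1 + j) = 0 := by
      apply sum_eq_zero
      intro j _
      rw [hφ]
      simp only
      have : dd (inn a R (M + 1)) (M + 1 + j) = 0 := by
        unfold dd
        rw [inn_of_le (by omega), inn_of_le (by omega), inn_of_le (by omega)]; ring
      rw [this]; simp
    rw [this, add_zero]
  have h3 : ∑ j ∈ range (M + 1), φ j = ∑ j ∈ range M, φ j + φ M := sum_range_succ _ _
  have h4 : ∑ j ∈ range M, φ j ≤ 2 * a * M * prof a R M := by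
    refine le_trans (sum_le_sum fun j hj => ?_) (sum_sq_dd_prof hR ha0 ha M)
    rw [hφ]
    simp only
    have hj' : j < M := mem_range.1 hj
    rw [dd_inn_of_lt (by omega : j + 2 ≤ M + 1)]
  have hd := prof_sub_succ_le hR ha0 ha M
  have hp := prof_pos hR0 haR M
  have hp1 := prof_pos hR0 haR (M + 1)
  have hmul : prof a R M ≤ 4 / 3 * prof a R (M + 1) := by
    rw [prof_succ]
    have : a / (R + M + 1) ≤ 1 / 4 := by
      rw [div_le_iff₀ (by positivity)]
      have : (0 : ℝ) ≤ M := Nat.cast_nonneg M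
      nlinarith
    nlinarith
  have h5 : φ M ≤ 4 * (M + 1) * (a * prof a R M) := by
    rw [hφ]
    simp only
    have e : dd (inn a R (M + 1)) M = prof a R M - prof a R (M + 1) := by
      unfold dd
      rw [inn_of_le (by omega : M + 1 ≤ M + 2), inn_of_le (le_refl (M + 1)),
        inn_of_le' (by omega : M ≤ M + 1)]
      ring
    have hnn : 0 ≤ prof a R M - prof a R (M + 1) :=
      sub_nonneg.2 (prof_antitone hR0 ha0.le haR (Nat.le_succ M))
    rw [e, abs_of_nonneg hnn]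
    have h6 : ((M : ℝ) + 2) ^ 2 ≤ 4 * (M + 1) * (M + 1) := by nlinarith [(Nat.cast_nonneg M : (0:ℝ) ≤ M)]
    calc ((M : ℝ) + 2) ^ 2 * (prof a R M - prof a R (M + 1))
        ≤ 4 * (M + 1) * (M + 1) * (prof a R M - prof a R (M + 1)) := by gcongr
      _ = 4 * (M + 1) * (((M : ℝ) + 1) * (prof a R M - prof a R (M + 1))) := by ring
      _ ≤ 4 * (M + 1) * (a * prof a R M) := by gcongr
  have hM0 : (0 : ℝ) ≤ M := Nat.cast_nonneg M
  calc ∑ j ∈ range N, φ j ≤ ∑ j ∈ range M, φ j + φ M := by rw [← h3, ← h2]; exact h1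
    _ ≤ 2 * a * M * prof a R M + 4 * (M + 1) * (a * prof a R M) := add_le_add h4 h5
    _ ≤ 6 * a * (M + 1) * prof a R M := by nlinarith [mul_pos ha0 hp]
    _ ≤ 6 * a * (M + 1) * (4 / 3 * prof a R (M + 1)) := by gcongr
    _ ≤ 12 * a * (M + 1) * prof a R (M + 1) := by
        have : 0 ≤ a * (M + 1) * prof a R (M + 1) := by positivity
        nlinarith

/-! the outer part -/

theorem out_shift (M s j : ℕ) : out a R M s (j + 3) = out a R M (s + 3) j := by
  unfold out; congr 2; omega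

theorem out_shift_one (M s j : ℕ) : out a R M s (j + 1) = out a R M (s + 1) j := by
  unfold out; congr 2; omega

theorem out_of_le {M s j : ℕ} (h : j + s ≤ M) : out a R M s j = prof a R M := by
  unfold out; rw [max_eq_right h]

theorem out_le (hR : 0 ≤ R) (ha0 : 0 ≤ a) (ha : a < R + 1) (M s j : ℕ) :
    out a R M s j ≤ prof a R M :=
  prof_antitone hR ha0 ha (le_max_right _ _)

theorem sum_dd_out (hR : 0 ≤ R) (ha0 : 0 ≤ a) (ha : a < R + 1) (M s L : ℕ) :
    (L + s < M → ∑ j ∈ range L, |dd (out a R M s) j| = 0) ∧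
    (M ≤ L + s → s ≤ M → ∑ j ∈ range L, |dd (out a R M s) j| ≤
      2 * (prof a R M - prof a R (M + 1)) - (prof a R (L + s) - prof a R (L + s + 1))) := by
  have hcv := prof_cvx hR ha0 ha
  have hanti := prof_antitone hR ha0 ha
  induction L with
  | zero =>
    refine ⟨fun _ => by simp, fun h1 h2 => ?_⟩
    have : s = M := by omega
    subst this
    simp
    have := hanti (Nat.le_succ s)
    simp at this
    linarith
  | succ L ih =>
    obtain ⟨ih1, ih2⟩ := ih
    refine ⟨fun h => ?_, fun h1 h2 => ?_⟩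
    · rw [sum_range_succ, ih1 (by omega)]
      have : dd (out a R M s) L = 0 := by
        unfold dd
        rw [out_of_le (by omega), out_of_le (by omega), out_of_le (by omega)]; ring
      rw [this]; simp
    · rw [sum_range_succ]
      rcases Nat.lt_or_ge (L + s) M with h | h
      · -- L + 1 + s = M
        have hM : M = L + 1 + s := by omega
        rw [ih1 h]
        have e : dd (out a R M s) L = -(prof a R M - prof a R (M + 1)) := by
          unfold dd
          rw [out_of_le (by omega : L + s ≤ M), out_of_le (by omega : L + 1 + s ≤ M)]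
          have : out a R M s (L + 2) = prof a R (M + 1) := by
            unfold out; congr 1; omega
          rw [this]; ring
        have hnn : 0 ≤ prof a R M - prof a R (M + 1) := sub_nonneg.2 (hanti (Nat.le_succ M))
        rw [e, abs_neg, abs_of_nonneg hnn, ← hM]
        linarith
      · have h3 := ih2 h h2
        have e : dd (out a R M s) L = (prof a R (L + s) - prof a R (L + s + 1)) -
            (prof a R (L + 1 + s) - prof a R (L + 1 + s + 1)) := by
          unfold dd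
          have e0 : out a R M s L = prof a R (L + s) := by unfold out; rw [max_eq_left h]
          have e1 : out a R M s (L + 1) = prof a R (L + s + 1) := by
            unfold out; congr 1; omega
          have e2 : out a R M s (L + 2) = prof a R (L + s + 2) := by
            unfold out; congr 1; omega
          have e3 : L + 1 + s = L + s + 1 := by omega
          have e4 : L + 1 + s + 1 = L + s + 2 := by omega
          rw [e0, e1, e2, e3]
          ring
        have hnn : 0 ≤ (prof a R (L + s) - prof a R (L + s + 1)) -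
            (prof a R (L + 1 + s) - prof a R (L + 1 + s + 1)) := by
          have := hcv (L + s)
          have e3 : L + 1 + s = L + s + 1 := by omega
          rw [e3]
          linarith
        rw [e, abs_of_nonneg hnn]
        linarith

theorem sum_dd_out_le (hR : 0 ≤ R) (ha0 : 0 ≤ a) (ha : a < R + 1) (M s L : ℕ) (hs : s ≤ M) :
    ∑ j ∈ range L, |dd (out a R M s) j| ≤ 2 * (prof a R M - prof a R (M + 1)) := by
  have hanti := prof_antitone hR ha0 ha
  have hnn : 0 ≤ prof a R M - prof a R (M + 1) := sub_nonneg.2 (hanti (Nat.le_succ M))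
  rcases Nat.lt_or_ge (L + s) M with h | h
  · rw [(sum_dd_out hR ha0 ha M s L).1 h]; linarith
  · have h1 := (sum_dd_out hR ha0 ha M s L).2 h hs
    have h2 : 0 ≤ prof a R (L + s) - prof a R (L + s + 1) := sub_nonneg.2 (hanti (Nat.le_succ _))
    linarith

end prof


/-! ## the recursion data -/

/-- `e n k f` = expectation of `dG f` in the one-hole zero mode with `n+1` particles on flux `3n+1`,
`k ≤ n+1` of them inside the hole ring. -/
structure Data (e : ℕ → ℕ → (ℕ → ℝ) → ℝ) (C1 : ℝ) (n0 : ℕ) : Prop where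
  add : ∀ n k f g, e n k (fun j => f j + g j) = e n k f + e n k g
  As : ∀ n, n0 ≤ n → ∀ k ≤ n + 1, ∀ f : ℕ → ℝ, |e (n + 1) k f - f (3 * n + 4) - e n k f| ≤
    C1 * ∑ j ∈ range (3 * n + 3), |dd f j| * om (3 * n + 4) (j + 1)
  Bs : ∀ n, n0 ≤ n → ∀ f : ℕ → ℝ, |e n (n + 1) f - cs f (3 * n)| ≤
    C1 * ∑ j ∈ range (3 * n), |dd f j| * om (3 * n + 1) (j + 1)
  Ax : ∀ n, n0 ≤ n → ∀ k ≤ n + 1, ∀ f : ℕ → ℝ,
    |e (n + 1) (k + 1) f - f 0 - e n k (fun j => f (j + 3))| ≤
    C1 * ∑ j ∈ range (3 * n + 3), |dd f j|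
  Bx : ∀ n, n0 ≤ n → ∀ f : ℕ → ℝ, |e n 0 f - cs (fun j => f (j + 1)) (3 * n)| ≤
    C1 * ∑ j ∈ range (3 * n), |dd f j|
  Dm : ∀ n, ∀ k ≤ n + 1, ∀ f : ℕ → ℝ, Cvx f → Antitone f →
    f (3 * n + 1) - 2 * (f 0 - f (3 * n + 1)) ≤ 3 * (cs f (3 * n + 1) - e n k f)

/-- the same with the reflection instead of the statements at `x`. -/
structure DataR (e : ℕ → ℕ → (ℕ → ℝ) → ℝ) (C1 : ℝ) (n0 : ℕ) : Prop where
  add : ∀ n k f g, e n k (fun j => f j + g j) = e n k f + e n k g
  congr : ∀ n k f g, (∀ j ≤ 3 * n + 1, f j = g j) → e n k f = e n k g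
  As : ∀ n, n0 ≤ n → ∀ k ≤ n + 1, ∀ f : ℕ → ℝ, |e (n + 1) k f - f (3 * n + 4) - e n k f| ≤
    C1 * ∑ j ∈ range (3 * n + 3), |dd f j| * om (3 * n + 4) (j + 1)
  Bs : ∀ n, n0 ≤ n → ∀ f : ℕ → ℝ, |e n (n + 1) f - cs f (3 * n)| ≤
    C1 * ∑ j ∈ range (3 * n), |dd f j| * om (3 * n + 1) (j + 1)
  R : ∀ n, ∀ k ≤ n + 1, ∀ f : ℕ → ℝ, e n k f = e n (n + 1 - k) (fun j => f (3 * n + 1 - j))
  Dm : ∀ n, ∀ k ≤ n + 1, ∀ f : ℕ → ℝ, Cvx f → Antitone f →
    f (3 * n + 1) - 2 * (f 0 - f (3 * n + 1)) ≤ 3 * (cs f (3 * n + 1) - e n k f)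

/-- `H n k f = 3 (cs f (3n+1) - e n k f)`. -/
noncomputable def H (e : ℕ → ℕ → (ℕ → ℝ) → ℝ) (n k : ℕ) (f : ℕ → ℝ) : ℝ :=
  3 * (cs f (3 * n + 1) - e n k f)

variable {e : ℕ → ℕ → (ℕ → ℝ) → ℝ} {C1 : ℝ} {n0 : ℕ}

theorem dd_reflect (f : ℕ → ℝ) (N j : ℕ) (hj : j + 2 ≤ N) :
    dd (fun i => f (N - i)) j = dd f (N - 2 - j) := by
  unfold dd
  have e1 : N - 2 - j + 1 = N - (j + 1) := by omega
  have e2 : N - 2 - j + 2 = N - j := by omega
  have e3 : N - 2 - j = N - (j + 2) := by omega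
  simp only [e1, e2]
  rw [e3]
  ring

theorem DataR.toData (h : DataR e C1 n0) (hC1 : 0 ≤ C1) : Data e C1 n0 where
  add := h.add
  As := h.As
  Bs := h.Bs
  Dm := h.Dm
  Ax := by
    intro n hn k hk f
    rw [h.R (n + 1) (k + 1) (by omega) f]
    have h1 := h.As n hn (n + 1 - k) (by omega) (fun j => f (3 * (n + 1) + 1 - j))
    have e0 : n + 1 + 1 - (k + 1) = n + 1 - k := by omega
    rw [e0]
    have e1 : 3 * (n + 1) + 1 - (3 * n + 4) = 0 := by omega
    simp only [e1] at h1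
    have e2 : e n (n + 1 - k) (fun j => f (3 * (n + 1) + 1 - j)) = e n k (fun j => f (j + 3)) := by
      rw [h.R n k hk (fun j => f (j + 3))]
      apply h.congr
      intro j hj
      have : 3 * (n + 1) + 1 - j = 3 * n + 1 - j + 3 := by omega
      simp only [this]
    rw [e2] at h1
    refine h1.trans ?_
    apply mul_le_mul_of_nonneg_left _ hC1
    calc ∑ j ∈ range (3 * n + 3), |dd (fun j => f (3 * (n + 1) + 1 - j)) j| * om (3 * n + 4) (j + 1)
        ≤ ∑ j ∈ range (3 * n + 3), |dd f (3 * n + 3 - 1 - j)| := by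
          apply sum_le_sum
          intro j hj
          have hj' := mem_range.1 hj
          have h2 := PSD716.om_le_one (Q := 3 * n + 4) (q := j + 1) (by omega)
          rw [dd_reflect f (3 * (n + 1) + 1) j (by omega)]
          have e3 : 3 * (n + 1) + 1 - 2 - j = 3 * n + 3 - 1 - j := by omega
          rw [e3]
          have := abs_nonneg (dd f (3 * n + 3 - 1 - j))
          have h3 := PSD716.om_nonneg (3 * n + 4) (j + 1)
          nlinarith
      _ = ∑ j ∈ range (3 * n + 3), |dd f j| := sum_range_reflect (fun j => |dd f j|) (3 * n + 3)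
  Bx := by
    intro n hn f
    rw [h.R n 0 (by omega) f]
    have h1 := h.Bs n hn (fun j => f (3 * n + 1 - j))
    rw [Nat.sub_zero]
    have e2 : cs (fun j => f (3 * n + 1 - j)) (3 * n) = cs (fun j => f (j + 1)) (3 * n) := by
      unfold cs
      congr 1
      rw [← sum_range_reflect]
      apply sum_congr rfl
      intro j hj
      have hj' := mem_range.1 hj
      congr 1
      omega
    rw [e2] at h1
    refine h1.trans ?_
    apply mul_le_mul_of_nonneg_left _ hC1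
    rcases Nat.eq_zero_or_pos n with h0 | h0
    · subst h0; simp
    calc ∑ j ∈ range (3 * n), |dd (fun j => f (3 * n + 1 - j)) j| * om (3 * n + 1) (j + 1)
        ≤ ∑ j ∈ range (3 * n), |dd f (3 * n - 1 - j)| := by
          apply sum_le_sum
          intro j hj
          have hj' := mem_range.1 hj
          have h2 := PSD716.om_le_one (Q := 3 * n + 1) (q := j + 1) (by omega)
          rw [dd_reflect f (3 * n + 1) j (by omega)]
          have e3 : 3 * n + 1 - 2 - j = 3 * n - 1 - j := by omega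
          rw [e3]
          have := abs_nonneg (dd f (3 * n - 1 - j))
          have h3 := PSD716.om_nonneg (3 * n + 1) (j + 1)
          nlinarith
      _ = ∑ j ∈ range (3 * n), |dd f j| := sum_range_reflect (fun j => |dd f j|) (3 * n)

theorem H_add (h : Data e C1 n0) (n k : ℕ) (f g : ℕ → ℝ) :
    H e n k (fun j => f j + g j) = H e n k f + H e n k g := by
  unfold H
  rw [h.add, cs_add]; ring

/-- error of a step at `s` in terms of the moments `(j+2)^2 |f''_j|`. -/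
theorem sum_om_le (f : ℕ → ℝ) (Q N : ℕ) (hN : N ≤ Q) :
    ∑ j ∈ range N, |dd f j| * om (Q + 1) (j + 1) ≤
      4 / ((Q : ℝ) + 3) ^ 2 * ∑ j ∈ range N, ((j : ℝ) + 2) ^ 2 * |dd f j| := by
  rw [mul_sum]
  apply sum_le_sum
  intro j hj
  have hj' := mem_range.1 hj
  have h1 := om_le (Q := Q + 1) (p := j + 1) (by omega)
  push_cast at h1
  have e1 : (j : ℝ) + 1 + 1 = j + 2 := by ring
  have e2 : (Q : ℝ) + 1 + 2 = Q + 3 := by ring
  rw [e1, e2] at h1
  calc |dd f j| * om (Q + 1) (j + 1) ≤ |dd f j| * (4 * ((j : ℝ) + 2) ^ 2 / ((Q : ℝ) + 3) ^ 2) := by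
        gcongr
    _ = _ := by ring

theorem stepS (h : Data e C1 n0) (hC1 : 0 ≤ C1) {n k : ℕ} (hn : n0 ≤ n) (hk : k ≤ n + 1)
    (f : ℕ → ℝ) :
    H e n k f + 3 * (cs f (3 * n + 4) - f (3 * n + 4) - cs f (3 * n + 1)) -
      12 * C1 / (3 * (n : ℝ) + 6) ^ 2 * ∑ j ∈ range (3 * n + 3), ((j : ℝ) + 2) ^ 2 * |dd f j| ≤
      H e (n + 1) k f := by
  have h1 := h.As n hn k hk f
  have h2 := sum_om_le f (3 * n + 3) (3 * n + 3) le_rfl
  have h3 := (abs_le.1 h1).2
  have h4 := mul_le_mul_of_nonneg_left h2 hC1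
  push_cast at h4
  have e2 : (3 * (n : ℝ) + 3 + 3) = 3 * n + 6 := by ring
  rw [e2] at h4
  unfold H
  have e3 : 3 * (n + 1) + 1 = 3 * n + 4 := by ring
  rw [e3]
  have e4 : 12 * C1 / (3 * (n : ℝ) + 6) ^ 2 * ∑ j ∈ range (3 * n + 3), ((j : ℝ) + 2) ^ 2 * |dd f j| =
    3 * (C1 * (4 / (3 * (n : ℝ) + 6) ^ 2 *
      ∑ j ∈ range (3 * n + 3), ((j : ℝ) + 2) ^ 2 * |dd f j|)) := by ring
  rw [e4]
  linarith

theorem bottomS (h : Data e C1 n0) (hC1 : 0 ≤ C1) {n : ℕ} (hn : n0 ≤ n) (f : ℕ → ℝ) :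
    3 * (cs f (3 * n + 1) - cs f (3 * n)) -
      12 * C1 / (3 * (n : ℝ) + 3) ^ 2 * ∑ j ∈ range (3 * n), ((j : ℝ) + 2) ^ 2 * |dd f j| ≤
      H e n (n + 1) f := by
  have h1 := h.Bs n hn f
  have h2 := sum_om_le f (3 * n) (3 * n) le_rfl
  have h3 := (abs_le.1 h1).2
  have h4 := mul_le_mul_of_nonneg_left h2 hC1
  push_cast at h4
  unfold H
  have e4 : 12 * C1 / (3 * (n : ℝ) + 3) ^ 2 * ∑ j ∈ range (3 * n), ((j : ℝ) + 2) ^ 2 * |dd f j| =
    3 * (C1 * (4 / (3 * (n : ℝ) + 3) ^ 2 *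
      ∑ j ∈ range (3 * n), ((j : ℝ) + 2) ^ 2 * |dd f j|)) := by ring
  rw [e4]
  linarith

section main

variable {a R : ℝ}

/-- outer part: peeling at `x`. -/
theorem outer_step (h : Data e C1 n0) (hC1 : 0 ≤ C1) (hR : 1 ≤ R) (ha0 : 0 < a) (ha : a ≤ 1 / 4)
    (M n' k' : ℕ) (hn : n0 ≤ n') (hk : k' ≤ n' + 1) (i : ℕ) :
    ∀ s, s + 3 * i ≤ M →
    H e n' k' (out a R M (s + 3 * i)) - 6 * C1 * i * (prof a R M - prof a R (M + 1)) ≤
      H e (n' + i) (k' + i) (out a R M s) := by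
  have hR0 : 0 ≤ R := by linarith
  have haR : a < R + 1 := by linarith
  induction i with
  | zero => intro s _; simp
  | succ i ih =>
    intro s hs
    have h1 := ih (s + 3) (by omega)
    have e1 : s + 3 + 3 * i = s + 3 * (i + 1) := by ring
    rw [e1] at h1
    have h2 := h.Ax (n' + i) (by omega) (k' + i) (by omega) (out a R M s)
    have e2 : (fun j => out a R M s (j + 3)) = out a R M (s + 3) := by
      funext j; exact out_shift M s j
    have h3 := (abs_le.1 h2).2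
    rw [e2] at h3
    have h4 := sum_dd_out_le (a := a) hR0 ha0.le haR M s (3 * (n' + i) + 3) (by omega)
    have h5 := cs_north (out a R M s)
      (by rw [out_of_le (by omega), out_of_le (by omega)])
      (by rw [out_of_le (by omega), out_of_le (by omega)])
      (by
        intro j
        rw [out_of_le (by omega : 0 + s ≤ M)]
        exact out_le hR0 ha0.le haR M s j) (3 * (n' + i) + 1)
    rw [e2] at h5
    have h6 := mul_le_mul_of_nonneg_left h4 hC1
    unfold H at h1 ⊢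
    have e3 : 3 * (n' + (i + 1)) + 1 = 3 * (n' + i) + 1 + 3 := by ring
    have e4 : n' + (i + 1) = n' + i + 1 := by ring
    have e5 : k' + (i + 1) = k' + i + 1 := by ring
    rw [e3, e4, e5]
    push_cast
    nlinarith

theorem outer (h : Data e C1 n0) (hC1 : 0 ≤ C1) (hR : 1 ≤ R) (ha0 : 0 < a) (ha : a ≤ 1 / 4)
    (M n' k : ℕ) (hn : n0 ≤ n') (hk : 3 * k ≤ M) :
    (1 - 6 * C1 * a) * prof a R M ≤ H e (n' + k) k (out a R M 0) := by
  have hR0 : 0 ≤ R := by linarith
  have haR : a < R + 1 := by linarith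
  have h1 := outer_step h hC1 hR ha0 ha M n' 0 hn (by omega) k 0 (by omega)
  have h2 := h.Bx n' hn (out a R M (0 + 3 * k))
  have e2 : (fun j => out a R M (0 + 3 * k) (j + 1)) = out a R M (0 + 3 * k + 1) := by
    funext j; exact out_shift_one M _ j
  have h3 := (abs_le.1 h2).2
  have h4 := sum_dd_out_le (a := a) hR0 ha0.le haR M (0 + 3 * k) (3 * n') (by omega)
  have h5 := cs_north_one (out a R M (0 + 3 * k)) (by
        intro j
        rw [out_of_le (by omega : 0 + (0 + 3 * k) ≤ M)]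
        exact out_le hR0 ha0.le haR M _ j) (3 * n')
  rw [out_of_le (by omega : 0 + (0 + 3 * k) ≤ M)] at h5
  have h6 := mul_le_mul_of_nonneg_left h4 hC1
  have h7 : prof a R M - 6 * C1 * (prof a R M - prof a R (M + 1)) ≤
      H e n' 0 (out a R M (0 + 3 * k)) := by
    unfold H
    linarith
  have h8 := prof_sub_succ_le hR ha0 ha M
  have hanti := prof_antitone hR0 ha0.le haR
  have hnn : 0 ≤ prof a R M - prof a R (M + 1) := sub_nonneg.2 (hanti (Nat.le_succ M))
  have hkM : (k : ℝ) ≤ M := by exact_mod_cast (by omega : k ≤ M)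
  have h9 : ((k : ℝ) + 1) * (prof a R M - prof a R (M + 1)) ≤ a * prof a R M := by
    refine le_trans ?_ h8
    gcongr
  have h10 := mul_le_mul_of_nonneg_left h9 (by positivity : 0 ≤ 6 * C1)
  simp only [Nat.zero_add] at h1 h7 ⊢
  linarith

theorem cs_inn_step (hR : 1 ≤ R) (ha0 : 0 < a) (ha : a ≤ 1 / 4) (M Q : ℕ) (hM : M ≤ Q + 3) :
    -(8 * a * M * prof a R M / (((Q : ℝ) + 4) * (Q + 1))) ≤
      3 * (cs (inn a R M) (Q + 3) - inn a R M (Q + 3) - cs (inn a R M) Q) := by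
  have hR0 : 0 ≤ R := by linarith
  have haR : a < R + 1 := by linarith
  rw [cs_step, inn_of_le hM]
  have h1 := sum_inn_le hR ha0 ha M (Q + 1)
  have h2 := inn_nonneg hR0 ha0.le haR M (Q + 1)
  have h3 := inn_nonneg hR0 ha0.le haR M (Q + 2)
  have h4 := w_pos (Q + 3)
  simp only [sub_zero]
  have h5 : 0 ≤ w (Q + 3) * (inn a R M (Q + 1) + inn a R M (Q + 2)) := by positivity
  have h6 : 3 * (2 / (((Q : ℝ) + 4) * (Q + 1)) * ∑ j ∈ range (Q + 1), inn a R M j) ≤
      8 * a * M * prof a R M / (((Q : ℝ) + 4) * (Q + 1)) := by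
    calc 3 * (2 / (((Q : ℝ) + 4) * (Q + 1)) * ∑ j ∈ range (Q + 1), inn a R M j)
        ≤ 3 * (2 / (((Q : ℝ) + 4) * (Q + 1)) * (4 / 3 * a * M * prof a R M)) := by gcongr
      _ = _ := by ring
  linarith

/-- inner part: peeling at `s` down to the level `n1`, `M = 3 n1 + 3`. -/
theorem inner_step (h : Data e C1 n0) (hC1 : 0 ≤ C1) (hR : 1 ≤ R) (ha0 : 0 < a) (ha : a ≤ 1 / 4)
    (n1 k : ℕ) (hn : n0 ≤ n1) (hk : k ≤ n1 + 1) (i : ℕ) :
    H e n1 k (inn a R (3 * n1 + 3)) -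
      8 / 3 * a * (3 * (n1 : ℝ) + 3) * prof a R (3 * n1 + 3) *
        (1 / (3 * (n1 : ℝ) + 2) - 1 / (3 * ((n1 : ℝ) + i) + 2)) -
      48 * C1 * a * (3 * (n1 : ℝ) + 3) * prof a R (3 * n1 + 3) *
        (1 / (3 * (n1 : ℝ) + 3) - 1 / (3 * ((n1 : ℝ) + i) + 3)) ≤
      H e (n1 + i) k (inn a R (3 * n1 + 3)) := by
  have hR0 : 0 ≤ R := by linarith
  have haR : a < R + 1 := by linarith
  have hp := prof_pos hR0 haR (3 * n1 + 3)
  induction i with
  | zero => simp
  | succ i ih =>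
    have h1 := stepS h hC1 (n := n1 + i) (k := k) (by omega) (by omega) (inn a R (3 * n1 + 3))
    have h2 := cs_inn_step hR ha0 ha (3 * n1 + 3) (3 * (n1 + i) + 1) (by omega)
    have h3 := sum_sq_dd_inn hR ha0 ha (3 * n1 + 2) (3 * (n1 + i) + 3)
    have e1 : 3 * (n1 + i) + 1 + 3 = 3 * (n1 + i) + 4 := by ring
    have e2 : 3 * n1 + 2 + 1 = 3 * n1 + 3 := by ring
    rw [e1] at h2
    rw [e2] at h3
    push_cast at h1 h2 h3 ⊢
    set P := prof a R (3 * n1 + 3) with hP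
    set x : ℝ := (n1 : ℝ) + i with hx
    have hx0 : 0 ≤ x := by positivity
    have e3 : 3 * x + 1 + 4 = 3 * x + 5 := by ring
    have e4 : 3 * x + 1 + 1 = 3 * x + 2 := by ring
    rw [e3, e4] at h2
    have h4 : 8 * a * (3 * (n1 : ℝ) + 3) * P / ((3 * x + 5) * (3 * x + 2)) =
        8 / 3 * a * (3 * (n1 : ℝ) + 3) * P * (1 / (3 * x + 2) - 1 / (3 * (x + 1) + 2)) := by
      have : 3 * (x + 1) + 2 = 3 * x + 5 := by ring
      rw [this]
      field_simp
      ring
    have h5 : 12 * C1 / (3 * x + 6) ^ 2 *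
        ∑ j ∈ range (3 * (n1 + i) + 3), ((j : ℝ) + 2) ^ 2 * |dd (inn a R (3 * n1 + 3)) j| ≤
        48 * C1 * a * (3 * (n1 : ℝ) + 3) * P * (1 / (3 * x + 3) - 1 / (3 * (x + 1) + 3)) := by
      have e5 : 3 * (n1 : ℝ) + 2 + 1 = 3 * n1 + 3 := by ring
      rw [e5] at h3
      calc 12 * C1 / (3 * x + 6) ^ 2 *
        ∑ j ∈ range (3 * (n1 + i) + 3), ((j : ℝ) + 2) ^ 2 * |dd (inn a R (3 * n1 + 3)) j|
          ≤ 12 * C1 / (3 * x + 6) ^ 2 * (12 * a * (3 * (n1 : ℝ) + 3) * P) := by gcongr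
        _ = 48 * C1 * a * (3 * (n1 : ℝ) + 3) * P * (3 / (3 * x + 6) ^ 2) := by ring
        _ ≤ 48 * C1 * a * (3 * (n1 : ℝ) + 3) * P * (1 / (3 * x + 3) - 1 / (3 * (x + 1) + 3)) := by
            gcongr
            have : 1 / (3 * x + 3) - 1 / (3 * (x + 1) + 3) = 3 / ((3 * x + 3) * (3 * x + 6)) := by
              have : 3 * (x + 1) + 3 = 3 * x + 6 := by ring
              rw [this]
              field_simp
              ring
            rw [this, sq]
            gcongr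
            linarith
    have e6 : n1 + (i + 1) = n1 + i + 1 := by ring
    rw [e6]
    have e7 : (n1 : ℝ) + (i + 1) = x + 1 := by rw [hx]; ring
    rw [e7]
    have h6 : 48 * C1 * a * (3 * (n1 : ℝ) + 3) * P * (1 / (3 * (n1 : ℝ) + 3) - 1 / (3 * (x + 1) + 3))
        = 48 * C1 * a * (3 * (n1 : ℝ) + 3) * P * (1 / (3 * (n1 : ℝ) + 3) - 1 / (3 * x + 3)) +
          48 * C1 * a * (3 * (n1 : ℝ) + 3) * P * (1 / (3 * x + 3) - 1 / (3 * (x + 1) + 3)) := by
      ring
    have h7 : 8 / 3 * a * (3 * (n1 : ℝ) + 3) * P * (1 / (3 * (n1 : ℝ) + 2) - 1 / (3 * (x + 1) + 2))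
        = 8 / 3 * a * (3 * (n1 : ℝ) + 3) * P * (1 / (3 * (n1 : ℝ) + 2) - 1 / (3 * x + 2)) +
          8 / 3 * a * (3 * (n1 : ℝ) + 3) * P * (1 / (3 * x + 2) - 1 / (3 * (x + 1) + 2)) := by
      ring
    rw [h6, h7]
    linarith

theorem inner (h : Data e C1 n0) (hC1 : 0 ≤ C1) (hR : 1 ≤ R) (ha0 : 0 < a) (ha : a ≤ 1 / 4)
    (n1 k : ℕ) (hn : n0 ≤ n1) (hk : k ≤ n1 + 1) (i : ℕ) :
    H e n1 k (inn a R (3 * n1 + 3)) - (4 + 48 * C1) * a * prof a R (3 * n1 + 3) ≤
      H e (n1 + i) k (inn a R (3 * n1 + 3)) := by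
  have hR0 : 0 ≤ R := by linarith
  have haR : a < R + 1 := by linarith
  have hp := prof_pos hR0 haR (3 * n1 + 3)
  refine le_trans ?_ (inner_step h hC1 hR ha0 ha n1 k hn hk i)
  set P := prof a R (3 * n1 + 3) with hP
  have h1 : 8 / 3 * a * (3 * (n1 : ℝ) + 3) * P *
      (1 / (3 * (n1 : ℝ) + 2) - 1 / (3 * ((n1 : ℝ) + i) + 2)) ≤ 4 * a * P := by
    have h2 : 1 / (3 * (n1 : ℝ) + 2) - 1 / (3 * ((n1 : ℝ) + i) + 2) ≤ 1 / (3 * (n1 : ℝ) + 2) := by
      have : 0 ≤ 1 / (3 * ((n1 : ℝ) + i) + 2) := by positivity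
      linarith
    calc _ ≤ 8 / 3 * a * (3 * (n1 : ℝ) + 3) * P * (1 / (3 * (n1 : ℝ) + 2)) := by gcongr
      _ = 8 / 3 * a * P * ((3 * (n1 : ℝ) + 3) / (3 * (n1 : ℝ) + 2)) := by ring
      _ ≤ 8 / 3 * a * P * (3 / 2) := by
          have h0 : (0 : ℝ) ≤ n1 := Nat.cast_nonneg _
          have h5 : (3 * (n1 : ℝ) + 3) / (3 * (n1 : ℝ) + 2) ≤ 3 / 2 := by
            rw [div_le_iff₀ (by positivity)]
            linarith
          exact mul_le_mul_of_nonneg_left h5 (by positivity)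
      _ = 4 * a * P := by ring
  have h3 : 48 * C1 * a * (3 * (n1 : ℝ) + 3) * P *
        (1 / (3 * (n1 : ℝ) + 3) - 1 / (3 * ((n1 : ℝ) + i) + 3)) ≤ 48 * C1 * a * P := by
    have h2 : 1 / (3 * (n1 : ℝ) + 3) - 1 / (3 * ((n1 : ℝ) + i) + 3) ≤ 1 / (3 * (n1 : ℝ) + 3) := by
      have : 0 ≤ 1 / (3 * ((n1 : ℝ) + i) + 3) := by positivity
      linarith
    calc _ ≤ 48 * C1 * a * (3 * (n1 : ℝ) + 3) * P * (1 / (3 * (n1 : ℝ) + 3)) := by gcongr
      _ = 48 * C1 * a * P := by field_simp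
  linarith

/-- one step at `s` for the full profile costs `O(a) f_M / M`. -/
theorem full_step (h : Data e C1 n0) (hC1 : 0 ≤ C1) (hR : 1 ≤ R) (ha0 : 0 < a) (ha : a ≤ 1 / 4)
    (n1 k : ℕ) (hn : n0 ≤ n1) (hk : k ≤ n1 + 1) (i : ℕ) :
    H e n1 k (prof a R) - i * ((16 + 24 * C1) * a * prof a R (3 * n1 + 3) / (3 * (n1 : ℝ) + 3)) ≤
      H e (n1 + i) k (prof a R) := by
  have hR0 : 0 ≤ R := by linarith
  have haR : a < R + 1 := by linarith
  have hanti := prof_antitone hR0 ha0.le haR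
  induction i with
  | zero => simp
  | succ i ih =>
    have h1 := stepS h hC1 (n := n1 + i) (k := k) (by omega) (by omega) (prof a R)
    have h2 := A_step_weak (a := a) (by linarith : 0 < R) ha0.le (by linarith) (3 * (n1 + i) + 1)
    have h3 := sum_sq_dd_prof hR ha0 ha (3 * (n1 + i) + 3)
    have e1 : 3 * (n1 + i) + 1 + 3 = 3 * (n1 + i) + 4 := by ring
    rw [e1] at h2
    have e6 : n1 + (i + 1) = n1 + i + 1 := by ring
    rw [e6]
    have hp4 := prof_pos hR0 haR (3 * (n1 + i) + 4)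
    have hp3 := prof_pos hR0 haR (3 * (n1 + i) + 3)
    have hpM := prof_pos hR0 haR (3 * n1 + 3)
    have m4 : prof a R (3 * (n1 + i) + 4) ≤ prof a R (3 * n1 + 3) := hanti (by omega)
    have m3 : prof a R (3 * (n1 + i) + 3) ≤ prof a R (3 * n1 + 3) := hanti (by omega)
    push_cast at h1 h2 h3 ⊢
    set P := prof a R (3 * n1 + 3) with hP
    set x : ℝ := (n1 : ℝ) + i with hx
    have hx0 : (n1 : ℝ) ≤ x := by rw [hx]; linarith [(Nat.cast_nonneg i : (0:ℝ) ≤ i)]
    have hn0 : (0 : ℝ) ≤ n1 := Nat.cast_nonneg _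
    have hx00 : 0 ≤ x := hn0.trans hx0
    -- first cost
    have c1 : a * prof a R (3 * (n1 + i) + 4) / (3 * x + 1 + 3 + R) *
        (6 / (1 - a) * ((3 * x + 1 + 3) ^ 2 / ((3 * x + 1 + 4) * (3 * x + 1 + 1))) - 3) ≤
        16 * a * P / (3 * (n1 : ℝ) + 3) := by
      have d1 : 6 / (1 - a) ≤ 8 := by rw [div_le_iff₀ (by linarith)]; linarith
      have d2 : (3 * x + 1 + 3) ^ 2 / ((3 * x + 1 + 4) * (3 * x + 1 + 1)) ≤ 2 := by
        rw [div_le_iff₀ (by positivity)]; nlinarith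
      have d0 : 0 ≤ (3 * x + 1 + 3) ^ 2 / ((3 * x + 1 + 4) * (3 * x + 1 + 1)) := by positivity
      have d3 : 6 / (1 - a) * ((3 * x + 1 + 3) ^ 2 / ((3 * x + 1 + 4) * (3 * x + 1 + 1))) - 3 ≤
          16 := by nlinarith
      calc _ ≤ a * prof a R (3 * (n1 + i) + 4) / (3 * x + 1 + 3 + R) * 16 := by gcongr
        _ ≤ a * P / (3 * (n1 : ℝ) + 3) * 16 := by
            have d4 : 3 * (n1 : ℝ) + 3 ≤ 3 * x + 1 + 3 + R := by linarith
            have d5 : a * prof a R (3 * (n1 + i) + 4) ≤ a * P := by gcongr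
            have d6 : a * prof a R (3 * (n1 + i) + 4) / (3 * x + 1 + 3 + R) ≤
                a * P / (3 * (n1 : ℝ) + 3) :=
              div_le_div₀ (by positivity) d5 (by positivity) d4
            exact mul_le_mul_of_nonneg_right d6 (by norm_num)
        _ = _ := by ring
    have c2 : 12 * C1 / (3 * x + 6) ^ 2 *
        ∑ j ∈ range (3 * (n1 + i) + 3), ((j : ℝ) + 2) ^ 2 * |dd (prof a R) j| ≤
        24 * C1 * a * P / (3 * (n1 : ℝ) + 3) := by
      calc 12 * C1 / (3 * x + 6) ^ 2 *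
        ∑ j ∈ range (3 * (n1 + i) + 3), ((j : ℝ) + 2) ^ 2 * |dd (prof a R) j|
          ≤ 12 * C1 / (3 * x + 6) ^ 2 * (2 * a * (3 * x + 3) * prof a R (3 * (n1 + i) + 3)) := by
            gcongr
        _ ≤ 12 * C1 / (3 * x + 6) ^ 2 * (2 * a * (3 * x + 6) * P) := by
            gcongr
            linarith
        _ = 24 * C1 * a * P / (3 * x + 6) := by
            field_simp
            ring
        _ ≤ 24 * C1 * a * P / (3 * (n1 : ℝ) + 3) := by
            gcongr
            linarith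
    have e8 : ((i : ℝ) + 1) * ((16 + 24 * C1) * a * P / (3 * (n1 : ℝ) + 3)) =
        i * ((16 + 24 * C1) * a * P / (3 * (n1 : ℝ) + 3)) +
        (16 * a * P / (3 * (n1 : ℝ) + 3) + 24 * C1 * a * P / (3 * (n1 : ℝ) + 3)) := by ring
    rw [e8]
    linarith

theorem prof_le_four_thirds (hR : 1 ≤ R) (ha0 : 0 < a) (ha : a ≤ 1 / 4) (M : ℕ) :
    prof a R M ≤ 4 / 3 * prof a R (M + 1) := by
  have hR0 : 0 ≤ R := by linarith
  have haR : a < R + 1 := by linarith
  have hp := prof_pos hR0 haR M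
  rw [prof_succ]
  have : a / (R + M + 1) ≤ 1 / 4 := by
    rw [div_le_iff₀ (by positivity)]
    have : (0 : ℝ) ≤ M := Nat.cast_nonneg M
    nlinarith
  nlinarith

/-- bottom: the hole at `s` (`k = n1 + 1`). -/
theorem bottom_inn (h : Data e C1 n0) (hC1 : 0 ≤ C1) (hR : 1 ≤ R) (ha0 : 0 < a) (ha : a ≤ 1 / 4)
    (n1 : ℕ) (hn : n0 ≤ n1) (hn1 : 1 ≤ n1) :
    -((4 + 48 * C1) * a * prof a R (3 * n1 + 3)) ≤ H e n1 (n1 + 1) (inn a R (3 * n1 + 3)) := by
  have hR0 : 0 ≤ R := by linarith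
  have haR : a < R + 1 := by linarith
  have h1 := bottomS h hC1 hn (inn a R (3 * n1 + 3))
  have h3 := sum_sq_dd_inn hR ha0 ha (3 * n1 + 2) (3 * n1)
  have e2 : 3 * n1 + 2 + 1 = 3 * n1 + 3 := by ring
  rw [e2] at h3
  have h4 := sum_inn_le hR ha0 ha (3 * n1 + 3) (3 * n1 + 1)
  have h5 := cs_step_one (inn a R (3 * n1 + 3)) (3 * n1)
  have h6 := inn_nonneg hR0 ha0.le haR (3 * n1 + 3) (3 * n1 + 1)
  have hp := prof_pos hR0 haR (3 * n1 + 3)
  push_cast at h1 h3 h4 h5
  set P := prof a R (3 * n1 + 3) with hP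
  have hn0 : (1 : ℝ) ≤ n1 := by exact_mod_cast hn1
  have h7 : 2 / ((3 * (n1 : ℝ) + 1) * (3 * n1 + 2)) *
      ∑ j ∈ range (3 * n1 + 1), (inn a R (3 * n1 + 3) j - inn a R (3 * n1 + 3) (3 * n1 + 1)) ≤
      4 * a * P := by
    have h8 : ∑ j ∈ range (3 * n1 + 1),
        (inn a R (3 * n1 + 3) j - inn a R (3 * n1 + 3) (3 * n1 + 1)) ≤
        4 / 3 * a * (3 * n1 + 3) * P := by
      refine le_trans (sum_le_sum fun j _ => ?_) h4
      linarith
    calc _ ≤ 2 / ((3 * (n1 : ℝ) + 1) * (3 * n1 + 2)) * (4 / 3 * a * (3 * n1 + 3) * P) := by gcongr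
      _ = 8 / 3 * a * P * ((3 * n1 + 3) / ((3 * (n1 : ℝ) + 1) * (3 * n1 + 2))) := by ring
      _ ≤ 8 / 3 * a * P * 1 := by
          gcongr
          rw [div_le_one (by positivity)]
          nlinarith
      _ ≤ 4 * a * P := by
          have : 0 ≤ a * P := by positivity
          linarith
  have h9 : 12 * C1 / (3 * (n1 : ℝ) + 3) ^ 2 *
      ∑ j ∈ range (3 * n1), ((j : ℝ) + 2) ^ 2 * |dd (inn a R (3 * n1 + 3)) j| ≤ 48 * C1 * a * P := by
    have e5 : 3 * (n1 : ℝ) + 2 + 1 = 3 * n1 + 3 := by ring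
    rw [e5] at h3
    calc _ ≤ 12 * C1 / (3 * (n1 : ℝ) + 3) ^ 2 * (12 * a * (3 * (n1 : ℝ) + 3) * P) := by gcongr
      _ = 144 * C1 * a * P / (3 * (n1 : ℝ) + 3) := by field_simp; ring
      _ ≤ 144 * C1 * a * P / 3 := by gcongr; linarith
      _ = 48 * C1 * a * P := by ring
  linarith

theorem bottom_prof (h : Data e C1 n0) (hC1 : 0 ≤ C1) (hR : 1 ≤ R) (ha0 : 0 < a) (ha : a ≤ 1 / 4)
    (n1 : ℕ) (hn : n0 ≤ n1) :
    (1 - (3 + 24 * C1) * a) * prof a R (3 * n1 + 3) ≤ H e n1 (n1 + 1) (prof a R) := by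
  have hR0 : 0 ≤ R := by linarith
  have haR : a < R + 1 := by linarith
  have hanti := prof_antitone hR0 ha0.le haR
  have h1 := bottomS h hC1 hn (prof a R)
  have h2 := B_step_weak (a := a) (by linarith : 0 < R) ha0.le (by linarith) (3 * n1)
  have h3 := sum_sq_dd_prof hR ha0 ha (3 * n1)
  have hp := prof_pos hR0 haR (3 * n1 + 3)
  have hp0 := prof_pos hR0 haR (3 * n1)
  have hp1 := prof_pos hR0 haR (3 * n1 + 1)
  have q0 := prof_le_four_thirds hR ha0 ha (3 * n1)
  have q1 := prof_le_four_thirds hR ha0 ha (3 * n1 + 1)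
  have q2 := prof_le_four_thirds hR ha0 ha (3 * n1 + 2)
  have m1 : prof a R (3 * n1 + 3) ≤ prof a R (3 * n1 + 1) := hanti (by omega)
  have e2 : 3 * n1 + 1 + 1 = 3 * n1 + 2 := rfl
  have e3 : 3 * n1 + 2 + 1 = 3 * n1 + 3 := rfl
  rw [e2] at q1
  rw [e3] at q2
  push_cast at h1 h2 h3
  have hn0 : (0 : ℝ) ≤ n1 := Nat.cast_nonneg _
  have c1 : (1 - 3 * a) * prof a R (3 * n1 + 3) ≤
      prof a R (3 * n1 + 1) * (1 - 2 * a / (1 - a) / (3 * n1 + 1 + R)) := by
    have d1 : 2 * a / (1 - a) / (3 * (n1 : ℝ) + 1 + R) ≤ 3 * a := by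
      rw [div_div, div_le_iff₀ (mul_pos (by linarith) (by positivity))]
      have h1b : 1 ≤ 3 * (n1 : ℝ) + 1 + R := by linarith
      have h1a : 3 / 4 ≤ 1 - a := by linarith
      have h1c : 3 / 4 ≤ (1 - a) * (3 * (n1 : ℝ) + 1 + R) := by
        calc (3 : ℝ) / 4 = 3 / 4 * 1 := by ring
          _ ≤ (1 - a) * (3 * (n1 : ℝ) + 1 + R) := mul_le_mul h1a h1b (by norm_num) (by linarith)
      calc 2 * a ≤ 3 * a * (3 / 4) := by linarith
        _ ≤ 3 * a * ((1 - a) * (3 * (n1 : ℝ) + 1 + R)) :=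
            mul_le_mul_of_nonneg_left h1c (by linarith)
    calc (1 - 3 * a) * prof a R (3 * n1 + 3) ≤ (1 - 3 * a) * prof a R (3 * n1 + 1) :=
          mul_le_mul_of_nonneg_left m1 (by linarith)
      _ ≤ (1 - 2 * a / (1 - a) / (3 * n1 + 1 + R)) * prof a R (3 * n1 + 1) := by
          gcongr
      _ = _ := mul_comm _ _
  have c2 : 12 * C1 / (3 * (n1 : ℝ) + 3) ^ 2 *
      ∑ j ∈ range (3 * n1), ((j : ℝ) + 2) ^ 2 * |dd (prof a R) j| ≤
      24 * C1 * a * prof a R (3 * n1 + 3) := by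
    calc _ ≤ 12 * C1 / (3 * (n1 : ℝ) + 3) ^ 2 * (2 * a * (3 * n1) * prof a R (3 * n1)) := by gcongr
      _ ≤ 12 * C1 / (3 * (n1 : ℝ) + 3) ^ 2 * (2 * a * (3 * n1 + 3) * (3 * prof a R (3 * n1 + 3))) := by
          gcongr
          · linarith
          · nlinarith
      _ = 72 * C1 * a * prof a R (3 * n1 + 3) / (3 * (n1 : ℝ) + 3) := by field_simp; ring
      _ ≤ 72 * C1 * a * prof a R (3 * n1 + 3) / 3 := by gcongr; linarith
      _ = _ := by ring
  have hH : H e n1 (n1 + 1) (prof a R) ≥ 3 * (cs (prof a R) (3 * n1 + 1) - cs (prof a R) (3 * n1)) -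
      24 * C1 * a * prof a R (3 * n1 + 3) := by linarith
  nlinarith

/-- combination of the inner and outer parts, and of the short recursion. -/
theorem combine (h : Data e C1 n0) (hC1 : 0 ≤ C1) (hR : 1 ≤ R) (ha0 : 0 < a) (ha : a ≤ 1 / 4)
    (n1 k : ℕ) (hn : n0 ≤ n1) (hk : k ≤ n1 + 1) {b : ℝ}
    (hbi : -(b * a * prof a R (3 * n1 + 3)) ≤ H e n1 k (inn a R (3 * n1 + 3)))
    (hbp : (1 - b * a) * prof a R (3 * n1 + 3) ≤ H e n1 k (prof a R))
    (n : ℕ) (hnn : n1 ≤ n) (hnk : n < k + n0 → n ≤ n1 + n1) :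
    (1 - (b + 16 + 54 * C1) * a) * prof a R (3 * n1 + 3) ≤ H e n k (prof a R) := by
  have hR0 : 0 ≤ R := by linarith
  have haR : a < R + 1 := by linarith
  have hp := prof_pos hR0 haR (3 * n1 + 3)
  rcases Nat.lt_or_ge n (k + n0) with hc | hc
  · -- short recursion
    obtain ⟨i, rfl⟩ := Nat.exists_eq_add_of_le hnn
    have h1 := full_step h hC1 hR ha0 ha n1 k hn hk i
    have h2 := hnk hc
    have hi : (i : ℝ) ≤ n1 := by exact_mod_cast (by omega : i ≤ n1)
    have hn0 : (0 : ℝ) ≤ n1 := Nat.cast_nonneg _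
    have h3 : (i : ℝ) * ((16 + 24 * C1) * a * prof a R (3 * n1 + 3) / (3 * (n1 : ℝ) + 3)) ≤
        (16 + 24 * C1) * a * prof a R (3 * n1 + 3) := by
      rw [mul_div_assoc', div_le_iff₀ (by positivity)]
      have : 0 ≤ (16 + 24 * C1) * a * prof a R (3 * n1 + 3) := by positivity
      nlinarith
    have h4 : 0 ≤ C1 * a * prof a R (3 * n1 + 3) := by positivity
    nlinarith
  · obtain ⟨n', rfl⟩ := Nat.exists_eq_add_of_le hc
    have h1 := outer h hC1 hR ha0 ha (3 * n1 + 3) (n0 + n') k (by omega) (by omega)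
    obtain ⟨i, hi⟩ := Nat.exists_eq_add_of_le hnn
    have h2 := inner h hC1 hR ha0 ha n1 k hn hk i
    rw [← hi] at h2
    have h3 := H_add h (k + n0 + n') k (inn a R (3 * n1 + 3)) (out a R (3 * n1 + 3) 0)
    have e1 : (fun j => inn a R (3 * n1 + 3) j + out a R (3 * n1 + 3) 0 j) = prof a R := by
      funext j; exact inn_add_out _ _
    rw [e1] at h3
    have e2 : n0 + n' + k = k + n0 + n' := by ring
    rw [e2] at h1
    rw [h3]
    have h4 : 0 ≤ C1 * a * prof a R (3 * n1 + 3) := by positivity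
    have h5 : 0 ≤ a * prof a R (3 * n1 + 3) := by positivity
    nlinarith

/-- **K1rad**: radial part of the one-hole sector. -/
theorem K1rad (h : Data e C1 n0) (hC1 : 0 ≤ C1) (ha0 : 0 < a) (ha : a ≤ 1 / 4)
    (hR : 3 * (n0 : ℝ) + 10 ≤ R) (n k : ℕ) (hk : k ≤ n + 1) :
    (1 - (90 + 102 * C1) * a) * prof a R (3 * k) ≤
      3 * (cs (prof a R) (3 * n + 1) - e n k (prof a R)) := by
  have hn00 : (0 : ℝ) ≤ n0 := Nat.cast_nonneg _
  have hR1 : 1 ≤ R := by linarith
  have hR0 : 0 ≤ R := by linarith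
  have haR : a < R + 1 := by linarith
  have hanti := prof_antitone hR0 ha0.le haR
  have hcv := prof_cvx hR0 ha0.le haR
  have hk0 := prof_pos hR0 haR (3 * k)
  have hk1 := prof_le_one hR0 ha0.le haR (3 * k)
  change _ ≤ H e n k (prof a R)
  -- the level N0
  obtain ⟨N0, hN1, hN2⟩ : ∃ N0 : ℕ, 3 * (N0 : ℝ) + 1 ≤ R ∧ R < 3 * (N0 : ℝ) + 4 := by
    refine ⟨⌊(R - 1) / 3⌋₊, ?_, ?_⟩
    · have := Nat.floor_le (show 0 ≤ (R - 1) / 3 by linarith)
      linarith
    · have := Nat.lt_floor_add_one ((R - 1) / 3)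
      linarith
  have hN0 : n0 + 2 ≤ N0 := by
    have : (n0 : ℝ) + 2 ≤ N0 := by linarith
    exact_mod_cast this
  -- dominance at levels `≤ N0`
  have hdom : ∀ m : ℕ, m ≤ N0 → k ≤ m + 1 → 1 - 3 * a ≤ H e m k (prof a R) := by
    intro m hm hkm
    have h1 := h.Dm m k hkm (prof a R) hcv hanti
    have h2 := one_sub_prof_le hR0 ha0.le haR (3 * m + 1)
    have h3 : a * ((3 * m + 1 : ℕ) : ℝ) / (R + 1) ≤ a := by
      rw [div_le_iff₀ (by linarith)]
      have : ((3 * m + 1 : ℕ) : ℝ) ≤ R + 1 := by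
        push_cast
        have : (m : ℝ) ≤ N0 := by exact_mod_cast hm
        linarith
      gcongr
    rw [prof_zero] at h1
    unfold H
    linarith
  rcases Nat.lt_or_ge n N0 with hc | hc
  · -- case A
    have h1 := hdom n hc.le hk
    have h2 : (1 - 3 * a) * prof a R (3 * k) ≤ 1 - 3 * a := by
      have : 0 ≤ 1 - 3 * a := by linarith
      nlinarith
    have h3 : 0 ≤ C1 * a * prof a R (3 * k) := by positivity
    have h4 : 0 ≤ a * prof a R (3 * k) := by positivity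
    nlinarith
  · rcases Nat.lt_or_ge N0 k with hkN | hkN
    · -- bottom = hole at `s`, n1 = k - 1
      obtain ⟨n1, rfl⟩ : ∃ n1, k = n1 + 1 := ⟨k - 1, by omega⟩
      have hb1 := bottom_inn h hC1 hR1 ha0 ha n1 (by omega) (by omega)
      have hb2 := bottom_prof h hC1 hR1 ha0 ha n1 (by omega)
      have hp := prof_pos hR0 haR (3 * n1 + 3)
      have hq : 0 ≤ C1 * a * prof a R (3 * n1 + 3) := by positivity
      have hq' : 0 ≤ a * prof a R (3 * n1 + 3) := by positivity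
      have h1 := combine h hC1 hR1 ha0 ha n1 (n1 + 1) (by omega) le_rfl
        (b := 4 + 48 * C1) (by linarith) (by nlinarith) n (by omega) (by omega)
      have e1 : 3 * (n1 + 1) = 3 * n1 + 3 := by ring
      rw [e1]
      refine le_trans ?_ h1
      nlinarith
    · -- bottom = dominance at `N0`
      have hdN := hdom N0 le_rfl (by omega)
      set M := 3 * N0 + 3 with hM
      have hp := prof_pos hR0 haR M
      have hfM : 1 - 2 * a ≤ prof a R M := by
        have h2 := one_sub_prof_le hR0 ha0.le haR M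
        have h3 : a * (M : ℝ) / (R + 1) ≤ 2 * a := by
          rw [div_le_iff₀ (by linarith)]
          have : (M : ℝ) ≤ 2 * (R + 1) := by
            rw [hM]; push_cast; linarith
          nlinarith
        linarith
      have hp1 := prof_le_one hR0 ha0.le haR M
      have hbi : -(8 * a * prof a R M) ≤ H e N0 k (inn a R M) := by
        have h1 := h.Dm N0 k (by omega) (inn a R M) (inn_cvx hR0 ha0.le haR M)
          (inn_antitone hR0 ha0.le haR M)
        have h2 : inn a R M 0 ≤ 2 * a := by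
          rw [inn_of_le' (Nat.zero_le M), prof_zero]; linarith
        have h3 := inn_nonneg hR0 ha0.le haR M (3 * N0 + 1)
        have h4 : 1 / 2 ≤ prof a R M := by linarith
        have h5 : 4 * a ≤ 8 * a * prof a R M := by nlinarith
        unfold H
        linarith
      have h1 := combine h hC1 hR1 ha0 ha N0 k (by omega) (by omega)
        (b := 8) hbi (by nlinarith) n hc (by omega)
      refine le_trans ?_ h1
      rw [← hM]
      have hkM : prof a R M ≤ prof a R (3 * k) := hanti (by omega)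
      rcases le_total 0 (1 - (8 + 16 + 54 * C1) * a) with hs | hs
      · calc (1 - (90 + 102 * C1) * a) * prof a R (3 * k)
            ≤ ((1 - (8 + 16 + 54 * C1) * a) * (1 - 2 * a)) * prof a R (3 * k) := by
              apply mul_le_mul_of_nonneg_right _ hk0.le
              have : 0 ≤ C1 * a := by positivity
              have : 0 ≤ C1 * a * a := by positivity
              nlinarith
          _ = (1 - (8 + 16 + 54 * C1) * a) * ((1 - 2 * a) * prof a R (3 * k)) := by ring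
          _ ≤ (1 - (8 + 16 + 54 * C1) * a) * prof a R M := by
              apply mul_le_mul_of_nonneg_left _ hs
              have : 0 ≤ 1 - 2 * a := by linarith
              nlinarith
      · calc (1 - (90 + 102 * C1) * a) * prof a R (3 * k)
            ≤ (1 - (8 + 16 + 54 * C1) * a) * prof a R (3 * k) := by
              apply mul_le_mul_of_nonneg_right _ hk0.le
              have : 0 ≤ C1 * a := by positivity
              nlinarith
          _ ≤ (1 - (8 + 16 + 54 * C1) * a) * prof a R M :=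
              mul_le_mul_of_nonpos_left hkM hs

theorem K1rad' (h : DataR e C1 n0) (hC1 : 0 ≤ C1) (ha0 : 0 < a) (ha : a ≤ 1 / 4)
    (hR : 3 * (n0 : ℝ) + 10 ≤ R) (n k : ℕ) (hk : k ≤ n + 1) :
    (1 - (90 + 102 * C1) * a) * prof a R (3 * k) ≤
      3 * (cs (prof a R) (3 * n + 1) - e n k (prof a R)) :=
  K1rad (h.toData hC1) hC1 ha0 ha hR n k hk

end main

end Crest.Agent.R340.K1rad716
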