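import Crest.Agent.R340.K1_725

/-!
# R340 / S0532: STEP 1 of the one-hole sector with a top level (helper716)

`X` lives at the top flux and is compressed to the lower fluxes, so the recursion of `K1725.W1` is
only available for `n < N`.
-/

set_option autoImplicit false

namespace Crest.Agent.R340.K1top716

open Finset Crest.Agent.R340.K1725

theorem W1_top (N : ℕ) (q : ℕ → (ℕ → ℂ) → ℝ) (e x : ℕ → ℝ) (n0 : ℕ) (C B : ℝ) (hC : 0 ≤ C)
    (hB : 0 ≤ B)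
    (hbase : ∀ α : ℕ → ℂ, |q n0 α - x n0 * ∑ m ∈ range (n0 + 1), ‖α m‖ ^ 2| ≤
      B * ∑ m ∈ range (n0 + 1), ‖α m‖ ^ 2)
    (hstep : ∀ n, n0 ≤ n → n < N → ∀ α : ℕ → ℂ,
      |q (n + 1) α - q n α - e (n + 1) * ‖α (n + 1)‖ ^ 2| ≤
      C / ((n + 1 : ℕ) : ℝ) ^ 2 * ∑ m ∈ range (n + 2), ‖α m‖ ^ 2)
    (hx : ∀ n, n0 ≤ n → n < N → |x (n + 1) - x n| ≤ C / ((n + 1 : ℕ) : ℝ) ^ 2)
    (he : ∀ n, n0 ≤ n → n < N → |e (n + 1) - x (n + 1)| ≤ C / ((n + 1 : ℕ) : ℝ))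
    (n : ℕ) (hn : n0 ≤ n) (hnN : n ≤ N) (α : ℕ → ℂ) :
    |q n α - x n * ∑ m ∈ range (n + 1), ‖α m‖ ^ 2| ≤
      ∑ m ∈ range (n + 1), ((10 * C + (n0 + 1) * B) / (m + 1)) * ‖α m‖ ^ 2 := by
  set q' : ℕ → (ℕ → ℂ) → ℝ := fun n α =>
    if n ≤ N then q n α else q N α + x N * ∑ m ∈ Ico (N + 1) (n + 1), ‖α m‖ ^ 2 with hq'
  set x' : ℕ → ℝ := fun n => if n ≤ N then x n else x N with hx'
  set e' : ℕ → ℝ := fun n => if n ≤ N then e n else x N with he'
  have h0N : n0 ≤ N := hn.trans hnN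
  have h := W1 q' e' x' n0 C B hC hB ?_ ?_ ?_ ?_ n hn α
  · simpa [hq', hx', hnN] using h
  · intro α
    simpa [hq', hx', h0N] using hbase α
  · intro k hk α
    rcases Nat.lt_or_ge k N with h | h
    · have h1 : k ≤ N := h.le
      have h2 : k + 1 ≤ N := h
      simpa [hq', he', h1, h2] using hstep k hk h α
    · have h2 : ¬ (k + 1 ≤ N) := by omega
      have hz : q' (k + 1) α - q' k α - e' (k + 1) * ‖α (k + 1)‖ ^ 2 = 0 := by
        rcases Nat.eq_or_lt_of_le h with h3 | h3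
        · subst h3
          simp [hq', he']
        · have h4 : ¬ (k ≤ N) := by omega
          simp only [hq', he', h2, h4, if_false]
          rw [sum_Ico_succ_top (by omega : N + 1 ≤ k + 1)]
          ring
      rw [hz, abs_zero]
      positivity
  · intro k hk
    rcases Nat.lt_or_ge k N with h | h
    · have h1 : k ≤ N := h.le
      have h2 : k + 1 ≤ N := h
      simpa [hx', h1, h2] using hx k hk h
    · have h2 : ¬ (k + 1 ≤ N) := by omega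
      have hz : x' (k + 1) - x' k = 0 := by
        rcases Nat.eq_or_lt_of_le h with h3 | h3
        · subst h3; simp [hx']
        · have h4 : ¬ (k ≤ N) := by omega
          simp [hx', h2, h4]
      rw [hz, abs_zero]
      positivity
  · intro k hk
    rcases Nat.lt_or_ge k N with h | h
    · have h2 : k + 1 ≤ N := h
      simpa [hx', he', h2] using he k hk h
    · have h2 : ¬ (k + 1 ≤ N) := by omega
      have hz : e' (k + 1) - x' (k + 1) = 0 := by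
        simp [hx', he', h2]
      rw [hz, abs_zero]
      positivity

/-- all levels `n ≤ N`. -/
theorem W1_all (N : ℕ) (q : ℕ → (ℕ → ℂ) → ℝ) (e x : ℕ → ℝ) (n0 : ℕ) (C B : ℝ) (hC : 0 ≤ C)
    (hB : 0 ≤ B)
    (hbase : ∀ n ≤ N, ∀ α : ℕ → ℂ, |q n α - x n * ∑ m ∈ range (n + 1), ‖α m‖ ^ 2| ≤
      B * ∑ m ∈ range (n + 1), ‖α m‖ ^ 2)
    (hstep : ∀ n, n0 ≤ n → n < N → ∀ α : ℕ → ℂ,
      |q (n + 1) α - q n α - e (n + 1) * ‖α (n + 1)‖ ^ 2| ≤
      C / ((n + 1 : ℕ) : ℝ) ^ 2 * ∑ m ∈ range (n + 2), ‖α m‖ ^ 2)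
    (hx : ∀ n, n0 ≤ n → n < N → |x (n + 1) - x n| ≤ C / ((n + 1 : ℕ) : ℝ) ^ 2)
    (he : ∀ n, n0 ≤ n → n < N → |e (n + 1) - x (n + 1)| ≤ C / ((n + 1 : ℕ) : ℝ))
    (n : ℕ) (hnN : n ≤ N) (α : ℕ → ℂ) :
    |q n α - x n * ∑ m ∈ range (n + 1), ‖α m‖ ^ 2| ≤
      ∑ m ∈ range (n + 1), ((10 * C + (n0 + 1) * B) / (m + 1)) * ‖α m‖ ^ 2 := by
  rcases Nat.lt_or_ge n n0 with h | h
  · refine (hbase n hnN α).trans ?_
    rw [mul_sum]
    apply sum_le_sum
    intro m hm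
    have hm' : m < n + 1 := mem_range.1 hm
    apply mul_le_mul_of_nonneg_right _ (sq_nonneg _)
    rw [le_div_iff₀ (by positivity)]
    have h1 : ((m : ℝ) + 1) ≤ n0 + 1 := by
      have : (m : ℝ) ≤ n0 := by exact_mod_cast (by omega : m ≤ n0)
      linarith
    have h2 : B * ((m : ℝ) + 1) ≤ B * (n0 + 1) := mul_le_mul_of_nonneg_left h1 hB
    linarith
  · exact W1_top N q e x n0 C B hC hB (hbase n0 (h.trans hnN)) hstep hx he n h hnN α

end Crest.Agent.R340.K1top716
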