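import Crest.Agent.R340.K1inC_788

/-!
# R340, K = 1 inputs: orbital reversal `j ↦ Q - j` (helper716)
-/

set_option autoImplicit false
set_option linter.unusedSectionVars false

namespace Crest.Agent.R340.Rev716

open Finset
open scoped InnerProductSpace ComplexConjugate
open Crest.Agent.R340.Fock649 Crest.Agent.R340.Geo986 Crest.Agent.R340.Peel596
  Crest.Agent.R340.Emb596 Crest.Agent.R340.K1in788

variable {Q : ℕ}

/-- reversed set -/
def rs (S : Finset (Fin (Q + 1))) : Finset (Fin (Q + 1)) := S.map Fin.revPerm.toEmbedding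

theorem mem_rs {S : Finset (Fin (Q + 1))} {i : Fin (Q + 1)} : i ∈ rs S ↔ i.rev ∈ S := by
  unfold rs
  rw [mem_map]
  constructor
  · rintro ⟨a, ha, rfl⟩
    simpa using ha
  · intro h
    exact ⟨i.rev, h, by simp⟩

theorem rs_rs (S : Finset (Fin (Q + 1))) : rs (rs S) = S := by
  ext i
  rw [mem_rs, mem_rs, Fin.rev_rev]

theorem card_rs (S : Finset (Fin (Q + 1))) : (rs S).card = S.card := card_map _

theorem sum_rs {M : Type*} [AddCommMonoid M] (S : Finset (Fin (Q + 1))) (g : Fin (Q + 1) → M) :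
    ∑ i ∈ rs S, g i = ∑ i ∈ S, g i.rev := by
  unfold rs
  rw [sum_map]
  rfl

theorem rs_insert (i : Fin (Q + 1)) (S : Finset (Fin (Q + 1))) :
    rs (insert i S) = insert i.rev (rs S) := by
  ext j
  rw [mem_rs, mem_insert, mem_insert, mem_rs]
  constructor
  · rintro (h | h)
    · left; rw [← h, Fin.rev_rev]
    · right; exact h
  · rintro (h | h)
    · left; rw [h, Fin.rev_rev]
    · right; exact h

/-- the equivalence -/
def rsE : Finset (Fin (Q + 1)) ≃ Finset (Fin (Q + 1)) where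
  toFun := rs
  invFun := rs
  left_inv := rs_rs
  right_inv := rs_rs

/-- the reversed vector -/
noncomputable def rv (ψ : Fk (Fin (Q + 1))) : Fk (Fin (Q + 1)) := WithLp.toLp 2 fun S => ψ (rs S)

theorem rv_apply (ψ : Fk (Fin (Q + 1))) (S : Finset (Fin (Q + 1))) : rv ψ S = ψ (rs S) := rfl

theorem norm_rv (ψ : Fk (Fin (Q + 1))) : ‖rv ψ‖ = ‖ψ‖ := by
  rw [EuclideanSpace.norm_eq, EuclideanSpace.norm_eq]
  congr 1
  exact Equiv.sum_comp rsE fun S => ‖ψ S‖ ^ 2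

theorem sg_rev {i : Fin (Q + 1)} {U : Finset (Fin (Q + 1))} (hi : i ∉ U) :
    sg i U * sg i.rev (rs U) = (-1) ^ U.card := by
  unfold sg
  rw [← pow_add]
  congr 1
  have h1 : ((rs U).filter (· < i.rev)).card = (U.filter (i < ·)).card := by
    have : (rs U).filter (· < i.rev) = rs (U.filter (i < ·)) := by
      ext u
      rw [mem_filter, mem_rs, mem_rs, mem_filter]
      constructor
      · rintro ⟨h1, h2⟩
        refine ⟨h1, ?_⟩
        rw [← Fin.rev_lt_rev, Fin.rev_rev]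
        exact h2
      · rintro ⟨h1, h2⟩
        refine ⟨h1, ?_⟩
        rw [← Fin.rev_lt_rev, Fin.rev_rev] at h2
        exact h2
    rw [this, card_rs]
  rw [h1, ← card_union_of_disjoint]
  · congr 1
    ext u
    rw [mem_union, mem_filter, mem_filter]
    constructor
    · rintro (h | h)
      · exact h.1
      · exact h.1
    · intro hu
      rcases lt_trichotomy u i with h | h | h
      · exact Or.inl ⟨hu, h⟩
      · exact absurd (h ▸ hu) hi
      · exact Or.inr ⟨hu, h⟩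
  · rw [disjoint_left]
    intro u hu hu2
    exact lt_asymm (mem_filter.1 hu).2 (mem_filter.1 hu2).2

theorem sg_rev_mul {i j : Fin (Q + 1)} {U : Finset (Fin (Q + 1))} (hi : i ∉ U) (hj : j ∉ U) :
    sg j U * sg i U = sg i.rev (rs U) * sg j.rev (rs U) := by
  have h1 := sg_rev hi
  have h2 := sg_rev hj
  have h3 : (sg i U * sg i.rev (rs U)) * (sg j U * sg j.rev (rs U)) = 1 := by
    rw [h1, h2, ← pow_add, ← two_mul, pow_mul]; norm_num
  have h4 := sg_mul_self i.rev (rs U)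
  have h5 := sg_mul_self j.rev (rs U)
  calc sg j U * sg i U = sg j U * sg i U * (sg i.rev (rs U) * sg i.rev (rs U)) *
        (sg j.rev (rs U) * sg j.rev (rs U)) := by rw [h4, h5, mul_one, mul_one]
    _ = ((sg i U * sg i.rev (rs U)) * (sg j U * sg j.rev (rs U))) *
        (sg i.rev (rs U) * sg j.rev (rs U)) := by ring
    _ = _ := by rw [h3, one_mul]

theorem cc_rv {i j : Fin (Q + 1)} (hij : i < j) (ψ : Fk (Fin (Q + 1)))
    (U : Finset (Fin (Q + 1))) :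
    (c j * c i : Op (Fin (Q + 1))) (rv ψ) U = (c i.rev * c j.rev : Op (Fin (Q + 1))) ψ (rs U) := by
  rw [cc_apply, cc_apply]
  by_cases hj : j ∈ U
  · rw [if_pos hj]
    have h1 : j.rev ∈ insert i.rev (rs U) := by
      rw [mem_insert, mem_rs, Fin.rev_rev]; exact Or.inr hj
    rw [if_pos h1]
    simp
  · rw [if_neg hj]
    by_cases hi : i ∈ U
    · rw [if_pos (mem_insert_of_mem hi)]
      have h1 : i.rev ∈ rs U := by rw [mem_rs, Fin.rev_rev]; exact hi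
      rw [if_pos h1, mul_zero]
    · have h1 : i.rev ∉ rs U := by rw [mem_rs, Fin.rev_rev]; exact hi
      have hne : i ≠ j := ne_of_lt hij
      have h2 : i ∉ insert j U := by rw [mem_insert]; push Not; exact ⟨hne, hi⟩
      have h3 : j.rev ∉ insert i.rev (rs U) := by
        rw [mem_insert, mem_rs, Fin.rev_rev]
        push Not
        exact ⟨fun h => hne (Fin.rev_injective h).symm, hj⟩
      rw [if_neg h1, if_neg h2, if_neg h3, rv_apply, rs_insert, rs_insert,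
        sg_insert_of_gt hij, sg_insert_of_gt (Fin.rev_lt_rev.2 hij), ← mul_assoc,
        ← mul_assoc, sg_rev_mul hi hj, Finset.insert_comm i.rev j.rev]

theorem nu0_rev (j : Fin (Q + 1)) : nu0 Q (j.rev : Fin (Q + 1)) = nu0 Q j := by
  unfold nu0
  have : ((j.rev : Fin (Q + 1)) : ℕ) = Q - j := by rw [Fin.val_rev]; omega
  rw [this, Nat.choose_symm (by omega)]

theorem bcoef_rev (i j : Fin (Q + 1)) :
    bcoef (nu0 Q) i j = bcoef (nu0 Q) (j.rev : Fin (Q + 1)) (i.rev : Fin (Q + 1)) := by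
  unfold bcoef
  rw [nu0_rev, nu0_rev, mul_comm (nu0 Q i)]
  congr 1
  have h1 : (((j.rev : Fin (Q + 1)) : ℕ) : ℝ) = (Q : ℝ) - j := by
    rw [Fin.val_rev]
    have : Q + 1 - ((j : ℕ) + 1) = Q - j := by omega
    rw [this, Nat.cast_sub (by omega)]
  have h2 : (((i.rev : Fin (Q + 1)) : ℕ) : ℝ) = (Q : ℝ) - i := by
    rw [Fin.val_rev]
    have : Q + 1 - ((i : ℕ) + 1) = Q - i := by omega
    rw [this, Nat.cast_sub (by omega)]
  rw [h1, h2]
  ring

theorem sum_apply' {σ : Type*} (s : Finset σ) (v : σ → Fk (Fin (Q + 1)))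
    (U : Finset (Fin (Q + 1))) : (∑ x ∈ s, v x) U = ∑ x ∈ s, v x U := by
  rw [WithLp.ofLp_sum, Finset.sum_apply]

theorem bz_rv {p : ℕ} (hp : p ≤ 2 * Q) (ψ : Fk (Fin (Q + 1))) (U : Finset (Fin (Q + 1))) :
    bz (nu0 Q) Q p (rv ψ) U = bz (nu0 Q) Q (2 * Q - p) ψ (rs U) := by
  unfold bz
  rw [sum_ap, sum_ap, sum_apply', sum_apply']
  refine sum_bij' (fun x _ => (x.2.rev, x.1.rev)) (fun x _ => (x.2.rev, x.1.rev)) ?_ ?_ ?_ ?_ ?_
  · intro x hx
    obtain ⟨h1, h2⟩ := mem_pairs.1 hx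
    refine mem_pairs.2 ⟨Fin.rev_lt_rev.2 h1, ?_⟩
    simp only [Fin.val_rev]
    have := x.1.isLt
    have := x.2.isLt
    omega
  · intro x hx
    obtain ⟨h1, h2⟩ := mem_pairs.1 hx
    refine mem_pairs.2 ⟨Fin.rev_lt_rev.2 h1, ?_⟩
    simp only [Fin.val_rev]
    have := x.1.isLt
    have := x.2.isLt
    omega
  · intro x _; simp
  · intro x _; simp
  · intro x hx
    obtain ⟨h1, h2⟩ := mem_pairs.1 hx
    rw [smul_ap, smul_ap]
    show _ * (c x.2 * c x.1 : Op (Fin (Q + 1))) (rv ψ) U = _ * _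
    rw [cc_rv h1, bcoef_rev x.1 x.2]
    rfl

theorem rv_mem_Zs {ψ : Fk (Fin (Q + 1))} (h : ψ ∈ Zs (nu0 Q) Q) : rv ψ ∈ Zs (nu0 Q) Q := by
  intro p
  rcases Nat.lt_or_ge (2 * Q) p with hp | hp
  · unfold bz
    have : pairs Q p = ∅ := by
      rw [eq_empty_iff_forall_notMem]
      intro x hx
      obtain ⟨h1, h2⟩ := mem_pairs.1 hx
      have := x.1.isLt
      have := x.2.isLt
      omega
    rw [this, sum_empty]
    rfl
  · ext U
    rw [bz_rv hp, h (2 * Q - p)]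
    rfl

theorem rv_mem_Sc {n M : ℕ} {ψ : Fk (Fin (Q + 1))} (h : ψ ∈ Sc Q n M) :
    rv ψ ∈ Sc Q n (n * Q - M) := by
  intro S hS
  rw [rv_apply] at hS
  obtain ⟨h1, h2⟩ := h _ hS
  rw [card_rs] at h1
  refine ⟨h1, ?_⟩
  rw [sum_rs] at h2
  have h3 : ∑ i ∈ S, ((i.rev : Fin (Q + 1)) : ℕ) + ∑ i ∈ S, (i : ℕ) = n * Q := by
    rw [← sum_add_distrib, ← h1]
    have : ∀ i ∈ S, ((i.rev : Fin (Q + 1)) : ℕ) + (i : ℕ) = Q := by
      intro i _
      rw [Fin.val_rev]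
      have := i.isLt
      omega
    rw [sum_congr rfl this, sum_const, smul_eq_mul]
  omega

theorem rv_mem_ZS {n M : ℕ} {ψ : Fk (Fin (Q + 1))} (h : ψ ∈ ZS (nu0 Q) Q n M) :
    rv ψ ∈ ZS (nu0 Q) Q n (n * Q - M) := ⟨rv_mem_Zs h.1, rv_mem_Sc h.2⟩

theorem mean_dR_eq_sum {ι : Type*} [Fintype ι] [LinearOrder ι] (l : ι → ℝ) (ψ : Fk ι) :
    mean (dR l) ψ = ∑ S : Finset ι, (∑ i ∈ S, l i) * ‖ψ S‖ ^ 2 := by
  unfold mean
  rw [dR_eq]
  have h1 : ⟪ψ, diag (fun S => ((∑ i ∈ S, l i : ℝ) : ℂ)) ψ⟫_ℂ =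
      ∑ S, ((∑ i ∈ S, l i : ℝ) : ℂ) * ((‖ψ S‖ ^ 2 : ℝ) : ℂ) := by
    rw [PiLp.inner_apply]
    refine sum_congr rfl fun S _ => ?_
    rw [diag_apply, RCLike.inner_apply]
    rw [mul_assoc, Complex.mul_conj, Complex.normSq_eq_norm_sq]
  rw [h1, Complex.re_sum]
  refine sum_congr rfl fun S _ => ?_
  rw [← Complex.ofReal_mul, Complex.ofReal_re]

theorem mean_rv (f : ℕ → ℝ) (ψ : Fk (Fin (Q + 1))) :
    mean (dR fun j : Fin (Q + 1) => f j) ψ = mean (dR fun j : Fin (Q + 1) => f (Q - j)) (rv ψ) := by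
  rw [mean_dR_eq_sum, mean_dR_eq_sum]
  rw [← Equiv.sum_comp rsE]
  refine sum_congr rfl fun S _ => ?_
  show (∑ i ∈ rs S, f i) * ‖ψ (rs S)‖ ^ 2 = (∑ i ∈ S, f (Q - i)) * ‖ψ (rs S)‖ ^ 2
  rw [sum_rs]
  congr 1
  refine sum_congr rfl fun i _ => ?_
  congr 1
  rw [Fin.val_rev]
  omega

/-- **(R)** -/
theorem reflect {n M : ℕ} {ψ : Fk (Fin (Q + 1))} (h : ψ ∈ ZS (nu0 Q) Q n M) :
    ∃ φ ∈ ZS (nu0 Q) Q n (n * Q - M), ‖φ‖ = ‖ψ‖ ∧ ∀ f : ℕ → ℝ,
      mean (dR fun j : Fin (Q + 1) => f j) ψ = mean (dR fun j : Fin (Q + 1) => f (Q - j)) φ :=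
  ⟨rv ψ, rv_mem_ZS h, norm_rv ψ, fun f => mean_rv f ψ⟩

end Crest.Agent.R340.Rev716
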