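import Crest.Agent.R340.GeoA_986
import Crest.Agent.R340.GG_467

/-!
# Zero modes of minimal angular momentum (helper467, R340, O5 part 1)

For every positive metric `ν` on the orbitals `0..Q`: every nonzero zero mode in a common eigenspace
of `Nh`, `Lz` charges an admissible occupation set (gaps at least three).  Consequences: no zero modes
with `n` particles if `Q < 3 (n-1)`, the `Lz` eigenvalue is at least `3 n (n-1) / 2`, the eigenspace of the
minimal value is at most one-dimensional, its vectors do not occupy orbitals above `3 (n-1)`, and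
every operator commuting with `Nh`, `Lz` acts on it (after projection to zero modes) as a scalar.
-/

set_option autoImplicit false

namespace Crest.Agent.R340.Vac467

open Finset Fock649 Geo986 GG467

variable {Q : ℕ}

/-- the total angular momentum `∑ i n_i` -/
noncomputable def Lz (Q : ℕ) : Op (Fin (Q + 1)) := dG (Matrix.diagonal fun i => ((i : ℕ) : ℂ))

theorem Lz_eq : Lz Q = Fock649.diag fun S : Finset (Fin (Q + 1)) =>
    ((∑ i ∈ S, (i : ℕ) : ℕ) : ℂ) := by
  unfold Lz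
  rw [dG_diagonal]
  congr 1
  funext S
  push_cast
  rfl

theorem star_Lz : star (Lz Q) = Lz Q := by
  unfold Lz
  rw [star_dG, Matrix.diagonal_conjTranspose]
  congr 2
  funext i
  simp

theorem dG_diag_comm_cc (f : Fin (Q + 1) → ℂ) (i j : Fin (Q + 1)) :
    dG (Matrix.diagonal f) * (c j * c i) - (c j * c i) * dG (Matrix.diagonal f) =
      -(f i + f j) • (c j * c i) := by
  rw [dG_comm_cc]
  simp only [Matrix.diagonal_apply, ite_smul, zero_smul, Finset.sum_ite_eq, Finset.mem_univ, if_true]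
  module

theorem dG_diag_comm_c (f : Fin (Q + 1) → ℂ) (i : Fin (Q + 1)) :
    dG (Matrix.diagonal f) * c i - c i * dG (Matrix.diagonal f) = -(f i) • c i := by
  rw [dG_comm_c]
  simp only [Matrix.diagonal_apply, ite_smul, zero_smul, Finset.sum_ite_eq, Finset.mem_univ, if_true]
  module

/-- the unnormalised pair annihilator at a configuration -/
theorem bz_apply (ν : ℕ → ℝ) (p : ℕ) (ψ : Fk (Fin (Q + 1))) (R : Finset (Fin (Q + 1))) :
    bz ν Q p ψ R = ∑ x ∈ pairs Q p, ((bcoef ν x.1 x.2 : ℝ) : ℂ) *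
      (if x.2 ∈ R then 0 else sg x.2 R *
        (if x.1 ∈ insert x.2 R then 0 else sg x.1 (insert x.2 R) *
          ψ (insert x.1 (insert x.2 R)))) := by
  unfold bz
  rw [sum_ap, WithLp.ofLp_sum, Finset.sum_apply]
  refine Finset.sum_congr rfl fun x _ => ?_
  rw [smul_ap, mul_ap, PiLp.smul_apply, smul_eq_mul, c_apply]
  simp only [c_apply]

/-- admissible: gaps at least three -/
def Adm (S : Finset (Fin (Q + 1))) : Prop := ∀ i ∈ S, ∀ j ∈ S, i < j → (i : ℕ) + 3 ≤ (j : ℕ)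

/-- sum of squares of the occupied orbitals -/
def sqs (S : Finset (Fin (Q + 1))) : ℕ := ∑ i ∈ S, (i : ℕ) ^ 2

theorem exists_adm {ν : ℕ → ℝ} (hν : PosM ν Q) {ψ : Fk (Fin (Q + 1))} (hz : ψ ∈ Zs ν Q)
    (h0 : ψ ≠ 0) : ∃ S, ψ S ≠ 0 ∧ Adm S := by
  classical
  have hne : (univ.filter fun S : Finset (Fin (Q + 1)) => ψ S ≠ 0).Nonempty := by
    by_contra h
    rw [Finset.not_nonempty_iff_eq_empty, Finset.filter_eq_empty_iff] at h
    apply h0
    ext S
    have := h (mem_univ S)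
    rw [not_not] at this
    exact this
  obtain ⟨S, hS, hmax⟩ := Finset.exists_max_image _ sqs hne
  rw [Finset.mem_filter] at hS
  refine ⟨S, hS.2, ?_⟩
  intro i hi j hj hij
  by_contra hcon
  push Not at hcon
  have hij' : (i : ℕ) < (j : ℕ) := hij
  set R := (S.erase i).erase j with hR
  have hjS : j ∈ S.erase i := Finset.mem_erase.2 ⟨ne_of_gt hij, hj⟩
  have hiR : i ∉ R := by simp [hR]
  have hjR : j ∉ R := by simp [hR]
  have e1 : insert j R = S.erase i := Finset.insert_erase hjS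
  have e2 : insert i (insert j R) = S := by rw [e1, Finset.insert_erase hi]
  have hb := congrArg (fun v : Fk (Fin (Q + 1)) => v R) (hz ((i : ℕ) + j))
  simp only at hb
  rw [bz_apply] at hb
  have hmem : (i, j) ∈ pairs Q ((i : ℕ) + j) := mem_pairs.2 ⟨hij, rfl⟩
  have hsum := Finset.sum_eq_single (s := pairs Q ((i : ℕ) + j))
    (f := fun x => ((bcoef ν x.1 x.2 : ℝ) : ℂ) *
      (if x.2 ∈ R then 0 else sg x.2 R *
        (if x.1 ∈ insert x.2 R then 0 else sg x.1 (insert x.2 R) *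
          ψ (insert x.1 (insert x.2 R))))) (i, j) ?_ (fun h => absurd hmem h)
  · rw [hsum] at hb
    simp only at hb
    rw [if_neg hjR, if_neg (by rw [e1]; simp), e2] at hb
    have hbp : ((bcoef ν i j : ℝ) : ℂ) ≠ 0 := by
      have h1 := bcoef_pos hν hmem
      simp only at h1
      exact_mod_cast h1.ne'
    have hs1 : sg j R ≠ 0 := by
      intro h
      have := norm_sg j R
      rw [h] at this
      simp at this
    have hs2 : sg i (insert j R) ≠ 0 := by
      intro h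
      have := norm_sg i (insert j R)
      rw [h] at this
      simp at this
    have hz0 : (0 : Fk (Fin (Q + 1))) R = 0 := rfl
    rw [hz0] at hb
    rcases mul_eq_zero.1 hb with h | h
    · exact hbp h
    rcases mul_eq_zero.1 h with h | h
    · exact hs1 h
    rcases mul_eq_zero.1 h with h | h
    · exact hs2 h
    · exact hS.2 h
  · rintro ⟨a, b⟩ hab hne
    obtain ⟨hab1, hab2⟩ := mem_pairs.1 hab
    simp only at hab1 hab2 ⊢
    have hab1' : (a : ℕ) < (b : ℕ) := hab1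
    by_cases hbR : b ∈ R
    · rw [if_pos hbR, mul_zero]
    rw [if_neg hbR]
    by_cases haR : a ∈ insert b R
    · rw [if_pos haR, mul_zero, mul_zero]
    rw [if_neg haR]
    have hlt : sqs S < sqs (insert a (insert b R)) := by
      have haR' : a ∉ insert b R := haR
      have q1 : sqs (insert a (insert b R)) = (a : ℕ) ^ 2 + ((b : ℕ) ^ 2 + ∑ k ∈ R, (k : ℕ) ^ 2) := by
        unfold sqs
        rw [Finset.sum_insert haR', Finset.sum_insert hbR]
      have q2 : sqs S = (i : ℕ) ^ 2 + ((j : ℕ) ^ 2 + ∑ k ∈ R, (k : ℕ) ^ 2) := by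
        conv_lhs => rw [← e2]
        unfold sqs
        rw [Finset.sum_insert (by rw [e1]; simp), Finset.sum_insert hjR]
      rw [q1, q2]
      have hai : (a : ℕ) < (i : ℕ) := by
        rcases lt_trichotomy (a : ℕ) (i : ℕ) with h | h | h
        · exact h
        · exfalso
          apply hne
          have h1 : a = i := Fin.ext h
          have h2 : b = j := Fin.ext (by omega)
          rw [h1, h2]
        · exfalso; omega
      have hbj : (b : ℕ) = (i : ℕ) + j - a := by omega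
      have h3 : (b : ℤ) = (i : ℤ) + j - a := by omega
      have h4 : (a : ℤ) < (i : ℤ) := by omega
      have h5 : (i : ℤ) < (j : ℤ) := by omega
      have h6 : (i : ℤ) ^ 2 + (j : ℤ) ^ 2 < (a : ℤ) ^ 2 + (b : ℤ) ^ 2 := by
        rw [h3]; nlinarith
      have h7 : (i : ℕ) ^ 2 + (j : ℕ) ^ 2 < (a : ℕ) ^ 2 + (b : ℕ) ^ 2 := by exact_mod_cast h6
      omega
    have hzero : ψ (insert a (insert b R)) = 0 := by
      by_contra hc
      have := hmax (insert a (insert b R)) (by rw [Finset.mem_filter]; exact ⟨mem_univ _, hc⟩)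
      omega
    rw [hzero, mul_zero, mul_zero, mul_zero]

/-! ### eigenspaces of `Lz` -/

theorem mem_Lz_iff {l : ℕ} {v : Fk (Fin (Q + 1))} :
    Lz Q v = (l : ℂ) • v ↔ ∀ S : Finset (Fin (Q + 1)), ∑ i ∈ S, (i : ℕ) ≠ l → v S = 0 := by
  rw [Lz_eq]
  constructor
  · intro h S hS
    have h1 := congrArg (fun w : Fk (Fin (Q + 1)) => w S) h
    simp only [Fock649.diag_apply, PiLp.smul_apply, smul_eq_mul] at h1
    have h2 : (((∑ i ∈ S, (i : ℕ) : ℕ) : ℂ) - l) * v S = 0 := by rw [sub_mul, h1, sub_self]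
    rcases mul_eq_zero.1 h2 with h3 | h3
    · exact absurd (by exact_mod_cast sub_eq_zero.1 h3) hS
    · exact h3
  · intro h
    ext S
    rw [Fock649.diag_apply, PiLp.smul_apply, smul_eq_mul]
    by_cases hS : ∑ i ∈ S, (i : ℕ) = l
    · rw [hS]
    · rw [h S hS]; simp

/-- orbital sum and largest element of an admissible set -/
theorem adm_bounds : ∀ (n : ℕ) (S : Finset (Fin (Q + 1))), Adm S → S.card = n →
    (∑ k ∈ range n, 3 * k ≤ ∑ i ∈ S, (i : ℕ)) ∧
    (∑ i ∈ S, (i : ℕ) = ∑ k ∈ range n, 3 * k → ∀ k, k ∈ S.image (fun i : Fin (Q + 1) => (i : ℕ)) ↔ ∃ m < n, k = 3 * m) ∧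
    (∀ i ∈ S, (∀ j ∈ S, j ≤ i) → 3 * (n - 1) ≤ (i : ℕ)) := by
  intro n
  induction n with
  | zero =>
    intro S _ hc
    have : S = ∅ := Finset.card_eq_zero.1 hc
    subst this
    refine ⟨by simp, fun _ k => by simp, fun i hi => absurd hi (by simp)⟩
  | succ n ih =>
    intro S hS hc
    have hne : S.Nonempty := Finset.card_pos.1 (by omega)
    obtain ⟨t, ht, hmax⟩ := Finset.exists_max_image S (fun i => (i : ℕ)) hne
    have hc' : (S.erase t).card = n := by rw [Finset.card_erase_of_mem ht, hc]; rfl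
    have hS' : Adm (S.erase t) := fun i hi j hj hij =>
      hS i (Finset.mem_of_mem_erase hi) j (Finset.mem_of_mem_erase hj) hij
    obtain ⟨a1, a2, a3⟩ := ih (S.erase t) hS' hc'
    have hsum : ∑ i ∈ S, (i : ℕ) = (t : ℕ) + ∑ i ∈ S.erase t, (i : ℕ) :=
      (Finset.add_sum_erase S (fun i => (i : ℕ)) ht).symm
    have ht3 : 3 * n ≤ (t : ℕ) := by
      rcases Nat.eq_zero_or_pos n with h0 | hpos
      · omega
      · have hne' : (S.erase t).Nonempty := Finset.card_pos.1 (by omega)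
        obtain ⟨u, hu, humax⟩ := Finset.exists_max_image (S.erase t) (fun i => (i : ℕ)) hne'
        have h1 := a3 u hu (fun j hj => humax j hj)
        have h2 : u ∈ S := Finset.mem_of_mem_erase hu
        have h3 : u < t := lt_of_le_of_ne (hmax u h2) (Finset.ne_of_mem_erase hu)
        have h4 := hS u h2 t ht h3
        omega
    refine ⟨?_, ?_, ?_⟩
    · rw [Finset.sum_range_succ, hsum]; omega
    · intro heq k
      rw [Finset.sum_range_succ, hsum] at heq
      have ht' : (t : ℕ) = 3 * n := by omega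
      have hr : ∑ i ∈ S.erase t, (i : ℕ) = ∑ k ∈ range n, 3 * k := by omega
      have a2' := a2 hr k
      constructor
      · intro hk
        rw [Finset.mem_image] at hk
        obtain ⟨i, hi, rfl⟩ := hk
        by_cases hit : i = t
        · exact ⟨n, Nat.lt_succ_self n, by rw [hit, ht']⟩
        · have hi' : (i : ℕ) ∈ (S.erase t).image (fun i : Fin (Q + 1) => (i : ℕ)) :=
            Finset.mem_image.2 ⟨i, Finset.mem_erase.2 ⟨hit, hi⟩, rfl⟩
          obtain ⟨m, hm, hm'⟩ := a2'.1 hi'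
          exact ⟨m, by omega, hm'⟩
      · rintro ⟨m, hm, rfl⟩
        rcases Nat.lt_succ_iff_lt_or_eq.1 hm with h | h
        · obtain ⟨i, hi, hi'⟩ := Finset.mem_image.1 (a2'.2 ⟨m, h, rfl⟩)
          exact Finset.mem_image.2 ⟨i, Finset.mem_of_mem_erase hi, hi'⟩
        · exact Finset.mem_image.2 ⟨t, ht, by rw [h, ht']⟩
    · intro i hi himax
      have h1 : (t : ℕ) ≤ (i : ℕ) := himax t ht
      simp only [Nat.add_sub_cancel]
      omega

/-- the root configuration `{0, 3, …, 3 (n-1)}` -/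
def rootS (Q n : ℕ) : Finset (Fin (Q + 1)) := univ.filter fun i => ∃ m < n, (i : ℕ) = 3 * m

theorem adm_eq_root {n : ℕ} {S : Finset (Fin (Q + 1))} (hS : Adm S) (hc : S.card = n)
    (hsum : ∑ i ∈ S, (i : ℕ) = ∑ k ∈ range n, 3 * k) : S = rootS Q n := by
  have h := (adm_bounds n S hS hc).2.1 hsum
  ext i
  unfold rootS
  rw [Finset.mem_filter, ← h]
  simp only [Finset.mem_univ, true_and, Finset.mem_image]
  constructor
  · intro hi; exact ⟨i, hi, rfl⟩
  · rintro ⟨j, hj, hj'⟩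
    rw [← Fin.ext hj']; exact hj

/-- sector with number `n` and angular momentum `l` -/
def Sec (Q n l : ℕ) (v : Fk (Fin (Q + 1))) : Prop :=
  Nh v = (n : ℂ) • v ∧ Lz Q v = (l : ℂ) • v

theorem Sec.apply {n l : ℕ} {v : Fk (Fin (Q + 1))} (h : Sec Q n l v) {S : Finset (Fin (Q + 1))}
    (hS : v S ≠ 0) : S.card = n ∧ ∑ i ∈ S, (i : ℕ) = l := by
  constructor
  · by_contra hc
    exact hS (mem_sector_iff.1 h.1 S hc)
  · by_contra hc
    exact hS (mem_Lz_iff.1 h.2 S hc)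

/-- minimal orbital sum `0 + 3 + … + 3(n-1)` -/
def lmin (n : ℕ) : ℕ := ∑ k ∈ range n, 3 * k

/-- two times the minimal sum -/
theorem two_lmin (n : ℕ) : 2 * lmin n = 3 * (n * (n - 1)) := by
  unfold lmin
  induction n with
  | zero => simp
  | succ n ih =>
    rw [Finset.sum_range_succ, mul_add, ih]
    rcases n with _ | n
    · simp
    · simp only [Nat.add_sub_cancel]
      ring

theorem lmin_succ (n : ℕ) : lmin (n + 1) = lmin n + 3 * n := by
  unfold lmin; rw [Finset.sum_range_succ]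

/-- no zero modes below the minimal angular momentum, and none at all if `Q < 3 (n-1)` -/
theorem lmin_le {ν : ℕ → ℝ} (hν : PosM ν Q) {n l : ℕ} {ψ : Fk (Fin (Q + 1))} (hz : ψ ∈ Zs ν Q)
    (h : Sec Q n l ψ) (h0 : ψ ≠ 0) : lmin n ≤ l ∧ 3 * (n - 1) ≤ Q := by
  obtain ⟨S, hS, hadm⟩ := exists_adm hν hz h0
  obtain ⟨hc, hl⟩ := h.apply hS
  have hb := adm_bounds n S hadm hc
  refine ⟨by rw [← hl]; exact hb.1, ?_⟩
  rcases Nat.eq_zero_or_pos n with h1 | h1
  · subst h1; simp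
  · have hne : S.Nonempty := Finset.card_pos.1 (by omega)
    obtain ⟨t, ht, hmax⟩ := Finset.exists_max_image S (fun i => (i : ℕ)) hne
    have := hb.2.2 t ht (fun j hj => hmax j hj)
    omega

/-- a zero mode of minimal angular momentum vanishing at the root configuration is zero -/
theorem eq_zero_of_root {ν : ℕ → ℝ} (hν : PosM ν Q) {n : ℕ} {ψ : Fk (Fin (Q + 1))}
    (hz : ψ ∈ Zs ν Q) (h : Sec Q n (lmin n) ψ) (hr : ψ (rootS Q n) = 0) : ψ = 0 := by
  by_contra h0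
  obtain ⟨S, hS, hadm⟩ := exists_adm hν hz h0
  obtain ⟨hc, hl⟩ := h.apply hS
  rw [adm_eq_root hadm hc hl] at hS
  exact hS hr

theorem Sec.sub {n l : ℕ} {v w : Fk (Fin (Q + 1))} (hv : Sec Q n l v) (hw : Sec Q n l w) :
    Sec Q n l (v - w) := by
  refine ⟨?_, ?_⟩
  · rw [map_sub, hv.1, hw.1, smul_sub]
  · rw [map_sub, hv.2, hw.2, smul_sub]

theorem Sec.smul {n l : ℕ} {v : Fk (Fin (Q + 1))} (hv : Sec Q n l v) (a : ℂ) :
    Sec Q n l (a • v) := by
  refine ⟨?_, ?_⟩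
  · rw [map_smul, hv.1, smul_comm]
  · rw [map_smul, hv.2, smul_comm]

/-- UNIQUENESS -/
theorem unique {ν : ℕ → ℝ} (hν : PosM ν Q) {n : ℕ} {φ ψ : Fk (Fin (Q + 1))}
    (hφ : φ ∈ Zs ν Q) (hφs : Sec Q n (lmin n) φ) (h0 : φ ≠ 0)
    (hψ : ψ ∈ Zs ν Q) (hψs : Sec Q n (lmin n) ψ) : ∃ a : ℂ, ψ = a • φ := by
  have hr : φ (rootS Q n) ≠ 0 := fun h => h0 (eq_zero_of_root hν hφ hφs h)
  refine ⟨ψ (rootS Q n) / φ (rootS Q n), ?_⟩
  rw [← sub_eq_zero]
  refine eq_zero_of_root (n := n) hν (Submodule.sub_mem _ hψ (Submodule.smul_mem _ _ hφ))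
    (hψs.sub (hφs.smul _)) ?_
  rw [PiLp.sub_apply, PiLp.smul_apply, smul_eq_mul, div_mul_cancel₀ _ hr, sub_self]

/-! ### invariance of the zero modes -/

theorem dG_diag_comm_bz (f : ℕ → ℂ) (hf : ∀ i j, f i + f j = f (i + j) + f 0) (ν : ℕ → ℝ) (p : ℕ) :
    dG (Matrix.diagonal fun i : Fin (Q + 1) => f i) * bz ν Q p -
      bz ν Q p * dG (Matrix.diagonal fun i : Fin (Q + 1) => f i) = -(f p + f 0) • bz ν Q p := by
  unfold bz
  rw [Finset.mul_sum, Finset.sum_mul, ← Finset.sum_sub_distrib, Finset.smul_sum]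
  refine Finset.sum_congr rfl fun x hx => ?_
  have h2 := (mem_pairs.1 hx).2
  rw [mul_smul_comm, smul_mul_assoc, ← smul_sub, dG_diag_comm_cc, smul_comm, hf, h2]

theorem Lz_comm_bz (ν : ℕ → ℝ) (p : ℕ) : Lz Q * bz ν Q p - bz ν Q p * Lz Q = -(p : ℂ) • bz ν Q p := by
  have h := dG_diag_comm_bz (Q := Q) (fun i => (i : ℂ)) (by intro i j; push_cast; ring) ν p
  have e2 : (p : ℂ) + ((0 : ℕ) : ℂ) = (p : ℂ) := by simp
  rw [e2] at h
  exact h

theorem Nh_comm_bz (ν : ℕ → ℝ) (p : ℕ) : Nh * bz ν Q p - bz ν Q p * Nh = -(2 : ℂ) • bz ν Q p := by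
  have h := dG_diag_comm_bz (Q := Q) (fun _ => (1 : ℂ)) (by intro i j; rfl) ν p
  have e : Matrix.diagonal (fun _ : Fin (Q + 1) => (1 : ℂ)) = 1 := Matrix.diagonal_one
  rw [e] at h
  have e2 : (1 : ℂ) + 1 = 2 := by norm_num
  rw [e2] at h
  exact h

theorem c_comm_bz (ν : ℕ → ℝ) (p : ℕ) (k : Fin (Q + 1)) : c k * bz ν Q p = bz ν Q p * c k := by
  unfold bz
  rw [Finset.mul_sum, Finset.sum_mul]
  refine Finset.sum_congr rfl fun x _ => ?_
  rw [mul_smul_comm, smul_mul_assoc]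
  congr 1
  have h1 : ∀ a b : Fin (Q + 1), (c a * c b : Op (Fin (Q + 1))) = - (c b * c a) := by
    intro a b
    rw [eq_neg_iff_add_eq_zero]; exact c_c a b
  calc c k * (c x.2 * c x.1) = (c k * c x.2) * c x.1 := by rw [mul_assoc]
    _ = - (c x.2 * (c k * c x.1)) := by rw [h1 k x.2]; noncomm_ring
    _ = c x.2 * c x.1 * c k := by rw [h1 k x.1]; noncomm_ring

theorem map_mem_Zs_of_comm {ν : ℕ → ℝ} {T : Op (Fin (Q + 1))} {a : ℕ → ℂ}
    (h : ∀ p, T * bz ν Q p - bz ν Q p * T = a p • bz ν Q p) {ψ : Fk (Fin (Q + 1))}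
    (hψ : ψ ∈ Zs ν Q) : T ψ ∈ Zs ν Q := by
  intro p
  have h1 : bz ν Q p * T = T * bz ν Q p - a p • bz ν Q p := by rw [← h p]; abel
  have h2 : (bz ν Q p * T) ψ = 0 := by
    rw [h1, sub_ap, mul_ap, smul_ap, hψ p]
    rw [map_zero, smul_zero, sub_zero]
  exact h2

theorem c_mem_Zs {ν : ℕ → ℝ} {ψ : Fk (Fin (Q + 1))} (hψ : ψ ∈ Zs ν Q) (k : Fin (Q + 1)) :
    c k ψ ∈ Zs ν Q := by
  refine map_mem_Zs_of_comm (a := fun _ => 0) (fun p => ?_) hψ
  rw [c_comm_bz, sub_self, zero_smul]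

theorem pj_comm_Nh (ν : ℕ → ℝ) : Nh * pj (Zs ν Q) = pj (Zs ν Q) * Nh := by
  refine commute_pj (fun v hv => map_mem_Zs_of_comm (Nh_comm_bz ν) hv) (fun v hv => ?_)
  rw [star_Nh]
  exact map_mem_Zs_of_comm (Nh_comm_bz ν) hv

theorem pj_comm_Lz (ν : ℕ → ℝ) : Lz Q * pj (Zs ν Q) = pj (Zs ν Q) * Lz Q := by
  refine commute_pj (fun v hv => map_mem_Zs_of_comm (Lz_comm_bz ν) hv) (fun v hv => ?_)
  rw [star_Lz]
  exact map_mem_Zs_of_comm (Lz_comm_bz ν) hv

/-! ### the reference state -/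

/-- `Φ` is a unit zero mode with `n` particles and minimal angular momentum -/
structure IsRef (ν : ℕ → ℝ) (Q n : ℕ) (Φ : Fk (Fin (Q + 1))) : Prop where
  mem : Φ ∈ Zs ν Q
  sec : Sec Q n (lmin n) Φ
  unit : ‖Φ‖ = 1

theorem IsRef.ne {ν : ℕ → ℝ} {n : ℕ} {Φ : Fk (Fin (Q + 1))} (h : IsRef ν Q n Φ) : Φ ≠ 0 := by
  intro h0
  have := h.unit
  rw [h0, norm_zero] at this
  exact zero_ne_one this

/-- KEY: every operator commuting with `Nh` and `Lz` maps `Φ` to a multiple of `Φ` modulo `Zs^⊥` -/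
theorem IsRef.proj {ν : ℕ → ℝ} (hν : PosM ν Q) {n : ℕ} {Φ : Fk (Fin (Q + 1))} (h : IsRef ν Q n Φ)
    {T : Op (Fin (Q + 1))} (hN : T * Nh = Nh * T) (hL : T * Lz Q = Lz Q * T) :
    pj (Zs ν Q) (T Φ) = (inner ℂ Φ (T Φ) : ℂ) • Φ := by
  have h1 : Sec Q n (lmin n) (T Φ) := by
    refine ⟨?_, ?_⟩
    · rw [← mul_ap, ← hN, mul_ap, h.sec.1, map_smul]
    · rw [← mul_ap, ← hL, mul_ap, h.sec.2, map_smul]
  have h2 : Sec Q n (lmin n) (pj (Zs ν Q) (T Φ)) := by
    refine ⟨?_, ?_⟩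
    · rw [← mul_ap, pj_comm_Nh, mul_ap, h1.1, map_smul]
    · rw [← mul_ap, pj_comm_Lz, mul_ap, h1.2, map_smul]
  obtain ⟨a, ha⟩ := unique hν h.mem h.sec h.ne (pj_mem _ _) h2
  have h3 : (inner ℂ Φ (pj (Zs ν Q) (T Φ)) : ℂ) = inner ℂ Φ (T Φ) := by
    have h4 := inner_star_right (pj (Zs ν Q)) Φ (T Φ)
    rw [star_pj] at h4
    rw [h4, pj_of_mem h.mem]
  rw [ha, inner_smul_right, inner_self_eq_norm_sq_to_K, h.unit] at h3
  have h5 : a = inner ℂ Φ (T Φ) := by simpa using h3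
  rw [ha, h5]

theorem dG_diag_comm_Nh (f : Fin (Q + 1) → ℂ) :
    dG (Matrix.diagonal f) * Nh = Nh * dG (Matrix.diagonal f) := (Nh_comm_dG _).symm

theorem dG_diag_comm_Lz (f : Fin (Q + 1) → ℂ) :
    dG (Matrix.diagonal f) * Lz Q = Lz Q * dG (Matrix.diagonal f) := by
  rw [Lz_eq, dG_diagonal, ← diag_mul, ← diag_mul, mul_comm]

theorem IsRef.proj_diag {ν : ℕ → ℝ} (hν : PosM ν Q) {n : ℕ} {Φ : Fk (Fin (Q + 1))}
    (h : IsRef ν Q n Φ) (f : Fin (Q + 1) → ℂ) :
    pj (Zs ν Q) (dG (Matrix.diagonal f) Φ) = (inner ℂ Φ (dG (Matrix.diagonal f) Φ) : ℂ) • Φ :=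
  h.proj hν (dG_diag_comm_Nh f) (dG_diag_comm_Lz f)

/-- `c k` lowers number by one and angular momentum by `k` -/
theorem c_sec {n l : ℕ} {v : Fk (Fin (Q + 1))} (h : Sec Q n l v) (k : Fin (Q + 1))
    (S : Finset (Fin (Q + 1))) (hS : c k v S ≠ 0) : S.card + 1 = n ∧ ∑ i ∈ S, (i : ℕ) + k = l := by
  rw [c_apply] at hS
  split_ifs at hS with hk
  · exact absurd rfl hS
  have h1 : v (insert k S) ≠ 0 := fun h0 => hS (by rw [h0, mul_zero])
  obtain ⟨h2, h3⟩ := h.apply h1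
  rw [Finset.card_insert_of_notMem hk] at h2
  rw [Finset.sum_insert hk] at h3
  exact ⟨h2, by omega⟩

/-- orbitals above `3 (n-1)` are empty on a zero mode of minimal angular momentum -/
theorem c_eq_zero {ν : ℕ → ℝ} (hν : PosM ν Q) {n : ℕ} {ψ : Fk (Fin (Q + 1))}
    (hz : ψ ∈ Zs ν Q) (h : Sec Q n (lmin n) ψ) (k : Fin (Q + 1)) (hk : 3 * (n - 1) < (k : ℕ)) :
    c k ψ = 0 := by
  by_contra h0
  obtain ⟨S, hS, hadm⟩ := exists_adm hν (c_mem_Zs hz k) h0
  obtain ⟨h1, h2⟩ := c_sec h k S hS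
  rcases n with _ | n
  · omega
  have hc : S.card = n := by omega
  have hb := (adm_bounds n S hadm hc).1
  have h3 := lmin_succ n
  have h4 : lmin n = ∑ k ∈ range n, 3 * k := rfl
  simp only [Nat.add_sub_cancel] at hk
  omega

end Crest.Agent.R340.Vac467
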