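import Crest.Agent.R340.Weak1_716
import Crest.Agent.R340.K1rad_716
import Crest.Agent.R340.K1top_716
import Crest.Agent.R340.Rev_716
import Crest.Agent.R340.Vac1_467

/-!
# R340 / S0532: the one-hole sector, decomposition into `L_z` lines (helper716)

* `K1V ψ`: unit vectors `ψ n k` (`k ≤ n+1`) of the lines of `Zn (nu0 (3n+1)) (3n+1) (n+1)`.
* `K1B ψ`: orthonormal basis which diagonalizes all `dGf f`; `K1V.toK1B`.
* `form_diag`, `norm_sq_sum`, `hf_sum`.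
* `en_refl`: the field `R` of `K1rad716.DataR`, `en_Dm`: the field `Dm`.
-/

set_option autoImplicit false
set_option linter.unusedSectionVars false
open scoped InnerProductSpace ComplexConjugate

namespace Crest.Agent.R340.K1dec716

open Finset
open Crest.Agent.R340.Fock649 Crest.Agent.R340.Emb596 Crest.Agent.R340.Geo986
  Crest.Agent.R340.Peel596 Crest.Agent.R340.Step596
open Crest.Agent.R340.Scal725 Crest.Agent.R340.DomF735 Crest.Agent.R340.DomG735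
open Crest.Agent.R340.Weak716 Crest.Agent.R340.K1in788 Crest.Agent.R340.Rev716
open Crest.Agent.R340.Vac467 (lmin two_lmin)

/-! ### sectors with `K = 1` -/

section sectors
variable {Q : ℕ}

theorem lmin_le_Ad {n : ℕ} {S : Finset (Fin (Q + 1))} (hS : Ad S) (hc : S.card = n) :
    lmin n ≤ ∑ i ∈ S, (i : ℕ) := by
  rw [sum_eq_emb hc]
  have e : lmin n = ∑ a : Fin n, 3 * (a : ℕ) := by
    unfold lmin
    rw [← Fin.sum_univ_eq_sum_range (fun k => 3 * k) n]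
  rw [e]
  refine sum_le_sum fun a _ => ?_
  have h1 := ad_emb hS hc (a : ℕ) 0 (by omega)
  have e1 : (⟨0 + (a : ℕ), by omega⟩ : Fin n) = a := Fin.ext (by simp)
  rw [e1] at h1
  omega

theorem lmin_le_ZS {ν : ℕ → ℝ} (hν : PosM ν Q) {n M : ℕ} {ψ : Fk (Fin (Q + 1))}
    (h : ψ ∈ ZS ν Q n M) (h0 : ψ ≠ 0) : lmin n ≤ M := by
  obtain ⟨S, h1, h2, h3, h4⟩ := ZS_exists_ad hν h h0
  rw [← h3]
  exact lmin_le_Ad h4 h2

theorem rv_ne_zero {ψ : Fk (Fin (Q + 1))} (h0 : ψ ≠ 0) : rv ψ ≠ 0 := by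
  intro h
  have := norm_rv ψ
  rw [h, norm_zero] at this
  exact h0 (norm_eq_zero.1 this.symm)

theorem sum_le_card_mul (S : Finset (Fin (Q + 1))) : ∑ i ∈ S, (i : ℕ) ≤ S.card * Q := by
  calc ∑ i ∈ S, (i : ℕ) ≤ ∑ _i ∈ S, Q := sum_le_sum fun i _ => by omega
    _ = S.card * Q := by rw [sum_const, smul_eq_mul]

theorem le_sub_lmin {n M : ℕ} {ψ : Fk (Fin (Q + 1))}
    (h : ψ ∈ ZS (nu0 Q) Q n M) (h0 : ψ ≠ 0) : M + lmin n ≤ n * Q := by
  have h1 := lmin_le_ZS (posM_nu0 Q) (rv_mem_ZS h) (rv_ne_zero h0)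
  obtain ⟨S, h2, h3, h4, h5⟩ := ZS_exists_ad (posM_nu0 Q) h h0
  have h6 := sum_le_card_mul S
  rw [h3, h4] at h6
  omega

end sectors

/-- the angular momentum of the `k`-th line -/
def Mk (n k : ℕ) : ℕ := lmin (n + 1) + (n + 1 - k)

theorem Mk_bounds (n M : ℕ) (h1 : lmin (n + 1) ≤ M) (h2 : M + lmin (n + 1) ≤ (n + 1) * (3 * n + 1)) :
    ∃ k ≤ n + 1, M = Mk n k := by
  have h3 := two_lmin (n + 1)
  have h4 : (n + 1) * (3 * n + 1) = 3 * ((n + 1) * (n + 1 - 1)) + (n + 1) := by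
    rw [Nat.add_sub_cancel]; ring
  refine ⟨n + 1 - (M - lmin (n + 1)), by omega, ?_⟩
  unfold Mk
  omega

theorem Mk_refl (n k : ℕ) (hk : k ≤ n + 1) : (n + 1) * (3 * n + 1) - Mk n k = Mk n (n + 1 - k) := by
  have h3 := two_lmin (n + 1)
  have h4 : (n + 1) * (3 * n + 1) = 3 * ((n + 1) * (n + 1 - 1)) + (n + 1) := by
    rw [Nat.add_sub_cancel]; ring
  unfold Mk
  omega

theorem Mk_inj {n k l : ℕ} (hk : k ≤ n + 1) (hl : l ≤ n + 1) (h : Mk n k = Mk n l) : k = l := by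
  unfold Mk at h
  omega

/-- unit vectors of the lines -/
def K1V (ψ : (n k : ℕ) → Fk (Fin (3 * n + 1 + 1))) : Prop :=
  ∀ n, ∀ k ≤ n + 1, ψ n k ∈ ZS (nu0 (3 * n + 1)) (3 * n + 1) (n + 1) (Mk n k) ∧ ‖ψ n k‖ = 1

/-- basis of the one-hole sectors. -/
structure K1B (ψ : (n k : ℕ) → Fk (Fin (3 * n + 1 + 1))) : Prop where
  mem : ∀ n, ∀ k ≤ n + 1, ψ n k ∈ Zn (nu0 (3 * n + 1)) (3 * n + 1) (n + 1)
  unit : ∀ n, ∀ k ≤ n + 1, ‖ψ n k‖ = 1
  orth : ∀ n, ∀ k ≤ n + 1, ∀ l ≤ n + 1, k ≠ l → ⟪ψ n k, ψ n l⟫_ℂ = 0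
  diag : ∀ n, ∀ k ≤ n + 1, ∀ l ≤ n + 1, k ≠ l → ∀ f : ℕ → ℝ,
    ⟪ψ n k, dGf f (3 * n + 1) (ψ n l)⟫_ℂ = 0
  span : ∀ n, ∀ φ ∈ Zn (nu0 (3 * n + 1)) (3 * n + 1) (n + 1),
    ∃ α : ℕ → ℂ, φ = ∑ k ∈ range (n + 2), α k • ψ n k

/-- diagonal entries of `dGf f`. -/
noncomputable def en (ψ : (n k : ℕ) → Fk (Fin (3 * n + 1 + 1))) (n k : ℕ) (f : ℕ → ℝ) : ℝ :=
  (⟪ψ n k, dGf f (3 * n + 1) (ψ n k)⟫_ℂ).re

theorem inner_Sc {Q n M M' : ℕ} {v w : Fk (Fin (Q + 1))} (hv : v ∈ Sc Q n M) (hw : w ∈ Sc Q n M')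
    (h : M ≠ M') : ⟪v, w⟫_ℂ = 0 := by
  rw [PiLp.inner_apply]
  refine sum_eq_zero fun S _ => ?_
  by_cases h1 : v S = 0
  · rw [h1, inner_zero_left]
  · by_cases h2 : w S = 0
    · rw [h2, inner_zero_right]
    · exact absurd ((hv S h1).2.symm.trans (hw S h2).2) h

theorem K1V.toK1B {ψ : (n k : ℕ) → Fk (Fin (3 * n + 1 + 1))} (h : K1V ψ) : K1B ψ where
  mem := fun n k hk => ZS_le_Zn (h n k hk).1
  unit := fun n k hk => (h n k hk).2
  orth := fun n k hk l hl hkl =>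
    inner_Sc (h n k hk).1.2 (h n l hl).1.2 fun e => hkl (Mk_inj hk hl e)
  diag := fun n k hk l hl hkl f =>
    inner_Sc (h n k hk).1.2 (dR_mem_Sc (h n l hl).1.2 fun j => f j) fun e => hkl (Mk_inj hk hl e)
  span := by
    intro n φ hφ
    have hN : ∀ S, φ S ≠ 0 → S.card = n + 1 := by
      intro S hS
      by_contra hne
      exact hS ((GG467.mem_sector_iff (N := n + 1) (v := φ)).1 hφ.2 S hne)
    have key : ∀ k, k ≤ n + 1 → ∃ z : ℂ, prSc (3 * n + 1) (n + 1) (Mk n k) φ = z • ψ n k := by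
      intro k hk
      obtain ⟨h1, h2⟩ := h n k hk
      have h0 : ψ n k ≠ 0 := fun h0 => by rw [h0, norm_zero] at h2; exact zero_ne_one h2
      exact ZS_smul (posM_nu0 _) (by omega) h1 h0 ⟨prSc_mem_Zs hφ.1 _ _, prSc_mem _ _ _⟩
    choose! α hα using key
    refine ⟨α, ?_⟩
    have e1 : ∑ k ∈ range (n + 2), α k • ψ n k =
        ∑ k ∈ range (n + 2), prSc (3 * n + 1) (n + 1) (Mk n k) φ := by
      refine sum_congr rfl fun k hk => (hα k ?_).symm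
      have := mem_range.1 hk
      omega
    rw [e1]
    ext S
    rw [sum_apply']
    simp only [prSc_apply]
    by_cases hS : φ S = 0
    · rw [hS]; simp
    · have h1 := hN S hS
      set M := ∑ i ∈ S, (i : ℕ) with hM
      have h2 : prSc (3 * n + 1) (n + 1) M φ ≠ 0 := by
        intro h0
        have := congrArg (fun v : Fk (Fin (3 * n + 1 + 1)) => v S) h0
        simp only [prSc_apply] at this
        rw [if_pos ⟨h1, hM.symm⟩] at this
        exact hS this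
      have hz : prSc (3 * n + 1) (n + 1) M φ ∈ ZS (nu0 (3 * n + 1)) (3 * n + 1) (n + 1) M :=
        ⟨prSc_mem_Zs hφ.1 _ _, prSc_mem _ _ _⟩
      obtain ⟨k, hk, hMk⟩ := Mk_bounds n M (lmin_le_ZS (posM_nu0 _) hz h2) (le_sub_lmin hz h2)
      rw [sum_eq_single k]
      · rw [if_pos ⟨h1, hMk⟩]
      · intro l hl hlk
        rw [if_neg]
        rintro ⟨-, h3⟩
        have hl' := mem_range.1 hl
        exact hlk (Mk_inj (by omega) hk (h3.symm.trans hMk))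
      · intro h3
        exact absurd (mem_range.2 (by omega)) h3

variable {ψ : (n k : ℕ) → Fk (Fin (3 * n + 1 + 1))}

theorem form_diag {n : ℕ} (A : Op (Fin (3 * n + 1 + 1)))
    (hA : ∀ k ≤ n + 1, ∀ l ≤ n + 1, k ≠ l → ⟪ψ n k, A (ψ n l)⟫_ℂ = 0) (α : ℕ → ℂ) :
    (⟪∑ k ∈ range (n + 2), α k • ψ n k, A (∑ k ∈ range (n + 2), α k • ψ n k)⟫_ℂ).re =
      ∑ k ∈ range (n + 2), (⟪ψ n k, A (ψ n k)⟫_ℂ).re * ‖α k‖ ^ 2 := by
  have e1 : A (∑ k ∈ range (n + 2), α k • ψ n k) = ∑ k ∈ range (n + 2), α k • A (ψ n k) := by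
    rw [map_sum]
    exact sum_congr rfl fun k _ => map_smul _ _ _
  rw [e1, sum_inner, Complex.re_sum]
  apply sum_congr rfl
  intro k hk
  rw [inner_sum, sum_eq_single k]
  · rw [inner_smul_left, inner_smul_right, ← mul_assoc]
    have : (starRingEnd ℂ) (α k) * α k = ((‖α k‖ ^ 2 : ℝ) : ℂ) := by
      rw [mul_comm, Complex.mul_conj, Complex.normSq_eq_norm_sq]
    rw [this, Complex.re_ofReal_mul, mul_comm]
  · intro l hl hlk
    rw [inner_smul_left, inner_smul_right, hA k (by have := mem_range.1 hk; omega) l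
      (by have := mem_range.1 hl; omega) (Ne.symm hlk)]
    simp
  · intro h; exact absurd hk h

theorem norm_sq_sum (h : K1B ψ) (n : ℕ) (α : ℕ → ℂ) :
    ‖∑ k ∈ range (n + 2), α k • ψ n k‖ ^ 2 = ∑ k ∈ range (n + 2), ‖α k‖ ^ 2 := by
  have h1 := form_diag (ψ := ψ) (n := n) (1 : Op (Fin (3 * n + 1 + 1)))
    (fun k hk l hl hkl => by rw [one_ap]; exact h.orth n k hk l hl hkl) α
  have h2 : (⟪∑ k ∈ range (n + 2), α k • ψ n k,
      (1 : Op (Fin (3 * n + 1 + 1))) (∑ k ∈ range (n + 2), α k • ψ n k)⟫_ℂ).re =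
      ‖∑ k ∈ range (n + 2), α k • ψ n k‖ ^ 2 := by
    rw [one_ap, inner_self_eq_norm_sq_to_K]
    norm_cast
  rw [← h2, h1]
  apply sum_congr rfl
  intro k hk
  have h3 : (⟪ψ n k, (1 : Op (Fin (3 * n + 1 + 1))) (ψ n k)⟫_ℂ).re = 1 := by
    rw [one_ap, inner_self_eq_norm_sq_to_K, h.unit n k (by have := mem_range.1 hk; omega)]
    norm_num
  rw [h3, one_mul]

theorem hf_sum (h : K1B ψ) (n : ℕ) (f : ℕ → ℝ) (α : ℕ → ℂ) :
    hf f (∑ k ∈ range (n + 2), α k • ψ n k) =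
      ∑ k ∈ range (n + 2), (3 * (cs f (3 * n + 1) - en ψ n k f)) * ‖α k‖ ^ 2 := by
  have h1 := form_diag (ψ := ψ) (n := n) (dGf f (3 * n + 1))
    (fun k hk l hl hkl => h.diag n k hk l hl hkl f) α
  unfold hf
  rw [h1, norm_sq_sum h, mul_sum, ← sum_sub_distrib, mul_sum]
  apply sum_congr rfl
  intro k _
  unfold en
  ring

/-! ### fields of `DataR` -/

theorem en_eq_mean (n k : ℕ) (f : ℕ → ℝ) :
    en ψ n k f = mean (dR fun j : Fin (3 * n + 1 + 1) => f j) (ψ n k) := rfl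

theorem en_add (n k : ℕ) (f g : ℕ → ℝ) :
    en ψ n k (fun j => f j + g j) = en ψ n k f + en ψ n k g := by
  simp only [en_eq_mean, mean_dR_eq_sum]
  rw [← sum_add_distrib]
  refine sum_congr rfl fun S _ => ?_
  rw [sum_add_distrib, add_mul]

theorem en_congr (n k : ℕ) (f g : ℕ → ℝ) (h : ∀ j ≤ 3 * n + 1, f j = g j) :
    en ψ n k f = en ψ n k g := by
  simp only [en_eq_mean, mean_dR_eq_sum]
  refine sum_congr rfl fun S _ => ?_
  congr 1
  refine sum_congr rfl fun i _ => h i (by omega)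

theorem en_refl (h : K1V ψ) (n k : ℕ) (hk : k ≤ n + 1) (f : ℕ → ℝ) :
    en ψ n k f = en ψ n (n + 1 - k) (fun j => f (3 * n + 1 - j)) := by
  obtain ⟨h1, h2⟩ := h n k hk
  obtain ⟨h3, h4⟩ := h n (n + 1 - k) (by omega)
  have h5 := rv_mem_ZS h1
  rw [Mk_refl n k hk] at h5
  have h0 : ψ n (n + 1 - k) ≠ 0 := fun h0 => by rw [h0, norm_zero] at h4; exact zero_ne_one h4
  obtain ⟨z, hz⟩ := ZS_smul (posM_nu0 _) (by omega) h3 h0 h5
  have hz1 : ‖z‖ = 1 := by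
    have := norm_rv (ψ n k)
    rw [hz, norm_smul, h4, h2, mul_one] at this
    exact this
  rw [en_eq_mean, en_eq_mean, mean_rv, hz, mean_smul, hz1, one_pow, one_mul]

theorem en_Dm (h : K1V ψ) (n k : ℕ) (hk : k ≤ n + 1) (f : ℕ → ℝ) (hc : Dom735.Cvx f)
    (ha : Antitone f) :
    f (3 * n + 1) - 2 * (f 0 - f (3 * n + 1)) ≤ 3 * (cs f (3 * n + 1) - en ψ n k f) := by
  obtain ⟨h1, h2⟩ := h n k hk
  have h3 := base_fock' (posM_nu0 (3 * n + 1)) h1.1 (n := n + 1) (fun S hS => (h1.2 S hS).1) hc ha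
  rw [h2, one_pow, mul_one, mul_one] at h3
  push_cast at h3
  have e : (3 * (n : ℝ) + 1 + 3 - 3 * (n + 1)) = 1 := by ring
  rw [e, one_mul] at h3
  exact h3

end Crest.Agent.R340.K1dec716
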