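import Crest.Agent.R340.Path_924

/-!
# R340, K = 1 inputs (docs 1253), abstract part (helper788)

* `entry_mid`, `peel_entry`, `peel_entry_norm` : matrix elements of a local operator between two zero
  modes `ψ, φ` with `P n ψ = a ψ`, `P n φ = b φ`, `n = c† c`, compared with the matrix elements
  between `c ψ / ‖c ψ‖` and `c φ / ‖c φ‖`.
* `offdiag_small` : the matrix elements with `c φ = 0` are small.
* `nrm`, `hasDerivAt_nrm` : normalised vectors moving under `d/db Γ_b F = -(1/2) A_b Γ_b F`.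
* `path_matrix` : matrix elements of `X` along the path, operator norm form.
* `path_diag` : diagonal matrix elements along the path, exact formula.
-/

set_option autoImplicit false
set_option linter.unusedSectionVars false

namespace Crest.Agent.R340.K1in788

open Set Filter Topology Finset
open scoped InnerProductSpace ComplexConjugate

/-- convexity: `t` close to `a s` and to `b s` is close to `√(a b) s`. -/
theorem entry_mid {s t : ℂ} {a b e : ℝ} (ha : 0 ≤ a) (hb : 0 ≤ b)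
    (h1 : ‖t - (a : ℂ) * s‖ ≤ e) (h2 : ‖t - (b : ℂ) * s‖ ≤ e) :
    ‖t - ((√(a * b) : ℝ) : ℂ) * s‖ ≤ e := by
  wlog hab : a ≤ b generalizing a b
  · rw [mul_comm a b]
    exact this hb ha h2 h1 (le_of_not_ge hab)
  have hs1 : a ≤ √(a * b) := by
    apply Real.le_sqrt_of_sq_le
    nlinarith
  have hs2 : √(a * b) ≤ b := by
    rw [Real.sqrt_le_left hb]
    nlinarith
  rcases eq_or_lt_of_le hab with h | h
  · have : √(a * b) = a := le_antisymm (hs2.trans h.ge) hs1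
    rw [this]; exact h1
  set l : ℝ := (b - √(a * b)) / (b - a) with hl
  have hba : 0 < b - a := by linarith
  have hl0 : 0 ≤ l := div_nonneg (by linarith) hba.le
  have hl1 : l ≤ 1 := by rw [hl, div_le_one hba]; linarith
  have hl2 : l * a + (1 - l) * b = √(a * b) := by
    rw [hl]; field_simp; ring
  have key : t - ((√(a * b) : ℝ) : ℂ) * s
      = (l : ℂ) * (t - (a : ℂ) * s) + ((1 - l : ℝ) : ℂ) * (t - (b : ℂ) * s) := by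
    rw [← hl2]; push_cast; ring
  rw [key]
  calc _ ≤ ‖(l : ℂ) * (t - (a : ℂ) * s)‖ + ‖((1 - l : ℝ) : ℂ) * (t - (b : ℂ) * s)‖ :=
        norm_add_le _ _
    _ = l * ‖t - (a : ℂ) * s‖ + (1 - l) * ‖t - (b : ℂ) * s‖ := by
        rw [norm_mul, norm_mul, Complex.norm_real, Complex.norm_real, Real.norm_of_nonneg hl0,
          Real.norm_of_nonneg (by linarith)]
    _ ≤ l * e + (1 - l) * e := by
        have h3 := mul_le_mul_of_nonneg_left h1 hl0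
        have h4 := mul_le_mul_of_nonneg_left h2 (by linarith : (0 : ℝ) ≤ 1 - l)
        linarith
    _ = e := by ring

variable {E F : Type*} [NormedAddCommGroup E] [InnerProductSpace ℂ E] [FiniteDimensional ℂ E]
  [NormedAddCommGroup F] [InnerProductSpace ℂ F] [FiniteDimensional ℂ F]

/-- one-sided comparison: `⟪c ψ, XA (c φ)⟫ ≈ a ⟪ψ, X φ⟫` if `P c† c ψ = a ψ`. -/
theorem entry_left (Z : Submodule ℂ E) (c : E →L[ℂ] F) (X : E →L[ℂ] E) (XA : F →L[ℂ] F)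
    {ψ φ : E} {a e1 e2 : ℝ}
    (ha : Z.starProjection (c.adjoint (c ψ)) = (a : ℂ) • ψ)
    (h1 : ‖⟪c ψ, XA (c φ) - c (X φ)⟫_ℂ‖ ≤ e1)
    (h2 : ‖⟪c.adjoint (c ψ) - Z.starProjection (c.adjoint (c ψ)), X φ⟫_ℂ‖ ≤ e2) :
    ‖⟪c ψ, XA (c φ)⟫_ℂ - (a : ℂ) * ⟪ψ, X φ⟫_ℂ‖ ≤ e1 + e2 := by
  have e : ⟪c ψ, XA (c φ)⟫_ℂ - (a : ℂ) * ⟪ψ, X φ⟫_ℂ
      = ⟪c ψ, XA (c φ) - c (X φ)⟫_ℂ
        + ⟪c.adjoint (c ψ) - Z.starProjection (c.adjoint (c ψ)), X φ⟫_ℂ := by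
    rw [inner_sub_right, inner_sub_left, ha, inner_smul_left, Complex.conj_ofReal,
      ContinuousLinearMap.adjoint_inner_left]
    ring
  rw [e]
  exact (norm_add_le _ _).trans (add_le_add h1 h2)

/-- **Nondegenerate peeling**, unnormalised. -/
theorem peel_entry (Z : Submodule ℂ E) (c : E →L[ℂ] F) (X X' : E →L[ℂ] E) (XA XA' : F →L[ℂ] F)
    (hX : ∀ x y, ⟪X' x, y⟫_ℂ = ⟪x, X y⟫_ℂ) (hXA : ∀ x y, ⟪XA' x, y⟫_ℂ = ⟪x, XA y⟫_ℂ)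
    {ψ φ : E} {a b e1 e2 : ℝ} (ha0 : 0 ≤ a) (hb0 : 0 ≤ b)
    (ha : Z.starProjection (c.adjoint (c ψ)) = (a : ℂ) • ψ)
    (hb : Z.starProjection (c.adjoint (c φ)) = (b : ℂ) • φ)
    (h1 : ‖⟪c ψ, XA (c φ) - c (X φ)⟫_ℂ‖ ≤ e1)
    (h2 : ‖⟪c.adjoint (c ψ) - Z.starProjection (c.adjoint (c ψ)), X φ⟫_ℂ‖ ≤ e2)
    (h1' : ‖⟪c φ, XA' (c ψ) - c (X' ψ)⟫_ℂ‖ ≤ e1)
    (h2' : ‖⟪c.adjoint (c φ) - Z.starProjection (c.adjoint (c φ)), X' ψ⟫_ℂ‖ ≤ e2) :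
    ‖⟪c ψ, XA (c φ)⟫_ℂ - ((√(a * b) : ℝ) : ℂ) * ⟪ψ, X φ⟫_ℂ‖ ≤ e1 + e2 := by
  refine entry_mid ha0 hb0 (entry_left Z c X XA ha h1 h2) ?_
  have h3 := entry_left Z c X' XA' hb h1' h2'
  rw [← RCLike.norm_conj] at h3
  have e : conj (⟪c φ, XA' (c ψ)⟫_ℂ - (b : ℂ) * ⟪φ, X' ψ⟫_ℂ)
      = ⟪c ψ, XA (c φ)⟫_ℂ - (b : ℂ) * ⟪ψ, X φ⟫_ℂ := by
    rw [map_sub, map_mul, inner_conj_symm, inner_conj_symm, Complex.conj_ofReal, hX, hXA]
  rw [e] at h3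
  exact h3

/-- `‖c ψ‖² = a ‖ψ‖²` if `P c† c ψ = a ψ`, `ψ ∈ Z`. -/
theorem norm_sq_of_proj (Z : Submodule ℂ E) (c : E →L[ℂ] F) {ψ : E} (hψ : ψ ∈ Z) {a : ℝ}
    (ha : Z.starProjection (c.adjoint (c ψ)) = (a : ℂ) • ψ) : ‖c ψ‖ ^ 2 = a * ‖ψ‖ ^ 2 := by
  have h1 : ⟪ψ, c.adjoint (c ψ) - Z.starProjection (c.adjoint (c ψ))⟫_ℂ = 0 :=
    Submodule.inner_right_of_mem_orthogonal hψ (Submodule.sub_starProjection_mem_orthogonal _)
  rw [inner_sub_right, ha, ContinuousLinearMap.adjoint_inner_right, inner_smul_right,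
    inner_self_eq_norm_sq_to_K, inner_self_eq_norm_sq_to_K] at h1
  have h2 := congrArg Complex.re (sub_eq_zero.mp h1)
  have h3 : ∀ r : ℝ, (((r : ℝ) : ℂ) ^ 2).re = r ^ 2 := fun r => by norm_cast
  have h4 : ∀ r s : ℝ, ((r : ℂ) * ((s : ℂ)) ^ 2).re = r * s ^ 2 := fun r s => by norm_cast
  rw [RCLike.ofReal_eq_complex_ofReal] at h2
  rw [h3, h4] at h2
  exact h2

/-- **Nondegenerate peeling**, normalised: `ψA = c ψ / √a`, `φA = c φ / √b`. -/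
theorem peel_entry_norm (Z : Submodule ℂ E) (c : E →L[ℂ] F) (X X' : E →L[ℂ] E)
    (XA XA' : F →L[ℂ] F)
    (hX : ∀ x y, ⟪X' x, y⟫_ℂ = ⟪x, X y⟫_ℂ) (hXA : ∀ x y, ⟪XA' x, y⟫_ℂ = ⟪x, XA y⟫_ℂ)
    {ψ φ : E} {ψA φA : F} {a b e1 e2 κ : ℝ} (hκ : 0 < κ) (ha0 : κ ≤ a) (hb0 : κ ≤ b)
    (hψA : c ψ = ((√a : ℝ) : ℂ) • ψA) (hφA : c φ = ((√b : ℝ) : ℂ) • φA)
    (ha : Z.starProjection (c.adjoint (c ψ)) = (a : ℂ) • ψ)
    (hb : Z.starProjection (c.adjoint (c φ)) = (b : ℂ) • φ)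
    (h1 : ‖⟪c ψ, XA (c φ) - c (X φ)⟫_ℂ‖ ≤ e1)
    (h2 : ‖⟪c.adjoint (c ψ) - Z.starProjection (c.adjoint (c ψ)), X φ⟫_ℂ‖ ≤ e2)
    (h1' : ‖⟪c φ, XA' (c ψ) - c (X' ψ)⟫_ℂ‖ ≤ e1)
    (h2' : ‖⟪c.adjoint (c φ) - Z.starProjection (c.adjoint (c φ)), X' ψ⟫_ℂ‖ ≤ e2) :
    ‖⟪ψA, XA φA⟫_ℂ - ⟪ψ, X φ⟫_ℂ‖ ≤ (e1 + e2) / κ := by
  have ha1 : 0 < a := hκ.trans_le ha0
  have hb1 : 0 < b := hκ.trans_le hb0
  have h := peel_entry Z c X X' XA XA' hX hXA ha1.le hb1.le ha hb h1 h2 h1' h2'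
  have e : ⟪c ψ, XA (c φ)⟫_ℂ = ((√(a * b) : ℝ) : ℂ) * ⟪ψA, XA φA⟫_ℂ := by
    rw [hψA, hφA, map_smul, inner_smul_left, inner_smul_right, Complex.conj_ofReal,
      Real.sqrt_mul ha1.le]
    push_cast; ring
  rw [e, ← mul_sub, norm_mul, Complex.norm_real, Real.norm_of_nonneg (Real.sqrt_nonneg _)] at h
  have hk : κ ≤ √(a * b) := by
    apply Real.le_sqrt_of_sq_le
    nlinarith
  rw [le_div_iff₀ hκ, mul_comm]
  exact (mul_le_mul_of_nonneg_right hk (norm_nonneg _)).trans h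

/-- matrix elements between the A-block and the B-block are small. -/
theorem offdiag_small (Z : Submodule ℂ E) (c : E →L[ℂ] F) (X : E →L[ℂ] E) (XA : F →L[ℂ] F)
    {ψ φ : E} {a e1 e2 κ : ℝ} (hκ : 0 < κ) (ha0 : κ ≤ a) (hφ0 : c φ = 0)
    (ha : Z.starProjection (c.adjoint (c ψ)) = (a : ℂ) • ψ)
    (h1 : ‖⟪c ψ, XA (c φ) - c (X φ)⟫_ℂ‖ ≤ e1)
    (h2 : ‖⟪c.adjoint (c ψ) - Z.starProjection (c.adjoint (c ψ)), X φ⟫_ℂ‖ ≤ e2) :
    ‖⟪ψ, X φ⟫_ℂ‖ ≤ (e1 + e2) / κ := by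
  have h := entry_left Z c X XA ha h1 h2
  rw [hφ0, map_zero, inner_zero_right, zero_sub, norm_neg, norm_mul, Complex.norm_real,
    Real.norm_of_nonneg (hκ.le.trans ha0)] at h
  rw [le_div_iff₀ hκ, mul_comm]
  exact (mul_le_mul_of_nonneg_right ha0 (norm_nonneg _)).trans h

end Crest.Agent.R340.K1in788
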