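import Crest.Agent.R340.K1inP_788

/-!
# R340, K = 1 inputs (helper788): the `L_z` sectors of `Zs ν Q` with `K ≤ 1` are one-dimensional

* `Ad S` : gaps at least 3.
* `exists_ad` : a zero mode with `ψ T ≠ 0` has an admissible `S` in its support, same number of
  elements, same sum.
* `ad_unique` : for `Q + 2 ≤ 3 n` an admissible set is determined by its sum.
* `Sc Q n M` : sector, `ZS ν Q n M` : zero modes of the sector, `ZS_smul` : one-dimensional.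
* `starProj_ZS` : projection on `Zs` (or `Zn`) of a vector of the sector.
-/

set_option autoImplicit false
set_option linter.unusedSectionVars false

namespace Crest.Agent.R340.K1in788

open Finset
open scoped InnerProductSpace ComplexConjugate
open Crest.Agent.R340.Fock649 Crest.Agent.R340.Geo986 Crest.Agent.R340.Peel596
  Crest.Agent.R340.Emb596

variable {Q : ℕ}

/-- gaps at least 3 -/
def Ad (S : Finset (Fin (Q + 1))) : Prop := ∀ i ∈ S, ∀ j ∈ S, i < j → (i : ℕ) + 3 ≤ j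

theorem cc_apply (i j : Fin (Q + 1)) (ψ : Fk (Fin (Q + 1))) (U : Finset (Fin (Q + 1))) :
    (c j * c i : Op (Fin (Q + 1))) ψ U =
      if j ∈ U then 0 else sg j U * (if i ∈ insert j U then 0 else
        sg i (insert j U) * ψ (insert i (insert j U))) := by
  rw [mul_ap, c_apply, c_apply]

theorem arith_sq {i j a b : ℕ} (hs : a + b = i + j) (hij : i < j) (h3 : j < i + 3) (hab : a < b)
    (hne : ¬ (a = i ∧ b = j)) : i ^ 2 + j ^ 2 < a ^ 2 + b ^ 2 := by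
  have ha : a < i := by
    by_contra hc
    have : a ≠ i := fun h => hne ⟨h, by omega⟩
    omega
  obtain ⟨t, rfl⟩ : ∃ t, i = a + (t + 1) := ⟨i - a - 1, by omega⟩
  obtain ⟨s, rfl⟩ : ∃ s, j = a + (t + 1) + (s + 1) := ⟨j - (a + (t + 1)) - 1, by omega⟩
  have : b = a + (t + 1) + (s + 1) + (t + 1) := by omega
  subst this
  nlinarith

theorem exists_ad {ν : ℕ → ℝ} (hν : PosM ν Q) {ψ : Fk (Fin (Q + 1))} (hψ : ψ ∈ Zs ν Q)
    {T : Finset (Fin (Q + 1))} (hT : ψ T ≠ 0) :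
    ∃ S : Finset (Fin (Q + 1)), ψ S ≠ 0 ∧ S.card = T.card ∧
      (∑ i ∈ S, (i : ℕ)) = ∑ i ∈ T, (i : ℕ) ∧ Ad S := by
  classical
  set F : Finset (Finset (Fin (Q + 1))) := univ.filter fun S => ψ S ≠ 0 ∧ S.card = T.card ∧
      (∑ i ∈ S, (i : ℕ)) = ∑ i ∈ T, (i : ℕ) with hF
  have hTF : T ∈ F := by simp [hF, hT]
  obtain ⟨S, hSF, hmax⟩ := F.exists_max_image (fun S => ∑ i ∈ S, (i : ℕ) ^ 2) ⟨T, hTF⟩
  obtain ⟨-, hS0, hS1, hS2⟩ := mem_filter.mp hSF
  refine ⟨S, hS0, hS1, hS2, ?_⟩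
  intro i hi j hj hij
  by_contra hc
  have hij' : (i : ℕ) < j := hij
  have h3 : (j : ℕ) < i + 3 := by omega
  set U := (S.erase j).erase i with hU
  have hiU : i ∉ U := notMem_erase _ _
  have hjU : j ∉ U := fun h => notMem_erase j S (mem_of_mem_erase h)
  have hijne : i ≠ j := ne_of_lt hij
  have hSU : insert i (insert j U) = S := by
    rw [hU, Finset.insert_comm, insert_erase (mem_erase.mpr ⟨hijne, hi⟩), insert_erase hj]
  have h0 := congrArg (fun v : Fk (Fin (Q + 1)) => v U) (hψ ((i : ℕ) + j))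
  unfold bz at h0
  rw [sum_ap] at h0
  have hz : (0 : Fk (Fin (Q + 1))) U = 0 := rfl
  simp only [hz] at h0
  have e1 : (∑ x ∈ pairs Q ((i : ℕ) + j),
      (((bcoef ν x.1 x.2 : ℝ) : ℂ) • (c x.2 * c x.1) : Op (Fin (Q + 1))) ψ) U =
      ∑ x ∈ pairs Q ((i : ℕ) + j), ((bcoef ν x.1 x.2 : ℝ) : ℂ) *
        ((c x.2 * c x.1 : Op (Fin (Q + 1))) ψ U) := by
    rw [WithLp.ofLp_sum, Finset.sum_apply]
    rfl
  rw [e1, Finset.sum_eq_single (i, j)] at h0
  · rw [cc_apply, if_neg hjU, if_neg (by rw [mem_insert]; push Not; exact ⟨hijne, hiU⟩), hSU]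
      at h0
    have hb : ((bcoef ν i j : ℝ) : ℂ) ≠ 0 := by
      rw [Complex.ofReal_ne_zero]
      exact (bcoef_pos hν (x := (i, j)) (p := (i : ℕ) + j) (mem_pairs.2 ⟨hij, rfl⟩)).ne'
    have hs1 : sg j U ≠ 0 := fun h => by have := sg_mul_self j U; rw [h] at this; simp at this
    have hs2 : sg i (insert j U) ≠ 0 := fun h => by
      have := sg_mul_self i (insert j U); rw [h] at this; simp at this
    exact (mul_ne_zero hb (mul_ne_zero hs1 (mul_ne_zero hs2 hS0))) h0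
  · rintro ⟨a, b⟩ hab hne
    obtain ⟨hab1, hab2⟩ := mem_pairs.mp hab
    simp only at hab1 hab2
    have hab1' : (a : ℕ) < b := hab1
    rw [cc_apply]
    simp only
    by_cases hbU : b ∈ U
    · rw [if_pos hbU, mul_zero]
    rw [if_neg hbU]
    by_cases haU : a ∈ insert b U
    · rw [if_pos haU, mul_zero, mul_zero]
    rw [if_neg haU]
    have hψ0 : ψ (insert a (insert b U)) = 0 := by
      by_contra hne0
      have hcard : (insert a (insert b U)).card = S.card := by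
        rw [card_insert_of_notMem haU, card_insert_of_notMem hbU, ← hSU,
          card_insert_of_notMem (by rw [mem_insert]; push Not; exact ⟨hijne, hiU⟩),
          card_insert_of_notMem hjU]
      have hsum : (∑ k ∈ insert a (insert b U), (k : ℕ)) = ∑ k ∈ S, (k : ℕ) := by
        rw [sum_insert haU, sum_insert hbU, ← hSU,
          sum_insert (by rw [mem_insert]; push Not; exact ⟨hijne, hiU⟩), sum_insert hjU]
        omega
      have hmem : insert a (insert b U) ∈ F := by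
        rw [hF, mem_filter]
        exact ⟨mem_univ _, hne0, hcard.trans hS1, hsum.trans hS2⟩
      have h4 := hmax _ hmem
      rw [sum_insert haU, sum_insert hbU] at h4
      conv_rhs at h4 => rw [← hSU]
      rw [sum_insert (by rw [mem_insert]; push Not; exact ⟨hijne, hiU⟩), sum_insert hjU] at h4
      have h5 := arith_sq hab2 hij' h3 hab1' (fun h => hne (Prod.ext (Fin.ext h.1) (Fin.ext h.2)))
      omega
    rw [hψ0, mul_zero, mul_zero, mul_zero]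
  · intro h
    exact absurd (mem_pairs.2 ⟨hij, rfl⟩) h

/-! ### admissible sets for `K ≤ 1` -/

theorem ad_emb {n : ℕ} {S : Finset (Fin (Q + 1))} (hS : Ad S) (hc : S.card = n) (d : ℕ) :
    ∀ (a : ℕ) (h : a + d < n), ((S.orderEmbOfFin hc ⟨a, by omega⟩ : Fin (Q + 1)) : ℕ) + 3 * d ≤
      (S.orderEmbOfFin hc ⟨a + d, h⟩ : Fin (Q + 1)) := by
  induction d with
  | zero => intro a h; simp
  | succ d ih =>
    intro a h
    have h1 := ih a (by omega)
    have h2 : (S.orderEmbOfFin hc ⟨a + d, by omega⟩) < S.orderEmbOfFin hc ⟨a + (d + 1), h⟩ :=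
      (S.orderEmbOfFin hc).strictMono (by
        show a + d < a + (d + 1)
        omega)
    have h3 := hS _ (S.orderEmbOfFin_mem hc _) _ (S.orderEmbOfFin_mem hc _) h2
    omega

theorem sum_eq_emb {n : ℕ} {S : Finset (Fin (Q + 1))} (hc : S.card = n) :
    (∑ i ∈ S, (i : ℕ)) = ∑ a : Fin n, ((S.orderEmbOfFin hc a : Fin (Q + 1)) : ℕ) := by
  conv_lhs => rw [← S.map_orderEmbOfFin_univ hc]
  rw [sum_map]
  rfl

/-- for `K ≤ 1` an admissible set is determined by its sum. -/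
theorem ad_unique {n : ℕ} (hQ : Q + 2 ≤ 3 * n) {S S' : Finset (Fin (Q + 1))} (hS : Ad S)
    (hS' : Ad S') (hc : S.card = n) (hc' : S'.card = n)
    (hsum : (∑ i ∈ S, (i : ℕ)) = ∑ i ∈ S', (i : ℕ)) : S = S' := by
  set s := S.orderEmbOfFin hc with hs
  set s' := S'.orderEmbOfFin hc' with hs'
  have low : ∀ {T : Finset (Fin (Q + 1))} (hT : Ad T) (hcT : T.card = n) (a : Fin n),
      3 * (a : ℕ) ≤ (T.orderEmbOfFin hcT a : Fin (Q + 1)) ∧
      ((T.orderEmbOfFin hcT a : Fin (Q + 1)) : ℕ) ≤ 3 * a + 1 := by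
    intro T hT hcT a
    have h1 := ad_emb hT hcT (a : ℕ) 0 (by omega)
    have h2 := ad_emb hT hcT (n - 1 - a) (a : ℕ) (by omega)
    have h3 := (T.orderEmbOfFin hcT ⟨(a : ℕ) + (n - 1 - a), by omega⟩).isLt
    have e1 : (⟨0 + (a : ℕ), by omega⟩ : Fin n) = a := Fin.ext (by simp)
    rw [e1] at h1
    constructor
    · omega
    · have e2 : (⟨(a : ℕ), by omega⟩ : Fin n) = a := rfl
      rw [e2] at h2
      omega
  have mono : ∀ {T : Finset (Fin (Q + 1))} (hT : Ad T) (hcT : T.card = n) (a b : Fin n), a ≤ b →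
      ((T.orderEmbOfFin hcT a : Fin (Q + 1)) : ℕ) + 3 * (b - a : ℕ) ≤
        (T.orderEmbOfFin hcT b : Fin (Q + 1)) := by
    intro T hT hcT a b hab
    have hab' : (a : ℕ) ≤ b := hab
    have h1 := ad_emb hT hcT (b - a : ℕ) (a : ℕ) (by omega)
    have e1 : (⟨(a : ℕ) + (b - a : ℕ), by omega⟩ : Fin n) = b := Fin.ext (by simp; omega)
    rw [e1] at h1
    exact h1
  have nest : (∀ a, ((s a : Fin (Q + 1)) : ℕ) ≤ s' a) ∨ (∀ a, ((s' a : Fin (Q + 1)) : ℕ) ≤ s a) := by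
    by_contra hcon
    rw [not_or] at hcon
    obtain ⟨h1, h2⟩ := hcon
    push Not at h1 h2
    obtain ⟨a, ha⟩ := h1
    obtain ⟨b, hb⟩ := h2
    have l1 := low hS hc a
    have l2 := low hS' hc' a
    have l3 := low hS hc b
    have l4 := low hS' hc' b
    rcases le_total a b with h | h
    · have h' : (a : ℕ) ≤ b := h
      have m1 := mono hS hc a b h
      rw [← hs] at l1 l3 m1
      rw [← hs'] at l2 l4
      omega
    · have h' : (b : ℕ) ≤ a := h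
      have m1 := mono hS' hc' b a h
      rw [← hs'] at l2 l4 m1
      rw [← hs] at l1 l3
      omega
  have heq : ∀ a, ((s a : Fin (Q + 1)) : ℕ) = s' a := by
    rw [sum_eq_emb hc, sum_eq_emb hc'] at hsum
    rcases nest with h | h
    · have := (Finset.sum_eq_sum_iff_of_le (s := univ) (fun a _ => h a)).mp hsum
      exact fun a => this a (mem_univ a)
    · have := (Finset.sum_eq_sum_iff_of_le (s := univ) (fun a _ => h a)).mp hsum.symm
      exact fun a => (this a (mem_univ a)).symm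
  rw [← S.map_orderEmbOfFin_univ hc, ← S'.map_orderEmbOfFin_univ hc']
  ext x
  simp only [mem_map, mem_univ, true_and]
  constructor
  · rintro ⟨a, ha⟩
    exact ⟨a, (Fin.ext (heq a).symm : s' a = s a).trans ha⟩
  · rintro ⟨a, ha⟩
    exact ⟨a, (Fin.ext (heq a) : s a = s' a).trans ha⟩

/-! ### sectors -/

/-- particle number `n`, sum of the orbitals `M` -/
def Sc (Q n M : ℕ) : Submodule ℂ (Fk (Fin (Q + 1))) where
  carrier := {ψ | ∀ S, ψ S ≠ 0 → S.card = n ∧ (∑ i ∈ S, (i : ℕ)) = M}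
  add_mem' := fun {a b} ha hb S hS => by
    by_contra hc
    have h1 : a S = 0 := by_contra fun h => hc (ha S h)
    have h2 : b S = 0 := by_contra fun h => hc (hb S h)
    refine hS ?_
    show a S + b S = 0
    rw [h1, h2, add_zero]
  zero_mem' := fun S hS => absurd rfl hS
  smul_mem' := fun k a ha S hS => by
    by_contra hc
    have h1 : a S = 0 := by_contra fun h => hc (ha S h)
    refine hS ?_
    show k * a S = 0
    rw [h1, mul_zero]

theorem mem_Sc {n M : ℕ} {ψ : Fk (Fin (Q + 1))} :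
    ψ ∈ Sc Q n M ↔ ∀ S, ψ S ≠ 0 → S.card = n ∧ (∑ i ∈ S, (i : ℕ)) = M := Iff.rfl

/-- zero modes of the sector -/
def ZS (ν : ℕ → ℝ) (Q n M : ℕ) : Submodule ℂ (Fk (Fin (Q + 1))) := Zs ν Q ⊓ Sc Q n M

theorem mem_ZS {ν : ℕ → ℝ} {n M : ℕ} {ψ : Fk (Fin (Q + 1))} :
    ψ ∈ ZS ν Q n M ↔ ψ ∈ Zs ν Q ∧ ψ ∈ Sc Q n M := Iff.rfl

theorem diag_mem_Sc {n M : ℕ} {ψ : Fk (Fin (Q + 1))} (h : ψ ∈ Sc Q n M)
    (f : Finset (Fin (Q + 1)) → ℂ) : diag f ψ ∈ Sc Q n M := by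
  intro S hS
  refine h S fun h0 => hS ?_
  rw [diag_apply, h0, mul_zero]

theorem dR_mem_Sc {n M : ℕ} {ψ : Fk (Fin (Q + 1))} (h : ψ ∈ Sc Q n M)
    (l : Fin (Q + 1) → ℝ) : dR l ψ ∈ Sc Q n M := by
  rw [dR_eq]; exact diag_mem_Sc h _

theorem ZS_coef_ne {ν : ℕ → ℝ} (hν : PosM ν Q) {n M : ℕ} (hQ : Q + 2 ≤ 3 * n)
    {ψ : Fk (Fin (Q + 1))} (h : ψ ∈ ZS ν Q n M) (h0 : ψ ≠ 0) {S : Finset (Fin (Q + 1))}
    (hS : Ad S) (hc : S.card = n) (hs : (∑ i ∈ S, (i : ℕ)) = M) : ψ S ≠ 0 := by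
  obtain ⟨T, hT⟩ : ∃ T, ψ T ≠ 0 := by
    by_contra hcon
    push Not at hcon
    exact h0 (by ext T; exact hcon T)
  obtain ⟨S', h1, h2, h3, h4⟩ := exists_ad hν h.1 hT
  have h5 := h.2 T hT
  have : S' = S := ad_unique hQ h4 hS (h2.trans h5.1) hc (by rw [h3, h5.2, hs])
  rw [← this]; exact h1

theorem ZS_exists_ad {ν : ℕ → ℝ} (hν : PosM ν Q) {n M : ℕ}
    {ψ : Fk (Fin (Q + 1))} (h : ψ ∈ ZS ν Q n M) (h0 : ψ ≠ 0) :
    ∃ S : Finset (Fin (Q + 1)), ψ S ≠ 0 ∧ S.card = n ∧ (∑ i ∈ S, (i : ℕ)) = M ∧ Ad S := by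
  obtain ⟨T, hT⟩ : ∃ T, ψ T ≠ 0 := by
    by_contra hcon
    push Not at hcon
    exact h0 (by ext T; exact hcon T)
  obtain ⟨S', h1, h2, h3, h4⟩ := exists_ad hν h.1 hT
  have h5 := h.2 T hT
  exact ⟨S', h1, h2.trans h5.1, h3.trans h5.2, h4⟩

/-- the sectors with `K ≤ 1` are at most one-dimensional. -/
theorem ZS_smul {ν : ℕ → ℝ} (hν : PosM ν Q) {n M : ℕ} (hQ : Q + 2 ≤ 3 * n)
    {ψ φ : Fk (Fin (Q + 1))} (h : ψ ∈ ZS ν Q n M) (h0 : ψ ≠ 0) (h' : φ ∈ ZS ν Q n M) :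
    ∃ z : ℂ, φ = z • ψ := by
  obtain ⟨S, h1, h2, h3, h4⟩ := ZS_exists_ad hν h h0
  refine ⟨φ S / ψ S, ?_⟩
  by_contra hne
  have h5 : φ - (φ S / ψ S) • ψ ≠ 0 := sub_ne_zero.mpr hne
  have h6 := ZS_coef_ne hν hQ ((ZS ν Q n M).sub_mem h' ((ZS ν Q n M).smul_mem _ h)) h5 h4 h2 h3
  refine h6 ?_
  show φ S - (φ S / ψ S) * ψ S = 0
  rw [div_mul_cancel₀ _ h1, sub_self]

/-! ### projections -/

/-- the projector on a sector -/
noncomputable def prSc (Q n M : ℕ) : Op (Fin (Q + 1)) :=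
  diag fun S => if S.card = n ∧ (∑ i ∈ S, (i : ℕ)) = M then 1 else 0

theorem prSc_apply (n M : ℕ) (v : Fk (Fin (Q + 1))) (S : Finset (Fin (Q + 1))) :
    prSc Q n M v S = if S.card = n ∧ (∑ i ∈ S, (i : ℕ)) = M then v S else 0 := by
  unfold prSc
  rw [diag_apply]
  split_ifs <;> simp

theorem prSc_mem (n M : ℕ) (v : Fk (Fin (Q + 1))) : prSc Q n M v ∈ Sc Q n M := by
  intro S hS
  rw [prSc_apply] at hS
  by_contra hc
  rw [if_neg hc] at hS
  exact hS rfl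

theorem prSc_of_mem {n M : ℕ} {v : Fk (Fin (Q + 1))} (h : v ∈ Sc Q n M) : prSc Q n M v = v := by
  ext S
  rw [prSc_apply]
  split_ifs with hc
  · rfl
  · by_contra hne
    exact hc (h S (Ne.symm hne))

theorem star_prSc (n M : ℕ) : star (prSc Q n M) = prSc Q n M := by
  unfold prSc
  rw [star_diag]
  congr 1
  funext S
  simp only [Pi.star_apply]
  split_ifs <;> simp

theorem inner_prSc (n M : ℕ) (v w : Fk (Fin (Q + 1))) :
    ⟪prSc Q n M v, w⟫_ℂ = ⟪v, prSc Q n M w⟫_ℂ := by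
  have := inner_star_left (prSc Q n M) v w
  rw [star_prSc] at this
  exact this

/-- `bz` lowers the sector -/
theorem bz_prSc (ν : ℕ → ℝ) (n M p : ℕ) :
    bz ν Q p * prSc Q (n + 2) (M + p) = prSc Q n M * bz ν Q p := by
  unfold bz
  rw [sum_mul, mul_sum]
  refine sum_congr rfl fun x hx => ?_
  obtain ⟨h1, h2⟩ := mem_pairs.mp hx
  rw [smul_mul_assoc, mul_smul_comm]
  congr 1
  refine Op.ext fun v => ?_
  ext U
  show (c x.2 * c x.1 : Op (Fin (Q + 1))) (prSc Q (n + 2) (M + p) v) U =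
    prSc Q n M ((c x.2 * c x.1 : Op (Fin (Q + 1))) v) U
  rw [prSc_apply, cc_apply, cc_apply]
  by_cases hb : x.2 ∈ U
  · simp [hb]
  rw [if_neg hb, if_neg hb]
  by_cases ha : x.1 ∈ insert x.2 U
  · simp [ha]
  rw [if_neg ha, if_neg ha, prSc_apply, card_insert_of_notMem ha, card_insert_of_notMem hb,
    sum_insert ha, sum_insert hb]
  by_cases hc : U.card = n ∧ (∑ i ∈ U, (i : ℕ)) = M
  · rw [if_pos hc, if_pos ⟨by omega, by omega⟩]
  · rw [if_neg hc, if_neg, mul_zero, mul_zero]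
    rintro ⟨h3, h4⟩
    exact hc ⟨by omega, by omega⟩

theorem prSc_mem_Zs {ν : ℕ → ℝ} {ψ : Fk (Fin (Q + 1))} (h : ψ ∈ Zs ν Q) (n M : ℕ) :
    prSc Q n M ψ ∈ Zs ν Q := by
  intro p
  by_cases hn : 2 ≤ n ∧ p ≤ M
  · obtain ⟨n', rfl⟩ : ∃ n', n = n' + 2 := ⟨n - 2, by omega⟩
    obtain ⟨M', rfl⟩ : ∃ M', M = M' + p := ⟨M - p, by omega⟩
    have := congrArg (fun A : Op (Fin (Q + 1)) => A ψ) (bz_prSc (Q := Q) ν n' M' p)
    simp only [mul_ap] at this
    rw [this, h p, map_zero]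
  · -- the pair annihilator kills the sector
    unfold bz
    rw [sum_ap]
    refine sum_eq_zero fun x hx => ?_
    obtain ⟨h1, h2⟩ := mem_pairs.mp hx
    rw [smul_ap]
    have : (c x.2 * c x.1 : Op (Fin (Q + 1))) (prSc Q n M ψ) = 0 := by
      ext U
      rw [cc_apply]
      by_cases hb : x.2 ∈ U
      · simp [hb]
      rw [if_neg hb]
      by_cases ha : x.1 ∈ insert x.2 U
      · simp [ha]
      rw [if_neg ha, prSc_apply, card_insert_of_notMem ha, card_insert_of_notMem hb,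
        sum_insert ha, sum_insert hb, if_neg, mul_zero, mul_zero]
      · rfl
      · rintro ⟨h3, h4⟩
        exact hn ⟨by omega, by omega⟩
    rw [this, smul_zero]

/-- projection of a vector of the sector on a graded submodule whose sector is the line of `ψ`. -/
theorem starProj_line (Z : Submodule ℂ (Fk (Fin (Q + 1)))) {n M : ℕ}
    (hZ : ∀ v ∈ Z, prSc Q n M v ∈ Z) {ψ : Fk (Fin (Q + 1))} (hψ : ψ ∈ Z) (h1 : ‖ψ‖ = 1)
    (hline : ∀ v ∈ Z, v ∈ Sc Q n M → ∃ z : ℂ, v = z • ψ) (hψS : ψ ∈ Sc Q n M)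
    {v : Fk (Fin (Q + 1))} (hv : v ∈ Sc Q n M) :
    Z.starProjection v = ⟪ψ, v⟫_ℂ • ψ := by
  refine Submodule.eq_starProjection_of_mem_orthogonal (Z.smul_mem _ hψ) ?_
  rw [Submodule.mem_orthogonal]
  intro z hz
  have hw : v - ⟪ψ, v⟫_ℂ • ψ ∈ Sc Q n M := (Sc Q n M).sub_mem hv ((Sc Q n M).smul_mem _ hψS)
  rw [← prSc_of_mem hw, ← inner_prSc]
  obtain ⟨k, hk⟩ := hline _ (hZ z hz) (prSc_mem n M z)
  rw [hk, inner_smul_left, inner_sub_right, inner_smul_right, inner_self_eq_norm_sq_to_K, h1]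
  simp

theorem starProj_Zs {ν : ℕ → ℝ} (hν : PosM ν Q) {n M : ℕ} (hQ : Q + 2 ≤ 3 * n)
    {ψ : Fk (Fin (Q + 1))} (h : ψ ∈ ZS ν Q n M) (h1 : ‖ψ‖ = 1)
    {v : Fk (Fin (Q + 1))} (hv : v ∈ Sc Q n M) :
    (Zs ν Q).starProjection v = ⟪ψ, v⟫_ℂ • ψ := by
  have h0 : ψ ≠ 0 := fun h0 => by rw [h0, norm_zero] at h1; exact zero_ne_one h1
  exact starProj_line _ (fun v hv => prSc_mem_Zs hv n M) h.1 h1
    (fun w hw hw2 => ZS_smul hν hQ h h0 ⟨hw, hw2⟩) h.2 hv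

theorem Sc_Nh {n M : ℕ} {v : Fk (Fin (Q + 1))} (hv : v ∈ Sc Q n M) : Nh v = (n : ℂ) • v := by
  rw [Nh_eq]
  ext S
  rw [diag_apply]
  show _ = (n : ℂ) * v S
  by_cases h : v S = 0
  · rw [h, mul_zero, mul_zero]
  · rw [(hv S h).1]

theorem ZS_le_Zn {ν : ℕ → ℝ} {n M : ℕ} {v : Fk (Fin (Q + 1))} (hv : v ∈ ZS ν Q n M) :
    v ∈ Zn ν Q n := ⟨hv.1, Sc_Nh hv.2⟩

theorem starProj_Zn {ν : ℕ → ℝ} (hν : PosM ν Q) {n M : ℕ} (hQ : Q + 2 ≤ 3 * n)
    {ψ : Fk (Fin (Q + 1))} (h : ψ ∈ ZS ν Q n M) (h1 : ‖ψ‖ = 1)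
    {v : Fk (Fin (Q + 1))} (hv : v ∈ Sc Q n M) :
    (Zn ν Q n).starProjection v = ⟪ψ, v⟫_ℂ • ψ := by
  have h0 : ψ ≠ 0 := fun h0 => by rw [h0, norm_zero] at h1; exact zero_ne_one h1
  exact starProj_line _ (fun v hv => ZS_le_Zn ⟨prSc_mem_Zs hv.1 n M, prSc_mem n M v⟩)
    (ZS_le_Zn h) h1 (fun w hw hw2 => ZS_smul hν hQ h h0 ⟨hw.1, hw2⟩) h.2 hv

end Crest.Agent.R340.K1in788
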