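import Crest.Agent.R340.K1inB_788
import Crest.Agent.R340.GeoM_986

/-!
# R340, K = 1 inputs (helper788): metrics along the path, the two moves `Q+3 → Q`, `Q+1 → Q`
-/

set_option autoImplicit false
set_option linter.unusedSectionVars false

namespace Crest.Agent.R340.K1in788

open Finset
open scoped InnerProductSpace ComplexConjugate
open Crest.Agent.R340.Fock649 Crest.Agent.R340.Geo986 Crest.Agent.R340.Peel596
  Crest.Agent.R340.Emb596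

variable {Q : ℕ}

/-! ### metrics -/

/-- `∑ τ_k log (Q - j + k + 1)` -/
noncomputable def lw (τ : Fin 3 → ℝ) (Q j : ℕ) : ℝ :=
  ∑ k : Fin 3, τ k * Real.log (((Q - j : ℕ) : ℝ) + k + 1)

/-- the same on the orbitals -/
noncomputable def lwF (τ : Fin 3 → ℝ) (Q : ℕ) : Fin (Q + 1) → ℝ := fun j => lw τ Q j

theorem nuT_path (τ : Fin 3 → ℝ) (s : ℝ) (Q j : ℕ) :
    nuT (fun k => s * τ k) Q j = nu0 Q j * Real.exp (s * lw τ Q j) := by
  show nu0 Q j * (PV341.G (fun k => s * τ k) (Q - j))⁻¹ = _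
  congr 1
  unfold PV341.G lw
  rw [← Finset.prod_inv_distrib, mul_sum, Real.exp_sum]
  refine prod_congr rfl fun k _ => ?_
  have hpos : (0 : ℝ) < ((Q - j : ℕ) : ℝ) + k + 1 := by positivity
  rw [← Real.rpow_neg hpos.le, neg_neg, Real.rpow_def_of_pos hpos]
  congr 1
  ring

theorem bz_smul_nu (ν : ℕ → ℝ) (c : ℝ) (Q p : ℕ) :
    bz (fun j => c * ν j) Q p = (((c ^ 2)⁻¹ : ℝ) : ℂ) • bz ν Q p := by
  unfold bz
  rw [smul_sum]
  refine sum_congr rfl fun x _ => ?_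
  rw [smul_smul, ← Complex.ofReal_mul]
  congr 2
  unfold bcoef
  rw [← div_eq_inv_mul, div_div]
  congr 1
  ring

theorem Zs_smul_nu {c : ℝ} (hc : c ≠ 0) (ν : ℕ → ℝ) (Q : ℕ) :
    Zs (fun j => c * ν j) Q = Zs ν Q := by
  ext ψ
  rw [mem_Zs, mem_Zs]
  refine forall_congr' fun p => ?_
  rw [bz_smul_nu, smul_ap]
  have : (((c ^ 2)⁻¹ : ℝ) : ℂ) ≠ 0 := by
    rw [Complex.ofReal_ne_zero]; positivity
  exact smul_eq_zero_iff_right this

theorem nu0_succ {Q j : ℕ} (h : j ≤ Q) :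
    nu0 (Q + 1) j = (√((Q : ℝ) + 1))⁻¹ * (nu0 Q j * √(((Q - j : ℕ) : ℝ) + 1)) := by
  unfold nu0
  have h1 : ((Q.choose j : ℕ) : ℝ) * ((Q : ℝ) + 1) =
      (((Q + 1).choose j : ℕ) : ℝ) * (((Q - j : ℕ) : ℝ) + 1) := by
    have := Nat.choose_mul_succ_eq Q j
    have e : Q + 1 - j = (Q - j) + 1 := by omega
    rw [e] at this
    exact_mod_cast this
  have hp1 : (0 : ℝ) < ((Q.choose j : ℕ) : ℝ) := by exact_mod_cast Nat.choose_pos h
  have hp2 : (0 : ℝ) < (((Q + 1).choose j : ℕ) : ℝ) := by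
    exact_mod_cast Nat.choose_pos (by omega : j ≤ Q + 1)
  have h2 := congrArg Real.sqrt h1
  rw [Real.sqrt_mul hp1.le, Real.sqrt_mul hp2.le] at h2
  have s1 : 0 < √((Q.choose j : ℕ) : ℝ) := Real.sqrt_pos.mpr hp1
  have s2 : 0 < √(((Q + 1).choose j : ℕ) : ℝ) := Real.sqrt_pos.mpr hp2
  have s3 : 0 < √((Q : ℝ) + 1) := Real.sqrt_pos.mpr (by positivity)
  have s4 : 0 < √(((Q - j : ℕ) : ℝ) + 1) := Real.sqrt_pos.mpr (by positivity)
  field_simp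
  linarith

/-- direction of the A-move -/
noncomputable def tA : Fin 3 → ℝ := fun _ => 1 / 2
/-- direction of the B-move -/
noncomputable def tB : Fin 3 → ℝ := fun k => if k = 0 then 1 / 2 else 0

theorem exp_half_log {x : ℝ} (hx : 0 < x) : Real.exp (1 / 2 * Real.log x) = √x := by
  rw [Real.sqrt_eq_rpow, Real.rpow_def_of_pos hx, mul_comm]

theorem Zs_nu0_succ (Q : ℕ) : Zs (nu0 (Q + 1)) Q = Zs (nuT (fun k => 1 * tB k) Q) Q := by
  have s3 : 0 < √((Q : ℝ) + 1) := Real.sqrt_pos.mpr (by positivity)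
  rw [← Zs_smul_nu (inv_ne_zero s3.ne') (nuT (fun k => 1 * tB k) Q) Q]
  refine Zs_congr fun j hj => ?_
  rw [nu0_succ hj, nuT_path, one_mul]
  congr 2
  unfold lw tB
  rw [Fin.sum_univ_three]
  have hpos : (0 : ℝ) < ((Q - j : ℕ) : ℝ) + 1 := by positivity
  simp only [Fin.isValue, if_true, Fin.val_zero, CharP.cast_eq_zero, add_zero, one_ne_zero,
    if_false, zero_mul]
  rw [if_neg (by decide), zero_mul, add_zero, exp_half_log hpos]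

theorem Zs_nu0_add3 (Q : ℕ) : Zs (nu0 (Q + 3)) Q = Zs (nuT (fun k => 1 * tA k) Q) Q := by
  have s1 : 0 < √((Q : ℝ) + 1) := Real.sqrt_pos.mpr (by positivity)
  have s2 : 0 < √(((Q + 1 : ℕ) : ℝ) + 1) := Real.sqrt_pos.mpr (by positivity)
  have s3 : 0 < √(((Q + 2 : ℕ) : ℝ) + 1) := Real.sqrt_pos.mpr (by positivity)
  have hne : (√((Q : ℝ) + 1))⁻¹ * (√(((Q + 1 : ℕ) : ℝ) + 1))⁻¹ * (√(((Q + 2 : ℕ) : ℝ) + 1))⁻¹ ≠ 0 := by
    positivity
  rw [← Zs_smul_nu hne (nuT (fun k => 1 * tA k) Q) Q]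
  refine Zs_congr fun j hj => ?_
  have e1 : nu0 (Q + 3) j = nu0 (Q + 2 + 1) j := rfl
  have e2 : nu0 (Q + 2) j = nu0 (Q + 1 + 1) j := rfl
  rw [e1, nu0_succ (by omega : j ≤ Q + 2), e2, nu0_succ (by omega : j ≤ Q + 1), nu0_succ hj,
    nuT_path, one_mul]
  have hlw : Real.exp (lw tA Q j) = √(((Q - j : ℕ) : ℝ) + 1) * √(((Q + 1 - j : ℕ) : ℝ) + 1) *
      √(((Q + 2 - j : ℕ) : ℝ) + 1) := by
    unfold lw tA
    rw [Fin.sum_univ_three, Real.exp_add, Real.exp_add]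
    have h1 : (((Q + 1 - j : ℕ) : ℝ)) = ((Q - j : ℕ) : ℝ) + 1 := by
      rw [Nat.sub_add_comm hj]; push_cast; ring
    have h2 : (((Q + 2 - j : ℕ) : ℝ)) = ((Q - j : ℕ) : ℝ) + 2 := by
      rw [Nat.sub_add_comm hj]; push_cast; ring
    rw [h1, h2, exp_half_log (by positivity), exp_half_log (by positivity),
      exp_half_log (by positivity)]
    simp only [Fin.isValue, Fin.val_zero, CharP.cast_eq_zero, add_zero, Fin.val_one, Nat.cast_one,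
      Fin.val_two, Nat.cast_ofNat]
  rw [hlw]
  ring

theorem GE_mem_Sc {n M : ℕ} {ψ : Fk (Fin (Q + 1))} (h : ψ ∈ Sc Q n M) (l : Fin (Q + 1) → ℝ)
    (s : ℝ) : GE l s ψ ∈ Sc Q n M := diag_mem_Sc h _

theorem GE_mem_ZS (τ : Fin 3 → ℝ) (s : ℝ) {n M : ℕ} {φ : Fk (Fin (Q + 1))}
    (h : φ ∈ ZS (nu0 Q) Q n M) : GE (lwF τ Q) s φ ∈ ZS (nuT (fun k => s * τ k) Q) Q n M := by
  refine ⟨?_, GE_mem_Sc h.2 _ _⟩
  have hr : PosM (fun j => Real.exp (s * lw τ Q j)) Q := fun j _ => Real.exp_pos _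
  have h1 := Gd_mem_Zs hr h.1
  rw [GE_eq_Gd]
  have e : Zs (nuT (fun k => s * τ k) Q) Q = Zs (nu0 Q * fun j => Real.exp (s * lw τ Q j)) Q :=
    Zs_congr fun j _ => nuT_path τ s Q j
  rw [e]
  exact h1

theorem nE_mem_ZS (τ : Fin 3 → ℝ) (s : ℝ) {n M : ℕ} {φ : Fk (Fin (Q + 1))}
    (h : φ ∈ ZS (nu0 Q) Q n M) : nE (lwF τ Q) φ s ∈ ZS (nuT (fun k => s * τ k) Q) Q n M :=
  (ZS _ Q n M).smul_mem _ (GE_mem_ZS τ s h)

/-! ### means and covariances -/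

/-- covariance `Re ⟨(A - ⟨A⟩) ψ, B ψ⟩` -/
noncomputable def cov {ι : Type*} [Fintype ι] [LinearOrder ι] (A B : Op ι) (ψ : Fk ι) : ℝ :=
  (⟪A ψ - ((mean A ψ : ℝ) : ℂ) • ψ, B ψ⟫_ℂ).re

section gen
variable {ι : Type*} [Fintype ι] [LinearOrder ι]

theorem star_dR (l : ι → ℝ) : star (dR l) = dR l := by
  rw [dR_eq, star_diag]
  congr 1
  funext S
  simp only [Pi.star_apply, Complex.star_def, Complex.conj_ofReal]

theorem mean_smul (A : Op ι) (z : ℂ) (ψ : Fk ι) : mean A (z • ψ) = ‖z‖ ^ 2 * mean A ψ := by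
  unfold mean
  rw [smul_ap_right, inner_smul_left, inner_smul_right, ← mul_assoc, mul_comm (conj z) z,
    Complex.mul_conj, Complex.normSq_eq_norm_sq, Complex.re_ofReal_mul]

theorem mean_nrm (A : Op ι) (ψ : Fk ι) : mean A (nrm ψ) = mean A ψ / ‖ψ‖ ^ 2 := by
  unfold nrm
  rw [mean_smul, Complex.norm_real, norm_inv, norm_norm]
  rw [inv_pow, div_eq_inv_mul]

theorem mean_nrm_smul (A : Op ι) {z : ℂ} (hz : z ≠ 0) {φ : Fk ι} (hφ : ‖φ‖ = 1) :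
    mean A (nrm (z • φ)) = mean A φ := by
  rw [mean_nrm, mean_smul, norm_smul, hφ, mul_one]
  have : ‖z‖ ≠ 0 := norm_ne_zero_iff.mpr hz
  field_simp

/-- derivative of a mean value along the path, integrated -/
theorem path_mean (l : ι → ℝ) (X : Op ι) (hX : star X = X) {ψ : Fk ι} (h1 : ‖ψ‖ = 1) {ε : ℝ}
    (hε : ∀ s ∈ Set.Icc (0 : ℝ) 1, |cov (dR fun j => -2 * l j) X (nE l ψ s)| ≤ ε) :
    |mean X (nE l ψ 1) - mean X ψ| ≤ ε := by
  have h0 : ψ ≠ 0 := fun h0 => by rw [h0, norm_zero] at h1; exact zero_ne_one h1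
  have e2 : ∀ v : Fk ι, dR (fun j => -2 * l j) v = (-2 : ℂ) • dR l v := by
    intro v
    ext T
    show dR (fun j => -2 * l j) v T = (-2 : ℂ) * dR l v T
    rw [dR_apply, dR_apply, ← mul_sum]
    push_cast
    ring
  have h := path_form (κ := Unit) {()} (fun _ => nE l ψ) (dR fun j => -2 * l j).ap X.ap
    (fun _ s => mean (dR fun j => -2 * l j) (nE l ψ s))
    (fun x y => by
      have := inner_star_left X x y
      rw [hX] at this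
      exact this) (fun _ => 1) (ε := ε) ?_ ?_
  · simp only [sum_singleton, one_smul] at h
    rw [nE_zero l h1] at h
    exact h
  · intro _ _ s _
    refine (hasDerivAt_nE l h0 s).congr_deriv ?_
    have e3 : mean (dR fun j => -2 * l j) (nE l ψ s) = -2 * mean (dR l) (nE l ψ s) := by
      unfold mean
      rw [e2, inner_smul_right]
      have : ((-2 : ℂ)) = ((-2 : ℝ) : ℂ) := by push_cast; rfl
      rw [this, Complex.re_ofReal_mul]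
    rw [e3]
    show _ = -(1 / 2 : ℂ) • (dR (fun j => -2 * l j) (nE l ψ s) - _)
    rw [e2, smul_sub, smul_smul, smul_smul, sub_eq_add_neg, sub_eq_add_neg, ← neg_smul,
      ← neg_smul]
    congr 1
    · norm_num
    · congr 1
      push_cast
      ring
  · intro s hs
    simp only [sum_singleton, one_smul]
    exact hε s hs

theorem c_dR (f : ι → ℝ) (k : ι) (v : Fk ι) :
    dR f (c k v) = c k (dR f v) - ((f k : ℝ) : ℂ) • c k v := by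
  have h := congrArg (fun A : Op ι => A v) (c_mul_dG_diagonal (fun j => ((f j : ℝ) : ℂ)) k)
  simp only [mul_ap, add_ap, smul_ap] at h
  unfold dR
  rw [h]
  abel

theorem mean_dc (k : ι) (ψ : Fk ι) : mean (d k * c k) ψ = ‖c k ψ‖ ^ 2 := by
  unfold mean
  rw [mul_ap, ← star_c, inner_star_right, inner_self_eq_norm_sq_to_K]
  norm_cast

/-- conditional mean -/
theorem cond_mean (f : ι → ℝ) (k : ι) (ψ : Fk ι) (h : c k ψ ≠ 0) :
    mean (dR f) (nrm (c k ψ)) =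
      mean (dR f) ψ - f k + cov (d k * c k) (dR f) ψ / ‖c k ψ‖ ^ 2 := by
  have hn : 0 < ‖c k ψ‖ ^ 2 := by
    have := norm_pos_iff.mpr h
    positivity
  rw [mean_nrm]
  have e1 : mean (dR f) (c k ψ) = (⟪(d k * c k) ψ, dR f ψ⟫_ℂ).re - f k * ‖c k ψ‖ ^ 2 := by
    unfold mean
    rw [c_dR, inner_sub_right, inner_smul_right, Complex.sub_re, Complex.re_ofReal_mul,
      inner_self_eq_norm_sq_to_K]
    congr 1
    · rw [mul_ap, ← star_c, inner_star_left]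
    · norm_cast
  have e2 : cov (d k * c k) (dR f) ψ =
      (⟪(d k * c k) ψ, dR f ψ⟫_ℂ).re - ‖c k ψ‖ ^ 2 * mean (dR f) ψ := by
    unfold cov
    rw [mean_dc, inner_sub_left, inner_smul_left, Complex.conj_ofReal, Complex.sub_re,
      Complex.re_ofReal_mul]
    rfl
  rw [e1, e2]
  field_simp
  ring

end gen

/-! ### the two moves -/

theorem c_mem_Sc {n M : ℕ} {ψ : Fk (Fin (Q + 1))} (k : Fin (Q + 1))
    (h : ψ ∈ Sc Q (n + 1) (M + k)) : c k ψ ∈ Sc Q n M := by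
  intro S hS
  rw [c_apply] at hS
  by_cases hk : k ∈ S
  · rw [if_pos hk] at hS; exact absurd rfl hS
  · rw [if_neg hk] at hS
    have h1 := h _ (right_ne_zero_of_mul hS)
    rw [card_insert_of_notMem hk, sum_insert hk] at h1
    omega

theorem emb_mem_Sc_iff {Q' Q : ℕ} (h : Q' ≤ Q) {n M : ℕ} {ψ : Fk (Fin (Q' + 1))} :
    emb (ee h) ψ ∈ Sc Q n M ↔ ψ ∈ Sc Q' n M := by
  have hsum : ∀ S : Finset (Fin (Q' + 1)),
      (∑ i ∈ S.map (ee h).toEmbedding, (i : ℕ)) = ∑ i ∈ S, (i : ℕ) := by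
    intro S
    rw [sum_map]
    rfl
  constructor
  · intro H S hS
    have h1 := H (S.map (ee h).toEmbedding) (by rw [emb_apply_map]; exact hS)
    rw [card_map, hsum] at h1
    exact h1
  · intro H S hS
    by_cases hm : ∃ T : Finset (Fin (Q' + 1)), T.map (ee h).toEmbedding = S
    · obtain ⟨T, rfl⟩ := hm
      rw [emb_apply_map] at hS
      rw [card_map, hsum]
      exact H T hS
    · refine absurd ?_ hS
      refine emb_apply_not _ _ _ ?_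
      intro T hT
      exact hm ⟨T, hT⟩

/-- the mean of a one-body operator of an embedded vector -/
theorem mean_dR_emb {Q' Q : ℕ} (h : Q' ≤ Q) (f : ℕ → ℝ) (φ : Fk (Fin (Q' + 1))) :
    mean (dR fun j : Fin (Q + 1) => f j) (emb (ee h) φ) = mean (dR fun j : Fin (Q' + 1) => f j) φ := by
  unfold mean dR
  rw [← inner_cmp, cmp_dG_diagonal]
  rfl

theorem nrm_emb {κ ι : Type*} [Fintype κ] [LinearOrder κ] [Fintype ι] [LinearOrder ι]
    (e : κ ↪o ι) (φ : Fk κ) : nrm (emb e φ) = emb e (nrm φ) := by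
  unfold nrm
  rw [norm_emb, map_smul]

/-- image of the A-move -/
theorem A_image {ν : ℕ → ℝ} (hν : PosM ν (Q + 3)) {n M : ℕ} {ψ : Fk (Fin (Q + 3 + 1))}
    (hψ : ψ ∈ ZS ν (Q + 3) (n + 1) (M + (Q + 3))) :
    ∃ φ ∈ ZS ν Q n M, emb (ee (Nat.le_add_right Q 3)) φ = c (Fin.last (Q + 3)) ψ := by
  obtain ⟨φ, h1, h2⟩ := Ablock hν (ZS_le_Zn hψ)
  refine ⟨φ, ⟨h1.1, ?_⟩, h2⟩
  refine (emb_mem_Sc_iff (Nat.le_add_right Q 3)).mp ?_
  rw [h2]
  have h3 : c (Fin.last (Q + 3)) ψ ∈ Sc (Q + 3) n M := c_mem_Sc _ (by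
    rw [Fin.val_last]; exact hψ.2)
  exact h3

/-- image of the B-move -/
theorem B_image {ν : ℕ → ℝ} {n M : ℕ} {ψ : Fk (Fin (Q + 1 + 1))}
    (hψ : ψ ∈ ZS ν (Q + 1) n M) (h0 : c (Fin.last (Q + 1)) ψ = 0) :
    ∃ φ ∈ ZS ν Q n M, emb (ee (Nat.le_succ Q)) φ = ψ := by
  obtain ⟨φ, h1, h2⟩ := Bblock (ZS_le_Zn hψ) h0
  refine ⟨φ, ⟨h1.1, ?_⟩, h2⟩
  refine (emb_mem_Sc_iff (Nat.le_succ Q)).mp ?_
  rw [h2]
  exact hψ.2

theorem posM_exp (τ : Fin 3 → ℝ) (s : ℝ) (Q : ℕ) : PosM (nuT (fun k => s * τ k) Q) Q :=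
  posM_nuT _ Q

theorem posM_nu0_le {Q Q' : ℕ} (h : Q ≤ Q') : PosM (nu0 Q') Q := fun j hj =>
  posM_nu0 Q' j (hj.trans h)

/-- comparison along the path: `φ` at the round metric, `χ` at the endpoint -/
theorem path_sector (τ : Fin 3 → ℝ) {n M : ℕ} (hQ : Q + 2 ≤ 3 * n) (X : Op (Fin (Q + 1)))
    (hX : star X = X) {φ χ : Fk (Fin (Q + 1))} (hφ : φ ∈ ZS (nu0 Q) Q n M) (hφ1 : ‖φ‖ = 1)
    (hχ : χ ∈ ZS (nuT (fun k => 1 * τ k) Q) Q n M) (hχ0 : χ ≠ 0) {ε : ℝ}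
    (hε : ∀ s ∈ Set.Icc (0 : ℝ) 1, ∀ u ∈ ZS (nuT (fun k => s * τ k) Q) Q n M, ‖u‖ = 1 →
      |cov (dR fun j => -2 * lwF τ Q j) X u| ≤ ε) :
    |mean X (nrm χ) - mean X φ| ≤ ε := by
  have hφ0 : φ ≠ 0 := fun h0 => by rw [h0, norm_zero] at hφ1; exact zero_ne_one hφ1
  have h1 := path_mean (lwF τ Q) X hX hφ1 (ε := ε) fun s hs =>
    hε s hs _ (nE_mem_ZS τ s hφ) (norm_nE _ _ hφ0)
  have h2 : nE (lwF τ Q) φ 1 ≠ 0 := fun h0 => by
    have := norm_nE (lwF τ Q) 1 hφ0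
    rw [h0, norm_zero] at this
    exact zero_ne_one this
  obtain ⟨z, hz⟩ := ZS_smul (posM_nuT _ Q) hQ (nE_mem_ZS τ 1 hφ) h2 hχ
  have hz0 : z ≠ 0 := fun h0 => hχ0 (by rw [hz, h0, zero_smul])
  rw [hz, mean_nrm_smul X hz0 (norm_nE _ _ hφ0)]
  exact h1

/-- **A-move** (one-body operators). -/
theorem A_step {n M : ℕ} (hQ : Q + 2 ≤ 3 * n) (f : ℕ → ℝ)
    {ψ : Fk (Fin (Q + 3 + 1))} {φ : Fk (Fin (Q + 1))}
    (hψ : ψ ∈ ZS (nu0 (Q + 3)) (Q + 3) (n + 1) (M + (Q + 3)))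
    (hφ : φ ∈ ZS (nu0 Q) Q n M) (hφ1 : ‖φ‖ = 1) {κ δ ε : ℝ} (hκ : 0 < κ)
    (hκ' : κ ≤ ‖c (Fin.last (Q + 3)) ψ‖ ^ 2)
    (hδ : |cov (d (Fin.last (Q + 3)) * c (Fin.last (Q + 3)))
      (dR fun j : Fin (Q + 3 + 1) => f j) ψ| ≤ δ)
    (hε : ∀ s ∈ Set.Icc (0 : ℝ) 1, ∀ u ∈ ZS (nuT (fun k => s * tA k) Q) Q n M, ‖u‖ = 1 →
      |cov (dR fun j => -2 * lwF tA Q j) (dR fun j : Fin (Q + 1) => f j) u| ≤ ε) :
    |mean (dR fun j : Fin (Q + 3 + 1) => f j) ψ - f (Q + 3) -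
      mean (dR fun j : Fin (Q + 1) => f j) φ| ≤ δ / κ + ε := by
  have hc0 : c (Fin.last (Q + 3)) ψ ≠ 0 := fun h0 => by
    rw [h0, norm_zero] at hκ'; norm_num at hκ'; linarith
  obtain ⟨χ, hχ, hχ2⟩ := A_image (posM_nu0 (Q + 3)) hψ
  have hχ0 : χ ≠ 0 := fun h0 => hc0 (by rw [← hχ2, h0, map_zero])
  have hχ' : χ ∈ ZS (nuT (fun k => 1 * tA k) Q) Q n M := ⟨by rw [← Zs_nu0_add3]; exact hχ.1, hχ.2⟩
  have h1 := path_sector tA hQ (dR fun j : Fin (Q + 1) => f j) (star_dR _) hφ hφ1 hχ' hχ0 hε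
  have h2 := cond_mean (fun j : Fin (Q + 3 + 1) => f j) (Fin.last (Q + 3)) ψ hc0
  rw [← hχ2, nrm_emb, mean_dR_emb, hχ2, Fin.val_last] at h2
  have hpos : 0 < ‖c (Fin.last (Q + 3)) ψ‖ ^ 2 := hκ.trans_le hκ'
  have h3 : |cov (d (Fin.last (Q + 3)) * c (Fin.last (Q + 3)))
      (dR fun j : Fin (Q + 3 + 1) => f j) ψ / ‖c (Fin.last (Q + 3)) ψ‖ ^ 2| ≤ δ / κ := by
    rw [abs_div, abs_of_pos hpos]
    exact div_le_div₀ ((abs_nonneg _).trans hδ) hδ hκ hκ'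
  rw [h2] at h1
  rw [abs_le] at h1 h3 ⊢
  constructor <;> linarith [h1.1, h1.2, h3.1, h3.2]

/-- **B-move** (general self-adjoint operator, compressed). -/
theorem B_step {n M : ℕ} (hQ : Q + 2 ≤ 3 * n) (X : Op (Fin (Q + 1 + 1))) (hX : star X = X)
    {ψ : Fk (Fin (Q + 1 + 1))} {φ : Fk (Fin (Q + 1))}
    (hψ : ψ ∈ ZS (nu0 (Q + 1)) (Q + 1) n M) (hψ1 : ‖ψ‖ = 1)
    (h0 : c (Fin.last (Q + 1)) ψ = 0)
    (hφ : φ ∈ ZS (nu0 Q) Q n M) (hφ1 : ‖φ‖ = 1) {ε : ℝ}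
    (hε : ∀ s ∈ Set.Icc (0 : ℝ) 1, ∀ u ∈ ZS (nuT (fun k => s * tB k) Q) Q n M, ‖u‖ = 1 →
      |cov (dR fun j => -2 * lwF tB Q j) (cmp (ee (Nat.le_succ Q)) X) u| ≤ ε) :
    |mean X ψ - mean (cmp (ee (Nat.le_succ Q)) X) φ| ≤ ε := by
  obtain ⟨χ, hχ, hχ2⟩ := B_image hψ h0
  have hχ1 : ‖χ‖ = 1 := by rw [← norm_emb (ee (Nat.le_succ Q)), hχ2, hψ1]
  have hχ0 : χ ≠ 0 := fun h0 => by rw [h0, norm_zero] at hχ1; exact zero_ne_one hχ1
  have hχ' : χ ∈ ZS (nuT (fun k => 1 * tB k) Q) Q n M := ⟨by rw [← Zs_nu0_succ]; exact hχ.1, hχ.2⟩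
  have hcs : star (cmp (ee (Nat.le_succ Q)) X) = cmp (ee (Nat.le_succ Q)) X := by
    rw [← cmp_star, hX]
  have h1 := path_sector tB hQ _ hcs hφ hφ1 hχ' hχ0 hε
  rw [nrm_of_norm_one hχ1] at h1
  have h2 : mean (cmp (ee (Nat.le_succ Q)) X) χ = mean X ψ := by
    unfold mean
    rw [inner_cmp, hχ2]
  rw [h2] at h1
  exact h1

end Crest.Agent.R340.K1in788
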