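import Crest.Agent.R340.Rot1_303

/-!
# R340 (helper814), D6: moments of the rotated orbitals

For a unitary 2x2 matrix `g`, `u Q g k` = column `k` of `sp Q g` (zero vector if `k > Q`),
`jg Q g = Q |g 1 0|^2`, `sig Q g = sqrt (Q |g 1 0|^2 |g 1 1|^2)`:

* `J_mul_sp` : `diag(j) * sp Q g = sp Q g * TT Q (gᴴ * E11 * g)`, tridiagonal;
* `J_u` : the column form;
* `moment` : `‖(j - jg)^m u_k‖ ≤ CM m * ((1 + sig) * (1 + k))^m`.
-/

set_option autoImplicit false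

open Matrix Finset

namespace Crest.Agent.R340.Mom814

open Crest.Agent.R340.CS809 Crest.Agent.R340.Rot303

noncomputable section

/-- derivative of `kap` at `ζ` in the direction `η` -/
def dk (Q : ℕ) (ζ η : Fin 2 → ℂ) : Fin (Q + 1) → ℂ := fun j =>
  ((sb Q j : ℝ) : ℂ) * ((((Q - (j : ℕ) : ℕ) : ℂ) * ζ 0 ^ (Q - (j : ℕ) - 1) * η 0) * ζ 1 ^ (j : ℕ) +
    ζ 0 ^ (Q - (j : ℕ)) * (((j : ℕ) : ℂ) * ζ 1 ^ ((j : ℕ) - 1) * η 1))

lemma hasDerivAt_kap (Q : ℕ) (ζ η : Fin 2 → ℂ) (j : Fin (Q + 1)) :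
    HasDerivAt (fun x : ℂ => kap Q (ζ + x • η) j) (dk Q ζ η j) 0 := by
  have h0 : ∀ i, HasDerivAt (fun x : ℂ => (ζ + x • η) i) (η i) 0 := by
    intro i
    have h := ((hasDerivAt_id (0 : ℂ)).mul_const (η i)).const_add (ζ i)
    simpa using h
  have h1 := (h0 0).pow (Q - (j : ℕ))
  have h2 := (h0 1).pow (j : ℕ)
  have h3 := (h1.mul h2).const_mul (((sb Q j : ℝ) : ℂ))
  simp only [zero_smul, add_zero, Pi.pow_apply, Pi.mul_apply] at h3
  exact h3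

theorem sp_mulVec_dk (Q : ℕ) (g : Matrix (Fin 2) (Fin 2) ℂ) (ζ η : Fin 2 → ℂ) :
    sp Q g *ᵥ dk Q ζ η = dk Q (g *ᵥ ζ) (g *ᵥ η) := by
  funext j
  have h1 : HasDerivAt (fun x : ℂ => (sp Q g *ᵥ kap Q (ζ + x • η)) j)
      ((sp Q g *ᵥ dk Q ζ η) j) 0 := by
    simp only [mulVec, dotProduct]
    exact HasDerivAt.fun_sum fun k _ => (hasDerivAt_kap Q ζ η k).const_mul (sp Q g j k)
  have h2 : (fun x : ℂ => (sp Q g *ᵥ kap Q (ζ + x • η)) j) =
      fun x : ℂ => kap Q (g *ᵥ ζ + x • (g *ᵥ η)) j := by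
    funext x
    rw [sp_mulVec_kap, mulVec_add, mulVec_smul]
  rw [h2] at h1
  exact h1.unique (hasDerivAt_kap Q _ _ j)

/-- the diagonal matrix of the orbital index -/
def JJ (Q : ℕ) : Matrix (Fin (Q + 1)) (Fin (Q + 1)) ℂ := Matrix.diagonal fun j => ((j : ℕ) : ℂ)

/-- `diag (0, 1)` -/
def E11 : Matrix (Fin 2) (Fin 2) ℂ := Matrix.diagonal ![0, 1]

theorem JJ_mulVec_kap (Q : ℕ) (ζ : Fin 2 → ℂ) : JJ Q *ᵥ kap Q ζ = dk Q ζ (E11 *ᵥ ζ) := by
  funext j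
  simp only [JJ, E11, Matrix.mulVec_diagonal, dk, kap]
  rcases Nat.eq_zero_or_pos (j : ℕ) with hj | hj
  · simp [hj]
  · have h : ζ 1 ^ (j : ℕ) = ζ 1 ^ ((j : ℕ) - 1) * ζ 1 := by
      rw [← pow_succ, Nat.sub_add_cancel hj]
    simp only [Matrix.cons_val_zero, Matrix.cons_val_one, zero_mul, mul_zero, zero_add, one_mul]
    rw [h]
    ring

/-- the tridiagonal matrix of the derived representation -/
def TT (Q : ℕ) (a : Matrix (Fin 2) (Fin 2) ℂ) : Matrix (Fin (Q + 1)) (Fin (Q + 1)) ℂ :=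
  Matrix.of fun j k =>
    (if (k : ℕ) = j then (((Q : ℂ) - (j : ℕ)) * a 0 0 + ((j : ℕ) : ℂ) * a 1 1) else 0) +
    (if (k : ℕ) = j + 1 then ((Real.sqrt (((Q : ℝ) - (j : ℕ)) * ((j : ℕ) + 1)) : ℝ) : ℂ) * a 0 1
      else 0) +
    (if (j : ℕ) = k + 1 then ((Real.sqrt (((Q : ℝ) - (k : ℕ)) * ((k : ℕ) + 1)) : ℝ) : ℂ) * a 1 0
      else 0)

lemma sb_succ {Q j : ℕ} (hj : j < Q) :
    Real.sqrt (((Q : ℝ) - j) * (j + 1)) * sb Q (j + 1) = ((Q : ℝ) - j) * sb Q j := by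
  have h1 : (Nat.choose Q (j + 1) : ℝ) * (j + 1) = Nat.choose Q j * ((Q : ℝ) - j) := by
    have h := Nat.choose_succ_right_eq Q j
    have h' : ((Q.choose (j + 1) * (j + 1) : ℕ) : ℝ) = ((Q.choose j * (Q - j) : ℕ) : ℝ) := by
      rw [h]
    push_cast [Nat.cast_sub hj.le] at h'
    exact h'
  have hq : (0 : ℝ) < (Q : ℝ) - j := by
    rw [sub_pos]; exact_mod_cast hj
  rw [sb, sb, ← Real.sqrt_mul (by positivity)]
  have h2 : ((Q : ℝ) - j) * (j + 1) * (Nat.choose Q (j + 1) : ℝ) =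
      (((Q : ℝ) - j)) ^ 2 * Nat.choose Q j := by
    calc ((Q : ℝ) - j) * (j + 1) * (Nat.choose Q (j + 1) : ℝ)
        = ((Q : ℝ) - j) * ((Nat.choose Q (j + 1) : ℝ) * (j + 1)) := by ring
      _ = _ := by rw [h1]; ring
  rw [h2, Real.sqrt_mul (by positivity), Real.sqrt_sq hq.le]

lemma sb_succ' {Q j : ℕ} (hj : j < Q) :
    Real.sqrt (((Q : ℝ) - j) * (j + 1)) * sb Q j = ((j : ℝ) + 1) * sb Q (j + 1) := by
  have hq : (0 : ℝ) < (Q : ℝ) - j := by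
    rw [sub_pos]; exact_mod_cast hj
  have h := sb_succ hj
  have h3 : Real.sqrt (((Q : ℝ) - j) * (j + 1)) * Real.sqrt (((Q : ℝ) - j) * (j + 1)) =
      ((Q : ℝ) - j) * (j + 1) := Real.mul_self_sqrt (by positivity)
  have h4 : ((Q : ℝ) - j) * (Real.sqrt (((Q : ℝ) - j) * (j + 1)) * sb Q j) =
      ((Q : ℝ) - j) * (((j : ℝ) + 1) * sb Q (j + 1)) := by
    calc ((Q : ℝ) - j) * (Real.sqrt (((Q : ℝ) - j) * (j + 1)) * sb Q j)
        = Real.sqrt (((Q : ℝ) - j) * (j + 1)) * (((Q : ℝ) - j) * sb Q j) := by ring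
      _ = (Real.sqrt (((Q : ℝ) - j) * (j + 1)) * Real.sqrt (((Q : ℝ) - j) * (j + 1))) *
          sb Q (j + 1) := by rw [← h]; ring
      _ = _ := by rw [h3]; ring
  exact mul_left_cancel₀ hq.ne' h4

theorem TT_mulVec_kap (Q : ℕ) (a : Matrix (Fin 2) (Fin 2) ℂ) (ζ : Fin 2 → ℂ) :
    TT Q a *ᵥ kap Q ζ = dk Q ζ (a *ᵥ ζ) := by
  funext j
  have hjQ : (j : ℕ) ≤ Q := Nat.lt_succ_iff.1 j.2
  have e0 : (a *ᵥ ζ) 0 = a 0 0 * ζ 0 + a 0 1 * ζ 1 := by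
    simp [mulVec, dotProduct, Fin.sum_univ_two]
  have e1 : (a *ᵥ ζ) 1 = a 1 0 * ζ 0 + a 1 1 * ζ 1 := by
    simp [mulVec, dotProduct, Fin.sum_univ_two]
  -- the three sums
  have s1 : ∑ k : Fin (Q + 1), (if (k : ℕ) = j then
      (((Q : ℂ) - (j : ℕ)) * a 0 0 + ((j : ℕ) : ℂ) * a 1 1) else 0) * kap Q ζ k =
      (((Q : ℂ) - (j : ℕ)) * a 0 0 + ((j : ℕ) : ℂ) * a 1 1) * kap Q ζ j := by
    rw [Finset.sum_eq_single j]
    · rw [if_pos rfl]
    · intro k _ hk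
      rw [if_neg (fun h => hk (Fin.ext h)), zero_mul]
    · simp
  have s2 : ∑ k : Fin (Q + 1), (if (k : ℕ) = j + 1 then
      ((Real.sqrt (((Q : ℝ) - (j : ℕ)) * ((j : ℕ) + 1)) : ℝ) : ℂ) * a 0 1 else 0) * kap Q ζ k =
      ((sb Q j : ℝ) : ℂ) * (((Q - (j : ℕ) : ℕ) : ℂ) * ζ 0 ^ (Q - (j : ℕ) - 1) * (a 0 1 * ζ 1)) *
        ζ 1 ^ (j : ℕ) := by
    rcases Nat.lt_or_ge (j : ℕ) Q with h | h
    · rw [Finset.sum_eq_single (⟨(j : ℕ) + 1, by omega⟩ : Fin (Q + 1))]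
      · rw [if_pos rfl]
        simp only [kap]
        have h5 := sb_succ h
        have h6 : ((Real.sqrt (((Q : ℝ) - (j : ℕ)) * ((j : ℕ) + 1)) : ℝ) : ℂ) *
            ((sb Q ((j : ℕ) + 1) : ℝ) : ℂ) = ((Q : ℂ) - (j : ℕ)) * ((sb Q j : ℝ) : ℂ) := by
          rw [← Complex.ofReal_mul, h5]; push_cast; ring
        have h7 : Q - ((j : ℕ) + 1) = Q - (j : ℕ) - 1 := by omega
        rw [h7, Nat.cast_sub hjQ, pow_succ]
        linear_combination (a 0 1 * ζ 0 ^ (Q - (j : ℕ) - 1) * ζ 1 ^ (j : ℕ) * ζ 1) * h6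
      · intro k _ hk
        rw [if_neg (fun h => hk (Fin.ext h)), zero_mul]
      · simp
    · have : (j : ℕ) = Q := le_antisymm hjQ h
      rw [Finset.sum_eq_zero]
      · rw [this]; simp
      · intro k _
        rw [if_neg, zero_mul]
        have := k.2
        omega
  have s3 : ∑ k : Fin (Q + 1), (if (j : ℕ) = k + 1 then
      ((Real.sqrt (((Q : ℝ) - (k : ℕ)) * ((k : ℕ) + 1)) : ℝ) : ℂ) * a 1 0 else 0) * kap Q ζ k =
      ((sb Q j : ℝ) : ℂ) * (ζ 0 ^ (Q - (j : ℕ)) *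
        (((j : ℕ) : ℂ) * ζ 1 ^ ((j : ℕ) - 1) * (a 1 0 * ζ 0))) := by
    rcases Nat.eq_zero_or_pos (j : ℕ) with h | h
    · rw [Finset.sum_eq_zero]
      · rw [h]; simp
      · intro k _
        rw [if_neg, zero_mul]
        omega
    · rw [Finset.sum_eq_single (⟨(j : ℕ) - 1, by omega⟩ : Fin (Q + 1))]
      · rw [if_pos (by simp; omega)]
        simp only [kap]
        have h5 := sb_succ' (Q := Q) (j := (j : ℕ) - 1) (by omega)
        rw [Nat.sub_add_cancel h] at h5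
        have h6 : ((Real.sqrt (((Q : ℝ) - ((j : ℕ) - 1 : ℕ)) * (((j : ℕ) - 1 : ℕ) + 1)) : ℝ) : ℂ) *
            ((sb Q ((j : ℕ) - 1) : ℝ) : ℂ) = ((j : ℕ) : ℂ) * ((sb Q j : ℝ) : ℂ) := by
          rw [← Complex.ofReal_mul, h5]
          push_cast [Nat.cast_sub h]
          ring
        have h7 : Q - ((j : ℕ) - 1) = Q - (j : ℕ) + 1 := by omega
        rw [h7, pow_succ]
        linear_combination (a 1 0 * ζ 0 ^ (Q - (j : ℕ)) * ζ 1 ^ ((j : ℕ) - 1) * ζ 0) * h6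
      · intro k _ hk
        rw [if_neg, zero_mul]
        intro h'
        apply hk
        apply Fin.ext
        simp only
        omega
      · simp
  have hsum : (TT Q a *ᵥ kap Q ζ) j =
      (((Q : ℂ) - (j : ℕ)) * a 0 0 + ((j : ℕ) : ℂ) * a 1 1) * kap Q ζ j +
      ((sb Q j : ℝ) : ℂ) * (((Q - (j : ℕ) : ℕ) : ℂ) * ζ 0 ^ (Q - (j : ℕ) - 1) * (a 0 1 * ζ 1)) *
        ζ 1 ^ (j : ℕ) +
      ((sb Q j : ℝ) : ℂ) * (ζ 0 ^ (Q - (j : ℕ)) *
        (((j : ℕ) : ℂ) * ζ 1 ^ ((j : ℕ) - 1) * (a 1 0 * ζ 0))) := by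
    rw [← s1, ← s2, ← s3, ← Finset.sum_add_distrib, ← Finset.sum_add_distrib]
    simp only [mulVec, dotProduct, TT, Matrix.of_apply, add_mul]
  rw [hsum]
  simp only [dk, e0, e1, kap]
  have t1 : ((Q : ℂ) - (j : ℕ)) * ζ 0 ^ (Q - (j : ℕ)) =
      ((Q - (j : ℕ) : ℕ) : ℂ) * ζ 0 ^ (Q - (j : ℕ) - 1) * ζ 0 := by
    rw [Nat.cast_sub hjQ]
    rcases Nat.lt_or_ge (j : ℕ) Q with h | h
    · have : Q - (j : ℕ) = (Q - (j : ℕ) - 1) + 1 := by omega
      rw [mul_assoc, ← pow_succ, ← this]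
    · have : (j : ℕ) = Q := le_antisymm hjQ h
      rw [this]; simp
  have t2 : ((j : ℕ) : ℂ) * ζ 1 ^ (j : ℕ) = ((j : ℕ) : ℂ) * ζ 1 ^ ((j : ℕ) - 1) * ζ 1 := by
    rcases Nat.eq_zero_or_pos (j : ℕ) with h | h
    · rw [h]; simp
    · rw [mul_assoc, ← pow_succ, Nat.sub_add_cancel h]
  linear_combination (a 0 0 * ((sb Q j : ℝ) : ℂ) * ζ 1 ^ (j : ℕ)) * t1 +
    (a 1 1 * ((sb Q j : ℝ) : ℂ) * ζ 0 ^ (Q - (j : ℕ))) * t2

/-- conjugating the orbital index by a rotation gives a tridiagonal matrix -/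
theorem JJ_mul_sp (Q : ℕ) {g : Matrix (Fin 2) (Fin 2) ℂ} (hg : g * gᴴ = 1) :
    JJ Q * sp Q g = sp Q g * TT Q (gᴴ * E11 * g) := by
  refine ext_kap fun ζ => ?_
  rw [← mulVec_mulVec, sp_mulVec_kap, JJ_mulVec_kap, ← mulVec_mulVec, TT_mulVec_kap, sp_mulVec_dk,
    mulVec_mulVec, mulVec_mulVec]
  congr 2
  rw [← Matrix.mul_assoc, ← Matrix.mul_assoc, hg, Matrix.one_mul]

/-- column `k` of `sp Q g` (zero if `k > Q`) -/
def uf (Q : ℕ) (g : Matrix (Fin 2) (Fin 2) ℂ) (k : ℕ) : Fin (Q + 1) → ℂ := fun j =>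
  if h : k < Q + 1 then sp Q g j ⟨k, h⟩ else 0

lemma uf_of_lt {Q k : ℕ} (g : Matrix (Fin 2) (Fin 2) ℂ) (h : k < Q + 1) (j : Fin (Q + 1)) :
    uf Q g k j = sp Q g j ⟨k, h⟩ := by
  rw [uf, dif_pos h]

lemma uf_of_ge {Q k : ℕ} (g : Matrix (Fin 2) (Fin 2) ℂ) (h : Q + 1 ≤ k) (j : Fin (Q + 1)) :
    uf Q g k j = 0 := by
  rw [uf, dif_neg (not_lt.2 h)]

/-- three-term relation -/
theorem JJ_mulVec_uf (Q : ℕ) {g : Matrix (Fin 2) (Fin 2) ℂ} (hg : g * gᴴ = 1) {k : ℕ}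
    (hk : k ≤ Q) (j : Fin (Q + 1)) :
    ((j : ℕ) : ℂ) * uf Q g k j =
      (((Q : ℂ) - k) * (gᴴ * E11 * g) 0 0 + (k : ℂ) * (gᴴ * E11 * g) 1 1) * uf Q g k j +
      (((Real.sqrt (((Q : ℝ) - k) * (k + 1)) : ℝ) : ℂ) * (gᴴ * E11 * g) 1 0) * uf Q g (k + 1) j +
      (((Real.sqrt (((Q : ℝ) - k + 1) * k) : ℝ) : ℂ) * (gᴴ * E11 * g) 0 1) *
        uf Q g (k - 1) j := by
  set a := gᴴ * E11 * g with ha
  have hk' : k < Q + 1 := by omega
  have h := congrFun (congrFun (JJ_mul_sp Q hg) j) ⟨k, hk'⟩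
  rw [JJ, Matrix.diagonal_mul, ← uf_of_lt g hk' j, Matrix.mul_apply] at h
  rw [h]
  have s1 : ∑ l : Fin (Q + 1), sp Q g j l * (if k = (l : ℕ) then
      (((Q : ℂ) - (l : ℕ)) * a 0 0 + ((l : ℕ) : ℂ) * a 1 1) else 0) =
      (((Q : ℂ) - k) * a 0 0 + (k : ℂ) * a 1 1) * uf Q g k j := by
    rw [Finset.sum_eq_single ⟨k, hk'⟩]
    · rw [if_pos rfl, uf_of_lt g hk' j, mul_comm]
    · intro l _ hl
      rw [if_neg (fun h => hl (Fin.ext h.symm)), mul_zero]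
    · simp
  have s2 : ∑ l : Fin (Q + 1), sp Q g j l * (if k = (l : ℕ) + 1 then
      ((Real.sqrt (((Q : ℝ) - (l : ℕ)) * ((l : ℕ) + 1)) : ℝ) : ℂ) * a 0 1 else 0) =
      (((Real.sqrt (((Q : ℝ) - k + 1) * k) : ℝ) : ℂ) * a 0 1) * uf Q g (k - 1) j := by
    rcases Nat.eq_zero_or_pos k with h0 | h0
    · subst h0
      rw [Finset.sum_eq_zero]
      · simp
      · intro l _
        rw [if_neg (by omega), mul_zero]
    · have hk1 : k - 1 < Q + 1 := by omega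
      rw [Finset.sum_eq_single ⟨k - 1, hk1⟩]
      · rw [if_pos (by simp only; omega), uf_of_lt g hk1 j, mul_comm]
        simp only
        have e1 : (Q : ℝ) - ((k - 1 : ℕ) : ℝ) = (Q : ℝ) - k + 1 := by
          rw [Nat.cast_sub h0]; push_cast; ring
        have e2 : ((k - 1 : ℕ) : ℝ) + 1 = (k : ℝ) := by
          rw [Nat.cast_sub h0]; push_cast; ring
        rw [e1, e2]
      · intro l _ hl
        rw [if_neg, mul_zero]
        intro h
        apply hl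
        apply Fin.ext
        simp only
        omega
      · simp
  have s3 : ∑ l : Fin (Q + 1), sp Q g j l * (if (l : ℕ) = k + 1 then
      ((Real.sqrt (((Q : ℝ) - k) * (k + 1)) : ℝ) : ℂ) * a 1 0 else 0) =
      (((Real.sqrt (((Q : ℝ) - k) * (k + 1)) : ℝ) : ℂ) * a 1 0) * uf Q g (k + 1) j := by
    rcases Nat.lt_or_ge k Q with h0 | h0
    · have hk1 : k + 1 < Q + 1 := by omega
      rw [Finset.sum_eq_single ⟨k + 1, hk1⟩]
      · rw [if_pos rfl, uf_of_lt g hk1 j, mul_comm]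
      · intro l _ hl
        rw [if_neg (fun h => hl (Fin.ext h)), mul_zero]
      · simp
    · rw [uf_of_ge g (by omega), mul_zero]
      rw [Finset.sum_eq_zero]
      intro l _
      rw [if_neg, mul_zero]
      have := l.2
      omega
  have hS : ∑ l : Fin (Q + 1), sp Q g j l * TT Q a l ⟨k, hk'⟩ =
      (∑ l : Fin (Q + 1), sp Q g j l * (if k = (l : ℕ) then
      (((Q : ℂ) - (l : ℕ)) * a 0 0 + ((l : ℕ) : ℂ) * a 1 1) else 0)) +
      (∑ l : Fin (Q + 1), sp Q g j l * (if k = (l : ℕ) + 1 then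
      ((Real.sqrt (((Q : ℝ) - (l : ℕ)) * ((l : ℕ) + 1)) : ℝ) : ℂ) * a 0 1 else 0)) +
      (∑ l : Fin (Q + 1), sp Q g j l * (if (l : ℕ) = k + 1 then
      ((Real.sqrt (((Q : ℝ) - k) * (k + 1)) : ℝ) : ℂ) * a 1 0 else 0)) := by
    rw [← Finset.sum_add_distrib, ← Finset.sum_add_distrib]
    refine Finset.sum_congr rfl fun l _ => ?_
    rw [← mul_add, ← mul_add]
    rfl
  rw [hS, s1, s2, s3]
  ring

/-! ### entries of `gᴴ E11 g` -/

lemma a_apply (g : Matrix (Fin 2) (Fin 2) ℂ) (i j : Fin 2) :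
    (gᴴ * E11 * g) i j = star (g 1 i) * g 1 j := by
  rw [Matrix.mul_apply, Fin.sum_univ_two]
  simp [E11, Matrix.mul_apply, Fin.sum_univ_two, Matrix.conjTranspose_apply]

lemma row_norm {g : Matrix (Fin 2) (Fin 2) ℂ} (hg : g * gᴴ = 1) :
    ‖g 1 0‖ ^ 2 + ‖g 1 1‖ ^ 2 = 1 := by
  have h := congrFun (congrFun hg 1) 1
  rw [Matrix.mul_apply, Fin.sum_univ_two, Matrix.conjTranspose_apply, Matrix.conjTranspose_apply,
    Matrix.one_apply_eq] at h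
  have e : ∀ z : ℂ, z * star z = ((‖z‖ ^ 2 : ℝ) : ℂ) := by
    intro z
    rw [Complex.star_def, Complex.mul_conj, Complex.normSq_eq_norm_sq]
  rw [e, e, ← Complex.ofReal_add] at h
  exact_mod_cast h

/-- centre of the packet -/
def jg (Q : ℕ) (g : Matrix (Fin 2) (Fin 2) ℂ) : ℝ := Q * ‖g 1 0‖ ^ 2

/-- width of the packet -/
def sig (Q : ℕ) (g : Matrix (Fin 2) (Fin 2) ℂ) : ℝ := Real.sqrt Q * ‖g 1 0‖ * ‖g 1 1‖

lemma sig_nonneg (Q : ℕ) (g : Matrix (Fin 2) (Fin 2) ℂ) : 0 ≤ sig Q g := by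
  unfold sig; positivity

lemma sig_sq (Q : ℕ) (g : Matrix (Fin 2) (Fin 2) ℂ) :
    sig Q g ^ 2 = Q * ‖g 1 0‖ ^ 2 * ‖g 1 1‖ ^ 2 := by
  rw [sig, mul_pow, mul_pow, Real.sq_sqrt (Nat.cast_nonneg _)]

/-- the vector `(j - jg)^m u_k` -/
def FF (Q : ℕ) (g : Matrix (Fin 2) (Fin 2) ℂ) (m k : ℕ) : EuclideanSpace ℂ (Fin (Q + 1)) :=
  WithLp.toLp 2 fun j => (((j : ℕ) : ℂ) - ((jg Q g : ℝ) : ℂ)) ^ m * uf Q g k j

lemma FF_apply (Q : ℕ) (g : Matrix (Fin 2) (Fin 2) ℂ) (m k : ℕ) (j : Fin (Q + 1)) :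
    FF Q g m k j = (((j : ℕ) : ℂ) - ((jg Q g : ℝ) : ℂ)) ^ m * uf Q g k j := rfl

lemma FF_zero_of_ge {Q : ℕ} (g : Matrix (Fin 2) (Fin 2) ℂ) (m : ℕ) {k : ℕ} (hk : Q + 1 ≤ k) :
    FF Q g m k = 0 := by
  ext j
  rw [FF_apply, uf_of_ge g hk, mul_zero]
  rfl

/-- coefficients of the three-term recurrence -/
theorem FF_succ (Q : ℕ) {g : Matrix (Fin 2) (Fin 2) ℂ} (hg : g * gᴴ = 1) (m : ℕ) {k : ℕ}
    (hk : k ≤ Q) :
    FF Q g (m + 1) k =
      (((k : ℝ) * (‖g 1 1‖ ^ 2 - ‖g 1 0‖ ^ 2) : ℝ) : ℂ) • FF Q g m k +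
      (((Real.sqrt (((Q : ℝ) - k) * (k + 1)) : ℝ) : ℂ) * (star (g 1 1) * g 1 0)) •
        FF Q g m (k + 1) +
      (((Real.sqrt (((Q : ℝ) - k + 1) * k) : ℝ) : ℂ) * (star (g 1 0) * g 1 1)) •
        FF Q g m (k - 1) := by
  have e : ∀ z : ℂ, star z * z = ((‖z‖ ^ 2 : ℝ) : ℂ) := by
    intro z
    rw [mul_comm, Complex.star_def, Complex.mul_conj, Complex.normSq_eq_norm_sq]
  ext j
  simp only [PiLp.add_apply, PiLp.smul_apply, smul_eq_mul, FF_apply]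
  have h := JJ_mulVec_uf Q hg hk j
  rw [a_apply, a_apply, a_apply, a_apply, e, e] at h
  rw [pow_succ, mul_assoc, sub_mul, h, jg]
  push_cast
  ring

lemma norm_FF_zero (Q : ℕ) {g : Matrix (Fin 2) (Fin 2) ℂ} (hg : gᴴ * g = 1) (k : ℕ) :
    ‖FF Q g 0 k‖ ≤ 1 := by
  rcases Nat.lt_or_ge k (Q + 1) with hk | hk
  · have h := congrFun (congrFun (sp_unitary Q hg) ⟨k, hk⟩) ⟨k, hk⟩
    rw [Matrix.mul_apply, Matrix.one_apply_eq] at h
    have h2 : ‖FF Q g 0 k‖ ^ 2 = 1 := by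
      rw [EuclideanSpace.norm_sq_eq]
      have h3 : ((∑ j, ‖FF Q g 0 k j‖ ^ 2 : ℝ) : ℂ) = 1 := by
        rw [← h]
        push_cast
        refine Finset.sum_congr rfl fun j _ => ?_
        rw [FF_apply, pow_zero, one_mul, uf_of_lt g hk, Matrix.conjTranspose_apply,
          Complex.star_def, ← Complex.normSq_eq_conj_mul_self, Complex.normSq_eq_norm_sq]
        push_cast
        rfl
      exact_mod_cast h3
    have h4 : ‖FF Q g 0 k‖ = 1 := by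
      have := (sq_eq_sq₀ (norm_nonneg (FF Q g 0 k)) zero_le_one).1 (by rw [h2, one_pow])
      exact this
    exact h4.le
  · rw [FF_zero_of_ge g 0 hk, norm_zero]
    exact zero_le_one

/-- the constants -/
def CM : ℕ → ℝ
  | 0 => 1
  | (m + 1) => (2 + 2 ^ m) * CM m

lemma CM_nonneg (m : ℕ) : 0 ≤ CM m := by
  induction m with
  | zero => simp [CM]
  | succ m ih => rw [CM]; positivity

lemma norm_star_mul (a b : ℂ) : ‖star a * b‖ = ‖a‖ * ‖b‖ := by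
  rw [norm_mul, norm_star]

/-- **moments of the rotated orbitals** -/
theorem norm_FF_le (Q : ℕ) {g : Matrix (Fin 2) (Fin 2) ℂ} (hg : gᴴ * g = 1) (m k : ℕ) :
    ‖FF Q g m k‖ ≤ CM m * ((1 + sig Q g) * (1 + k)) ^ m := by
  have hg' : g * gᴴ = 1 := mul_eq_one_comm.1 hg
  have hs := sig_nonneg Q g
  have hr := row_norm hg'
  induction m generalizing k with
  | zero =>
    simp only [CM, pow_zero, mul_one]
    exact norm_FF_zero Q hg k
  | succ m ih =>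
    have hC := CM_nonneg m
    rcases Nat.lt_or_ge Q k with hk | hk
    · rw [FF_zero_of_ge g _ hk, norm_zero]
      have := CM_nonneg (m + 1)
      positivity
    rw [FF_succ Q hg' m hk]
    set S := 1 + sig Q g with hS
    have hS1 : 1 ≤ S := by rw [hS]; linarith
    have hk0 : (0 : ℝ) ≤ k := Nat.cast_nonneg k
    -- first term
    have b1 : ‖(((k : ℝ) * (‖g 1 1‖ ^ 2 - ‖g 1 0‖ ^ 2) : ℝ) : ℂ)‖ ≤ k := by
      rw [Complex.norm_real, Real.norm_eq_abs, abs_mul, abs_of_nonneg hk0]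
      have : |‖g 1 1‖ ^ 2 - ‖g 1 0‖ ^ 2| ≤ 1 := by
        rw [abs_le]
        constructor <;> nlinarith [sq_nonneg ‖g 1 1‖, sq_nonneg ‖g 1 0‖]
      nlinarith
    have b2 : ‖(((Real.sqrt (((Q : ℝ) - k) * (k + 1)) : ℝ) : ℂ) * (star (g 1 1) * g 1 0))‖ ≤
        sig Q g * (1 + k) := by
      rw [norm_mul, norm_star_mul, Complex.norm_real, Real.norm_eq_abs,
        abs_of_nonneg (Real.sqrt_nonneg _)]
      have hQk : (0 : ℝ) ≤ (Q : ℝ) - k := by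
        rw [sub_nonneg]; exact_mod_cast hk
      have h1 : Real.sqrt (((Q : ℝ) - k) * (k + 1)) ≤ Real.sqrt Q * (1 + k) := by
        rw [Real.sqrt_mul hQk]
        have h2 : Real.sqrt ((Q : ℝ) - k) ≤ Real.sqrt Q := Real.sqrt_le_sqrt (by linarith)
        have h3 : Real.sqrt ((k : ℝ) + 1) ≤ 1 + k := by
          rw [Real.sqrt_le_left (by positivity)]
          nlinarith
        exact mul_le_mul h2 h3 (Real.sqrt_nonneg _) (Real.sqrt_nonneg _)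
      calc Real.sqrt (((Q : ℝ) - k) * (k + 1)) * (‖g 1 1‖ * ‖g 1 0‖)
          ≤ (Real.sqrt Q * (1 + k)) * (‖g 1 1‖ * ‖g 1 0‖) :=
            mul_le_mul_of_nonneg_right h1 (by positivity)
        _ = sig Q g * (1 + k) := by rw [sig]; ring
    have b3 : ‖(((Real.sqrt (((Q : ℝ) - k + 1) * k) : ℝ) : ℂ) * (star (g 1 0) * g 1 1))‖ ≤
        sig Q g * k := by
      rw [norm_mul, norm_star_mul, Complex.norm_real, Real.norm_eq_abs,
        abs_of_nonneg (Real.sqrt_nonneg _)]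
      have h1 : Real.sqrt (((Q : ℝ) - k + 1) * k) ≤ Real.sqrt Q * k := by
        rcases Nat.eq_zero_or_pos k with h0 | h0
        · subst h0; simp
        · have hk1 : (1 : ℝ) ≤ k := by exact_mod_cast h0
          have hQk : (0 : ℝ) ≤ (Q : ℝ) - k + 1 := by
            have : (k : ℝ) ≤ Q := by exact_mod_cast hk
            linarith
          rw [Real.sqrt_mul hQk]
          have h2 : Real.sqrt ((Q : ℝ) - k + 1) ≤ Real.sqrt Q := Real.sqrt_le_sqrt (by linarith)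
          have h3 : Real.sqrt (k : ℝ) ≤ k := by
            rw [Real.sqrt_le_left (by positivity)]
            nlinarith
          exact mul_le_mul h2 h3 (Real.sqrt_nonneg _) (Real.sqrt_nonneg _)
      calc Real.sqrt (((Q : ℝ) - k + 1) * k) * (‖g 1 0‖ * ‖g 1 1‖)
          ≤ (Real.sqrt Q * k) * (‖g 1 0‖ * ‖g 1 1‖) :=
            mul_le_mul_of_nonneg_right h1 (by positivity)
        _ = sig Q g * k := by rw [sig]; ring
    have t1 : ‖FF Q g m k‖ ≤ CM m * (S * (1 + k)) ^ m := ih k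
    have t2 : ‖FF Q g m (k + 1)‖ ≤ 2 ^ m * (CM m * (S * (1 + k)) ^ m) := by
      refine (ih (k + 1)).trans ?_
      have : (S * (1 + ((k + 1 : ℕ) : ℝ))) ^ m ≤ (2 * (S * (1 + k))) ^ m := by
        apply pow_le_pow_left₀ (by positivity)
        push_cast
        nlinarith
      calc CM m * (S * (1 + ((k + 1 : ℕ) : ℝ))) ^ m ≤ CM m * (2 * (S * (1 + k))) ^ m :=
            mul_le_mul_of_nonneg_left this hC
        _ = _ := by rw [mul_pow 2]; ring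
    have t3 : ‖FF Q g m (k - 1)‖ ≤ CM m * (S * (1 + k)) ^ m := by
      refine (ih (k - 1)).trans ?_
      apply mul_le_mul_of_nonneg_left _ hC
      apply pow_le_pow_left₀ (by positivity)
      have : ((k - 1 : ℕ) : ℝ) ≤ k := by exact_mod_cast Nat.sub_le k 1
      nlinarith
    have hW : 0 ≤ CM m * (S * (1 + k)) ^ m := by positivity
    calc _ ≤ ‖(((k : ℝ) * (‖g 1 1‖ ^ 2 - ‖g 1 0‖ ^ 2) : ℝ) : ℂ) • FF Q g m k‖ +
          ‖(((Real.sqrt (((Q : ℝ) - k) * (k + 1)) : ℝ) : ℂ) * (star (g 1 1) * g 1 0)) •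
            FF Q g m (k + 1)‖ +
          ‖(((Real.sqrt (((Q : ℝ) - k + 1) * k) : ℝ) : ℂ) * (star (g 1 0) * g 1 1)) •
            FF Q g m (k - 1)‖ := norm_add₃_le
      _ ≤ k * (CM m * (S * (1 + k)) ^ m) +
          (sig Q g * (1 + k)) * (2 ^ m * (CM m * (S * (1 + k)) ^ m)) +
          (sig Q g * k) * (CM m * (S * (1 + k)) ^ m) := by
        rw [norm_smul, norm_smul, norm_smul]
        refine add_le_add (add_le_add ?_ ?_) ?_
        · exact mul_le_mul b1 t1 (norm_nonneg _) hk0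
        · exact mul_le_mul b2 t2 (norm_nonneg _) (by positivity)
        · exact mul_le_mul b3 t3 (norm_nonneg _) (by positivity)
      _ ≤ (S * (1 + k)) * (CM m * (S * (1 + k)) ^ m) +
          (S * (1 + k)) * (2 ^ m * (CM m * (S * (1 + k)) ^ m)) +
          (S * (1 + k)) * (CM m * (S * (1 + k)) ^ m) := by
        refine add_le_add (add_le_add ?_ ?_) ?_
        · apply mul_le_mul_of_nonneg_right _ hW
          nlinarith
        · apply mul_le_mul_of_nonneg_right _ (by positivity)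
          rw [hS]; nlinarith
        · apply mul_le_mul_of_nonneg_right _ hW
          rw [hS]; nlinarith
      _ = CM (m + 1) * (S * (1 + k)) ^ (m + 1) := by
        rw [CM, pow_succ]; ring

/-- the rotated orbital `u_k` as a vector of the one-particle space -/
def uL (Q : ℕ) (g : Matrix (Fin 2) (Fin 2) ℂ) (k : ℕ) : EuclideanSpace ℂ (Fin (Q + 1)) :=
  WithLp.toLp 2 (uf Q g k)

lemma uL_apply (Q : ℕ) (g : Matrix (Fin 2) (Fin 2) ℂ) (k : ℕ) (j : Fin (Q + 1)) :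
    uL Q g k j = uf Q g k j := rfl

lemma uL_eq (Q : ℕ) (g : Matrix (Fin 2) (Fin 2) ℂ) (k : Fin (Q + 1)) :
    uL Q g k = WithLp.toLp 2 (fun j => sp Q g j k) := by
  ext j
  rw [uL_apply, uf_of_lt g k.2]

/-- weighted version: a multiplication operator dominated by `|j - jg|^m` -/
theorem norm_weight_le (Q : ℕ) {g : Matrix (Fin 2) (Fin 2) ℂ} (hg : gᴴ * g = 1) (m k : ℕ)
    (h : Fin (Q + 1) → ℂ) {D : ℝ} (hD : 0 ≤ D)
    (hh : ∀ j : Fin (Q + 1), ‖h j‖ ≤ D * |((j : ℕ) : ℝ) - jg Q g| ^ m) :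
    ‖(WithLp.toLp 2 (fun j => h j * uf Q g k j) : EuclideanSpace ℂ (Fin (Q + 1)))‖ ≤
      D * (CM m * ((1 + sig Q g) * (1 + k)) ^ m) := by
  refine le_trans ?_ (mul_le_mul_of_nonneg_left (norm_FF_le Q hg m k) hD)
  have h1 : D * ‖FF Q g m k‖ = ‖((D : ℂ)) • FF Q g m k‖ := by
    rw [norm_smul, Complex.norm_real, Real.norm_eq_abs, abs_of_nonneg hD]
  rw [h1, EuclideanSpace.norm_eq, EuclideanSpace.norm_eq]
  apply Real.sqrt_le_sqrt
  refine Finset.sum_le_sum fun j _ => ?_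
  apply pow_le_pow_left₀ (norm_nonneg _)
  rw [PiLp.smul_apply, FF_apply, smul_eq_mul]
  simp only [norm_mul, norm_pow, Complex.norm_real, Real.norm_eq_abs, abs_of_nonneg hD]
  have h2 : ‖((j : ℕ) : ℂ) - ((jg Q g : ℝ) : ℂ)‖ = |((j : ℕ) : ℝ) - jg Q g| := by
    rw [← Complex.ofReal_natCast, ← Complex.ofReal_sub, Complex.norm_real, Real.norm_eq_abs]
  rw [h2, ← mul_assoc]
  exact mul_le_mul_of_nonneg_right (hh j) (norm_nonneg _)

/-- tail: the part of `u_k` on orbitals at distance `≥ R` from the centre -/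
theorem norm_tail_le (Q : ℕ) {g : Matrix (Fin 2) (Fin 2) ℂ} (hg : gᴴ * g = 1) (m k : ℕ)
    {R : ℝ} (hR : 0 < R) (h : Fin (Q + 1) → ℂ) {D : ℝ} (hD : 0 ≤ D)
    (hh : ∀ j : Fin (Q + 1), ‖h j‖ ≤ D)
    (hs : ∀ j : Fin (Q + 1), |((j : ℕ) : ℝ) - jg Q g| < R → h j = 0) :
    ‖(WithLp.toLp 2 (fun j => h j * uf Q g k j) : EuclideanSpace ℂ (Fin (Q + 1)))‖ ≤
      D * (CM m * ((1 + sig Q g) * (1 + k) / R) ^ m) := by
  have h1 := norm_weight_le Q hg m k h (D := D / R ^ m) (by positivity) (by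
    intro j
    rcases lt_or_ge (|((j : ℕ) : ℝ) - jg Q g|) R with h2 | h2
    · rw [hs j h2, norm_zero]
      positivity
    · refine (hh j).trans ?_
      rw [div_mul_eq_mul_div, le_div_iff₀ (by positivity)]
      exact mul_le_mul_of_nonneg_left (pow_le_pow_left₀ hR.le h2 m) hD)
  refine h1.trans (le_of_eq ?_)
  rw [div_pow]
  field_simp

end

end Crest.Agent.R340.Mom814
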