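import Crest.Agent.R340.Rot3_303
import Crest.Agent.R340.Mom_814

/-!
# R340 (helper303), rotation layer 4: the Lie algebra

`TT Q a` (helper814) = derived representation of a `2 × 2` matrix `a`.
* `hasDerivAt_Rg` : derivative of `t ↦ Rg Q (u t)` at `u 0 = 1` is `dG (TT Q X)`;
* `commute_dG_TT` : commuting with all rotations implies commuting with all `dG (TT Q a)`;
* `dG_comm_Bp` : `[dG (TT Q a), Bp p] = -(tr a • Bp p + ∑ q, TT2 Q a p q • Bp q)`;
* `dG_comm_HH`.
-/

set_option autoImplicit false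

open Matrix Polynomial

namespace Crest.Agent.R340.Rot303

open Crest.Agent.R340.CS809 Crest.MathPhysics.Laughlin Crest.Agent.R340.Fock649
  Crest.Agent.R340.Gam303 Crest.Agent.R340.Br320 Crest.Agent.R340.Mom814

noncomputable section

variable {Q : ℕ}

/-- entrywise derivative at `0` -/
def HD {m n : Type*} (u : ℝ → Matrix m n ℂ) (X : Matrix m n ℂ) : Prop :=
  ∀ i j, HasDerivAt (fun t => u t i j) (X i j) 0

/-! ## the derived representation -/

lemma differentiableAt_sp {u : ℝ → Matrix (Fin 2) (Fin 2) ℂ} {X : Matrix (Fin 2) (Fin 2) ℂ}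
    (hu : HD u X) (Q : ℕ) (j k : Fin (Q + 1)) :
    DifferentiableAt ℝ (fun t => sp Q (u t) j k) 0 := by
  simp only [sp, of_apply]
  refine (differentiableAt_const _).mul ?_
  have hlin : ∀ (a b : Fin 2) (m : ℕ), DifferentiableAt ℝ
      (fun t => ((C (u t a b) : ℂ[X])).coeff m) 0 := by
    intro a b m
    rcases Nat.eq_zero_or_pos m with rfl | hm
    · simp only [coeff_C_zero]
      exact (hu a b).differentiableAt
    · have : (fun t => ((C (u t a b) : ℂ[X])).coeff m) = fun _ => 0 := by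
        funext g; rw [coeff_C_of_ne_zero hm.ne']
      rw [this]; exact differentiableAt_const _
  have hmul : ∀ (f h : ℝ → ℂ[X]), (∀ m, DifferentiableAt ℝ (fun g => (f g).coeff m) 0) →
      (∀ m, DifferentiableAt ℝ (fun g => (h g).coeff m) 0) →
      ∀ m, DifferentiableAt ℝ (fun g => (f g * h g).coeff m) 0 := by
    intro f h hf hh m
    simp only [coeff_mul]
    exact DifferentiableAt.fun_sum fun x _ => (hf _).mul (hh _)
  have hpow : ∀ (f : ℝ → ℂ[X]), (∀ m, DifferentiableAt ℝ (fun g => (f g).coeff m) 0) →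
      ∀ n m, DifferentiableAt ℝ (fun g => (f g ^ n).coeff m) 0 := by
    intro f hf n
    induction n with
    | zero => intro m; simp only [pow_zero]; exact differentiableAt_const _
    | succ n ih => intro m; simp only [pow_succ]; exact hmul _ _ ih hf m
  have hlf : ∀ a m, DifferentiableAt ℝ (fun t => (lf (u t) a).coeff m) 0 := by
    intro a m
    simp only [lf, coeff_add]
    refine (hlin a 0 m).add ?_
    exact hmul _ (fun _ => Polynomial.X) (hlin a 1) (fun _ => differentiableAt_const _) m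
  exact hmul _ _ (hpow _ (hlf 0) _) (hpow _ (hlf 1) _) _

lemma hasDerivAt_kap_curve {v : ℝ → Fin 2 → ℂ} {η : Fin 2 → ℂ}
    (hv : ∀ i, HasDerivAt (fun t => v t i) (η i) 0) (j : Fin (Q + 1)) :
    HasDerivAt (fun t => kap Q (v t) j) (dk Q (v 0) η j) 0 := by
  have h1 := (hv 0).fun_pow (Q - (j : ℕ))
  have h2 := (hv 1).fun_pow (j : ℕ)
  have h3 := (h1.fun_mul h2).const_mul (((sb Q j : ℝ) : ℂ))
  exact h3

/-- **The derivative of the representation at the identity.** -/
theorem hasDerivAt_sp {u : ℝ → Matrix (Fin 2) (Fin 2) ℂ} {X : Matrix (Fin 2) (Fin 2) ℂ}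
    (hu : HD u X) (h0 : u 0 = 1) (Q : ℕ) : HD (fun t => sp Q (u t)) (TT Q X) := by
  set M : Matrix (Fin (Q + 1)) (Fin (Q + 1)) ℂ :=
    Matrix.of fun j k => deriv (fun t => sp Q (u t) j k) 0 with hM
  have h1 : ∀ j k, HasDerivAt (fun t => sp Q (u t) j k) (M j k) 0 := by
    intro j k
    exact (differentiableAt_sp hu Q j k).hasDerivAt
  have h2 : M = TT Q X := by
    refine ext_kap fun ζ => ?_
    rw [TT_mulVec_kap]
    funext j
    have h3 : HasDerivAt (fun t => (sp Q (u t) *ᵥ kap Q ζ) j) ((M *ᵥ kap Q ζ) j) 0 := by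
      simp only [mulVec, dotProduct]
      exact HasDerivAt.fun_sum fun k _ => (h1 j k).mul_const _
    have h4 : (fun t => (sp Q (u t) *ᵥ kap Q ζ) j) = fun t => kap Q (u t *ᵥ ζ) j := by
      funext t; rw [sp_mulVec_kap]
    rw [h4] at h3
    have h5 : ∀ i, HasDerivAt (fun t => (u t *ᵥ ζ) i) ((X *ᵥ ζ) i) 0 := by
      intro i
      simp only [mulVec, dotProduct]
      exact HasDerivAt.fun_sum fun k _ => (hu i k).mul_const _
    have h6 := hasDerivAt_kap_curve (Q := Q) h5 j
    rw [h0, one_mulVec] at h6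
    exact h3.unique h6
  intro j k
  rw [← h2]
  exact h1 j k

theorem TT_add (a b : Matrix (Fin 2) (Fin 2) ℂ) : TT Q (a + b) = TT Q a + TT Q b := by
  ext j k
  simp only [TT, of_apply, Matrix.add_apply]
  split_ifs <;> ring

theorem TT_smul (x : ℂ) (a : Matrix (Fin 2) (Fin 2) ℂ) : TT Q (x • a) = x • TT Q a := by
  ext j k
  simp only [TT, of_apply, Matrix.smul_apply, smul_eq_mul]
  split_ifs <;> ring

theorem TT_conjTranspose (a : Matrix (Fin 2) (Fin 2) ℂ) : (TT Q a)ᴴ = TT Q aᴴ := by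
  ext j k
  simp only [TT, of_apply, Matrix.conjTranspose_apply, star_add, apply_ite star, star_mul', star_zero]
  have e1 : ∀ r : ℝ, star (r : ℂ) = (r : ℂ) := fun r => Complex.conj_ofReal r
  have e2 : star ((Q : ℂ) - ((k : ℕ) : ℂ)) = (Q : ℂ) - ((k : ℕ) : ℂ) := by
    simp
  have e3 : star (((k : ℕ) : ℂ)) = ((k : ℕ) : ℂ) := by simp
  simp only [e1, e2, e3]
  rw [add_right_comm]
  congr 1
  congr 1
  by_cases h : (j : ℕ) = k
  · rw [if_pos h, if_pos h.symm, h]
  · rw [if_neg h, if_neg (Ne.symm h)]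

theorem TT_one : TT Q 1 = (Q : ℂ) • 1 := by
  ext j k
  simp only [TT, of_apply, Matrix.smul_apply, smul_eq_mul]
  by_cases h : j = k
  · subst h; simp
  · have h' : (k : ℕ) ≠ j := fun e => h (Fin.ext e.symm)
    simp [h, h']

/-- the commutator relation of the derived representation -/
theorem TT_transpose (a : Matrix (Fin 2) (Fin 2) ℂ) : (TT Q a)ᵀ = TT Q aᵀ := by
  ext j k
  simp only [TT, of_apply, Matrix.transpose_apply]
  rw [add_right_comm]
  congr 1
  congr 1
  by_cases h : (j : ℕ) = k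
  · rw [if_pos h, if_pos h.symm, h]
  · rw [if_neg h, if_neg (Ne.symm h)]

/-- the derived representation on the pair multiplet -/
def TT2 (Q : ℕ) (a : Matrix (Fin 2) (Fin 2) ℂ) : Matrix (Fin (2 * Q - 1)) (Fin (2 * Q - 1)) ℂ :=
  (TT (2 * Q - 2) a).submatrix cst cst

theorem TT2_conjTranspose (a : Matrix (Fin 2) (Fin 2) ℂ) : (TT2 Q a)ᴴ = TT2 Q aᴴ := by
  ext p q
  have h := congrFun (congrFun (TT_conjTranspose (Q := 2 * Q - 2) a) (cst p)) (cst q)
  exact h

theorem hasDerivAt_D2 {u : ℝ → Matrix (Fin 2) (Fin 2) ℂ} {X : Matrix (Fin 2) (Fin 2) ℂ}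
    (hu : HD u X) (h0 : u 0 = 1) (Q : ℕ) : HD (fun t => D2 Q (u t)) (TT2 Q X) :=
  fun p q => hasDerivAt_sp hu h0 (2 * Q - 2) (cst p) (cst q)

/-- the straight line through the identity -/
lemma HD_line (b : Matrix (Fin 2) (Fin 2) ℂ) : HD (fun t : ℝ => 1 + (t : ℂ) • b) b := by
  intro i j
  simp only [Matrix.add_apply, Matrix.smul_apply, smul_eq_mul]
  have h : HasDerivAt (fun t : ℝ => (t : ℂ)) 1 0 := Complex.ofRealCLM.hasDerivAt
  have h2 := (h.mul_const (b i j)).const_add ((1 : Matrix (Fin 2) (Fin 2) ℂ) i j)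
  simpa using h2

/-- **Infinitesimal covariance of the pair vectors.** -/
theorem TT_PV (b : Matrix (Fin 2) (Fin 2) ℂ) (p' : Fin (2 * Q - 1)) :
    TT Q b * PV Q p' + PV Q p' * (TT Q b)ᵀ =
      b.trace • PV Q p' + ∑ p, TT2 Q b p p' • PV Q p := by
  have h0 : (fun t : ℝ => (1 : Matrix (Fin 2) (Fin 2) ℂ) + (t : ℂ) • b) 0 = 1 := by simp
  have hs := hasDerivAt_sp (HD_line b) h0 Q
  have hD := hasDerivAt_D2 (HD_line b) h0 Q
  have hdet : HasDerivAt (fun t : ℝ => ((1 : Matrix (Fin 2) (Fin 2) ℂ) + (t : ℂ) • b).det)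
      b.trace 0 := by
    have h00 := HD_line b 0 0
    have h11 := HD_line b 1 1
    have h01 := HD_line b 0 1
    have h10 := HD_line b 1 0
    have h := (h00.fun_mul h11).fun_sub (h01.fun_mul h10)
    have e : (fun t : ℝ => ((1 : Matrix (Fin 2) (Fin 2) ℂ) + (t : ℂ) • b).det) = fun t : ℝ =>
        ((1 : Matrix (Fin 2) (Fin 2) ℂ) + (t : ℂ) • b) 0 0 *
        ((1 : Matrix (Fin 2) (Fin 2) ℂ) + (t : ℂ) • b) 1 1 -
        ((1 : Matrix (Fin 2) (Fin 2) ℂ) + (t : ℂ) • b) 0 1 *
        ((1 : Matrix (Fin 2) (Fin 2) ℂ) + (t : ℂ) • b) 1 0 := by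
      funext t; rw [Matrix.det_fin_two]
    rw [e]
    refine h.congr_deriv ?_
    simp [Matrix.trace, Fin.sum_univ_two]
  ext i j
  have hL : HasDerivAt (fun t : ℝ => (sp Q (1 + (t : ℂ) • b) * PV Q p' *
      (sp Q (1 + (t : ℂ) • b))ᵀ) i j)
      ((TT Q b * PV Q p' + PV Q p' * (TT Q b)ᵀ) i j) 0 := by
    have h1 : ∀ k, HasDerivAt (fun t : ℝ => (sp Q (1 + (t : ℂ) • b) * PV Q p') i k)
        ((TT Q b * PV Q p') i k) 0 := by
      intro k
      simp only [Matrix.mul_apply]
      exact HasDerivAt.fun_sum fun l _ => (hs i l).mul_const _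
    have h2 : HasDerivAt (fun t : ℝ => (sp Q (1 + (t : ℂ) • b) * PV Q p' *
      (sp Q (1 + (t : ℂ) • b))ᵀ) i j)
      (∑ k, ((TT Q b * PV Q p') i k * (sp Q (1 + ((0 : ℝ) : ℂ) • b))ᵀ k j +
        (sp Q (1 + ((0 : ℝ) : ℂ) • b) * PV Q p') i k * (TT Q b) j k)) 0 := by
      have e : (fun t : ℝ => (sp Q (1 + (t : ℂ) • b) * PV Q p' *
        (sp Q (1 + (t : ℂ) • b))ᵀ) i j) = fun t : ℝ => ∑ k, (sp Q (1 + (t : ℂ) • b) * PV Q p') i k *
        sp Q (1 + (t : ℂ) • b) j k := by
        funext t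
        rw [Matrix.mul_apply]
        rfl
      rw [e]
      exact HasDerivAt.fun_sum fun k _ => (h1 k).fun_mul (hs j k)
    refine h2.congr_deriv ?_
    rw [Matrix.add_apply, Finset.sum_add_distrib]
    have e1 : (1 : Matrix (Fin 2) (Fin 2) ℂ) + ((0 : ℝ) : ℂ) • b = 1 := by simp
    rw [e1, sp_one, Matrix.transpose_one, Matrix.one_mul]
    congr 1
    rw [← Matrix.mul_apply, Matrix.mul_one]
  have hR : HasDerivAt (fun t : ℝ => (((1 : Matrix (Fin 2) (Fin 2) ℂ) + (t : ℂ) • b).det •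
      ∑ p, D2 Q (1 + (t : ℂ) • b) p p' • PV Q p) i j)
      ((b.trace • PV Q p' + ∑ p, TT2 Q b p p' • PV Q p) i j) 0 := by
    have h1 : HasDerivAt (fun t : ℝ => ∑ p, D2 Q (1 + (t : ℂ) • b) p p' * PV Q p i j)
        (∑ p, TT2 Q b p p' * PV Q p i j) 0 :=
      HasDerivAt.fun_sum fun p _ => (hD p p').mul_const _
    have h2 := hdet.fun_mul h1
    have e : (fun t : ℝ => (((1 : Matrix (Fin 2) (Fin 2) ℂ) + (t : ℂ) • b).det •
      ∑ p, D2 Q (1 + (t : ℂ) • b) p p' • PV Q p) i j) = fun t : ℝ =>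
      ((1 : Matrix (Fin 2) (Fin 2) ℂ) + (t : ℂ) • b).det *
        ∑ p, D2 Q (1 + (t : ℂ) • b) p p' * PV Q p i j := by
      funext t
      rw [Matrix.smul_apply, smul_eq_mul, Matrix.sum_apply]
      rfl
    rw [e]
    refine h2.congr_deriv ?_
    have e1 : (1 : Matrix (Fin 2) (Fin 2) ℂ) + ((0 : ℝ) : ℂ) • b = 1 := by simp
    rw [e1, D2_one, Matrix.det_one, one_mul, Matrix.add_apply, Matrix.smul_apply, smul_eq_mul,
      Matrix.sum_apply]
    congr 1
    congr 1
    rw [Finset.sum_eq_single p']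
    · rw [Matrix.one_apply_eq, one_mul]
    · intro q _ hq
      rw [Matrix.one_apply_ne hq, zero_mul]
    · intro h; exact absurd (Finset.mem_univ _) h
  have heq : (fun t : ℝ => (sp Q (1 + (t : ℂ) • b) * PV Q p' *
      (sp Q (1 + (t : ℂ) • b))ᵀ) i j) = fun t : ℝ =>
      (((1 : Matrix (Fin 2) (Fin 2) ℂ) + (t : ℂ) • b).det •
      ∑ p, D2 Q (1 + (t : ℂ) • b) p p' • PV Q p) i j := by
    funext t
    rw [PV_cov]
  rw [heq] at hL
  exact hL.unique hR

/-- **The ladders on the pair annihilators.** -/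
theorem dG_comm_Bp (a : Matrix (Fin 2) (Fin 2) ℂ) (p : Fin (2 * Q - 1)) :
    dG (TT Q a) * Bp Q p - Bp Q p * dG (TT Q a) =
      -(a.trace • Bp Q p + ∑ q, TT2 Q a p q • Bp Q q) := by
  unfold Bp
  rw [dG_comm_pa]
  have h1 : (TT Q a).map (starRingEnd ℂ) = (TT Q aᴴ)ᵀ := by
    rw [← TT_conjTranspose]; rfl
  have h2 := TT_PV (Q := Q) aᴴ p
  rw [TT_conjTranspose, h1, wM_eq, h2, pa_add, pa_smul, pa_sum]
  congr 1
  congr 1
  · congr 1
    rw [Matrix.trace_conjTranspose]
    exact star_star _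
  · refine Finset.sum_congr rfl fun q _ => ?_
    rw [pa_smul, ← TT2_conjTranspose, Matrix.conjTranspose_apply]
    congr 1
    exact star_star _

/-! ## derivative of the second quantisation -/

section Gam
variable {ι : Type*} [LinearOrder ι] [Fintype ι]

lemma dG_vac (X : Matrix ι ι ℂ) : dG X (vac : Fk ι) = 0 := by
  unfold dG vac
  rw [sum_ap]
  refine Finset.sum_eq_zero fun i _ => ?_
  rw [sum_ap]
  refine Finset.sum_eq_zero fun j _ => ?_
  rw [smul_ap, mul_ap, c_ket]
  simp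

lemma hasDerivAt_cr_mv {U : ℝ → Matrix ι ι ℂ} {X : Matrix ι ι ℂ} (hU : HD U X) (i : ι) :
    HasDerivAt (fun t => cr (mv (U t) (e i))) (cr (mv X (e i))) 0 := by
  unfold cr
  refine HasDerivAt.fun_sum fun j _ => ?_
  simp only [mv_e]
  exact (hU j i).smul_const (d j)

lemma differentiableAt_Gam {U : ℝ → Matrix ι ι ℂ} {X : Matrix ι ι ℂ} (hU : HD U X) :
    DifferentiableAt ℝ (fun t => Gam (U t)) 0 := by
  unfold Gam
  refine DifferentiableAt.fun_sum fun S _ => ?_
  refine DifferentiableAt.mul ?_ (differentiableAt_const _)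
  unfold prodCr
  generalize S.sort = l
  induction l with
  | nil => simp only [List.map_nil, List.prod_nil]; exact differentiableAt_const _
  | cons a l ih =>
    simp only [List.map_cons, List.prod_cons]
    exact (hasDerivAt_cr_mv hU a).differentiableAt.mul ih

/-- evaluation of operators as a continuous linear map -/
def evL (v : Fk ι) : Op ι →L[ℝ] Fk ι :=
  LinearMap.mkContinuous
    { toFun := fun A => A v
      map_add' := fun A B => add_ap A B v
      map_smul' := fun r A => by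
        have h : r • A = (r : ℂ) • A := rfl
        rw [h, smul_ap]; rfl } ‖v‖ (by
    intro A
    have := Op.norm_ap_le A v
    rw [mul_comm]
    exact this)

lemma evL_apply (v : Fk ι) (A : Op ι) : evL v A = A v := rfl

/-- **Derivative of `Gam` at the identity.** -/
theorem hasDerivAt_Gam {U : ℝ → Matrix ι ι ℂ} {X : Matrix ι ι ℂ} (hU : HD U X) (h0 : U 0 = 1) :
    HasDerivAt (fun t => Gam (U t)) (dG X) 0 := by
  have h1 := (differentiableAt_Gam hU).hasDerivAt
  set M := deriv (fun t => Gam (U t)) 0 with hM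
  have hvac : M (vac : Fk ι) = 0 := by
    have h2 := (evL (vac : Fk ι)).hasFDerivAt.comp_hasDerivAt (0 : ℝ) h1
    have h3 : (evL (vac : Fk ι)) ∘ (fun t => Gam (U t)) = fun _ => (vac : Fk ι) := by
      funext t
      exact Gam_vac _
    rw [h3] at h2
    exact h2.unique (hasDerivAt_const _ _)
  have hd : ∀ i, M * d i = cr (mv X (e i)) + d i * M := by
    intro i
    have h2 : HasDerivAt (fun t => Gam (U t) * d i) (M * d i) 0 := h1.mul_const (d i)
    have h3 : HasDerivAt (fun t => cr (mv (U t) (e i)) * Gam (U t))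
        (cr (mv X (e i)) * Gam (U 0) + cr (mv (U 0) (e i)) * M) 0 :=
      (hasDerivAt_cr_mv hU i).fun_mul h1
    have h4 : (fun t => Gam (U t) * d i) = fun t => cr (mv (U t) (e i)) * Gam (U t) := by
      funext t; rw [Gam_mul_d]
    rw [h4] at h2
    have h5 := h2.unique h3
    rw [h0, Gam_one, mul_one, mv_one, cr_e] at h5
    exact h5
  have key : M - dG X = 0 := by
    refine op_eq_of_cr (X := fun i => d i) ?_ ?_ ?_
    · rw [sub_ap, hvac, dG_vac, sub_zero, zero_ap]
    · intro i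
      have h2 := dG_comm_cr X (e i)
      rw [cr_e] at h2
      have h3 : dG X * d i = cr (mv X (e i)) + d i * dG X := by
        rw [← h2]; abel
      rw [sub_mul, mul_sub, hd, h3]
      abel
    · intro i
      rw [zero_mul, mul_zero]
  rw [← sub_eq_zero.1 key]
  exact h1

end Gam

theorem hasDerivAt_Rg {u : ℝ → Matrix (Fin 2) (Fin 2) ℂ} {X : Matrix (Fin 2) (Fin 2) ℂ}
    (hu : HD u X) (h0 : u 0 = 1) : HasDerivAt (fun t => Rg Q (u t)) (dG (TT Q X)) 0 := by
  unfold Rg
  refine hasDerivAt_Gam (hasDerivAt_sp hu h0 Q) ?_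
  rw [h0, sp_one]

/-! ## commutants -/

/-- real rotation -/
def uA (t : ℝ) : Matrix (Fin 2) (Fin 2) ℂ :=
  !![(Real.cos t : ℂ), -(Real.sin t : ℂ); (Real.sin t : ℂ), (Real.cos t : ℂ)]

/-- imaginary rotation -/
def uB (t : ℝ) : Matrix (Fin 2) (Fin 2) ℂ :=
  !![(Real.cos t : ℂ), (Real.sin t : ℂ) * Complex.I; (Real.sin t : ℂ) * Complex.I,
    (Real.cos t : ℂ)]

/-- diagonal rotation -/
def uC (t : ℝ) : Matrix (Fin 2) (Fin 2) ℂ :=
  !![(Real.cos t : ℂ) + (Real.sin t : ℂ) * Complex.I, 0; 0,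
    (Real.cos t : ℂ) - (Real.sin t : ℂ) * Complex.I]

/-- scalar rotation -/
def uD (t : ℝ) : Matrix (Fin 2) (Fin 2) ℂ :=
  !![(Real.cos t : ℂ) + (Real.sin t : ℂ) * Complex.I, 0; 0,
    (Real.cos t : ℂ) + (Real.sin t : ℂ) * Complex.I]

lemma hcos : HasDerivAt (fun t : ℝ => ((Real.cos t : ℝ) : ℂ)) 0 0 := by
  have h := (Real.hasDerivAt_cos 0).ofReal_comp
  simpa using h

lemma hsin : HasDerivAt (fun t : ℝ => ((Real.sin t : ℝ) : ℂ)) 1 0 := by
  have h := (Real.hasDerivAt_sin 0).ofReal_comp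
  simpa using h

lemma cs_sq (t : ℝ) : ((Real.cos t : ℝ) : ℂ) * ((Real.cos t : ℝ) : ℂ) +
    ((Real.sin t : ℝ) : ℂ) * ((Real.sin t : ℝ) : ℂ) = 1 := by
  rw [← Complex.ofReal_mul, ← Complex.ofReal_mul, ← Complex.ofReal_add]
  have := Real.cos_sq_add_sin_sq t
  rw [← pow_two, ← pow_two, this]
  simp

lemma HD_uA : HD uA !![0, -1; 1, 0] := by
  intro i j
  fin_cases i <;> fin_cases j
  · simpa [uA] using hcos
  · simpa [uA] using hsin.fun_neg
  · simpa [uA] using hsin
  · simpa [uA] using hcos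

lemma HD_uB : HD uB !![0, Complex.I; Complex.I, 0] := by
  intro i j
  fin_cases i <;> fin_cases j
  · simpa [uB] using hcos
  · simpa [uB] using hsin.mul_const Complex.I
  · simpa [uB] using hsin.mul_const Complex.I
  · simpa [uB] using hcos

lemma HD_uC : HD uC !![Complex.I, 0; 0, -Complex.I] := by
  intro i j
  fin_cases i <;> fin_cases j
  · simpa [uC] using hcos.fun_add (hsin.mul_const Complex.I)
  · simpa [uC] using hasDerivAt_const (0 : ℝ) (0 : ℂ)
  · simpa [uC] using hasDerivAt_const (0 : ℝ) (0 : ℂ)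
  · simpa [uC] using hcos.fun_sub (hsin.mul_const Complex.I)

lemma HD_uD : HD uD !![Complex.I, 0; 0, Complex.I] := by
  intro i j
  fin_cases i <;> fin_cases j
  · simpa [uD] using hcos.fun_add (hsin.mul_const Complex.I)
  · simpa [uD] using hasDerivAt_const (0 : ℝ) (0 : ℂ)
  · simpa [uD] using hasDerivAt_const (0 : ℝ) (0 : ℂ)
  · simpa [uD] using hcos.fun_add (hsin.mul_const Complex.I)

lemma uA_zero : uA 0 = 1 := by
  ext i j; fin_cases i <;> fin_cases j <;> simp [uA]

lemma uB_zero : uB 0 = 1 := by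
  ext i j; fin_cases i <;> fin_cases j <;> simp [uB]

lemma uC_zero : uC 0 = 1 := by
  ext i j; fin_cases i <;> fin_cases j <;> simp [uC]

lemma uD_zero : uD 0 = 1 := by
  ext i j; fin_cases i <;> fin_cases j <;> simp [uD]

lemma star_ofReal' (r : ℝ) : star (r : ℂ) = (r : ℂ) := Complex.conj_ofReal r

lemma star_I' : star Complex.I = - Complex.I := Complex.conj_I

lemma uA_unitary (t : ℝ) : uA t * (uA t)ᴴ = 1 := by
  have h := cs_sq t
  ext i j
  fin_cases i <;> fin_cases j <;>
    simp only [uA, Matrix.mul_apply, Fin.sum_univ_two, Matrix.conjTranspose_apply, of_apply,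
      cons_val', cons_val_zero, cons_val_one, Fin.zero_eta, Fin.mk_one, star_neg, star_ofReal',
      Matrix.one_apply]
  · simp only [if_true]; linear_combination h
  · simp only [zero_ne_one, if_false]; ring
  · simp only [one_ne_zero, if_false]; ring
  · simp only [if_true]; linear_combination h

lemma uB_unitary (t : ℝ) : uB t * (uB t)ᴴ = 1 := by
  have h := cs_sq t
  ext i j
  fin_cases i <;> fin_cases j <;>
    simp only [uB, Matrix.mul_apply, Fin.sum_univ_two, Matrix.conjTranspose_apply, of_apply,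
      cons_val', cons_val_zero, cons_val_one, Fin.zero_eta, Fin.mk_one, star_mul', star_I',
      star_ofReal', Matrix.one_apply]
  · simp only [if_true]
    linear_combination h - ((Real.sin t : ℝ) : ℂ) * ((Real.sin t : ℝ) : ℂ) * Complex.I_mul_I
  · simp only [zero_ne_one, if_false]; ring
  · simp only [one_ne_zero, if_false]; ring
  · simp only [if_true]
    linear_combination h - ((Real.sin t : ℝ) : ℂ) * ((Real.sin t : ℝ) : ℂ) * Complex.I_mul_I

lemma uC_unitary (t : ℝ) : uC t * (uC t)ᴴ = 1 := by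
  have h := cs_sq t
  ext i j
  fin_cases i <;> fin_cases j <;>
    simp only [uC, Matrix.mul_apply, Fin.sum_univ_two, Matrix.conjTranspose_apply, of_apply,
      cons_val', cons_val_zero, cons_val_one, Fin.zero_eta, Fin.mk_one, star_mul', star_I',
      star_add, star_sub, star_zero, star_ofReal', Matrix.one_apply]
  · simp only [if_true]
    linear_combination h - ((Real.sin t : ℝ) : ℂ) * ((Real.sin t : ℝ) : ℂ) * Complex.I_mul_I
  · simp only [zero_ne_one, if_false]; ring
  · simp only [one_ne_zero, if_false]; ring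
  · simp only [if_true]
    linear_combination h - ((Real.sin t : ℝ) : ℂ) * ((Real.sin t : ℝ) : ℂ) * Complex.I_mul_I

lemma uD_unitary (t : ℝ) : uD t * (uD t)ᴴ = 1 := by
  have h := cs_sq t
  ext i j
  fin_cases i <;> fin_cases j <;>
    simp only [uD, Matrix.mul_apply, Fin.sum_univ_two, Matrix.conjTranspose_apply, of_apply,
      cons_val', cons_val_zero, cons_val_one, Fin.zero_eta, Fin.mk_one, star_mul', star_I',
      star_add, star_zero, star_ofReal', Matrix.one_apply]
  · simp only [if_true]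
    linear_combination h - ((Real.sin t : ℝ) : ℂ) * ((Real.sin t : ℝ) : ℂ) * Complex.I_mul_I
  · simp only [zero_ne_one, if_false]; ring
  · simp only [one_ne_zero, if_false]; ring
  · simp only [if_true]
    linear_combination h - ((Real.sin t : ℝ) : ℂ) * ((Real.sin t : ℝ) : ℂ) * Complex.I_mul_I

lemma uA_det (t : ℝ) : (uA t).det = 1 := by
  rw [Matrix.det_fin_two]
  simp only [uA, of_apply, cons_val', cons_val_zero, cons_val_one]
  linear_combination cs_sq t

lemma uB_det (t : ℝ) : (uB t).det = 1 := by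
  rw [Matrix.det_fin_two]
  simp only [uB, of_apply, cons_val', cons_val_zero, cons_val_one]
  linear_combination cs_sq t - ((Real.sin t : ℝ) : ℂ) * ((Real.sin t : ℝ) : ℂ) * Complex.I_mul_I

lemma uC_det (t : ℝ) : (uC t).det = 1 := by
  rw [Matrix.det_fin_two]
  simp only [uC, of_apply, cons_val', cons_val_zero, cons_val_one]
  linear_combination cs_sq t - ((Real.sin t : ℝ) : ℂ) * ((Real.sin t : ℝ) : ℂ) * Complex.I_mul_I

lemma commute_deriv {A : Op (Fin (Q + 1))} {u : ℝ → Matrix (Fin 2) (Fin 2) ℂ}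
    {X : Matrix (Fin 2) (Fin 2) ℂ} (hu : HD u X) (h0 : u 0 = 1)
    (h : ∀ t, A * Rg Q (u t) = Rg Q (u t) * A) :
    A * dG (TT Q X) = dG (TT Q X) * A := by
  have h1 : HasDerivAt (fun t => A * Rg Q (u t)) (A * dG (TT Q X)) 0 :=
    (hasDerivAt_Rg hu h0).const_mul A
  have h2 : HasDerivAt (fun t => Rg Q (u t) * A) (dG (TT Q X) * A) 0 :=
    (hasDerivAt_Rg hu h0).mul_const A
  have h3 : (fun t => A * Rg Q (u t)) = fun t => Rg Q (u t) * A := funext h
  rw [h3] at h1
  exact h1.unique h2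

/-- commuting with `SU(2)` implies commuting with the traceless part of the Lie algebra -/
theorem commute_dG_TT_traceless {A : Op (Fin (Q + 1))}
    (h : ∀ g : Matrix (Fin 2) (Fin 2) ℂ, g * gᴴ = 1 → g.det = 1 → A * Rg Q g = Rg Q g * A)
    (a : Matrix (Fin 2) (Fin 2) ℂ) (ha : a.trace = 0) :
    A * dG (TT Q a) = dG (TT Q a) * A := by
  have hA := commute_deriv (A := A) HD_uA uA_zero fun t => h _ (uA_unitary t) (uA_det t)
  have hB := commute_deriv (A := A) HD_uB uB_zero fun t => h _ (uB_unitary t) (uB_det t)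
  have hC := commute_deriv (A := A) HD_uC uC_zero fun t => h _ (uC_unitary t) (uC_det t)
  have e : a = ((a 1 0 - a 0 1) / 2) • !![0, -1; 1, 0] +
      (-(Complex.I * (a 1 0 + a 0 1)) / 2) • !![0, Complex.I; Complex.I, 0] +
      (-(Complex.I * a 0 0)) • !![Complex.I, 0; 0, -Complex.I] := by
    have ht : a 0 0 + a 1 1 = 0 := by
      rw [Matrix.trace_fin_two] at ha; exact ha
    ext i j
    fin_cases i <;> fin_cases j <;>
      simp only [Matrix.add_apply, Matrix.smul_apply, smul_eq_mul, of_apply, cons_val',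
        cons_val_zero, cons_val_one, Fin.zero_eta, Fin.mk_one]
    · linear_combination (a 0 0) * Complex.I_mul_I
    · linear_combination (-(a 1 0 + a 0 1) / 2) * (-1 : ℂ) * Complex.I_mul_I
    · linear_combination (-(a 1 0 + a 0 1) / 2) * (-1 : ℂ) * Complex.I_mul_I
    · linear_combination ht - (a 0 0) * Complex.I_mul_I
  rw [e]
  simp only [TT_add, TT_smul, dG_add, dG_smul, mul_add, add_mul, mul_smul_comm, smul_mul_assoc,
    hA, hB, hC]

/-- commuting with `U(2)` implies commuting with the Lie algebra -/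
theorem commute_dG_TT {A : Op (Fin (Q + 1))}
    (h : ∀ g : Matrix (Fin 2) (Fin 2) ℂ, g * gᴴ = 1 → A * Rg Q g = Rg Q g * A)
    (a : Matrix (Fin 2) (Fin 2) ℂ) :
    A * dG (TT Q a) = dG (TT Q a) * A := by
  have hD := commute_deriv (A := A) HD_uD uD_zero fun t => h _ (uD_unitary t)
  have h0 := commute_dG_TT_traceless (A := A) (fun g hg _ => h g hg)
    (a - (a.trace / 2) • 1) (by
      rw [Matrix.trace_sub, Matrix.trace_smul, Matrix.trace_one]
      simp)
  have e : a = (a - (a.trace / 2) • 1) + (-(Complex.I * a.trace) / 2) •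
      !![Complex.I, 0; 0, Complex.I] := by
    ext i j
    fin_cases i <;> fin_cases j <;>
      simp only [Matrix.add_apply, Matrix.sub_apply, Matrix.smul_apply, smul_eq_mul, of_apply,
        cons_val', cons_val_zero, cons_val_one, Fin.zero_eta, Fin.mk_one, Matrix.one_apply]
    · simp only [if_true]; linear_combination (a.trace / 2) * Complex.I_mul_I
    · simp
    · simp
    · simp only [if_true]; linear_combination (a.trace / 2) * Complex.I_mul_I
  rw [e, TT_add, dG_add, mul_add, add_mul, h0, TT_smul, dG_smul, mul_smul_comm, smul_mul_assoc, hD]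

/-! ## explicit ladders -/

/-- `!![0,0;1,0]` : moves orbitals away from the north pole (`j ↦ j+1`) -/
theorem lower_comm_Bp_succ {p q : Fin (2 * Q - 1)} (h : (p : ℕ) = q + 1) :
    dG (TT Q !![0, 0; 1, 0]) * Bp Q p - Bp Q p * dG (TT Q !![0, 0; 1, 0]) =
      -((Real.sqrt ((((2 * Q - 2 : ℕ) : ℝ) - (q : ℕ)) * ((q : ℕ) + 1)) : ℝ) : ℂ) • Bp Q q := by
  rw [dG_comm_Bp]
  have ht : (!![0, 0; 1, 0] : Matrix (Fin 2) (Fin 2) ℂ).trace = 0 := by
    simp [Matrix.trace, Fin.sum_univ_two]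
  rw [ht, zero_smul, zero_add, neg_smul]
  congr 1
  rw [Finset.sum_eq_single q]
  · congr 1
    simp only [TT2, TT, Matrix.submatrix_apply, of_apply, coe_cst, cons_val', cons_val_zero,
      cons_val_one]
    rw [if_neg (by omega), if_neg (by omega), if_pos h]
    simp
  · intro r _ hr
    have : (r : ℕ) ≠ q := fun e => hr (Fin.ext e)
    simp only [TT2, TT, Matrix.submatrix_apply, of_apply, coe_cst, cons_val', cons_val_zero,
      cons_val_one]
    rw [if_neg (show ¬ (p : ℕ) = r + 1 by omega)]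
    simp
  · intro h; exact absurd (Finset.mem_univ _) h

theorem lower_comm_Bp_zero {p : Fin (2 * Q - 1)} (h : (p : ℕ) = 0) :
    dG (TT Q !![0, 0; 1, 0]) * Bp Q p - Bp Q p * dG (TT Q !![0, 0; 1, 0]) = 0 := by
  rw [dG_comm_Bp]
  have ht : (!![0, 0; 1, 0] : Matrix (Fin 2) (Fin 2) ℂ).trace = 0 := by
    simp [Matrix.trace, Fin.sum_univ_two]
  rw [ht, zero_smul, zero_add, neg_eq_zero]
  refine Finset.sum_eq_zero fun r _ => ?_
  simp only [TT2, TT, Matrix.submatrix_apply, of_apply, coe_cst, cons_val', cons_val_zero,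
    cons_val_one]
  rw [if_neg (show ¬ (p : ℕ) = r + 1 by omega)]
  simp

/-- `!![0,1;0,0]` : moves orbitals towards the north pole -/
theorem raise_comm_Bp_succ {p q : Fin (2 * Q - 1)} (h : (q : ℕ) = p + 1) :
    dG (TT Q !![0, 1; 0, 0]) * Bp Q p - Bp Q p * dG (TT Q !![0, 1; 0, 0]) =
      -((Real.sqrt ((((2 * Q - 2 : ℕ) : ℝ) - (p : ℕ)) * ((p : ℕ) + 1)) : ℝ) : ℂ) • Bp Q q := by
  rw [dG_comm_Bp]
  have ht : (!![0, 1; 0, 0] : Matrix (Fin 2) (Fin 2) ℂ).trace = 0 := by
    simp [Matrix.trace, Fin.sum_univ_two]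
  rw [ht, zero_smul, zero_add, neg_smul]
  congr 1
  rw [Finset.sum_eq_single q]
  · congr 1
    simp only [TT2, TT, Matrix.submatrix_apply, of_apply, coe_cst, cons_val', cons_val_zero,
      cons_val_one]
    rw [if_neg (by omega), if_pos h, if_neg (by omega)]
    simp
  · intro r _ hr
    have : (r : ℕ) ≠ q := fun e => hr (Fin.ext e)
    simp only [TT2, TT, Matrix.submatrix_apply, of_apply, coe_cst, cons_val', cons_val_zero,
      cons_val_one]
    rw [if_neg (show ¬ (r : ℕ) = p + 1 by omega)]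
    simp
  · intro h; exact absurd (Finset.mem_univ _) h

theorem raise_comm_Bp_last {p : Fin (2 * Q - 1)} (h : (p : ℕ) + 1 = 2 * Q - 1) :
    dG (TT Q !![0, 1; 0, 0]) * Bp Q p - Bp Q p * dG (TT Q !![0, 1; 0, 0]) = 0 := by
  rw [dG_comm_Bp]
  have ht : (!![0, 1; 0, 0] : Matrix (Fin 2) (Fin 2) ℂ).trace = 0 := by
    simp [Matrix.trace, Fin.sum_univ_two]
  rw [ht, zero_smul, zero_add, neg_eq_zero]
  refine Finset.sum_eq_zero fun r _ => ?_
  have hr := r.2
  simp only [TT2, TT, Matrix.submatrix_apply, of_apply, coe_cst, cons_val', cons_val_zero,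
    cons_val_one]
  rw [if_neg (show ¬ (r : ℕ) = p + 1 by omega)]
  simp

theorem dG_comm_HH (a : Matrix (Fin 2) (Fin 2) ℂ) : HH Q * dG (TT Q a) = dG (TT Q a) * HH Q :=
  commute_dG_TT (fun _ hg => (Rg_mul_HH hg).symm) a

end

end Crest.Agent.R340.Rot303
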