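import Crest.Agent.R340.Vac2_467
import Crest.Agent.R340.Rot3_303
import Crest.Agent.R340.Avg_814
import Crest.Agent.R340.Scal_725

/-!
# The vacuum of the closed sphere: rotation invariance and uniform density (helper467, R340, O5 part 3)

`Q = 3 (n-1)`: `⟪Φ, cj g A Φ⟫ = ⟪Φ, A Φ⟫` for all `A`, `g` unitary, and
`⟪Φ, dG A Φ⟫ = tr A * n / (Q+1)`; for `A = diag f` this is `cs f Q`.
Also: `pj (Zs (nu0 Q) Q)` commutes with rotations.
-/

set_option autoImplicit false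

namespace Crest.Agent.R340.Vac467

open Finset Fock649 Geo986 GG467 Emb596 Peel596 Matrix MeasureTheory
open Crest.Agent.R340.Rot303 Crest.Agent.R340.Avg814 Crest.Agent.R340.CS809 Crest.Agent.R340.Gam303
open Br320 (wM Bp HH toFk sector)
open Crest.Agent.R124.Haar

variable {Q : ℕ}

theorem Rg_mem_Zs {g : Matrix (Fin 2) (Fin 2) ℂ} (hg : g * gᴴ = 1) {ψ : Fk (Fin (Q + 1))}
    (h : ψ ∈ Zs (nu0 Q) Q) : Rg Q g ψ ∈ Zs (nu0 Q) Q :=
  mem_Zs_nu0_iff.2 (Bp_Rg_eq_zero hg (mem_Zs_nu0_iff.1 h))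

theorem Rg_mul_Nh (g : Matrix (Fin 2) (Fin 2) ℂ) : Rg Q g * Nh = Nh * Rg Q g :=
  Gam_mul_Nh _

theorem Rg_mem_Zn {g : Matrix (Fin 2) (Fin 2) ℂ} (hg : g * gᴴ = 1) {n : ℕ}
    {ψ : Fk (Fin (Q + 1))} (h : ψ ∈ Zn (nu0 Q) Q n) : Rg Q g ψ ∈ Zn (nu0 Q) Q n := by
  refine ⟨Rg_mem_Zs hg h.1, ?_⟩
  rw [← mul_ap, ← Rg_mul_Nh, mul_ap, h.2, map_smul]

theorem pj_comm_Rg {g : Matrix (Fin 2) (Fin 2) ℂ} (hg : g * gᴴ = 1) :
    Rg Q g * pj (Zs (nu0 Q) Q) = pj (Zs (nu0 Q) Q) * Rg Q g := by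
  refine commute_pj (fun v hv => Rg_mem_Zs hg hv) (fun v hv => ?_)
  rw [star_Rg]
  refine Rg_mem_Zs ?_ hv
  rw [conjTranspose_conjTranspose]
  exact mul_eq_one_comm.1 hg

/-- rotation invariance of the vacuum expectation -/
theorem IsRef.inner_cj {n : ℕ} (hn : Q = 3 * (n - 1)) {Φ : Fk (Fin (Q + 1))}
    (h : IsRef (nu0 Q) Q n Φ) {g : Matrix (Fin 2) (Fin 2) ℂ} (hg : g * gᴴ = 1)
    (A : Op (Fin (Q + 1))) : (inner ℂ Φ (cj g A Φ) : ℂ) = inner ℂ Φ (A Φ) := by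
  have hg' : gᴴ * (gᴴ)ᴴ = 1 := by
    rw [conjTranspose_conjTranspose]; exact mul_eq_one_comm.1 hg
  have h1 : star (Rg Q g) Φ = (inner ℂ Φ (star (Rg Q g) Φ) : ℂ) • Φ := by
    rw [star_Rg]
    exact h.span (posM_nu0 Q) hn (Rg_mem_Zn hg' h.mem_Zn)
  set a := (inner ℂ Φ (star (Rg Q g) Φ) : ℂ) with ha
  have hnorm : ‖star (Rg Q g) Φ‖ = 1 := by
    have h2 := inner_star_mul_self (star (Rg Q g)) Φ
    have h3 : star (star (Rg Q g)) * star (Rg Q g) = 1 := by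
      rw [star_star]; exact Rg_mul_star hg
    rw [h3, one_ap, inner_self_eq_norm_sq_to_K, h.unit] at h2
    have h4 : (‖star (Rg Q g) Φ‖ : ℂ) ^ 2 = 1 := by rw [← h2]; simp
    have h5 : ‖star (Rg Q g) Φ‖ ^ 2 = 1 := by exact_mod_cast h4
    nlinarith [norm_nonneg (star (Rg Q g) Φ)]
  have ha1 : ‖a‖ = 1 := by
    rw [h1, norm_smul, h.unit, mul_one] at hnorm
    exact hnorm
  have h6 : (inner ℂ Φ (cj g A Φ) : ℂ) = inner ℂ (star (Rg Q g) Φ) (A (star (Rg Q g) Φ)) := by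
    unfold cj
    rw [mul_ap, mul_ap, ← inner_star_left]
  rw [h6, h1, map_smul, inner_smul_left, inner_smul_right, ← mul_assoc,
    ← Complex.normSq_eq_conj_mul_self, Complex.normSq_eq_norm_sq, ha1]
  simp

/-- **one-particle density matrix of the vacuum** -/
theorem IsRef.dens {n : ℕ} (hn : Q = 3 * (n - 1)) {Φ : Fk (Fin (Q + 1))}
    (h : IsRef (nu0 Q) Q n Φ) (A : Matrix (Fin (Q + 1)) (Fin (Q + 1)) ℂ) :
    (inner ℂ Φ (dG A Φ) : ℂ) = A.trace / ((Q : ℂ) + 1) * n := by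
  have hcont : Continuous fun g : G2 => Gam (sp Q (g : Matrix (Fin 2) (Fin 2) ℂ)) * dG A *
      star (Gam (sp Q (g : Matrix (Fin 2) (Fin 2) ℂ))) := by
    have h1 : Continuous fun g : G2 => Gam (sp Q (g : Matrix (Fin 2) (Fin 2) ℂ)) :=
      (continuous_Gam (ι := Fin (Q + 1))).comp (continuous_sp_coe Q)
    exact (h1.mul continuous_const).mul h1.star
  have h1 := inner_integral_ap (integrable_of_cont hcont) Φ Φ
  rw [avg_Gam_dG] at h1
  have h2 : ∀ g : G2, (inner ℂ Φ ((Gam (sp Q (g : Matrix (Fin 2) (Fin 2) ℂ)) * dG A *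
      star (Gam (sp Q (g : Matrix (Fin 2) (Fin 2) ℂ)))) Φ) : ℂ) = inner ℂ Φ (dG A Φ) := by
    intro g
    have hg : (g : Matrix (Fin 2) (Fin 2) ℂ) * (g : Matrix (Fin 2) (Fin 2) ℂ)ᴴ = 1 := by
      have := Matrix.mem_unitaryGroup_iff.1 g.2
      rwa [Matrix.star_eq_conjTranspose] at this
    exact h.inner_cj hn hg (dG A)
  simp only [h2] at h1
  rw [integral_const] at h1
  have h3 : (hm : Measure G2).real Set.univ = 1 := by simp
  rw [h3, one_smul] at h1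
  rw [← h1, smul_ap, h.sec.1, smul_smul, inner_smul_right, inner_self_eq_norm_sq_to_K, h.unit]
  simp

open Crest.Agent.R340.Scal725 in
/-- uniform density in the form of `Scal_725` -/
theorem IsRef.dens_diag {n : ℕ} (hn1 : 1 ≤ n) (hn : Q = 3 * (n - 1)) {Φ : Fk (Fin (Q + 1))}
    (h : IsRef (nu0 Q) Q n Φ) (f : ℕ → ℝ) :
    (inner ℂ Φ (dG (Matrix.diagonal fun j : Fin (Q + 1) => ((f j : ℝ) : ℂ)) Φ) : ℂ) =
      ((cs f Q : ℝ) : ℂ) := by
  rw [h.dens hn, trace_diagonal]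
  unfold cs w
  have h1 : (∑ j : Fin (Q + 1), ((f j : ℝ) : ℂ)) = ((∑ j ∈ range (Q + 1), f j : ℝ) : ℂ) := by
    rw [Finset.sum_range]
    push_cast
    rfl
  rw [h1]
  have h2 : ((Q : ℂ) + 3) = 3 * n := by
    have : Q + 3 = 3 * n := by omega
    exact_mod_cast this
  have h3 : ((Q : ℂ) + 1) ≠ 0 := by exact_mod_cast Nat.succ_ne_zero Q
  push_cast
  rw [h2]
  field_simp

end Crest.Agent.R340.Vac467
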