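import Crest.Agent.R340.K1inC_788
import Crest.Agent.R340.Vac3_467
import Crest.Agent.R340.Rot4_303

/-!
# R340, K = 1 inputs (helper788): existence of the one-hole states

For `Q + 2 = 3 n` (`K = 1`) and `i ≤ n` the sector `ZS (nu0 Q) Q n (lmin n + i)` is nonzero
(hence exactly one-dimensional): apply `dΓ(J_-)` to the reference state of 467.
-/

set_option autoImplicit false
set_option linter.unusedSectionVars false

namespace Crest.Agent.R340.K1in788

open Finset
open scoped InnerProductSpace ComplexConjugate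
open Crest.Agent.R340.Fock649 Crest.Agent.R340.Geo986 Crest.Agent.R340.Peel596
  Crest.Agent.R340.Emb596
open Crest.Agent.R340.Vac467 (Lz Lz_eq lmin two_lmin lmin_succ exists_adm adm_bounds)

variable {Q : ℕ}

/-! ### the two forms of the sectors -/

theorem Sc_Lz {n M : ℕ} {v : Fk (Fin (Q + 1))} (hv : v ∈ Sc Q n M) : Lz Q v = (M : ℂ) • v := by
  rw [Lz_eq]
  ext S
  rw [diag_apply]
  show _ = (M : ℂ) * v S
  by_cases h : v S = 0
  · rw [h, mul_zero, mul_zero]
  · rw [(hv S h).2]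

theorem mem_Sc_iff {n M : ℕ} {v : Fk (Fin (Q + 1))} :
    v ∈ Sc Q n M ↔ Nh v = (n : ℂ) • v ∧ Lz Q v = (M : ℂ) • v := by
  constructor
  · intro h
    exact ⟨Sc_Nh h, Sc_Lz h⟩
  · rintro ⟨h1, h2⟩ S hS
    constructor
    · rw [Nh_eq] at h1
      have h3 := congrArg (fun w : Fk (Fin (Q + 1)) => w S) h1
      have h4 : (S.card : ℂ) * v S = (n : ℂ) * v S := h3
      exact Nat.cast_injective (R := ℂ) (mul_right_cancel₀ hS h4)
    · rw [Lz_eq] at h2
      have h3 := congrArg (fun w : Fk (Fin (Q + 1)) => w S) h2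
      have h4 : ((∑ i ∈ S, (i : ℕ) : ℕ) : ℂ) * v S = (M : ℂ) * v S := h3
      exact Nat.cast_injective (R := ℂ) (mul_right_cancel₀ hS h4)

theorem Sec_iff {n M : ℕ} {v : Fk (Fin (Q + 1))} :
    Vac467.Sec Q n M v ↔ v ∈ Sc Q n M := mem_Sc_iff.symm

theorem adm_iff {S : Finset (Fin (Q + 1))} : Vac467.Adm S ↔ Ad S := Iff.rfl

/-! ### raising and lowering -/

/-- raising of the orbital index -/
noncomputable def Ra (Q : ℕ) : Matrix (Fin (Q + 1)) (Fin (Q + 1)) ℂ := Mom814.TT Q !![0, 0; 1, 0]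
/-- lowering of the orbital index -/
noncomputable def Lo (Q : ℕ) : Matrix (Fin (Q + 1)) (Fin (Q + 1)) ℂ := Mom814.TT Q !![0, 1; 0, 0]

theorem Ra_apply (j k : Fin (Q + 1)) : Ra Q j k =
    if (j : ℕ) = k + 1 then ((Real.sqrt (((Q : ℝ) - (k : ℕ)) * ((k : ℕ) + 1)) : ℝ) : ℂ) else 0 := by
  unfold Ra Mom814.TT
  simp

theorem Lo_apply (j k : Fin (Q + 1)) : Lo Q j k =
    if (k : ℕ) = j + 1 then ((Real.sqrt (((Q : ℝ) - (j : ℕ)) * ((j : ℕ) + 1)) : ℝ) : ℂ) else 0 := by
  unfold Lo Mom814.TT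
  simp

theorem dG_TT_mem_Zs (a : Matrix (Fin 2) (Fin 2) ℂ) {ψ : Fk (Fin (Q + 1))}
    (h : ψ ∈ Zs (nu0 Q) Q) : dG (Mom814.TT Q a) ψ ∈ Zs (nu0 Q) Q := by
  rw [Vac467.mem_Zs_nu0_iff] at h ⊢
  intro p
  have h1 := congrArg (fun A : Op (Fin (Q + 1)) => A ψ) (Rot303.dG_comm_Bp (Q := Q) a p)
  simp only [sub_ap, mul_ap, neg_ap, add_ap, smul_ap, sum_ap, h, map_zero, smul_zero,
    Finset.sum_const_zero, add_zero, neg_zero, zero_sub] at h1
  exact neg_eq_zero.mp h1

theorem Lz_comm_dG {A : Matrix (Fin (Q + 1)) (Fin (Q + 1)) ℂ} {z : ℂ}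
    (hA : ∀ j k : Fin (Q + 1), (((j : ℕ) : ℂ) - ((k : ℕ) : ℂ)) * A j k = z * A j k) :
    Lz Q * dG A = dG A * Lz Q + z • dG A := by
  have h := dG_comm (Matrix.diagonal fun i : Fin (Q + 1) => ((i : ℕ) : ℂ)) A
  have e : Matrix.diagonal (fun i : Fin (Q + 1) => ((i : ℕ) : ℂ)) * A -
      A * Matrix.diagonal (fun i : Fin (Q + 1) => ((i : ℕ) : ℂ)) = z • A := by
    ext j k
    rw [Matrix.sub_apply, Matrix.diagonal_mul, Matrix.mul_diagonal, Matrix.smul_apply, smul_eq_mul,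
      ← hA j k]
    ring
  rw [e, dG_smul] at h
  unfold Lz
  rw [← h]
  abel

theorem Lz_Ra : Lz Q * dG (Ra Q) = dG (Ra Q) * Lz Q + (1 : ℂ) • dG (Ra Q) := by
  refine Lz_comm_dG fun j k => ?_
  rw [Ra_apply]
  split_ifs with h
  · rw [h]; push_cast; ring
  · simp

theorem Lz_Lo : Lz Q * dG (Lo Q) = dG (Lo Q) * Lz Q + (-1 : ℂ) • dG (Lo Q) := by
  refine Lz_comm_dG fun j k => ?_
  rw [Lo_apply]
  split_ifs with h
  · rw [h]; push_cast; ring
  · simp

/-- `[dΓ(J_+), dΓ(J_-)] = Q N - 2 L_z` -/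
theorem Lo_Ra_comm : dG (Lo Q) * dG (Ra Q) - dG (Ra Q) * dG (Lo Q) =
    (Q : ℂ) • (Nh : Op (Fin (Q + 1))) - (2 : ℂ) • Lz Q := by
  rw [dG_comm]
  have e : Lo Q * Ra Q - Ra Q * Lo Q =
      (Q : ℂ) • (1 : Matrix (Fin (Q + 1)) (Fin (Q + 1)) ℂ) -
        (2 : ℂ) • Matrix.diagonal fun i : Fin (Q + 1) => ((i : ℕ) : ℂ) := by
    ext j k
    rw [Matrix.sub_apply, Matrix.mul_apply, Matrix.mul_apply, Matrix.sub_apply, Matrix.smul_apply,
      Matrix.smul_apply, smul_eq_mul, smul_eq_mul]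
    -- first product
    have h1 : ∑ i, Lo Q j i * Ra Q i k =
        if j = k then ((((Q : ℝ) - (j : ℕ)) * ((j : ℕ) + 1) : ℝ) : ℂ) else 0 := by
      by_cases hj : (j : ℕ) + 1 < Q + 1
      · rw [Finset.sum_eq_single (⟨(j : ℕ) + 1, hj⟩ : Fin (Q + 1))]
        · rw [Lo_apply, Ra_apply, if_pos rfl]
          by_cases hjk : j = k
          · subst hjk
            rw [if_pos rfl, if_pos rfl, ← Complex.ofReal_mul, Real.mul_self_sqrt]
            have : ((j : ℕ) : ℝ) ≤ Q := by exact_mod_cast (by omega : (j : ℕ) ≤ Q)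
            exact mul_nonneg (by linarith) (by positivity)
          · rw [if_neg hjk, if_neg, mul_zero]
            intro h
            exact hjk (Fin.ext (by simpa using h))
        · intro i _ hi
          rw [Lo_apply, if_neg, zero_mul]
          intro h
          exact hi (Fin.ext h)
        · intro h; exact absurd (mem_univ _) h
      · have hjQ : (j : ℕ) = Q := by omega
        rw [Finset.sum_eq_zero]
        · by_cases hjk : j = k
          · rw [if_pos hjk, hjQ]; simp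
          · rw [if_neg hjk]
        · intro i _
          rw [Lo_apply, if_neg (by omega), zero_mul]
    have h2 : ∑ i, Ra Q j i * Lo Q i k =
        if j = k then ((((Q : ℝ) - (j : ℕ) + 1) * (j : ℕ) : ℝ) : ℂ) else 0 := by
      by_cases hj : 0 < (j : ℕ)
      · rw [Finset.sum_eq_single (⟨(j : ℕ) - 1, by omega⟩ : Fin (Q + 1))]
        · rw [Lo_apply, Ra_apply, if_pos (by show (j : ℕ) = (j : ℕ) - 1 + 1; omega)]
          by_cases hjk : j = k
          · subst hjk
            rw [if_pos rfl, if_pos (by show (j : ℕ) = (j : ℕ) - 1 + 1; omega),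
              ← Complex.ofReal_mul, Real.mul_self_sqrt]
            · congr 1
              simp only
              rw [Nat.cast_sub (by omega : 1 ≤ (j : ℕ))]
              push_cast
              ring
            · simp only
              have : ((j : ℕ) : ℝ) ≤ Q := by exact_mod_cast (by omega : (j : ℕ) ≤ Q)
              rw [Nat.cast_sub (by omega : 1 ≤ (j : ℕ))]
              have h1 : (1 : ℝ) ≤ (j : ℕ) := by exact_mod_cast hj
              push_cast
              exact mul_nonneg (by linarith) (by linarith)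
          · rw [if_neg hjk, if_neg, mul_zero]
            intro h
            have h' : (k : ℕ) = (j : ℕ) - 1 + 1 := h
            exact hjk (Fin.ext (by omega))
        · intro i _ hi
          rw [Ra_apply, if_neg, zero_mul]
          intro h
          exact hi (Fin.ext (by show (i : ℕ) = (j : ℕ) - 1; omega))
        · intro h; exact absurd (mem_univ _) h
      · have hj0 : (j : ℕ) = 0 := by omega
        rw [Finset.sum_eq_zero]
        · by_cases hjk : j = k
          · rw [if_pos hjk, hj0]; simp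
          · rw [if_neg hjk]
        · intro i _
          rw [Ra_apply, if_neg (by omega), zero_mul]
    rw [h1, h2]
    by_cases hjk : j = k
    · subst hjk
      rw [if_pos rfl, if_pos rfl, Matrix.one_apply_eq, Matrix.diagonal_apply_eq]
      push_cast
      ring
    · rw [if_neg hjk, if_neg hjk, Matrix.one_apply_ne hjk, Matrix.diagonal_apply_ne _ hjk]
      ring
  rw [e, dG_sub, dG_smul, dG_smul]
  rfl

/-- the raised vectors -/
noncomputable def raise (v : Fk (Fin (Q + 1))) : ℕ → Fk (Fin (Q + 1))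
  | 0 => v
  | i + 1 => dG (Ra Q) (raise v i)

theorem raise_mem {n : ℕ} {v : Fk (Fin (Q + 1))} (hv : v ∈ ZS (nu0 Q) Q n (lmin n)) (i : ℕ) :
    raise v i ∈ ZS (nu0 Q) Q n (lmin n + i) := by
  induction i with
  | zero => exact hv
  | succ i ih =>
    refine ⟨dG_TT_mem_Zs _ ih.1, ?_⟩
    refine mem_Sc_iff.mpr ⟨?_, ?_⟩
    · have h1 := congrArg (fun A : Op (Fin (Q + 1)) => A (raise v i)) (Nh_comm_dG (Ra Q))
      simp only [mul_ap] at h1
      show Nh (dG (Ra Q) (raise v i)) = _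
      rw [h1, Sc_Nh ih.2, map_smul]
      rfl
    · have h1 := congrArg (fun A : Op (Fin (Q + 1)) => A (raise v i)) (Lz_Ra (Q := Q))
      simp only [mul_ap, add_ap, smul_ap] at h1
      show Lz Q (dG (Ra Q) (raise v i)) = _
      rw [h1, Sc_Lz ih.2, map_smul, ← add_smul]
      congr 1
      push_cast
      ring

/-- the lowering operator kills the sector of minimal `L_z` -/
theorem Lo_min {n : ℕ} {v : Fk (Fin (Q + 1))} (hv : v ∈ ZS (nu0 Q) Q n (lmin n)) :
    dG (Lo Q) v = 0 := by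
  by_contra h0
  obtain ⟨S, hS, hadm⟩ := exists_adm (posM_nu0 Q) (dG_TT_mem_Zs (!![0, 1; 0, 0]) hv.1) h0
  have h1 := congrArg (fun A : Op (Fin (Q + 1)) => A v) (Nh_comm_dG (Lo Q))
  simp only [mul_ap] at h1
  rw [Sc_Nh hv.2, map_smul, Nh_eq] at h1
  have h2 := congrArg (fun A : Op (Fin (Q + 1)) => A v) (Lz_Lo (Q := Q))
  simp only [mul_ap, add_ap, smul_ap] at h2
  rw [Sc_Lz hv.2, map_smul, ← add_smul, Lz_eq] at h2
  have h3 := congrArg (fun w : Fk (Fin (Q + 1)) => w S) h1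
  have h4 := congrArg (fun w : Fk (Fin (Q + 1)) => w S) h2
  have h5 : (S.card : ℂ) * dG (Lo Q) v S = (n : ℂ) * dG (Lo Q) v S := h3
  have h6 : ((∑ i ∈ S, (i : ℕ) : ℕ) : ℂ) * dG (Lo Q) v S =
      ((lmin n : ℂ) + -1) * dG (Lo Q) v S := h4
  have hS' : dG (Lo Q) v S ≠ 0 := hS
  have h7 : S.card = n := Nat.cast_injective (R := ℂ) (mul_right_cancel₀ hS' h5)
  have h8 : ((∑ i ∈ S, (i : ℕ) : ℕ) : ℂ) + 1 = (lmin n : ℂ) := by
    rw [mul_right_cancel₀ hS' h6]; ring
  have h9 : (∑ i ∈ S, (i : ℕ)) + 1 = lmin n := by exact_mod_cast h8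
  have h10 := (adm_bounds n S hadm h7).1
  have h11 : lmin n = ∑ k ∈ range n, 3 * k := rfl
  omega

/-- `J_+ J_-^(i+1) v = (i+1) (Q n - 2 lmin n - i) J_-^i v` -/
theorem Lo_raise {n : ℕ} {v : Fk (Fin (Q + 1))} (hv : v ∈ ZS (nu0 Q) Q n (lmin n)) (i : ℕ) :
    dG (Lo Q) (raise v (i + 1)) =
      (((i : ℂ) + 1) * ((Q : ℂ) * n - 2 * lmin n - i)) • raise v i := by
  induction i with
  | zero =>
    have h1 := congrArg (fun A : Op (Fin (Q + 1)) => A v) (Lo_Ra_comm (Q := Q))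
    simp only [mul_ap, sub_ap, smul_ap] at h1
    rw [Lo_min hv, map_zero, sub_zero, Sc_Nh hv.2, Sc_Lz hv.2, smul_smul, smul_smul,
      ← sub_smul] at h1
    show dG (Lo Q) (dG (Ra Q) v) = _
    rw [h1]
    congr 1
    push_cast
    ring
  | succ i ih =>
    have h1 := congrArg (fun A : Op (Fin (Q + 1)) => A (raise v (i + 1))) (Lo_Ra_comm (Q := Q))
    simp only [mul_ap, sub_ap, smul_ap] at h1
    have hm := (raise_mem hv (i + 1)).2
    rw [ih, map_smul, Sc_Nh hm, Sc_Lz hm, smul_smul, smul_smul, ← sub_smul] at h1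
    have h2 : dG (Ra Q) (raise v i) = raise v (i + 1) := rfl
    rw [h2, sub_eq_iff_eq_add, ← add_smul] at h1
    show dG (Lo Q) (dG (Ra Q) (raise v (i + 1))) = _
    rw [h1]
    congr 1
    push_cast
    ring

theorem raise_ne_zero {n : ℕ} (hQ : Q + 2 = 3 * n) {v : Fk (Fin (Q + 1))}
    (hv : v ∈ ZS (nu0 Q) Q n (lmin n)) (h0 : v ≠ 0) (i : ℕ) (hi : i ≤ n) : raise v i ≠ 0 := by
  induction i with
  | zero => exact h0
  | succ i ih =>
    intro hc
    have h1 := Lo_raise hv i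
    rw [hc, map_zero] at h1
    have h2 := (smul_eq_zero.mp h1.symm).resolve_right (ih (by omega))
    have h3 : (Q : ℂ) * n - 2 * lmin n - i = ((n : ℂ) - i) := by
      have h4 := two_lmin n
      have h5 : n = (n - 1) + 1 := by omega
      have h6 : ((2 * lmin n : ℕ) : ℂ) = ((3 * (n * (n - 1)) : ℕ) : ℂ) := by rw [h4]
      push_cast [Nat.cast_sub (by omega : 1 ≤ n)] at h6
      have h7 : ((Q + 2 : ℕ) : ℂ) = ((3 * n : ℕ) : ℂ) := by rw [hQ]
      push_cast at h7
      have h8 : (Q : ℂ) = 3 * n - 2 := by rw [← h7]; ring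
      rw [h6, h8]
      ring
    rw [h3] at h2
    rcases mul_eq_zero.mp h2 with h4 | h4
    · have : ((i + 1 : ℕ) : ℂ) = 0 := by push_cast; exact h4
      rw [Nat.cast_eq_zero] at this
      omega
    · have : ((n : ℕ) : ℂ) = (i : ℕ) := sub_eq_zero.mp h4
      rw [Nat.cast_inj] at this
      omega

/-- **existence of the one-hole states.** -/
theorem exists_ZS {n : ℕ} (hQ : Q + 2 = 3 * n) (i : ℕ) (hi : i ≤ n) :
    ∃ v ∈ ZS (nu0 Q) Q n (lmin n + i), ‖v‖ = 1 := by
  obtain ⟨v, h1, h2, h3⟩ := Vac467.exists_Zn (posM_nu0 Q) (n := n) (by omega)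
  have hv : v ∈ ZS (nu0 Q) Q n (lmin n) := ⟨h1, Sec_iff.mp h2⟩
  have h4 := raise_ne_zero hQ hv h3 i hi
  exact ⟨nrm (raise v i), (ZS _ _ _ _).smul_mem _ (raise_mem hv i), norm_nrm h4⟩

/-- upper end of the sectors: an admissible set with `Q + 2 = 3 n` has sum at most `lmin n + n`. -/
theorem ad_sum_le {n : ℕ} {S : Finset (Fin (Q + 1))} (hS : Ad S) (hc : S.card = n) (K : ℕ)
    (hQ : Q + 3 = 3 * n + K) : (∑ i ∈ S, (i : ℕ)) ≤ lmin n + n * K := by
  rw [sum_eq_emb hc]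
  have h1 : ∀ a : Fin n, ((S.orderEmbOfFin hc a : Fin (Q + 1)) : ℕ) ≤ 3 * a + K := by
    intro a
    have h2 := ad_emb hS hc (n - 1 - a) (a : ℕ) (by omega)
    have h3 := (S.orderEmbOfFin hc ⟨(a : ℕ) + (n - 1 - a), by omega⟩).isLt
    have e2 : (⟨(a : ℕ), by omega⟩ : Fin n) = a := rfl
    rw [e2] at h2
    omega
  calc ∑ a : Fin n, ((S.orderEmbOfFin hc a : Fin (Q + 1)) : ℕ) ≤ ∑ a : Fin n, (3 * (a : ℕ) + K) :=
        sum_le_sum fun a _ => h1 a
    _ = lmin n + n * K := by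
        rw [sum_add_distrib, sum_const, card_univ, Fintype.card_fin, smul_eq_mul,
          Fin.sum_univ_eq_sum_range (fun k => 3 * k) n]
        rfl

/-- the range of `L_z` on zero modes -/
theorem ZS_range {ν : ℕ → ℝ} (hν : PosM ν Q) {n M : ℕ} {ψ : Fk (Fin (Q + 1))}
    (h : ψ ∈ ZS ν Q n M) (h0 : ψ ≠ 0) (K : ℕ) (hQ : Q + 3 = 3 * n + K) :
    lmin n ≤ M ∧ M ≤ lmin n + n * K := by
  obtain ⟨S, -, h2, h3, h4⟩ := ZS_exists_ad hν h h0
  refine ⟨?_, ?_⟩
  · rw [← h3]; exact (adm_bounds n S h4 h2).1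
  · rw [← h3]; exact ad_sum_le h4 h2 K hQ

theorem inner_of_ne {n M M' : ℕ} {v w : Fk (Fin (Q + 1))} (hv : v ∈ Sc Q n M)
    (hw : w ∈ Sc Q n M') (hne : M ≠ M') : ⟪v, w⟫_ℂ = 0 := by
  have h : prSc Q n M w = 0 := by
    ext S
    rw [prSc_apply]
    split_ifs with hc
    · by_contra hne'
      have := (hw S hne').2
      exact hne (hc.2.symm.trans this)
    · rfl
  rw [← prSc_of_mem hv, inner_prSc, h, inner_zero_right]

end Crest.Agent.R340.K1in788
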