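import Crest.Agent.R340.Peel_596
import Crest.Agent.R340.GeoM_986

/-!
# One step of the recursion, closed sphere to closed sphere (helper596, R340 block L3c)

* `Zn_smul` : zero modes do not see a constant factor of the metric.
* `nuT_A`, `nuT_B` : the endpoints of the geometry paths are (multiples of) restrictions of the round
  metric of flux `Q + 3`.
* `AB_step` : peeling + two path moves, with the path moves as hypotheses.
-/

set_option autoImplicit false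
set_option linter.unusedSectionVars false
open scoped InnerProductSpace ComplexConjugate
open Crest.Agent.R340.Fock649 Crest.Agent.R340.Emb596 Crest.Agent.R340.Geo986
  Crest.Agent.R340.Peel596
open Crest.Agent.R340.PV341 (G)

namespace Crest.Agent.R340.Step596

open Finset

/-! ### scaling of the metric -/

theorem bz_smul {ν ν' : ℕ → ℝ} {a : ℝ} {Q : ℕ} (h : ∀ j ≤ Q, ν' j = a * ν j) (p : ℕ) :
    bz ν' Q p = (((a * a)⁻¹ : ℝ) : ℂ) • bz ν Q p := by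
  unfold bz
  rw [Finset.smul_sum]
  refine Finset.sum_congr rfl fun x _ => ?_
  rw [smul_smul]
  congr 1
  rw [← Complex.ofReal_mul]
  congr 1
  unfold bcoef
  rw [h _ (by omega), h _ (by omega), div_eq_mul_inv, div_eq_mul_inv]
  rw [show a * ν ↑x.1 * (a * ν ↑x.2) = (a * a) * (ν ↑x.1 * ν ↑x.2) by ring, mul_inv]
  ring

theorem Zs_smul {ν ν' : ℕ → ℝ} {a : ℝ} {Q : ℕ} (ha : a ≠ 0) (h : ∀ j ≤ Q, ν' j = a * ν j) :
    Zs ν' Q = Zs ν Q := by
  ext ψ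
  rw [mem_Zs, mem_Zs]
  have hne : (((a * a)⁻¹ : ℝ) : ℂ) ≠ 0 := by
    rw [Complex.ofReal_ne_zero]
    exact inv_ne_zero (mul_ne_zero ha ha)
  refine forall_congr' fun p => ?_
  rw [bz_smul h, smul_ap, smul_eq_zero]
  constructor
  · rintro (h1 | h1)
    · exact absurd h1 hne
    · exact h1
  · exact Or.inr

theorem Zn_smul {ν ν' : ℕ → ℝ} {a : ℝ} {Q : ℕ} (ha : a ≠ 0) (h : ∀ j ≤ Q, ν' j = a * ν j)
    (n : ℕ) : Zn ν' Q n = Zn ν Q n := by
  ext ψ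
  rw [mem_Zn, mem_Zn, Zs_smul ha h]

theorem LB_smul {ν ν' : ℕ → ℝ} {a : ℝ} {Q : ℕ} (ha : a ≠ 0) (h : ∀ j ≤ Q, ν' j = a * ν j)
    (n : ℕ) (D : Op (Fin (Q + 1))) (lam : ℝ) : LB ν' Q n D lam ↔ LB ν Q n D lam := by
  unfold LB
  rw [Zn_smul ha h]

/-! ### endpoints of the paths -/

/-- exponents of the path `b : 0 → 3` at time `θ` -/
noncomputable def tA (θ : ℝ) : Fin 3 → ℝ := fun _ => θ / 2

/-- exponents of the path `b : 0 → 1` at time `θ` -/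
noncomputable def tB (θ : ℝ) : Fin 3 → ℝ := ![θ / 2, 0, 0]

theorem inv_rpow_neg_half {x : ℝ} (hx : 0 ≤ x) : (x ^ (-(1 / 2 : ℝ)))⁻¹ = √x := by
  rw [Real.rpow_neg hx, inv_inv, Real.sqrt_eq_rpow]

theorem G_tA_inv (i : ℕ) :
    (G (tA 1) i)⁻¹ = √(((i : ℝ) + 1) * ((i : ℝ) + 2) * ((i : ℝ) + 3)) := by
  unfold G tA
  rw [Fin.prod_univ_three, mul_inv, mul_inv, inv_rpow_neg_half (by positivity),
    inv_rpow_neg_half (by positivity), inv_rpow_neg_half (by positivity),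
    Real.sqrt_mul (by positivity), Real.sqrt_mul (by positivity)]
  congr 1
  · congr 1
    · congr 1; simp
    · congr 1; simp; ring
  · congr 1; simp; ring

theorem G_tB_inv (i : ℕ) : (G (tB 1) i)⁻¹ = √((i : ℝ) + 1) := by
  unfold G tB
  rw [Fin.prod_univ_three]
  simp only [Matrix.cons_val_zero, Matrix.cons_val_one, Matrix.cons_val_two, Matrix.head_cons,
    Matrix.tail_cons, neg_zero, Real.rpow_zero, mul_one, Matrix.cons_val]
  rw [inv_rpow_neg_half (by positivity)]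
  congr 1
  simp

theorem G_zero (i : ℕ) (t : Fin 3 → ℝ) (ht : ∀ k, t k = 0) : G t i = 1 := by
  unfold G
  simp [ht]

theorem nuT_of_zero (Q : ℕ) (t : Fin 3 → ℝ) (ht : ∀ k, t k = 0) : nuT t Q = nu0 Q := by
  funext j
  unfold nuT
  simp [G_zero _ t ht]

theorem nuT_tA_zero (Q : ℕ) : nuT (tA 0) Q = nu0 Q :=
  nuT_of_zero Q _ fun _ => by simp [tA]

theorem nuT_tB_zero (Q : ℕ) : nuT (tB 0) Q = nu0 Q :=
  nuT_of_zero Q _ fun k => by fin_cases k <;> simp [tB]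

theorem choose_succ_real {n j : ℕ} (hj : j ≤ n) :
    ((n.choose j : ℕ) : ℝ) * ((n : ℝ) + 1) = ((n + 1).choose j : ℕ) * ((n : ℝ) + 1 - j) := by
  have h := Nat.choose_mul_succ_eq n j
  have h2 : ((n.choose j * (n + 1) : ℕ) : ℝ) = (((n + 1).choose j * (n + 1 - j) : ℕ) : ℝ) := by
    rw [h]
  push_cast [Nat.cast_sub (show j ≤ n + 1 by omega)] at h2
  exact h2

theorem nuT_B (Q j : ℕ) (hj : j ≤ Q) :
    nuT (tB 1) Q j = √((Q : ℝ) + 1) * nu0 (Q + 1) j := by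
  unfold nuT
  rw [Pi.mul_apply, Pi.inv_apply, G_tB_inv]
  unfold nu0
  have hc : (0 : ℝ) < Q.choose j := by exact_mod_cast Nat.choose_pos hj
  have hc' : (0 : ℝ) < (Q + 1).choose j := by exact_mod_cast Nat.choose_pos (by omega)
  have hi : ((Q - j : ℕ) : ℝ) = (Q : ℝ) - j := Nat.cast_sub hj
  have hjr : (j : ℝ) ≤ Q := by exact_mod_cast hj
  have h := choose_succ_real hj
  rw [hi, ← Real.sqrt_inv, ← Real.sqrt_inv, ← Real.sqrt_mul (by positivity),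
    ← Real.sqrt_mul (by positivity)]
  congr 1
  rw [eq_comm, ← div_eq_mul_inv, ← div_eq_inv_mul, div_eq_div_iff hc'.ne' hc.ne']
  linear_combination h

theorem nuT_A (Q j : ℕ) (hj : j ≤ Q) :
    nuT (tA 1) Q j = √(((Q : ℝ) + 1) * ((Q : ℝ) + 2) * ((Q : ℝ) + 3)) * nu0 (Q + 3) j := by
  unfold nuT
  rw [Pi.mul_apply, Pi.inv_apply, G_tA_inv]
  unfold nu0
  have hc : (0 : ℝ) < Q.choose j := by exact_mod_cast Nat.choose_pos hj
  have hc' : (0 : ℝ) < (Q + 3).choose j := by exact_mod_cast Nat.choose_pos (by omega)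
  have hi : ((Q - j : ℕ) : ℝ) = (Q : ℝ) - j := Nat.cast_sub hj
  have hjr : (j : ℝ) ≤ Q := by exact_mod_cast hj
  have h1 := choose_succ_real hj
  have h2 := choose_succ_real (n := Q + 1) (j := j) (by omega)
  have h3 := choose_succ_real (n := Q + 2) (j := j) (by omega)
  push_cast at h2 h3
  have hx1 : 0 ≤ (Q : ℝ) - j + 1 := by linarith
  have hx2 : 0 ≤ (Q : ℝ) - j + 2 := by linarith
  have hx3 : 0 ≤ (Q : ℝ) - j + 3 := by linarith
  rw [hi, ← Real.sqrt_inv, ← Real.sqrt_inv, ← Real.sqrt_mul (by positivity),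
    ← Real.sqrt_mul (by positivity)]
  congr 1
  rw [eq_comm, ← div_eq_mul_inv, ← div_eq_inv_mul, div_eq_div_iff hc'.ne' hc.ne']
  have e1 : ((Q + 1).choose j : ℝ) * ((Q : ℝ) - j + 1) = Q.choose j * ((Q : ℝ) + 1) := by
    linear_combination -h1
  have e2 : ((Q + 2).choose j : ℝ) * ((Q : ℝ) - j + 2) = (Q + 1).choose j * ((Q : ℝ) + 2) := by
    linear_combination -h2
  have e3 : ((Q + 3).choose j : ℝ) * ((Q : ℝ) - j + 3) = (Q + 2).choose j * ((Q : ℝ) + 3) := by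
    linear_combination -h3
  calc ((Q : ℝ) + 1) * ((Q : ℝ) + 2) * ((Q : ℝ) + 3) * (Q.choose j : ℝ)
      = ((Q.choose j : ℝ) * ((Q : ℝ) + 1)) * (((Q : ℝ) + 2) * ((Q : ℝ) + 3)) := by ring
    _ = ((Q + 1).choose j : ℝ) * ((Q : ℝ) + 2) * (((Q : ℝ) - j + 1) * ((Q : ℝ) + 3)) := by
        rw [← e1]; ring
    _ = ((Q + 2).choose j : ℝ) * ((Q : ℝ) + 3) * (((Q : ℝ) - j + 1) * ((Q : ℝ) - j + 2)) := by
        rw [← e2]; ring
    _ = _ := by rw [← e3]; ring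

/-- the zero modes at the end of the A-path are those of the round metric of flux `Q + 3` -/
theorem Zn_A (Q n : ℕ) : Zn (nuT (tA 1) Q) Q n = Zn (nu0 (Q + 3)) Q n :=
  Zn_smul (a := √(((Q : ℝ) + 1) * ((Q : ℝ) + 2) * ((Q : ℝ) + 3)))
    (Real.sqrt_pos.2 (by positivity)).ne' (fun j hj => nuT_A Q j hj) n

theorem Zn_B (Q n : ℕ) : Zn (nuT (tB 1) Q) Q n = Zn (nu0 (Q + 1)) Q n :=
  Zn_smul (a := √((Q : ℝ) + 1)) (Real.sqrt_pos.2 (by positivity)).ne'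
    (fun j hj => nuT_B Q j hj) n

/-! ### the step -/

/-- a path move from metric `ν` to metric `ν'` costs at most `e` for the operator `D` -/
def Move (ν ν' : ℕ → ℝ) (Q n : ℕ) (D : Op (Fin (Q + 1))) (e : ℝ) : Prop :=
  ∀ L, LB ν Q n D L → LB ν' Q n D (L - e)

/-- **A/B-step**, closed sphere to closed sphere. -/
theorem AB_step {Q n : ℕ} (s sA sB a : ℝ) (f : ℕ → ℝ)
    (X : Op (Fin (Q + 3 + 1))) (hX : star X = X) (κ δ η eA eB L1 L2 : ℝ) (hκ : 0 < κ)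
    (hδ : 0 ≤ δ)
    (hG0 : ∀ ψ ∈ Zn (nu0 (Q + 3)) (Q + 3) (n + 1),
      (∀ φ ∈ Zn (nu0 (Q + 3)) (Q + 3) (n + 1), c (Fin.last (Q + 3)) φ = 0 → ⟪φ, ψ⟫_ℂ = 0) →
        κ * ‖ψ‖ ^ 2 ≤ ‖c (Fin.last (Q + 3)) ψ‖ ^ 2)
    (hcomm : ‖c (Fin.last (Q + 3)) * X - X * c (Fin.last (Q + 3))‖ ≤ η)
    (hcross : ∀ ψ ∈ Zn (nu0 (Q + 3)) (Q + 3) (n + 1), ∀ φ ∈ Zn (nu0 (Q + 3)) (Q + 3) (n + 1),
      ‖⟪d (Fin.last (Q + 3)) (c (Fin.last (Q + 3)) ψ) -
          (Zn (nu0 (Q + 3)) (Q + 3) (n + 1)).starProjection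
            (d (Fin.last (Q + 3)) (c (Fin.last (Q + 3)) ψ)),
        Dop (Q + 3) s a f X φ⟫_ℂ‖ ≤ δ * ‖ψ‖ * ‖φ‖)
    (hmA : Move (nu0 Q) (nuT (tA 1) Q) Q n
      (Dop Q sA a f (cmp (ee (Nat.le_add_right Q 3)) X)) eA)
    (hmB : Move (nu0 (Q + 2)) (nuT (tB 1) (Q + 2)) (Q + 2) (n + 1)
      (Dop (Q + 2) sB a f (cmp (ee (Nat.le_succ (Q + 2))) X)) eB)
    (hA : LB (nu0 Q) Q n (Dop Q sA a f (cmp (ee (Nat.le_add_right Q 3)) X)) L1)
    (hB : LB (nu0 (Q + 2)) (Q + 2) (n + 1)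
      (Dop (Q + 2) sB a f (cmp (ee (Nat.le_succ (Q + 2))) X)) L2) :
    LB (nu0 (Q + 3)) (Q + 3) (n + 1) (Dop (Q + 3) s a f X)
      (min (L1 + ((s - a * f (Q + 3) - sA) - eA)) (L2 + ((s - sB) - eB))
        - 2 * ((δ + η) / κ)) := by
  have h1 := hmA L1 hA
  have h2 := hmB L2 hB
  have h1' : LB (nu0 (Q + 3)) Q n (Dop Q sA a f (cmp (ee (Nat.le_add_right Q 3)) X)) (L1 - eA) := by
    unfold LB at h1 ⊢
    rw [Zn_A] at h1
    exact h1
  have h2' : LB (nu0 (Q + 3)) (Q + 2) (n + 1)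
      (Dop (Q + 2) sB a f (cmp (ee (Nat.le_succ (Q + 2))) X)) (L2 - eB) := by
    unfold LB at h2 ⊢
    rw [Zn_B] at h2
    exact h2
  have h3 := h1'.add_const (s - a * f (Q + 3) - sA)
  have h4 := h2'.add_const (s - sB)
  rw [show sA + (s - a * f (Q + 3) - sA) = s - a * f (Q + 3) by ring] at h3
  rw [show sB + (s - sB) = s by ring] at h4
  have h5 := peel_step (posM_nu0 (Q + 3)) s a f X hX κ δ η _ _ hκ hδ hG0 hcomm hcross h4 h3
  refine h5.mono (le_of_eq ?_)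
  rw [show L1 - eA + (s - a * f (Q + 3) - sA) = L1 + ((s - a * f (Q + 3) - sA) - eA) by ring,
    show L2 - eB + (s - sB) = L2 + ((s - sB) - eB) by ring]

end Crest.Agent.R340.Step596
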