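import Crest.Agent.R340.PathStep3_880
import Crest.Agent.R340.Step_596
import Crest.Agent.R340.GG_467

/-!
# R340, doc 1094 sections 3/4/5: path moves in the names of GeoM_986 / Step_596 (helper880)

* `bz_mul_dG_lin`, `TT_lin_mem_Zn`: zero modes are invariant under `L_z` and `N`;
* `Zt_A`, `Zt_B`: the moving zero mode space is `Zn (nuT (tA θ) Q) Q n`, `Zn (nuT (tB θ) Q) Q n`;
* `RingG`, `RingX`: the two clustering hypotheses, `RingG_of_op`, `RingX_of_op`: from operator norm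
  bounds with the projection onto `Zs ν Q` (all sectors);
* `move_A`, `move_B`: the path moves `Step596.Move`.
-/

set_option autoImplicit false

namespace Crest.Agent.R340.PathStep880

open Finset Set
open Crest.Agent.R340.Scal725 (dd prof)
open Crest.Agent.R340.Fock649
open Crest.Agent.R340.Geo986 Crest.Agent.R340.Peel596 Crest.Agent.R340.Step596
open Crest.Agent.R340.GG467 (pj pj_mem pj_of_mem star_pj pj_mul_self commute_pj)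
open Crest.Agent.R340.PV341 (G G_pos Adm)

/-! ### 1. invariance under `L_z` and `N` -/

theorem bz_mul_dG_lin (ν : ℕ → ℝ) (Q p : ℕ) :
    bz ν Q p * dG (Matrix.diagonal fun i : Fin (Q + 1) => (((i : ℕ) : ℝ) : ℂ)) =
      dG (Matrix.diagonal fun i : Fin (Q + 1) => (((i : ℕ) : ℝ) : ℂ)) * bz ν Q p +
        ((p : ℝ) : ℂ) • bz ν Q p := by
  unfold bz
  rw [Finset.sum_mul, Finset.mul_sum, Finset.smul_sum, ← Finset.sum_add_distrib]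
  refine Finset.sum_congr rfl fun x hx => ?_
  have hsum := (mem_pairs.1 hx).2
  rw [smul_mul_assoc, mul_smul_comm, smul_comm ((p : ℝ) : ℂ), ← smul_add]
  congr 1
  rw [mul_assoc, c_mul_dG_diagonal, mul_add, ← mul_assoc, c_mul_dG_diagonal, add_mul, mul_smul_comm,
    smul_mul_assoc, mul_assoc, add_assoc, ← add_smul]
  congr 2
  rw [← hsum]
  push_cast
  ring

theorem bz_mul_Nh (ν : ℕ → ℝ) (Q p : ℕ) :
    bz ν Q p * Nh = (Nh : Op (Fin (Q + 1))) * bz ν Q p + (2 : ℂ) • bz ν Q p := by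
  unfold bz
  rw [Finset.sum_mul, Finset.mul_sum, Finset.smul_sum, ← Finset.sum_add_distrib]
  refine Finset.sum_congr rfl fun x _ => ?_
  rw [smul_mul_assoc, mul_smul_comm, smul_comm (2 : ℂ), ← smul_add]
  congr 1
  have h1 : ∀ k : Fin (Q + 1), (c k * Nh : Op (Fin (Q + 1))) = Nh * c k + c k := by
    intro k
    rw [Nh_mul_c]; abel
  rw [mul_assoc, h1, mul_add, ← mul_assoc, h1, add_mul, mul_assoc, add_assoc, two_smul]

theorem TT_one_mem_Zs {ν : ℕ → ℝ} {Q : ℕ} {ψ : Fk (Fin (Q + 1))} (h : ψ ∈ Zs ν Q) :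
    (Nh : Op (Fin (Q + 1))) ψ ∈ Zs ν Q := by
  intro p
  have h1 := congrArg (fun A : Op (Fin (Q + 1)) => A ψ) (bz_mul_Nh ν Q p)
  simp only [mul_ap, add_ap, smul_ap, h p, map_zero, smul_zero, add_zero] at h1
  exact h1

theorem TT_one_mem_Zn {ν : ℕ → ℝ} {Q n : ℕ} {ψ : Fk (Fin (Q + 1))} (h : ψ ∈ Zn ν Q n) :
    TT Q (fun _ => 1) ψ ∈ Zn ν Q n := by
  rw [TT_one]
  have h2 : (Nh : Op (Fin (Q + 1))) ψ = (n : ℂ) • ψ := h.2
  rw [h2]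
  exact (Zn ν Q n).smul_mem _ h

theorem TT_lin_mem_Zs {ν : ℕ → ℝ} {Q : ℕ} {ψ : Fk (Fin (Q + 1))} (h : ψ ∈ Zs ν Q) :
    TT Q (fun j => (j : ℝ)) ψ ∈ Zs ν Q := by
  intro p
  have h1 := congrArg (fun A : Op (Fin (Q + 1)) => A ψ) (bz_mul_dG_lin ν Q p)
  simp only [mul_ap, add_ap, smul_ap, h p, map_zero, smul_zero, add_zero] at h1
  exact h1

theorem TT_Nh (Q : ℕ) (f : ℕ → ℝ) (ψ : Fk (Fin (Q + 1))) :
    (Nh : Op (Fin (Q + 1))) (TT Q f ψ) = TT Q f ((Nh : Op (Fin (Q + 1))) ψ) := by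
  have h := Nh_comm_dG (Matrix.diagonal fun i : Fin (Q + 1) => ((f i : ℝ) : ℂ))
  exact congrArg (fun A : Op (Fin (Q + 1)) => A ψ) h

theorem TT_lin_mem_Zn {ν : ℕ → ℝ} {Q n : ℕ} {ψ : Fk (Fin (Q + 1))} (h : ψ ∈ Zn ν Q n) :
    TT Q (fun j => (j : ℝ)) ψ ∈ Zn ν Q n := by
  refine ⟨TT_lin_mem_Zs h.1, ?_⟩
  rw [TT_Nh, h.2, map_smul]

/-! ### 2. the moving zero mode space -/

theorem Nh_Gd (Q : ℕ) (u : Fin (Q + 1) → ℂ) (ψ : Fk (Fin (Q + 1))) :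
    (Nh : Op (Fin (Q + 1))) (Gd u ψ) = Gd u ((Nh : Op (Fin (Q + 1))) ψ) := by
  rw [Nh_eq]
  unfold Gd
  ext S
  rw [diag_apply, diag_apply, diag_apply, diag_apply]
  ring

theorem map_Zn {ν r : ℕ → ℝ} {Q n : ℕ} (hr : PosM r Q) :
    (Zn ν Q n).map (Gd (res Q r)).ap.toLinearMap = Zn (ν * r) Q n := by
  apply le_antisymm
  · rintro _ ⟨ψ, hψ, rfl⟩
    refine ⟨Gd_mem_Zs hr hψ.1, ?_⟩
    have h := Nh_Gd Q (res Q r) ψ
    rw [hψ.2, map_smul] at h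
    exact h
  · intro ψ hψ
    have h1 : ψ ∈ (Zs ν Q).map (GdE Q r hr).toLinearMap := by
      rw [map_Zs hr]; exact hψ.1
    obtain ⟨φ, hφ, hφψ⟩ := h1
    have hφψ' : Gd (res Q r) φ = ψ := hφψ
    refine ⟨φ, ⟨hφ, ?_⟩, hφψ⟩
    have h2 := Nh_Gd Q (res Q r) φ
    rw [hφψ', hψ.2, ← hφψ', ← map_smul] at h2
    exact (GdE Q r hr).injective h2.symm

theorem Gm_eq_Gd (b Q : ℕ) (θ : ℝ) :
    Gm b Q θ = (Gd (res Q fun j => Real.exp (-(θ / 2) * gm b Q j))).ap := rfl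

theorem posM_exp (b Q : ℕ) (θ : ℝ) : PosM (fun j => Real.exp (-(θ / 2) * gm b Q j)) Q :=
  fun _ _ => Real.exp_pos _

theorem Zt_eq {b Q n : ℕ} {ν : ℕ → ℝ} (θ : ℝ) :
    Zt b Q (Zn ν Q n) θ = Zn (ν * fun j => Real.exp (-(θ / 2) * gm b Q j)) Q n := by
  unfold Zt
  rw [Gm_eq_Gd]
  exact map_Zn (posM_exp b Q θ)

theorem exp_gm_three {Q j : ℕ} (hj : j ≤ Q) (θ : ℝ) :
    Real.exp (-(θ / 2) * gm 3 Q j) = (G (tA θ) (Q - j))⁻¹ := by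
  have hjr : (j : ℝ) ≤ Q := by exact_mod_cast hj
  have hi : ((Q - j : ℕ) : ℝ) = (Q : ℝ) - j := Nat.cast_sub hj
  rw [← Real.exp_log (inv_pos.2 (G_pos (tA θ) (Q - j))), Real.log_inv, PV341.log_G]
  congr 1
  unfold gm tA
  rw [← Fin.sum_univ_eq_sum_range (fun k : ℕ => Real.log ((Q : ℝ) - j + k + 1)) 3, hi, neg_neg,
    neg_mul_neg, Finset.mul_sum]

theorem exp_gm_one {Q j : ℕ} (hj : j ≤ Q) (θ : ℝ) :
    Real.exp (-(θ / 2) * gm 1 Q j) = (G (tB θ) (Q - j))⁻¹ := by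
  have hi : ((Q - j : ℕ) : ℝ) = (Q : ℝ) - j := Nat.cast_sub hj
  rw [← Real.exp_log (inv_pos.2 (G_pos (tB θ) (Q - j))), Real.log_inv, PV341.log_G]
  congr 1
  unfold gm tB
  rw [Fin.sum_univ_three, hi]
  simp

theorem Zt_A (Q n : ℕ) (θ : ℝ) : Zt 3 Q (Zn (nu0 Q) Q n) θ = Zn (nuT (tA θ) Q) Q n := by
  rw [Zt_eq]
  refine Zn_congr (fun j hj => ?_) n
  unfold nuT
  rw [Pi.mul_apply, Pi.mul_apply, Pi.inv_apply, exp_gm_three hj]

theorem Zt_B (Q n : ℕ) (θ : ℝ) : Zt 1 Q (Zn (nu0 Q) Q n) θ = Zn (nuT (tB θ) Q) Q n := by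
  rw [Zt_eq]
  refine Zn_congr (fun j hj => ?_) n
  unfold nuT
  rw [Pi.mul_apply, Pi.mul_apply, Pi.inv_apply, exp_gm_one hj]

theorem adm_tA {θ : ℝ} (h : θ ∈ Icc (0 : ℝ) 1) : Adm (tA θ) := fun _ => by
  unfold tA; constructor <;> linarith [h.1, h.2]

theorem adm_tB {θ : ℝ} (h : θ ∈ Icc (0 : ℝ) 1) : Adm (tB θ) := fun k => by
  have h1 := h.1
  have h2 := h.2
  fin_cases k
  · show 0 ≤ θ / 2 ∧ θ / 2 ≤ 1 / 2
    constructor <;> linarith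
  · show (0 : ℝ) ≤ 0 ∧ (0 : ℝ) ≤ 1 / 2
    norm_num
  · show (0 : ℝ) ≤ 0 ∧ (0 : ℝ) ≤ 1 / 2
    norm_num

/-! ### 3. the clustering hypotheses -/

/-- Gram matrix bound of the ring vectors. -/
def RingG (Q : ℕ) (Z : Submodule ℂ (Fk (Fin (Q + 1)))) (CG m : ℝ) : Prop :=
  ∀ ψ ∈ Z, ‖ψ‖ = 1 → ∀ p < Q - 1, ∀ q < Q - 1,
    ‖inner ℂ (off Z (TT Q (kink (p + 1)) ψ)) (off Z (TT Q (kink (q + 1)) ψ))‖ ≤
      CG * (PSD716.dd Q p * Real.sqrt (PSD716.dd Q p)) * (1 + PSD716.DD Q p q) ^ (-m)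

/-- clustering of the ring vectors against `X ψ`. -/
def RingX (Q : ℕ) (Z : Submodule ℂ (Fk (Fin (Q + 1)))) (X : Op (Fin (Q + 1))) (CX : ℝ) : Prop :=
  ∀ ψ ∈ Z, ‖ψ‖ = 1 → ∀ p < Q - 1,
    ‖inner ℂ (off Z (TT Q (kink (p + 1)) ψ)) (off Z (X ψ))‖ ≤ CX * (((p : ℝ) + 1) ^ 2)⁻¹

/-- the projection onto the zero modes of all sectors, restricted to a sector. -/
theorem star_proj_Zn {ν : ℕ → ℝ} {Q n : ℕ} {x : Fk (Fin (Q + 1))}
    (hx : (Nh : Op (Fin (Q + 1))) x = (n : ℂ) • x) :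
    (Zs ν Q).starProjection x = (Zn ν Q n).starProjection x := by
  have hcomm : (Nh : Op (Fin (Q + 1))) * pj (Zs ν Q) = pj (Zs ν Q) * Nh := by
    refine commute_pj (fun v hv => TT_one_mem_Zs hv) (fun v hv => ?_)
    have : star (Nh : Op (Fin (Q + 1))) = Nh := by
      unfold Nh
      rw [star_dG, Matrix.conjTranspose_one]
    rw [this]
    exact TT_one_mem_Zs hv
  have h1 : (Nh : Op (Fin (Q + 1))) (pj (Zs ν Q) x) = (n : ℂ) • pj (Zs ν Q) x := by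
    have h2 := congrArg (fun A : Op (Fin (Q + 1)) => A x) hcomm
    simp only [mul_ap] at h2
    rw [h2, hx, map_smul]
  have h3 : pj (Zs ν Q) x ∈ Zn ν Q n := ⟨pj_mem _ _, h1⟩
  symm
  refine Submodule.eq_starProjection_of_mem_of_inner_eq_zero h3 ?_
  intro w hw
  exact Submodule.inner_left_of_mem_orthogonal (Zn_le_Zs ν Q n hw)
    (Submodule.sub_starProjection_mem_orthogonal x)

theorem off_Zn {ν : ℕ → ℝ} {Q n : ℕ} {x : Fk (Fin (Q + 1))}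
    (hx : (Nh : Op (Fin (Q + 1))) x = (n : ℂ) • x) : off (Zn ν Q n) x = off (Zs ν Q) x := by
  rw [off_apply, off_apply, star_proj_Zn hx]

theorem off_eq_pj (Q : ℕ) (Z : Submodule ℂ (Fk (Fin (Q + 1)))) (x : Fk (Fin (Q + 1))) :
    off Z x = (1 - pj Z) x := rfl

/-- `⟪(1-P) A ψ, Y ψ⟫` from the operator norm of `P A* (1-P) Y P`. -/
theorem inner_off_le {Q : ℕ} (Z : Submodule ℂ (Fk (Fin (Q + 1)))) (A Y : Op (Fin (Q + 1)))
    {ψ : Fk (Fin (Q + 1))} (hψ : ψ ∈ Z) :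
    ‖inner ℂ (off Z (A ψ)) (off Z (Y ψ))‖ ≤
      ‖pj Z * star A * (1 - pj Z) * Y * pj Z‖ * ‖ψ‖ ^ 2 := by
  have hP : pj Z ψ = ψ := pj_of_mem hψ
  have h1 : inner ℂ (off Z (A ψ)) (off Z (Y ψ)) =
      inner ℂ ψ ((pj Z * star A * (1 - pj Z) * Y * pj Z) ψ) := by
    rw [inner_off_off, off_eq_pj]
    simp only [mul_ap]
    rw [hP]
    have h2 : inner ℂ ψ (pj Z (star A ((1 - pj Z) (Y ψ)))) =
        inner ℂ (pj Z ψ) (star A ((1 - pj Z) (Y ψ))) := by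
      have := inner_star_right (pj Z) ψ (star A ((1 - pj Z) (Y ψ)))
      rw [star_pj] at this
      exact this
    rw [h2, hP, inner_star_right]
  rw [h1]
  refine (norm_inner_le_norm _ _).trans ?_
  have h3 := Op.norm_ap_le (pj Z * star A * (1 - pj Z) * Y * pj Z) ψ
  calc ‖ψ‖ * ‖(pj Z * star A * (1 - pj Z) * Y * pj Z) ψ‖
      ≤ ‖ψ‖ * (‖pj Z * star A * (1 - pj Z) * Y * pj Z‖ * ‖ψ‖) := by gcongr
    _ = _ := by ring

theorem star_dG_real (Q : ℕ) (f : ℕ → ℝ) :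
    star (dG (Matrix.diagonal fun i : Fin (Q + 1) => ((f i : ℝ) : ℂ))) =
      dG (Matrix.diagonal fun i : Fin (Q + 1) => ((f i : ℝ) : ℂ)) := by
  rw [star_dG, Matrix.diagonal_conjTranspose]
  congr 2
  ext i
  simp

/-- `RingG` on a sector from operator norm bounds with the projection onto all zero modes. -/
theorem RingG_of_op {ν : ℕ → ℝ} {Q : ℕ} {CG m : ℝ}
    (h : ∀ p < Q - 1, ∀ q < Q - 1,
      ‖pj (Zs ν Q) * dG (Matrix.diagonal fun i : Fin (Q + 1) => ((kink (p + 1) i : ℝ) : ℂ)) *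
          (1 - pj (Zs ν Q)) *
          dG (Matrix.diagonal fun i : Fin (Q + 1) => ((kink (q + 1) i : ℝ) : ℂ)) *
          pj (Zs ν Q)‖ ≤
        CG * (PSD716.dd Q p * Real.sqrt (PSD716.dd Q p)) * (1 + PSD716.DD Q p q) ^ (-m)) (n : ℕ) :
    RingG Q (Zn ν Q n) CG m := by
  intro ψ hψ hψ1 p hp q hq
  have e : ∀ r, off (Zn ν Q n) (TT Q (kink r) ψ) = off (Zs ν Q) (TT Q (kink r) ψ) := by
    intro r
    apply off_Zn
    rw [TT_Nh, hψ.2, map_smul]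
  rw [e, e]
  have h1 := inner_off_le (Zs ν Q)
    (dG (Matrix.diagonal fun i : Fin (Q + 1) => ((kink (p + 1) i : ℝ) : ℂ)))
    (dG (Matrix.diagonal fun i : Fin (Q + 1) => ((kink (q + 1) i : ℝ) : ℂ))) hψ.1
  rw [star_dG_real, hψ1, one_pow, mul_one] at h1
  exact h1.trans (h p hp q hq)

/-- `RingX` on a sector from operator norm bounds. -/
theorem RingX_of_op {ν : ℕ → ℝ} {Q : ℕ} {X : Op (Fin (Q + 1))} {CX : ℝ}
    (h : ∀ p < Q - 1,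
      ‖pj (Zs ν Q) * dG (Matrix.diagonal fun i : Fin (Q + 1) => ((kink (p + 1) i : ℝ) : ℂ)) *
          (1 - pj (Zs ν Q)) * X * pj (Zs ν Q)‖ ≤ CX * (((p : ℝ) + 1) ^ 2)⁻¹) (n : ℕ) :
    RingX Q (Zn ν Q n) X CX := by
  intro ψ hψ hψ1 p hp
  have e : off (Zn ν Q n) (TT Q (kink (p + 1)) ψ) = off (Zs ν Q) (TT Q (kink (p + 1)) ψ) := by
    apply off_Zn
    rw [TT_Nh, hψ.2, map_smul]
  have e2 : inner ℂ (off (Zn ν Q n) (TT Q (kink (p + 1)) ψ)) (off (Zn ν Q n) (X ψ)) =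
      inner ℂ (off (Zs ν Q) (TT Q (kink (p + 1)) ψ)) (off (Zs ν Q) (X ψ)) := by
    have h1 : inner ℂ (off (Zn ν Q n) (TT Q (kink (p + 1)) ψ)) (off (Zn ν Q n) (X ψ)) =
        inner ℂ (off (Zn ν Q n) (TT Q (kink (p + 1)) ψ)) (X ψ) := by
      rw [← inner_conj_symm, inner_off_off, inner_conj_symm]
    have h2 : inner ℂ (off (Zs ν Q) (TT Q (kink (p + 1)) ψ)) (off (Zs ν Q) (X ψ)) =
        inner ℂ (off (Zs ν Q) (TT Q (kink (p + 1)) ψ)) (X ψ) := by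
      rw [← inner_conj_symm, inner_off_off, inner_conj_symm]
    rw [h1, h2, e]
  rw [e2]
  have h1 := inner_off_le (Zs ν Q)
    (dG (Matrix.diagonal fun i : Fin (Q + 1) => ((kink (p + 1) i : ℝ) : ℂ))) X hψ.1
  rw [star_dG_real, hψ1, one_pow, mul_one] at h1
  exact h1.trans (h p hp)

/-! ### 4. the moves -/

theorem Dop_ap (Q : ℕ) (s C : ℝ) (f : ℕ → ℝ) (X : Op (Fin (Q + 1))) :
    (Dop Q s (3 * C) f X).ap = DD Q s C f X := rfl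

/-- error of one path move, `b ∈ {1, 3}`. -/
noncomputable def eMove (b : ℕ) (CG CX C a R : ℝ) (Q : ℕ) : ℝ :=
  3 * C * (1008 * CG * b * (4 * (1 + a) / Q ^ 2 + 24 * dd (prof a R) Q * Real.log Q)) +
    16 * b * CX / Q ^ 2

/-- **The A-move** (weak pass). -/
theorem move_A {Q n : ℕ} {a R : ℝ} (ha0 : 0 < a) (ha2 : a ≤ 2) (haR : a ≤ R) (s C : ℝ) (hC : 0 ≤ C)
    (X : Op (Fin (Q + 1))) (hX : star X = X) {CG CX m : ℝ} (hCG : 0 ≤ CG) (hCX : 0 ≤ CX)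
    (hm : 20 ≤ m)
    (hG : ∀ θ ∈ Ioc (0 : ℝ) 1, RingG Q (Zn (nuT (tA θ) Q) Q n) CG m)
    (hXc : ∀ θ ∈ Ioc (0 : ℝ) 1, RingX Q (Zn (nuT (tA θ) Q) Q n) X CX) :
    Move (nu0 Q) (nuT (tA 1) Q) Q n (Dop Q s (3 * C) (prof a R) X) (eMove 3 CG CX C a R Q) := by
  intro L h0
  have h := path_weak (b := 3) (by norm_num) (Zn (nu0 Q) Q n) (fun ψ hψ => TT_one_mem_Zn hψ)
    (fun ψ hψ => TT_lin_mem_Zn hψ) ha0 ha2 haR s C hC X hX hCG hCX hm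
    (fun θ hθ => by rw [Zt_A]; exact hG θ hθ) (fun θ hθ => by rw [Zt_A]; exact hXc θ hθ) L h0
  rw [Zt_A] at h
  exact h

/-- **The B-move** (weak pass). -/
theorem move_B {Q n : ℕ} {a R : ℝ} (ha0 : 0 < a) (ha2 : a ≤ 2) (haR : a ≤ R) (s C : ℝ) (hC : 0 ≤ C)
    (X : Op (Fin (Q + 1))) (hX : star X = X) {CG CX m : ℝ} (hCG : 0 ≤ CG) (hCX : 0 ≤ CX)
    (hm : 20 ≤ m)
    (hG : ∀ θ ∈ Ioc (0 : ℝ) 1, RingG Q (Zn (nuT (tB θ) Q) Q n) CG m)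
    (hXc : ∀ θ ∈ Ioc (0 : ℝ) 1, RingX Q (Zn (nuT (tB θ) Q) Q n) X CX) :
    Move (nu0 Q) (nuT (tB 1) Q) Q n (Dop Q s (3 * C) (prof a R) X) (eMove 1 CG CX C a R Q) := by
  intro L h0
  have h := path_weak (b := 1) (by norm_num) (Zn (nu0 Q) Q n) (fun ψ hψ => TT_one_mem_Zn hψ)
    (fun ψ hψ => TT_lin_mem_Zn hψ) ha0 ha2 haR s C hC X hX hCG hCX hm
    (fun θ hθ => by rw [Zt_B]; exact hG θ hθ) (fun θ hθ => by rw [Zt_B]; exact hXc θ hθ) L h0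
  rw [Zt_B] at h
  exact h

end Crest.Agent.R340.PathStep880
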