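import Crest.Agent.R340.K1inD_788
import Crest.Agent.R340.Rev_716
import Crest.Agent.R340.K1rad_716
import Crest.Agent.R340.PathStep4_880
import Crest.Agent.R340.PeelX_596
import Crest.Agent.R340.DomF_735

/-!
# R340, K = 1 inputs (helper788): the literal `K1rad716.DataR`

`st Q n i` : canonical unit vector of the sector `ZS (nu0 Q) Q n (lmin n + i)` (positive coefficient on
the admissible set), `Q + 2 = 3 n`, `i = n - k`.
`dataR` : `DataR (fun n k f => mean (dΓ f) (st (3n+1) (n+1) (n+1-k))) C1 n0`.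
-/

set_option autoImplicit false
set_option linter.unusedSectionVars false

namespace Crest.Agent.R340.K1in788

open Finset
open scoped InnerProductSpace ComplexConjugate
open Crest.Agent.R340.Fock649 Crest.Agent.R340.Geo986 Crest.Agent.R340.Peel596
  Crest.Agent.R340.Emb596
open Crest.Agent.R340.Vac467 (Lz Lz_eq lmin two_lmin lmin_succ exists_adm adm_bounds)
open Crest.Agent.R340.PathStep880 (off off_apply TT kink gm off_eq_sum TT_congr dd_gm_le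
  dd_gm_nonneg inner_off_off TT_one_mem_Zn TT_lin_mem_Zn)
open Crest.Agent.R340.PeelX596 (RC2 RX2 n_last_eq inner_off_left)
open Crest.Agent.R340.Scal725 (cs dd)
open Crest.Agent.R340.PSD716 (om)
open Crest.Agent.R340.PV341 (Adm)

variable {Q : ℕ}

/-! ### covariances and `off` -/

theorem TT_eq_dR (f : ℕ → ℝ) (v : Fk (Fin (Q + 1))) :
    TT Q f v = dR (fun j : Fin (Q + 1) => f j) v := rfl

theorem inner_self_real {ι : Type*} [Fintype ι] [LinearOrder ι] {A : Op ι} (hA : star A = A)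
    (ψ : Fk ι) : ⟪ψ, A ψ⟫_ℂ = ((mean A ψ : ℝ) : ℂ) := by
  have h : conj (⟪ψ, A ψ⟫_ℂ) = ⟪ψ, A ψ⟫_ℂ := by
    rw [inner_conj_symm]
    have := inner_star_left A ψ ψ
    rw [hA] at this
    exact this
  unfold mean
  exact (Complex.conj_eq_iff_re.mp h).symm

theorem off_ZS {ν : ℕ → ℝ} (hν : PosM ν Q) {n M : ℕ} (hQ : Q + 2 ≤ 3 * n)
    {ψ : Fk (Fin (Q + 1))} (h : ψ ∈ ZS ν Q n M) (h1 : ‖ψ‖ = 1) {A : Op (Fin (Q + 1))}
    (hA : star A = A) (hAS : A ψ ∈ Sc Q n M) :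
    off (Zn ν Q n) (A ψ) = A ψ - ((mean A ψ : ℝ) : ℂ) • ψ := by
  rw [off_apply, starProj_Zn hν hQ h h1 hAS, inner_self_real hA]

theorem cov_eq {ν : ℕ → ℝ} (hν : PosM ν Q) {n M : ℕ} (hQ : Q + 2 ≤ 3 * n)
    {ψ : Fk (Fin (Q + 1))} (h : ψ ∈ ZS ν Q n M) (h1 : ‖ψ‖ = 1) {A : Op (Fin (Q + 1))}
    (hA : star A = A) (hAS : A ψ ∈ Sc Q n M) (B : Op (Fin (Q + 1))) :
    cov A B ψ = (⟪off (Zn ν Q n) (A ψ), off (Zn ν Q n) (B ψ)⟫_ℂ).re := by
  unfold cov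
  rw [← off_ZS hν hQ h h1 hA hAS, inner_off_left]

/-! ### the cross terms -/

theorem om_le_of {Q' q Q p : ℕ} (hq : q ≤ Q') (hp : p ≤ Q) (hx : q ≤ p) {r : ℝ} (hr : 1 ≤ r)
    (hy : (Q : ℝ) - p + 1 ≤ r * ((Q' : ℝ) - q + 1)) : om Q' q ≤ r ^ 2 * om Q p := by
  have hqQ : (q : ℝ) ≤ Q' := by exact_mod_cast hq
  have hpQ : (p : ℝ) ≤ Q := by exact_mod_cast hp
  have hqp : (q : ℝ) ≤ p := by exact_mod_cast hx
  have h0 : (0 : ℝ) ≤ q := Nat.cast_nonneg q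
  have hy0 : 0 < (Q' : ℝ) - q + 1 := by linarith
  have hy1 : 0 < (Q : ℝ) - p + 1 := by linarith
  unfold om PSD716.dd
  rw [← mul_pow]
  refine pow_le_pow_left₀ (div_nonneg (le_min (by linarith) hy0.le) hy0.le) ?_ 2
  rw [mul_div_assoc', div_le_div_iff₀ hy0 hy1]
  rcases le_total ((p : ℝ) + 1) ((Q : ℝ) - p + 1) with h | h
  · rw [min_eq_left h]
    calc min ((q : ℝ) + 1) ((Q' : ℝ) - q + 1) * ((Q : ℝ) - p + 1)
        ≤ ((p : ℝ) + 1) * (r * ((Q' : ℝ) - q + 1)) := by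
          refine mul_le_mul ((min_le_left _ _).trans (by linarith)) hy hy1.le (by linarith)
      _ = _ := by ring
  · rw [min_eq_right h]
    calc min ((q : ℝ) + 1) ((Q' : ℝ) - q + 1) * ((Q : ℝ) - p + 1)
        ≤ ((Q' : ℝ) - q + 1) * ((Q : ℝ) - p + 1) :=
          mul_le_mul_of_nonneg_right (min_le_right _ _) hy1.le
      _ ≤ _ := by nlinarith [mul_pos hy0 hy1]

theorem dd_kink_last {Q p : ℕ} (hp : p < Q - 1) :
    |dd (kink (Q - 1)) p| ≤ 9 / ((Q : ℝ) - p + 1) ^ 2 := by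
  have hpQ : (p : ℝ) + 2 ≤ Q := by exact_mod_cast (by omega : p + 2 ≤ Q)
  have h0 : 0 < (Q : ℝ) - p + 1 := by linarith
  unfold dd kink
  rcases Nat.lt_or_ge (p + 2) Q with h | h
  · have e1 : p - (Q - 1) = 0 := by omega
    have e2 : p + 1 - (Q - 1) = 0 := by omega
    have e3 : p + 2 - (Q - 1) = 0 := by omega
    rw [e1, e2, e3]
    simp only [Nat.cast_zero, mul_zero, sub_zero, add_zero, abs_zero]
    positivity
  · have hQ : Q = p + 2 := by omega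
    subst hQ
    have e1 : p - (p + 2 - 1) = 0 := by omega
    have e2 : p + 1 - (p + 2 - 1) = 0 := by omega
    have e3 : p + 2 - (p + 2 - 1) = 1 := by omega
    rw [e1, e2, e3]
    push_cast
    norm_num

theorem dd_gm_le' {b Q p : ℕ} (hp : p < Q - 1) :
    |dd (gm b Q) p| ≤ 3 * b / ((Q : ℝ) - p + 1) ^ 2 := by
  have hpQ : (p : ℝ) + 2 ≤ Q := by exact_mod_cast (by omega : p + 2 ≤ Q)
  rw [abs_of_nonneg (dd_gm_nonneg hp)]
  refine (dd_gm_le hp).trans ?_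
  have h0 : 0 < (Q : ℝ) - p + 1 := by linarith
  have h1 : 0 < (Q : ℝ) - p := by linarith
  rw [le_div_iff₀ (by positivity), mul_assoc, ← div_eq_inv_mul, mul_div_assoc',
    div_le_iff₀ (by positivity)]
  have hb : (0 : ℝ) ≤ b := Nat.cast_nonneg b
  have h2 : ((Q : ℝ) - p + 1) ^ 2 ≤ 9 / 4 * ((Q : ℝ) - p) ^ 2 := by nlinarith
  calc 4 / 3 * (b : ℝ) * ((Q : ℝ) - p + 1) ^ 2
      ≤ 4 / 3 * (b : ℝ) * (9 / 4 * ((Q : ℝ) - p) ^ 2) := by gcongr
    _ = 3 * b * ((Q : ℝ) - p) ^ 2 := by ring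

/-- cross term of two one-body operators in a zero mode -/
theorem cross_bd {ν : ℕ → ℝ} {n : ℕ} {CG : ℝ} (hCG : 0 ≤ CG) (hG : RC2 Q (Zn ν Q n) CG 20)
    {ψ : Fk (Fin (Q + 1))} (hψ : ψ ∈ Zn ν Q n) (h1 : ‖ψ‖ = 1) (g f : ℕ → ℝ) {A : ℝ} (hA : 0 ≤ A)
    (hF : ∀ p < Q - 1, |dd g p| ≤ A / ((Q : ℝ) - p + 1) ^ 2) :
    ‖⟪off (Zn ν Q n) (TT Q g ψ), off (Zn ν Q n) (TT Q f ψ)⟫_ℂ‖ ≤
      41 * A * CG * ∑ q ∈ range (Q - 1), |dd f q| * om Q q := by
  have hT : ∀ f g : ℕ → ℝ, (∀ j ≤ Q, f j = g j) → TT Q f = TT Q g := fun f g h => TT_congr h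
  rw [off_eq_sum (TT Q) hT _ (TT_one_mem_Zn hψ) (TT_lin_mem_Zn hψ) g,
    off_eq_sum (TT Q) hT _ (TT_one_mem_Zn hψ) (TT_lin_mem_Zn hψ) f]
  refine PSD716.cross_abs (Q := Q) (range (Q - 1)) (range (Q - 1))
    (fun p hp => by have := mem_range.1 hp; omega) (fun p hp => by have := mem_range.1 hp; omega)
    (fun p => off (Zn ν Q n) (TT Q (kink (p + 1)) ψ)) (dd g) (dd f) A CG hA hCG 20 (by norm_num)
    (fun p hp q hq => ?_) (fun p hp => hF p (mem_range.1 hp))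
  have h2 := hG ψ hψ ψ hψ q (mem_range.1 hq) p (mem_range.1 hp)
  rw [h1, mul_one, mul_one, PSD716.DD_symm, ← inner_conj_symm, RCLike.norm_conj] at h2
  exact h2

/-! ### density of the last orbital -/

theorem kappa_le {κ : ℝ}
    (hG0 : ∀ Q n : ℕ, ∀ ψ ∈ Zn (nu0 (Q + 1)) (Q + 1) n,
      (∀ φ ∈ Zn (nu0 (Q + 1)) (Q + 1) n, c (Fin.last (Q + 1)) φ = 0 → ⟪φ, ψ⟫_ℂ = 0) →
        κ * ‖ψ‖ ^ 2 ≤ ‖c (Fin.last (Q + 1)) ψ‖ ^ 2)
    {n i : ℕ} (hQ : Q + 2 = 3 * n) {ψ : Fk (Fin (Q + 3 + 1))}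
    (hψ : ψ ∈ ZS (nu0 (Q + 3)) (Q + 3) (n + 1) (lmin (n + 1) + (i + 1))) (h1 : ‖ψ‖ = 1) :
    κ ≤ ‖c (Fin.last (Q + 3)) ψ‖ ^ 2 := by
  have h := hG0 (Q + 2) (n + 1) ψ (ZS_le_Zn hψ) ?_
  · rw [h1, one_pow, mul_one] at h
    exact h
  intro φ hφ h0
  obtain ⟨χ, hχ, hχ2⟩ := Bblock (Q := Q + 2) hφ h0
  have hs := Vac467.sec_of_Zn (posM_nu0_le (by omega : Q + 2 ≤ Q + 3)) (by omega) hχ
  have h3 : φ ∈ Sc (Q + 3) (n + 1) (lmin (n + 1)) := by
    rw [← hχ2]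
    exact (emb_mem_Sc_iff _).mpr (Sec_iff.mp hs)
  exact inner_of_ne h3 hψ.2 (by omega)

/-! ### canonical vectors -/

/-- unit vector of the sector with positive coefficient on the admissible set -/
def Can (Q n i : ℕ) (ψ : Fk (Fin (Q + 1))) : Prop :=
  ψ ∈ ZS (nu0 Q) Q n (lmin n + i) ∧ ‖ψ‖ = 1 ∧
    ∀ S : Finset (Fin (Q + 1)), Ad S → S.card = n → (∑ i ∈ S, (i : ℕ)) = lmin n + i →
      ∃ r : ℝ, 0 < r ∧ ψ S = ((r : ℝ) : ℂ)

theorem exists_Can {n i : ℕ} (hQ : Q + 2 = 3 * n) (hi : i ≤ n) : ∃ ψ, Can Q n i ψ := by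
  obtain ⟨v, hv, h1⟩ := exists_ZS hQ i hi
  have h0 : v ≠ 0 := fun h0 => by rw [h0, norm_zero] at h1; exact zero_ne_one h1
  obtain ⟨S, hS, hc, hs, had⟩ := ZS_exists_ad (posM_nu0 Q) hv h0
  have hn : ‖v S‖ ≠ 0 := norm_ne_zero_iff.mpr hS
  refine ⟨(((‖v S‖ : ℝ) : ℂ) / v S) • v, (ZS _ _ _ _).smul_mem _ hv, ?_, ?_⟩
  · rw [norm_smul, norm_div, Complex.norm_real, norm_norm, div_self hn, one_mul, h1]
  · intro S' h2 h3 h4
    have : S' = S := ad_unique (by omega) h2 had h3 hc (h4.trans hs.symm)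
    subst this
    refine ⟨‖v S'‖, norm_pos_iff.mpr hS, ?_⟩
    show ((‖v S'‖ : ℝ) : ℂ) / v S' * v S' = _
    rw [div_mul_cancel₀ _ hS]

open Classical in
/-- the canonical vector (`0` if it does not exist) -/
noncomputable def st (Q n i : ℕ) : Fk (Fin (Q + 1)) :=
  if h : ∃ ψ, Can Q n i ψ then h.choose else 0

theorem st_can {n i : ℕ} (hQ : Q + 2 = 3 * n) (hi : i ≤ n) : Can Q n i (st Q n i) := by
  have h := exists_Can hQ hi
  unfold st
  rw [dif_pos h]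
  exact h.choose_spec

theorem st_mem {n i : ℕ} (hQ : Q + 2 = 3 * n) (hi : i ≤ n) :
    st Q n i ∈ ZS (nu0 Q) Q n (lmin n + i) := (st_can hQ hi).1

theorem norm_st {n i : ℕ} (hQ : Q + 2 = 3 * n) (hi : i ≤ n) : ‖st Q n i‖ = 1 := (st_can hQ hi).2.1

/-- the mean value of a one-body operator in a vector of a one-dimensional sector -/
theorem mean_congr_ZS {ν : ℕ → ℝ} (hν : PosM ν Q) {n M : ℕ} (hQ : Q + 2 ≤ 3 * n)
    {ψ φ : Fk (Fin (Q + 1))} (h : ψ ∈ ZS ν Q n M) (h1 : ‖ψ‖ = 1) (h' : φ ∈ ZS ν Q n M)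
    (h1' : ‖φ‖ = 1) (A : Op (Fin (Q + 1))) : mean A φ = mean A ψ := by
  have h0 : ψ ≠ 0 := fun h0 => by rw [h0, norm_zero] at h1; exact zero_ne_one h1
  obtain ⟨z, hz⟩ := ZS_smul hν hQ h h0 h'
  have hz1 : ‖z‖ = 1 := by
    rw [hz, norm_smul, h1, mul_one] at h1'
    exact h1'
  rw [hz, mean_smul, hz1, one_pow, one_mul]

/-! ### the metrics of the path in the notation of 596 -/

theorem tA_path (s : ℝ) : (fun k => s * tA k) = Step596.tA s := by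
  funext k
  unfold tA Step596.tA
  ring

theorem tB_path (s : ℝ) : (fun k => s * tB k) = Step596.tB s := by
  funext k
  fin_cases k
  · show s * (if (0 : Fin 3) = 0 then 1 / 2 else 0) = s / 2
    rw [if_pos rfl]; ring
  · show s * (if (1 : Fin 3) = 0 then 1 / 2 else 0) = 0
    rw [if_neg (by decide), mul_zero]
  · show s * (if (2 : Fin 3) = 0 then 1 / 2 else 0) = 0
    rw [if_neg (by decide), mul_zero]

theorem gmA (j : Fin (Q + 1)) : -2 * lwF tA Q j = gm 3 Q j := by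
  unfold lwF lw tA gm
  rw [Finset.mul_sum, ← Finset.sum_neg_distrib,
    ← Fin.sum_univ_eq_sum_range (fun k : ℕ => -Real.log ((Q : ℝ) - (j : ℕ) + k + 1)) 3]
  refine Finset.sum_congr rfl fun k _ => ?_
  rw [Nat.cast_sub (by omega : (j : ℕ) ≤ Q)]
  ring

theorem gmB (j : Fin (Q + 1)) : -2 * lwF tB Q j = gm 1 Q j := by
  unfold lwF lw tB gm
  rw [Fin.sum_univ_three, Finset.sum_range_one, Nat.cast_sub (by omega : (j : ℕ) ≤ Q)]
  simp only [Fin.isValue, if_true, Fin.val_zero, CharP.cast_eq_zero, add_zero, one_ne_zero,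
    if_false, zero_mul]
  rw [if_neg (by decide), zero_mul]
  ring

/-- covariance along the path, from the ring clustering -/
theorem cov_path_A {n M : ℕ} (hQ : Q + 2 ≤ 3 * n) {CG : ℝ} (hCG : 0 ≤ CG)
    (hG : ∀ t : Fin 3 → ℝ, Adm t → RC2 Q (Zn (nuT t Q) Q n) CG 20) (f : ℕ → ℝ) :
    ∀ s ∈ Set.Icc (0 : ℝ) 1, ∀ u ∈ ZS (nuT (fun k => s * tA k) Q) Q n M, ‖u‖ = 1 →
      |cov (dR fun j => -2 * lwF tA Q j) (dR fun j : Fin (Q + 1) => f j) u| ≤
        41 * 9 * CG * ∑ q ∈ range (Q - 1), |dd f q| * om Q q := by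
  intro s hs u hu hu1
  rw [tA_path] at hu
  have e : (fun j : Fin (Q + 1) => -2 * lwF tA Q j) = fun j : Fin (Q + 1) => gm 3 Q j :=
    funext gmA
  rw [e, cov_eq (posM_nuT _ Q) hQ hu hu1 (star_dR _) (dR_mem_Sc hu.2 _)]
  have h := cross_bd hCG (hG _ (PathStep880.adm_tA hs)) (ZS_le_Zn hu) hu1 (gm 3 Q) f
    (A := 9) (by norm_num) (fun p hp => by
      have := dd_gm_le' (b := 3) hp
      refine this.trans (le_of_eq ?_)
      push_cast
      norm_num)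
  exact (Complex.abs_re_le_norm _).trans h

theorem cov_path_B {n M : ℕ} (hQ : Q + 2 ≤ 3 * n) {CG : ℝ} (hCG : 0 ≤ CG)
    (hG : ∀ t : Fin 3 → ℝ, Adm t → RC2 Q (Zn (nuT t Q) Q n) CG 20) (f : ℕ → ℝ) :
    ∀ s ∈ Set.Icc (0 : ℝ) 1, ∀ u ∈ ZS (nuT (fun k => s * tB k) Q) Q n M, ‖u‖ = 1 →
      |cov (dR fun j => -2 * lwF tB Q j) (dR fun j : Fin (Q + 1) => f j) u| ≤
        41 * 3 * CG * ∑ q ∈ range (Q - 1), |dd f q| * om Q q := by
  intro s hs u hu hu1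
  rw [tB_path] at hu
  have e : (fun j : Fin (Q + 1) => -2 * lwF tB Q j) = fun j : Fin (Q + 1) => gm 1 Q j :=
    funext gmB
  rw [e, cov_eq (posM_nuT _ Q) hQ hu hu1 (star_dR _) (dR_mem_Sc hu.2 _)]
  have h := cross_bd hCG (hG _ (PathStep880.adm_tB hs)) (ZS_le_Zn hu) hu1 (gm 1 Q) f
    (A := 3) (by norm_num) (fun p hp => by
      have := dd_gm_le' (b := 1) hp
      refine this.trans (le_of_eq ?_)
      push_cast
      norm_num)
  exact (Complex.abs_re_le_norm _).trans h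

/-- the peel term -/
theorem cov_last {n M : ℕ} (hQ : Q + 2 ≤ 3 * n) (hQ1 : 1 ≤ Q) {CG : ℝ} (hCG : 0 ≤ CG)
    (hG : RC2 Q (Zn (nu0 Q) Q n) CG 20) (f : ℕ → ℝ) {ψ : Fk (Fin (Q + 1))}
    (hψ : ψ ∈ ZS (nu0 Q) Q n M) (h1 : ‖ψ‖ = 1) :
    |cov (d (Fin.last Q) * c (Fin.last Q)) (dR fun j : Fin (Q + 1) => f j) ψ| ≤
      41 * 9 * CG * ∑ q ∈ range (Q - 1), |dd f q| * om Q q := by
  have hst : star (d (Fin.last Q) * c (Fin.last Q) : Op (Fin (Q + 1))) =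
      d (Fin.last Q) * c (Fin.last Q) := by rw [star_mul, star_c, star_d]
  have hSc : (d (Fin.last Q) * c (Fin.last Q)) ψ ∈ Sc Q n M := by
    rw [d_mul_c]; exact diag_mem_Sc hψ.2 _
  rw [cov_eq (posM_nu0 Q) hQ hψ h1 hst hSc, mul_ap, n_last_eq hQ1]
  have h := cross_bd hCG hG (ZS_le_Zn hψ) h1 (kink (Q - 1)) f (A := 9) (by norm_num)
    (fun p hp => dd_kink_last hp)
  exact (Complex.abs_re_le_norm _).trans h

/-! ### sums -/

theorem sum_om_shift (f : ℕ → ℝ) {Q' N Q : ℕ} (hN : Q' - 1 ≤ N) {r : ℝ} (hr : 1 ≤ r)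
    (h : ∀ q < Q' - 1, q + 1 ≤ Q ∧ (Q : ℝ) - ((q + 1 : ℕ) : ℝ) + 1 ≤ r * ((Q' : ℝ) - q + 1)) :
    ∑ q ∈ range (Q' - 1), |dd f q| * om Q' q ≤
      r ^ 2 * ∑ j ∈ range N, |dd f j| * om Q (j + 1) := by
  rw [mul_sum]
  calc ∑ q ∈ range (Q' - 1), |dd f q| * om Q' q
      ≤ ∑ q ∈ range (Q' - 1), r ^ 2 * (|dd f q| * om Q (q + 1)) := by
        refine sum_le_sum fun q hq => ?_
        have hq' := mem_range.1 hq
        have h1 := om_le_of (Q' := Q') (q := q) (Q := Q) (p := q + 1) (by omega) (h q hq').1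
          (by omega) hr (h q hq').2
        calc |dd f q| * om Q' q ≤ |dd f q| * (r ^ 2 * om Q (q + 1)) :=
              mul_le_mul_of_nonneg_left h1 (abs_nonneg _)
          _ = _ := by ring
    _ ≤ ∑ q ∈ range N, r ^ 2 * (|dd f q| * om Q (q + 1)) := by
        refine sum_le_sum_of_subset_of_nonneg (range_subset_range.mpr hN) fun q _ _ => ?_
        have := PSD716.om_nonneg Q (q + 1)
        positivity

/-! ### the fields of `DataR` -/

/-- expectation of `dΓ(f)` in the one-hole state with `n+1` particles on flux `3n+1`, `k` particles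
inside the hole ring -/
noncomputable def ee1 (n k : ℕ) (f : ℕ → ℝ) : ℝ :=
  mean (dR fun j : Fin (3 * n + 1 + 1) => f j) (st (3 * n + 1) (n + 1) (n + 1 - k))

theorem dR_add' (f g : ℕ → ℝ) :
    (dR fun j : Fin (Q + 1) => f j + g j) =
      (dR fun j : Fin (Q + 1) => f j) + dR fun j : Fin (Q + 1) => g j := by
  unfold dR
  rw [← dG_add, Matrix.diagonal_add]
  congr 2
  funext j
  push_cast
  rfl

theorem mean_add_op {ι : Type*} [Fintype ι] [LinearOrder ι] (A B : Op ι) (ψ : Fk ι) :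
    mean (A + B) ψ = mean A ψ + mean B ψ := by
  unfold mean
  rw [add_ap, inner_add_right, Complex.add_re]

/-- literal inputs -/
structure Inp (κ CG : ℝ) (Qc : ℕ) : Prop where
  κpos : 0 < κ
  CGn : 0 ≤ CG
  G : ∀ Q : ℕ, Qc ≤ Q → ∀ t : Fin 3 → ℝ, Adm t → ∀ n, RC2 Q (Zn (nuT t Q) Q n) CG 20
  G0 : ∀ Q n : ℕ, ∀ ψ ∈ Zn (nu0 (Q + 1)) (Q + 1) n,
    (∀ φ ∈ Zn (nu0 (Q + 1)) (Q + 1) n, c (Fin.last (Q + 1)) φ = 0 → ⟪φ, ψ⟫_ℂ = 0) →
      κ * ‖ψ‖ ^ 2 ≤ ‖c (Fin.last (Q + 1)) ψ‖ ^ 2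

theorem Inp.G_round {κ CG : ℝ} {Qc : ℕ} (h : Inp κ CG Qc) {Q : ℕ} (hQ : Qc ≤ Q) (n : ℕ) :
    RC2 Q (Zn (nu0 Q) Q n) CG 20 := by
  have := h.G Q hQ (fun _ => 0) (fun _ => ⟨le_rfl, by norm_num⟩) n
  rwa [Step596.nuT_of_zero Q _ (fun _ => rfl)] at this

/-- constant in `DataR` -/
noncomputable def C1 (κ CG : ℝ) : ℝ := 41 * CG * (9 / κ + 25)

theorem C1_nonneg {κ CG : ℝ} (hκ : 0 < κ) (hG : 0 ≤ CG) : 0 ≤ C1 κ CG := by
  unfold C1; positivity

theorem As_gen {κ CG : ℝ} {Qc : ℕ} (h : Inp κ CG Qc) {n i : ℕ} (hQ : Q + 2 = 3 * n)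
    (hQc : Qc ≤ Q) (hi : i ≤ n) (f : ℕ → ℝ) :
    |mean (dR fun j : Fin (Q + 3 + 1) => f j) (st (Q + 3) (n + 1) (i + 1)) - f (Q + 3) -
      mean (dR fun j : Fin (Q + 1) => f j) (st Q n i)| ≤
      C1 κ CG * ∑ j ∈ range (Q + 2), |dd f j| * om (Q + 3) (j + 1) := by
  have hQ3 : Q + 3 + 2 = 3 * (n + 1) := by omega
  have hm1 := st_mem hQ3 (show i + 1 ≤ n + 1 by omega)
  have hn1 := norm_st hQ3 (show i + 1 ≤ n + 1 by omega)
  have hm2 := st_mem hQ hi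
  have hn2 := norm_st hQ hi
  have hκ := kappa_le h.G0 hQ hm1 hn1
  have e : lmin (n + 1) + (i + 1) = lmin n + i + (Q + 3) := by
    rw [lmin_succ]; omega
  have hm1' : st (Q + 3) (n + 1) (i + 1) ∈
      ZS (nu0 (Q + 3)) (Q + 3) (n + 1) (lmin n + i + (Q + 3)) := by rw [← e]; exact hm1
  have hδ := cov_last (Q := Q + 3) (by omega) (by omega) h.CGn (h.G_round (by omega) (n + 1)) f
    hm1 hn1
  have hε := cov_path_A (Q := Q) (n := n) (M := lmin n + i) (by omega) h.CGn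
    (fun t ht => h.G Q hQc t ht n) f
  have hA := A_step (by omega) f hm1' hm2 hn2 h.κpos hκ hδ hε
  refine hA.trans ?_
  have hs1 := sum_om_shift f (Q' := Q + 3) (N := Q + 2) (Q := Q + 3) (by omega) (r := 1) le_rfl
    (fun q hq => ⟨by omega, by push_cast; linarith⟩)
  have hs2 := sum_om_shift f (Q' := Q) (N := Q + 2) (Q := Q + 3) (by omega) (r := 5 / 3)
    (by norm_num) (fun q hq => ⟨by omega, by
      have : (q : ℝ) + 2 ≤ Q := by exact_mod_cast (by omega : q + 2 ≤ Q)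
      push_cast; linarith⟩)
  rw [one_pow, one_mul] at hs1
  set S := ∑ j ∈ range (Q + 2), |dd f j| * om (Q + 3) (j + 1) with hS
  have hS0 : 0 ≤ S := sum_nonneg fun j _ => mul_nonneg (abs_nonneg _) (PSD716.om_nonneg _ _)
  have hκ0 := h.κpos
  have hG0 := h.CGn
  have e1 : 41 * 9 * CG * (∑ q ∈ range (Q + 3 - 1), |dd f q| * om (Q + 3) q) / κ ≤
      41 * 9 * CG * S / κ := by gcongr
  have e2 : 41 * 9 * CG * (∑ q ∈ range (Q - 1), |dd f q| * om Q q) ≤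
      41 * 9 * CG * ((5 / 3) ^ 2 * S) := by gcongr
  have e3 : C1 κ CG * S = 41 * 9 * CG * S / κ + 41 * 9 * CG * ((5 / 3) ^ 2 * S) := by
    unfold C1
    field_simp
    ring
  rw [e3]
  exact add_le_add e1 e2

theorem Bs_gen {κ CG : ℝ} {Qc : ℕ} (h : Inp κ CG Qc) {n : ℕ} (hQ : Q + 3 = 3 * n)
    (hQc : Qc ≤ Q) (f : ℕ → ℝ) :
    |mean (dR fun j : Fin (Q + 1 + 1) => f j) (st (Q + 1) n 0) - cs f Q| ≤
      C1 κ CG * ∑ j ∈ range Q, |dd f j| * om (Q + 1) (j + 1) := by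
  have hQ1 : Q + 1 + 2 = 3 * n := by omega
  have hm1 := st_mem hQ1 (Nat.zero_le n)
  have hn1 := norm_st hQ1 (Nat.zero_le n)
  rw [add_zero] at hm1
  obtain ⟨Φ, hΦ⟩ := Vac467.exists_ref (posM_nu0 Q) (n := n) (by omega)
  have hΦm : Φ ∈ ZS (nu0 Q) Q n (lmin n) := ⟨hΦ.mem, Sec_iff.mp hΦ.sec⟩
  have h0 : c (Fin.last (Q + 1)) (st (Q + 1) n 0) = 0 :=
    Vac467.c_eq_zero (posM_nu0 (Q + 1)) hm1.1 (Sec_iff.mpr hm1.2) _ (by rw [Fin.val_last]; omega)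
  have hcmp : cmp (ee (Nat.le_succ Q)) (dR fun j : Fin (Q + 1 + 1) => f j) =
      dR fun j : Fin (Q + 1) => f j := by
    unfold dR
    rw [cmp_dG_diagonal]
    rfl
  have hε := cov_path_B (Q := Q) (n := n) (M := lmin n) (by omega) h.CGn
    (fun t ht => h.G Q hQc t ht n) f
  have hB := B_step (by omega) (dR fun j : Fin (Q + 1 + 1) => f j) (star_dR _) hm1 hn1 h0 hΦm
    hΦ.unit (ε := 41 * 3 * CG * ∑ q ∈ range (Q - 1), |dd f q| * om Q q)
    (fun s hs u hu hu1 => by rw [hcmp]; exact hε s hs u hu hu1)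
  rw [hcmp] at hB
  have hcs : mean (dR fun j : Fin (Q + 1) => f j) Φ = cs f Q := by
    have h2 := hΦ.dens_diag (by omega) (by omega) f
    unfold mean dR
    rw [h2, Complex.ofReal_re]
  rw [hcs] at hB
  refine hB.trans ?_
  have hs2 := sum_om_shift f (Q' := Q) (N := Q) (Q := Q + 1) (by omega) (r := 1)
    le_rfl (fun q hq => ⟨by omega, by push_cast; linarith⟩)
  rw [one_pow, one_mul] at hs2
  set S := ∑ j ∈ range Q, |dd f j| * om (Q + 1) (j + 1) with hS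
  have hS0 : 0 ≤ S := sum_nonneg fun j _ => mul_nonneg (abs_nonneg _) (PSD716.om_nonneg _ _)
  have hκ0 := h.κpos
  have hG0 := h.CGn
  calc 41 * 3 * CG * (∑ q ∈ range (Q - 1), |dd f q| * om Q q) ≤ 41 * 3 * CG * S := by gcongr
    _ ≤ C1 κ CG * S := by
        apply mul_le_mul_of_nonneg_right _ hS0
        unfold C1
        have : 0 ≤ 9 / κ := by positivity
        nlinarith

theorem dataR {κ CG : ℝ} {Qc : ℕ} (h : Inp κ CG Qc) {n0 : ℕ} (hn0 : Qc ≤ 3 * n0) :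
    K1rad716.DataR ee1 (C1 κ CG) n0 where
  add n k f g := by
    unfold ee1
    rw [dR_add', mean_add_op]
  congr n k f g hfg := by
    unfold ee1
    congr 2
    funext j
    exact hfg j (by omega)
  As n hn k hk f := by
    have h1 := As_gen (Q := 3 * n + 1) (n := n + 1) (i := n + 1 - k) h (by omega) (by omega)
      (by omega) f
    have e : n + 1 + 1 - k = n + 1 - k + 1 := by omega
    unfold ee1
    rw [e]
    exact h1
  Bs n hn f := by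
    have h1 := Bs_gen (Q := 3 * n) (n := n + 1) h (by omega) (by omega) f
    unfold ee1
    rw [Nat.sub_self]
    exact h1
  R n k hk f := by
    have hQ : 3 * n + 1 + 2 = 3 * (n + 1) := by omega
    have hm := st_mem hQ (show n + 1 - k ≤ n + 1 by omega)
    have hn := norm_st hQ (show n + 1 - k ≤ n + 1 by omega)
    have hm' := st_mem hQ (show n + 1 - (n + 1 - k) ≤ n + 1 by omega)
    have hn' := norm_st hQ (show n + 1 - (n + 1 - k) ≤ n + 1 by omega)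
    obtain ⟨φ, h1, h2, h3⟩ := Rev716.reflect hm
    have e : (n + 1) * (3 * n + 1) - (lmin (n + 1) + (n + 1 - k)) =
        lmin (n + 1) + (n + 1 - (n + 1 - k)) := by
      have := two_lmin (n + 1)
      rw [Nat.add_sub_cancel] at this
      have h5 : 2 * ((n + 1) * (3 * n + 1)) = 3 * ((n + 1) * n) * 2 + 2 * (n + 1) := by ring
      omega
    rw [e] at h1
    unfold ee1
    rw [h3 f]
    exact mean_congr_ZS (posM_nu0 _) (by omega) hm' hn' h1 (h2.trans hn) _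
  Dm n k hk f hf hanti := by
    have hQ : 3 * n + 1 + 2 = 3 * (n + 1) := by omega
    have hm := st_mem hQ (show n + 1 - k ≤ n + 1 by omega)
    have hn := norm_st hQ (show n + 1 - k ≤ n + 1 by omega)
    have h1 := DomF735.base_fock' (posM_nu0 (3 * n + 1)) hm.1 (n := n + 1)
      (fun S hS => (hm.2 S hS).1) hf hanti
    rw [hn, one_pow, mul_one, mul_one] at h1
    have e1 : (((3 * n + 1 : ℕ) : ℝ) + 3 - 3 * ((n + 1 : ℕ) : ℝ)) = 1 := by push_cast; ring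
    rw [e1, one_mul] at h1
    exact h1

end Crest.Agent.R340.K1in788
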