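import Crest.Agent.R340.K1inA_788
import Crest.Agent.R340.Peel_596

/-!
# R340, K = 1 inputs (helper788): normalised vectors along the path of geometries

* `hasDerivAt_nrm` : derivative of `f t / ‖f t‖`.
* `path_form` : quadratic form of `X` along a family `u m` with `u_m' = -(1/2) (A - a_m) u_m`.
* `GE l s` : `Gd (exp (s l))`, its derivative, and `nE l ψ s = GE l s ψ / ‖GE l s ψ‖`.
-/

set_option autoImplicit false
set_option linter.unusedSectionVars false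

namespace Crest.Agent.R340.K1in788

open Set Filter Topology Finset
open scoped InnerProductSpace ComplexConjugate
open Crest.Agent.R340.Fock649

section abstract_path

variable {E : Type*} [NormedAddCommGroup E] [InnerProductSpace ℂ E] [FiniteDimensional ℂ E]

theorem hasDerivAt_normsq {f : ℝ → E} {f' : E} {s : ℝ} (hf : HasDerivAt f f' s) :
    HasDerivAt (fun t => ‖f t‖ ^ 2) (2 * (⟪f s, f'⟫_ℂ).re) s := by
  have h := HasDerivAt.inner ℂ hf hf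
  have h2 : HasDerivAt (fun t => (⟪f t, f t⟫_ℂ).re) ((⟪f s, f'⟫_ℂ + ⟪f', f s⟫_ℂ).re) s :=
    (Complex.reCLM.hasFDerivAt).comp_hasDerivAt s h
  have e1 : (fun t => (⟪f t, f t⟫_ℂ).re) = fun t => ‖f t‖ ^ 2 := by
    funext t
    rw [inner_self_eq_norm_sq_to_K]
    norm_cast
  rw [e1] at h2
  convert h2 using 1
  rw [Complex.add_re, ← inner_conj_symm f' (f s), Complex.conj_re]
  ring

/-- the normalised vector -/
noncomputable def nrm (v : E) : E := ((‖v‖⁻¹ : ℝ) : ℂ) • v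

theorem norm_nrm {v : E} (hv : v ≠ 0) : ‖nrm v‖ = 1 := by
  unfold nrm
  rw [norm_smul, Complex.norm_real, Real.norm_of_nonneg (inv_nonneg.mpr (norm_nonneg _)),
    inv_mul_cancel₀ (norm_ne_zero_iff.mpr hv)]

theorem nrm_of_norm_one {v : E} (hv : ‖v‖ = 1) : nrm v = v := by
  unfold nrm; rw [hv]; simp

theorem hasDerivAt_nrm {f : ℝ → E} {f' : E} {s : ℝ} (hf : HasDerivAt f f' s) (h0 : f s ≠ 0) :
    HasDerivAt (fun t => nrm (f t))
      (((‖f s‖⁻¹ : ℝ) : ℂ) • (f' - (((⟪f s, f'⟫_ℂ).re / ‖f s‖ ^ 2 : ℝ) : ℂ) • f s)) s := by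
  have hn : 0 < ‖f s‖ := norm_pos_iff.mpr h0
  have h1 : HasDerivAt (fun t => ‖f t‖) ((⟪f s, f'⟫_ℂ).re / ‖f s‖) s := by
    have h2 := (hasDerivAt_normsq hf).sqrt (by positivity)
    have e : (fun t => √(‖f t‖ ^ 2)) = fun t => ‖f t‖ := by
      funext t; exact Real.sqrt_sq (norm_nonneg _)
    rw [e, Real.sqrt_sq hn.le] at h2
    convert h2 using 1
    field_simp
  have h3 : HasDerivAt (fun t => ((‖f t‖⁻¹ : ℝ) : ℂ))
      ((-((⟪f s, f'⟫_ℂ).re / ‖f s‖) / ‖f s‖ ^ 2 : ℝ) : ℂ) s := (h1.inv hn.ne').ofReal_comp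
  have h4 : HasDerivAt (fun t => nrm (f t)) _ s := h3.smul hf
  refine h4.congr_deriv ?_
  rw [smul_sub, smul_smul, sub_eq_add_neg, ← neg_smul]
  congr 2
  push_cast
  field_simp

/-- quadratic form along a family with `u_m' = -(1/2) (A - a_m) u_m`. -/
theorem path_form {κ : Type*} (J : Finset κ) (u : κ → ℝ → E) (A X : E →L[ℂ] E)
    (a : κ → ℝ → ℝ) (hX : ∀ x y, ⟪X x, y⟫_ℂ = ⟪x, X y⟫_ℂ) (α : κ → ℂ)
    (hu : ∀ m ∈ J, ∀ s ∈ Icc (0 : ℝ) 1,
      HasDerivAt (u m) (-(1 / 2 : ℂ) • (A (u m s) - ((a m s : ℝ) : ℂ) • u m s)) s)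
    {ε : ℝ} (hε : ∀ s ∈ Icc (0 : ℝ) 1,
      |(⟪∑ m ∈ J, α m • (A (u m s) - ((a m s : ℝ) : ℂ) • u m s),
        X (∑ m ∈ J, α m • u m s)⟫_ℂ).re| ≤ ε) :
    |(⟪∑ m ∈ J, α m • u m 1, X (∑ m ∈ J, α m • u m 1)⟫_ℂ).re -
      (⟪∑ m ∈ J, α m • u m 0, X (∑ m ∈ J, α m • u m 0)⟫_ℂ).re| ≤ ε := by
  set Ψ : ℝ → E := fun s => ∑ m ∈ J, α m • u m s with hΨ
  set W : ℝ → E := fun s => ∑ m ∈ J, α m • (A (u m s) - ((a m s : ℝ) : ℂ) • u m s) with hW
  have hΨd : ∀ s ∈ Icc (0 : ℝ) 1, HasDerivAt Ψ (-(1 / 2 : ℂ) • W s) s := by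
    intro s hs
    have h1 : HasDerivAt Ψ (∑ m ∈ J, α m • (-(1 / 2 : ℂ) •
        (A (u m s) - ((a m s : ℝ) : ℂ) • u m s))) s := by
      have := HasDerivAt.sum (u := J) (x := s) (A := fun m t => α m • u m t)
        (fun m hm => ((hu m hm s hs).const_smul (α m)))
      convert this using 1
      funext t
      simp only [hΨ, Finset.sum_apply]
    convert h1 using 1
    rw [hW, smul_sum]
    refine sum_congr rfl fun m _ => ?_
    rw [smul_comm]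
  have hq : ∀ s ∈ Icc (0 : ℝ) 1,
      HasDerivAt (fun t => (⟪Ψ t, X (Ψ t)⟫_ℂ).re) (-(⟪W s, X (Ψ s)⟫_ℂ).re) s := by
    intro s hs
    have h := Path924.hasDerivAt_form (hΨd s hs) (hasDerivAt_const s X) hX
    convert h using 1
    rw [inner_smul_left]
    have e : (starRingEnd ℂ) (-(1 / 2 : ℂ)) = ((-(1 / 2) : ℝ) : ℂ) := by
      rw [← Complex.conj_ofReal]; push_cast; rfl
    rw [e, Complex.re_ofReal_mul]
    simp
  have hmain := (convex_Icc (0 : ℝ) 1).norm_image_sub_le_of_norm_hasDerivWithin_le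
    (f := fun t => (⟪Ψ t, X (Ψ t)⟫_ℂ).re) (f' := fun s => -(⟪W s, X (Ψ s)⟫_ℂ).re) (C := ε)
    (fun s hs => (hq s hs).hasDerivWithinAt)
    (fun s hs => by rw [norm_neg, Real.norm_eq_abs]; exact hε s hs)
    (left_mem_Icc.mpr zero_le_one) (right_mem_Icc.mpr zero_le_one)
  rw [sub_zero, norm_one, mul_one, Real.norm_eq_abs] at hmain
  exact hmain

end abstract_path

/-! ### Fock side -/

section fock

variable {ι : Type*} [Fintype ι] [LinearOrder ι]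

/-- second quantisation of `exp (s l)` -/
noncomputable def GE (l : ι → ℝ) (s : ℝ) : Op ι :=
  diag fun S => ((Real.exp (s * ∑ i ∈ S, l i) : ℝ) : ℂ)

/-- `dΓ(l)` -/
noncomputable def dR (l : ι → ℝ) : Op ι := dG (Matrix.diagonal fun j => ((l j : ℝ) : ℂ))

theorem dR_eq (l : ι → ℝ) : dR l = diag fun S => ((∑ i ∈ S, l i : ℝ) : ℂ) := by
  unfold dR
  rw [dG_diagonal]
  congr 1
  funext S
  push_cast
  rfl

theorem dR_apply (l : ι → ℝ) (v : Fk ι) (T : Finset ι) :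
    dR l v T = ((∑ i ∈ T, l i : ℝ) : ℂ) * v T := by
  rw [dR_eq, diag_apply]

theorem GE_apply (l : ι → ℝ) (s : ℝ) (v : Fk ι) (T : Finset ι) :
    GE l s v T = ((Real.exp (s * ∑ i ∈ T, l i) : ℝ) : ℂ) * v T := diag_apply _ _ _

theorem GE_zero (l : ι → ℝ) (v : Fk ι) : GE l 0 v = v := by
  ext T
  rw [GE_apply]; simp

theorem GE_eq_Gd (l : ι → ℝ) (s : ℝ) :
    GE l s = Gd (fun j => ((Real.exp (s * l j) : ℝ) : ℂ)) := by
  unfold GE Gd
  congr 1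
  funext S
  rw [mul_sum, Real.exp_sum]
  push_cast
  rfl

theorem hasDerivAt_GE (l : ι → ℝ) (ψ : Fk ι) (s : ℝ) :
    HasDerivAt (fun t => GE l t ψ) (dR l (GE l s ψ)) s := by
  have e1 : ∀ t, GE l t ψ = ∑ S : Finset ι,
      ((Real.exp (t * ∑ i ∈ S, l i) : ℝ) : ℂ) • (ψ S • ket S) := by
    intro t
    conv_lhs => rw [fk_eq_sum (GE l t ψ)]
    refine sum_congr rfl fun S _ => ?_
    rw [GE_apply, smul_smul]
  have e2 : dR l (GE l s ψ) = ∑ S : Finset ι,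
      (((Real.exp (s * ∑ i ∈ S, l i) * (∑ i ∈ S, l i)) : ℝ) : ℂ) • (ψ S • ket S) := by
    conv_lhs => rw [fk_eq_sum (dR l (GE l s ψ))]
    refine sum_congr rfl fun S _ => ?_
    rw [dR_apply, GE_apply, smul_smul]
    congr 1
    push_cast
    ring
  have e3 : (fun t => GE l t ψ) = ∑ S : Finset ι, fun t : ℝ =>
      ((Real.exp (t * ∑ i ∈ S, l i) : ℝ) : ℂ) • (ψ S • (ket S : Fk ι)) := by
    funext t
    rw [e1 t, Finset.sum_apply]
  rw [e3, e2]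
  refine HasDerivAt.sum fun S _ => ?_
  have h1 : HasDerivAt (fun t : ℝ => t * ∑ i ∈ S, l i) (∑ i ∈ S, l i) s := by
    simpa using (hasDerivAt_id s).mul_const (∑ i ∈ S, l i)
  exact (h1.exp.ofReal_comp).smul_const _

theorem GE_ne_zero (l : ι → ℝ) (s : ℝ) {ψ : Fk ι} (h : ψ ≠ 0) : GE l s ψ ≠ 0 := by
  intro hc
  refine h ?_
  ext T
  have h1 := congrArg (fun v : Fk ι => v T) hc
  simp only [GE_apply] at h1
  have h2 : ((Real.exp (s * ∑ i ∈ T, l i) : ℝ) : ℂ) ≠ 0 := by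
    rw [Complex.ofReal_ne_zero]; exact (Real.exp_pos _).ne'
  have h3 : (0 : Fk ι) T = 0 := rfl
  rw [h3] at h1
  exact (mul_eq_zero.mp h1).resolve_left h2

/-- normalised transported vector -/
noncomputable def nE (l : ι → ℝ) (ψ : Fk ι) (s : ℝ) : Fk ι := nrm (GE l s ψ)

theorem norm_nE (l : ι → ℝ) (s : ℝ) {ψ : Fk ι} (h : ψ ≠ 0) : ‖nE l ψ s‖ = 1 :=
  norm_nrm (GE_ne_zero l s h)

theorem nE_zero (l : ι → ℝ) {ψ : Fk ι} (h : ‖ψ‖ = 1) : nE l ψ 0 = ψ := by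
  unfold nE; rw [GE_zero, nrm_of_norm_one h]

/-- mean value of an observable -/
noncomputable def mean (A : Op ι) (ψ : Fk ι) : ℝ := (⟪ψ, A ψ⟫_ℂ).re

theorem smul_ap_right (A : Op ι) (z : ℂ) (v : Fk ι) : A (z • v) = z • A v := map_smul A.ap z v

theorem hasDerivAt_nE (l : ι → ℝ) {ψ : Fk ι} (h : ψ ≠ 0) (s : ℝ) :
    HasDerivAt (nE l ψ)
      (dR l (nE l ψ s) - ((mean (dR l) (nE l ψ s) : ℝ) : ℂ) • nE l ψ s) s := by
  have h1 : HasDerivAt (nE l ψ) _ s := hasDerivAt_nrm (hasDerivAt_GE l ψ s) (GE_ne_zero l s h)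
  refine h1.congr_deriv ?_
  have e1 : mean (dR l) (nE l ψ s) =
      (⟪GE l s ψ, dR l (GE l s ψ)⟫_ℂ).re / ‖GE l s ψ‖ ^ 2 := by
    unfold mean nE nrm
    rw [smul_ap_right, inner_smul_left, inner_smul_right, Complex.conj_ofReal,
      Complex.re_ofReal_mul, Complex.re_ofReal_mul]
    field_simp
  rw [e1]
  unfold nE nrm
  rw [smul_ap_right, smul_sub, smul_comm (((‖GE l s ψ‖⁻¹ : ℝ) : ℂ))
    (((⟪GE l s ψ, dR l (GE l s ψ)⟫_ℂ).re / ‖GE l s ψ‖ ^ 2 : ℝ) : ℂ)]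

end fock

end Crest.Agent.R340.K1in788
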