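import Crest.Agent.R340.K1dec_716

/-!
# R340 / S0532: the one-hole sector, plug (helper716)

`hone_of`: the hypothesis `hone` of `Weak716.weak_red` from the radial bound and the bound on the
form of `X` on the one-hole lines.
-/

set_option autoImplicit false
set_option linter.unusedSectionVars false
open scoped InnerProductSpace ComplexConjugate

namespace Crest.Agent.R340.K1plug716

open Finset
open Crest.Agent.R340.Fock649 Crest.Agent.R340.Emb596 Crest.Agent.R340.Geo986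
  Crest.Agent.R340.Peel596 Crest.Agent.R340.Step596
open Crest.Agent.R340.Scal725 Crest.Agent.R340.DomF735 Crest.Agent.R340.DomG735
open Crest.Agent.R340.Weak716 Crest.Agent.R340.K1dec716

variable {ψ : (n k : ℕ) → Fk (Fin (3 * n + 1 + 1))}

theorem hone_of (h : K1B ψ) {a R C CX x : ℝ} (hR : 1 ≤ R) (ha0 : 0 < a) (ha1 : a ≤ 1 / 100)
    (n : ℕ)
    (hrad : ∀ k ≤ n + 1, (1 - 1 / 40) * prof a R (3 * k) ≤
      3 * (cs (prof a R) (3 * n + 1) - en ψ n k (prof a R)))
    (X : Op (Fin (3 * n + 1 + 1))) (hCX : 0 ≤ CX)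
    (hq : ∀ α : ℕ → ℂ, (⟪∑ k ∈ range (n + 2), α k • ψ n k,
        X (∑ k ∈ range (n + 2), α k • ψ n k)⟫_ℂ).re - x * ∑ m ∈ range (n + 2), ‖α m‖ ^ 2 ≤
      ∑ m ∈ range (n + 2), (CX / (m + 1)) * ‖α m‖ ^ 2)
    (hC0 : 0 ≤ C) (hC : 160 * CX ≤ C) :
    LB (nu0 (3 * n + 1)) (3 * n + 1) (n + 1) (DW C (prof a R) x (3 * n + 1) X)
      (9 / 10 * C * prof a R (3 * n + 1)) := by
  intro φ hφ
  obtain ⟨α, hα⟩ := h.span n φ hφ
  have h1 := K1725.K1_final (a := a) (R := R) hR ha0.le (by linarith) (n + 1)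
    (fun k => 3 * (cs (prof a R) (3 * n + 1) - en ψ n k (prof a R)))
    (fun α => x * ∑ m ∈ range (n + 1 + 1), ‖α m‖ ^ 2 +
      ∑ m ∈ range (n + 1 + 1), (CX / (m + 1)) * ‖α m‖ ^ 2) x (1 / 40) (19 / 20) CX C hCX hrad
    (fun α => by
      rw [add_sub_cancel_left, abs_of_nonneg]
      exact sum_nonneg fun m _ => by positivity) hC0
    (by linarith) α
  have hq' := hq α
  have h2 := hf_sum h n (prof a R) α
  have h3 := norm_sq_sum h n α
  rw [← hα] at h2 h3
  rw [re_inner_DW]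
  have hR0 : 0 ≤ R := by linarith
  have haR : a < R + 1 := by linarith
  have hanti := prof_antitone hR0 ha0.le haR
  -- comparison of the profiles
  have hp : 9 / 10 * prof a R (3 * n + 1) ≤ 19 / 20 * prof a R (3 * n + 3) := by
    have h4 := K1rad716.prof_sub_succ_le hR ha0 (by linarith : a ≤ 1 / 4) (3 * n + 1)
    have h5 := K1rad716.prof_sub_succ_le hR ha0 (by linarith : a ≤ 1 / 4) (3 * n + 2)
    have p1 := prof_pos hR0 haR (3 * n + 1)
    have p2 := prof_pos hR0 haR (3 * n + 2)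
    have m1 : prof a R (3 * n + 2) ≤ prof a R (3 * n + 1) := hanti (by omega)
    have m2 : prof a R (3 * n + 3) ≤ prof a R (3 * n + 2) := hanti (by omega)
    have e1 : prof a R (3 * n + 1 + 1) = prof a R (3 * n + 2) := rfl
    have e2 : prof a R (3 * n + 2 + 1) = prof a R (3 * n + 3) := rfl
    rw [e1] at h4
    rw [e2] at h5
    have c1 : (1 : ℝ) ≤ ((3 * n + 1 : ℕ) : ℝ) + 1 := by
      have : (0 : ℝ) ≤ ((3 * n + 1 : ℕ) : ℝ) := Nat.cast_nonneg _
      linarith
    have c2 : (1 : ℝ) ≤ ((3 * n + 2 : ℕ) : ℝ) + 1 := by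
      have : (0 : ℝ) ≤ ((3 * n + 2 : ℕ) : ℝ) := Nat.cast_nonneg _
      linarith
    have d1 : prof a R (3 * n + 1) - prof a R (3 * n + 2) ≤ 1 / 100 * prof a R (3 * n + 1) := by
      have : 1 * (prof a R (3 * n + 1) - prof a R (3 * n + 2)) ≤
          (((3 * n + 1 : ℕ) : ℝ) + 1) * (prof a R (3 * n + 1) - prof a R (3 * n + 2)) :=
        mul_le_mul_of_nonneg_right c1 (by linarith)
      have : a * prof a R (3 * n + 1) ≤ 1 / 100 * prof a R (3 * n + 1) :=
        mul_le_mul_of_nonneg_right ha1 p1.le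
      linarith
    have d2 : prof a R (3 * n + 2) - prof a R (3 * n + 3) ≤ 1 / 100 * prof a R (3 * n + 2) := by
      have : 1 * (prof a R (3 * n + 2) - prof a R (3 * n + 3)) ≤
          (((3 * n + 2 : ℕ) : ℝ) + 1) * (prof a R (3 * n + 2) - prof a R (3 * n + 3)) :=
        mul_le_mul_of_nonneg_right c2 (by linarith)
      have : a * prof a R (3 * n + 2) ≤ 1 / 100 * prof a R (3 * n + 2) :=
        mul_le_mul_of_nonneg_right ha1 p2.le
      linarith
    linarith
  have h6 : 19 / 20 * C * (prof a R (3 * n + 3) * ‖φ‖ ^ 2) ≤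
      19 / 20 * C * ∑ m ∈ range (n + 2), prof a R (3 * m) * ‖α m‖ ^ 2 := by
    apply mul_le_mul_of_nonneg_left _ (by linarith)
    rw [h3, mul_sum]
    refine sum_le_sum fun m hm => mul_le_mul_of_nonneg_right (hanti ?_) (sq_nonneg _)
    have := mem_range.1 hm
    omega
  have h7 : 9 / 10 * C * prof a R (3 * n + 1) * ‖φ‖ ^ 2 ≤
      19 / 20 * C * (prof a R (3 * n + 3) * ‖φ‖ ^ 2) := by
    have := mul_le_mul_of_nonneg_left hp hC0
    have := mul_le_mul_of_nonneg_right this (sq_nonneg ‖φ‖)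
    linarith
  rw [← hα, ← h3] at hq'
  have e : n + 1 + 1 = n + 2 := rfl
  simp only [e] at h1
  rw [h2]
  linarith

end Crest.Agent.R340.K1plug716
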