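import Mathlib

set_option autoImplicit false
open scoped BigOperators
open Finset

namespace Crest.Agent.R340.Pl249

section defs
variable {R : Type*} [CommRing R]

/-- Multiplication of a coefficient array by `α x + β y`. -/
def sh (α β : R) (f : ℕ → ℕ → R) (q k : ℕ) : R :=
  (if q = 0 then 0 else α * f (q - 1) k) + (if k = 0 then 0 else β * f q (k - 1))

/-- Coefficient array of `(α x + y)^K (x - y)^m`. -/
def kap (α : R) (m : ℕ) : ℕ → ℕ → ℕ → R
  | 0 => Nat.rec (fun q k => if q = 0 ∧ k = 0 then 1 else 0) (fun _ f => sh 1 (-1) f) m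
  | K + 1 => sh α 1 (kap α m K)

/-- Derivation `∂x + ∂y` on coefficient arrays. -/
def dd (f : ℕ → ℕ → R) (q k : ℕ) : R := (q + 1) * f (q + 1) k + (k + 1) * f q (k + 1)

@[simp] theorem sh_zero_zero (α β : R) (f : ℕ → ℕ → R) : sh α β f 0 0 = 0 := by simp [sh]
@[simp] theorem sh_zero_succ (α β : R) (f : ℕ → ℕ → R) (k : ℕ) :
    sh α β f 0 (k + 1) = β * f 0 k := by simp [sh]
@[simp] theorem sh_succ_zero (α β : R) (f : ℕ → ℕ → R) (q : ℕ) :
    sh α β f (q + 1) 0 = α * f q 0 := by simp [sh]
@[simp] theorem sh_succ_succ (α β : R) (f : ℕ → ℕ → R) (q k : ℕ) :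
    sh α β f (q + 1) (k + 1) = α * f q (k + 1) + β * f (q + 1) k := by simp [sh]

theorem kap_zero_zero (α : R) (q k : ℕ) : kap α 0 0 q k = if q = 0 ∧ k = 0 then 1 else 0 := rfl
theorem kap_succ_zero (α : R) (m : ℕ) : kap α (m + 1) 0 = sh 1 (-1) (kap α m 0) := rfl
theorem kap_succ (α : R) (m K : ℕ) : kap α m (K + 1) = sh α 1 (kap α m K) := rfl

theorem dd_sh (α β : R) (f : ℕ → ℕ → R) (q k : ℕ) :
    dd (sh α β f) q k = (α + β) * f q k + sh α β (dd f) q k := by
  unfold dd
  rcases q with _ | q <;> rcases k with _ | k <;> simp [sh] <;> ring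

theorem dd_kap_zero (α : R) (m : ℕ) (q k : ℕ) : dd (kap α m 0) q k = 0 := by
  induction m generalizing q k with
  | zero => simp [dd, kap_zero_zero]
  | succ m ih =>
    rw [kap_succ_zero, dd_sh]
    have : sh (1 : R) (-1) (dd (kap α m 0)) q k = 0 := by
      unfold sh
      simp [ih]
    rw [this]; ring

theorem sh_smul (α β r : R) (f : ℕ → ℕ → R) (q k : ℕ) :
    sh α β (fun a b => r * f a b) q k = r * sh α β f q k := by
  unfold sh
  split_ifs <;> ring

theorem dd_kap_succ (α : R) (m K : ℕ) (q k : ℕ) :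
    dd (kap α m (K + 1)) q k = (K + 1) * (α + 1) * kap α m K q k := by
  induction K generalizing q k with
  | zero =>
    rw [kap_succ, dd_sh]
    have : sh α 1 (dd (kap α m 0)) q k = 0 := by
      unfold sh
      simp [dd_kap_zero]
    rw [this]; simp
  | succ K ih =>
    rw [kap_succ, dd_sh]
    have h1 : dd (kap α m (K + 1)) = fun q k => ((K + 1 : R) * (α + 1)) * kap α m K q k := by
      funext q k; exact ih q k
    rw [h1, sh_smul, ← kap_succ]
    push_cast
    ring

/-- `kap` is supported on total degree `m + K`. -/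
theorem sh_supp (α β : R) (f : ℕ → ℕ → R) (T : ℕ) (hf : ∀ q k, q + k ≠ T → f q k = 0)
    (q k : ℕ) (h : q + k ≠ T + 1) : sh α β f q k = 0 := by
  unfold sh
  rcases q with _ | q <;> rcases k with _ | k
  · simp
  · simp [hf 0 k (by omega)]
  · simp [hf q 0 (by omega)]
  · have h1 := hf q (k + 1) (by omega)
    have h2 := hf (q + 1) k (by omega)
    simp [h1, h2]

theorem kap_supp (α : R) (m K : ℕ) (q k : ℕ) (h : q + k ≠ m + K) : kap α m K q k = 0 := by
  induction K generalizing q k with
  | zero =>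
    induction m generalizing q k with
    | zero =>
      rw [kap_zero_zero]
      rw [if_neg]; omega
    | succ m ih =>
      rw [kap_succ_zero]
      exact sh_supp 1 (-1) _ m (fun q k hqk => ih q k (by omega)) q k (by omega)
  | succ K ih =>
    rw [kap_succ]
    exact sh_supp α 1 _ (m + K) (fun q k hqk => ih q k hqk) q k (by omega)

/-- Point evaluation at `(1, -α)` of the degree `T` part. -/
def ev (α : R) (T : ℕ) (f : ℕ → ℕ → R) : R := ∑ q ∈ range (T + 1), (-α) ^ (T - q) * f q (T - q)

theorem ev_sh (a α β : R) (T : ℕ) (f : ℕ → ℕ → R) :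
    ev a (T + 1) (sh α β f) = (α - β * a) * ev a T f := by
  unfold ev sh
  have h1 : ∑ q ∈ range (T + 1 + 1), (-a) ^ (T + 1 - q) *
      (if q = 0 then 0 else α * f (q - 1) (T + 1 - q)) =
      α * ∑ q ∈ range (T + 1), (-a) ^ (T - q) * f q (T - q) := by
    rw [Finset.sum_range_succ', Finset.mul_sum]
    simp only [Nat.add_sub_cancel, Nat.succ_ne_zero, if_false, Nat.add_sub_add_right, if_true,
      mul_zero, add_zero]
    refine Finset.sum_congr rfl fun q _ => ?_
    ring
  have h2 : ∑ q ∈ range (T + 1 + 1), (-a) ^ (T + 1 - q) *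
      (if T + 1 - q = 0 then 0 else β * f q (T + 1 - q - 1)) =
      -(β * a) * ∑ q ∈ range (T + 1), (-a) ^ (T - q) * f q (T - q) := by
    rw [Finset.sum_range_succ, Finset.mul_sum]
    simp only [Nat.sub_self, if_true, mul_zero, add_zero]
    refine Finset.sum_congr rfl fun q hq => ?_
    have hq' : q ≤ T := by simpa [Nat.lt_succ_iff] using hq
    have e1 : T + 1 - q = (T - q) + 1 := by omega
    rw [e1, if_neg (Nat.succ_ne_zero _), Nat.add_sub_cancel, pow_succ]
    ring
  simp only [mul_add, Finset.sum_add_distrib]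
  rw [h1, h2]
  ring

theorem ev_kap_zero (α : R) (m : ℕ) : ev α m (kap α m 0) = (α + 1) ^ m := by
  induction m with
  | zero => simp [ev, kap_zero_zero]
  | succ m ih =>
    rw [kap_succ_zero, ev_sh, ih, pow_succ]
    ring

theorem ev_kap_succ (α : R) (m K : ℕ) : ev α (m + K + 1) (kap α m (K + 1)) = 0 := by
  rw [kap_succ, ev_sh]
  ring

end defs

/-- Translation relations for real planar correlators. -/
structure Rel (α c : ℝ) (G : ℕ → ℕ → ℕ → ℕ → ℝ) : Prop where
  sym : ∀ q k q' j : ℕ, G q k q' j = G q' j q k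
  wt : ∀ q k q' j : ℕ, q + k ≠ q' + j → G q k q' j = 0
  tr : ∀ q k q' j : ℕ, ((q : ℝ) + 1) * G (q + 1) k q' j + (k + 1) * G q (k + 1) q' j =
    c * sh α 1 (G q k) q' j

/-- The channel weights. -/
noncomputable def gam (α : ℝ) (G : ℕ → ℕ → ℕ → ℕ → ℝ) (m : ℕ) : ℝ :=
  ev α m (fun q k => ev α m (G q k)) / ((α + 1) ^ m) ^ 2

/-- Coefficient of the channel expansion. -/
noncomputable def co (α c : ℝ) (K : ℕ) : ℝ := c ^ K / ((α + 1) ^ K * (K.factorial : ℝ))

theorem co_succ (α c : ℝ) (hα : α + 1 ≠ 0) (K : ℕ) :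
    (K + 1 : ℝ) * (α + 1) * co α c (K + 1) = c * co α c K := by
  unfold co
  have h1 : ((K.factorial : ℕ) : ℝ) ≠ 0 := by exact_mod_cast Nat.factorial_ne_zero K
  have h2 : ((K : ℝ) + 1) ≠ 0 := by positivity
  rw [Nat.factorial_succ]
  push_cast
  field_simp
  ring

/-- Right-hand side of the channel expansion. -/
noncomputable def rhs (α c : ℝ) (g : ℕ → ℝ) (q k q' j : ℕ) : ℝ :=
  if q + k = q' + j then
    ∑ m ∈ range (q + k + 1), g m * kap α m (q + k - m) q k * kap α m (q + k - m) q' j *
      co α c (q + k - m)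
  else 0

theorem sh_add_fun (α β : ℝ) (f g : ℕ → ℕ → ℝ) (q k : ℕ) :
    sh α β (fun a b => f a b + g a b) q k = sh α β f q k + sh α β g q k := by
  unfold sh; split_ifs <;> ring

theorem sh_sub_fun (α β : ℝ) (f g : ℕ → ℕ → ℝ) (q k : ℕ) :
    sh α β (fun a b => f a b - g a b) q k = sh α β f q k - sh α β g q k := by
  unfold sh; split_ifs <;> ring

theorem sh_sum (α β : ℝ) {ι : Type*} (s : Finset ι) (f : ι → ℕ → ℕ → ℝ) (q k : ℕ) :
    sh α β (fun a b => ∑ i ∈ s, f i a b) q k = ∑ i ∈ s, sh α β (f i) q k := by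
  classical
  induction s using Finset.induction_on with
  | empty => simp [sh]
  | insert i s hi ih =>
    rw [Finset.sum_insert hi, ← ih, ← sh_add_fun]
    congr 1
    funext a b
    rw [Finset.sum_insert hi]

theorem sh_congr (α β : ℝ) (f g : ℕ → ℕ → ℝ) (T : ℕ) (q k : ℕ) (hT : q + k = T + 1)
    (h : ∀ a b, a + b = T → f a b = g a b) : sh α β f q k = sh α β g q k := by
  unfold sh
  rcases q with _ | q <;> rcases k with _ | k
  · simp
  · simp [h 0 k (by omega)]
  · simp [h q 0 (by omega)]
  · simp [h q (k + 1) (by omega), h (q + 1) k (by omega)]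

theorem rhs_rel (α c : ℝ) (hα : α + 1 ≠ 0) (g : ℕ → ℝ) : Rel α c (rhs α c g) := by
  refine ⟨?_, ?_, ?_⟩
  · intro q k q' j
    unfold rhs
    by_cases h : q + k = q' + j
    · rw [if_pos h, if_pos h.symm, h]
      refine Finset.sum_congr rfl fun m _ => ?_
      ring
    · rw [if_neg h, if_neg (fun h' => h h'.symm)]
  · intro q k q' j h
    unfold rhs
    rw [if_neg h]
  · intro q k q' j
    by_cases h : q + k + 1 = q' + j
    · have hsh : sh α 1 (rhs α c g q k) q' j = ∑ m ∈ range (q + k + 1),
          g m * kap α m (q + k - m) q k * co α c (q + k - m) * kap α m (q + k - m + 1) q' j := by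
        rw [sh_congr α 1 (rhs α c g q k) (fun a b => ∑ m ∈ range (q + k + 1),
          (g m * kap α m (q + k - m) q k * co α c (q + k - m)) * kap α m (q + k - m) a b)
          (q + k) q' j (by omega)]
        · rw [sh_sum]
          refine Finset.sum_congr rfl fun m _ => ?_
          rw [sh_smul, kap_succ]
        · intro a b hab
          unfold rhs
          rw [if_pos hab.symm]
          refine Finset.sum_congr rfl fun m _ => ?_
          ring
      rw [hsh]
      have e1 : rhs α c g (q + 1) k q' j = ∑ m ∈ range (q + k + 1 + 1),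
          g m * kap α m (q + k + 1 - m) (q + 1) k * kap α m (q + k + 1 - m) q' j *
            co α c (q + k + 1 - m) := by
        unfold rhs
        rw [if_pos (by omega)]
        have : q + 1 + k = q + k + 1 := by omega
        rw [this]
      have e2 : rhs α c g q (k + 1) q' j = ∑ m ∈ range (q + k + 1 + 1),
          g m * kap α m (q + k + 1 - m) q (k + 1) * kap α m (q + k + 1 - m) q' j *
            co α c (q + k + 1 - m) := by
        unfold rhs
        rw [if_pos (by omega)]
        have : q + (k + 1) = q + k + 1 := by omega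
        rw [this]
      rw [e1, e2, Finset.mul_sum, Finset.mul_sum, ← Finset.sum_add_distrib]
      have e3 : ∀ m, (q + 1 : ℝ) * (g m * kap α m (q + k + 1 - m) (q + 1) k *
          kap α m (q + k + 1 - m) q' j * co α c (q + k + 1 - m)) +
          (k + 1) * (g m * kap α m (q + k + 1 - m) q (k + 1) *
          kap α m (q + k + 1 - m) q' j * co α c (q + k + 1 - m)) =
          g m * dd (kap α m (q + k + 1 - m)) q k * kap α m (q + k + 1 - m) q' j *
            co α c (q + k + 1 - m) := by
        intro m; unfold dd; ring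
      rw [Finset.sum_congr rfl fun m _ => e3 m, Finset.sum_range_succ]
      have e4 : dd (kap α (q + k + 1) (q + k + 1 - (q + k + 1))) q k = 0 := by
        rw [Nat.sub_self]; exact dd_kap_zero α _ q k
      rw [e4, mul_zero, zero_mul, zero_mul, add_zero, Finset.mul_sum]
      refine Finset.sum_congr rfl fun m hm => ?_
      have hm' : m ≤ q + k := by simpa [Nat.lt_succ_iff] using hm
      have e5 : q + k + 1 - m = (q + k - m) + 1 := by omega
      rw [e5, dd_kap_succ]
      have e6 := co_succ α c hα (q + k - m)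
      calc g m * (((q + k - m : ℕ) + 1 : ℝ) * (α + 1) * kap α m (q + k - m) q k) *
            kap α m (q + k - m + 1) q' j * co α c (q + k - m + 1)
          = g m * kap α m (q + k - m) q k * kap α m (q + k - m + 1) q' j *
            ((((q + k - m : ℕ) + 1 : ℝ)) * (α + 1) * co α c (q + k - m + 1)) := by ring
        _ = g m * kap α m (q + k - m) q k * kap α m (q + k - m + 1) q' j *
            (c * co α c (q + k - m)) := by rw [e6]
        _ = c * (g m * kap α m (q + k - m) q k * co α c (q + k - m) *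
            kap α m (q + k - m + 1) q' j) := by ring
    · have h1 : rhs α c g (q + 1) k q' j = 0 := by unfold rhs; rw [if_neg (by omega)]
      have h2 : rhs α c g q (k + 1) q' j = 0 := by unfold rhs; rw [if_neg (by omega)]
      have h3 : sh α 1 (rhs α c g q k) q' j = 0 := by
        unfold sh
        have a1 : q' ≠ 0 → rhs α c g q k (q' - 1) j = 0 := by
          intro hq; unfold rhs; rw [if_neg (by omega)]
        have a2 : j ≠ 0 → rhs α c g q k q' (j - 1) = 0 := by
          intro hq; unfold rhs; rw [if_neg (by omega)]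
        split_ifs with b1 b2 b2
        · ring
        · rw [a2 b2]; ring
        · rw [a1 b1]; ring
        · rw [a1 b1, a2 b2]; ring
      rw [h1, h2, h3]; ring

theorem Rel.sub {α c : ℝ} {G G' : ℕ → ℕ → ℕ → ℕ → ℝ} (h : Rel α c G) (h' : Rel α c G') :
    Rel α c (fun q k q' j => G q k q' j - G' q k q' j) := by
  refine ⟨?_, ?_, ?_⟩
  · intro q k q' j; rw [h.sym, h'.sym]
  · intro q k q' j hw; rw [h.wt _ _ _ _ hw, h'.wt _ _ _ _ hw]; ring
  · intro q k q' j
    have a1 := h.tr q k q' j
    have a2 := h'.tr q k q' j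
    rw [sh_sub_fun]
    linear_combination a1 - a2

/-- Alternating structure of a solution all of whose lower weights vanish. -/
theorem Rel.alt {α c : ℝ} {E : ℕ → ℕ → ℕ → ℕ → ℝ} (h : Rel α c E) (T : ℕ)
    (hlow : ∀ q k q' j, q + k < T → E q k q' j = 0) (q' j : ℕ) :
    ∀ q, q ≤ T → E q (T - q) q' j = (-1) ^ q * (T.choose q : ℝ) * E 0 T q' j := by
  intro q
  induction q with
  | zero => intro _; simp
  | succ q ih =>
    intro hq
    have ih' := ih (by omega)
    have e1 : T - q = (T - (q + 1)) + 1 := by omega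
    have htr := h.tr q (T - (q + 1)) q' j
    have hz : sh α 1 (E q (T - (q + 1))) q' j = 0 := by
      unfold sh
      have : ∀ a b, E q (T - (q + 1)) a b = 0 := fun a b => hlow _ _ _ _ (by omega)
      simp [this]
    rw [hz, mul_zero, ← e1, ih'] at htr
    have hch : ((T.choose (q + 1) : ℕ) : ℝ) * (q + 1) = (T.choose q : ℝ) * ((T - q : ℕ) : ℝ) := by
      exact_mod_cast Nat.choose_succ_right_eq T q
    have hk : ((T - (q + 1) : ℕ) : ℝ) + 1 = ((T - q : ℕ) : ℝ) := by
      rw [e1]; push_cast; ring
    rw [hk] at htr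
    have hq1 : (q + 1 : ℝ) ≠ 0 := by positivity
    apply mul_left_cancel₀ hq1
    rw [pow_succ]
    linear_combination htr + (-1 : ℝ) ^ q * E 0 T q' j * hch

theorem ev_alt (α : ℝ) (T : ℕ) (f : ℕ → ℕ → ℝ) (e : ℝ)
    (h : ∀ q, q ≤ T → f q (T - q) = (-1) ^ q * (T.choose q : ℝ) * e) :
    ev α T f = (-1) ^ T * (α + 1) ^ T * e := by
  unfold ev
  have h1 : ∀ q ∈ range (T + 1), (-α) ^ (T - q) * f q (T - q) =
      e * ((-1) ^ q * (-α) ^ (T - q) * (T.choose q : ℝ)) := by
    intro q hq
    rw [h q (by simpa [Nat.lt_succ_iff] using hq)]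
    ring
  rw [Finset.sum_congr rfl h1, ← Finset.mul_sum, ← add_pow]
  have : (-1 + -α : ℝ) = (-1) * (α + 1) := by ring
  rw [this, mul_pow]
  ring

theorem ev_congr (α : ℝ) (T : ℕ) (f g : ℕ → ℕ → ℝ) (h : ∀ a b, a + b = T → f a b = g a b) :
    ev α T f = ev α T g := by
  unfold ev
  refine Finset.sum_congr rfl fun q hq => ?_
  have : q ≤ T := by simpa [Nat.lt_succ_iff] using hq
  rw [h q (T - q) (by omega)]

theorem ev_sum (α : ℝ) (T : ℕ) {ι : Type*} (s : Finset ι) (f : ι → ℕ → ℕ → ℝ) :
    ev α T (fun a b => ∑ i ∈ s, f i a b) = ∑ i ∈ s, ev α T (f i) := by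
  unfold ev
  rw [Finset.sum_comm]
  refine Finset.sum_congr rfl fun q _ => ?_
  rw [Finset.mul_sum]

theorem ev_smul (α : ℝ) (T : ℕ) (r : ℝ) (f : ℕ → ℕ → ℝ) :
    ev α T (fun a b => r * f a b) = r * ev α T f := by
  unfold ev
  rw [Finset.mul_sum]
  refine Finset.sum_congr rfl fun q _ => ?_
  ring

theorem ev_sub (α : ℝ) (T : ℕ) (f g : ℕ → ℕ → ℝ) :
    ev α T (fun a b => f a b - g a b) = ev α T f - ev α T g := by
  unfold ev
  rw [← Finset.sum_sub_distrib]
  refine Finset.sum_congr rfl fun q _ => ?_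
  ring

theorem ev_ev_rhs (α c : ℝ) (g : ℕ → ℝ) (T : ℕ) :
    ev α T (fun q k => ev α T (rhs α c g q k)) = g T * ((α + 1) ^ T) ^ 2 := by
  have h1 : ∀ q k, q + k = T → ev α T (rhs α c g q k) =
      g T * (α + 1) ^ T * kap α T 0 q k := by
    intro q k hqk
    rw [ev_congr α T (rhs α c g q k) (fun a b => ∑ m ∈ range (T + 1),
      (g m * kap α m (T - m) q k * co α c (T - m)) * kap α m (T - m) a b)]
    · rw [ev_sum, Finset.sum_range_succ]
      have hz : ∑ m ∈ range T, ev α T (fun a b => (g m * kap α m (T - m) q k *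
          co α c (T - m)) * kap α m (T - m) a b) = 0 := by
        refine Finset.sum_eq_zero fun m hm => ?_
        have hm' : m < T := by simpa using hm
        rw [ev_smul]
        obtain ⟨K, hK⟩ : ∃ K, T = m + K + 1 := ⟨T - m - 1, by omega⟩
        have e1 : T - m = K + 1 := by omega
        rw [e1, hK, ev_kap_succ, mul_zero]
      rw [hz, zero_add, ev_smul, Nat.sub_self, ev_kap_zero]
      simp [co]
      ring
    · intro a b hab
      unfold rhs
      rw [if_pos (by omega), hqk]
      refine Finset.sum_congr rfl fun m _ => ?_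
      ring
  rw [ev_congr α T _ (fun q k => g T * (α + 1) ^ T * kap α T 0 q k) h1, ev_smul, ev_kap_zero]
  ring

/-- Solution of the translation relations: channel expansion. -/
theorem Rel.eq_rhs {α c : ℝ} (hα : α + 1 ≠ 0) {G : ℕ → ℕ → ℕ → ℕ → ℝ} (h : Rel α c G) :
    ∀ q k q' j, G q k q' j = rhs α c (gam α G) q k q' j := by
  set E : ℕ → ℕ → ℕ → ℕ → ℝ := fun q k q' j => G q k q' j - rhs α c (gam α G) q k q' j with hE
  have hR : Rel α c E := h.sub (rhs_rel α c hα _)
  have key : ∀ T, ∀ q k q' j, q + k = T → E q k q' j = 0 := by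
    intro T
    induction T using Nat.strong_induction_on with
    | _ T ih =>
      have hlow : ∀ q k q' j, q + k < T → E q k q' j = 0 := fun q k q' j hlt =>
        ih (q + k) hlt q k q' j rfl
      have halt := hR.alt T hlow
      -- the double evaluation vanishes
      have h0 : ev α T (fun q k => ev α T (E q k)) = 0 := by
        have : (fun q k => ev α T (E q k)) = fun q k => ev α T (G q k) -
            ev α T (rhs α c (gam α G) q k) := by
          funext q k; exact ev_sub α T _ _
        rw [this, ev_sub, ev_ev_rhs]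
        unfold gam
        have hne : ((α + 1) ^ T) ^ 2 ≠ 0 := by positivity
        rw [div_mul_cancel₀ _ hne, sub_self]
      have h1 : ∀ q k, q + k = T → ev α T (E q k) = (-1) ^ T * (α + 1) ^ T * E q k 0 T := by
        intro q k _
        refine ev_alt α T (E q k) (E q k 0 T) fun a ha => ?_
        rw [hR.sym q k a (T - a), halt q k a ha, hR.sym 0 T q k]
      have h2 : ev α T (fun q k => ev α T (E q k)) =
          ((-1) ^ T * (α + 1) ^ T) * (((-1) ^ T * (α + 1) ^ T) * E 0 T 0 T) := by
        rw [ev_congr α T _ (fun q k => ((-1) ^ T * (α + 1) ^ T) * E q k 0 T) h1, ev_smul]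
        congr 1
        exact ev_alt α T (fun q k => E q k 0 T) (E 0 T 0 T) fun a ha => halt 0 T a ha
      have h3 : E 0 T 0 T = 0 := by
        rw [h2] at h0
        have hne : ((-1 : ℝ) ^ T * (α + 1) ^ T) ≠ 0 := by
          have : ((-1 : ℝ) ^ T) ≠ 0 := by simp
          positivity
        rcases mul_eq_zero.mp h0 with h | h
        · exact absurd h hne
        · rcases mul_eq_zero.mp h with h | h
          · exact absurd h hne
          · exact h
      intro q k q' j hqk
      by_cases hw : q + k = q' + j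
      · have e1 : k = T - q := by omega
        have e2 : j = T - q' := by omega
        rw [e1, halt q' j q (by omega), hR.sym 0 T q' j, e2, halt 0 T q' (by omega), h3]
        ring
      · exact hR.wt _ _ _ _ hw
  intro q k q' j
  have := key (q + k) q k q' j rfl
  simp only [hE] at this
  linarith

end Crest.Agent.R340.Pl249
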