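import Crest.Agent.R340.Fock_649
import Crest.Agent.R340.Pl1_249
import Crest.Prelude.Def_Laughlin

/-!
# S0533: interface (helper249)

Operators at flux `Q` indexed by natural numbers, the local operator `XQ` of a certificate, and the
two properties of a certificate that the analytic part consumes:
* `LocPos C`  (owners 132 / 665): `X_Q ≥ -ε ∑_{q<P} W_q^* W_q` for all large `Q`;
* `LinCert C P1 pw γ` (owner 120): a finite rational linear inequality.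
-/

set_option autoImplicit false
open scoped BigOperators
open Finset

namespace Crest.Agent.R340.Kn249

open Crest.Agent.R340.Fock649 Crest.MathPhysics.Laughlin

/-- annihilation operator of orbital `k` (`0` for `k > Q`) -/
noncomputable def cN (Q k : ℕ) : Op (Fin (Q + 1)) := if h : k < Q + 1 then c ⟨k, h⟩ else 0

/-- the pair vector `w_q(i,j)` of the statement, all indices natural numbers
(it vanishes for `i > Q` or `j > Q`, and for `q ≥ 2Q - 1`) -/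
noncomputable def pv (Q q i j : ℕ) : ℝ :=
  if i + j = q + 1 then
    ((j : ℝ) - i) * Real.sqrt ((Nat.choose Q i : ℝ) * Nat.choose Q j) /
      Real.sqrt (2 * pairNorm Q (q + 1))
  else 0

/-- pair annihilator `W_q` -/
noncomputable def WN (Q q : ℕ) : Op (Fin (Q + 1)) :=
  pa (fun i j : Fin (Q + 1) => ((pv Q q i j : ℝ) : ℂ))

/-- `λ_k = √((k+1)(Q-k))` -/
noncomputable def lam (Q k : ℕ) : ℝ := Real.sqrt (((k : ℝ) + 1) * ((Q - k : ℕ) : ℝ))

/-- `μ_q = √((q+1)(2Q-2-q))` -/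
noncomputable def mu (Q q : ℕ) : ℝ := Real.sqrt (((q : ℝ) + 1) * ((2 * Q - 2 - q : ℕ) : ℝ))

/-- `U = ∑ λ_k c_k^* c_{k+1}`, `[U, c_k] = -λ_k c_{k+1}`, `[U, W_q] = -μ_q W_{q+1}` -/
noncomputable def UN (Q : ℕ) : Op (Fin (Q + 1)) :=
  dG (fun i j : Fin (Q + 1) => if (j : ℕ) = i + 1 then ((lam Q i : ℝ) : ℂ) else 0)

/-- `Z = ∑ k c_k^* c_k` -/
noncomputable def ZN (Q : ℕ) : Op (Fin (Q + 1)) :=
  dG (Matrix.diagonal fun i : Fin (Q + 1) => ((i : ℕ) : ℂ))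

/-- `H = ∑_{q < 2Q-1} W_q^* W_q` -/
noncomputable def HN (Q : ℕ) : Op (Fin (Q + 1)) := ∑ q ∈ range (2 * Q - 1), star (WN Q q) * WN Q q

/-- `‖x^q‖ = √(q! 2^q)`, so that `Ŵ_q = nq q • W_q` in the planar limit -/
noncomputable def nq (q : ℕ) : ℝ := Real.sqrt ((q.factorial : ℝ) * 2 ^ q)

/-- certificate data: `X̂ = ∑ ah q p p' q' Ŵ_q^* Ŵ_p Ŵ_{p'}^* Ŵ_{q'} - ∑ gh q Ŵ_q^* Ŵ_q`, all indices
`< P`; only terms with `p + q' = q + p'` are relevant -/
structure CertData where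
  P : ℕ
  ah : ℕ → ℕ → ℕ → ℕ → ℚ
  gh : ℕ → ℚ
  ah_wt : ∀ q p p' q', p + q' ≠ q + p' → ah q p p' q' = 0

/-- the local operator at flux `Q` -/
noncomputable def XQ (C : CertData) (Q : ℕ) : Op (Fin (Q + 1)) :=
  (∑ q ∈ range C.P, ∑ p ∈ range C.P, ∑ p' ∈ range C.P, ∑ q' ∈ range C.P,
    (((C.ah q p p' q' : ℝ) * (nq q * nq p * nq p' * nq q') : ℝ) : ℂ) •
      (star (WN Q q) * WN Q p * star (WN Q p') * WN Q q')) -
  ∑ q ∈ range C.P, (((C.gh q : ℝ) * nq q ^ 2 : ℝ) : ℂ) • (star (WN Q q) * WN Q q)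

/-- local positivity of the certificate at large flux -/
def LocPos (C : CertData) : Prop :=
  ∀ ε : ℝ, 0 < ε → ∃ Q0 : ℕ, ∀ Q : ℕ, Q0 ≤ Q → ∀ v : Fk (Fin (Q + 1)),
    -ε * ∑ q ∈ range C.P, ‖WN Q q v‖ ^ 2 ≤ (inner ℂ v (XQ C Q v) : ℂ).re

/-- the one-body term of the energy, in planar correlators -/
noncomputable def DD (P1 : ℕ) (G : ℕ → ℕ → ℕ → ℕ → ℝ) : ℝ :=
  ∑ p ∈ range P1, (((p + 1).factorial : ℝ) / 2 ^ p * G 0 (p + 1) p 1 -
    ((p : ℝ) - 1) * (p.factorial : ℝ) / 2 ^ p * G 0 p p 0)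

/-- the (near) four-body term of the energy, in planar correlators -/
noncomputable def TT (pw : ℕ) (F : ℕ → ℕ → ℕ → ℕ → ℝ) : ℝ :=
  ∑ p ∈ range pw, (p.factorial : ℝ) / 2 ^ p * F 0 p p 0

/-- expectation of the certificate in planar correlators -/
noncomputable def Lam (C : CertData) (G F : ℕ → ℕ → ℕ → ℕ → ℝ) : ℝ :=
  (∑ q ∈ range C.P, ∑ p ∈ range C.P, ∑ p' ∈ range C.P, ∑ q' ∈ range C.P,
    (C.ah q p p' q' : ℝ) * ((q.factorial : ℝ) * p.factorial * p'.factorial * q'.factorial) *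
      (F q p' p q' + (if p = p' ∧ q = q' then 2 ^ (q + p) / ((q.factorial : ℝ) * p.factorial) else 0)
        - ∑ i ∈ range (min p p' + 2), ((p : ℝ) + 1 - 2 * i) * ((p' : ℝ) + 1 - 2 * i) /
            (i.factorial : ℝ) * G q (p' + 1 - i) q' (p + 1 - i))) -
  ∑ q ∈ range C.P, (C.gh q : ℝ) * ((q.factorial : ℝ) * 2 ^ q)

/-- the finite linear inequality of the certificate. `Pl249.rhs 2 1 gam` and `Pl249.rhs 1 2 phi` are
the channel expansions of the 3-body and 4-body planar correlators. -/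
def LinCert (C : CertData) (P1 pw : ℕ) (γ : ℝ) : Prop :=
  ∀ gam phi : ℕ → ℝ, (∀ m, 0 ≤ gam m) →
    (∀ m : ℕ, gam m ≤ (m + 1) * (2 / 3) ^ m / (m.factorial : ℝ)) →
    gam 0 = 0 → gam 1 = 0 → gam 3 = 0 → (∀ r, 0 ≤ phi r) → (∀ r, Odd r → phi r = 0) →
    phi 0 = 0 → phi 2 = 0 → 0 ≤ Lam C (Pl249.rhs 2 1 gam) (Pl249.rhs 1 2 phi) →
    γ ≤ 1 - DD P1 (Pl249.rhs 2 1 gam) + TT pw (Pl249.rhs 1 2 phi)

end Crest.Agent.R340.Kn249
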