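import Mathlib
import Crest.Agent.R340.Cert_132

/-!
# Kernel checker for the local positivity certificate (helper665, R340, S0533), part A

Bitmask model of the Fock space of the orbitals `0, …, 8`, sparse linear forms, list matrices and
an exact (fraction free) elimination test for positivity of quadratic forms.
-/

set_option autoImplicit false

namespace Crest.Agent.R340.LP665

open Finset

/-! ### list linear algebra (padded, unconditional identities) -/

/-- padded dot product -/
def dot : List ℤ → List ℝ → ℝ
  | [], _ => 0
  | _ :: _, [] => 0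
  | a :: v, x :: xs => (a : ℝ) * x + dot v xs

/-- padded addition -/
def addV : List ℤ → List ℤ → List ℤ
  | [], w => w
  | a :: v, [] => a :: v
  | a :: v, b :: w => Int.add a b :: addV v w

/-- scalar multiplication -/
def smV (c : ℤ) : List ℤ → List ℤ
  | [] => []
  | a :: v => Int.mul c a :: smV c v

@[simp] theorem dot_nil (xs : List ℝ) : dot [] xs = 0 := by cases xs <;> rfl
@[simp] theorem dot_nil' (v : List ℤ) : dot v [] = 0 := by cases v <;> rfl
@[simp] theorem dot_cons (a : ℤ) (v : List ℤ) (x : ℝ) (xs : List ℝ) :
    dot (a :: v) (x :: xs) = (a : ℝ) * x + dot v xs := rfl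

theorem dot_addV (v w : List ℤ) (xs : List ℝ) : dot (addV v w) xs = dot v xs + dot w xs := by
  induction v generalizing w xs with
  | nil => simp [addV]
  | cons a v ih =>
    cases w with
    | nil => simp [addV]
    | cons b w =>
      cases xs with
      | nil => simp
      | cons x xs =>
        simp only [addV, dot_cons, ih]
        have : ((Int.add a b : ℤ) : ℝ) = a + b := by exact_mod_cast Int.cast_add a b
        rw [this]; ring

theorem dot_smV (c : ℤ) (v : List ℤ) (xs : List ℝ) : dot (smV c v) xs = c * dot v xs := by
  induction v generalizing xs with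
  | nil => simp [smV]
  | cons a v ih =>
    cases xs with
    | nil => simp
    | cons x xs =>
      simp only [smV, dot_cons, ih]
      have : ((Int.mul c a : ℤ) : ℝ) = c * a := by exact_mod_cast Int.cast_mul c a
      rw [this]; ring

/-- bilinear form of a list matrix (list of rows) -/
def bil : List (List ℤ) → List ℝ → List ℝ → ℝ
  | [], _, _ => 0
  | _ :: _, [], _ => 0
  | r :: M, y :: ys, xs => y * dot r xs + bil M ys xs

@[simp] theorem bil_nil (ys xs : List ℝ) : bil [] ys xs = 0 := by cases ys <;> rfl
@[simp] theorem bil_nil' (M : List (List ℤ)) (xs : List ℝ) : bil M [] xs = 0 := by cases M <;> rfl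
@[simp] theorem bil_cons (r : List ℤ) (M : List (List ℤ)) (y : ℝ) (ys xs : List ℝ) :
    bil (r :: M) (y :: ys) xs = y * dot r xs + bil M ys xs := rfl

/-- `M + c v wᵀ` -/
def addO (c : ℤ) : List ℤ → List ℤ → List (List ℤ) → List (List ℤ)
  | [], _, M => M
  | a :: v, w, [] => smV (Int.mul c a) w :: addO c v w []
  | a :: v, w, r :: M => addV r (smV (Int.mul c a) w) :: addO c v w M

theorem bil_addO (c : ℤ) (v w : List ℤ) (M : List (List ℤ)) (ys xs : List ℝ) :
    bil (addO c v w M) ys xs = bil M ys xs + c * dot v ys * dot w xs := by
  have hm : ∀ a : ℤ, ((Int.mul c a : ℤ) : ℝ) = c * a := fun a => by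
    exact_mod_cast Int.cast_mul c a
  induction v generalizing M ys with
  | nil => simp [addO]
  | cons a v ih =>
    cases M with
    | nil =>
      cases ys with
      | nil => simp
      | cons y ys =>
        simp only [addO, bil_cons, ih, dot_smV, dot_cons, hm, bil_nil]; ring
    | cons r M =>
      cases ys with
      | nil => simp
      | cons y ys =>
        simp only [addO, bil_cons, ih, dot_addV, dot_smV, dot_cons, hm]; ring

/-- first entries of the rows -/
def heads : List (List ℤ) → List ℤ
  | [] => []
  | [] :: M => 0 :: heads M
  | (a :: _) :: M => a :: heads M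

/-- tails of the rows -/
def tls : List (List ℤ) → List (List ℤ)
  | [] => []
  | [] :: M => [] :: tls M
  | (_ :: r) :: M => r :: tls M

theorem bil_split (M : List (List ℤ)) (ys : List ℝ) (x : ℝ) (xs : List ℝ) :
    bil M ys (x :: xs) = x * dot (heads M) ys + bil (tls M) ys xs := by
  induction M generalizing ys with
  | nil => simp [heads, tls]
  | cons r M ih =>
    cases ys with
    | nil => simp
    | cons y ys =>
      cases r with
      | nil => simp only [heads, tls, bil_cons, ih, dot_nil, dot_cons]; push_cast; ring
      | cons a r => simp only [heads, tls, bil_cons, ih, dot_cons]; ring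

/-- multiply a matrix by a scalar -/
def smM (c : ℤ) : List (List ℤ) → List (List ℤ)
  | [] => []
  | r :: M => smV c r :: smM c M

theorem bil_smM (c : ℤ) (M : List (List ℤ)) (ys xs : List ℝ) :
    bil (smM c M) ys xs = c * bil M ys xs := by
  induction M generalizing ys with
  | nil => simp [smM]
  | cons r M ih =>
    cases ys with
    | nil => simp
    | cons y ys => simp only [smM, bil_cons, ih, dot_smV]; ring

/-- is the integer zero -/
def isZ : ℤ → Bool
  | Int.ofNat 0 => true
  | _ => false

theorem isZ_eq {a : ℤ} (h : isZ a = true) : a = 0 := by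
  unfold isZ at h
  split at h
  · rfl
  · simp at h

/-- is the vector zero -/
def zV : List ℤ → Bool
  | [] => true
  | a :: v => isZ a && zV v

theorem zV_dot {v : List ℤ} (h : zV v = true) (xs : List ℝ) : dot v xs = 0 := by
  induction v generalizing xs with
  | nil => simp
  | cons a v ih =>
    simp only [zV, Bool.and_eq_true] at h
    cases xs with
    | nil => simp
    | cons x xs => simp [isZ_eq h.1, ih h.2]

/-- exact elimination test -/
def psd : ℕ → List (List ℤ) → Bool
  | _, [] => true
  | 0, _ :: _ => false
  | n + 1, [] :: M =>
    zV (heads M) && psd n (tls M)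
  | n + 1, (Int.ofNat 0 :: r) :: M =>
    zV (addV r (heads M)) && psd n (tls M)
  | n + 1, (Int.ofNat (a + 1) :: r) :: M =>
    psd n (addO (Int.negSucc 0) (addV r (heads M)) (addV r (heads M))
      (smM (Int.ofNat (Nat.mul 4 (a + 1))) (tls M)))
  | _ + 1, (Int.negSucc _ :: _) :: _ => false

theorem psd_sound (n : ℕ) (M : List (List ℤ)) (h : psd n M = true) (xs : List ℝ) :
    0 ≤ bil M xs xs := by
  induction n generalizing M xs with
  | zero =>
    cases M with
    | nil => simp
    | cons r M => simp [psd] at h
  | succ n ih =>
    cases M with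
    | nil => simp
    | cons r M =>
      cases xs with
      | nil => simp
      | cons x xs =>
        rw [bil_cons, bil_split]
        cases r with
        | nil =>
          simp only [psd, Bool.and_eq_true] at h
          have := ih _ h.2 xs
          simp [zV_dot h.1]; linarith
        | cons a r =>
          match a with
          | Int.ofNat 0 =>
            simp only [psd, Bool.and_eq_true] at h
            have h1 := ih _ h.2 xs
            have h2 := zV_dot h.1 xs
            rw [dot_addV] at h2
            have h3 : ((Int.ofNat 0 : ℤ) : ℝ) = 0 := by simp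
            rw [dot_cons, h3]
            have h4 : x * (0 * x + dot r xs) + (x * dot (heads M) xs + bil (tls M) xs xs)
                = x * (dot r xs + dot (heads M) xs) + bil (tls M) xs xs := by ring
            rw [h4, h2]; linarith
          | Int.ofNat (a + 1) =>
            simp only [psd] at h
            have h1 := ih _ h xs
            rw [bil_addO, bil_smM, dot_addV] at h1
            have h3 : ((Int.ofNat (a + 1) : ℤ) : ℝ) = (a : ℝ) + 1 := by
              have : (Int.ofNat (a + 1) : ℤ) = (a : ℤ) + 1 := rfl
              rw [this]; push_cast; ring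
            have h4 : ((Int.ofNat (Nat.mul 4 (a + 1)) : ℤ) : ℝ) = 4 * ((a : ℝ) + 1) := by
              have : (Int.ofNat (Nat.mul 4 (a + 1)) : ℤ) = 4 * ((a : ℤ) + 1) := rfl
              rw [this]; push_cast; ring
            have h5 : ((Int.negSucc 0 : ℤ) : ℝ) = -1 := by
              have : (Int.negSucc 0 : ℤ) = -1 := rfl
              rw [this]; push_cast; ring
            rw [h4, h5] at h1
            rw [dot_cons, h3]
            have ha : (0 : ℝ) < (a : ℝ) + 1 := by positivity
            set d1 := dot r xs
            set d2 := dot (heads M) xs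
            set b := bil (tls M) xs xs
            set A := (a : ℝ) + 1
            have h6 : 0 ≤ 4 * A * (x * (A * x + d1) + (x * d2 + b)) := by
              have : 4 * A * (x * (A * x + d1) + (x * d2 + b))
                = (2 * A * x + (d1 + d2)) ^ 2 + (4 * A * b + -1 * (d1 + d2) * (d1 + d2)) := by ring
              rw [this]; positivity
            by_contra hcon
            push Not at hcon
            have h7 : (x * (A * x + d1) + (x * d2 + b)) < 0 := by linarith
            have : 4 * A * (x * (A * x + d1) + (x * d2 + b)) < 0 :=
              mul_neg_of_pos_of_neg (by positivity) h7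
            linarith
          | Int.negSucc k => simp [psd] at h

/-! ### sparse linear forms in the variables `g m`, `m` a bitmask -/

/-- sparse linear forms -/
abbrev LF := List (ℕ × ℤ)

/-- value of a sparse linear form -/
def ev (L : LF) (g : ℕ → ℝ) : ℝ := (L.map fun p => (p.2 : ℝ) * g p.1).sum

@[simp] theorem ev_nil (g : ℕ → ℝ) : ev [] g = 0 := rfl
@[simp] theorem ev_cons (p : ℕ × ℤ) (L : LF) (g : ℕ → ℝ) :
    ev (p :: L) g = (p.2 : ℝ) * g p.1 + ev L g := by simp [ev]
theorem ev_append (L L' : LF) (g : ℕ → ℝ) : ev (L ++ L') g = ev L g + ev L' g := by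
  simp [ev]

/-- scale -/
def sc (c : ℤ) : LF → LF
  | [] => []
  | p :: L => (p.1, Int.mul c p.2) :: sc c L

theorem ev_sc (c : ℤ) (L : LF) (g : ℕ → ℝ) : ev (sc c L) g = c * ev L g := by
  induction L with
  | nil => simp [sc]
  | cons p L ih =>
    simp only [sc, ev_cons, ih]
    have : ((Int.mul c p.2 : ℤ) : ℝ) = c * p.2 := by exact_mod_cast Int.cast_mul c p.2
    rw [this]; ring

/-- add `c` at the position of `S` in `sts` -/
def put : List ℕ → ℕ → ℤ → List ℤ → List ℤ
  | [], _, _, v => v
  | S0 :: sts, S, c, [] => bif Nat.beq S S0 then [c] else 0 :: put sts S c []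
  | S0 :: sts, S, c, a :: v => bif Nat.beq S S0 then Int.add a c :: v else a :: put sts S c v

theorem dot_put (g : ℕ → ℝ) (sts : List ℕ) (S : ℕ) (c : ℤ) (v : List ℤ) (h : S ∈ sts) :
    dot (put sts S c v) (sts.map g) = dot v (sts.map g) + c * g S := by
  induction sts generalizing v with
  | nil => simp at h
  | cons S0 sts ih =>
    cases v with
    | nil =>
      by_cases hS : S = S0
      · subst hS
        simp [put]
      · have h' : S ∈ sts := by simpa [hS] using h
        have hb : Nat.beq S S0 = false := by
          rw [Bool.eq_false_iff]; intro hh; exact hS (Nat.eq_of_beq_eq_true hh)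
        simp only [put, hb, cond_false, List.map_cons, dot_cons, ih [] h']
        simp
    | cons a v =>
      by_cases hS : S = S0
      · subst hS
        have : Nat.beq S S = true := Nat.beq_refl S
        simp only [put, this, cond_true, List.map_cons, dot_cons]
        have : ((Int.add a c : ℤ) : ℝ) = a + c := by exact_mod_cast Int.cast_add a c
        rw [this]; ring
      · have h' : S ∈ sts := by simpa [hS] using h
        have hb : Nat.beq S S0 = false := by
          rw [Bool.eq_false_iff]; intro hh; exact hS (Nat.eq_of_beq_eq_true hh)
        simp only [put, hb, cond_false, List.map_cons, dot_cons, ih v h']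
        ring

/-- membership test -/
def mem (S : ℕ) : List ℕ → Bool
  | [] => false
  | S0 :: sts => Nat.beq S S0 || mem S sts

theorem mem_iff {S : ℕ} {sts : List ℕ} (h : mem S sts = true) : S ∈ sts := by
  induction sts with
  | nil => simp [mem] at h
  | cons S0 sts ih =>
    simp only [mem, Bool.or_eq_true] at h
    rcases h with h | h
    · rw [Nat.eq_of_beq_eq_true h]; simp
    · exact List.mem_cons_of_mem _ (ih h)

/-- dense vector of a sparse form -/
def dense (sts : List ℕ) : LF → List ℤ
  | [] => []
  | p :: L => put sts p.1 p.2 (dense sts L)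

/-- all keys of the form are in `sts` -/
def okL (sts : List ℕ) : LF → Bool
  | [] => true
  | p :: L => mem p.1 sts && okL sts L

theorem dot_dense (g : ℕ → ℝ) (sts : List ℕ) (L : LF) (h : okL sts L = true) :
    dot (dense sts L) (sts.map g) = ev L g := by
  induction L with
  | nil => simp [dense]
  | cons p L ih =>
    simp only [okL, Bool.and_eq_true] at h
    rw [dense, dot_put g sts _ _ _ (mem_iff h.1), ih h.2, ev_cons]; ring

/-! ### contributions -/

/-- a contribution `c * L₁ * L₂` -/
abbrev Con := ℤ × LF × LF

/-- value of a contribution -/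
def cval (g : ℕ → ℝ) (x : Con) : ℝ := (x.1 : ℝ) * (ev x.2.1 g * ev x.2.2 g)

/-- matrix and success flag of a list of contributions -/
def acc (sts : List ℕ) : List Con → List (List ℤ)
  | [] => []
  | (_, [], _) :: l => acc sts l
  | (_, _ :: _, []) :: l => acc sts l
  | (c, p :: L₁, q :: L₂) :: l =>
    addO c (dense sts (p :: L₁)) (dense sts (q :: L₂)) (acc sts l)

/-- all forms of the contributions are supported in `sts` -/
def okC (sts : List ℕ) : List Con → Bool
  | [] => true
  | (_, [], _) :: l => okC sts l
  | (_, _ :: _, []) :: l => okC sts l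
  | (_, p :: L₁, q :: L₂) :: l => (okL sts (p :: L₁) && okL sts (q :: L₂)) && okC sts l

theorem bil_acc (g : ℕ → ℝ) (sts : List ℕ) (l : List Con) (h : okC sts l = true) :
    bil (acc sts l) (sts.map g) (sts.map g) = (l.map (cval g)).sum := by
  induction l with
  | nil => simp [acc]
  | cons x l ih =>
    obtain ⟨c, L₁, L₂⟩ := x
    cases L₁ with
    | nil =>
      simp only [okC] at h
      simp [acc, ih h, cval]
    | cons p L₁ =>
      cases L₂ with
      | nil =>
        simp only [okC] at h
        simp [acc, ih h, cval]
      | cons q L₂ =>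
        simp only [okC, Bool.and_eq_true] at h
        rw [acc, bil_addO, ih h.2, dot_dense g sts _ h.1.1, dot_dense g sts _ h.1.2]
        simp only [List.map_cons, List.sum_cons, cval]
        ring

/-- Positivity from the checks. -/
theorem sum_nonneg_of_check (g : ℕ → ℝ) (sts : List ℕ) (l : List Con) (n : ℕ)
    (h : okC sts l = true) (h' : psd n (acc sts l) = true) : 0 ≤ (l.map (cval g)).sum := by
  rw [← bil_acc g sts l h]
  exact psd_sound n _ h' _

/-! ### bitmasks -/

/-- bit test -/
def tb (m j : ℕ) : Bool := Nat.beq (Nat.land (Nat.shiftRight m j) 1) 1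

theorem tb_eq (m j : ℕ) : tb m j = m.testBit j := by
  have h1 : Nat.land (Nat.shiftRight m j) 1 = (m >>> j) &&& 1 := rfl
  have h2 : m.testBit j = ((1 &&& (m >>> j)) != 0) := rfl
  rw [tb, h1, h2, Nat.and_comm, Nat.one_and_eq_mod_two]
  rcases Nat.mod_two_eq_zero_or_one (m >>> j) with h | h <;> rw [h] <;> rfl

/-- the set of orbitals of a mask -/
def fs (m : ℕ) : Finset ℕ := (range 9).filter fun i => m.testBit i = true

theorem mem_fs {m i : ℕ} : i ∈ fs m ↔ i < 9 ∧ m.testBit i = true := by simp [fs]

theorem fs_lor {m j : ℕ} (hj : j < 9) : fs (Nat.lor m (Nat.pow 2 j)) = insert j (fs m) := by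
  have h1 : Nat.lor m (Nat.pow 2 j) = m ||| 2 ^ j := rfl
  ext i
  rw [h1]
  simp only [mem_fs, Finset.mem_insert, Nat.testBit_or, Nat.testBit_two_pow, Bool.or_eq_true,
    decide_eq_true_eq]
  constructor
  · rintro ⟨h, h2 | h2⟩
    · exact Or.inr ⟨h, h2⟩
    · exact Or.inl h2.symm
  · rintro (h | h)
    · subst h; exact ⟨hj, Or.inr rfl⟩
    · exact ⟨h.1, Or.inl h.2⟩

/-- sign -/
def sgm (m : ℕ) : ℕ → ℤ
  | 0 => 1
  | j + 1 => bif tb m j then Int.neg (sgm m j) else sgm m j

theorem sgm_eq (m j : ℕ) (hj : j ≤ 9) : Cert132.sgZ j (fs m) = sgm m j := by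
  induction j with
  | zero => simp [Cert132.sgZ, sgm]
  | succ j ih =>
    have ih' := ih (by omega)
    unfold Cert132.sgZ at ih' ⊢
    rw [sgm, tb_eq]
    by_cases hb : m.testBit j = true
    · have : (fs m).filter (· < j + 1) = insert j ((fs m).filter (· < j)) := by
        ext i
        simp only [Finset.mem_filter, mem_fs, Finset.mem_insert]
        constructor
        · rintro ⟨h1, h2⟩
          by_cases hij : i = j
          · exact Or.inl hij
          · exact Or.inr ⟨h1, by omega⟩
        · rintro (h | h)
          · subst h; exact ⟨⟨by omega, hb⟩, by omega⟩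
          · exact ⟨h.1, by omega⟩
      rw [this, Finset.card_insert_of_notMem (by simp), hb, pow_succ, ih']
      simp only [cond_true]
      have : Int.neg (sgm m j) = - sgm m j := rfl
      rw [this]; ring
    · have : (fs m).filter (· < j + 1) = (fs m).filter (· < j) := by
        ext i
        simp only [Finset.mem_filter, mem_fs]
        constructor
        · rintro ⟨h1, h2⟩
          refine ⟨h1, ?_⟩
          by_contra hc
          have : i = j := by omega
          subst this; exact hb h1.2
        · rintro ⟨h1, h2⟩; exact ⟨h1, by omega⟩
      have hb' : m.testBit j = false := by simpa using hb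
      rw [this, hb', ih']
      rfl

/-- weight of the first `k` orbitals -/
def wm (m : ℕ) : ℕ → ℕ
  | 0 => 1
  | k + 1 => bif tb m k then Nat.mul (Nat.factorial k) (wm m k) else wm m k

theorem wm_eq (m k : ℕ) : ((range k).filter fun i => m.testBit i = true).prod Nat.factorial
    = wm m k := by
  induction k with
  | zero => simp [wm]
  | succ k ih =>
    rw [Finset.range_add_one, Finset.filter_insert, wm, tb_eq]
    by_cases hb : m.testBit k = true
    · rw [if_pos hb, Finset.prod_insert (by simp), ih, hb]; rfl
    · have hb' : m.testBit k = false := by simpa using hb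
      rw [if_neg hb, ih, hb']; rfl

/-- masks with orbitals `< n`, `N` elements and sum `M` -/
def enum : ℕ → ℕ → ℕ → List ℕ
  | 0, 0, 0 => [0]
  | 0, 0, _ + 1 => []
  | 0, _ + 1, _ => []
  | n + 1, 0, M => enum n 0 M
  | n + 1, N + 1, M =>
    enum n (N + 1) M ++
      (bif Nat.ble n M then (enum n N (Nat.sub M n)).map (fun m => Nat.lor m (Nat.pow 2 n)) else [])

theorem sum_enum (φ : Finset ℕ → ℝ) (n N M : ℕ) (hn : n ≤ 9) :
    ∑ T ∈ (range n).powerset with (T.card = N ∧ ∑ i ∈ T, i = M), φ T
      = ((enum n N M).map fun m => φ (fs m)).sum := by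
  induction n generalizing N M φ with
  | zero =>
    cases N with
    | zero =>
      cases M with
      | zero =>
        have : fs 0 = ∅ := by ext i; simp [mem_fs]
        simp [enum, this, Finset.filter_singleton]
      | succ M => simp [enum, Finset.filter_singleton]
    | succ N => simp [enum, Finset.filter_singleton]
  | succ n ih =>
    have hsplit : ∀ (p : Finset ℕ → Prop) [DecidablePred p],
        ∑ T ∈ (range (n + 1)).powerset with p T, φ T
        = ∑ T ∈ (range n).powerset with p T, φ T
          + ∑ T ∈ (range n).powerset with p (insert n T), φ (insert n T) := by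
      intro p _
      rw [Finset.sum_filter, Finset.sum_filter, Finset.sum_filter, Finset.range_add_one,
        Finset.sum_powerset_insert (by simp)]
    have hcard : ∀ T ∈ (range n).powerset, (insert n T).card = T.card + 1 ∧
        ∑ i ∈ insert n T, i = n + ∑ i ∈ T, i := by
      intro T hT
      have hnT : n ∉ T := fun h => by
        have := Finset.mem_powerset.1 hT h
        simp at this
      exact ⟨Finset.card_insert_of_notMem hnT, Finset.sum_insert hnT⟩
    rw [hsplit]
    have ih1 := ih φ N M (by omega)
    rw [ih1]
    cases N with
    | zero =>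
      have h0 : ∑ T ∈ (range n).powerset with ((insert n T).card = 0 ∧ ∑ i ∈ insert n T, i = M),
          φ (insert n T) = 0 := by
        apply Finset.sum_eq_zero
        intro T hT
        simp only [Finset.mem_filter] at hT
        have := (hcard T hT.1).1
        omega
      rw [h0, add_zero]; rfl
    | succ N =>
      rw [enum, List.map_append, List.sum_append]
      congr 1
      by_cases hM : n ≤ M
      · have hb : Nat.ble n M = true := Nat.ble_eq_true_of_le hM
        rw [hb, cond_true]
        have ih2 := ih (fun T => φ (insert n T)) N (M - n) (by omega)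
        have : ∑ T ∈ (range n).powerset with
            ((insert n T).card = N + 1 ∧ ∑ i ∈ insert n T, i = M), φ (insert n T)
            = ∑ T ∈ (range n).powerset with (T.card = N ∧ ∑ i ∈ T, i = M - n),
              φ (insert n T) := by
          apply Finset.sum_congr _ (fun _ _ => rfl)
          ext T
          simp only [Finset.mem_filter]
          constructor
          · rintro ⟨h1, h2⟩
            obtain ⟨h3, h4⟩ := hcard T h1
            refine ⟨h1, ?_, ?_⟩ <;> omega
          · rintro ⟨h1, h2⟩
            obtain ⟨h3, h4⟩ := hcard T h1
            refine ⟨h1, ?_, ?_⟩ <;> omega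
        rw [this, ih2, List.map_map]
        congr 1
        apply List.map_congr_left
        intro m _
        simp only [Function.comp]
        rw [fs_lor (by omega)]
      · have hb : Nat.ble n M = false := by
          rw [Bool.eq_false_iff]; intro hh; exact hM (Nat.le_of_ble_eq_true hh)
        rw [hb, cond_false]
        simp only [List.map_nil, List.sum_nil]
        apply Finset.sum_eq_zero
        intro T hT
        simp only [Finset.mem_filter] at hT
        obtain ⟨h3, h4⟩ := hcard T hT.1
        have := hT.2.2
        omega

end Crest.Agent.R340.LP665
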