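import Mathlib
import Crest.Agent.R340.Cert_132
import Crest.Agent.R340.LPA_665

/-!
# Kernel checker for the local positivity certificate (helper665, R340, S0533), part B

The linear forms of the certificate on bitmasks, regrouping by blocks.
-/

set_option autoImplicit false

namespace Crest.Agent.R340.LP665

open Finset Cert132

/-- the variable of a mask -/
def F0 (m : ℕ) : LF := [(m, 1)]

/-- annihilator on mask forms -/
def dlL (j : ℕ) (F : ℕ → LF) (m : ℕ) : LF :=
  bif tb m j then [] else sc (sgm m j) (F (Nat.lor m (Nat.pow 2 j)))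

/-- partial pair annihilator -/
def wlA (q : ℕ) (F : ℕ → LF) (m : ℕ) : ℕ → LF
  | 0 => []
  | i + 1 => wlA q F m i ++
      sc (Int.sub (Int.ofNat (Nat.succ q)) (Int.ofNat (Nat.mul 2 i)))
        (dlL (Nat.sub (Nat.succ q) i) (dlL i F) m)

/-- pair annihilator on mask forms -/
def wlL (q : ℕ) (F : ℕ → LF) (m : ℕ) : LF := wlA q F m (Nat.succ (Nat.div q 2))

/-- `F` represents the function `h` -/
def Sem (f : Finset ℕ → ℝ) (F : ℕ → LF) (h : Finset ℕ → ℝ) : Prop :=
  ∀ m, ev (F m) (fun m => f (fs m)) = h (fs m)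

theorem sem_F0 (f : Finset ℕ → ℝ) : Sem f F0 f := by
  intro m; simp [F0]

theorem sem_dlL {f : Finset ℕ → ℝ} {F : ℕ → LF} {h : Finset ℕ → ℝ} (hF : Sem f F h) {j : ℕ}
    (hj : j < 9) : Sem f (dlL j F) (dl j h) := by
  intro m
  unfold dlL dl
  rw [tb_eq]
  by_cases hb : m.testBit j = true
  · have : j ∈ fs m := mem_fs.2 ⟨hj, hb⟩
    rw [hb, cond_true, if_pos this, ev_nil]
  · have hb' : m.testBit j = false := by simpa using hb
    have : j ∉ fs m := fun h => hb (mem_fs.1 h).2
    rw [hb', cond_false, if_neg this, ev_sc, hF, fs_lor hj, sgm_eq m j (by omega), zsmul_eq_mul]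

theorem sem_wlL {f : Finset ℕ → ℝ} {F : ℕ → LF} {h : Finset ℕ → ℝ} (hF : Sem f F h) {q : ℕ}
    (hq : q < 8) : Sem f (wlL q F) (wl q h) := by
  intro m
  have key : ∀ k, k ≤ q / 2 + 1 → ev (wlA q F m k) (fun m => f (fs m))
      = ∑ i ∈ range k, ((q : ℤ) + 1 - 2 * i) • dl (q + 1 - i) (dl i h) (fs m) := by
    intro k
    induction k with
    | zero => intro _; simp [wlA]
    | succ k ih =>
      intro hk
      rw [wlA, ev_append, ih (by omega), Finset.sum_range_succ, ev_sc]
      congr 1
      have h1 : Nat.sub (Nat.succ q) k = q + 1 - k := rfl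
      have h2 : (Int.sub (Int.ofNat (Nat.succ q)) (Int.ofNat (Nat.mul 2 k)))
        = ((q : ℤ) + 1 - 2 * k) := by
        have : (Int.sub (Int.ofNat (Nat.succ q)) (Int.ofNat (Nat.mul 2 k)))
          = ((q + 1 : ℕ) : ℤ) - ((2 * k : ℕ) : ℤ) := rfl
        rw [this]; push_cast; ring
      rw [h1, h2, sem_dlL (sem_dlL hF (j := k) (by omega)) (j := q + 1 - k) (by omega),
        zsmul_eq_mul]
  exact key _ le_rfl

/-- generic term of the certificate -/
structure Term where
  /-- number of added orbitals -/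
  k : ℕ
  /-- sum of added orbitals -/
  a : ℕ
  /-- coefficient -/
  n : ℤ
  /-- first form -/
  F1 : ℕ → LF
  /-- second form -/
  F2 : ℕ → LF

/-- all terms -/
def terms (G : List (ℕ × ℤ)) (B A : List (ℕ × ℕ × ℕ × ℕ × ℤ)) : List Term :=
  (G.map fun x => ⟨2, x.1 + 1, x.2, wlL x.1 F0, wlL x.1 F0⟩) ++
  ((B.map fun x => ⟨3, x.1 + 1 + x.2.1, x.2.2.2.2,
    dlL x.2.1 (wlL x.1 F0), dlL x.2.2.2.1 (wlL x.2.2.1 F0)⟩) ++
  (A.map fun x => ⟨4, x.1 + 1 + (x.2.1 + 1), x.2.2.2.2,
    wlL x.2.1 (wlL x.1 F0), wlL x.2.2.2.1 (wlL x.2.2.1 F0)⟩))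

/-- value of a term at a mask, without weight -/
def tval (g : ℕ → ℝ) (m : ℕ) (t : Term) : ℝ := (t.n : ℝ) * (ev (t.F1 m) g * ev (t.F2 m) g)

theorem sum_congr_list {α : Type*} (l : List α) (φ ψ : α → ℝ) (h : ∀ x ∈ l, φ x = ψ x) :
    (l.map φ).sum = (l.map ψ).sum := by
  rw [List.map_congr_left h]

theorem form_eq {G : List (ℕ × ℤ)} {B A : List (ℕ × ℕ × ℕ × ℕ × ℤ)} (h : Adm 8 G B A)
    (f : Finset ℕ → ℝ) (m : ℕ) :
    form G B A f (fs m) = ((terms G B A).map (tval (fun m => f (fs m)) m)).sum := by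
  obtain ⟨hG, hB, hA⟩ := h
  rw [terms, List.map_append, List.map_append, List.sum_append, List.sum_append, form,
    List.map_map, List.map_map, List.map_map, add_assoc]
  congr 1
  · apply sum_congr_list
    intro x hx
    have := sem_wlL (sem_F0 f) (hG x hx) m
    simp only [Function.comp, tval, this]
  congr 1
  · apply sum_congr_list
    intro x hx
    obtain ⟨h1, h2, h3, h4⟩ := hB x hx
    have e1 := sem_dlL (sem_wlL (sem_F0 f) h1) (j := x.2.1) (by omega) m
    have e2 := sem_dlL (sem_wlL (sem_F0 f) h3) (j := x.2.2.2.1) (by omega) m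
    simp only [Function.comp, tval, e1, e2]
  · apply sum_congr_list
    intro x hx
    obtain ⟨h1, h2, h3, h4⟩ := hA x hx
    have e1 := sem_wlL (sem_wlL (sem_F0 f) h1) h2 m
    have e2 := sem_wlL (sem_wlL (sem_F0 f) h3) h4 m
    simp only [Function.comp, tval, e1, e2]

/-- terms with given key -/
def grp (ts : List Term) (k a : ℕ) : List Term :=
  ts.filter fun t => Nat.beq t.k k && Nat.beq t.a a

/-- contributions at the masks of a list -/
def consM (ts : List Term) : List ℕ → List Con
  | [] => []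
  | m :: l => ts.map (fun t => (Int.mul t.n (Int.ofNat (wm m 9)), t.F1 m, t.F2 m)) ++ consM ts l

/-- contributions of one shift -/
def cons1 (ts : List Term) (N M k a : ℕ) : List Con :=
  bif Nat.ble k N && Nat.ble a M then consM ts (enum 9 (Nat.sub N k) (Nat.sub M a)) else []

/-- contributions of a block from a list of shifts (with their groups of terms) -/
def consS (N M : ℕ) : List (ℕ × ℕ × List Term) → List Con
  | [] => []
  | x :: l => cons1 x.2.2 N M x.1 x.2.1 ++ consS N M l

/-- the weighted function of a term -/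
noncomputable def wt (f : Finset ℕ → ℝ) (t : Term) (m : ℕ) : ℝ :=
  (wm m 9 : ℝ) * tval (fun m => f (fs m)) m t

theorem cval_eq (f : Finset ℕ → ℝ) (t : Term) (m : ℕ) :
    cval (fun m => f (fs m)) (Int.mul t.n (Int.ofNat (wm m 9)), t.F1 m, t.F2 m) = wt f t m := by
  have : ((Int.mul t.n (Int.ofNat (wm m 9)) : ℤ) : ℝ) = t.n * (wm m 9 : ℝ) := by
    have : Int.mul t.n (Int.ofNat (wm m 9)) = t.n * ((wm m 9 : ℕ) : ℤ) := rfl
    rw [this]; push_cast; ring
  simp only [cval, wt, tval, this]; ring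

theorem sum_consM (f : Finset ℕ → ℝ) (ts : List Term) (l : List ℕ) :
    ((consM ts l).map (cval fun m => f (fs m))).sum
      = (l.map fun m => (ts.map fun t => wt f t m).sum).sum := by
  induction l with
  | nil => simp [consM]
  | cons m l ih =>
    rw [consM, List.map_append, List.sum_append, ih, List.map_map]
    simp only [List.map_cons, List.sum_cons]
    congr 1
    apply sum_congr_list
    intro t _
    exact cval_eq f t m

end Crest.Agent.R340.LP665
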