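import Mathlib
import Crest.Agent.R340.Cert_132
import Crest.Agent.R340.LPB_665

/-!
# Kernel checker for the local positivity certificate (helper665, R340, S0533), part C

Regrouping of the certificate form by blocks (number, sum of orbitals).
-/

set_option autoImplicit false

namespace Crest.Agent.R340.LP665

open Finset Cert132

/-- every finite set of orbitals `< 9` has a mask -/
theorem exists_mask (T : Finset ℕ) (hT : ∀ i ∈ T, i < 9) : ∃ m, fs m = T := by
  induction T using Finset.induction_on with
  | empty => exact ⟨0, by ext i; simp [mem_fs]⟩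
  | insert j T hj ih =>
    obtain ⟨m, hm⟩ := ih fun i hi => hT i (Finset.mem_insert_of_mem hi)
    exact ⟨Nat.lor m (Nat.pow 2 j), by rw [fs_lor (hT j (Finset.mem_insert_self _ _)), hm]⟩

/-- the term only depends on the set of the mask -/
def TSem (f : Finset ℕ → ℝ) (t : Term) : Prop :=
  ∃ ψ : Finset ℕ → ℝ, ∀ m, tval (fun m => f (fs m)) m t = ψ (fs m)

theorem tsem {G : List (ℕ × ℤ)} {B A : List (ℕ × ℕ × ℕ × ℕ × ℤ)} (h : Adm 8 G B A)
    (f : Finset ℕ → ℝ) : ∀ t ∈ terms G B A, TSem f t ∧ (t.k = 2 ∨ t.k = 3 ∨ t.k = 4) ∧ t.a < 20 := by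
  obtain ⟨hG, hB, hA⟩ := h
  intro t ht
  simp only [terms, List.mem_append, List.mem_map] at ht
  rcases ht with ⟨x, hx, rfl⟩ | ⟨x, hx, rfl⟩ | ⟨x, hx, rfl⟩
  · have h1 := hG x hx
    refine ⟨⟨fun T => (x.2 : ℝ) * (wl x.1 f T * wl x.1 f T), fun m => ?_⟩, by simp, by
      simp only; omega⟩
    simp only [tval, sem_wlL (sem_F0 f) h1 m]
  · obtain ⟨h1, h2, h3, h4⟩ := hB x hx
    refine ⟨⟨fun T => (x.2.2.2.2 : ℝ) *
      (dl x.2.1 (wl x.1 f) T * dl x.2.2.2.1 (wl x.2.2.1 f) T), fun m => ?_⟩, by simp, by
      simp only; omega⟩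
    have e1 := sem_dlL (sem_wlL (sem_F0 f) h1) (j := x.2.1) (by omega) m
    have e2 := sem_dlL (sem_wlL (sem_F0 f) h3) (j := x.2.2.2.1) (by omega) m
    simp only [tval, e1, e2]
  · obtain ⟨h1, h2, h3, h4⟩ := hA x hx
    refine ⟨⟨fun T => (x.2.2.2.2 : ℝ) *
      (wl x.2.1 (wl x.1 f) T * wl x.2.2.2.1 (wl x.2.2.1 f) T), fun m => ?_⟩, by simp, by
      simp only; omega⟩
    have e1 := sem_wlL (sem_wlL (sem_F0 f) h1) h2 m
    have e2 := sem_wlL (sem_wlL (sem_F0 f) h3) h4 m
    simp only [tval, e1, e2]

theorem sum_swap {α : Type*} (s : Finset (Finset ℕ)) (l : List α) (φ : α → Finset ℕ → ℝ) :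
    ∑ T ∈ s, (l.map fun t => φ t T).sum = (l.map fun t => ∑ T ∈ s, φ t T).sum := by
  induction l with
  | nil => simp
  | cons t l ih => simp only [List.map_cons, List.sum_cons, Finset.sum_add_distrib, ih]

theorem sum_swap2 {α β : Type*} (s : Finset β) (l : List α) (φ : α → β → ℝ) :
    ∑ T ∈ s, (l.map fun t => φ t T).sum = (l.map fun t => ∑ T ∈ s, φ t T).sum := by
  induction l with
  | nil => simp
  | cons t l ih => simp only [List.map_cons, List.sum_cons, Finset.sum_add_distrib, ih]

/-- the contribution of a shift to the block `(N, M)` -/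
noncomputable def shv (Φ : Finset ℕ → ℝ) (N M k a : ℕ) : ℝ :=
  bif Nat.ble k N && Nat.ble a M then
    ((enum 9 (Nat.sub N k) (Nat.sub M a)).map fun m => Φ (fs m)).sum else 0

theorem sum_shv (Φ : Finset ℕ → ℝ) (k a : ℕ) (hk : k ≤ 4) (ha : a < 20) :
    ∑ T ∈ (range 9).powerset, Φ T = ∑ N ∈ range 14, ∑ M ∈ range 60, shv Φ N M k a := by
  have hmaps : ∀ T ∈ (range 9).powerset,
      ((T.card + k, ∑ i ∈ T, i + a) : ℕ × ℕ) ∈ (range 14) ×ˢ (range 60) := by
    intro T hT
    have h1 : T.card ≤ 9 := by
      have := Finset.card_le_card (Finset.mem_powerset.1 hT); simpa using this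
    have h2 : ∑ i ∈ T, i ≤ 36 := by
      have := Finset.sum_le_sum_of_subset (f := fun i => i) (Finset.mem_powerset.1 hT)
      have h3 : ∑ i ∈ range 9, i = 36 := by decide
      omega
    simp only [Finset.mem_product, Finset.mem_range]
    constructor <;> omega
  rw [← Finset.sum_fiberwise_of_maps_to hmaps, Finset.sum_product]
  apply Finset.sum_congr rfl
  intro N _
  apply Finset.sum_congr rfl
  intro M _
  unfold shv
  by_cases h1 : k ≤ N
  · by_cases h2 : a ≤ M
    · have hb1 : Nat.ble k N = true := Nat.ble_eq_true_of_le h1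
      have hb2 : Nat.ble a M = true := Nat.ble_eq_true_of_le h2
      rw [hb1, hb2, Bool.and_self, cond_true]
      have := sum_enum Φ 9 (Nat.sub N k) (Nat.sub M a) le_rfl
      rw [← this]
      apply Finset.sum_congr _ (fun _ _ => rfl)
      ext T
      have e1 : Nat.sub N k = N - k := rfl
      have e2 : Nat.sub M a = M - a := rfl
      simp only [Finset.mem_filter, Prod.mk.injEq, e1, e2]
      constructor
      · rintro ⟨h, h3, h4⟩; exact ⟨h, by omega, by omega⟩
      · rintro ⟨h, h3, h4⟩; exact ⟨h, by omega, by omega⟩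
    · have hb2 : Nat.ble a M = false := by
        rw [Bool.eq_false_iff]; intro hh; exact h2 (Nat.le_of_ble_eq_true hh)
      rw [hb2, Bool.and_false, cond_false]
      apply Finset.sum_eq_zero
      intro T hT
      simp only [Finset.mem_filter, Prod.mk.injEq] at hT
      omega
  · have hb2 : Nat.ble k N = false := by
      rw [Bool.eq_false_iff]; intro hh; exact h1 (Nat.le_of_ble_eq_true hh)
    rw [hb2, Bool.false_and, cond_false]
    apply Finset.sum_eq_zero
    intro T hT
    simp only [Finset.mem_filter, Prod.mk.injEq] at hT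
    omega

/-- grouping a list sum by keys -/
theorem group_sum (ks : List (ℕ × ℕ)) (hks : ks.Nodup) (ts : List Term)
    (X : ℕ → ℕ → Term → ℝ) (h : ∀ t ∈ ts, (t.k, t.a) ∈ ks) :
    (ks.map fun p => ((grp ts p.1 p.2).map (X p.1 p.2)).sum).sum
      = (ts.map fun t => X t.k t.a t).sum := by
  induction ts with
  | nil =>
    simp [grp]
  | cons t ts ih =>
    have ih' := ih fun t' ht' => h t' (List.mem_cons_of_mem _ ht')
    have ht := h t (by simp)
    rw [List.map_cons, List.sum_cons, ← ih']
    have hstep : ∀ p : ℕ × ℕ, ((grp (t :: ts) p.1 p.2).map (X p.1 p.2)).sum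
        = (if p = (t.k, t.a) then X t.k t.a t else 0) + ((grp ts p.1 p.2).map (X p.1 p.2)).sum := by
      intro p
      unfold grp
      by_cases hp : p = (t.k, t.a)
      · rw [if_pos hp, hp]
        rw [List.filter_cons_of_pos (by simp)]
        simp
      · rw [if_neg hp, zero_add, List.filter_cons_of_neg]
        intro hh
        simp only [Bool.and_eq_true] at hh
        apply hp
        have e1 := Nat.eq_of_beq_eq_true hh.1
        have e2 := Nat.eq_of_beq_eq_true hh.2
        rw [Prod.ext_iff]; exact ⟨e1.symm, e2.symm⟩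
    simp only [hstep]
    have : ∀ (l : List (ℕ × ℕ)) (u v : ℕ × ℕ → ℝ),
        (l.map fun p => u p + v p).sum = (l.map u).sum + (l.map v).sum := by
      intro l u v
      induction l with
      | nil => simp
      | cons a l ih2 => simp only [List.map_cons, List.sum_cons, ih2]; ring
    rw [this]
    congr 1
    have hone : ∀ (l : List (ℕ × ℕ)), l.Nodup → (t.k, t.a) ∈ l →
        (l.map fun p => if p = (t.k, t.a) then X t.k t.a t else 0).sum = X t.k t.a t := by
      intro l
      induction l with
      | nil => intro _ h; simp at h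
      | cons b l ih3 =>
        intro hnd hmem
        rw [List.nodup_cons] at hnd
        by_cases hb : b = (t.k, t.a)
        · have hz : (l.map fun p => if p = (t.k, t.a) then X t.k t.a t else 0).sum = 0 := by
            apply List.sum_eq_zero
            intro y hy
            rw [List.mem_map] at hy
            obtain ⟨p, hp, rfl⟩ := hy
            rw [if_neg]
            rintro rfl
            exact hnd.1 (hb ▸ hp)
          rw [List.map_cons, List.sum_cons, if_pos hb, hz, add_zero]
        · have hmem' : (t.k, t.a) ∈ l := by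
            rcases List.mem_cons.1 hmem with h' | h'
            · exact absurd h'.symm hb
            · exact h'
          rw [List.map_cons, List.sum_cons, if_neg hb, zero_add, ih3 hnd.2 hmem']
    exact hone ks hks ht

/-- shifts -/
def ks : List (ℕ × ℕ) :=
  (List.range 20).map (fun a => (2, a)) ++ ((List.range 20).map (fun a => (3, a)) ++
    (List.range 20).map (fun a => (4, a)))

theorem ks_nodup : ks.Nodup := by decide

theorem mem_ks {k a : ℕ} (hk : k = 2 ∨ k = 3 ∨ k = 4) (ha : a < 20) : (k, a) ∈ ks := by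
  simp only [ks, List.mem_append, List.mem_map, List.mem_range, Prod.mk.injEq]
  rcases hk with rfl | rfl | rfl
  · exact Or.inl ⟨a, ha, rfl, rfl⟩
  · exact Or.inr (Or.inl ⟨a, ha, rfl, rfl⟩)
  · exact Or.inr (Or.inr ⟨a, ha, rfl, rfl⟩)

/-- grouped terms -/
def gl (ts : List Term) : List (ℕ × ℕ × List Term) := ks.map fun p => (p.1, p.2, grp ts p.1 p.2)

theorem sum_consS (f : Finset ℕ → ℝ) (N M : ℕ) (l : List (ℕ × ℕ × List Term)) :
    ((consS N M l).map (cval fun m => f (fs m))).sum
      = (l.map fun x => ((cons1 x.2.2 N M x.1 x.2.1).map (cval fun m => f (fs m))).sum).sum := by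
  induction l with
  | nil => simp [consS]
  | cons x l ih => rw [consS, List.map_append, List.sum_append, ih, List.map_cons, List.sum_cons]

theorem sum_cons1 (f : Finset ℕ → ℝ) (Φ : Term → Finset ℕ → ℝ) (ts : List Term)
    (hΦ : ∀ t ∈ ts, ∀ m, wt f t m = Φ t (fs m)) (N M k a : ℕ) :
    ((cons1 ts N M k a).map (cval fun m => f (fs m))).sum
      = (ts.map fun t => shv (Φ t) N M k a).sum := by
  unfold cons1 shv
  cases hb : (Nat.ble k N && Nat.ble a M)
  · simp
  · simp only [cond_true]
    rw [sum_consM]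
    have h1 : ∀ l : List ℕ, (l.map fun m => (ts.map fun t => wt f t m).sum).sum
        = (ts.map fun t => (l.map fun m => Φ t (fs m)).sum).sum := by
      intro l
      induction l with
      | nil => simp
      | cons m l ih =>
        rw [List.map_cons, List.sum_cons, ih]
        have : ∀ (l' : List Term) (u v : Term → ℝ),
            (l'.map u).sum + (l'.map v).sum = (l'.map fun t => u t + v t).sum := by
          intro l' u v
          induction l' with
          | nil => simp
          | cons a l' ih2 => simp only [List.map_cons, List.sum_cons, ← ih2]; ring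
        rw [this]
        apply sum_congr_list
        intro t ht
        rw [List.map_cons, List.sum_cons, hΦ t ht m]
    exact h1 _

/-- Regrouping by blocks. -/
theorem regroup {G : List (ℕ × ℤ)} {B A : List (ℕ × ℕ × ℕ × ℕ × ℤ)} (h : Adm 8 G B A)
    (f : Finset ℕ → ℝ) :
    ∑ T ∈ (range (8 + 1)).powerset, ((∏ i ∈ T, i.factorial : ℕ) : ℝ) * form G B A f T
      = ∑ N ∈ range 14, ∑ M ∈ range 60,
        ((consS N M (gl (terms G B A))).map (cval fun m => f (fs m))).sum := by
  classical
  have hts := tsem h f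
  set ts := terms G B A with hts_def
  -- choose the functions
  let ψ : Term → Finset ℕ → ℝ := fun t => if ht : TSem f t then ht.choose else 0
  have hψ : ∀ t ∈ ts, ∀ m, tval (fun m => f (fs m)) m t = ψ t (fs m) := by
    intro t ht m
    have h1 := (hts t ht).1
    simp only [ψ, dif_pos h1]
    exact h1.choose_spec m
  let Φ : Term → Finset ℕ → ℝ := fun t T => ((∏ i ∈ T, i.factorial : ℕ) : ℝ) * ψ t T
  have hw : ∀ m, (∏ i ∈ fs m, i.factorial : ℕ) = wm m 9 := fun m => wm_eq m 9
  have hΦ : ∀ t ∈ ts, ∀ m, wt f t m = Φ t (fs m) := by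
    intro t ht m
    simp only [wt, Φ, hw, hψ t ht m]
  have hl : ∑ T ∈ (range (8 + 1)).powerset, ((∏ i ∈ T, i.factorial : ℕ) : ℝ) * form G B A f T
      = ∑ T ∈ (range 9).powerset, (ts.map fun t => Φ t T).sum := by
    apply Finset.sum_congr rfl
    intro T hT
    obtain ⟨m, rfl⟩ := exists_mask T fun i hi => by
      have := Finset.mem_powerset.1 hT hi; simpa using this
    rw [form_eq h f m, ← List.sum_map_mul_left]
    apply sum_congr_list
    intro t ht
    rw [hψ t ht m]
  rw [hl, sum_swap]
  have h1 : (ts.map fun t => ∑ T ∈ (range 9).powerset, Φ t T).sum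
      = (ts.map fun t => ∑ N ∈ range 14, ∑ M ∈ range 60, shv (Φ t) N M t.k t.a).sum := by
    apply sum_congr_list
    intro t ht
    obtain ⟨_, h2, h3⟩ := hts t ht
    exact sum_shv (Φ t) t.k t.a (by omega) h3
  rw [h1, ← sum_swap2]
  apply Finset.sum_congr rfl
  intro N _
  rw [← sum_swap2]
  apply Finset.sum_congr rfl
  intro M _
  rw [sum_consS, gl, List.map_map]
  have h4 := group_sum ks ks_nodup ts (fun k a t => shv (Φ t) N M k a)
    (fun t ht => mem_ks (hts t ht).2.1 (hts t ht).2.2)
  rw [← h4]
  apply sum_congr_list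
  intro p _
  simp only [Function.comp]
  rw [sum_cons1 f Φ (grp ts p.1 p.2) (fun t ht => hΦ t (List.mem_of_mem_filter ht))]

/-- the check of a block -/
def chk (l : List (ℕ × ℕ × List Term)) (N M : ℕ) : Bool :=
  okC (enum 9 N M) (consS N M l) && psd 40 (acc (enum 9 N M) (consS N M l))

theorem psd_of_chk {G : List (ℕ × ℤ)} {B A : List (ℕ × ℕ × ℕ × ℕ × ℤ)} (h : Adm 8 G B A)
    (hc : ∀ N < 14, ∀ M < 60, chk (gl (terms G B A)) N M = true) : PSD 8 G B A := by
  intro f
  rw [regroup h f]
  apply Finset.sum_nonneg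
  intro N hN
  apply Finset.sum_nonneg
  intro M hM
  have := hc N (Finset.mem_range.1 hN) M (Finset.mem_range.1 hM)
  simp only [chk, Bool.and_eq_true] at this
  exact sum_nonneg_of_check _ _ _ _ this.1 this.2

end Crest.Agent.R340.LP665
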