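import Crest.Agent.R340.LPC_665

/-!
# Unattainable blocks contribute nothing (helper249, R340, S0533)

A block `(N, M)` with no set of orbitals `< 9` having `N` elements and sum `M` need not be checked.
-/

set_option autoImplicit false

namespace Crest.Agent.R340.LP665

open Finset Cert132

/-- `h` vanishes on the sets of orbitals `< 9` with `N` elements and sum `M` -/
def Van (N M : ℕ) (h : Finset ℕ → ℝ) : Prop :=
  ∀ T : Finset ℕ, (∀ i ∈ T, i < 9) → T.card = N → ∑ i ∈ T, i = M → h T = 0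

theorem van_dl {N M j : ℕ} {h : Finset ℕ → ℝ} (hv : Van (N + 1) (M + j) h) (hj : j < 9) :
    Van N M (dl j h) := by
  intro T hT hN hM
  unfold dl
  split_ifs with hjT
  · rfl
  · rw [hv (insert j T) ?_ ?_ ?_, smul_zero]
    · intro i hi
      rcases Finset.mem_insert.1 hi with rfl | hi
      · exact hj
      · exact hT i hi
    · rw [Finset.card_insert_of_notMem hjT, hN]
    · rw [Finset.sum_insert hjT, hM]; omega

theorem van_wl {N M q : ℕ} {h : Finset ℕ → ℝ} (hv : Van (N + 2) (M + (q + 1)) h) (hq : q < 8) :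
    Van N M (wl q h) := by
  intro T hT hN hM
  unfold wl
  refine Finset.sum_eq_zero fun i hi => ?_
  have hi' : i < q / 2 + 1 := Finset.mem_range.1 hi
  have h1 : Van (N + 1) (M + (q + 1 - i)) (dl i h) := by
    apply van_dl _ (by omega)
    have : M + (q + 1 - i) + i = M + (q + 1) := by omega
    rw [this]
    exact hv
  rw [(van_dl h1 (by omega)) T hT hN hM, smul_zero]

theorem tvan {G : List (ℕ × ℤ)} {B A : List (ℕ × ℕ × ℕ × ℕ × ℤ)} (h : Adm 8 G B A)
    (f : Finset ℕ → ℝ) {N M : ℕ} (hv : Van N M f) :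
    ∀ t ∈ terms G B A, t.k ≤ N → t.a ≤ M → ∀ m, (fs m).card = N - t.k →
      ∑ i ∈ fs m, i = M - t.a → tval (fun m => f (fs m)) m t = 0 := by
  obtain ⟨hG, hB, hA⟩ := h
  have hlt : ∀ m, ∀ i ∈ fs m, i < 9 := fun m i hi => (mem_fs.1 hi).1
  intro t ht
  simp only [terms, List.mem_append, List.mem_map] at ht
  rcases ht with ⟨x, hx, rfl⟩ | ⟨x, hx, rfl⟩ | ⟨x, hx, rfl⟩
  · intro hk ha m hc hs
    simp only at hk ha hc hs
    have hv' : Van (N - 2 + 2) (M - (x.1 + 1) + (x.1 + 1)) f := by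
      rw [Nat.sub_add_cancel hk, Nat.sub_add_cancel ha]; exact hv
    have e := (van_wl hv' (hG x hx)) (fs m) (hlt m) hc hs
    simp only [tval, sem_wlL (sem_F0 f) (hG x hx) m, e]
    ring
  · obtain ⟨h1, h2, h3, h4⟩ := hB x hx
    intro hk ha m hc hs
    simp only at hk ha hc hs
    have hv' : Van (N - 3 + 1 + 2) (M - (x.1 + 1 + x.2.1) + x.2.1 + (x.1 + 1)) f := by
      have e1 : N - 3 + 1 + 2 = N := by omega
      have e2 : M - (x.1 + 1 + x.2.1) + x.2.1 + (x.1 + 1) = M := by omega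
      rw [e1, e2]; exact hv
    have e := (van_dl (van_wl hv' h1) (by omega : x.2.1 < 9)) (fs m) (hlt m) hc hs
    have e1 := sem_dlL (sem_wlL (sem_F0 f) h1) (j := x.2.1) (by omega) m
    simp only [tval, e1, e]
    ring
  · obtain ⟨h1, h2, h3, h4⟩ := hA x hx
    intro hk ha m hc hs
    simp only at hk ha hc hs
    have hv' : Van (N - 4 + 2 + 2) (M - (x.1 + 1 + (x.2.1 + 1)) + (x.2.1 + 1) + (x.1 + 1)) f := by
      have e1 : N - 4 + 2 + 2 = N := by omega
      have e2 : M - (x.1 + 1 + (x.2.1 + 1)) + (x.2.1 + 1) + (x.1 + 1) = M := by omega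
      rw [e1, e2]; exact hv
    have e := (van_wl (van_wl hv' h1) h2) (fs m) (hlt m) hc hs
    have e1 := sem_wlL (sem_wlL (sem_F0 f) h1) h2 m
    simp only [tval, e1, e]
    ring

theorem mem_enum {N M m : ℕ} (hm : m ∈ enum 9 N M) : (fs m).card = N ∧ ∑ i ∈ fs m, i = M := by
  by_contra hc
  have h1 := sum_enum (fun T => if (T.card = N ∧ ∑ i ∈ T, i = M) then (0 : ℝ) else 1) 9 N M le_rfl
  have h2 : ∑ T ∈ (range 9).powerset with (T.card = N ∧ ∑ i ∈ T, i = M),
      (if (T.card = N ∧ ∑ i ∈ T, i = M) then (0 : ℝ) else 1) = 0 := by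
    refine Finset.sum_eq_zero fun T hT => ?_
    rw [if_pos (Finset.mem_filter.1 hT).2]
  rw [h2] at h1
  have h3 : (1 : ℝ) ≤ ((enum 9 N M).map fun m =>
      (if ((fs m).card = N ∧ ∑ i ∈ fs m, i = M) then (0 : ℝ) else 1)).sum := by
    refine List.single_le_sum ?_ 1 ?_
    · intro x hx
      obtain ⟨m', _, rfl⟩ := List.mem_map.1 hx
      split_ifs <;> norm_num
    · refine List.mem_map.2 ⟨m, hm, ?_⟩
      rw [if_neg hc]
  rw [← h1] at h3
  norm_num at h3

theorem van_of_enum_nil {N M : ℕ} (he : enum 9 N M = []) (f : Finset ℕ → ℝ) : Van N M f := by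
  intro T hT hN hM
  exfalso
  have h1 := sum_enum (fun _ => (1 : ℝ)) 9 N M le_rfl
  rw [he, List.map_nil, List.sum_nil, Finset.sum_const, nsmul_eq_mul, mul_one, Nat.cast_eq_zero,
    Finset.card_eq_zero] at h1
  have h2 : T ∈ (range 9).powerset.filter (fun T => T.card = N ∧ ∑ i ∈ T, i = M) :=
    Finset.mem_filter.2 ⟨Finset.mem_powerset.2 fun i hi => Finset.mem_range.2 (hT i hi), hN, hM⟩
  rw [h1] at h2
  exact absurd h2 (Finset.notMem_empty _)

theorem block_zero {G : List (ℕ × ℤ)} {B A : List (ℕ × ℕ × ℕ × ℕ × ℤ)} (h : Adm 8 G B A)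
    (f : Finset ℕ → ℝ) {N M : ℕ} (he : enum 9 N M = []) :
    ((consS N M (gl (terms G B A))).map (cval fun m => f (fs m))).sum = 0 := by
  have hv := van_of_enum_nil he f
  have ht := tvan h f hv
  rw [sum_consS, gl, List.map_map]
  apply List.sum_eq_zero
  intro y hy
  obtain ⟨p, _, rfl⟩ := List.mem_map.1 hy
  simp only [Function.comp]
  unfold cons1
  cases hb : (Nat.ble p.1 N && Nat.ble p.2 M)
  · simp
  · simp only [cond_true]
    rw [Bool.and_eq_true] at hb
    have hk := Nat.le_of_ble_eq_true hb.1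
    have ha := Nat.le_of_ble_eq_true hb.2
    rw [sum_consM]
    apply List.sum_eq_zero
    intro z hz
    obtain ⟨m, hm, rfl⟩ := List.mem_map.1 hz
    apply List.sum_eq_zero
    intro w hw
    obtain ⟨t, ht', rfl⟩ := List.mem_map.1 hw
    obtain ⟨hc, hs⟩ := mem_enum hm
    rw [grp, List.mem_filter, Bool.and_eq_true] at ht'
    have e1 := Nat.eq_of_beq_eq_true ht'.2.1
    have e2 := Nat.eq_of_beq_eq_true ht'.2.2
    have hc' : (fs m).card = N - t.k := by rw [e1]; exact hc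
    have hs' : ∑ i ∈ fs m, i = M - t.a := by rw [e2]; exact hs
    rw [wt, ht t ht'.1 (by omega) (by omega) m hc' hs', mul_zero]

/-- positivity from the checks of the attainable blocks -/
theorem psd_of_chk2 {G : List (ℕ × ℤ)} {B A : List (ℕ × ℕ × ℕ × ℕ × ℤ)} (h : Adm 8 G B A)
    (hc : ∀ N < 14, ∀ M < 60, enum 9 N M = [] ∨ chk (gl (terms G B A)) N M = true) :
    PSD 8 G B A := by
  intro f
  rw [regroup h f]
  apply Finset.sum_nonneg
  intro N hN
  apply Finset.sum_nonneg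
  intro M hM
  rcases hc N (Finset.mem_range.1 hN) M (Finset.mem_range.1 hM) with he | hb
  · exact (block_zero h f he).ge
  · simp only [chk, Bool.and_eq_true] at hb
    exact sum_nonneg_of_check _ _ _ _ hb.1 hb.2

/-- the attainable range -/
def att (N M : ℕ) : Bool :=
  Nat.ble N 9 && (Nat.ble (Nat.mul N (Nat.sub N 1)) (Nat.mul 2 M) &&
    Nat.ble (Nat.mul 2 M) (Nat.sub (Nat.mul 16 N) (Nat.mul N (Nat.sub N 1))))

theorem att_chk : ∀ T ∈ (range 9).powerset, att T.card (∑ i ∈ T, i) = true := by decide +kernel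

theorem att_iff {N M : ℕ} : att N M = true ↔ N ≤ 9 ∧ N * (N - 1) ≤ 2 * M ∧
    2 * M ≤ 16 * N - N * (N - 1) := by
  unfold att
  rw [Bool.and_eq_true, Bool.and_eq_true]
  constructor
  · rintro ⟨h1, h2, h3⟩
    exact ⟨Nat.le_of_ble_eq_true h1, Nat.le_of_ble_eq_true h2, Nat.le_of_ble_eq_true h3⟩
  · rintro ⟨h1, h2, h3⟩
    exact ⟨Nat.ble_eq_true_of_le h1, Nat.ble_eq_true_of_le h2, Nat.ble_eq_true_of_le h3⟩

theorem enum_nil {N M : ℕ} (h : ¬ att N M = true) : enum 9 N M = [] := by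
  refine List.eq_nil_iff_forall_not_mem.2 fun m hm => h ?_
  obtain ⟨h1, h2⟩ := mem_enum hm
  have h3 := att_chk (fs m) (Finset.mem_powerset.2 fun i hi => Finset.mem_range.2 (mem_fs.1 hi).1)
  rwa [h1, h2] at h3

/-- positivity from the checks of the attainable blocks, final form -/
theorem psd_of_chk3 {G : List (ℕ × ℤ)} {B A : List (ℕ × ℕ × ℕ × ℕ × ℤ)} (h : Adm 8 G B A)
    (hc : ∀ N M, N ≤ 9 → N * (N - 1) ≤ 2 * M → 2 * M ≤ 16 * N - N * (N - 1) →
      chk (gl (terms G B A)) N M = true) :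
    PSD 8 G B A := by
  refine psd_of_chk2 h fun N _ M _ => ?_
  by_cases ha : att N M = true
  · obtain ⟨h1, h2, h3⟩ := att_iff.1 ha
    exact Or.inr (hc N M h1 h2 h3)
  · exact Or.inl (enum_nil ha)

end Crest.Agent.R340.LP665
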