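import Crest.Agent.R340.LQ_249

/-!
# Positivity of the local certificate for S0533 (helper665, R340)

`psd8 : PSD 8 G8 B8 A8` (interface of `Cert_132`). The kernel checks are in `LQA_249` .. `LQJ_249`
(one theorem per attainable block).
-/

set_option autoImplicit false

namespace Crest.Agent.R340.LP665

open Cert132

/-- The local form of the P = 8 certificate is nonnegative. -/
theorem psd8 : PSD 8 G8 B8 A8 := psd8'

end Crest.Agent.R340.LP665
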