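import Crest.Agent.R340.LPU_249

/-!
# Kernel check of blocks of the P = 8 certificate: 4 particles (R340, S0533)

One theorem per attainable block `(N, M)`, so that the kernel caches stay small; the checker is
helper665's (LPA, LPB, LPC).
-/

set_option autoImplicit false
set_option Elab.async false

namespace Crest.Agent.R340.LP665

open Cert132

set_option maxRecDepth 100000 in
theorem c4m6 : chk (gl (terms G8 B8 A8)) 4 6 = true := by decide +kernel

set_option maxRecDepth 100000 in
theorem c4m7 : chk (gl (terms G8 B8 A8)) 4 7 = true := by decide +kernel

set_option maxRecDepth 100000 in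
theorem c4m8 : chk (gl (terms G8 B8 A8)) 4 8 = true := by decide +kernel

set_option maxRecDepth 100000 in
theorem c4m9 : chk (gl (terms G8 B8 A8)) 4 9 = true := by decide +kernel

set_option maxRecDepth 100000 in
theorem c4m10 : chk (gl (terms G8 B8 A8)) 4 10 = true := by decide +kernel

set_option maxRecDepth 100000 in
theorem c4m11 : chk (gl (terms G8 B8 A8)) 4 11 = true := by decide +kernel

set_option maxRecDepth 100000 in
theorem c4m12 : chk (gl (terms G8 B8 A8)) 4 12 = true := by decide +kernel

set_option maxRecDepth 100000 in
theorem c4m13 : chk (gl (terms G8 B8 A8)) 4 13 = true := by decide +kernel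

set_option maxRecDepth 100000 in
theorem c4m14 : chk (gl (terms G8 B8 A8)) 4 14 = true := by decide +kernel

set_option maxRecDepth 100000 in
theorem c4m15 : chk (gl (terms G8 B8 A8)) 4 15 = true := by decide +kernel

set_option maxRecDepth 100000 in
theorem c4m16 : chk (gl (terms G8 B8 A8)) 4 16 = true := by decide +kernel

set_option maxRecDepth 100000 in
theorem c4m17 : chk (gl (terms G8 B8 A8)) 4 17 = true := by decide +kernel

set_option maxRecDepth 100000 in
theorem c4m18 : chk (gl (terms G8 B8 A8)) 4 18 = true := by decide +kernel

set_option maxRecDepth 100000 in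
theorem c4m19 : chk (gl (terms G8 B8 A8)) 4 19 = true := by decide +kernel

set_option maxRecDepth 100000 in
theorem c4m20 : chk (gl (terms G8 B8 A8)) 4 20 = true := by decide +kernel

set_option maxRecDepth 100000 in
theorem c4m21 : chk (gl (terms G8 B8 A8)) 4 21 = true := by decide +kernel

set_option maxRecDepth 100000 in
theorem c4m22 : chk (gl (terms G8 B8 A8)) 4 22 = true := by decide +kernel

set_option maxRecDepth 100000 in
theorem c4m23 : chk (gl (terms G8 B8 A8)) 4 23 = true := by decide +kernel

set_option maxRecDepth 100000 in
theorem c4m24 : chk (gl (terms G8 B8 A8)) 4 24 = true := by decide +kernel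

set_option maxRecDepth 100000 in
theorem c4m25 : chk (gl (terms G8 B8 A8)) 4 25 = true := by decide +kernel

set_option maxRecDepth 100000 in
theorem c4m26 : chk (gl (terms G8 B8 A8)) 4 26 = true := by decide +kernel

end Crest.Agent.R340.LP665
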