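import Crest.Agent.R340.LPU_249

/-!
# Kernel check of blocks of the P = 8 certificate: 5 particles (R340, S0533)

One theorem per attainable block `(N, M)`, so that the kernel caches stay small; the checker is
helper665's (LPA, LPB, LPC).
-/

set_option autoImplicit false
set_option Elab.async false

namespace Crest.Agent.R340.LP665

open Cert132

set_option maxRecDepth 100000 in
theorem c5m10 : chk (gl (terms G8 B8 A8)) 5 10 = true := by decide +kernel

set_option maxRecDepth 100000 in
theorem c5m11 : chk (gl (terms G8 B8 A8)) 5 11 = true := by decide +kernel

set_option maxRecDepth 100000 in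
theorem c5m12 : chk (gl (terms G8 B8 A8)) 5 12 = true := by decide +kernel

set_option maxRecDepth 100000 in
theorem c5m13 : chk (gl (terms G8 B8 A8)) 5 13 = true := by decide +kernel

set_option maxRecDepth 100000 in
theorem c5m14 : chk (gl (terms G8 B8 A8)) 5 14 = true := by decide +kernel

set_option maxRecDepth 100000 in
theorem c5m15 : chk (gl (terms G8 B8 A8)) 5 15 = true := by decide +kernel

set_option maxRecDepth 100000 in
theorem c5m16 : chk (gl (terms G8 B8 A8)) 5 16 = true := by decide +kernel

set_option maxRecDepth 100000 in
theorem c5m17 : chk (gl (terms G8 B8 A8)) 5 17 = true := by decide +kernel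

set_option maxRecDepth 100000 in
theorem c5m18 : chk (gl (terms G8 B8 A8)) 5 18 = true := by decide +kernel

set_option maxRecDepth 100000 in
theorem c5m19 : chk (gl (terms G8 B8 A8)) 5 19 = true := by decide +kernel

set_option maxRecDepth 100000 in
theorem c5m20 : chk (gl (terms G8 B8 A8)) 5 20 = true := by decide +kernel

end Crest.Agent.R340.LP665
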