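import Crest.Agent.R340.LPU_249

/-!
# Kernel check of blocks of the P = 8 certificate: 6 particles (R340, S0533)

One theorem per attainable block `(N, M)`, so that the kernel caches stay small; the checker is
helper665's (LPA, LPB, LPC).
-/

set_option autoImplicit false
set_option Elab.async false

namespace Crest.Agent.R340.LP665

open Cert132

set_option maxRecDepth 100000 in
theorem c6m25 : chk (gl (terms G8 B8 A8)) 6 25 = true := by decide +kernel

set_option maxRecDepth 100000 in
theorem c6m26 : chk (gl (terms G8 B8 A8)) 6 26 = true := by decide +kernel

set_option maxRecDepth 100000 in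
theorem c6m27 : chk (gl (terms G8 B8 A8)) 6 27 = true := by decide +kernel

set_option maxRecDepth 100000 in
theorem c6m28 : chk (gl (terms G8 B8 A8)) 6 28 = true := by decide +kernel

set_option maxRecDepth 100000 in
theorem c6m29 : chk (gl (terms G8 B8 A8)) 6 29 = true := by decide +kernel

set_option maxRecDepth 100000 in
theorem c6m30 : chk (gl (terms G8 B8 A8)) 6 30 = true := by decide +kernel

set_option maxRecDepth 100000 in
theorem c6m31 : chk (gl (terms G8 B8 A8)) 6 31 = true := by decide +kernel

set_option maxRecDepth 100000 in
theorem c6m32 : chk (gl (terms G8 B8 A8)) 6 32 = true := by decide +kernel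

set_option maxRecDepth 100000 in
theorem c6m33 : chk (gl (terms G8 B8 A8)) 6 33 = true := by decide +kernel

end Crest.Agent.R340.LP665
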