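import Crest.Agent.R340.LPU_249

/-!
# Kernel check of blocks of the P = 8 certificate: 7 particles (R340, S0533)

One theorem per attainable block `(N, M)`, so that the kernel caches stay small; the checker is
helper665's (LPA, LPB, LPC).
-/

set_option autoImplicit false
set_option Elab.async false

namespace Crest.Agent.R340.LP665

open Cert132

set_option maxRecDepth 100000 in
theorem c7m21 : chk (gl (terms G8 B8 A8)) 7 21 = true := by decide +kernel

set_option maxRecDepth 100000 in
theorem c7m22 : chk (gl (terms G8 B8 A8)) 7 22 = true := by decide +kernel

set_option maxRecDepth 100000 in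
theorem c7m23 : chk (gl (terms G8 B8 A8)) 7 23 = true := by decide +kernel

set_option maxRecDepth 100000 in
theorem c7m24 : chk (gl (terms G8 B8 A8)) 7 24 = true := by decide +kernel

set_option maxRecDepth 100000 in
theorem c7m25 : chk (gl (terms G8 B8 A8)) 7 25 = true := by decide +kernel

set_option maxRecDepth 100000 in
theorem c7m26 : chk (gl (terms G8 B8 A8)) 7 26 = true := by decide +kernel

set_option maxRecDepth 100000 in
theorem c7m27 : chk (gl (terms G8 B8 A8)) 7 27 = true := by decide +kernel

set_option maxRecDepth 100000 in
theorem c7m28 : chk (gl (terms G8 B8 A8)) 7 28 = true := by decide +kernel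

end Crest.Agent.R340.LP665
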