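import Crest.Agent.R340.LQA_249
import Crest.Agent.R340.LQB_249
import Crest.Agent.R340.LQC_249
import Crest.Agent.R340.LQD_249
import Crest.Agent.R340.LQE_249
import Crest.Agent.R340.LQF_249
import Crest.Agent.R340.LQG_249
import Crest.Agent.R340.LQH_249
import Crest.Agent.R340.LQI_249
import Crest.Agent.R340.LQJ_249

/-!
# Positivity of the local certificate for S0533 (helper665, helper249; R340)

`psd8' : PSD 8 G8 B8 A8` with light kernel checks (one block per theorem).
-/

set_option autoImplicit false

namespace Crest.Agent.R340.LP665

open Cert132

/-- The local form of the P = 8 certificate is nonnegative. -/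
theorem psd8' : PSD 8 G8 B8 A8 := by
  refine psd_of_chk3 adm fun N M hN h1 h2 => ?_
  interval_cases N
  · have g1 : 0 ≤ M := by omega
    have g2 : M ≤ 0 := by omega
    clear h1 h2
    interval_cases M
    · exact c0m0
  · have g1 : 0 ≤ M := by omega
    have g2 : M ≤ 8 := by omega
    clear h1 h2
    interval_cases M
    · exact c1m0
    · exact c1m1
    · exact c1m2
    · exact c1m3
    · exact c1m4
    · exact c1m5
    · exact c1m6
    · exact c1m7
    · exact c1m8
  · have g1 : 1 ≤ M := by omega
    have g2 : M ≤ 15 := by omega
    clear h1 h2
    interval_cases M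
    · exact c2m1
    · exact c2m2
    · exact c2m3
    · exact c2m4
    · exact c2m5
    · exact c2m6
    · exact c2m7
    · exact c2m8
    · exact c2m9
    · exact c2m10
    · exact c2m11
    · exact c2m12
    · exact c2m13
    · exact c2m14
    · exact c2m15
  · have g1 : 3 ≤ M := by omega
    have g2 : M ≤ 21 := by omega
    clear h1 h2
    interval_cases M
    · exact c3m3
    · exact c3m4
    · exact c3m5
    · exact c3m6
    · exact c3m7
    · exact c3m8
    · exact c3m9
    · exact c3m10
    · exact c3m11
    · exact c3m12
    · exact c3m13
    · exact c3m14
    · exact c3m15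
    · exact c3m16
    · exact c3m17
    · exact c3m18
    · exact c3m19
    · exact c3m20
    · exact c3m21
  · have g1 : 6 ≤ M := by omega
    have g2 : M ≤ 26 := by omega
    clear h1 h2
    interval_cases M
    · exact c4m6
    · exact c4m7
    · exact c4m8
    · exact c4m9
    · exact c4m10
    · exact c4m11
    · exact c4m12
    · exact c4m13
    · exact c4m14
    · exact c4m15
    · exact c4m16
    · exact c4m17
    · exact c4m18
    · exact c4m19
    · exact c4m20
    · exact c4m21
    · exact c4m22
    · exact c4m23
    · exact c4m24
    · exact c4m25
    · exact c4m26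
  · have g1 : 10 ≤ M := by omega
    have g2 : M ≤ 30 := by omega
    clear h1 h2
    interval_cases M
    · exact c5m10
    · exact c5m11
    · exact c5m12
    · exact c5m13
    · exact c5m14
    · exact c5m15
    · exact c5m16
    · exact c5m17
    · exact c5m18
    · exact c5m19
    · exact c5m20
    · exact c5m21
    · exact c5m22
    · exact c5m23
    · exact c5m24
    · exact c5m25
    · exact c5m26
    · exact c5m27
    · exact c5m28
    · exact c5m29
    · exact c5m30
  · have g1 : 15 ≤ M := by omega
    have g2 : M ≤ 33 := by omega
    clear h1 h2
    interval_cases M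
    · exact c6m15
    · exact c6m16
    · exact c6m17
    · exact c6m18
    · exact c6m19
    · exact c6m20
    · exact c6m21
    · exact c6m22
    · exact c6m23
    · exact c6m24
    · exact c6m25
    · exact c6m26
    · exact c6m27
    · exact c6m28
    · exact c6m29
    · exact c6m30
    · exact c6m31
    · exact c6m32
    · exact c6m33
  · have g1 : 21 ≤ M := by omega
    have g2 : M ≤ 35 := by omega
    clear h1 h2
    interval_cases M
    · exact c7m21
    · exact c7m22
    · exact c7m23
    · exact c7m24
    · exact c7m25
    · exact c7m26
    · exact c7m27
    · exact c7m28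
    · exact c7m29
    · exact c7m30
    · exact c7m31
    · exact c7m32
    · exact c7m33
    · exact c7m34
    · exact c7m35
  · have g1 : 28 ≤ M := by omega
    have g2 : M ≤ 36 := by omega
    clear h1 h2
    interval_cases M
    · exact c8m28
    · exact c8m29
    · exact c8m30
    · exact c8m31
    · exact c8m32
    · exact c8m33
    · exact c8m34
    · exact c8m35
    · exact c8m36
  · have g1 : 36 ≤ M := by omega
    have g2 : M ≤ 36 := by omega
    clear h1 h2
    interval_cases M
    · exact c9m36

end Crest.Agent.R340.LP665
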