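import Mathlib.Analysis.SpecialFunctions.Exponential
import Mathlib.Analysis.CStarAlgebra.Exponential
import Mathlib.Analysis.CStarAlgebra.Classes
import Mathlib.Analysis.Calculus.MeanValue
import Mathlib.Analysis.Calculus.Deriv.Pow
import Mathlib.Analysis.Calculus.Deriv.Star
import Mathlib.Topology.Algebra.Order.Floor
import Mathlib.MeasureTheory.Integral.Lebesgue.Add
import Mathlib.Algebra.Lie.OfAssociative

/-!
Abstract Lieb-Robinson bound in a C*-algebra (helper667).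

`A` is a C*-algebra, `H` a self-adjoint element, `tau H t X = exp(itH) X exp(-itH)`.
`g : ι → S → A` is a family of bounded "generators" indexed by a measure space `S`
(for the lowest Landau level: the annihilators of the rotated orbitals 0, 1 at `z` and their
adjoints).  If the double commutator with `H` is dominated by the commutator profile,
`‖[X,[H,g k w]]‖ ≤ ∫ κ(w,z) prof X z dμ(z)`, and `ρ` is a positive weight with
`∫ κ(w,z) ρ(z) dμ(z) ≤ v ρ(w)`, then `prof X ≤ C ρ` implies `prof (τ_t X) ≤ C e^{v|t|} ρ`.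
-/

set_option autoImplicit false

open scoped ENNReal NNReal
open MeasureTheory

namespace Crest.Agent.R340.LR667

section group

variable {A : Type*} [CStarAlgebra A]

/-- `exp(itH)`. -/
noncomputable def U (H : A) (t : ℝ) : A := NormedSpace.exp (t • (Complex.I • H))

/-- Heisenberg evolution. -/
noncomputable def tau (H : A) (t : ℝ) (X : A) : A := U H t * X * U H (-t)

@[simp] theorem U_zero (H : A) : U H 0 = 1 := by
  simp [U, NormedSpace.exp_zero]

theorem U_add (H : A) (s t : ℝ) : U H (s + t) = U H s * U H t := by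
  let _ : NormedAlgebra ℚ A := NormedAlgebra.restrictScalars ℚ ℂ A
  simp only [U, add_smul]
  apply NormedSpace.exp_add_of_commute
  exact ((Commute.refl (Complex.I • H)).smul_left s).smul_right t

@[simp] theorem U_mul_neg (H : A) (t : ℝ) : U H t * U H (-t) = 1 := by
  rw [← U_add]; simp

@[simp] theorem U_neg_mul (H : A) (t : ℝ) : U H (-t) * U H t = 1 := by
  rw [← U_add]; simp

theorem U_neg_left (H : A) (t : ℝ) : U (-H) t = U H (-t) := by
  simp [U]

theorem star_U {H : A} (hH : IsSelfAdjoint H) (t : ℝ) : star (U H t) = U H (-t) := by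
  let _ : NormedAlgebra ℚ A := NormedAlgebra.restrictScalars ℚ ℂ A
  have h : star (t • (Complex.I • H)) = (-t) • (Complex.I • H) := by
    rw [star_smul, star_smul, hH.star_eq]
    simp
  rw [U, NormedSpace.star_exp, h, U]

theorem U_mem_unitary {H : A} (hH : IsSelfAdjoint H) (t : ℝ) : U H t ∈ unitary A := by
  rw [Unitary.mem_iff, star_U hH]
  simp

theorem norm_U_mul {H : A} (hH : IsSelfAdjoint H) (t : ℝ) (X : A) : ‖U H t * X‖ = ‖X‖ :=
  CStarRing.norm_mem_unitary_mul X (U_mem_unitary hH t)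

theorem norm_mul_U {H : A} (hH : IsSelfAdjoint H) (t : ℝ) (X : A) : ‖X * U H t‖ = ‖X‖ :=
  CStarRing.norm_mul_mem_unitary X (U_mem_unitary hH t)

theorem norm_tau {H : A} (hH : IsSelfAdjoint H) (t : ℝ) (X : A) : ‖tau H t X‖ = ‖X‖ := by
  rw [tau, norm_mul_U hH, norm_U_mul hH]

@[simp] theorem tau_zero (H X : A) : tau H 0 X = X := by simp [tau]

theorem tau_add (H : A) (t : ℝ) (X Y : A) : tau H t (X + Y) = tau H t X + tau H t Y := by
  simp [tau, mul_add, add_mul]

theorem tau_sub (H : A) (t : ℝ) (X Y : A) : tau H t (X - Y) = tau H t X - tau H t Y := by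
  simp [tau, mul_sub, sub_mul]

theorem tau_smul (H : A) (t : ℝ) (c : ℂ) (X : A) : tau H t (c • X) = c • tau H t X := by
  simp [tau]

theorem tau_neg (H : A) (t : ℝ) (X : A) : tau H t (-X) = -tau H t X := by
  simp [tau]

theorem tau_one (H : A) (t : ℝ) : tau H t 1 = 1 := by simp [tau]

theorem tau_mul (H : A) (t : ℝ) (X Y : A) : tau H t (X * Y) = tau H t X * tau H t Y := by
  simp only [tau]
  calc U H t * (X * Y) * U H (-t) = U H t * X * 1 * (Y * U H (-t)) := by
        simp only [mul_assoc, one_mul]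
    _ = U H t * X * (U H (-t) * U H t) * (Y * U H (-t)) := by rw [U_neg_mul]
    _ = _ := by simp only [mul_assoc]

theorem tau_lie (H : A) (t : ℝ) (X Y : A) : tau H t ⁅X, Y⁆ = ⁅tau H t X, tau H t Y⁆ := by
  simp only [Ring.lie_def, tau_sub, tau_mul]

theorem tau_star {H : A} (hH : IsSelfAdjoint H) (t : ℝ) (X : A) :
    tau H t (star X) = star (tau H t X) := by
  simp [tau, star_mul, star_U hH, mul_assoc]

theorem tau_tau (H : A) (s t : ℝ) (X : A) : tau H s (tau H t X) = tau H (s + t) X := by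
  simp only [tau, U_add, neg_add, mul_assoc]
  congr 3
  rw [← U_add, ← U_add, add_comm]

@[simp] theorem tau_neg_tau (H : A) (t : ℝ) (X : A) : tau H (-t) (tau H t X) = X := by
  rw [tau_tau]; simp

@[simp] theorem tau_tau_neg (H : A) (t : ℝ) (X : A) : tau H t (tau H (-t) X) = X := by
  rw [tau_tau]; simp

theorem tau_neg_left (H : A) (t : ℝ) (X : A) : tau (-H) t X = tau H (-t) X := by
  simp [tau, U_neg_left]

theorem U_commute (H : A) (t : ℝ) : Commute H (U H t) := by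
  let _ : NormedAlgebra ℚ A := NormedAlgebra.restrictScalars ℚ ℂ A
  have h : Commute H (t • (Complex.I • H)) :=
    ((Commute.refl H).smul_right Complex.I).smul_right t
  exact h.exp_right

theorem hasDerivAt_U (H : A) (t : ℝ) : HasDerivAt (U H) (U H t * (Complex.I • H)) t :=
  hasDerivAt_exp_smul_const (𝕂 := ℝ) (Complex.I • H) t

theorem hasDerivAt_U_neg (H : A) (t : ℝ) :
    HasDerivAt (fun s => U H (-s)) (-(U H (-t) * (Complex.I • H))) t := by
  have h := (hasDerivAt_U H (-t)).scomp t (hasDerivAt_neg t)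
  simpa [Function.comp_def] using h

theorem hasDerivAt_tau (H : A) (X : A) (t : ℝ) :
    HasDerivAt (fun s => tau H s X) (tau H t (Complex.I • ⁅H, X⁆)) t := by
  have h := ((hasDerivAt_U H t).mul_const X).mul (hasDerivAt_U_neg H t)
  refine h.congr_deriv ?_
  have hc : U H (-t) * H = H * U H (-t) := (U_commute H (-t)).eq.symm
  simp only [tau, Ring.lie_def, mul_smul_comm, smul_mul_assoc, mul_sub, sub_mul, smul_sub,
    mul_neg, mul_assoc, hc]
  abel

theorem hasDerivAt_tau_neg (H : A) (X : A) (t : ℝ) :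
    HasDerivAt (fun s => tau H (-s) X) (-(tau H (-t) (Complex.I • ⁅H, X⁆))) t := by
  have h := (hasDerivAt_tau H X (-t)).scomp t (hasDerivAt_neg t)
  simpa [Function.comp_def] using h

theorem lie_neg' (X Y : A) : ⁅X, -Y⁆ = -⁅X, Y⁆ := by
  simp only [Ring.lie_def, mul_neg, neg_mul]; abel

theorem neg_lie' (X Y : A) : ⁅-X, Y⁆ = -⁅X, Y⁆ := by
  simp only [Ring.lie_def, mul_neg, neg_mul]; abel

theorem lie_smul' (c : ℂ) (X Y : A) : ⁅X, c • Y⁆ = c • ⁅X, Y⁆ := by
  simp only [Ring.lie_def, mul_smul_comm, smul_mul_assoc, smul_sub]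

theorem smul_lie' (c : ℂ) (X Y : A) : ⁅c • X, Y⁆ = c • ⁅X, Y⁆ := by
  simp only [Ring.lie_def, mul_smul_comm, smul_mul_assoc, smul_sub]

theorem continuous_tau (H X : A) : Continuous (fun t => tau H t X) :=
  continuous_iff_continuousAt.2 fun t => (hasDerivAt_tau H X t).continuousAt

theorem norm_lie_le (X Y : A) : ‖⁅X, Y⁆‖ ≤ 2 * ‖X‖ * ‖Y‖ := by
  rw [Ring.lie_def]
  calc ‖X * Y - Y * X‖ ≤ ‖X * Y‖ + ‖Y * X‖ := norm_sub_le _ _
    _ ≤ ‖X‖ * ‖Y‖ + ‖Y‖ * ‖X‖ := add_le_add (norm_mul_le _ _) (norm_mul_le _ _)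
    _ = _ := by ring

/-- moving the evolution from one entry of the commutator to the other -/
theorem norm_lie_tau {H : A} (hH : IsSelfAdjoint H) (t : ℝ) (X Y : A) :
    ‖⁅tau H t X, Y⁆‖ = ‖⁅X, tau H (-t) Y⁆‖ := by
  rw [← norm_tau hH (-t) ⁅tau H t X, Y⁆, tau_lie, tau_neg_tau]

end group

section LR

variable {A : Type*} [CStarAlgebra A] {S : Type*} {ι : Type*}

/-- The commutator profile of `X` with respect to the generators `g`. -/
noncomputable def prof (g : ι → S → A) (X : A) (z : S) : ℝ≥0∞ := ⨆ k, ‖⁅X, g k z⁆‖ₑ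

theorem le_prof (g : ι → S → A) (X : A) (z : S) (k : ι) : ‖⁅X, g k z⁆‖ₑ ≤ prof g X z :=
  le_iSup (fun k => ‖⁅X, g k z⁆‖ₑ) k

/-- the majorant of order `n` -/
noncomputable def maj (v C R : ℝ) (n : ℕ) (t : ℝ) : ℝ :=
  C * ∑ j ∈ Finset.range n, (v * t) ^ j / (j.factorial : ℝ) + R * ((v * t) ^ n / (n.factorial : ℝ))

theorem maj_nonneg {v C R : ℝ} (hv : 0 ≤ v) (hC : 0 ≤ C) (hR : 0 ≤ R) (n : ℕ) {t : ℝ}
    (ht : 0 ≤ t) : 0 ≤ maj v C R n t := by
  unfold maj
  positivity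

theorem hasDerivAt_term (v : ℝ) (n : ℕ) (t : ℝ) :
    HasDerivAt (fun s : ℝ => (v * s) ^ (n + 1) / ((n + 1).factorial : ℝ))
      (v * ((v * t) ^ n / (n.factorial : ℝ))) t := by
  have h1 : HasDerivAt (fun s : ℝ => v * s) v t := by
    simpa using (hasDerivAt_id t).const_mul v
  have h := (h1.pow (n + 1)).div_const ((n + 1).factorial : ℝ)
  refine h.congr_deriv ?_
  have hn : ((n + 1 : ℕ) : ℝ) ≠ 0 := by positivity
  have hf : (n.factorial : ℝ) ≠ 0 := by positivity
  rw [Nat.factorial_succ]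
  push_cast at hn ⊢
  field_simp

theorem hasDerivAt_maj (v C R : ℝ) (n : ℕ) (t : ℝ) :
    HasDerivAt (maj v C R (n + 1)) (v * maj v C R n t) t := by
  have hsum : HasDerivAt (fun s : ℝ => ∑ j ∈ Finset.range (n + 1), (v * s) ^ j / (j.factorial : ℝ))
      (∑ j ∈ Finset.range n, v * ((v * t) ^ j / (j.factorial : ℝ))) t := by
    have h : HasDerivAt (fun s : ℝ => ∑ j ∈ Finset.range n,
        (v * s) ^ (j + 1) / ((j + 1).factorial : ℝ) + 1)
        (∑ j ∈ Finset.range n, v * ((v * t) ^ j / (j.factorial : ℝ))) t := by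
      have := (HasDerivAt.fun_sum (u := Finset.range n)
        (fun j _ => hasDerivAt_term v j t)).add_const (1 : ℝ)
      simpa using this
    refine h.congr_of_eventuallyEq (Filter.Eventually.of_forall fun s => ?_)
    simp [Finset.sum_range_succ' _ n]
  have h := (hsum.const_mul C).add ((hasDerivAt_term v n t).const_mul R)
  refine h.congr_deriv ?_
  simp only [maj, Finset.mul_sum]
  rw [mul_add, Finset.mul_sum]
  congr 1
  · exact Finset.sum_congr rfl fun j _ => by ring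
  · ring

theorem maj_zero (v C R : ℝ) (n : ℕ) : maj v C R (n + 1) 0 = C := by
  simp [maj, Finset.sum_range_succ']

theorem tendsto_maj (v C R t : ℝ) :
    Filter.Tendsto (fun n => maj v C R n t) Filter.atTop (nhds (C * Real.exp (v * t))) := by
  have h1 : Filter.Tendsto (fun n : ℕ => ∑ j ∈ Finset.range n, (v * t) ^ j / (j.factorial : ℝ))
      Filter.atTop (nhds (Real.exp (v * t))) := by
    have := (NormedSpace.expSeries_div_hasSum_exp (𝔸 := ℝ) (v * t)).tendsto_sum_nat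
    rwa [← Real.exp_eq_exp_ℝ] at this
  have h2 := FloorSemiring.tendsto_pow_div_factorial_atTop (v * t)
  have h := (h1.const_mul C).add (h2.const_mul R)
  simpa [maj] using h

variable [MeasurableSpace S] (μ : Measure S)

theorem norm_conj_unitary {V : A} (hV : V ∈ unitary A) (X : A) : ‖V * X * star V‖ = ‖X‖ := by
  rw [CStarRing.norm_mul_mem_unitary _ (Unitary.star_mem hV), CStarRing.norm_mem_unitary_mul _ hV]

theorem conj_lie {V : A} (hV : V ∈ unitary A) (X Y : A) :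
    V * ⁅star V * X * V, Y⁆ * star V = ⁅X, V * Y * star V⁆ := by
  have h1 : V * star V = 1 := (Unitary.mem_iff.1 hV).2
  simp only [Ring.lie_def, mul_sub, sub_mul]
  congr 1
  · calc V * (star V * X * V * Y) * star V = (V * star V) * X * (V * Y * star V) := by
          simp only [mul_assoc]
      _ = _ := by rw [h1, one_mul]
  · calc V * (Y * (star V * X * V)) * star V = (V * Y * star V) * X * (V * star V) := by
          simp only [mul_assoc]
      _ = _ := by rw [h1, mul_one]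

theorem norm_lie_conj {V : A} (hV : V ∈ unitary A) (X Y : A) :
    ‖⁅star V * X * V, Y⁆‖ = ‖⁅X, V * Y * star V⁆‖ := by
  rw [← conj_lie hV, norm_conj_unitary hV]

/-- **Abstract Lieb-Robinson bound for a unitary flow** `V' = V K(t)` with `K(t)` skew-adjoint
(time dependent generator). -/
theorem lr_flow {V K : ℝ → A} {T : ℝ} (hV : ∀ t, V t ∈ unitary A) (hV0 : V 0 = 1)
    (hK : ∀ t, star (K t) = -K t)
    (hd : ∀ t ∈ Set.Icc 0 T, HasDerivAt V (V t * K t) t) {g : ι → S → A} {G : ℝ} (hG : 0 ≤ G)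
    (hg : ∀ k z, ‖g k z‖ ≤ G) {κ : S → S → ℝ≥0∞}
    (hκ : ∀ t ∈ Set.Icc 0 T, ∀ (X : A) (k : ι) (w : S),
      ‖⁅X, ⁅K t, g k w⁆⁆‖ₑ ≤ ∫⁻ z, κ w z * prof g X z ∂μ)
    {ρ : S → ℝ} {δ : ℝ} (hδ : 0 < δ) (hρ : ∀ z, δ ≤ ρ z) {v : ℝ} (hv : 0 ≤ v)
    (hv' : ∀ w, ∫⁻ z, κ w z * ENNReal.ofReal (ρ z) ∂μ ≤ ENNReal.ofReal (v * ρ w))
    {X : A} {C : ℝ} (hC : 0 ≤ C) (h0 : ∀ k z, ‖⁅X, g k z⁆‖ ≤ C * ρ z) {t : ℝ}
    (ht : t ∈ Set.Icc 0 T)
    (k : ι) (w : S) : ‖⁅star (V t) * X * V t, g k w⁆‖ ≤ C * Real.exp (v * t) * ρ w := by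
  have hρ0 : ∀ z, 0 < ρ z := fun z => hδ.trans_le (hρ z)
  set R : ℝ := 2 * ‖X‖ * G / δ with hR
  have hR0 : 0 ≤ R := by positivity
  have hVn : ∀ t, ‖star (V t) * X * V t‖ = ‖X‖ := by
    intro t
    have h := norm_conj_unitary (Unitary.star_mem (hV t)) X
    rwa [star_star] at h
  have key : ∀ n : ℕ, ∀ s ∈ Set.Icc 0 T, ∀ (k : ι) (w : S),
      ‖⁅star (V s) * X * V s, g k w⁆‖ ≤ maj v C R n s * ρ w := by
    intro n
    induction n with
    | zero =>
      intro s hs k w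
      have h1 : ‖⁅star (V s) * X * V s, g k w⁆‖ ≤ 2 * ‖X‖ * G := by
        calc ‖⁅star (V s) * X * V s, g k w⁆‖ ≤ 2 * ‖star (V s) * X * V s‖ * ‖g k w‖ :=
              norm_lie_le _ _
          _ = 2 * ‖X‖ * ‖g k w‖ := by rw [hVn]
          _ ≤ 2 * ‖X‖ * G := by gcongr; exact hg k w
      have h2 : 2 * ‖X‖ * G = R * δ := by rw [hR]; field_simp
      have h3 : maj v C R 0 s = R := by simp [maj]
      rw [h3]
      calc ‖⁅star (V s) * X * V s, g k w⁆‖ ≤ R * δ := h1.trans_eq h2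
        _ ≤ R * ρ w := by gcongr; exact hρ w
    | succ n ih =>
      intro s hs k w
      -- the function `r ↦ [X, V_r g V_r^*]`
      have hd' : ∀ r ∈ Set.Icc 0 T, HasDerivAt (fun r => ⁅X, V r * g k w * star (V r)⁆)
          (⁅X, V r * ⁅K r, g k w⁆ * star (V r)⁆) r := by
        intro r hr
        have h1 := hd r hr
        have h2 : HasDerivAt (fun r => star (V r)) (star (V r * K r)) r := h1.star
        have h3 : HasDerivAt (fun r => V r * g k w * star (V r))
            (V r * ⁅K r, g k w⁆ * star (V r)) r := by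
          refine ((h1.mul_const (g k w)).mul h2).congr_deriv ?_
          rw [star_mul, hK]
          simp only [Ring.lie_def, mul_sub, sub_mul, mul_neg, neg_mul, mul_assoc]
          abel
        simp only [Ring.lie_def] at h3 ⊢
        exact (h3.const_mul X).sub (h3.mul_const X)
      have hb : ∀ r ∈ Set.Ico (0 : ℝ) s, ‖⁅X, V r * ⁅K r, g k w⁆ * star (V r)⁆‖ ≤
          v * maj v C R n r * ρ w := by
        intro r hr
        have hrT : r ∈ Set.Icc 0 T := ⟨hr.1, hr.2.le.trans hs.2⟩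
        rw [← norm_lie_conj (hV r)]
        have e2 := hκ r hrT (star (V r) * X * V r) k w
        have e3 : ∫⁻ z, κ w z * prof g (star (V r) * X * V r) z ∂μ ≤
            ENNReal.ofReal (v * maj v C R n r * ρ w) := by
          calc ∫⁻ z, κ w z * prof g (star (V r) * X * V r) z ∂μ
              ≤ ∫⁻ z, ENNReal.ofReal (maj v C R n r) * (κ w z * ENNReal.ofReal (ρ z)) ∂μ := by
                apply lintegral_mono
                intro z
                have hp : prof g (star (V r) * X * V r) z ≤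
                    ENNReal.ofReal (maj v C R n r * ρ z) := by
                  apply iSup_le
                  intro l
                  rw [← ofReal_norm]
                  exact ENNReal.ofReal_le_ofReal (ih r hrT l z)
                calc κ w z * prof g (star (V r) * X * V r) z
                    ≤ κ w z * ENNReal.ofReal (maj v C R n r * ρ z) := by gcongr
                  _ = ENNReal.ofReal (maj v C R n r) * (κ w z * ENNReal.ofReal (ρ z)) := by
                    rw [ENNReal.ofReal_mul (maj_nonneg hv hC hR0 n hr.1)]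
                    ring
            _ = ENNReal.ofReal (maj v C R n r) * ∫⁻ z, κ w z * ENNReal.ofReal (ρ z) ∂μ :=
                lintegral_const_mul' _ _ ENNReal.ofReal_ne_top
            _ ≤ ENNReal.ofReal (maj v C R n r) * ENNReal.ofReal (v * ρ w) := by
                gcongr
                exact hv' w
            _ = ENNReal.ofReal (v * maj v C R n r * ρ w) := by
                rw [← ENNReal.ofReal_mul (maj_nonneg hv hC hR0 n hr.1)]
                congr 1
                ring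
        have e4 := e2.trans e3
        rw [← ofReal_norm] at e4
        exact (ENNReal.ofReal_le_ofReal_iff
          (mul_nonneg (mul_nonneg hv (maj_nonneg hv hC hR0 n hr.1)) (hρ0 w).le)).1 e4
      have hB : ∀ r, HasDerivAt (fun r => maj v C R (n + 1) r * ρ w)
          (v * maj v C R n r * ρ w) r := fun r => (hasDerivAt_maj v C R n r).mul_const (ρ w)
      have hsub : ∀ r ∈ Set.Icc 0 s, r ∈ Set.Icc 0 T := fun r hr => ⟨hr.1, hr.2.trans hs.2⟩
      have hfin := image_norm_le_of_norm_deriv_right_le_deriv_boundary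
        (f := fun r => ⁅X, V r * g k w * star (V r)⁆) (a := 0) (b := s)
        (fun r hr => (hd' r (hsub r hr)).continuousAt.continuousWithinAt)
        (fun r hr => (hd' r (hsub r ⟨hr.1, hr.2.le⟩)).hasDerivWithinAt)
        (B := fun r => maj v C R (n + 1) r * ρ w) (B' := fun r => v * maj v C R n r * ρ w)
        (by
          simp only [hV0, star_one, one_mul, mul_one, maj_zero]
          exact h0 k w) hB hb (Set.right_mem_Icc.2 hs.1)
      rw [norm_lie_conj (hV s)]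
      exact hfin
  have hlim : Filter.Tendsto (fun n => maj v C R n t * ρ w) Filter.atTop
      (nhds (C * Real.exp (v * t) * ρ w)) := (tendsto_maj v C R t).mul_const (ρ w)
  exact ge_of_tendsto' hlim fun n => key n t ht k w

theorem lr_nonneg {H : A} (hH : IsSelfAdjoint H) {g : ι → S → A} {G : ℝ} (hG : 0 ≤ G)
    (hg : ∀ k z, ‖g k z‖ ≤ G) {κ : S → S → ℝ≥0∞}
    (hκ : ∀ (X : A) (k : ι) (w : S), ‖⁅X, ⁅H, g k w⁆⁆‖ₑ ≤ ∫⁻ z, κ w z * prof g X z ∂μ)
    {ρ : S → ℝ} {δ : ℝ} (hδ : 0 < δ) (hρ : ∀ z, δ ≤ ρ z) {v : ℝ} (hv : 0 ≤ v)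
    (hv' : ∀ w, ∫⁻ z, κ w z * ENNReal.ofReal (ρ z) ∂μ ≤ ENNReal.ofReal (v * ρ w))
    {X : A} {C : ℝ} (hC : 0 ≤ C) (h0 : ∀ k z, ‖⁅X, g k z⁆‖ ≤ C * ρ z) {t : ℝ} (ht : 0 ≤ t)
    (k : ι) (w : S) : ‖⁅tau H t X, g k w⁆‖ ≤ C * Real.exp (v * t) * ρ w := by
  have h := lr_flow μ (V := fun s => U H (-s)) (K := fun _ => -(Complex.I • H)) (T := t)
    (fun s => U_mem_unitary hH _) (by simp)
    (fun s => by simp [hH.star_eq])
    (fun s _ => by simpa using hasDerivAt_U_neg H s) hG hg (κ := κ)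
    (by
      intro s _ X k w
      have e : ‖⁅X, ⁅-(Complex.I • H), g k w⁆⁆‖ₑ = ‖⁅X, ⁅H, g k w⁆⁆‖ₑ := by
        rw [neg_lie', smul_lie', lie_neg', lie_smul', enorm_neg, enorm_smul]
        simp [enorm_eq_nnnorm]
      rw [e]
      exact hκ X k w) hδ hρ hv hv' hC h0 (Set.right_mem_Icc.2 ht) k w
  simpa [tau, star_U hH] using h

/-- **Abstract Lieb-Robinson bound.** -/
theorem lr {H : A} (hH : IsSelfAdjoint H) {g : ι → S → A} {G : ℝ} (hG : 0 ≤ G)
    (hg : ∀ k z, ‖g k z‖ ≤ G) {κ : S → S → ℝ≥0∞}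
    (hκ : ∀ (X : A) (k : ι) (w : S), ‖⁅X, ⁅H, g k w⁆⁆‖ₑ ≤ ∫⁻ z, κ w z * prof g X z ∂μ)
    {ρ : S → ℝ} {δ : ℝ} (hδ : 0 < δ) (hρ : ∀ z, δ ≤ ρ z) {v : ℝ} (hv : 0 ≤ v)
    (hv' : ∀ w, ∫⁻ z, κ w z * ENNReal.ofReal (ρ z) ∂μ ≤ ENNReal.ofReal (v * ρ w))
    {X : A} {C : ℝ} (hC : 0 ≤ C) (h0 : ∀ k z, ‖⁅X, g k z⁆‖ ≤ C * ρ z) (t : ℝ)
    (k : ι) (w : S) : ‖⁅tau H t X, g k w⁆‖ ≤ C * Real.exp (v * |t|) * ρ w := by
  rcases le_total 0 t with ht | ht
  · rw [abs_of_nonneg ht]
    exact lr_nonneg μ hH hG hg hκ hδ hρ hv hv' hC h0 ht k w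
  · have hκ' : ∀ (X : A) (k : ι) (w : S),
        ‖⁅X, ⁅-H, g k w⁆⁆‖ₑ ≤ ∫⁻ z, κ w z * prof g X z ∂μ := by
      intro X k w
      rw [neg_lie', lie_neg', enorm_neg]
      exact hκ X k w
    have h := lr_nonneg μ hH.neg hG hg hκ' hδ hρ hv hv' hC h0 (neg_nonneg.2 ht) k w
    rw [tau_neg_left, neg_neg] at h
    rwa [abs_of_nonpos ht]

/-- The double commutator hypothesis from a representation `H = ∫ h_z` in which `[h_z, g k w]` is
a sum of products of generators at `z`: general Leibniz estimate for a product of three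
contractions. -/
theorem lie_mul3_le {X a b c : A} (ha : ‖a‖ ≤ 1) (hb : ‖b‖ ≤ 1) (hc : ‖c‖ ≤ 1) {p : ℝ≥0∞}
    (hpa : ‖⁅X, a⁆‖ₑ ≤ p) (hpb : ‖⁅X, b⁆‖ₑ ≤ p) (hpc : ‖⁅X, c⁆‖ₑ ≤ p) :
    ‖⁅X, a * b * c⁆‖ₑ ≤ 3 * p := by
  have e : ⁅X, a * b * c⁆ = ⁅X, a⁆ * (b * c) + a * ⁅X, b⁆ * c + (a * b) * ⁅X, c⁆ := by
    simp only [Ring.lie_def, mul_sub, sub_mul, mul_assoc]
    abel
  have en : ∀ y : A, ‖y‖ ≤ 1 → ‖y‖ₑ ≤ 1 := by
    intro y hy
    rw [← ofReal_norm, ← ENNReal.ofReal_one]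
    exact ENNReal.ofReal_le_ofReal hy
  have em : ∀ y z : A, ‖y * z‖ₑ ≤ ‖y‖ₑ * ‖z‖ₑ := fun y z => by
    simp only [enorm_eq_nnnorm]
    exact_mod_cast nnnorm_mul_le y z
  rw [e]
  calc ‖⁅X, a⁆ * (b * c) + a * ⁅X, b⁆ * c + (a * b) * ⁅X, c⁆‖ₑ
      ≤ ‖⁅X, a⁆ * (b * c)‖ₑ + ‖a * ⁅X, b⁆ * c‖ₑ + ‖(a * b) * ⁅X, c⁆‖ₑ :=
        (enorm_add_le _ _).trans (by gcongr; exact enorm_add_le _ _)
    _ ≤ ‖⁅X, a⁆‖ₑ * (‖b‖ₑ * ‖c‖ₑ) + ‖a‖ₑ * ‖⁅X, b⁆‖ₑ * ‖c‖ₑ + (‖a‖ₑ * ‖b‖ₑ) * ‖⁅X, c⁆‖ₑ := by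
        gcongr
        · exact (em _ _).trans (by gcongr; exact em _ _)
        · exact (em _ _).trans (by gcongr; exact em _ _)
        · exact (em _ _).trans (by gcongr; exact em _ _)
    _ ≤ p * (1 * 1) + 1 * p * 1 + (1 * 1) * p := by
        gcongr
        exacts [en b hb, en c hc, en a ha, en c hc, en a ha, en b hb]
    _ = 3 * p := by ring

end LR

end Crest.Agent.R340.LR667
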