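import Mathlib.Analysis.Distribution.SchwartzSpace.Fourier
import Mathlib.Analysis.Calculus.BumpFunction.FiniteDimension
import Mathlib.Analysis.Calculus.BumpFunction.Basic

/-!
The band-limited filter function (helper667): for every `γ > 0` there is a real continuous function
`g` on `ℝ`, decaying faster than any power, with `∫ g = 1` and `∫ g(t) e^{itl} dt = 0` for
`|l| ≥ γ`.
-/

set_option autoImplicit false

open MeasureTheory Real FourierTransform
open scoped SchwartzMap ContDiff

namespace Crest.Agent.R340.LR667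

theorem exists_filter {γ : ℝ} (hγ : 0 < γ) : ∃ g : ℝ → ℝ, Continuous g ∧
    (∀ n : ℕ, ∃ C, ∀ t, |t| ^ n * |g t| ≤ C) ∧
    (∀ n : ℕ, Integrable (fun t => |t| ^ n * |g t|)) ∧
    (∫ t, g t = 1) ∧
    ∀ l : ℝ, γ ≤ |l| → ∫ t, (g t : ℂ) * Complex.exp (((t * l : ℝ) : ℂ) * Complex.I) = 0 := by
  have hπ : (0 : ℝ) < 2 * π := by positivity
  let b : ContDiffBump (0 : ℝ) :=
    { rIn := γ / (2 * π) / 2
      rOut := γ / (2 * π)
      rIn_pos := by positivity
      rIn_lt_rOut := by
        have : 0 < γ / (2 * π) := by positivity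
        linarith }
  have hcs : HasCompactSupport (fun x : ℝ => ((b x : ℝ) : ℂ)) :=
    b.hasCompactSupport.comp_left (g := fun x : ℝ => (x : ℂ)) (by simp)
  have hcd : ContDiff ℝ ∞ (fun x : ℝ => ((b x : ℝ) : ℂ)) :=
    Complex.ofRealCLM.contDiff.comp b.contDiff
  let f : 𝓢(ℝ, ℂ) := hcs.toSchwartzMap hcd
  have hf : ∀ x, f x = ((b x : ℝ) : ℂ) := fun x => rfl
  let h : 𝓢(ℝ, ℂ) := 𝓕⁻ f
  have hh : 𝓕 h = f := FourierTransform.fourier_fourierInv_eq f
  have hF : ∀ l : ℝ, ∫ t, h t * Complex.exp (((t * l : ℝ) : ℂ) * Complex.I) =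
      ((b (-(l / (2 * π))) : ℝ) : ℂ) := by
    intro l
    have h1 : (𝓕 (h : ℝ → ℂ)) (-(l / (2 * π))) = ((b (-(l / (2 * π))) : ℝ) : ℂ) := by
      rw [← SchwartzMap.fourier_coe, hh, hf]
    rw [← h1, Real.fourier_eq']
    congr 1
    funext t
    rw [smul_eq_mul, mul_comm]
    congr 2
    push_cast
    simp only [RCLike.inner_apply, conj_trivial]
    push_cast
    field_simp
  have hint : Integrable (h : ℝ → ℂ) := h.integrable
  have hintexp : ∀ l : ℝ, Integrable
      (fun t : ℝ => h t * Complex.exp (((t * l : ℝ) : ℂ) * Complex.I)) := by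
    intro l
    refine hint.mul_bdd (c := 1) ?_ ?_
    · exact (by fun_prop : Continuous fun t : ℝ =>
        Complex.exp (((t * l : ℝ) : ℂ) * Complex.I)).aestronglyMeasurable
    · filter_upwards with t
      rw [Complex.norm_exp_ofReal_mul_I]
  have hfull : ∀ l : ℝ, ∫ t, (((h t).re : ℝ) : ℂ) * Complex.exp (((t * l : ℝ) : ℂ) * Complex.I) =
      (((b (-(l / (2 * π))) : ℝ) : ℂ) + ((b (l / (2 * π)) : ℝ) : ℂ)) / 2 := by
    intro l
    have e1 : ∀ t : ℝ, (((h t).re : ℝ) : ℂ) * Complex.exp (((t * l : ℝ) : ℂ) * Complex.I) =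
        (1 / 2 : ℂ) * (h t * Complex.exp (((t * l : ℝ) : ℂ) * Complex.I)) +
        (1 / 2 : ℂ) * (starRingEnd ℂ) (h t * Complex.exp (((t * (-l) : ℝ) : ℂ) * Complex.I)) := by
      intro t
      have e2 : (starRingEnd ℂ) (Complex.exp (((t * (-l) : ℝ) : ℂ) * Complex.I)) =
          Complex.exp (((t * l : ℝ) : ℂ) * Complex.I) := by
        rw [← Complex.exp_conj, map_mul, Complex.conj_ofReal, Complex.conj_I]
        congr 1
        push_cast
        ring
      rw [map_mul, e2, Complex.re_eq_add_conj]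
      ring
    have hconj : Integrable (fun t : ℝ =>
        (starRingEnd ℂ) (h t * Complex.exp (((t * (-l) : ℝ) : ℂ) * Complex.I))) :=
      Complex.conjCLE.toContinuousLinearMap.integrable_comp (hintexp (-l))
    simp_rw [e1]
    rw [integral_add ((hintexp l).const_mul _) (hconj.const_mul _),
      integral_const_mul, integral_const_mul, hF l]
    have e3 : ∫ t, (starRingEnd ℂ) (h t * Complex.exp (((t * (-l) : ℝ) : ℂ) * Complex.I)) =
        ((b (l / (2 * π)) : ℝ) : ℂ) := by
      rw [integral_conj, hF (-l), Complex.conj_ofReal]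
      congr 3
      ring
    rw [e3]
    ring
  have hbz : ∀ x : ℝ, γ / (2 * π) ≤ |x| → b x = 0 := by
    intro x hx
    exact b.zero_of_le_dist (by simpa [Real.dist_eq] using hx)
  refine ⟨fun t => (h t).re, Complex.continuous_re.comp h.continuous, ?_, ?_, ?_, ?_⟩
  · intro n
    obtain ⟨C, hC, hb⟩ := h.decay n 0
    refine ⟨C, fun t => ?_⟩
    have := hb t
    rw [norm_iteratedFDeriv_zero] at this
    calc |t| ^ n * |(h t).re| ≤ ‖t‖ ^ n * ‖h t‖ := by
          rw [Real.norm_eq_abs]
          gcongr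
          exact Complex.abs_re_le_norm _
      _ ≤ C := this
  · intro n
    have h1 := h.integrable_pow_mul volume n
    refine h1.mono ?_ ?_
    · exact (by
        have := Complex.continuous_re.comp h.continuous
        fun_prop : Continuous fun t : ℝ => |t| ^ n * |(h t).re|).aestronglyMeasurable
    · filter_upwards with t
      have e1 : ‖|t| ^ n * |(h t).re|‖ = |t| ^ n * |(h t).re| :=
        Real.norm_of_nonneg (by positivity)
      have e2 : ‖‖t‖ ^ n * ‖h t‖‖ = ‖t‖ ^ n * ‖h t‖ := Real.norm_of_nonneg (by positivity)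
      rw [e1, e2, Real.norm_eq_abs]
      gcongr
      exact Complex.abs_re_le_norm _
  · have h0 := hfull 0
    simp only [mul_zero, Complex.ofReal_zero, zero_mul, Complex.exp_zero, mul_one, zero_div,
      neg_zero] at h0
    have hb0 : b 0 = 1 := b.one_of_mem_closedBall (by simp [b.rIn_pos.le])
    rw [hb0] at h0
    have h1 : ((∫ t, (h t).re : ℝ) : ℂ) = 1 := by
      rw [← integral_complex_ofReal, h0]
      push_cast
      ring
    exact_mod_cast h1
  · intro l hl
    rw [hfull l, hbz, hbz]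
    · simp
    · rw [abs_div, abs_of_pos hπ]
      gcongr
    · rw [abs_neg, abs_div, abs_of_pos hπ]
      gcongr

end Crest.Agent.R340.LR667
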