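import Crest.Agent.R340.Fock_649
import Crest.Agent.R340.LR3_667

/-!
Commutators of quasi-local operators with (unbounded profile) one-body operators (helper667).

`norm_lie_dG_le`: if `Y` commutes with all modes outside a finite set `K` of an orthonormal frame
`b`, then `‖[Y, dG A]‖ ≤ 2 ‖Y‖ Σ_{k∈K} (‖A* b_k‖ + ‖A b_k‖)`.
`lie_dG_diag_le`: the same for operators with truncations (`Trunc`).
-/

set_option autoImplicit false
set_option linter.unusedSectionVars false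

open scoped BigOperators
open MeasureTheory

namespace Crest.Agent.R340.LR667

open Crest.Agent.R340.Fock649

variable {ι : Type*} [Fintype ι] [LinearOrder ι]

/-- `Y` commutes with the modes `b k`, `k ∉ K`. -/
def FarComm {κ : Type*} [Fintype κ] (b : OrthonormalBasis κ ℂ (L ι)) (K : Finset κ) (Y : Op ι) :
    Prop := ∀ k, k ∉ K → Commute Y (an (b k)) ∧ Commute Y (cr (b k))

section frame

variable {κ : Type*} [Fintype κ] [DecidableEq κ] (b : OrthonormalBasis κ ℂ (L ι))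

theorem FarComm.mono {K K' : Finset κ} (h : K ⊆ K') {Y : Op ι} (hY : FarComm b K Y) :
    FarComm b K' Y := fun k hk => hY k fun h' => hk (h h')

theorem FarComm.sub {K : Finset κ} {Y Z : Op ι} (hY : FarComm b K Y) (hZ : FarComm b K Z) :
    FarComm b K (Y - Z) := fun k hk =>
  ⟨(hY k hk).1.sub_left (hZ k hk).1, (hY k hk).2.sub_left (hZ k hk).2⟩

theorem farComm_of_forall_mem {K : Finset κ} (h : ∀ k, k ∈ K) (Y : Op ι) : FarComm b K Y :=
  fun k hk => absurd (h k) hk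

theorem cr_expand (v : L ι) : cr v = ∑ k, (inner ℂ (b k) v : ℂ) • cr (b k) := by
  conv_lhs => rw [← b.sum_repr' v]
  rw [cr_sum]
  simp only [cr_smul]

theorem an_expand (v : L ι) : an v = ∑ k, (inner ℂ v (b k) : ℂ) • an (b k) := by
  conv_lhs => rw [← b.sum_repr' v]
  rw [an_sum]
  refine Finset.sum_congr rfl fun k _ => ?_
  rw [an_smul, inner_conj_symm]

theorem mv_inner (A : Matrix ι ι ℂ) (v w : L ι) :
    inner ℂ v (mv A w) = inner ℂ (mv A.conjTranspose v) w := by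
  rw [inner_eq_sum, inner_eq_sum]
  simp only [mv_apply, Matrix.conjTranspose_apply, map_sum, map_mul, Finset.mul_sum,
    Finset.sum_mul]
  rw [Finset.sum_comm]
  refine Finset.sum_congr rfl fun i _ => Finset.sum_congr rfl fun j _ => ?_
  simp only [RCLike.star_def, RCLike.conj_conj]
  ring

theorem dG_expand (A : Matrix ι ι ℂ) : dG A = ∑ k, cr (b k) * an (mv A.conjTranspose (b k)) := by
  classical
  have h1 : ∀ i, an (mv A.conjTranspose (e i)) = ∑ j, A i j • c j := by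
    intro i
    unfold an
    refine Finset.sum_congr rfl fun j _ => ?_
    congr 1
    rw [mv_apply]
    simp [e_apply, Matrix.conjTranspose_apply]
  have h2 : dG A = ∑ i, d i * an (mv A.conjTranspose (e i)) := by
    unfold dG
    refine Finset.sum_congr rfl fun i _ => ?_
    rw [h1, Finset.mul_sum]
    refine Finset.sum_congr rfl fun j _ => ?_
    rw [mul_smul_comm]
  have hsum : ∀ i, an (mv A.conjTranspose (e i)) =
      ∑ k, (inner ℂ (e i) (b k) : ℂ) • an (mv A.conjTranspose (b k)) := by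
    intro i
    have h3 : mv A.conjTranspose (e i) = ∑ k, (inner ℂ (b k) (e i) : ℂ) • mv A.conjTranspose (b k) := by
      have h4 : e i = ∑ k, (inner ℂ (b k) (e i) : ℂ) • b k := (b.sum_repr' (e i)).symm
      ext j
      conv_lhs => rw [h4]
      simp only [mv_apply, WithLp.ofLp_sum, WithLp.ofLp_smul, Finset.sum_apply, Pi.smul_apply,
        smul_eq_mul, Finset.mul_sum]
      rw [Finset.sum_comm]
      refine Finset.sum_congr rfl fun k _ => Finset.sum_congr rfl fun l _ => ?_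
      ring
    rw [h3, an_sum]
    refine Finset.sum_congr rfl fun k _ => ?_
    rw [an_smul, inner_conj_symm]
  rw [h2]
  simp_rw [hsum, Finset.mul_sum]
  rw [Finset.sum_comm]
  refine Finset.sum_congr rfl fun k _ => ?_
  have h5 : cr (b k) = ∑ i, (inner ℂ (e i) (b k) : ℂ) • d i := by
    unfold cr
    refine Finset.sum_congr rfl fun i _ => ?_
    congr 1
    rw [inner_eq_sum]
    simp [e_apply]
  rw [h5, Finset.sum_mul]
  refine Finset.sum_congr rfl fun i _ => ?_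
  rw [mul_smul_comm, smul_mul_assoc]

theorem norm_lie_le' {A : Type*} [CStarAlgebra A] (X Y : A) : ‖⁅X, Y⁆‖ ≤ 2 * ‖X‖ * ‖Y‖ :=
  norm_lie_le X Y

/-- projection of a vector onto the far modes has norm at most the norm of the vector -/
theorem norm_far_le (K : Finset κ) (v : L ι) :
    ‖∑ k ∈ Finset.univ \ K, (inner ℂ (b k) v : ℂ) • b k‖ ≤ ‖v‖ := by
  classical
  have h1 : ‖∑ k ∈ Finset.univ \ K, (inner ℂ (b k) v : ℂ) • b k‖ ^ 2 =
      ∑ k ∈ Finset.univ \ K, ‖(inner ℂ (b k) v : ℂ)‖ ^ 2 := by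
    have h := b.orthonormal.inner_sum (fun k => (inner ℂ (b k) v : ℂ))
      (fun k => (inner ℂ (b k) v : ℂ)) (Finset.univ \ K)
    rw [← inner_self_eq_norm_sq (𝕜 := ℂ), h]
    rw [map_sum]
    refine Finset.sum_congr rfl fun k _ => ?_
    have : (starRingEnd ℂ) (inner ℂ (b k) v : ℂ) * (inner ℂ (b k) v : ℂ) =
        ((‖(inner ℂ (b k) v : ℂ)‖ ^ 2 : ℝ) : ℂ) := by
      rw [mul_comm, Complex.mul_conj, Complex.normSq_eq_norm_sq]
    rw [this]
    exact Complex.ofReal_re _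
  have h2 : ‖∑ k ∈ Finset.univ \ K, (inner ℂ (b k) v : ℂ) • b k‖ ^ 2 ≤ ‖v‖ ^ 2 := by
    rw [h1, ← b.sum_sq_norm_inner_right v]
    refine Finset.sum_le_sum_of_subset_of_nonneg (Finset.subset_univ _) fun k _ _ => by positivity
  exact (sq_le_sq₀ (norm_nonneg _) (norm_nonneg _)).1 h2

/-- **local commutator with a one-body operator** -/
theorem norm_lie_dG_le (K : Finset κ) {Y : Op ι} (hY : FarComm b K Y) (A : Matrix ι ι ℂ) :
    ‖⁅Y, dG A⁆‖ ≤ 2 * ‖Y‖ * ∑ k ∈ K, (‖mv A.conjTranspose (b k)‖ + ‖mv A (b k)‖) := by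
  classical
  have h0 : ⁅Y, dG A⁆ = ∑ k ∈ K, ⁅Y, cr (b k) * an (mv A.conjTranspose (b k))⁆ +
      ∑ k ∈ Kᶜ, ⁅Y, cr (b k) * an (mv A.conjTranspose (b k))⁆ := by
    rw [Finset.sum_add_sum_compl, dG_expand b A]
    simp only [Ring.lie_def, Finset.mul_sum, Finset.sum_mul, Finset.sum_sub_distrib]
  have h1 : ∑ k ∈ Kᶜ, ⁅Y, cr (b k) * an (mv A.conjTranspose (b k))⁆ =
      ∑ l ∈ K, cr (∑ k ∈ Kᶜ, (inner ℂ (b k) (mv A (b l)) : ℂ) • b k) * ⁅Y, an (b l)⁆ := by
    have e1 : ∀ k ∈ Kᶜ, ⁅Y, cr (b k) * an (mv A.conjTranspose (b k))⁆ =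
        ∑ l ∈ K, ((inner ℂ (b k) (mv A (b l)) : ℂ) • cr (b k)) * ⁅Y, an (b l)⁆ := by
      intro k hk
      have hk' : k ∉ K := Finset.mem_compl.1 hk
      have c1 : Y * cr (b k) = cr (b k) * Y := (hY k hk').2.eq
      have e2 : ⁅Y, cr (b k) * an (mv A.conjTranspose (b k))⁆ =
          cr (b k) * ⁅Y, an (mv A.conjTranspose (b k))⁆ := by
        rw [Ring.lie_def, Ring.lie_def, ← mul_assoc, c1, mul_sub, mul_assoc, mul_assoc]
      have e3 : ⁅Y, an (mv A.conjTranspose (b k))⁆ =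
          ∑ l, (inner ℂ (b k) (mv A (b l)) : ℂ) • ⁅Y, an (b l)⁆ := by
        rw [an_expand b (mv A.conjTranspose (b k))]
        simp only [Ring.lie_def, Finset.mul_sum, Finset.sum_mul, mul_smul_comm, smul_mul_assoc,
          ← Finset.sum_sub_distrib, ← smul_sub]
        refine Finset.sum_congr rfl fun l _ => ?_
        rw [← mv_inner]
      have e4 : ∑ l, (inner ℂ (b k) (mv A (b l)) : ℂ) • ⁅Y, an (b l)⁆ =
          ∑ l ∈ K, (inner ℂ (b k) (mv A (b l)) : ℂ) • ⁅Y, an (b l)⁆ := by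
        symm
        apply Finset.sum_subset (Finset.subset_univ _)
        intro l _ hl
        have : ⁅Y, an (b l)⁆ = 0 := by
          rw [Ring.lie_def, (hY l hl).1.eq, sub_self]
        rw [this, smul_zero]
      rw [e2, e3, e4, Finset.mul_sum]
      refine Finset.sum_congr rfl fun l _ => ?_
      rw [mul_smul_comm, smul_mul_assoc]
    rw [Finset.sum_congr rfl e1, Finset.sum_comm]
    refine Finset.sum_congr rfl fun l _ => ?_
    rw [cr_sum, Finset.sum_mul]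
    simp only [cr_smul]
  rw [h0, h1]
  have hb1 : ∀ k, ‖b k‖ = 1 := fun k => b.orthonormal.1 k
  have n1 : ∀ k ∈ K, ‖⁅Y, cr (b k) * an (mv A.conjTranspose (b k))⁆‖ ≤
      2 * ‖Y‖ * ‖mv A.conjTranspose (b k)‖ := by
    intro k _
    refine (norm_lie_le _ _).trans ?_
    have : ‖cr (b k) * an (mv A.conjTranspose (b k))‖ ≤ ‖mv A.conjTranspose (b k)‖ := by
      refine (norm_mul_le _ _).trans ?_
      rw [norm_cr, norm_an, hb1, one_mul]
    exact mul_le_mul_of_nonneg_left this (by positivity)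
  have n2 : ∀ l ∈ K, ‖cr (∑ k ∈ Kᶜ, (inner ℂ (b k) (mv A (b l)) : ℂ) • b k) * ⁅Y, an (b l)⁆‖ ≤
      2 * ‖Y‖ * ‖mv A (b l)‖ := by
    intro l _
    refine (norm_mul_le _ _).trans ?_
    have m1 : ‖cr (∑ k ∈ Kᶜ, (inner ℂ (b k) (mv A (b l)) : ℂ) • b k)‖ ≤ ‖mv A (b l)‖ := by
      rw [norm_cr, Finset.compl_eq_univ_sdiff]
      exact norm_far_le b K _
    have m2 : ‖⁅Y, an (b l)⁆‖ ≤ 2 * ‖Y‖ := by
      refine (norm_lie_le _ _).trans ?_
      rw [norm_an, hb1, mul_one]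
    rw [mul_comm (2 * ‖Y‖)]
    exact mul_le_mul m1 m2 (norm_nonneg _) (norm_nonneg _)
  refine (norm_add_le _ _).trans ?_
  refine (add_le_add (norm_sum_le_of_le _ n1) (norm_sum_le_of_le _ n2)).trans_eq ?_
  rw [← Finset.mul_sum, ← Finset.mul_sum, ← mul_add, ← Finset.sum_add_distrib]

end frame

section trunc

variable {n : ℕ} (b : OrthonormalBasis (Fin n) ℂ (L ι))

/-- the modes `k < 4 ^ l` -/
def near (n l : ℕ) : Finset (Fin n) := Finset.univ.filter fun k => (k : ℕ) < 4 ^ l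

theorem mem_near {n l : ℕ} {k : Fin n} : k ∈ near n l ↔ (k : ℕ) < 4 ^ l := by simp [near]

theorem near_mono {n l l' : ℕ} (h : l ≤ l') : near n l ⊆ near n l' := by
  intro k hk
  rw [mem_near] at hk ⊢
  exact hk.trans_le (Nat.pow_le_pow_right (by norm_num) h)

theorem card_near_le (n l : ℕ) : (near n l).card ≤ 4 ^ l := by
  have h : (near n l).card ≤ (Finset.range (4 ^ l)).card := by
    apply Finset.card_le_card_of_injOn (fun k : Fin n => (k : ℕ))
    · intro k hk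
      simpa [near] using hk
    · intro a _ c _ hac
      exact Fin.ext hac
  simpa using h

/-- `Y` is quasi-local with respect to the frame `b`: approximants commuting with the modes
`k ≥ 4 ^ l` up to `D 2^{-M l}`. -/
def Trunc (Y : Op ι) (D : ℝ) (M : ℕ) : Prop :=
  ∀ l : ℕ, ∃ Y' : Op ι, FarComm b (near n l) Y' ∧ ‖Y - Y'‖ ≤ D * ((1 / 2 : ℝ) ^ M) ^ l

variable {b}

theorem sum_near_le {h : ι → ℂ} {B : ℝ} {r : ℕ} (hB0 : 0 ≤ B)
    (hB : ∀ k : Fin n, ‖mv (Matrix.diagonal h) (b k)‖ ≤ B * (1 + (k : ℝ)) ^ r) (l : ℕ) :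
    ∑ k ∈ near n l, ‖mv (Matrix.diagonal h) (b k)‖ ≤ B * (4 ^ (r + 1)) ^ l := by
  have h1 : ∀ k ∈ near n l, ‖mv (Matrix.diagonal h) (b k)‖ ≤ B * ((4 : ℝ) ^ l) ^ r := by
    intro k hk
    refine (hB k).trans ?_
    have : (1 : ℝ) + (k : ℝ) ≤ 4 ^ l := by
      have h2 := mem_near.1 hk
      have h3 : (k : ℕ) + 1 ≤ 4 ^ l := h2
      have h4 : (((k : ℕ) + 1 : ℕ) : ℝ) ≤ ((4 ^ l : ℕ) : ℝ) := by exact_mod_cast h3
      push_cast at h4
      linarith
    gcongr
  refine (Finset.sum_le_card_nsmul _ _ _ h1).trans ?_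
  rw [nsmul_eq_mul]
  have h2 : ((near n l).card : ℝ) ≤ 4 ^ l := by
    exact_mod_cast card_near_le n l
  calc ((near n l).card : ℝ) * (B * ((4 : ℝ) ^ l) ^ r) ≤ 4 ^ l * (B * ((4 : ℝ) ^ l) ^ r) := by
        gcongr
    _ = B * (4 ^ (r + 1)) ^ l := by
        rw [← pow_mul, ← pow_mul]
        ring

theorem norm_lie_diag_le {h : ι → ℝ} {B : ℝ} {r : ℕ} (hB0 : 0 ≤ B)
    (hB : ∀ k : Fin n, ‖mv (Matrix.diagonal fun i => (h i : ℂ)) (b k)‖ ≤ B * (1 + (k : ℝ)) ^ r)
    {Y : Op ι} {l : ℕ} (hY : FarComm b (near n l) Y) {D : ℝ} (hD : ‖Y‖ ≤ D) :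
    ‖⁅Y, dG (Matrix.diagonal fun i => (h i : ℂ))⁆‖ ≤ 4 * D * (B * (4 ^ (r + 1)) ^ l) := by
  have hD0 : 0 ≤ D := (norm_nonneg _).trans hD
  have h1 := norm_lie_dG_le b (near n l) hY (Matrix.diagonal fun i => (h i : ℂ))
  have hc : (Matrix.diagonal fun i => (h i : ℂ)).conjTranspose =
      Matrix.diagonal fun i => (h i : ℂ) := by
    rw [Matrix.diagonal_conjTranspose]
    congr 1
    funext i
    simp
  rw [hc] at h1
  refine h1.trans ?_
  have h2 := sum_near_le (b := b) hB0 hB l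
  rw [Finset.sum_add_distrib]
  have h3 : 2 * ‖Y‖ ≤ 2 * D := by linarith
  have h4 : 0 ≤ ∑ k ∈ near n l, ‖mv (Matrix.diagonal fun i => (h i : ℂ)) (b k)‖ :=
    Finset.sum_nonneg fun k _ => norm_nonneg _
  calc 2 * ‖Y‖ * (∑ k ∈ near n l, ‖mv (Matrix.diagonal fun i => (h i : ℂ)) (b k)‖ +
        ∑ k ∈ near n l, ‖mv (Matrix.diagonal fun i => (h i : ℂ)) (b k)‖)
      ≤ 2 * D * (B * (4 ^ (r + 1)) ^ l + B * (4 ^ (r + 1)) ^ l) := by gcongr
    _ = 4 * D * (B * (4 ^ (r + 1)) ^ l) := by ring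

/-- **Commutator of a quasi-local operator with an unbounded radial one-body operator.** -/
theorem lie_dG_diag_le {h : ι → ℝ} {B : ℝ} {r : ℕ} (hB0 : 0 ≤ B)
    (hB : ∀ k : Fin n, ‖mv (Matrix.diagonal fun i => (h i : ℂ)) (b k)‖ ≤ B * (1 + (k : ℝ)) ^ r)
    {Y : Op ι} {D : ℝ} (hYD : ‖Y‖ ≤ D) {M : ℕ} (hM : 2 * r + 3 ≤ M) (hT : Trunc b Y D M) :
    ‖⁅Y, dG (Matrix.diagonal fun i => (h i : ℂ))⁆‖ ≤ 4 ^ (r + 4) * D * B := by
  have hD0 : 0 ≤ D := (norm_nonneg _).trans hYD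
  choose Z hZ1 hZ2 using hT
  set q : ℝ := (1 / 2 : ℝ) ^ M with hq
  have hq0 : 0 ≤ q := by positivity
  have hq1 : q ≤ 1 := pow_le_one₀ (by norm_num) (by norm_num)
  have hql : ∀ l : ℕ, q ^ l ≤ 1 := fun l => pow_le_one₀ hq0 hq1
  set a : ℝ := (4 : ℝ) ^ (r + 1) with ha
  have ha0 : 0 ≤ a := by positivity
  have ha1 : 1 ≤ a := one_le_pow₀ (by norm_num)
  have hqa : q * a ≤ 1 / 2 := by
    have e1 : a = 2 ^ (2 * r + 2) := by
      rw [ha, show (4 : ℝ) = 2 ^ 2 by norm_num, ← pow_mul]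
      congr 1
    have e2 : q ≤ (1 / 2 : ℝ) ^ (2 * r + 3) :=
      pow_le_pow_of_le_one (by norm_num) (by norm_num) hM
    calc q * a ≤ (1 / 2 : ℝ) ^ (2 * r + 3) * 2 ^ (2 * r + 2) := by
          rw [e1]; gcongr
      _ = 1 / 2 := by
          rw [pow_succ, mul_right_comm, ← mul_pow]
          norm_num
  have hstep : ∀ l : ℕ, (q * a) ^ l ≤ (1 / 2 : ℝ) ^ l := fun l =>
    pow_le_pow_left₀ (by positivity) hqa l
  -- induction over the scales
  have key : ∀ l : ℕ, ‖⁅Z l, dG (Matrix.diagonal fun i => (h i : ℂ))⁆‖ ≤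
      8 * D * B + 16 * D * B * a * (1 - (1 / 2 : ℝ) ^ l) := by
    intro l
    induction l with
    | zero =>
      have h1 : ‖Z 0‖ ≤ 2 * D := by
        have e1 := hZ2 0
        rw [pow_zero, mul_one] at e1
        calc ‖Z 0‖ = ‖Y - (Y - Z 0)‖ := by rw [sub_sub_cancel]
          _ ≤ ‖Y‖ + ‖Y - Z 0‖ := norm_sub_le _ _
          _ ≤ 2 * D := by linarith
      have h2 := norm_lie_diag_le hB0 hB (hZ1 0) h1
      refine h2.trans (le_of_eq ?_)
      rw [pow_zero, pow_zero]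
      ring
    | succ l ih =>
      have e0 : ⁅Z (l + 1), dG (Matrix.diagonal fun i => (h i : ℂ))⁆ =
          ⁅Z l, dG (Matrix.diagonal fun i => (h i : ℂ))⁆ +
          ⁅Z (l + 1) - Z l, dG (Matrix.diagonal fun i => (h i : ℂ))⁆ := by
        simp only [Ring.lie_def, sub_mul, mul_sub]
        abel
      have h1 : ‖Z (l + 1) - Z l‖ ≤ 2 * D * q ^ l := by
        have e1 := hZ2 (l + 1)
        have e2 := hZ2 l
        have e3 : q ^ (l + 1) ≤ q ^ l := pow_le_pow_of_le_one hq0 hq1 (Nat.le_succ l)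
        calc ‖Z (l + 1) - Z l‖ = ‖(Y - Z l) - (Y - Z (l + 1))‖ := by
              rw [sub_sub_sub_cancel_left]
          _ ≤ ‖Y - Z l‖ + ‖Y - Z (l + 1)‖ := norm_sub_le _ _
          _ ≤ D * q ^ l + D * q ^ (l + 1) := add_le_add e2 e1
          _ ≤ D * q ^ l + D * q ^ l := by gcongr
          _ = 2 * D * q ^ l := by ring
      have hf : FarComm b (near n (l + 1)) (Z (l + 1) - Z l) :=
        (hZ1 (l + 1)).sub b ((hZ1 l).mono b (near_mono (Nat.le_succ l)))
      have h2 := norm_lie_diag_le hB0 hB hf h1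
      rw [e0]
      refine (norm_add_le _ _).trans ?_
      have h3 : 4 * (2 * D * q ^ l) * (B * a ^ (l + 1)) ≤ 8 * D * B * a * (1 / 2 : ℝ) ^ l := by
        calc 4 * (2 * D * q ^ l) * (B * a ^ (l + 1)) = 8 * D * B * a * (q * a) ^ l := by
              rw [mul_pow]; ring
          _ ≤ 8 * D * B * a * (1 / 2 : ℝ) ^ l := by
              have := hstep l
              gcongr
      have h4 : (1 / 2 : ℝ) ^ (l + 1) = (1 / 2) * (1 / 2 : ℝ) ^ l := by ring
      rw [h4]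
      nlinarith [h2, h3, ih]
  -- the last step
  obtain ⟨N, hN⟩ : ∃ N : ℕ, n ≤ 4 ^ N := ⟨n, (Nat.lt_pow_self (by norm_num)).le⟩
  have hlast : FarComm b (near n N) (Y - Z N) := by
    apply farComm_of_forall_mem
    intro k
    rw [mem_near]
    exact k.isLt.trans_le hN
  have h2 := norm_lie_diag_le hB0 hB hlast (hZ2 N)
  have e0 : ⁅Y, dG (Matrix.diagonal fun i => (h i : ℂ))⁆ =
      ⁅Z N, dG (Matrix.diagonal fun i => (h i : ℂ))⁆ +
      ⁅Y - Z N, dG (Matrix.diagonal fun i => (h i : ℂ))⁆ := by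
    simp only [Ring.lie_def, sub_mul, mul_sub]
    abel
  rw [e0]
  refine (norm_add_le _ _).trans ?_
  have h3 : 4 * (D * q ^ N) * (B * a ^ N) ≤ 4 * D * B := by
    have e1 : (q * a) ^ N ≤ 1 := pow_le_one₀ (by positivity) (hqa.trans (by norm_num))
    calc 4 * (D * q ^ N) * (B * a ^ N) = 4 * D * B * (q * a) ^ N := by
          rw [mul_pow]; ring
      _ ≤ 4 * D * B * 1 := by gcongr
      _ = 4 * D * B := mul_one _
  have h4 := key N
  have h5 : 16 * D * B * a * (1 - (1 / 2 : ℝ) ^ N) ≤ 16 * D * B * a := by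
    have : (1 - (1 / 2 : ℝ) ^ N) ≤ 1 := by
      have : (0 : ℝ) ≤ (1 / 2 : ℝ) ^ N := by positivity
      linarith
    calc 16 * D * B * a * (1 - (1 / 2 : ℝ) ^ N) ≤ 16 * D * B * a * 1 := by gcongr
      _ = _ := mul_one _
  have h6 : (4 : ℝ) ^ (r + 4) = 64 * a := by rw [ha]; ring
  rw [h6]
  have h7 : 0 ≤ D * B := mul_nonneg hD0 hB0
  have h8 : D * B ≤ D * B * a := le_mul_of_one_le_right h7 ha1
  nlinarith [h2, h3, h4, h5, h7, h8]

end trunc

end Crest.Agent.R340.LR667
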