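import Crest.Agent.R340.LR4_667
import Mathlib.Analysis.SpecialFunctions.Integrals.Basic
import Mathlib.MeasureTheory.Measure.Haar.NormedSpace
import Mathlib.MeasureTheory.Function.LocallyIntegrable

/-!
Ring clustering (helper667), part 1: the kink functions, their moments in a local frame and the
commutators of the local pair annihilators with `dG(kink)` and with its filtered version.
-/

set_option autoImplicit false
set_option linter.unusedSectionVars false

open scoped BigOperators ENNReal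
open MeasureTheory

namespace Crest.Agent.R340.LR667

open Crest.Agent.R340.Fock649

/-- the kink function `j ↦ (j - p)_+` -/
noncomputable def kink (p : ℝ) (j : ℝ) : ℝ := max (j - p) 0

/-- the affine function tangent to the kink at `J` -/
noncomputable def klin (p J : ℝ) (j : ℝ) : ℝ := if J ≤ p then 0 else j - p

theorem klin_affine (p J : ℝ) : ∃ α β : ℝ, ∀ j, klin p J j = α + β * j := by
  unfold klin
  split_ifs with h
  · exact ⟨0, 0, fun j => by ring⟩
  · exact ⟨-p, 1, fun j => by ring⟩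

theorem abs_kink_sub_le (p J j : ℝ) : |kink p j - klin p J j| ≤ |j - J| := by
  unfold kink klin
  split_ifs with h
  · rw [sub_zero, abs_of_nonneg (le_max_right _ _)]
    rcases le_total j p with hj | hj
    · rw [max_eq_right (by linarith)]; exact abs_nonneg _
    · rw [max_eq_left (by linarith)]
      exact (by linarith : j - p ≤ j - J).trans (le_abs_self _)
  · push Not at h
    rcases le_total j p with hj | hj
    · rw [max_eq_right (by linarith), zero_sub, abs_neg, abs_of_nonpos (by linarith)]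
      rw [abs_of_nonpos (by linarith)]
      linarith
    · rw [max_eq_left (by linarith), sub_self, abs_zero]; exact abs_nonneg _

theorem abs_kink_sub_mul_le (p J j : ℝ) (m : ℕ) :
    |kink p j - klin p J j| * |p - J| ^ m ≤ |j - J| ^ (m + 1) := by
  have h1 := abs_kink_sub_le p J j
  by_cases h0 : kink p j - klin p J j = 0
  · rw [h0, abs_zero, zero_mul]; positivity
  · have h2 : |p - J| ≤ |j - J| := by
      unfold kink klin at h0
      split_ifs at h0 with h
      · rcases le_total j p with hj | hj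
        · rw [max_eq_right (by linarith)] at h0
          simp at h0
        · rw [abs_of_nonneg (by linarith), abs_of_nonneg (by linarith)]; linarith
      · push Not at h
        rcases le_total j p with hj | hj
        · rw [abs_of_nonpos (by linarith), abs_of_nonpos (by linarith)]; linarith
        · rw [max_eq_left (by linarith)] at h0
          simp at h0
    rw [pow_succ, mul_comm (|j - J| ^ m)]
    gcongr

section moments

variable {ι : Type*} [Fintype ι] [LinearOrder ι]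

/-- real diagonal one-body matrix -/
noncomputable def dg (h : ι → ℝ) : Matrix ι ι ℂ := Matrix.diagonal fun i => (h i : ℂ)

theorem mv_dg_apply (h : ι → ℝ) (v : L ι) (i : ι) : mv (dg h) v i = (h i : ℂ) * v i := by
  rw [mv_apply, dg, Finset.sum_eq_single i]
  · rw [Matrix.diagonal_apply_eq]
  · intro j _ hj
    rw [Matrix.diagonal_apply_ne _ (Ne.symm hj), zero_mul]
  · simp

theorem norm_mv_dg_sq (h : ι → ℝ) (v : L ι) : ‖mv (dg h) v‖ ^ 2 = ∑ i, (|h i| * ‖v i‖) ^ 2 := by
  rw [EuclideanSpace.norm_sq_eq]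
  refine Finset.sum_congr rfl fun i _ => ?_
  rw [mv_dg_apply, norm_mul, Complex.norm_real, Real.norm_eq_abs]

theorem norm_mv_dg_mono {h h' : ι → ℝ} {c : ℝ} (hc : 0 ≤ c) (hh : ∀ i, |h i| * c ≤ |h' i|)
    (v : L ι) : ‖mv (dg h) v‖ * c ≤ ‖mv (dg h') v‖ := by
  have h1 : (‖mv (dg h) v‖ * c) ^ 2 ≤ ‖mv (dg h') v‖ ^ 2 := by
    rw [mul_pow, norm_mv_dg_sq, norm_mv_dg_sq, Finset.sum_mul]
    refine Finset.sum_le_sum fun i _ => ?_
    rw [← mul_pow]
    have h2 : |h i| * ‖v i‖ * c ≤ |h' i| * ‖v i‖ := by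
      calc |h i| * ‖v i‖ * c = |h i| * c * ‖v i‖ := by ring
        _ ≤ |h' i| * ‖v i‖ := by gcongr; exact hh i
    have h3 : 0 ≤ |h i| * ‖v i‖ * c := by positivity
    gcongr
  exact (sq_le_sq₀ (by positivity) (norm_nonneg _)).1 h1

/-- weight function of the clustering estimates -/
noncomputable def wt (x : ℝ) (m : ℕ) : ℝ := ((1 + |x|) ^ m)⁻¹

theorem wt_pos (x : ℝ) (m : ℕ) : 0 < wt x m := by unfold wt; positivity

theorem wt_le_one (x : ℝ) (m : ℕ) : wt x m ≤ 1 := by
  unfold wt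
  apply inv_le_one_of_one_le₀
  apply one_le_pow₀
  have := abs_nonneg x
  linarith

/-- **moments of the linearised kink in a local frame** -/
theorem norm_kink_sub_le {pos : ι → ℝ} {p J σ C : ℝ} (hσ : 1 ≤ σ) {m : ℕ} {v : L ι} {k : ℕ}
    (hC : 0 ≤ C)
    (h1 : ‖mv (dg fun i => |pos i - J| ^ 1) v‖ ≤ C * (σ * (1 + k)) ^ 1)
    (hm : ‖mv (dg fun i => |pos i - J| ^ (m + 1)) v‖ ≤ C * (σ * (1 + k)) ^ (m + 1)) :
    ‖mv (dg fun i => kink p (pos i) - klin p J (pos i)) v‖ ≤
      (C * 2 ^ m * σ * wt ((p - J) / σ) m) * (1 + (k : ℝ)) ^ (m + 1) := by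
  have hσ0 : 0 < σ := by linarith
  have hk : (1 : ℝ) ≤ 1 + k := by
    have : (0 : ℝ) ≤ k := Nat.cast_nonneg k
    linarith
  by_cases hle : |p - J| ≤ σ
  · have e1 := norm_mv_dg_mono (h := fun i => kink p (pos i) - klin p J (pos i))
      (h' := fun i => |pos i - J| ^ 1) zero_le_one (fun i => by
        rw [mul_one, pow_one, abs_abs]; exact abs_kink_sub_le p J (pos i)) v
    rw [mul_one] at e1
    refine (e1.trans h1).trans ?_
    have e2 : 1 ≤ 2 ^ m * wt ((p - J) / σ) m := by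
      unfold wt
      rw [← div_eq_mul_inv, one_le_div (by positivity)]
      gcongr
      rw [abs_div, abs_of_pos hσ0]
      have : |p - J| / σ ≤ 1 := (div_le_one hσ0).2 hle
      linarith
    have e3 : (1 + (k : ℝ)) ≤ (1 + (k : ℝ)) ^ (m + 1) := le_self_pow₀ hk (by omega)
    rw [pow_one]
    calc C * (σ * (1 + k)) = (C * σ * 1) * (1 + k) := by ring
      _ ≤ (C * σ * (2 ^ m * wt ((p - J) / σ) m)) * (1 + (k : ℝ)) ^ (m + 1) := by gcongr
      _ = _ := by ring
  · push Not at hle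
    have hpos : 0 < |p - J| := hσ0.trans hle
    have e1 := norm_mv_dg_mono (h := fun i => kink p (pos i) - klin p J (pos i))
      (h' := fun i => |pos i - J| ^ (m + 1)) (c := |p - J| ^ m) (by positivity) (fun i => by
        rw [abs_of_nonneg (by positivity : (0 : ℝ) ≤ |pos i - J| ^ (m + 1))]
        exact abs_kink_sub_mul_le p J (pos i) m) v
    have e2 : ‖mv (dg fun i => kink p (pos i) - klin p J (pos i)) v‖ ≤
        C * (σ * (1 + k)) ^ (m + 1) / |p - J| ^ m := by
      rw [le_div_iff₀ (by positivity)]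
      exact e1.trans hm
    refine e2.trans ?_
    have e3 : (1 : ℝ) / |p - J| ^ m ≤ 2 ^ m * wt ((p - J) / σ) m / σ ^ m := by
      unfold wt
      rw [abs_div, abs_of_pos hσ0]
      have e4 : 1 + |p - J| / σ ≤ 2 * |p - J| / σ := by
        rw [two_mul, add_div]
        have : 1 ≤ |p - J| / σ := (one_le_div hσ0).2 hle.le
        linarith
      have e5 : (1 + |p - J| / σ) ^ m ≤ (2 * |p - J| / σ) ^ m := by gcongr
      rw [div_le_div_iff₀ (by positivity) (by positivity), one_mul]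
      calc σ ^ m = 2 ^ m * ((2 * |p - J| / σ) ^ m)⁻¹ * |p - J| ^ m := by
            rw [div_pow, mul_pow, inv_div]
            field_simp
        _ ≤ 2 ^ m * ((1 + |p - J| / σ) ^ m)⁻¹ * |p - J| ^ m := by gcongr
    calc C * (σ * (1 + k)) ^ (m + 1) / |p - J| ^ m
        = C * σ * σ ^ m * (1 + (k : ℝ)) ^ (m + 1) * (1 / |p - J| ^ m) := by
          rw [mul_pow]; ring
      _ ≤ C * σ * σ ^ m * (1 + (k : ℝ)) ^ (m + 1) * (2 ^ m * wt ((p - J) / σ) m / σ ^ m) := by
          gcongr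
      _ = _ := by field_simp

end moments

/-- All locality data of a frustration free Hamiltonian `H = ∫ b_z^* b_z dμ(z)` on the Fock space of
`Q+1` orbitals, with its zero mode projection `P`. The constants `Cm, Dm, em, Cμ` do not depend on
`Q`. -/
structure LocData {Q : ℕ} {S : Type*} [MeasurableSpace S] (μ : Measure S)
    (H P : Op (Fin (Q + 1))) (b : S → Op (Fin (Q + 1)))
    (fr : S → OrthonormalBasis (Fin (Q + 1)) ℂ (L (Fin (Q + 1)))) (J σ : S → ℝ)
    (Cm Dm : ℕ → ℝ) (em : ℕ → ℕ) (Cμ : ℝ) : Prop where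
  hH : IsSelfAdjoint H
  hP : IsSelfAdjoint P
  hP1 : ‖P‖ ≤ 1
  hHP : H * P = 0
  commH : ∀ α β : ℝ, Commute H (dG (dg fun j : Fin (Q + 1) => α + β * (j : ℝ)))
  commP : ∀ α β : ℝ, Commute P (dG (dg fun j : Fin (Q + 1) => α + β * (j : ℝ)))
  int : Integrable (fun z => star (b z) * b z) μ
  H_eq : H = ∫ z, star (b z) * b z ∂μ
  bP : ∀ z, b z * P = 0
  norm_b : ∀ M z, ‖b z‖ ≤ Dm M
  trunc : ∀ M s z, Trunc (fr z) (tau H s (b z)) (Dm M * (1 + |s|) ^ em M) M
  Cm_nonneg : ∀ m, 0 ≤ Cm m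
  mom : ∀ m z (k : Fin (Q + 1)),
    ‖mv (dg fun j : Fin (Q + 1) => |(j : ℝ) - J z| ^ m) (fr z k)‖ ≤ Cm m * (σ z * (1 + (k : ℕ))) ^ m
  one_le_σ : ∀ z, 1 ≤ σ z
  σ_sq_le : ∀ z, σ z ^ 2 ≤ 1 + min (J z) (Q - J z)
  J_mem : ∀ z, J z ∈ Set.Icc (0 : ℝ) Q
  Cμ_nonneg : 0 ≤ Cμ
  push : ∀ F : ℝ → ℝ≥0∞, Measurable F →
    ∫⁻ z, F (J z) ∂μ ≤ ENNReal.ofReal Cμ * ∫⁻ t in Set.Icc (0 : ℝ) Q, F t

section ring

variable {Q : ℕ} {S : Type*} [MeasurableSpace S] {μ : Measure S}
    {H P : Op (Fin (Q + 1))} {b : S → Op (Fin (Q + 1))}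
    {fr : S → OrthonormalBasis (Fin (Q + 1)) ℂ (L (Fin (Q + 1)))} {J σ : S → ℝ}
    {Cm Dm : ℕ → ℝ} {em : ℕ → ℕ} {Cμ : ℝ}

/-- one-body kink operator -/
noncomputable def KK (Q : ℕ) (p : ℝ) : Op (Fin (Q + 1)) := dG (dg fun j => kink p (j : ℝ))

/-- linearised part -/
noncomputable def KL (Q : ℕ) (p J : ℝ) : Op (Fin (Q + 1)) := dG (dg fun j => klin p J (j : ℝ))

/-- difference -/
noncomputable def KD (Q : ℕ) (p J : ℝ) : Op (Fin (Q + 1)) :=
  dG (dg fun j => kink p (j : ℝ) - klin p J (j : ℝ))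

theorem dg_sub {ι : Type*} [Fintype ι] [LinearOrder ι] (f h : ι → ℝ) :
    dg (fun i => f i - h i) = dg f - dg h := by
  ext i j
  by_cases hij : i = j
  · subst hij; simp [dg]
  · simp [dg, Matrix.diagonal_apply_ne _ hij]

theorem KK_eq (p J : ℝ) : KK Q p = KL Q p J + KD Q p J := by
  unfold KK KL KD
  rw [dg_sub, dG_sub]
  abel

theorem star_dG_dg (h : Fin (Q + 1) → ℝ) : star (dG (dg h)) = dG (dg h) := by
  rw [star_dG, dg, Matrix.diagonal_conjTranspose]
  congr 2
  funext i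
  simp

theorem star_KK (p : ℝ) : star (KK Q p) = KK Q p := star_dG_dg _

variable (hD : LocData μ H P b fr J σ Cm Dm em Cμ)
include hD

theorem LocData.Dm_nonneg [Nonempty S] (M : ℕ) : 0 ≤ Dm M :=
  (norm_nonneg _).trans (hD.norm_b M (Classical.arbitrary S))

theorem LocData.commH_KL (p J' : ℝ) : Commute H (KL Q p J') := by
  obtain ⟨α, β, h⟩ := klin_affine p J'
  unfold KL
  simp_rw [h]
  exact hD.commH α β

theorem LocData.commP_KL (p J' : ℝ) : Commute P (KL Q p J') := by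
  obtain ⟨α, β, h⟩ := klin_affine p J'
  unfold KL
  simp_rw [h]
  exact hD.commP α β

/-- `[b_z, KL] P = 0` -/
theorem LocData.lie_KL_mul (z : S) (p J' : ℝ) : ⁅b z, KL Q p J'⁆ * P = 0 := by
  rw [Ring.lie_def, sub_mul, mul_assoc, mul_assoc, ← (hD.commP_KL p J').eq, ← mul_assoc,
    hD.bP, zero_mul, mul_zero, sub_zero]

/-- constant of the ring estimates -/
noncomputable def ringB (Cm : ℕ → ℝ) (m : ℕ) : ℝ := (Cm 1 + Cm (m + 1)) * 2 ^ m

omit hD in
theorem ringB_nonneg {Cm : ℕ → ℝ} (h : ∀ m, 0 ≤ Cm m) (m : ℕ) : 0 ≤ ringB Cm m := by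
  unfold ringB
  have := h 1
  have := h (m + 1)
  positivity

theorem LocData.moment (m : ℕ) (z : S) (p : ℝ) (k : Fin (Q + 1)) :
    ‖mv (dg fun j : Fin (Q + 1) => kink p (j : ℝ) - klin p (J z) (j : ℝ)) (fr z k)‖ ≤
      (ringB Cm m * σ z * wt ((p - J z) / σ z) m) * (1 + ((k : ℕ) : ℝ)) ^ (m + 1) := by
  have h1 := hD.Cm_nonneg 1
  have h2 := hD.Cm_nonneg (m + 1)
  have hσ := hD.one_le_σ z
  have hk : (0 : ℝ) ≤ ((k : ℕ) : ℝ) := Nat.cast_nonneg _
  have e := norm_kink_sub_le (pos := fun j : Fin (Q + 1) => (j : ℝ)) (p := p) (J := J z)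
    (σ := σ z) (C := Cm 1 + Cm (m + 1)) hσ (m := m) (v := fr z k) (k := (k : ℕ)) (by positivity)
    ((hD.mom 1 z k).trans (by gcongr; linarith))
    ((hD.mom (m + 1) z k).trans (by gcongr; linarith))
  refine e.trans (le_of_eq ?_)
  unfold ringB
  ring

/-- commutator of the evolved local pair annihilator with the linearised kink -/
theorem LocData.lie_tau_KD_le (m : ℕ) (z : S) (p s : ℝ) :
    ‖⁅tau H s (b z), KD Q p (J z)⁆‖ ≤ 4 ^ (m + 5) * (Dm (2 * m + 5) * (1 + |s|) ^ em (2 * m + 5)) *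
      (ringB Cm m * σ z * wt ((p - J z) / σ z) m) := by
  have hσ := hD.one_le_σ z
  have hB0 : 0 ≤ ringB Cm m * σ z * wt ((p - J z) / σ z) m := by
    have := ringB_nonneg hD.Cm_nonneg m
    have := (wt_pos ((p - J z) / σ z) m).le
    positivity
  have hDm : 0 ≤ Dm (2 * m + 5) := (norm_nonneg _).trans (hD.norm_b _ z)
  have h1 : ‖tau H s (b z)‖ ≤ Dm (2 * m + 5) * (1 + |s|) ^ em (2 * m + 5) := by
    rw [norm_tau hD.hH]
    refine (hD.norm_b (2 * m + 5) z).trans ?_
    have : (1 : ℝ) ≤ (1 + |s|) ^ em (2 * m + 5) := by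
      apply one_le_pow₀
      have := abs_nonneg s
      linarith
    exact le_mul_of_one_le_right hDm this
  have h := lie_dG_diag_le (b := fr z) (r := m + 1) hB0 (hD.moment m z p) h1
    (M := 2 * m + 5) (by omega) (hD.trunc (2 * m + 5) s z)
  exact h

/-- `[b_z, KK] P` -/
theorem LocData.lie_KK_mul_le (m : ℕ) (z : S) (p : ℝ) :
    ‖⁅b z, KK Q p⁆ * P‖ ≤ 4 ^ (m + 5) * Dm (2 * m + 5) *
      (ringB Cm m * σ z * wt ((p - J z) / σ z) m) := by
  have e1 : ⁅b z, KK Q p⁆ * P = ⁅b z, KD Q p (J z)⁆ * P := by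
    have e2 : ⁅b z, KK Q p⁆ = ⁅b z, KL Q p (J z)⁆ + ⁅b z, KD Q p (J z)⁆ := by
      rw [KK_eq p (J z)]
      simp only [Ring.lie_def, mul_add, add_mul]
      abel
    rw [e2, add_mul, hD.lie_KL_mul, zero_add]
  rw [e1]
  have h := hD.lie_tau_KD_le m z p 0
  rw [tau_zero, abs_zero, add_zero, one_pow, mul_one] at h
  calc ‖⁅b z, KD Q p (J z)⁆ * P‖ ≤ ‖⁅b z, KD Q p (J z)⁆‖ * ‖P‖ := norm_mul_le _ _
    _ ≤ ‖⁅b z, KD Q p (J z)⁆‖ * 1 := by gcongr; exact hD.hP1
    _ ≤ _ := by rw [mul_one]; exact h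

theorem LocData.mul_lie_KK_star_le (m : ℕ) (z : S) (p : ℝ) :
    ‖P * ⁅KK Q p, star (b z)⁆‖ ≤ 4 ^ (m + 5) * Dm (2 * m + 5) *
      (ringB Cm m * σ z * wt ((p - J z) / σ z) m) := by
  have e : P * ⁅KK Q p, star (b z)⁆ = star (⁅b z, KK Q p⁆ * P) := by
    rw [star_mul, hD.hP.star_eq]
    congr 1
    simp only [Ring.lie_def, star_sub, star_mul, star_KK]
  rw [e, norm_star]
  exact hD.lie_KK_mul_le m z p

omit hD in
theorem tau_eq_of_commute {A : Type*} [CStarAlgebra A] {H X : A} (h : Commute H X) (t : ℝ) :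
    tau H t X = X := by
  have hd : ∀ s : ℝ, HasDerivAt (fun s => tau H s X) 0 s := by
    intro s
    refine (hasDerivAt_tau H X s).congr_deriv ?_
    rw [Ring.lie_def, h.eq, sub_self, smul_zero]
    simp [tau]
  have := is_const_of_deriv_eq_zero (fun s => (hd s).differentiableAt) (fun s => (hd s).deriv) t 0
  simpa using this

omit hD in
theorem SS_of_commute {A : Type*} [CStarAlgebra A] {g : ℝ → ℝ} {H X : A} (h : Commute H X) :
    SS g H X = (∫ t, g t * t) • X := by
  have e : ∀ t, Tt H t X = t • X := by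
    intro t
    unfold Tt
    simp_rw [tau_eq_of_commute h]
    simp
  unfold SS
  simp_rw [e, smul_smul]
  rw [integral_smul_const]

omit hD in
theorem SS_add {A : Type*} [CStarAlgebra A] {g : ℝ → ℝ} (hg : IsFilter g) {H : A}
    (hH : IsSelfAdjoint H) (X Y : A) : SS g H (X + Y) = SS g H X + SS g H Y := by
  unfold SS
  rw [← integral_add (integrable_SS hg hH X) (integrable_SS hg hH Y)]
  congr 1
  funext t
  rw [← smul_add]
  congr 1
  unfold Tt
  rw [← intervalIntegral.integral_add ((continuous_tau H X).intervalIntegrable _ _)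
    ((continuous_tau H Y).intervalIntegrable _ _)]
  simp_rw [tau_add]

/-- time constant -/
noncomputable def gconst (g : ℝ → ℝ) (e : ℕ) : ℝ := ∫ t, |t| * |g t| * (1 + |t|) ^ e

omit hD in
theorem integrable_gconst {g : ℝ → ℝ} (hg : IsFilter g) (e : ℕ) :
    Integrable fun t => |t| * |g t| * (1 + |t|) ^ e := by
  have h : ∀ t : ℝ, |t| * |g t| * (1 + |t|) ^ e ≤ 2 ^ e * (|t| ^ 1 * |g t|) +
      2 ^ e * (|t| ^ (e + 1) * |g t|) := by
    intro t
    have h1 : (1 + |t|) ^ e ≤ 2 ^ e * (1 + |t| ^ e) := by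
      have h2 : 1 + |t| ≤ 2 * max 1 |t| := by
        rcases le_total 1 |t| with h | h
        · rw [max_eq_right h]; linarith
        · rw [max_eq_left h]; linarith
      calc (1 + |t|) ^ e ≤ (2 * max 1 |t|) ^ e := by
            gcongr
        _ = 2 ^ e * (max 1 |t|) ^ e := mul_pow _ _ _
        _ ≤ 2 ^ e * (1 + |t| ^ e) := by
            gcongr
            rcases le_total 1 |t| with h | h
            · rw [max_eq_right h]; linarith
            · rw [max_eq_left h, one_pow]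
              have := pow_nonneg (abs_nonneg t) e
              linarith
    calc |t| * |g t| * (1 + |t|) ^ e ≤ |t| * |g t| * (2 ^ e * (1 + |t| ^ e)) := by gcongr
      _ = _ := by ring
  have hi := ((hg.int 1).const_mul (2 ^ e)).add ((hg.int (e + 1)).const_mul (2 ^ e))
  refine hi.mono' ?_ ?_
  · have := hg.cont
    exact (by fun_prop : Continuous fun t => |t| * |g t| * (1 + |t|) ^ e).aestronglyMeasurable
  · filter_upwards with t
    rw [Real.norm_of_nonneg (by positivity)]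
    exact h t

omit hD in
theorem gconst_nonneg (g : ℝ → ℝ) (e : ℕ) : 0 ≤ gconst g e :=
  integral_nonneg fun t => by positivity

/-- `[b_z, S(KK)] P` -/
theorem LocData.lie_SS_mul_le {g : ℝ → ℝ} (hg : IsFilter g) (m : ℕ) (z : S) (p : ℝ) :
    ‖⁅b z, SS g H (KK Q p)⁆ * P‖ ≤ gconst g (em (2 * m + 5)) * (4 ^ (m + 5) * Dm (2 * m + 5) *
      (ringB Cm m * σ z * wt ((p - J z) / σ z) m)) := by
  have e1 : ⁅b z, SS g H (KK Q p)⁆ * P = ⁅b z, SS g H (KD Q p (J z))⁆ * P := by
    have e2 : ⁅b z, SS g H (KK Q p)⁆ = (∫ t, g t * t) • ⁅b z, KL Q p (J z)⁆ +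
        ⁅b z, SS g H (KD Q p (J z))⁆ := by
      rw [KK_eq p (J z), SS_add hg hD.hH, SS_of_commute (hD.commH_KL p (J z))]
      simp only [Ring.lie_def, mul_add, add_mul, mul_smul_comm, smul_mul_assoc, smul_sub]
      abel
    rw [e2, add_mul, smul_mul_assoc, hD.lie_KL_mul, smul_zero, zero_add]
  rw [e1]
  have hcomm : ‖⁅b z, SS g H (KD Q p (J z))⁆‖ = ‖⁅SS g H (KD Q p (J z)), b z⁆‖ := by
    rw [← norm_neg]
    congr 1
    simp only [Ring.lie_def]
    abel
  have hDm : 0 ≤ Dm (2 * m + 5) := (norm_nonneg _).trans (hD.norm_b _ z)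
  have hσ := hD.one_le_σ z
  have hB0 : 0 ≤ ringB Cm m * σ z * wt ((p - J z) / σ z) m := by
    have := ringB_nonneg hD.Cm_nonneg m
    have := (wt_pos ((p - J z) / σ z) m).le
    positivity
  set K : ℝ := 4 ^ (m + 5) * Dm (2 * m + 5) * (ringB Cm m * σ z * wt ((p - J z) / σ z) m) with hK
  have hK0 : 0 ≤ K := by positivity
  have hφ : ∀ t, ‖⁅tau H t (KD Q p (J z)), b z⁆‖ ≤
      (fun s => K * (1 + s) ^ em (2 * m + 5)) |t| := by
    intro t
    rw [norm_lie_tau hD.hH]
    have e3 : ‖⁅KD Q p (J z), tau H (-t) (b z)⁆‖ = ‖⁅tau H (-t) (b z), KD Q p (J z)⁆‖ := by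
      rw [← norm_neg]
      congr 1
      simp only [Ring.lie_def]
      abel
    rw [e3]
    have h := hD.lie_tau_KD_le m z p (-t)
    rw [abs_neg] at h
    refine h.trans (le_of_eq ?_)
    simp only [hK]
    ring
  have hint : Integrable fun t => |t| * |g t| * (fun s => K * (1 + s) ^ em (2 * m + 5)) |t| := by
    have := (integrable_gconst hg (em (2 * m + 5))).const_mul K
    refine this.congr (Filter.Eventually.of_forall fun t => ?_)
    simp only
    ring
  have hmono : MonotoneOn (fun s : ℝ => K * (1 + s) ^ em (2 * m + 5)) (Set.Ici 0) := by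
    intro s hs t ht hst
    have hs' : (0 : ℝ) ≤ s := hs
    simp only
    gcongr
  have h := norm_lie_SS_le hg hD.hH (KD Q p (J z)) (b z) hint hmono hφ
  have e4 : ∫ t, |t| * |g t| * (fun s => K * (1 + s) ^ em (2 * m + 5)) |t| =
      gconst g (em (2 * m + 5)) * K := by
    unfold gconst
    rw [← integral_mul_const]
    congr 1
    funext t
    simp only
    ring
  rw [e4] at h
  calc ‖⁅b z, SS g H (KD Q p (J z))⁆ * P‖ ≤ ‖⁅b z, SS g H (KD Q p (J z))⁆‖ * ‖P‖ :=
        norm_mul_le _ _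
    _ ≤ ‖⁅b z, SS g H (KD Q p (J z))⁆‖ * 1 := by gcongr; exact hD.hP1
    _ ≤ gconst g (em (2 * m + 5)) * K := by rw [mul_one, hcomm]; exact h

end ring

end Crest.Agent.R340.LR667
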