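import Crest.Agent.R340.LR5_667
import Mathlib.Analysis.SpecialFunctions.ImproperIntegrals
import Mathlib.MeasureTheory.Measure.Haar.NormedSpace

/-!
# R340 / S0532, layer 6: clustering of rings

`‖P dG(kink_p) (1-P) dG(kink_q) P‖ ≤ C dd_p^{3/2} (1 + DD p q)^{-m}` from the locality data
`LocData`.  (helper667)
-/

set_option autoImplicit false

open Matrix Finset MeasureTheory
open scoped ENNReal

namespace Crest.Agent.R340.LR667

open Crest.Agent.R340.Fock649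

/-! ## 1. the two-pole scale, real arguments -/

/-- distance to the nearest pole -/
noncomputable def dr (Q : ℕ) (p : ℝ) : ℝ := min (p + 1) ((Q : ℝ) - p + 1)

/-- distance on the `sqrt` scale -/
noncomputable def DR (Q : ℕ) (p q : ℝ) : ℝ :=
  |Real.sqrt (p + 1) - Real.sqrt (q + 1)| +
    |Real.sqrt ((Q : ℝ) - p + 1) - Real.sqrt ((Q : ℝ) - q + 1)|

theorem DR_nonneg (Q : ℕ) (p q : ℝ) : 0 ≤ DR Q p q := by unfold DR; positivity

theorem DR_comm (Q : ℕ) (p q : ℝ) : DR Q p q = DR Q q p := by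
  unfold DR; rw [abs_sub_comm, abs_sub_comm (Real.sqrt ((Q : ℝ) - p + 1))]

theorem DR_triangle (Q : ℕ) (p q r : ℝ) : DR Q p r ≤ DR Q p q + DR Q q r := by
  unfold DR
  have h1 := abs_sub_le (Real.sqrt (p + 1)) (Real.sqrt (q + 1)) (Real.sqrt (r + 1))
  have h2 := abs_sub_le (Real.sqrt ((Q : ℝ) - p + 1)) (Real.sqrt ((Q : ℝ) - q + 1))
    (Real.sqrt ((Q : ℝ) - r + 1))
  linarith

theorem one_le_dr {Q : ℕ} {p : ℝ} (hp : p ∈ Set.Icc (0 : ℝ) Q) : 1 ≤ dr Q p := by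
  unfold dr
  exact le_min (by linarith [hp.1]) (by linarith [hp.2])

theorem dr_le_mul {Q : ℕ} {p q : ℝ} (hp : p ∈ Set.Icc (0 : ℝ) Q) (hq : q ∈ Set.Icc (0 : ℝ) Q) :
    dr Q p ≤ dr Q q * (1 + DR Q p q) ^ 2 := by
  have hD := DR_nonneg Q p q
  have h1 : ∀ a b : ℝ, 1 ≤ a → 1 ≤ b → |Real.sqrt a - Real.sqrt b| ≤ DR Q p q →
      a ≤ b * (1 + DR Q p q) ^ 2 := by
    intro a b ha hb h
    have e1 : Real.sqrt a ≤ Real.sqrt b + DR Q p q := by linarith [le_abs_self (Real.sqrt a - Real.sqrt b)]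
    have e2 : 1 ≤ Real.sqrt b := Real.one_le_sqrt.2 hb
    have e3 : Real.sqrt a ≤ Real.sqrt b * (1 + DR Q p q) := by nlinarith
    calc a = Real.sqrt a ^ 2 := (Real.sq_sqrt (by linarith)).symm
      _ ≤ (Real.sqrt b * (1 + DR Q p q)) ^ 2 := by gcongr
      _ = b * (1 + DR Q p q) ^ 2 := by rw [mul_pow, Real.sq_sqrt (by linarith)]
  have hp1 := hp.1
  have hp2 := hp.2
  have hq1 := hq.1
  have hq2 := hq.2
  have ha := abs_nonneg (Real.sqrt (p + 1) - Real.sqrt (q + 1))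
  have hb := abs_nonneg (Real.sqrt ((Q : ℝ) - p + 1) - Real.sqrt ((Q : ℝ) - q + 1))
  have e1 := h1 (p + 1) (q + 1) (by linarith) (by linarith) (by unfold DR; linarith)
  have e2 := h1 ((Q : ℝ) - p + 1) ((Q : ℝ) - q + 1) (by linarith) (by linarith)
    (by unfold DR; linarith)
  unfold dr
  rcases le_total (q + 1) ((Q : ℝ) - q + 1) with h | h
  · rw [min_eq_left h]; exact (min_le_left _ _).trans e1
  · rw [min_eq_right h]; exact (min_le_right _ _).trans e2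

theorem abs_sqrt_sub_le {a b : ℝ} (ha : 1 ≤ a) (hb : 1 ≤ b) :
    |Real.sqrt a - Real.sqrt b| ≤ |a - b| / Real.sqrt b := by
  have e2 : 1 ≤ Real.sqrt b := Real.one_le_sqrt.2 hb
  have e1 : 1 ≤ Real.sqrt a := Real.one_le_sqrt.2 ha
  rw [le_div_iff₀ (by linarith)]
  have e3 : a - b = (Real.sqrt a - Real.sqrt b) * (Real.sqrt a + Real.sqrt b) := by
    have := Real.sq_sqrt (by linarith : (0 : ℝ) ≤ a)
    have := Real.sq_sqrt (by linarith : (0 : ℝ) ≤ b)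
    nlinarith
  rw [e3, abs_mul, abs_of_nonneg (by linarith : 0 ≤ Real.sqrt a + Real.sqrt b)]
  gcongr
  linarith

/-- `|p - J| / σ` dominates the distance -/
theorem DR_le_div {Q : ℕ} {p J σ : ℝ} (hp : p ∈ Set.Icc (0 : ℝ) Q) (hJ : J ∈ Set.Icc (0 : ℝ) Q)
    (hσ1 : 1 ≤ σ) (hσ : σ ^ 2 ≤ 1 + min J (Q - J)) : DR Q p J ≤ 2 * (|p - J| / σ) := by
  have hσ0 : 0 < σ := by linarith
  have h1 : |Real.sqrt (p + 1) - Real.sqrt (J + 1)| ≤ |p - J| / σ := by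
    have e := abs_sqrt_sub_le (a := p + 1) (b := J + 1) (by linarith [hp.1]) (by linarith [hJ.1])
    rw [show p + 1 - (J + 1) = p - J by ring] at e
    refine e.trans ?_
    have : σ ≤ Real.sqrt (J + 1) := by
      apply Real.le_sqrt_of_sq_le
      linarith [min_le_left J ((Q : ℝ) - J)]
    gcongr
  have h2 : |Real.sqrt ((Q : ℝ) - p + 1) - Real.sqrt ((Q : ℝ) - J + 1)| ≤ |p - J| / σ := by
    have e := abs_sqrt_sub_le (a := (Q : ℝ) - p + 1) (b := (Q : ℝ) - J + 1) (by linarith [hp.2])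
      (by linarith [hJ.2])
    rw [show (Q : ℝ) - p + 1 - ((Q : ℝ) - J + 1) = J - p by ring, abs_sub_comm J p] at e
    refine e.trans ?_
    have : σ ≤ Real.sqrt ((Q : ℝ) - J + 1) := by
      apply Real.le_sqrt_of_sq_le
      linarith [min_le_right J ((Q : ℝ) - J)]
    gcongr
  unfold DR
  linarith

theorem wt_le_DR {Q : ℕ} {p J σ : ℝ} (hp : p ∈ Set.Icc (0 : ℝ) Q) (hJ : J ∈ Set.Icc (0 : ℝ) Q)
    (hσ1 : 1 ≤ σ) (hσ : σ ^ 2 ≤ 1 + min J (Q - J)) (m : ℕ) :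
    wt ((p - J) / σ) m ≤ 2 ^ m * ((1 + DR Q p J) ^ m)⁻¹ := by
  have hσ0 : 0 < σ := by linarith
  have h := DR_le_div hp hJ hσ1 hσ
  have hD := DR_nonneg Q p J
  unfold wt
  rw [abs_div, abs_of_pos hσ0, ← div_eq_mul_inv, le_div_iff₀ (by positivity), inv_mul_le_iff₀
    (by positivity), ← mul_pow]
  gcongr
  linarith

/-- the integral over the profile around `p` -/
theorem lintegral_DR_le {Q : ℕ} {p : ℝ} (hp : p ∈ Set.Icc (0 : ℝ) Q) :
    ∫⁻ t in Set.Icc (0 : ℝ) Q, ENNReal.ofReal (((1 + DR Q p t) ^ 4)⁻¹) ≤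
      ENNReal.ofReal (2 * Real.pi * Real.sqrt (dr Q p)) := by
  have hdr := one_le_dr hp
  set ρ := Real.sqrt (dr Q p) with hρ
  have hρ1 : 1 ≤ ρ := Real.one_le_sqrt.2 hdr
  have hρ0 : 0 < ρ := by linarith
  -- pointwise
  have hcore : ∀ a b : ℝ, 1 ≤ a → 1 ≤ b → 
      1 + ((a - b) / (2 * Real.sqrt a)) ^ 2 ≤ (1 + |Real.sqrt a - Real.sqrt b|) ^ 4 := by
    intro a b ha hb
    have e1 : 1 ≤ Real.sqrt a := Real.one_le_sqrt.2 ha
    have e2 : 1 ≤ Real.sqrt b := Real.one_le_sqrt.2 hb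
    set x := |Real.sqrt a - Real.sqrt b| with hx
    have hx0 : 0 ≤ x := abs_nonneg _
    have e3 : |(a - b) / (2 * Real.sqrt a)| ≤ x * (1 + x) := by
      rw [abs_div, abs_of_pos (by linarith : 0 < 2 * Real.sqrt a), div_le_iff₀ (by linarith)]
      have e4 : a - b = (Real.sqrt a - Real.sqrt b) * (Real.sqrt a + Real.sqrt b) := by
        have := Real.sq_sqrt (by linarith : (0 : ℝ) ≤ a)
        have := Real.sq_sqrt (by linarith : (0 : ℝ) ≤ b)
        nlinarith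
      rw [e4, abs_mul, abs_of_nonneg (by linarith : 0 ≤ Real.sqrt a + Real.sqrt b), ← hx,
        mul_assoc]
      gcongr
      have e5 : Real.sqrt b ≤ Real.sqrt a + x := by
        have := neg_abs_le (Real.sqrt a - Real.sqrt b)
        linarith
      nlinarith
    have e6 : ((a - b) / (2 * Real.sqrt a)) ^ 2 ≤ (x * (1 + x)) ^ 2 := by
      rw [← sq_abs]
      gcongr
    nlinarith [mul_nonneg hx0 hx0, mul_nonneg hx0 (mul_nonneg hx0 hx0),
      mul_nonneg (mul_nonneg hx0 hx0) (mul_nonneg hx0 hx0)]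
  have hpt : ∀ t ∈ Set.Icc (0 : ℝ) Q, ((1 + DR Q p t) ^ 4)⁻¹ ≤ (1 + ((t - p) / (2 * ρ)) ^ 2)⁻¹ := by
    intro t ht
    have h1 := abs_nonneg (Real.sqrt (p + 1) - Real.sqrt (t + 1))
    have h2 := abs_nonneg (Real.sqrt ((Q : ℝ) - p + 1) - Real.sqrt ((Q : ℝ) - t + 1))
    apply inv_anti₀ (by positivity)
    rcases le_total (p + 1) ((Q : ℝ) - p + 1) with h | h
    · have e : dr Q p = p + 1 := by unfold dr; exact min_eq_left h
      have e2 := hcore (p + 1) (t + 1) (by linarith [hp.1]) (by linarith [ht.1])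
      rw [← e, ← hρ, e, show p + 1 - (t + 1) = -(t - p) by ring, neg_div, neg_sq] at e2
      refine e2.trans ?_
      rw [hρ, e]
      unfold DR
      gcongr
      linarith
    · have e : dr Q p = (Q : ℝ) - p + 1 := by unfold dr; exact min_eq_right h
      have e2 := hcore ((Q : ℝ) - p + 1) ((Q : ℝ) - t + 1) (by linarith [hp.2]) (by linarith [ht.2])
      rw [← e, ← hρ, e, show (Q : ℝ) - p + 1 - ((Q : ℝ) - t + 1) = t - p by ring] at e2
      refine e2.trans ?_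
      rw [hρ, e]
      unfold DR
      gcongr
      linarith
  have hint : ∫ t : ℝ, (1 + ((t - p) / (2 * ρ)) ^ 2)⁻¹ = 2 * ρ * Real.pi := by
    rw [integral_sub_right_eq_self (fun t : ℝ => (1 + (t / (2 * ρ)) ^ 2)⁻¹) p,
      Measure.integral_comp_div (fun t : ℝ => (1 + t ^ 2)⁻¹) (2 * ρ),
      integral_univ_inv_one_add_sq, abs_of_pos (by positivity), smul_eq_mul]
  have hintg : Integrable fun t : ℝ => (1 + ((t - p) / (2 * ρ)) ^ 2)⁻¹ := by
    have h1 : Integrable fun t : ℝ => (1 + (t / (2 * ρ)) ^ 2)⁻¹ :=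
      integrable_inv_one_add_sq.comp_div (by positivity)
    exact h1.comp_sub_right p
  calc ∫⁻ t in Set.Icc (0 : ℝ) Q, ENNReal.ofReal (((1 + DR Q p t) ^ 4)⁻¹)
      ≤ ∫⁻ t in Set.Icc (0 : ℝ) Q, ENNReal.ofReal ((1 + ((t - p) / (2 * ρ)) ^ 2)⁻¹) :=
        setLIntegral_mono' measurableSet_Icc fun t ht => ENNReal.ofReal_le_ofReal (hpt t ht)
    _ ≤ ∫⁻ t, ENNReal.ofReal ((1 + ((t - p) / (2 * ρ)) ^ 2)⁻¹) := setLIntegral_le_lintegral _ _
    _ = ENNReal.ofReal (∫ t : ℝ, (1 + ((t - p) / (2 * ρ)) ^ 2)⁻¹) :=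
        (ofReal_integral_eq_lintegral_ofReal hintg (Filter.Eventually.of_forall fun t => by
          positivity)).symm
    _ = _ := by rw [hint]; congr 1; ring

theorem measurable_DR (Q : ℕ) (p : ℝ) : Measurable fun t => DR Q p t := by
  unfold DR
  fun_prop

/-- decay bookkeeping: `dr J · A^{-M} · B^{-M} ≤ dr p · (1+DR p q)^{-m} · A^{-4}`, `M = m + 6` -/
theorem weight_le {Q : ℕ} {p q J : ℝ} (hp : p ∈ Set.Icc (0 : ℝ) Q) (hJ : J ∈ Set.Icc (0 : ℝ) Q)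
    (m : ℕ) :
    dr Q J * ((1 + DR Q p J) ^ (m + 6))⁻¹ * ((1 + DR Q q J) ^ (m + 6))⁻¹ ≤
      dr Q p * ((1 + DR Q p q) ^ m)⁻¹ * ((1 + DR Q p J) ^ 4)⁻¹ := by
  have hA0 := DR_nonneg Q p J
  have hB0 := DR_nonneg Q q J
  have hC0 := DR_nonneg Q p q
  have hp1 := one_le_dr hp
  have h1 : dr Q J ≤ dr Q p * (1 + DR Q p J) ^ 2 := by
    have := dr_le_mul hJ hp
    rwa [DR_comm Q J p] at this
  have h2 : 1 + DR Q p q ≤ (1 + DR Q p J) * (1 + DR Q q J) := by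
    have := DR_triangle Q p J q
    rw [DR_comm Q J q] at this
    nlinarith
  have h3 : (1 + DR Q p q) ^ m ≤ (1 + DR Q p J) ^ m * (1 + DR Q q J) ^ m := by
    rw [← mul_pow]
    gcongr
  have h4 : (1 + DR Q q J) ^ m ≤ (1 + DR Q q J) ^ (m + 6) :=
    pow_le_pow_right₀ (by linarith) (by omega)
  have hdJ := one_le_dr hJ
  set A := 1 + DR Q p J with hA
  set B := 1 + DR Q q J with hB
  set C := 1 + DR Q p q with hC
  have hA' : 0 < A := by positivity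
  have hB' : 0 < B := by positivity
  have hC' : 0 < C := by positivity
  rw [← div_eq_mul_inv, ← div_eq_mul_inv, ← div_eq_mul_inv, ← div_eq_mul_inv, div_div, div_div,
    div_le_div_iff₀ (by positivity) (by positivity)]
  calc dr Q J * (C ^ m * A ^ 4) ≤ (dr Q p * A ^ 2) * ((A ^ m * B ^ m) * A ^ 4) := by gcongr
    _ = dr Q p * (A ^ (m + 6) * B ^ m) := by ring
    _ ≤ dr Q p * (A ^ (m + 6) * B ^ (m + 6)) := by gcongr

section ring

variable {Q : ℕ} {S : Type*} [MeasurableSpace S] {μ : Measure S}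
    {H P : Op (Fin (Q + 1))} {b : S → Op (Fin (Q + 1))}
    {fr : S → OrthonormalBasis (Fin (Q + 1)) ℂ (L (Fin (Q + 1)))} {J σ : S → ℝ}
    {Cm Dm : ℕ → ℝ} {em : ℕ → ℕ} {Cμ : ℝ}

/-- constant of one commutator -/
noncomputable def ringC (Cm Dm : ℕ → ℝ) (m : ℕ) : ℝ :=
  4 ^ (m + 5) * |Dm (2 * m + 5)| * ringB Cm m

/-- constant of the ring clustering theorem -/
noncomputable def ringK (g : ℝ → ℝ) (Cm Dm : ℕ → ℝ) (em : ℕ → ℕ) (Cμ : ℝ) (m : ℕ) : ℝ :=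
  Cμ * (gconst g (em (2 * (m + 6) + 5)) * (2 ^ (m + 6) * ringC Cm Dm (m + 6)) ^ 2) *
    (2 * Real.pi)

theorem ringC_nonneg {Cm Dm : ℕ → ℝ} (h : ∀ m, 0 ≤ Cm m) (m : ℕ) : 0 ≤ ringC Cm Dm m := by
  unfold ringC
  have := ringB_nonneg h m
  positivity

variable (hD : LocData μ H P b fr J σ Cm Dm em Cμ)
include hD

theorem LocData.wt_mul_le (m : ℕ) (z : S) {p q : ℝ} (hp : p ∈ Set.Icc (0 : ℝ) Q)
    (hq : q ∈ Set.Icc (0 : ℝ) Q) :
    (σ z * wt ((p - J z) / σ z) (m + 6)) * (σ z * wt ((q - J z) / σ z) (m + 6)) ≤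
      (2 ^ (m + 6)) ^ 2 * (dr Q p * ((1 + DR Q p q) ^ m)⁻¹ * ((1 + DR Q p (J z)) ^ 4)⁻¹) := by
  have hσ := hD.one_le_σ z
  have hσ2 := hD.σ_sq_le z
  have hJ := hD.J_mem z
  have h1 := wt_le_DR hp hJ hσ hσ2 (m + 6)
  have h2 := wt_le_DR hq hJ hσ hσ2 (m + 6)
  have h3 : σ z ^ 2 ≤ dr Q (J z) := by
    refine hσ2.trans (le_of_eq ?_)
    unfold dr
    rw [← min_add_add_left, add_comm 1 (J z), add_comm 1 ((Q : ℝ) - J z)]
  have hw1 := (wt_pos ((p - J z) / σ z) (m + 6)).le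
  have hw2 := (wt_pos ((q - J z) / σ z) (m + 6)).le
  have hA0 := DR_nonneg Q p (J z)
  have hB0 := DR_nonneg Q q (J z)
  calc (σ z * wt ((p - J z) / σ z) (m + 6)) * (σ z * wt ((q - J z) / σ z) (m + 6))
      = σ z ^ 2 * (wt ((p - J z) / σ z) (m + 6) * wt ((q - J z) / σ z) (m + 6)) := by ring
    _ ≤ dr Q (J z) * ((2 ^ (m + 6) * ((1 + DR Q p (J z)) ^ (m + 6))⁻¹) *
        (2 ^ (m + 6) * ((1 + DR Q q (J z)) ^ (m + 6))⁻¹)) := by
        gcongr
        exact (sq_nonneg _).trans h3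
    _ = (2 ^ (m + 6)) ^ 2 * (dr Q (J z) * ((1 + DR Q p (J z)) ^ (m + 6))⁻¹ *
        ((1 + DR Q q (J z)) ^ (m + 6))⁻¹) := by ring
    _ ≤ _ := mul_le_mul_of_nonneg_left (weight_le hp hJ m) (by positivity)

/-- **clustering of rings** -/
theorem LocData.ring_clustering {g : ℝ → ℝ} (hg : IsFilter g)
    (hkill : ∫ t, g t • (U H t * (1 - P)) = 0) (m : ℕ) {p q : ℝ}
    (hp : p ∈ Set.Icc (0 : ℝ) Q) (hq : q ∈ Set.Icc (0 : ℝ) Q) :
    ‖P * KK Q p * (1 - P) * KK Q q * P‖ ≤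
      ringK g Cm Dm em Cμ m * (dr Q p * Real.sqrt (dr Q p)) * ((1 + DR Q p q) ^ m)⁻¹ := by
  have hC0 := DR_nonneg Q p q
  have hdp := one_le_dr hp
  have hgc := gconst_nonneg g (em (2 * (m + 6) + 5))
  have hrc := ringC_nonneg (Dm := Dm) hD.Cm_nonneg (m + 6)
  have hrB := ringB_nonneg hD.Cm_nonneg (m + 6)
  have hCμ := hD.Cμ_nonneg
  set K0 : ℝ := gconst g (em (2 * (m + 6) + 5)) * (2 ^ (m + 6) * ringC Cm Dm (m + 6)) ^ 2 *
    (dr Q p * ((1 + DR Q p q) ^ m)⁻¹) with hK0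
  have hK00 : 0 ≤ K0 := by positivity
  rw [cluster_eq μ hg hD.hH hD.hP hD.hHP hkill hD.int hD.H_eq hD.bP, norm_neg, norm_smul,
    Complex.norm_I, one_mul]
  have hpt : ∀ z, ‖P * ⁅KK Q p, star (b z)⁆ * (⁅b z, SS g H (KK Q q)⁆ * P)‖ ≤
      K0 * ((1 + DR Q p (J z)) ^ 4)⁻¹ := by
    intro z
    have hσ := hD.one_le_σ z
    have h1 := hD.mul_lie_KK_star_le (m + 6) z p
    have h2 := hD.lie_SS_mul_le hg (m + 6) z q
    have h3 := hD.wt_mul_le m z hp hq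
    have hw1 := (wt_pos ((p - J z) / σ z) (m + 6)).le
    have hw2 := (wt_pos ((q - J z) / σ z) (m + 6)).le
    have hDm : Dm (2 * (m + 6) + 5) ≤ |Dm (2 * (m + 6) + 5)| := le_abs_self _
    have hA0 := DR_nonneg Q p (J z)
    have h1' : ‖P * ⁅KK Q p, star (b z)⁆‖ ≤ ringC Cm Dm (m + 6) *
        (σ z * wt ((p - J z) / σ z) (m + 6)) := by
      refine h1.trans ?_
      unfold ringC
      calc _ ≤ 4 ^ (m + 6 + 5) * |Dm (2 * (m + 6) + 5)| *
          (ringB Cm (m + 6) * σ z * wt ((p - J z) / σ z) (m + 6)) := by gcongr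
        _ = _ := by ring
    have h2' : ‖⁅b z, SS g H (KK Q q)⁆ * P‖ ≤ gconst g (em (2 * (m + 6) + 5)) *
        (ringC Cm Dm (m + 6) * (σ z * wt ((q - J z) / σ z) (m + 6))) := by
      refine h2.trans ?_
      unfold ringC
      calc _ ≤ gconst g (em (2 * (m + 6) + 5)) * (4 ^ (m + 6 + 5) * |Dm (2 * (m + 6) + 5)| *
          (ringB Cm (m + 6) * σ z * wt ((q - J z) / σ z) (m + 6))) := by gcongr
        _ = _ := by ring
    calc ‖P * ⁅KK Q p, star (b z)⁆ * (⁅b z, SS g H (KK Q q)⁆ * P)‖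
        ≤ ‖P * ⁅KK Q p, star (b z)⁆‖ * ‖⁅b z, SS g H (KK Q q)⁆ * P‖ := norm_mul_le _ _
      _ ≤ (ringC Cm Dm (m + 6) * (σ z * wt ((p - J z) / σ z) (m + 6))) *
          (gconst g (em (2 * (m + 6) + 5)) *
            (ringC Cm Dm (m + 6) * (σ z * wt ((q - J z) / σ z) (m + 6)))) := by
          gcongr
      _ = gconst g (em (2 * (m + 6) + 5)) * ringC Cm Dm (m + 6) ^ 2 *
          ((σ z * wt ((p - J z) / σ z) (m + 6)) * (σ z * wt ((q - J z) / σ z) (m + 6))) := by ring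
      _ ≤ gconst g (em (2 * (m + 6) + 5)) * ringC Cm Dm (m + 6) ^ 2 *
          ((2 ^ (m + 6)) ^ 2 * (dr Q p * ((1 + DR Q p q) ^ m)⁻¹ *
            ((1 + DR Q p (J z)) ^ 4)⁻¹)) := by gcongr
      _ = K0 * ((1 + DR Q p (J z)) ^ 4)⁻¹ := by rw [hK0]; ring
  have hmeas : Measurable fun t : ℝ => ENNReal.ofReal (K0 * ((1 + DR Q p t) ^ 4)⁻¹) := by
    have := measurable_DR Q p
    fun_prop
  have hlint : ‖∫ z, P * ⁅KK Q p, star (b z)⁆ * (⁅b z, SS g H (KK Q q)⁆ * P) ∂μ‖ₑ ≤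
      ENNReal.ofReal (Cμ * K0 * (2 * Real.pi * Real.sqrt (dr Q p))) := by
    calc _ ≤ ∫⁻ z, ‖P * ⁅KK Q p, star (b z)⁆ * (⁅b z, SS g H (KK Q q)⁆ * P)‖ₑ ∂μ :=
          enorm_integral_le_lintegral_enorm _
      _ ≤ ∫⁻ z, ENNReal.ofReal (K0 * ((1 + DR Q p (J z)) ^ 4)⁻¹) ∂μ := by
          apply lintegral_mono
          intro z
          simp only
          rw [← ofReal_norm]
          exact ENNReal.ofReal_le_ofReal (hpt z)
      _ ≤ ENNReal.ofReal Cμ * ∫⁻ t in Set.Icc (0 : ℝ) Q,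
            ENNReal.ofReal (K0 * ((1 + DR Q p t) ^ 4)⁻¹) := hD.push _ hmeas
      _ = ENNReal.ofReal Cμ * (ENNReal.ofReal K0 * ∫⁻ t in Set.Icc (0 : ℝ) Q,
            ENNReal.ofReal (((1 + DR Q p t) ^ 4)⁻¹)) := by
          congr 1
          rw [← lintegral_const_mul' _ _ ENNReal.ofReal_ne_top]
          simp_rw [ENNReal.ofReal_mul hK00]
      _ ≤ ENNReal.ofReal Cμ * (ENNReal.ofReal K0 *
            ENNReal.ofReal (2 * Real.pi * Real.sqrt (dr Q p))) := by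
          gcongr
          exact lintegral_DR_le hp
      _ = _ := by
          rw [← mul_assoc, ← ENNReal.ofReal_mul hCμ, ← ENNReal.ofReal_mul (by positivity)]
  have hfin : ‖∫ z, P * ⁅KK Q p, star (b z)⁆ * (⁅b z, SS g H (KK Q q)⁆ * P) ∂μ‖ ≤
      Cμ * K0 * (2 * Real.pi * Real.sqrt (dr Q p)) := by
    rw [← ofReal_norm] at hlint
    exact (ENNReal.ofReal_le_ofReal_iff (by positivity)).1 hlint
  refine hfin.trans (le_of_eq ?_)
  rw [hK0]
  unfold ringK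
  ring

end ring

end Crest.Agent.R340.LR667
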