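import Crest.Agent.R340.LR6_667
import Crest.Agent.R340.GG_467
import Crest.Agent.R340.PathStep3_880

/-!
# R340 / S0532, layer 7: consumer forms of the clustering theorems

* `filter_kill_op` : the spectral filter kills the excited states (on `Op ι`),
* `LocData.cross_le` : clustering of a ring with a local operator,
* `LocData.hG`, `LocData.hX` : literally the hypotheses of `PathStep880.path_weak`.  (helper667)
-/

set_option autoImplicit false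

open Matrix Finset MeasureTheory
open scoped ENNReal

namespace Crest.Agent.R340.LR667

open Crest.Agent.R340.Fock649 Crest.Agent.R340.GG467

section kill

variable {ι : Type*} [Fintype ι]

/-- the filter kills the part above the gap -/
theorem filter_kill_op {g : ℝ → ℝ} (hg : IsFilter g) {γ : ℝ}
    (hband : ∀ l : ℝ, γ ≤ |l| → ∫ t, (g t : ℂ) * Complex.exp (((t * l : ℝ) : ℂ) * Complex.I) = 0)
    {H P : Op ι} (hH : IsSelfAdjoint H) (hP : IsSelfAdjoint P) (hPP : P * P = P)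
    (hHP : H * P = 0) (hgap : ∀ x : Fk ι, P x = 0 → γ * ‖x‖ ^ 2 ≤ (inner ℂ x (H x)).re) :
    ∫ t, g t • (U H t * (1 - P)) = 0 :=
  filter_kill (E := Fk ι) hg hband hH hP hPP hHP hgap

/-- version for the kernel projection, gap as operator inequality -/
theorem filter_kill_PK {g : ℝ → ℝ} (hg : IsFilter g) {γ : ℝ}
    (hband : ∀ l : ℝ, γ ≤ |l| → ∫ t, (g t : ℂ) * Complex.exp (((t * l : ℝ) : ℂ) * Complex.I) = 0)
    {H : Op ι} (hH : IsSelfAdjoint H)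
    (hgap : ∀ x : Fk ι, γ * ‖x - PK H x‖ ^ 2 ≤ (inner ℂ x (H x)).re) :
    ∫ t, g t • (U H t * (1 - PK H)) = 0 := by
  refine filter_kill_op hg hband hH (isSelfAdjoint_pj _) (PK_mul_self H) (mul_PK H) ?_
  intro x hx
  have := hgap x
  rwa [hx, sub_zero] at this

end kill

section ring

variable {Q : ℕ} {S : Type*} [MeasurableSpace S] {μ : Measure S}
    {H P : Op (Fin (Q + 1))} {b : S → Op (Fin (Q + 1))}
    {fr : S → OrthonormalBasis (Fin (Q + 1)) ℂ (L (Fin (Q + 1)))} {J σ : S → ℝ}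
    {Cm Dm : ℕ → ℝ} {em : ℕ → ℕ} {Cμ : ℝ}

theorem sqrt_dr_le_mul {Q : ℕ} {p q : ℝ} (hp : p ∈ Set.Icc (0 : ℝ) Q)
    (hq : q ∈ Set.Icc (0 : ℝ) Q) :
    Real.sqrt (dr Q p) ≤ Real.sqrt (dr Q q) * (1 + DR Q p q) := by
  have h0 := DR_nonneg Q p q
  have h1 := one_le_dr hq
  rw [← Real.sqrt_sq (by linarith : 0 ≤ 1 + DR Q p q), ← Real.sqrt_mul (by linarith)]
  exact Real.sqrt_le_sqrt (dr_le_mul hp hq)

variable (hD : LocData μ H P b fr J σ Cm Dm em Cμ)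
include hD

/-- **clustering of a local operator `X` (around `J0`) with a ring** -/
theorem LocData.cross_le {g : ℝ → ℝ} (hg : IsFilter g)
    (hkill : ∫ t, g t • (U H t * (1 - P)) = 0) (m : ℕ) {p : ℝ}
    (hp : p ∈ Set.Icc (0 : ℝ) Q) (X : Op (Fin (Q + 1))) {CX Cs K J0 : ℝ} {d0 : S → ℝ}
    (hCX : 0 ≤ CX) (hCs : 0 ≤ Cs) (hK : 1 ≤ K)
    (hJ0 : J0 ∈ Set.Icc (0 : ℝ) Q) (hd0 : ∀ z, 0 ≤ d0 z) (hdJ : ∀ z, DR Q (J z) J0 ≤ K * d0 z)
    (hX : ∀ z, ‖P * ⁅X, star (b z)⁆‖ ≤ CX * ((1 + d0 z) ^ (m + 5))⁻¹)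
    (hs : ∫⁻ z, ENNReal.ofReal (((1 + d0 z) ^ 4)⁻¹) ∂μ ≤ ENNReal.ofReal Cs) :
    ‖P * X * (1 - P) * KK Q p * P‖ ≤
      (gconst g (em (2 * m + 5)) * ringC Cm Dm m * 2 ^ m * K ^ (m + 1) * CX * Cs) *
        Real.sqrt (dr Q J0) * ((1 + DR Q p J0) ^ m)⁻¹ := by
  have hC0 := DR_nonneg Q p J0
  have hgc := gconst_nonneg g (em (2 * m + 5))
  have hrc := ringC_nonneg (Dm := Dm) hD.Cm_nonneg m
  have hrB := ringB_nonneg hD.Cm_nonneg m
  have hK0 : 0 ≤ K := by linarith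
  set K0 : ℝ := gconst g (em (2 * m + 5)) * ringC Cm Dm m * 2 ^ m * K ^ (m + 1) * CX *
    Real.sqrt (dr Q J0) * ((1 + DR Q p J0) ^ m)⁻¹ with hK0'
  have hK00 : 0 ≤ K0 := by positivity
  rw [cluster_eq μ hg hD.hH hD.hP hD.hHP hkill hD.int hD.H_eq hD.bP, norm_neg, norm_smul,
    Complex.norm_I, one_mul]
  have hpt : ∀ z, ‖P * ⁅X, star (b z)⁆ * (⁅b z, SS g H (KK Q p)⁆ * P)‖ ≤
      K0 * ((1 + d0 z) ^ 4)⁻¹ := by
    intro z
    have hσ := hD.one_le_σ z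
    have hσ2 := hD.σ_sq_le z
    have hJ := hD.J_mem z
    have h2 := hD.lie_SS_mul_le hg m z p
    have hw1 := (wt_pos ((p - J z) / σ z) m).le
    have hDm : Dm (2 * m + 5) ≤ |Dm (2 * m + 5)| := le_abs_self _
    have hA0 := DR_nonneg Q p (J z)
    have hB0 := DR_nonneg Q (J z) J0
    have hd := hd0 z
    have h2' : ‖⁅b z, SS g H (KK Q p)⁆ * P‖ ≤ gconst g (em (2 * m + 5)) *
        (ringC Cm Dm m * (σ z * wt ((p - J z) / σ z) m)) := by
      refine h2.trans ?_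
      unfold ringC
      calc _ ≤ gconst g (em (2 * m + 5)) * (4 ^ (m + 5) * |Dm (2 * m + 5)| *
          (ringB Cm m * σ z * wt ((p - J z) / σ z) m)) := by gcongr
        _ = _ := by ring
    have h3 : σ z ≤ Real.sqrt (dr Q J0) * (K * (1 + d0 z)) := by
      have e1 : σ z ≤ Real.sqrt (dr Q (J z)) := by
        apply Real.le_sqrt_of_sq_le
        refine hσ2.trans (le_of_eq ?_)
        unfold dr
        rw [← min_add_add_left, add_comm 1 (J z), add_comm 1 ((Q : ℝ) - J z)]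
      refine e1.trans ((sqrt_dr_le_mul hJ hJ0).trans ?_)
      gcongr
      nlinarith [hdJ z]
    have h4 : wt ((p - J z) / σ z) m ≤ 2 ^ m * ((1 + DR Q p (J z)) ^ m)⁻¹ :=
      wt_le_DR hp hJ hσ hσ2 m
    have h5 : ((1 + DR Q p (J z)) ^ m)⁻¹ ≤ ((1 + DR Q p J0) ^ m)⁻¹ * (K * (1 + d0 z)) ^ m := by
      rw [inv_eq_one_div, inv_mul_eq_div, div_le_div_iff₀ (by positivity) (by positivity), one_mul,
        ← mul_pow]
      gcongr
      have := DR_triangle Q p (J z) J0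
      have := hdJ z
      have h6 : 1 + DR Q p J0 ≤ (1 + DR Q (J z) J0) * (1 + DR Q p (J z)) := by nlinarith
      refine h6.trans ?_
      gcongr
      nlinarith
    calc ‖P * ⁅X, star (b z)⁆ * (⁅b z, SS g H (KK Q p)⁆ * P)‖
        ≤ ‖P * ⁅X, star (b z)⁆‖ * ‖⁅b z, SS g H (KK Q p)⁆ * P‖ := norm_mul_le _ _
      _ ≤ (CX * ((1 + d0 z) ^ (m + 5))⁻¹) * (gconst g (em (2 * m + 5)) *
        (ringC Cm Dm m * ((Real.sqrt (dr Q J0) * (K * (1 + d0 z))) *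
          (2 ^ m * (((1 + DR Q p J0) ^ m)⁻¹ * (K * (1 + d0 z)) ^ m))))) := by
          refine mul_le_mul (hX z) (h2'.trans ?_) (norm_nonneg _) (by positivity)
          gcongr
          refine h4.trans ?_
          gcongr
      _ = K0 * ((1 + d0 z) ^ 4)⁻¹ := by
          rw [hK0']
          have hne : (1 + d0 z) ≠ 0 := by positivity
          have hne2 : (1 + DR Q p J0) ^ m ≠ 0 := by positivity
          rw [mul_pow K, pow_add (1 + d0 z) m 5, pow_succ K m]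
          field_simp
  have hlint : ‖∫ z, P * ⁅X, star (b z)⁆ * (⁅b z, SS g H (KK Q p)⁆ * P) ∂μ‖ₑ ≤
      ENNReal.ofReal (K0 * Cs) := by
    calc _ ≤ ∫⁻ z, ‖P * ⁅X, star (b z)⁆ * (⁅b z, SS g H (KK Q p)⁆ * P)‖ₑ ∂μ :=
          enorm_integral_le_lintegral_enorm _
      _ ≤ ∫⁻ z, ENNReal.ofReal K0 * ENNReal.ofReal (((1 + d0 z) ^ 4)⁻¹) ∂μ := by
          apply lintegral_mono
          intro z
          simp only
          rw [← ofReal_norm, ← ENNReal.ofReal_mul hK00]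
          exact ENNReal.ofReal_le_ofReal (hpt z)
      _ = ENNReal.ofReal K0 * ∫⁻ z, ENNReal.ofReal (((1 + d0 z) ^ 4)⁻¹) ∂μ :=
          lintegral_const_mul' _ _ ENNReal.ofReal_ne_top
      _ ≤ ENNReal.ofReal K0 * ENNReal.ofReal Cs := by gcongr
      _ = _ := (ENNReal.ofReal_mul hK00).symm
  have hfin : ‖∫ z, P * ⁅X, star (b z)⁆ * (⁅b z, SS g H (KK Q p)⁆ * P) ∂μ‖ ≤ K0 * Cs := by
    rw [← ofReal_norm] at hlint
    exact (ENNReal.ofReal_le_ofReal_iff (by positivity)).1 hlint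
  refine hfin.trans (le_of_eq ?_)
  rw [hK0']
  ring

end ring

/-! ## consumer forms -/

section consumer

open Crest.Agent.R340.PathStep880 (off TT TTf)

variable {Q : ℕ}

/-- the complement projection of a symmetry sector of `K` is the one of `K` -/
theorem off_eq_pj {ι : Type*} [Fintype ι] {K Z : Submodule ℂ (Fk ι)} {T : Op ι} {n : ℂ}
    (hK : Commute (pj K) T) (hZ : ∀ φ, φ ∈ Z ↔ φ ∈ K ∧ T φ = n • φ) {x : Fk ι}
    (hx : T x = n • x) : off Z x = (1 - pj K) x := by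
  have h1 : pj K x ∈ Z := by
    rw [hZ]
    refine ⟨pj_mem K x, ?_⟩
    rw [← mul_ap, ← hK.eq, mul_ap, hx]
    exact (pj K).ap.map_smul n x
  have h2 : Z.starProjection x = pj K x := by
    apply Submodule.eq_starProjection_of_mem_of_inner_eq_zero h1
    intro w hw
    have hwK : w ∈ K := ((hZ w).1 hw).1
    exact K.starProjection_inner_eq_zero x w hwK
  rw [PathStep880.off_apply, h2]
  rfl

theorem TT_kink_apply (p : ℕ) (ψ : Fk (Fin (Q + 1))) :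
    TT Q (PathStep880.kink p) ψ = KK Q (p : ℝ) ψ := by
  have h : (fun j : Fin (Q + 1) => ((PathStep880.kink p (j : ℕ) : ℝ) : ℂ)) =
      fun j : Fin (Q + 1) => ((kink (p : ℝ) ((j : ℕ) : ℝ) : ℝ) : ℂ) := by
    funext j
    congr 1
    unfold PathStep880.kink kink
    rcases le_total (j : ℕ) p with h | h
    · rw [Nat.sub_eq_zero_of_le h, max_eq_right (by
        have : ((j : ℕ) : ℝ) ≤ p := by exact_mod_cast h
        linarith)]
      simp
    · rw [Nat.cast_sub h, max_eq_left (by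
        have : (p : ℝ) ≤ ((j : ℕ) : ℝ) := by exact_mod_cast h
        linarith)]
  change (dG (Matrix.diagonal fun i : Fin (Q + 1) => ((PathStep880.kink p i : ℝ) : ℂ))) ψ = _
  rw [h]
  rfl

/-- `⟪(1-P) A ψ, (1-P) B ψ⟫` from `P A^* (1-P) B P` -/
theorem norm_inner_off_le {ι : Type*} [Fintype ι] {P : Op ι} (hP : IsSelfAdjoint P)
    (hPP : P * P = P) (A B : Op ι) {ψ : Fk ι} (hψ : P ψ = ψ) :
    ‖inner ℂ ((1 - P) (A ψ)) ((1 - P) (B ψ))‖ ≤ ‖P * star A * (1 - P) * B * P‖ * ‖ψ‖ ^ 2 := by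
  have h1 : star (1 - P) * (1 - P) = 1 - P := by
    rw [star_sub, star_one, hP.star_eq, sub_mul, mul_sub, mul_sub, hPP]
    simp
  have e : inner ℂ ((1 - P) (A ψ)) ((1 - P) (B ψ)) =
      inner ℂ ψ ((P * star A * (1 - P) * B * P) ψ) := by
    have e1 : inner ℂ ((1 - P) (A ψ)) ((1 - P) (B ψ)) =
        inner ℂ (A ψ) ((star (1 - P) * (1 - P) * B) ψ) := by
      rw [mul_assoc, mul_ap, mul_ap, inner_star_right]
    rw [e1, h1, ← inner_star_right, ← mul_ap]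
    have e2 : inner ℂ ψ ((P * star A * (1 - P) * B * P) ψ) =
        inner ℂ (P ψ) ((star A * (1 - P) * B) (P ψ)) := by
      rw [show P * star A * (1 - P) * B * P = star P * (star A * (1 - P) * B) * P by
        rw [hP.star_eq]; noncomm_ring, mul_ap, mul_ap, inner_star_right]
    rw [e2, hψ]
    rfl
  rw [e]
  calc ‖inner ℂ ψ ((P * star A * (1 - P) * B * P) ψ)‖
      ≤ ‖ψ‖ * ‖(P * star A * (1 - P) * B * P) ψ‖ := norm_inner_le_norm _ _
    _ ≤ ‖ψ‖ * (‖P * star A * (1 - P) * B * P‖ * ‖ψ‖) := by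
        gcongr
        exact Op.norm_ap_le _ _
    _ = _ := by ring

/-- comparison of the scales at `p + 1` (mine) and `p` (`PSD716`) -/
theorem dr_shift {p : ℕ} (hp : p < Q - 1) : dr Q ((p : ℝ) + 1) ≤ 2 * PSD716.dd Q p := by
  have h : (p : ℝ) + 1 ≤ Q - 1 := by
    have : p + 1 + 1 ≤ Q := by omega
    have h2 : ((p + 1 + 1 : ℕ) : ℝ) ≤ Q := by exact_mod_cast this
    push_cast at h2
    linarith
  have h0 : (0 : ℝ) ≤ p := Nat.cast_nonneg p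
  unfold dr PSD716.dd
  rw [mul_min_of_nonneg _ _ (by norm_num : (0 : ℝ) ≤ 2)]
  apply min_le_min <;> linarith

theorem DD_shift {p q : ℕ} (hp : p < Q - 1) (hq : q < Q - 1) :
    PSD716.DD Q p q ≤ 2 * DR Q ((p : ℝ) + 1) ((q : ℝ) + 1) := by
  have hpc : (p : ℝ) + 1 ≤ Q - 1 := by
    have : p + 1 + 1 ≤ Q := by omega
    have h2 : ((p + 1 + 1 : ℕ) : ℝ) ≤ Q := by exact_mod_cast this
    push_cast at h2
    linarith
  have hqc : (q : ℝ) + 1 ≤ Q - 1 := by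
    have : q + 1 + 1 ≤ Q := by omega
    have h2 : ((q + 1 + 1 : ℕ) : ℝ) ≤ Q := by exact_mod_cast this
    push_cast at h2
    linarith
  have h0 : (0 : ℝ) ≤ p := Nat.cast_nonneg p
  have h0' : (0 : ℝ) ≤ q := Nat.cast_nonneg q
  -- `|√a - √b| ≤ 2 |√a' - √b'|` when `a - b = ±(a' - b')`, `a' ≤ 4 a`, `b' ≤ 4 b`
  have key : ∀ a b a' b' : ℝ, 1 ≤ a → 1 ≤ b → 1 ≤ a' → 1 ≤ b' → a' ≤ 2 * a → b' ≤ 2 * b →
      a - b = a' - b' → |Real.sqrt a - Real.sqrt b| ≤ 2 * |Real.sqrt a' - Real.sqrt b'| := by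
    intro a b a' b' ha hb ha' hb' h1 h2 h3
    have s1 : 1 ≤ Real.sqrt a := Real.one_le_sqrt.2 ha
    have s2 : 1 ≤ Real.sqrt b := Real.one_le_sqrt.2 hb
    have s3 : 1 ≤ Real.sqrt a' := Real.one_le_sqrt.2 ha'
    have s4 : 1 ≤ Real.sqrt b' := Real.one_le_sqrt.2 hb'
    have q1 := Real.sq_sqrt (by linarith : (0 : ℝ) ≤ a)
    have q2 := Real.sq_sqrt (by linarith : (0 : ℝ) ≤ b)
    have q3 := Real.sq_sqrt (by linarith : (0 : ℝ) ≤ a')
    have q4 := Real.sq_sqrt (by linarith : (0 : ℝ) ≤ b')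
    have r1 : Real.sqrt a' ≤ 2 * Real.sqrt a := by
      rw [show (2 : ℝ) * Real.sqrt a = Real.sqrt (4 * a) by
        rw [Real.sqrt_mul (by norm_num), show (4 : ℝ) = 2 ^ 2 by norm_num,
          Real.sqrt_sq (by norm_num)]]
      exact Real.sqrt_le_sqrt (by linarith)
    have r2 : Real.sqrt b' ≤ 2 * Real.sqrt b := by
      rw [show (2 : ℝ) * Real.sqrt b = Real.sqrt (4 * b) by
        rw [Real.sqrt_mul (by norm_num), show (4 : ℝ) = 2 ^ 2 by norm_num,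
          Real.sqrt_sq (by norm_num)]]
      exact Real.sqrt_le_sqrt (by linarith)
    have e1 : (Real.sqrt a - Real.sqrt b) * (Real.sqrt a + Real.sqrt b) =
        (Real.sqrt a' - Real.sqrt b') * (Real.sqrt a' + Real.sqrt b') := by nlinarith
    have e2 : |Real.sqrt a - Real.sqrt b| * (Real.sqrt a + Real.sqrt b) =
        |Real.sqrt a' - Real.sqrt b'| * (Real.sqrt a' + Real.sqrt b') := by
      have := congrArg abs e1
      rwa [abs_mul, abs_mul, abs_of_nonneg (by linarith : 0 ≤ Real.sqrt a + Real.sqrt b),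
        abs_of_nonneg (by linarith : 0 ≤ Real.sqrt a' + Real.sqrt b')] at this
    have e3 : |Real.sqrt a' - Real.sqrt b'| * (Real.sqrt a' + Real.sqrt b') ≤
        |Real.sqrt a' - Real.sqrt b'| * (2 * (Real.sqrt a + Real.sqrt b)) := by
      apply mul_le_mul_of_nonneg_left _ (abs_nonneg _)
      linarith
    rw [← e2] at e3
    have e4 : 0 < Real.sqrt a + Real.sqrt b := by linarith
    have e5 : |Real.sqrt a - Real.sqrt b| * (Real.sqrt a + Real.sqrt b) ≤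
        (2 * |Real.sqrt a' - Real.sqrt b'|) * (Real.sqrt a + Real.sqrt b) := by
      linarith
    exact le_of_mul_le_mul_right e5 e4
  have k1 := key ((p : ℝ) + 1) ((q : ℝ) + 1) ((p : ℝ) + 1 + 1) ((q : ℝ) + 1 + 1) (by linarith)
    (by linarith) (by linarith) (by linarith) (by linarith) (by linarith) (by ring)
  have k2 := key ((Q : ℝ) - p + 1) ((Q : ℝ) - q + 1) ((Q : ℝ) - (p + 1) + 1)
    ((Q : ℝ) - (q + 1) + 1) (by linarith)
    (by linarith) (by linarith) (by linarith) (by linarith) (by linarith) (by ring)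
  unfold PSD716.DD DR
  linarith

variable {S : Type*} [MeasurableSpace S] {μ : Measure S}
    {H P : Op (Fin (Q + 1))} {b : S → Op (Fin (Q + 1))}
    {fr : S → OrthonormalBasis (Fin (Q + 1)) ℂ (L (Fin (Q + 1)))} {J σ : S → ℝ}
    {Cm Dm : ℕ → ℝ} {em : ℕ → ℕ} {Cμ : ℝ}

/-- constant in `LocData.hG` -/
noncomputable def CGc (g : ℝ → ℝ) (Cm Dm : ℕ → ℝ) (em : ℕ → ℕ) (Cμ : ℝ) (m : ℕ) : ℝ :=
  4 * 2 ^ m * ringK g Cm Dm em Cμ m

theorem CGc_nonneg {g : ℝ → ℝ} {Cm Dm : ℕ → ℝ} {em : ℕ → ℕ} {Cμ : ℝ} (h : 0 ≤ Cμ) (m : ℕ) :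
    0 ≤ CGc g Cm Dm em Cμ m := by
  have := gconst_nonneg g (em (2 * (m + 6) + 5))
  have := Real.pi_pos
  unfold CGc ringK
  positivity

/-- **literal hypothesis `hG` of `PathStep880.path_weak`** (for the zero modes `Z` in the sector
`n` of the geometry at hand). -/
theorem LocData.hG (hD : LocData μ H P b fr J σ Cm Dm em Cμ) {g : ℝ → ℝ} (hg : IsFilter g)
    (hkill : ∫ t, g t • (U H t * (1 - P)) = 0) (m : ℕ) {K Z : Submodule ℂ (Fk (Fin (Q + 1)))}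
    (hPK : P = pj K) (hN : Commute P Nh) {n : ℂ} (hZ : ∀ φ, φ ∈ Z ↔ φ ∈ K ∧ Nh φ = n • φ)
    {ψ : Fk (Fin (Q + 1))} (hψ : ψ ∈ Z) (hψ1 : ‖ψ‖ = 1) :
    ∀ p < Q - 1, ∀ q < Q - 1,
      ‖inner ℂ (off Z (TT Q (PathStep880.kink (p + 1)) ψ))
          (off Z (TT Q (PathStep880.kink (q + 1)) ψ))‖ ≤
        CGc g Cm Dm em Cμ m * (PSD716.dd Q p * Real.sqrt (PSD716.dd Q p)) *
          (1 + PSD716.DD Q p q) ^ (-(m : ℝ)) := by
  intro p hp q hq
  have hK := (hZ ψ).1 hψ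
  have hNK : ∀ t : ℝ, Nh (KK Q t ψ) = n • (KK Q t ψ) := by
    intro t
    rw [← mul_ap, KK, Nh_comm_dG, mul_ap, hK.2]
    exact (dG _ : Op (Fin (Q + 1))).ap.map_smul n ψ
  have hoff : ∀ t : ℝ, off Z (KK Q t ψ) = (1 - P) (KK Q t ψ) := by
    intro t
    rw [hPK]
    exact off_eq_pj (by rw [← hPK]; exact hN) hZ (hNK t)
  have hPψ : P ψ = ψ := by rw [hPK]; exact pj_of_mem hK.1
  have hPP : P * P = P := by rw [hPK]; exact pj_mul_self K
  rw [TT_kink_apply, TT_kink_apply, hoff, hoff]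
  have h1 := norm_inner_off_le hD.hP hPP (KK Q ((p + 1 : ℕ) : ℝ)) (KK Q ((q + 1 : ℕ) : ℝ)) hPψ
  rw [star_KK, hψ1, one_pow, mul_one] at h1
  refine h1.trans ?_
  have hpQ : (((p + 1 : ℕ) : ℝ)) ∈ Set.Icc (0 : ℝ) Q := by
    refine ⟨Nat.cast_nonneg _, ?_⟩
    exact_mod_cast (by omega : p + 1 ≤ Q)
  have hqQ : (((q + 1 : ℕ) : ℝ)) ∈ Set.Icc (0 : ℝ) Q := by
    refine ⟨Nat.cast_nonneg _, ?_⟩
    exact_mod_cast (by omega : q + 1 ≤ Q)
  have h2 := hD.ring_clustering hg hkill m hpQ hqQ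
  refine h2.trans ?_
  push_cast
  have hrK : 0 ≤ ringK g Cm Dm em Cμ m := by
    have := gconst_nonneg g (em (2 * (m + 6) + 5))
    have := Real.pi_pos
    have := hD.Cμ_nonneg
    unfold ringK
    positivity
  have hdd : 1 ≤ PSD716.dd Q p := PSD716.one_le_dd (by omega)
  have hdr := dr_shift hp
  have hDD := DD_shift hp hq
  have hD0 := PSD716.DD_nonneg Q p q
  have hR0 := DR_nonneg Q ((p : ℝ) + 1) ((q : ℝ) + 1)
  have hdr0 : 0 ≤ dr Q ((p : ℝ) + 1) := by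
    have := one_le_dr hpQ
    push_cast at this
    linarith
  have e1 : dr Q ((p : ℝ) + 1) * Real.sqrt (dr Q ((p : ℝ) + 1)) ≤
      4 * (PSD716.dd Q p * Real.sqrt (PSD716.dd Q p)) := by
    have e2 : Real.sqrt (dr Q ((p : ℝ) + 1)) ≤ 2 * Real.sqrt (PSD716.dd Q p) := by
      rw [show (2 : ℝ) * Real.sqrt (PSD716.dd Q p) = Real.sqrt (4 * PSD716.dd Q p) by
        rw [Real.sqrt_mul (by norm_num), show (4 : ℝ) = 2 ^ 2 by norm_num,
          Real.sqrt_sq (by norm_num)]]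
      exact Real.sqrt_le_sqrt (by linarith)
    calc dr Q ((p : ℝ) + 1) * Real.sqrt (dr Q ((p : ℝ) + 1))
        ≤ (2 * PSD716.dd Q p) * (2 * Real.sqrt (PSD716.dd Q p)) := by gcongr
      _ = _ := by ring
  have e3 : ((1 + DR Q ((p : ℝ) + 1) ((q : ℝ) + 1)) ^ m)⁻¹ ≤
      2 ^ m * (1 + PSD716.DD Q p q) ^ (-(m : ℝ)) := by
    rw [Real.rpow_neg (by linarith), Real.rpow_natCast, inv_eq_one_div, ← div_eq_mul_inv,
      div_le_div_iff₀ (by positivity) (by positivity), one_mul, ← mul_pow]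
    gcongr
    linarith
  calc ringK g Cm Dm em Cμ m * (dr Q ((p : ℝ) + 1) * Real.sqrt (dr Q ((p : ℝ) + 1))) *
      ((1 + DR Q ((p : ℝ) + 1) ((q : ℝ) + 1)) ^ m)⁻¹
      ≤ ringK g Cm Dm em Cμ m * (4 * (PSD716.dd Q p * Real.sqrt (PSD716.dd Q p))) *
        (2 ^ m * (1 + PSD716.DD Q p q) ^ (-(m : ℝ))) := by gcongr
    _ = _ := by unfold CGc; ring

/-- constant in `LocData.hX` -/
noncomputable def CXc (g : ℝ → ℝ) (Cm Dm : ℕ → ℝ) (em : ℕ → ℕ) (m : ℕ) (K Cs : ℝ) : ℝ :=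
  gconst g (em (2 * m + 5)) * ringC Cm Dm m * 2 ^ m * K ^ (m + 1) * Cs

/-- **literal hypothesis `hX` of `PathStep880.path_weak`** : `X` local around the pole `j = 0`. -/
theorem LocData.hX (hD : LocData μ H P b fr J σ Cm Dm em Cμ) {g : ℝ → ℝ} (hg : IsFilter g)
    (hkill : ∫ t, g t • (U H t * (1 - P)) = 0) {K Z : Submodule ℂ (Fk (Fin (Q + 1)))}
    (hPK : P = pj K) (hN : Commute P Nh) {n : ℂ} (hZ : ∀ φ, φ ∈ Z ↔ φ ∈ K ∧ Nh φ = n • φ)
    {X : Op (Fin (Q + 1))} (hXs : IsSelfAdjoint X) (hXN : Commute X Nh)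
    {CX Cs K' : ℝ} {d0 : S → ℝ} (hCX : 0 ≤ CX) (hCs : 0 ≤ Cs) (hK : 1 ≤ K')
    (hd0 : ∀ z, 0 ≤ d0 z) (hdJ : ∀ z, DR Q (J z) 0 ≤ K' * d0 z)
    (hX : ∀ z, ‖P * ⁅X, star (b z)⁆‖ ≤ CX * ((1 + d0 z) ^ 9)⁻¹)
    (hs : ∫⁻ z, ENNReal.ofReal (((1 + d0 z) ^ 4)⁻¹) ∂μ ≤ ENNReal.ofReal Cs)
    {ψ : Fk (Fin (Q + 1))} (hψ : ψ ∈ Z) (hψ1 : ‖ψ‖ = 1) :
    ∀ p < Q - 1, ‖inner ℂ (off Z (TT Q (PathStep880.kink (p + 1)) ψ)) (off Z (X ψ))‖ ≤
      (CXc g Cm Dm em 4 K' Cs * CX) * (((p : ℝ) + 1) ^ 2)⁻¹ := by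
  intro p hp
  have hK2 := (hZ ψ).1 hψ
  have hNK : ∀ t : ℝ, Nh (KK Q t ψ) = n • (KK Q t ψ) := by
    intro t
    rw [← mul_ap, KK, Nh_comm_dG, mul_ap, hK2.2]
    exact (dG _ : Op (Fin (Q + 1))).ap.map_smul n ψ
  have hNX : Nh (X ψ) = n • (X ψ) := by
    rw [← mul_ap, ← hXN.eq, mul_ap, hK2.2]
    exact X.ap.map_smul n ψ
  have hoff : ∀ t : ℝ, off Z (KK Q t ψ) = (1 - P) (KK Q t ψ) := by
    intro t
    rw [hPK]
    exact off_eq_pj (by rw [← hPK]; exact hN) hZ (hNK t)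
  have hoffX : off Z (X ψ) = (1 - P) (X ψ) := by
    rw [hPK]
    exact off_eq_pj (by rw [← hPK]; exact hN) hZ hNX
  have hPψ : P ψ = ψ := by rw [hPK]; exact pj_of_mem hK2.1
  have hPP : P * P = P := by rw [hPK]; exact pj_mul_self K
  rw [TT_kink_apply, hoff, hoffX, ← inner_conj_symm, RCLike.norm_conj]
  have h1 := norm_inner_off_le hD.hP hPP X (KK Q ((p + 1 : ℕ) : ℝ)) hPψ
  rw [hXs.star_eq, hψ1, one_pow, mul_one] at h1
  refine h1.trans ?_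
  have hpQ : (((p + 1 : ℕ) : ℝ)) ∈ Set.Icc (0 : ℝ) Q := by
    refine ⟨Nat.cast_nonneg _, ?_⟩
    exact_mod_cast (by omega : p + 1 ≤ Q)
  have h0Q : (0 : ℝ) ∈ Set.Icc (0 : ℝ) Q := ⟨le_refl _, Nat.cast_nonneg _⟩
  have h2 := hD.cross_le hg hkill 4 hpQ X hCX hCs hK h0Q hd0 hdJ hX hs
  refine h2.trans ?_
  have hd1 : Real.sqrt (dr Q 0) = 1 := by
    unfold dr
    rw [zero_add, sub_zero, min_eq_left (by
      have : (0 : ℝ) ≤ Q := Nat.cast_nonneg _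
      linarith), Real.sqrt_one]
  have hc : 0 ≤ CXc g Cm Dm em 4 K' Cs := by
    have := gconst_nonneg g (em (2 * 4 + 5))
    have := ringC_nonneg (Dm := Dm) hD.Cm_nonneg 4
    have hK0 : 0 ≤ K' := by linarith
    unfold CXc
    positivity
  have e3 : ((1 + DR Q ((p + 1 : ℕ) : ℝ) 0) ^ 4)⁻¹ ≤ (((p : ℝ) + 1) ^ 2)⁻¹ := by
    apply inv_anti₀ (by positivity)
    have e4 : Real.sqrt ((p : ℝ) + 1) ≤ 1 + DR Q ((p + 1 : ℕ) : ℝ) 0 := by
      have e5 : |Real.sqrt (((p + 1 : ℕ) : ℝ) + 1) - Real.sqrt (0 + 1)| ≤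
          DR Q ((p + 1 : ℕ) : ℝ) 0 := by
        unfold DR
        have := abs_nonneg (Real.sqrt ((Q : ℝ) - ((p + 1 : ℕ) : ℝ) + 1) -
          Real.sqrt ((Q : ℝ) - 0 + 1))
        linarith
      have e6 := le_abs_self (Real.sqrt (((p + 1 : ℕ) : ℝ) + 1) - Real.sqrt (0 + 1))
      rw [zero_add, Real.sqrt_one] at e5 e6
      have e7 : Real.sqrt ((p : ℝ) + 1) ≤ Real.sqrt (((p + 1 : ℕ) : ℝ) + 1) := by
        apply Real.sqrt_le_sqrt
        push_cast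
        linarith
      linarith
    calc ((p : ℝ) + 1) ^ 2 = (Real.sqrt ((p : ℝ) + 1)) ^ 4 := by
          rw [show (4 : ℕ) = 2 * 2 by norm_num, pow_mul, Real.sq_sqrt (by positivity)]
      _ ≤ _ := by gcongr
  rw [hd1, mul_one]
  calc gconst g (em (2 * 4 + 5)) * ringC Cm Dm 4 * 2 ^ 4 * K' ^ (4 + 1) * CX * Cs *
      ((1 + DR Q ((p + 1 : ℕ) : ℝ) 0) ^ 4)⁻¹
      = (CXc g Cm Dm em 4 K' Cs * CX) * ((1 + DR Q ((p + 1 : ℕ) : ℝ) 0) ^ 4)⁻¹ := by
        unfold CXc; ring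
    _ ≤ _ := by gcongr

end consumer

end Crest.Agent.R340.LR667
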