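import Crest.Agent.R340.LR7_667
import Crest.Agent.R340.PathStep4_880
import Crest.Agent.R340.PeelX_596

/-!
# R340 / S0532, layer 8: (CG), (CX), (CZ), (CN) of PLAN-F1 from the locality data  (helper667)

`P = pj (Zs ν Q)` is the projection onto all zero modes of a geometry `ν`.

* `LocData.norm_KK_le` : operator norm clustering with a local operator at any centre;
* `LocData.RC2`, `LocData.RingG` : (CG) in the forms of 596 / 880;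
* `LocData.CZ` : (CZ);
* `LocData.RX2`, `LocData.RingX` : (CX);
* `LocData.CN` : (CN).
-/

set_option autoImplicit false

open Matrix Finset MeasureTheory
open scoped ENNReal

namespace Crest.Agent.R340.LR667

open Crest.Agent.R340.Fock649 Crest.Agent.R340.GG467
open Crest.Agent.R340.Geo986 (Zs)
open Crest.Agent.R340.Peel596 (Zn)
open Crest.Agent.R340.PathStep880 (off TT off_Zn TT_Nh)

section ring

variable {Q : ℕ} {S : Type*} [MeasurableSpace S] {μ : Measure S}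
    {H P : Op (Fin (Q + 1))} {b : S → Op (Fin (Q + 1))}
    {fr : S → OrthonormalBasis (Fin (Q + 1)) ℂ (L (Fin (Q + 1)))} {J σ : S → ℝ}
    {Cm Dm : ℕ → ℝ} {em : ℕ → ℕ} {Cμ : ℝ}

/-- constant of `LocData.norm_KK_le` -/
noncomputable def CKc (g : ℝ → ℝ) (Cm Dm : ℕ → ℝ) (em : ℕ → ℕ) (m : ℕ) (K Cs : ℝ) : ℝ :=
  gconst g (em (2 * m + 5)) * ringC Cm Dm m * 2 ^ m * K ^ (m + 1) * Cs

theorem CKc_nonneg {g : ℝ → ℝ} {Cm Dm : ℕ → ℝ} {em : ℕ → ℕ} (h : ∀ m, 0 ≤ Cm m) (m : ℕ)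
    {K Cs : ℝ} (hK : 0 ≤ K) (hCs : 0 ≤ Cs) : 0 ≤ CKc g Cm Dm em m K Cs := by
  have := gconst_nonneg g (em (2 * m + 5))
  have := ringC_nonneg (Dm := Dm) h m
  unfold CKc
  positivity

variable (hD : LocData μ H P b fr J σ Cm Dm em Cμ)
include hD

/-- clustering of a local operator `X` (around `J0`) with a ring; integration exponent `3` -/
theorem LocData.norm_mul_KK_le {g : ℝ → ℝ} (hg : IsFilter g)
    (hkill : ∫ t, g t • (U H t * (1 - P)) = 0) (m : ℕ) {p : ℝ}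
    (hp : p ∈ Set.Icc (0 : ℝ) Q) (X : Op (Fin (Q + 1))) {CX Cs K J0 : ℝ} {d0 : S → ℝ}
    (hCX : 0 ≤ CX) (hCs : 0 ≤ Cs) (hK : 1 ≤ K)
    (hJ0 : J0 ∈ Set.Icc (0 : ℝ) Q) (hd0 : ∀ z, 0 ≤ d0 z) (hdJ : ∀ z, DR Q (J z) J0 ≤ K * d0 z)
    (hX : ∀ z, ‖⁅X, star (b z)⁆‖ ≤ CX * ((1 + d0 z) ^ (m + 4))⁻¹)
    (hs : ∫⁻ z, ENNReal.ofReal (((1 + d0 z) ^ 3)⁻¹) ∂μ ≤ ENNReal.ofReal Cs) :
    ‖P * X * (1 - P) * KK Q p * P‖ ≤
      (CKc g Cm Dm em m K Cs * CX) * Real.sqrt (dr Q J0) * ((1 + DR Q p J0) ^ m)⁻¹ := by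
  have hC0 := DR_nonneg Q p J0
  have hgc := gconst_nonneg g (em (2 * m + 5))
  have hrc := ringC_nonneg (Dm := Dm) hD.Cm_nonneg m
  have hrB := ringB_nonneg hD.Cm_nonneg m
  have hK0 : 0 ≤ K := by linarith
  set K0 : ℝ := gconst g (em (2 * m + 5)) * ringC Cm Dm m * 2 ^ m * K ^ (m + 1) * CX *
    Real.sqrt (dr Q J0) * ((1 + DR Q p J0) ^ m)⁻¹ with hK0'
  have hK00 : 0 ≤ K0 := by positivity
  rw [cluster_eq μ hg hD.hH hD.hP hD.hHP hkill hD.int hD.H_eq hD.bP, norm_neg, norm_smul,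
    Complex.norm_I, one_mul]
  have hpt : ∀ z, ‖P * ⁅X, star (b z)⁆ * (⁅b z, SS g H (KK Q p)⁆ * P)‖ ≤
      K0 * ((1 + d0 z) ^ 3)⁻¹ := by
    intro z
    have hσ := hD.one_le_σ z
    have hσ2 := hD.σ_sq_le z
    have hJ := hD.J_mem z
    have h2 := hD.lie_SS_mul_le hg m z p
    have hw1 := (wt_pos ((p - J z) / σ z) m).le
    have hDm : Dm (2 * m + 5) ≤ |Dm (2 * m + 5)| := le_abs_self _
    have hA0 := DR_nonneg Q p (J z)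
    have hB0 := DR_nonneg Q (J z) J0
    have hd := hd0 z
    have h1' : ‖P * ⁅X, star (b z)⁆‖ ≤ CX * ((1 + d0 z) ^ (m + 4))⁻¹ :=
      calc ‖P * ⁅X, star (b z)⁆‖ ≤ ‖P‖ * ‖⁅X, star (b z)⁆‖ := norm_mul_le _ _
        _ ≤ 1 * (CX * ((1 + d0 z) ^ (m + 4))⁻¹) :=
          mul_le_mul hD.hP1 (hX z) (norm_nonneg _) zero_le_one
        _ = _ := one_mul _
    have h2' : ‖⁅b z, SS g H (KK Q p)⁆ * P‖ ≤ gconst g (em (2 * m + 5)) *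
        (ringC Cm Dm m * (σ z * wt ((p - J z) / σ z) m)) := by
      refine h2.trans ?_
      unfold ringC
      calc _ ≤ gconst g (em (2 * m + 5)) * (4 ^ (m + 5) * |Dm (2 * m + 5)| *
          (ringB Cm m * σ z * wt ((p - J z) / σ z) m)) := by gcongr
        _ = _ := by ring
    have h3 : σ z ≤ Real.sqrt (dr Q J0) * (K * (1 + d0 z)) := by
      have e1 : σ z ≤ Real.sqrt (dr Q (J z)) := by
        apply Real.le_sqrt_of_sq_le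
        refine hσ2.trans (le_of_eq ?_)
        unfold dr
        rw [← min_add_add_left, add_comm 1 (J z), add_comm 1 ((Q : ℝ) - J z)]
      refine e1.trans ((sqrt_dr_le_mul hJ hJ0).trans ?_)
      gcongr
      nlinarith [hdJ z]
    have h4 : wt ((p - J z) / σ z) m ≤ 2 ^ m * ((1 + DR Q p (J z)) ^ m)⁻¹ :=
      wt_le_DR hp hJ hσ hσ2 m
    have h5 : ((1 + DR Q p (J z)) ^ m)⁻¹ ≤ ((1 + DR Q p J0) ^ m)⁻¹ * (K * (1 + d0 z)) ^ m := by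
      rw [inv_eq_one_div, inv_mul_eq_div, div_le_div_iff₀ (by positivity) (by positivity), one_mul,
        ← mul_pow]
      gcongr
      have := DR_triangle Q p (J z) J0
      have := hdJ z
      have h6 : 1 + DR Q p J0 ≤ (1 + DR Q (J z) J0) * (1 + DR Q p (J z)) := by nlinarith
      refine h6.trans ?_
      gcongr
      nlinarith
    calc ‖P * ⁅X, star (b z)⁆ * (⁅b z, SS g H (KK Q p)⁆ * P)‖
        ≤ ‖P * ⁅X, star (b z)⁆‖ * ‖⁅b z, SS g H (KK Q p)⁆ * P‖ := norm_mul_le _ _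
      _ ≤ (CX * ((1 + d0 z) ^ (m + 4))⁻¹) * (gconst g (em (2 * m + 5)) *
        (ringC Cm Dm m * ((Real.sqrt (dr Q J0) * (K * (1 + d0 z))) *
          (2 ^ m * (((1 + DR Q p J0) ^ m)⁻¹ * (K * (1 + d0 z)) ^ m))))) := by
          refine mul_le_mul h1' (h2'.trans ?_) (norm_nonneg _) (by positivity)
          gcongr
          refine h4.trans ?_
          gcongr
      _ = K0 * ((1 + d0 z) ^ 3)⁻¹ := by
          rw [hK0']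
          have hne : (1 + d0 z) ≠ 0 := by positivity
          have hne2 : (1 + DR Q p J0) ^ m ≠ 0 := by positivity
          rw [mul_pow K, pow_add (1 + d0 z) m 4, pow_succ K m]
          field_simp
  have hlint : ‖∫ z, P * ⁅X, star (b z)⁆ * (⁅b z, SS g H (KK Q p)⁆ * P) ∂μ‖ₑ ≤
      ENNReal.ofReal (K0 * Cs) := by
    calc _ ≤ ∫⁻ z, ‖P * ⁅X, star (b z)⁆ * (⁅b z, SS g H (KK Q p)⁆ * P)‖ₑ ∂μ :=
          enorm_integral_le_lintegral_enorm _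
      _ ≤ ∫⁻ z, ENNReal.ofReal K0 * ENNReal.ofReal (((1 + d0 z) ^ 3)⁻¹) ∂μ := by
          apply lintegral_mono
          intro z
          simp only
          rw [← ofReal_norm, ← ENNReal.ofReal_mul hK00]
          exact ENNReal.ofReal_le_ofReal (hpt z)
      _ = ENNReal.ofReal K0 * ∫⁻ z, ENNReal.ofReal (((1 + d0 z) ^ 3)⁻¹) ∂μ :=
          lintegral_const_mul' _ _ ENNReal.ofReal_ne_top
      _ ≤ ENNReal.ofReal K0 * ENNReal.ofReal Cs := by gcongr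
      _ = _ := (ENNReal.ofReal_mul hK00).symm
  have hfin : ‖∫ z, P * ⁅X, star (b z)⁆ * (⁅b z, SS g H (KK Q p)⁆ * P) ∂μ‖ ≤ K0 * Cs := by
    rw [← ofReal_norm] at hlint
    exact (ENNReal.ofReal_le_ofReal_iff (by positivity)).1 hlint
  refine hfin.trans (le_of_eq ?_)
  rw [hK0']
  unfold CKc
  ring

/-- the same with the ring on the left -/
theorem LocData.norm_KK_mul_le {g : ℝ → ℝ} (hg : IsFilter g)
    (hkill : ∫ t, g t • (U H t * (1 - P)) = 0) (m : ℕ) {p : ℝ}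
    (hp : p ∈ Set.Icc (0 : ℝ) Q) (X : Op (Fin (Q + 1))) {CX Cs K J0 : ℝ} {d0 : S → ℝ}
    (hCX : 0 ≤ CX) (hCs : 0 ≤ Cs) (hK : 1 ≤ K)
    (hJ0 : J0 ∈ Set.Icc (0 : ℝ) Q) (hd0 : ∀ z, 0 ≤ d0 z) (hdJ : ∀ z, DR Q (J z) J0 ≤ K * d0 z)
    (hX : ∀ z, ‖⁅X, b z⁆‖ ≤ CX * ((1 + d0 z) ^ (m + 4))⁻¹)
    (hs : ∫⁻ z, ENNReal.ofReal (((1 + d0 z) ^ 3)⁻¹) ∂μ ≤ ENNReal.ofReal Cs) :
    ‖P * KK Q p * (1 - P) * X * P‖ ≤
      (CKc g Cm Dm em m K Cs * CX) * Real.sqrt (dr Q J0) * ((1 + DR Q p J0) ^ m)⁻¹ := by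
  have h := hD.norm_mul_KK_le hg hkill m hp (star X) hCX hCs hK hJ0 hd0 hdJ (fun z => by
    refine le_trans (le_of_eq ?_) (hX z)
    rw [← norm_star ⁅X, b z⁆]
    rw [← norm_neg]
    congr 1
    simp only [Ring.lie_def, star_sub, star_mul]
    abel) hs
  refine le_trans (le_of_eq ?_) h
  rw [← norm_star]
  congr 1
  simp only [star_mul, star_sub, star_one, star_KK, hD.hP.star_eq, mul_assoc]

end ring

/-! ## two-state forms -/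

theorem norm_inner_off_le2 {ι : Type*} [Fintype ι] {P : Op ι} (hP : IsSelfAdjoint P)
    (hPP : P * P = P) (A B : Op ι) {ψ φ : Fk ι} (hψ : P ψ = ψ) (hφ : P φ = φ) :
    ‖inner ℂ ((1 - P) (A ψ)) ((1 - P) (B φ))‖ ≤
      ‖P * star A * (1 - P) * B * P‖ * (‖ψ‖ * ‖φ‖) := by
  have h1 : star (1 - P) * (1 - P) = 1 - P := by
    rw [star_sub, star_one, hP.star_eq, sub_mul, mul_sub, mul_sub, hPP]
    simp
  have e : inner ℂ ((1 - P) (A ψ)) ((1 - P) (B φ)) =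
      inner ℂ ψ ((P * star A * (1 - P) * B * P) φ) := by
    have e1 : inner ℂ ((1 - P) (A ψ)) ((1 - P) (B φ)) =
        inner ℂ (A ψ) ((star (1 - P) * (1 - P) * B) φ) := by
      rw [mul_assoc, mul_ap, mul_ap, inner_star_right]
    rw [e1, h1, ← inner_star_right, ← mul_ap]
    have e2 : inner ℂ ψ ((P * star A * (1 - P) * B * P) φ) =
        inner ℂ (P ψ) ((star A * (1 - P) * B) (P φ)) := by
      rw [show P * star A * (1 - P) * B * P = star P * (star A * (1 - P) * B) * P by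
        rw [hP.star_eq]; noncomm_ring, mul_ap, mul_ap, inner_star_right]
    rw [e2, hψ, hφ]
    rfl
  rw [e]
  calc ‖inner ℂ ψ ((P * star A * (1 - P) * B * P) φ)‖
      ≤ ‖ψ‖ * ‖(P * star A * (1 - P) * B * P) φ‖ := norm_inner_le_norm _ _
    _ ≤ ‖ψ‖ * (‖P * star A * (1 - P) * B * P‖ * ‖φ‖) := by
        gcongr
        exact Op.norm_ap_le _ _
    _ = _ := by ring

/-- `PSD716` form of the decay -/
theorem ringK_shift {Q : ℕ} {K : ℝ} (hK : 0 ≤ K) (m : ℕ) {p q : ℕ} (hp : p < Q - 1)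
    (hq : q < Q - 1) :
    K * (dr Q ((p : ℝ) + 1) * Real.sqrt (dr Q ((p : ℝ) + 1))) *
      ((1 + DR Q ((p : ℝ) + 1) ((q : ℝ) + 1)) ^ m)⁻¹ ≤
    (4 * 2 ^ m * K) * (PSD716.dd Q p * Real.sqrt (PSD716.dd Q p)) *
      (1 + PSD716.DD Q p q) ^ (-(m : ℝ)) := by
  have hdd : 1 ≤ PSD716.dd Q p := PSD716.one_le_dd (by omega)
  have hdr := dr_shift hp
  have hDD := DD_shift hp hq
  have hD0 := PSD716.DD_nonneg Q p q
  have hR0 := DR_nonneg Q ((p : ℝ) + 1) ((q : ℝ) + 1)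
  have hpQ : (((p + 1 : ℕ) : ℝ)) ∈ Set.Icc (0 : ℝ) Q := by
    refine ⟨Nat.cast_nonneg _, ?_⟩
    exact_mod_cast (by omega : p + 1 ≤ Q)
  have hdr0 : 0 ≤ dr Q ((p : ℝ) + 1) := by
    have := one_le_dr hpQ
    push_cast at this
    linarith
  have e1 : dr Q ((p : ℝ) + 1) * Real.sqrt (dr Q ((p : ℝ) + 1)) ≤
      4 * (PSD716.dd Q p * Real.sqrt (PSD716.dd Q p)) := by
    have e2 : Real.sqrt (dr Q ((p : ℝ) + 1)) ≤ 2 * Real.sqrt (PSD716.dd Q p) := by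
      rw [show (2 : ℝ) * Real.sqrt (PSD716.dd Q p) = Real.sqrt (4 * PSD716.dd Q p) by
        rw [Real.sqrt_mul (by norm_num), show (4 : ℝ) = 2 ^ 2 by norm_num,
          Real.sqrt_sq (by norm_num)]]
      exact Real.sqrt_le_sqrt (by linarith)
    calc dr Q ((p : ℝ) + 1) * Real.sqrt (dr Q ((p : ℝ) + 1))
        ≤ (2 * PSD716.dd Q p) * (2 * Real.sqrt (PSD716.dd Q p)) := by gcongr
      _ = _ := by ring
  have e3 : ((1 + DR Q ((p : ℝ) + 1) ((q : ℝ) + 1)) ^ m)⁻¹ ≤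
      2 ^ m * (1 + PSD716.DD Q p q) ^ (-(m : ℝ)) := by
    rw [Real.rpow_neg (by linarith), Real.rpow_natCast, inv_eq_one_div, ← div_eq_mul_inv,
      div_le_div_iff₀ (by positivity) (by positivity), one_mul, ← mul_pow]
    gcongr
    linarith
  calc K * (dr Q ((p : ℝ) + 1) * Real.sqrt (dr Q ((p : ℝ) + 1))) *
      ((1 + DR Q ((p : ℝ) + 1) ((q : ℝ) + 1)) ^ m)⁻¹
      ≤ K * (4 * (PSD716.dd Q p * Real.sqrt (PSD716.dd Q p))) *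
        (2 ^ m * (1 + PSD716.DD Q p q) ^ (-(m : ℝ))) := by gcongr
    _ = _ := by ring

theorem ringK_nonneg {g : ℝ → ℝ} {Cm Dm : ℕ → ℝ} {em : ℕ → ℕ} {Cμ : ℝ} (h : 0 ≤ Cμ) (m : ℕ) :
    0 ≤ ringK g Cm Dm em Cμ m := by
  have := gconst_nonneg g (em (2 * (m + 6) + 5))
  have := Real.pi_pos
  unfold ringK
  positivity

section geometry

variable {Q : ℕ} {S : Type*} [MeasurableSpace S] {μ : Measure S} {ν : ℕ → ℝ}
    {H : Op (Fin (Q + 1))} {b : S → Op (Fin (Q + 1))}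
    {fr : S → OrthonormalBasis (Fin (Q + 1)) ℂ (L (Fin (Q + 1)))} {J σ : S → ℝ}
    {Cm Dm : ℕ → ℝ} {em : ℕ → ℕ} {Cμ : ℝ}

theorem Nh_KK {n : ℂ} {ψ : Fk (Fin (Q + 1))} (h : (Nh : Op (Fin (Q + 1))) ψ = n • ψ) (t : ℝ) :
    (Nh : Op (Fin (Q + 1))) (KK Q t ψ) = n • (KK Q t ψ) := by
  rw [← mul_ap, KK, Nh_comm_dG, mul_ap, h]
  exact (dG _ : Op (Fin (Q + 1))).ap.map_smul n ψ

theorem Nh_X {n : ℂ} {X : Op (Fin (Q + 1))} (hX : Commute X Nh) {ψ : Fk (Fin (Q + 1))}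
    (h : (Nh : Op (Fin (Q + 1))) ψ = n • ψ) : (Nh : Op (Fin (Q + 1))) (X ψ) = n • (X ψ) := by
  rw [← mul_ap, ← hX.eq, mul_ap, h]
  exact X.ap.map_smul n ψ

/-- complement projection in a sector -/
theorem off_Zn_eq {n : ℕ} {x : Fk (Fin (Q + 1))}
    (hx : (Nh : Op (Fin (Q + 1))) x = (n : ℂ) • x) :
    off (Zn ν Q n) x = (1 - pj (Zs ν Q)) x := by
  rw [off_Zn hx]
  rfl

theorem cast_mem {Q p : ℕ} (h : p ≤ Q) : ((p : ℕ) : ℝ) ∈ Set.Icc (0 : ℝ) Q :=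
  ⟨Nat.cast_nonneg _, by exact_mod_cast h⟩

variable (hD : LocData μ H (pj (Zs ν Q)) b fr J σ Cm Dm em Cμ)
include hD

/-- operator form of (CG), indices as in `RingG_of_op` -/
theorem LocData.ring_op {g : ℝ → ℝ} (hg : IsFilter g)
    (hkill : ∫ t, g t • (U H t * (1 - pj (Zs ν Q))) = 0) (m : ℕ) {p q : ℕ} (hp : p < Q - 1)
    (hq : q < Q - 1) :
    ‖pj (Zs ν Q) * KK Q ((p + 1 : ℕ) : ℝ) * (1 - pj (Zs ν Q)) * KK Q ((q + 1 : ℕ) : ℝ) *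
      pj (Zs ν Q)‖ ≤
      CGc g Cm Dm em Cμ m * (PSD716.dd Q p * Real.sqrt (PSD716.dd Q p)) *
        (1 + PSD716.DD Q p q) ^ (-(m : ℝ)) := by
  have h2 := hD.ring_clustering hg hkill m (cast_mem (by omega : p + 1 ≤ Q))
    (cast_mem (by omega : q + 1 ≤ Q))
  refine h2.trans ?_
  push_cast
  refine (ringK_shift (ringK_nonneg hD.Cμ_nonneg m) m hp hq).trans (le_of_eq ?_)
  unfold CGc
  ring

/-- **(CG)**, 596's two-state form -/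
theorem LocData.RC2 {g : ℝ → ℝ} (hg : IsFilter g)
    (hkill : ∫ t, g t • (U H t * (1 - pj (Zs ν Q))) = 0) (m n : ℕ) :
    PeelX596.RC2 Q (Zn ν Q n) (CGc g Cm Dm em Cμ m) m := by
  intro ψ hψ φ hφ p hp q hq
  rw [TT_kink_apply, TT_kink_apply, off_Zn_eq (Nh_KK hψ.2 _), off_Zn_eq (Nh_KK hφ.2 _)]
  have h1 := norm_inner_off_le2 (isSelfAdjoint_pj (Zs ν Q)) (pj_mul_self _)
    (KK Q ((p + 1 : ℕ) : ℝ)) (KK Q ((q + 1 : ℕ) : ℝ)) (pj_of_mem hψ.1) (pj_of_mem hφ.1)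
  rw [star_KK] at h1
  refine h1.trans ?_
  have h2 := hD.ring_op hg hkill m hp hq
  gcongr

/-- **(CG)**, 880's form -/
theorem LocData.RingG {g : ℝ → ℝ} (hg : IsFilter g)
    (hkill : ∫ t, g t • (U H t * (1 - pj (Zs ν Q))) = 0) (m n : ℕ) :
    PathStep880.RingG Q (Zn ν Q n) (CGc g Cm Dm em Cμ m) m := by
  intro ψ hψ hψ1 p hp q hq
  have h := hD.RC2 hg hkill m n ψ hψ ψ hψ p hp q hq
  rwa [hψ1, mul_one, mul_one] at h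

/-- **(CZ)**, two-state form, local operator `T` around `J0` -/
theorem LocData.CZ {g : ℝ → ℝ} (hg : IsFilter g)
    (hkill : ∫ t, g t • (U H t * (1 - pj (Zs ν Q))) = 0) (m n : ℕ) (X : Op (Fin (Q + 1)))
    (hXN : Commute X Nh) {CX Cs K J0 : ℝ} {d0 : S → ℝ}
    (hCX : 0 ≤ CX) (hCs : 0 ≤ Cs) (hK : 1 ≤ K)
    (hJ0 : J0 ∈ Set.Icc (0 : ℝ) Q) (hd0 : ∀ z, 0 ≤ d0 z) (hdJ : ∀ z, DR Q (J z) J0 ≤ K * d0 z)
    (hX : ∀ z, ‖⁅X, b z⁆‖ ≤ CX * ((1 + d0 z) ^ (m + 4))⁻¹)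
    (hs : ∫⁻ z, ENNReal.ofReal (((1 + d0 z) ^ 3)⁻¹) ∂μ ≤ ENNReal.ofReal Cs)
    {ψ φ : Fk (Fin (Q + 1))} (hψ : ψ ∈ Zn ν Q n) (hφ : φ ∈ Zn ν Q n) {p : ℕ} (hp : p ≤ Q) :
    ‖inner ℂ (off (Zn ν Q n) (TT Q (PathStep880.kink p) ψ)) (off (Zn ν Q n) (X φ))‖ ≤
      (CKc g Cm Dm em m K Cs * CX) * Real.sqrt (dr Q J0) * ((1 + DR Q p J0) ^ m)⁻¹ *
        (‖ψ‖ * ‖φ‖) := by
  rw [TT_kink_apply, off_Zn_eq (Nh_KK hψ.2 _), off_Zn_eq (Nh_X hXN hφ.2)]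
  have h1 := norm_inner_off_le2 (isSelfAdjoint_pj (Zs ν Q)) (pj_mul_self _)
    (KK Q ((p : ℕ) : ℝ)) X (pj_of_mem hψ.1) (pj_of_mem hφ.1)
  rw [star_KK] at h1
  refine h1.trans ?_
  have h2 := hD.norm_KK_mul_le hg hkill m (cast_mem hp) X hCX hCs hK hJ0 hd0 hdJ hX hs
  gcongr

/-- **(CX)**, 596's two-state form -/
theorem LocData.RX2 {g : ℝ → ℝ} (hg : IsFilter g)
    (hkill : ∫ t, g t • (U H t * (1 - pj (Zs ν Q))) = 0) (n : ℕ) (X : Op (Fin (Q + 1)))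
    (hXN : Commute X Nh) {CX Cs K : ℝ} {d0 : S → ℝ}
    (hCX : 0 ≤ CX) (hCs : 0 ≤ Cs) (hK : 1 ≤ K) (hd0 : ∀ z, 0 ≤ d0 z)
    (hdJ : ∀ z, DR Q (J z) 0 ≤ K * d0 z)
    (hX : ∀ z, ‖⁅X, b z⁆‖ ≤ CX * ((1 + d0 z) ^ 8)⁻¹)
    (hs : ∫⁻ z, ENNReal.ofReal (((1 + d0 z) ^ 3)⁻¹) ∂μ ≤ ENNReal.ofReal Cs) :
    PeelX596.RX2 Q (Zn ν Q n) X (CKc g Cm Dm em 4 K Cs * CX) := by
  intro ψ hψ φ hφ p hp
  have h0Q : (0 : ℝ) ∈ Set.Icc (0 : ℝ) Q := ⟨le_refl _, Nat.cast_nonneg _⟩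
  have h2 := hD.CZ hg hkill 4 n X hXN hCX hCs hK h0Q hd0 hdJ hX hs hψ hφ
    (by omega : p + 1 ≤ Q)
  refine h2.trans ?_
  have hd1 : Real.sqrt (dr Q 0) = 1 := by
    unfold dr
    rw [zero_add, sub_zero, min_eq_left (by
      have : (0 : ℝ) ≤ Q := Nat.cast_nonneg _
      linarith), Real.sqrt_one]
  have hc : 0 ≤ CKc g Cm Dm em 4 K Cs := CKc_nonneg hD.Cm_nonneg 4 (by linarith) hCs
  have e3 : ((1 + DR Q ((p + 1 : ℕ) : ℝ) 0) ^ 4)⁻¹ ≤ (((p : ℝ) + 1) ^ 2)⁻¹ := by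
    apply inv_anti₀ (by positivity)
    have e4 : Real.sqrt ((p : ℝ) + 1) ≤ 1 + DR Q ((p + 1 : ℕ) : ℝ) 0 := by
      have e5 : |Real.sqrt (((p + 1 : ℕ) : ℝ) + 1) - Real.sqrt (0 + 1)| ≤
          DR Q ((p + 1 : ℕ) : ℝ) 0 := by
        unfold DR
        have := abs_nonneg (Real.sqrt ((Q : ℝ) - ((p + 1 : ℕ) : ℝ) + 1) -
          Real.sqrt ((Q : ℝ) - 0 + 1))
        linarith
      have e6 := le_abs_self (Real.sqrt (((p + 1 : ℕ) : ℝ) + 1) - Real.sqrt (0 + 1))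
      rw [zero_add, Real.sqrt_one] at e5 e6
      have e7 : Real.sqrt ((p : ℝ) + 1) ≤ Real.sqrt (((p + 1 : ℕ) : ℝ) + 1) := by
        apply Real.sqrt_le_sqrt
        push_cast
        linarith
      linarith
    calc ((p : ℝ) + 1) ^ 2 = (Real.sqrt ((p : ℝ) + 1)) ^ 4 := by
          rw [show (4 : ℕ) = 2 * 2 by norm_num, pow_mul, Real.sq_sqrt (by positivity)]
      _ ≤ _ := by gcongr
  rw [hd1, mul_one]
  gcongr

/-- **(CX)**, 880's form -/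
theorem LocData.RingX {g : ℝ → ℝ} (hg : IsFilter g)
    (hkill : ∫ t, g t • (U H t * (1 - pj (Zs ν Q))) = 0) (n : ℕ) (X : Op (Fin (Q + 1)))
    (hXN : Commute X Nh) {CX Cs K : ℝ} {d0 : S → ℝ}
    (hCX : 0 ≤ CX) (hCs : 0 ≤ Cs) (hK : 1 ≤ K) (hd0 : ∀ z, 0 ≤ d0 z)
    (hdJ : ∀ z, DR Q (J z) 0 ≤ K * d0 z)
    (hX : ∀ z, ‖⁅X, b z⁆‖ ≤ CX * ((1 + d0 z) ^ 8)⁻¹)
    (hs : ∫⁻ z, ENNReal.ofReal (((1 + d0 z) ^ 3)⁻¹) ∂μ ≤ ENNReal.ofReal Cs) :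
    PathStep880.RingX Q (Zn ν Q n) X (CKc g Cm Dm em 4 K Cs * CX) := by
  intro ψ hψ hψ1 p hp
  have h := hD.RX2 hg hkill n X hXN hCX hCs hK hd0 hdJ hX hs ψ hψ ψ hψ p hp
  rwa [hψ1, mul_one, mul_one] at h

/-- **(CN)** : the peeled orbital `n_Q = d_Q c_Q` against the ring vectors -/
theorem LocData.CN {g : ℝ → ℝ} (hg : IsFilter g)
    (hkill : ∫ t, g t • (U H t * (1 - pj (Zs ν Q))) = 0) (m n : ℕ)
    {ψ φ : Fk (Fin (Q + 1))} (hψ : ψ ∈ Zn ν Q n) (hφ : φ ∈ Zn ν Q n) {p : ℕ} (hp : p < Q - 1) :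
    ‖inner ℂ (off (Zn ν Q n) (d (Fin.last Q) (c (Fin.last Q) ψ)))
        (off (Zn ν Q n) (TT Q (PathStep880.kink (p + 1)) φ))‖ ≤
      (4 * 4 ^ m * ringK g Cm Dm em Cμ (2 * m)) * ((1 + ((Q : ℝ) - p)) ^ m)⁻¹ *
        (‖ψ‖ * ‖φ‖) := by
  rw [PeelX596.n_last_eq (by omega), TT_kink_apply, TT_kink_apply, off_Zn_eq (Nh_KK hψ.2 _),
    off_Zn_eq (Nh_KK hφ.2 _)]
  have h1 := norm_inner_off_le2 (isSelfAdjoint_pj (Zs ν Q)) (pj_mul_self _)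
    (KK Q ((Q - 1 : ℕ) : ℝ)) (KK Q ((p + 1 : ℕ) : ℝ)) (pj_of_mem hψ.1) (pj_of_mem hφ.1)
  rw [star_KK] at h1
  refine h1.trans ?_
  have h2 := hD.ring_clustering hg hkill (2 * m) (cast_mem (by omega : Q - 1 ≤ Q))
    (cast_mem (by omega : p + 1 ≤ Q))
  have hrK := ringK_nonneg (g := g) (Cm := Cm) (Dm := Dm) (em := em) hD.Cμ_nonneg (2 * m)
  have hQ2 : 2 ≤ Q := by omega
  have hQp : (2 : ℝ) ≤ (Q : ℝ) - p := by
    have : p + 2 ≤ Q := by omega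
    have h3 : ((p + 2 : ℕ) : ℝ) ≤ Q := by exact_mod_cast this
    push_cast at h3
    linarith
  have hcast : ((Q - 1 : ℕ) : ℝ) = (Q : ℝ) - 1 := by
    rw [Nat.cast_sub (by omega)]; simp
  have hdr : dr Q ((Q - 1 : ℕ) : ℝ) * Real.sqrt (dr Q ((Q - 1 : ℕ) : ℝ)) ≤ 4 := by
    have e1 : dr Q ((Q - 1 : ℕ) : ℝ) ≤ 2 := by
      unfold dr
      rw [hcast]
      refine (min_le_right _ _).trans (le_of_eq ?_)
      ring
    have e0 : 1 ≤ dr Q ((Q - 1 : ℕ) : ℝ) := one_le_dr (cast_mem (by omega : Q - 1 ≤ Q))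
    have e2 : Real.sqrt (dr Q ((Q - 1 : ℕ) : ℝ)) ≤ 2 := by
      rw [show (2 : ℝ) = Real.sqrt 4 by
        rw [show (4 : ℝ) = 2 ^ 2 by norm_num, Real.sqrt_sq (by norm_num)]]
      exact Real.sqrt_le_sqrt (by linarith)
    have e3 : 0 ≤ Real.sqrt (dr Q ((Q - 1 : ℕ) : ℝ)) := Real.sqrt_nonneg _
    nlinarith
  have hDR0 := DR_nonneg Q ((Q - 1 : ℕ) : ℝ) ((p + 1 : ℕ) : ℝ)
  have hDR : Real.sqrt (1 + ((Q : ℝ) - p)) ≤ 2 * (1 + DR Q ((Q - 1 : ℕ) : ℝ) ((p + 1 : ℕ) : ℝ)) := by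
    have e1 : |Real.sqrt 2 - Real.sqrt ((Q : ℝ) - p)| ≤
        DR Q ((Q - 1 : ℕ) : ℝ) ((p + 1 : ℕ) : ℝ) := by
      unfold DR
      rw [hcast]
      push_cast
      rw [show (Q : ℝ) - (Q - 1) + 1 = 2 by ring, show (Q : ℝ) - (p + 1) + 1 = Q - p by ring]
      have := abs_nonneg (Real.sqrt ((Q : ℝ) - 1 + 1) - Real.sqrt ((p : ℝ) + 1 + 1))
      linarith
    have e2 := neg_abs_le (Real.sqrt 2 - Real.sqrt ((Q : ℝ) - p))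
    have e3 : Real.sqrt 2 ≤ 3 / 2 := by
      rw [show (3 / 2 : ℝ) = Real.sqrt ((3 / 2) ^ 2) by rw [Real.sqrt_sq (by norm_num)]]
      exact Real.sqrt_le_sqrt (by norm_num)
    have e5 : 7 / 5 ≤ Real.sqrt ((Q : ℝ) - p) := by
      apply Real.le_sqrt_of_sq_le
      linarith
    have e4 : Real.sqrt (1 + ((Q : ℝ) - p)) ≤ 2 * Real.sqrt ((Q : ℝ) - p) - 1 := by
      rw [Real.sqrt_le_left (by linarith)]
      have := Real.sq_sqrt (by linarith : (0 : ℝ) ≤ (Q : ℝ) - p)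
      nlinarith
    have e6 : Real.sqrt ((Q : ℝ) - p) ≤ DR Q ((Q - 1 : ℕ) : ℝ) ((p + 1 : ℕ) : ℝ) + 3 / 2 := by
      linarith
    linarith
  have hfin : ((1 + DR Q ((Q - 1 : ℕ) : ℝ) ((p + 1 : ℕ) : ℝ)) ^ (2 * m))⁻¹ ≤
      4 ^ m * ((1 + ((Q : ℝ) - p)) ^ m)⁻¹ := by
    rw [← div_eq_mul_inv, le_div_iff₀ (by positivity), inv_mul_le_iff₀ (by positivity)]
    have e7 : (1 + ((Q : ℝ) - p)) ≤ 4 * (1 + DR Q ((Q - 1 : ℕ) : ℝ) ((p + 1 : ℕ) : ℝ)) ^ 2 := by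
      have e8 := Real.sq_sqrt (by linarith : (0 : ℝ) ≤ 1 + ((Q : ℝ) - p))
      have e9 : Real.sqrt (1 + ((Q : ℝ) - p)) ^ 2 ≤
          (2 * (1 + DR Q ((Q - 1 : ℕ) : ℝ) ((p + 1 : ℕ) : ℝ))) ^ 2 := by gcongr
      calc 1 + ((Q : ℝ) - p) = Real.sqrt (1 + ((Q : ℝ) - p)) ^ 2 := e8.symm
        _ ≤ _ := e9
        _ = _ := by ring
    calc (1 + ((Q : ℝ) - p)) ^ m
        ≤ (4 * (1 + DR Q ((Q - 1 : ℕ) : ℝ) ((p + 1 : ℕ) : ℝ)) ^ 2) ^ m := by gcongr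
      _ = (1 + DR Q ((Q - 1 : ℕ) : ℝ) ((p + 1 : ℕ) : ℝ)) ^ (2 * m) * 4 ^ m := by
          rw [mul_pow, ← pow_mul]; ring
  calc ‖pj (Zs ν Q) * KK Q ((Q - 1 : ℕ) : ℝ) * (1 - pj (Zs ν Q)) * KK Q ((p + 1 : ℕ) : ℝ) *
        pj (Zs ν Q)‖ * (‖ψ‖ * ‖φ‖)
      ≤ (ringK g Cm Dm em Cμ (2 * m) * (dr Q ((Q - 1 : ℕ) : ℝ) *
          Real.sqrt (dr Q ((Q - 1 : ℕ) : ℝ))) *
          ((1 + DR Q ((Q - 1 : ℕ) : ℝ) ((p + 1 : ℕ) : ℝ)) ^ (2 * m))⁻¹) * (‖ψ‖ * ‖φ‖) := by gcongr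
    _ ≤ (ringK g Cm Dm em Cμ (2 * m) * 4 * (4 ^ m * ((1 + ((Q : ℝ) - p)) ^ m)⁻¹)) *
          (‖ψ‖ * ‖φ‖) := by gcongr
    _ = _ := by ring

end geometry

end Crest.Agent.R340.LR667
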