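import Crest.Agent.R340.LR6_667

/-!
# R340 / S0532, layer 9: general one-body profiles instead of kinks  (helper667)

`h : Fin (Q+1) → ℝ` with tangent `α + β j` at the ring `J z`:
`|h j - (α + β j)| ≤ B |j - J|² (1 + |j - J|/σ)^r`. Then

* `‖⁅τ_s (b z), dG(h - tangent)⁆‖ ≤ C (1+|s|)^e B σ²`,
* `‖⁅b z, dG h⁆ P‖`, `‖P ⁅dG h, (b z)^*⁆‖`, `‖⁅b z, SS g H (dG h)⁆ P‖ ≤ C B σ²`.
-/

set_option autoImplicit false

open Matrix Finset MeasureTheory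
open scoped ENNReal

namespace Crest.Agent.R340.LR667

open Crest.Agent.R340.Fock649

/-- tangent hypothesis -/
def Tang {n : ℕ} (h : Fin n → ℝ) (α β J σ B : ℝ) (r : ℕ) : Prop :=
  ∀ j : Fin n, |h j - (α + β * (j : ℝ))| ≤ B * (|(j : ℝ) - J| ^ 2 * (1 + |(j : ℝ) - J| / σ) ^ r)

/-- moments of the function minus its tangent, in a local frame -/
theorem norm_tang_le {n : ℕ} {h : Fin n → ℝ} {α β J σ B C : ℝ} {r : ℕ} (hT : Tang h α β J σ B r)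
    (hσ : 1 ≤ σ) (hB : 0 ≤ B) (hC : 0 ≤ C) {v : L (Fin n)} {k : ℕ}
    (h2 : ‖mv (dg fun i : Fin n => |(i : ℝ) - J| ^ 2) v‖ ≤ C * (σ * (1 + k)) ^ 2)
    (hm : ‖mv (dg fun i : Fin n => |(i : ℝ) - J| ^ (r + 2)) v‖ ≤ C * (σ * (1 + k)) ^ (r + 2)) :
    ‖mv (dg fun i : Fin n => h i - (α + β * (i : ℝ))) v‖ ≤
      (C * 2 ^ (r + 1) * B * σ ^ 2) * (1 + (k : ℝ)) ^ (r + 2) := by
  have hσ0 : 0 < σ := by linarith
  have hk : (1 : ℝ) ≤ 1 + k := by
    have : (0 : ℝ) ≤ k := Nat.cast_nonneg k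
    linarith
  -- pointwise majorant `2^r B (|x|² + σ^{-r} |x|^{r+2})`
  have hpt : ∀ i : Fin n, |h i - (α + β * (i : ℝ))| * 1 ≤
      |2 ^ r * B * |(i : ℝ) - J| ^ 2 + 2 ^ r * B / σ ^ r * |(i : ℝ) - J| ^ (r + 2)| := by
    intro i
    have hx := abs_nonneg ((i : ℝ) - J)
    rw [mul_one, abs_of_nonneg (by positivity : (0 : ℝ) ≤
      2 ^ r * B * |(i : ℝ) - J| ^ 2 + 2 ^ r * B / σ ^ r * |(i : ℝ) - J| ^ (r + 2))]
    refine (hT i).trans ?_
    have h3 : (1 + |(i : ℝ) - J| / σ) ^ r ≤ 2 ^ r * (1 + (|(i : ℝ) - J| / σ) ^ r) := by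
      have h4 : 1 + |(i : ℝ) - J| / σ ≤ 2 * max 1 (|(i : ℝ) - J| / σ) := by
        have := le_max_left 1 (|(i : ℝ) - J| / σ)
        have := le_max_right 1 (|(i : ℝ) - J| / σ)
        linarith
      calc (1 + |(i : ℝ) - J| / σ) ^ r ≤ (2 * max 1 (|(i : ℝ) - J| / σ)) ^ r := by gcongr
        _ = 2 ^ r * (max 1 (|(i : ℝ) - J| / σ)) ^ r := mul_pow _ _ _
        _ ≤ 2 ^ r * (1 + (|(i : ℝ) - J| / σ) ^ r) := by
            gcongr
            rcases le_total 1 (|(i : ℝ) - J| / σ) with h5 | h5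
            · rw [max_eq_right h5]; linarith
            · rw [max_eq_left h5, one_pow]
              have : 0 ≤ (|(i : ℝ) - J| / σ) ^ r := by positivity
              linarith
    calc B * (|(i : ℝ) - J| ^ 2 * (1 + |(i : ℝ) - J| / σ) ^ r)
        ≤ B * (|(i : ℝ) - J| ^ 2 * (2 ^ r * (1 + (|(i : ℝ) - J| / σ) ^ r))) := by gcongr
      _ = _ := by rw [div_pow]; field_simp; ring
  have e1 := norm_mv_dg_mono (h := fun i : Fin n => h i - (α + β * (i : ℝ)))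
    (h' := fun i : Fin n => 2 ^ r * B * |(i : ℝ) - J| ^ 2 +
      2 ^ r * B / σ ^ r * |(i : ℝ) - J| ^ (r + 2)) zero_le_one hpt v
  rw [mul_one] at e1
  have e2 : mv (dg fun i : Fin n => 2 ^ r * B * |(i : ℝ) - J| ^ 2 +
      2 ^ r * B / σ ^ r * |(i : ℝ) - J| ^ (r + 2)) v =
      ((2 ^ r * B : ℝ) : ℂ) • mv (dg fun i : Fin n => |(i : ℝ) - J| ^ 2) v +
      ((2 ^ r * B / σ ^ r : ℝ) : ℂ) • mv (dg fun i : Fin n => |(i : ℝ) - J| ^ (r + 2)) v := by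
    ext i
    rw [PiLp.add_apply, PiLp.smul_apply, PiLp.smul_apply, mv_dg_apply, mv_dg_apply, mv_dg_apply,
      smul_eq_mul, smul_eq_mul]
    push_cast
    ring
  rw [e2] at e1
  refine e1.trans ((norm_add_le _ _).trans ?_)
  rw [norm_smul, norm_smul, Complex.norm_real, Complex.norm_real,
    Real.norm_of_nonneg (by positivity : (0 : ℝ) ≤ 2 ^ r * B),
    Real.norm_of_nonneg (by positivity : (0 : ℝ) ≤ 2 ^ r * B / σ ^ r)]
  have e3 : (1 + (k : ℝ)) ^ 2 ≤ (1 + (k : ℝ)) ^ (r + 2) := pow_le_pow_right₀ hk (by omega)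
  calc 2 ^ r * B * ‖mv (dg fun i : Fin n => |(i : ℝ) - J| ^ 2) v‖ +
      2 ^ r * B / σ ^ r * ‖mv (dg fun i : Fin n => |(i : ℝ) - J| ^ (r + 2)) v‖
      ≤ 2 ^ r * B * (C * (σ * (1 + k)) ^ 2) +
        2 ^ r * B / σ ^ r * (C * (σ * (1 + k)) ^ (r + 2)) := by gcongr
    _ = 2 ^ r * B * C * σ ^ 2 * (1 + (k : ℝ)) ^ 2 +
        2 ^ r * B * C * σ ^ 2 * (1 + (k : ℝ)) ^ (r + 2) := by
        rw [mul_pow, mul_pow, pow_add σ r 2]
        field_simp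
    _ ≤ 2 ^ r * B * C * σ ^ 2 * (1 + (k : ℝ)) ^ (r + 2) +
        2 ^ r * B * C * σ ^ 2 * (1 + (k : ℝ)) ^ (r + 2) := by gcongr
    _ = _ := by ring

section ring

variable {Q : ℕ} {S : Type*} [MeasurableSpace S] {μ : Measure S}
    {H P : Op (Fin (Q + 1))} {b : S → Op (Fin (Q + 1))}
    {fr : S → OrthonormalBasis (Fin (Q + 1)) ℂ (L (Fin (Q + 1)))} {J σ : S → ℝ}
    {Cm Dm : ℕ → ℝ} {em : ℕ → ℕ} {Cμ : ℝ}

/-- constant of the general bounds -/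
noncomputable def tangC (Cm Dm : ℕ → ℝ) (r : ℕ) : ℝ :=
  4 ^ (r + 6) * |Dm (2 * r + 7)| * ((Cm 2 + Cm (r + 2)) * 2 ^ (r + 1))

theorem tangC_nonneg {Cm Dm : ℕ → ℝ} (h : ∀ m, 0 ≤ Cm m) (r : ℕ) : 0 ≤ tangC Cm Dm r := by
  unfold tangC
  have := h 2
  have := h (r + 2)
  positivity

variable (hD : LocData μ H P b fr J σ Cm Dm em Cμ)
include hD

/-- evolved local pair annihilator against `dG (h - tangent)` -/
theorem LocData.lie_tau_tang_le {h : Fin (Q + 1) → ℝ} {α β B : ℝ} {r : ℕ} (hB : 0 ≤ B) (z : S)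
    (hT : Tang h α β (J z) (σ z) B r) (s : ℝ) :
    ‖⁅tau H s (b z), dG (dg fun j : Fin (Q + 1) => h j - (α + β * (j : ℝ)))⁆‖ ≤
      tangC Cm Dm r * (1 + |s|) ^ em (2 * r + 7) * (B * σ z ^ 2) := by
  have hσ := hD.one_le_σ z
  have hC2 := hD.Cm_nonneg 2
  have hCr := hD.Cm_nonneg (r + 2)
  have hB0 : 0 ≤ (Cm 2 + Cm (r + 2)) * 2 ^ (r + 1) * B * σ z ^ 2 := by positivity
  have hDm : 0 ≤ Dm (2 * r + 7) := (norm_nonneg _).trans (hD.norm_b _ z)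
  have h1 : ‖tau H s (b z)‖ ≤ Dm (2 * r + 7) * (1 + |s|) ^ em (2 * r + 7) := by
    rw [norm_tau hD.hH]
    refine (hD.norm_b (2 * r + 7) z).trans ?_
    have : (1 : ℝ) ≤ (1 + |s|) ^ em (2 * r + 7) := by
      apply one_le_pow₀
      have := abs_nonneg s
      linarith
    exact le_mul_of_one_le_right hDm this
  have hmom : ∀ k : Fin (Q + 1),
      ‖mv (dg fun j : Fin (Q + 1) => h j - (α + β * (j : ℝ))) (fr z k)‖ ≤
      ((Cm 2 + Cm (r + 2)) * 2 ^ (r + 1) * B * σ z ^ 2) * (1 + ((k : ℕ) : ℝ)) ^ (r + 2) := by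
    intro k
    have hk : (0 : ℝ) ≤ ((k : ℕ) : ℝ) := Nat.cast_nonneg _
    exact norm_tang_le hT hσ hB (by positivity)
      ((hD.mom 2 z k).trans (by gcongr; linarith))
      ((hD.mom (r + 2) z k).trans (by gcongr; linarith))
  have h := lie_dG_diag_le (b := fr z) (r := r + 2) hB0 hmom h1
    (M := 2 * r + 7) (by omega) (hD.trunc (2 * r + 7) s z)
  refine h.trans (le_of_eq ?_)
  unfold tangC
  rw [abs_of_nonneg hDm, show r + 2 + 4 = r + 6 by ring]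
  ring

/-- `[b_z, tangent] P = 0` -/
theorem LocData.lie_lin_mul (z : S) (α β : ℝ) :
    ⁅b z, dG (dg fun j : Fin (Q + 1) => α + β * (j : ℝ))⁆ * P = 0 := by
  rw [Ring.lie_def, sub_mul, mul_assoc, mul_assoc, ← (hD.commP α β).eq, ← mul_assoc,
    hD.bP, zero_mul, mul_zero, sub_zero]

omit hD in
theorem dG_split (h : Fin (Q + 1) → ℝ) (α β : ℝ) :
    dG (dg h) = dG (dg fun j : Fin (Q + 1) => α + β * (j : ℝ)) +
      dG (dg fun j : Fin (Q + 1) => h j - (α + β * (j : ℝ))) := by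
  rw [dg_sub h, dG_sub]
  abel

theorem LocData.lie_dG_mul_le {h : Fin (Q + 1) → ℝ} {α β B : ℝ} {r : ℕ} (hB : 0 ≤ B) (z : S)
    (hT : Tang h α β (J z) (σ z) B r) :
    ‖⁅b z, dG (dg h)⁆ * P‖ ≤ tangC Cm Dm r * (B * σ z ^ 2) := by
  have e1 : ⁅b z, dG (dg h)⁆ * P =
      ⁅b z, dG (dg fun j : Fin (Q + 1) => h j - (α + β * (j : ℝ)))⁆ * P := by
    have e2 : ⁅b z, dG (dg h)⁆ = ⁅b z, dG (dg fun j : Fin (Q + 1) => α + β * (j : ℝ))⁆ +
        ⁅b z, dG (dg fun j : Fin (Q + 1) => h j - (α + β * (j : ℝ)))⁆ := by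
      rw [dG_split h α β]
      simp only [Ring.lie_def, mul_add, add_mul]
      abel
    rw [e2, add_mul, hD.lie_lin_mul, zero_add]
  rw [e1]
  have h0 := hD.lie_tau_tang_le hB z hT 0
  rw [tau_zero, abs_zero, add_zero, one_pow, mul_one] at h0
  calc ‖⁅b z, dG (dg fun j : Fin (Q + 1) => h j - (α + β * (j : ℝ)))⁆ * P‖
      ≤ ‖⁅b z, dG (dg fun j : Fin (Q + 1) => h j - (α + β * (j : ℝ)))⁆‖ * ‖P‖ := norm_mul_le _ _
    _ ≤ ‖⁅b z, dG (dg fun j : Fin (Q + 1) => h j - (α + β * (j : ℝ)))⁆‖ * 1 := by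
        gcongr; exact hD.hP1
    _ ≤ _ := by rw [mul_one]; exact h0

theorem LocData.mul_lie_dG_star_le {h : Fin (Q + 1) → ℝ} {α β B : ℝ} {r : ℕ} (hB : 0 ≤ B) (z : S)
    (hT : Tang h α β (J z) (σ z) B r) :
    ‖P * ⁅dG (dg h), star (b z)⁆‖ ≤ tangC Cm Dm r * (B * σ z ^ 2) := by
  have e : P * ⁅dG (dg h), star (b z)⁆ = star (⁅b z, dG (dg h)⁆ * P) := by
    rw [star_mul, hD.hP.star_eq]
    congr 1
    simp only [Ring.lie_def, star_sub, star_mul, star_dG_dg]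
  rw [e, norm_star]
  exact hD.lie_dG_mul_le hB z hT

/-- `[b_z, S(dG h)] P = [b_z, S(dG (h - tangent))] P` -/
theorem LocData.lie_SS_tang {g : ℝ → ℝ} (hg : IsFilter g) (h : Fin (Q + 1) → ℝ) (α β : ℝ) (z : S) :
    ⁅b z, SS g H (dG (dg h))⁆ * P =
      ⁅b z, SS g H (dG (dg fun j : Fin (Q + 1) => h j - (α + β * (j : ℝ))))⁆ * P := by
  have e2 : ⁅b z, SS g H (dG (dg h))⁆ =
      (∫ t, g t * t) • ⁅b z, dG (dg fun j : Fin (Q + 1) => α + β * (j : ℝ))⁆ +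
        ⁅b z, SS g H (dG (dg fun j : Fin (Q + 1) => h j - (α + β * (j : ℝ))))⁆ := by
    rw [dG_split h α β, SS_add hg hD.hH, SS_of_commute (hD.commH α β)]
    simp only [Ring.lie_def, mul_add, add_mul, mul_smul_comm, smul_mul_assoc, smul_sub]
    abel
  rw [e2, add_mul, smul_mul_assoc, hD.lie_lin_mul, smul_zero, zero_add]

theorem LocData.lie_SS_dG_mul_le {g : ℝ → ℝ} (hg : IsFilter g) {h : Fin (Q + 1) → ℝ}
    {α β B : ℝ} {r : ℕ} (hB : 0 ≤ B) (z : S) (hT : Tang h α β (J z) (σ z) B r) :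
    ‖⁅b z, SS g H (dG (dg h))⁆ * P‖ ≤
      gconst g (em (2 * r + 7)) * (tangC Cm Dm r * (B * σ z ^ 2)) := by
  rw [hD.lie_SS_tang hg h α β z]
  set Y := dG (dg fun j : Fin (Q + 1) => h j - (α + β * (j : ℝ))) with hY
  have hcomm : ‖⁅b z, SS g H Y⁆‖ = ‖⁅SS g H Y, b z⁆‖ := by
    rw [← norm_neg]
    congr 1
    simp only [Ring.lie_def]
    abel
  have htc := tangC_nonneg (Dm := Dm) hD.Cm_nonneg r
  have hσ := hD.one_le_σ z
  set K : ℝ := tangC Cm Dm r * (B * σ z ^ 2) with hK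
  have hK0 : 0 ≤ K := by positivity
  have hφ : ∀ t, ‖⁅tau H t Y, b z⁆‖ ≤ (fun s => K * (1 + s) ^ em (2 * r + 7)) |t| := by
    intro t
    rw [norm_lie_tau hD.hH]
    have e3 : ‖⁅Y, tau H (-t) (b z)⁆‖ = ‖⁅tau H (-t) (b z), Y⁆‖ := by
      rw [← norm_neg]
      congr 1
      simp only [Ring.lie_def]
      abel
    rw [e3]
    have h0 := hD.lie_tau_tang_le hB z hT (-t)
    rw [abs_neg] at h0
    refine h0.trans (le_of_eq ?_)
    simp only [hK]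
    ring
  have hint : Integrable fun t => |t| * |g t| * (fun s => K * (1 + s) ^ em (2 * r + 7)) |t| := by
    have := (integrable_gconst hg (em (2 * r + 7))).const_mul K
    refine this.congr (Filter.Eventually.of_forall fun t => ?_)
    simp only
    ring
  have hmono : MonotoneOn (fun s : ℝ => K * (1 + s) ^ em (2 * r + 7)) (Set.Ici 0) := by
    intro s hs t ht hst
    have hs' : (0 : ℝ) ≤ s := hs
    simp only
    gcongr
  have hmain := norm_lie_SS_le hg hD.hH Y (b z) hint hmono hφ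
  calc ‖⁅b z, SS g H Y⁆ * P‖ ≤ ‖⁅b z, SS g H Y⁆‖ * ‖P‖ := norm_mul_le _ _
    _ ≤ ‖⁅b z, SS g H Y⁆‖ * 1 := by gcongr; exact hD.hP1
    _ = ‖⁅SS g H Y, b z⁆‖ := by rw [mul_one, hcomm]
    _ ≤ ∫ t, |t| * |g t| * (fun s => K * (1 + s) ^ em (2 * r + 7)) |t| := hmain
    _ = gconst g (em (2 * r + 7)) * K := by
        unfold gconst
        rw [← integral_mul_const]
        congr 1
        funext t
        simp only
        ring

end ring

end Crest.Agent.R340.LR667
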