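import Crest.Agent.R340.Rot3_303
import Crest.Agent.R340.Mom_814
import Crest.Agent.R340.Avg_814

/-!
# R340 (helper814): infinitesimal rotations

* `hasDerivAt_Gam` : derivative at `U 0 = 1` of `s ↦ Gam (U s)` is `dG A`, `A = U' 0`;
* `hasDerivAt_sp` : derivative of `sp Q (g s)` at `g 0 = 1` is `TT Q a`, `a = g' 0`;
* `commute_dG_TT` : an operator commuting with all `Rg Q g`, `g` unitary, commutes with
  `dG (TT Q a)` for every complex `2 × 2` matrix `a` (in particular with `L_z`, `J_±`).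
-/

set_option autoImplicit false
set_option linter.unusedSectionVars false

open Matrix Finset

namespace Crest.Agent.R340.Lie814

open Crest.Agent.R340.CS809 Crest.Agent.R340.Rot303 Crest.Agent.R340.Fock649
  Crest.Agent.R340.Gam303 Crest.Agent.R340.Mom814

noncomputable section

variable {ι : Type*} [LinearOrder ι] [Fintype ι]

/-! ### differentiability of `Gam` along a curve -/

lemma differentiableAt_list_prod {l : List ι} {f : ι → ℝ → Op ι} {s : ℝ}
    (h : ∀ i, DifferentiableAt ℝ (f i) s) :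
    DifferentiableAt ℝ (fun x => (l.map fun i => f i x).prod) s := by
  induction l with
  | nil => simp
  | cons a l ih =>
    simp only [List.map_cons, List.prod_cons]
    exact (h a).mul ih

lemma cr_mv_e (U : Matrix ι ι ℂ) (i : ι) : cr (mv U (e i)) = ∑ j, U j i • (d j : Op ι) := by
  unfold cr
  exact Finset.sum_congr rfl fun j _ => by rw [mv_e]

lemma differentiableAt_cr {U : ℝ → Matrix ι ι ℂ} {s : ℝ}
    (h : ∀ i j, DifferentiableAt ℝ (fun x => U x i j) s) (i : ι) :
    DifferentiableAt ℝ (fun x => cr (mv (U x) (e i))) s := by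
  simp only [cr_mv_e]
  exact DifferentiableAt.fun_sum fun j _ => (h j i).smul_const _

lemma differentiableAt_Gam {U : ℝ → Matrix ι ι ℂ} {s : ℝ}
    (h : ∀ i j, DifferentiableAt ℝ (fun x => U x i j) s) :
    DifferentiableAt ℝ (fun x => Gam (U x)) s := by
  unfold Gam prodCr
  exact DifferentiableAt.fun_sum fun S _ =>
    (differentiableAt_list_prod fun i => differentiableAt_cr h i).mul_const _

/-- two operators with the same value on the vacuum and the same commutators with the creators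
agree -/
theorem eq_of_comm_d {A B : Op ι} {X : ι → Op ι} (h0 : A vac = B vac)
    (hA : ∀ i, A * d i = d i * A + X i) (hB : ∀ i, B * d i = d i * B + X i) : A = B := by
  refine op_ext fun S => ?_
  induction S using Finset.induction_on_min with
  | empty => exact h0
  | insert a S h ih =>
    rw [ket_insert_min h, ← mul_ap, ← mul_ap, hA, hB, add_ap, add_ap, mul_ap, mul_ap, ih]

lemma dG_vac (A : Matrix ι ι ℂ) : dG A (vac : Fk ι) = 0 := by
  unfold dG vac
  rw [sum_ap]
  refine Finset.sum_eq_zero fun i _ => ?_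
  rw [sum_ap]
  refine Finset.sum_eq_zero fun j _ => ?_
  rw [smul_ap, mul_ap, c_ket]
  simp

/-- derivative of the second quantisation at the identity -/
theorem hasDerivAt_Gam {U : ℝ → Matrix ι ι ℂ} {A : Matrix ι ι ℂ} (h0 : U 0 = 1)
    (h : ∀ i j, HasDerivAt (fun x => U x i j) (A i j) 0) :
    HasDerivAt (fun x => Gam (U x)) (dG A) 0 := by
  obtain ⟨D, hD⟩ : ∃ D, HasDerivAt (fun x => Gam (U x)) D 0 :=
    ⟨_, (differentiableAt_Gam fun i j => (h i j).differentiableAt).hasDerivAt⟩
  have hv : D vac = 0 := by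
    have h1 : HasDerivAt (fun x => (Gam (U x)) (vac : Fk ι)) (D vac) 0 :=
      ((Avg814.evL (vac : Fk ι)).restrictScalars ℝ).hasFDerivAt.comp_hasDerivAt 0 hD
    simp only [Gam_vac] at h1
    exact h1.unique (hasDerivAt_const 0 _)
  have hc : ∀ i, D * d i = d i * D + cr (mv A (e i)) := by
    intro i
    have h1 : HasDerivAt (fun x => Gam (U x) * d i) (D * d i) 0 := hD.mul_const (d i)
    have h2 : HasDerivAt (fun x => cr (mv (U x) (e i))) (cr (mv A (e i))) 0 := by
      simp only [cr_mv_e]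
      exact HasDerivAt.fun_sum fun j _ => (h j i).smul_const _
    have h3 : HasDerivAt (fun x => cr (mv (U x) (e i)) * Gam (U x))
        (cr (mv A (e i)) * Gam (U 0) + cr (mv (U 0) (e i)) * D) 0 := h2.mul hD
    have h4 : (fun x => Gam (U x) * d i) = fun x => cr (mv (U x) (e i)) * Gam (U x) := by
      funext x
      exact Gam_mul_d (U x) i
    rw [h4] at h1
    rw [h1.unique h3, h0, Gam_one, mul_one, mv_one, cr_e, add_comm]
  have hD' : D = dG A := by
    refine eq_of_comm_d (X := fun i => cr (mv A (e i))) ?_ hc fun i => ?_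
    · rw [hv, dG_vac]
    · have := dG_comm_cr A (e i)
      rw [cr_e] at this
      rw [← this]
      abel
  rwa [hD'] at hD

/-! ### derivative of the spin representation -/

lemma differentiableAt_coeff_mul {p q : ℝ → Polynomial ℂ} {s : ℝ}
    (hp : ∀ n, DifferentiableAt ℝ (fun x => (p x).coeff n) s)
    (hq : ∀ n, DifferentiableAt ℝ (fun x => (q x).coeff n) s) (n : ℕ) :
    DifferentiableAt ℝ (fun x => (p x * q x).coeff n) s := by
  simp only [Polynomial.coeff_mul]
  exact DifferentiableAt.fun_sum fun x _ => (hp _).mul (hq _)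

lemma differentiableAt_coeff_pow {p : ℝ → Polynomial ℂ} {s : ℝ}
    (hp : ∀ n, DifferentiableAt ℝ (fun x => (p x).coeff n) s) (k n : ℕ) :
    DifferentiableAt ℝ (fun x => (p x ^ k).coeff n) s := by
  induction k generalizing n with
  | zero => simp only [pow_zero]; exact differentiableAt_const _
  | succ k ih => simp only [pow_succ]; exact differentiableAt_coeff_mul ih hp n

lemma differentiableAt_coeff_lf {g : ℝ → Matrix (Fin 2) (Fin 2) ℂ} {s : ℝ}
    (h : ∀ i j, DifferentiableAt ℝ (fun x => g x i j) s) (i : Fin 2) (n : ℕ) :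
    DifferentiableAt ℝ (fun x => (lf (g x) i).coeff n) s := by
  simp only [lf, Polynomial.coeff_add, Polynomial.coeff_C, Polynomial.coeff_C_mul]
  refine DifferentiableAt.add ?_ ((h i 1).mul_const _)
  split_ifs
  · exact h i 0
  · exact differentiableAt_const _

lemma differentiableAt_sp (Q : ℕ) {g : ℝ → Matrix (Fin 2) (Fin 2) ℂ} {s : ℝ}
    (h : ∀ i j, DifferentiableAt ℝ (fun x => g x i j) s) (j k : Fin (Q + 1)) :
    DifferentiableAt ℝ (fun x => sp Q (g x) j k) s := by
  simp only [sp, Matrix.of_apply, rp]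
  refine DifferentiableAt.const_mul ?_ _
  exact differentiableAt_coeff_mul (differentiableAt_coeff_pow (differentiableAt_coeff_lf h 0) _)
    (differentiableAt_coeff_pow (differentiableAt_coeff_lf h 1) _) _

/-- derivative of the spin representation at the identity -/
theorem hasDerivAt_sp (Q : ℕ) {g : ℝ → Matrix (Fin 2) (Fin 2) ℂ} {a : Matrix (Fin 2) (Fin 2) ℂ}
    (h0 : g 0 = 1) (h : ∀ i j, HasDerivAt (fun x => g x i j) (a i j) 0) (j k : Fin (Q + 1)) :
    HasDerivAt (fun x => sp Q (g x) j k) (TT Q a j k) 0 := by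
  have hd : ∀ j k, HasDerivAt (fun x => sp Q (g x) j k)
      (deriv (fun x => sp Q (g x) j k) 0) 0 := fun j k =>
    (differentiableAt_sp Q (fun i j => (h i j).differentiableAt) j k).hasDerivAt
  set M : Matrix (Fin (Q + 1)) (Fin (Q + 1)) ℂ :=
    Matrix.of fun j k => deriv (fun x => sp Q (g x) j k) 0 with hM
  have key : M = TT Q a := by
    refine ext_kap fun ζ => ?_
    rw [TT_mulVec_kap]
    funext j
    have h1 : HasDerivAt (fun x => (sp Q (g x) *ᵥ kap Q ζ) j) ((M *ᵥ kap Q ζ) j) 0 := by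
      simp only [mulVec, dotProduct]
      exact HasDerivAt.fun_sum fun k _ => (hd j k).mul_const (kap Q ζ k)
    have hη : ∀ i, HasDerivAt (fun x => (g x *ᵥ ζ) i) ((a *ᵥ ζ) i) 0 := by
      intro i
      simp only [mulVec, dotProduct]
      exact HasDerivAt.fun_sum fun k _ => (h i k).mul_const (ζ k)
    have h2 : HasDerivAt (fun x => kap Q (g x *ᵥ ζ) j) (dk Q ζ (a *ᵥ ζ) j) 0 := by
      have h3 := (hη 0).pow (Q - (j : ℕ))
      have h4 := (hη 1).pow (j : ℕ)
      have h5 := (h3.mul h4).const_mul (((sb Q j : ℝ) : ℂ))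
      simp only [Pi.pow_apply, Pi.mul_apply, h0, one_mulVec] at h5
      exact h5
    have h6 : (fun x => (sp Q (g x) *ᵥ kap Q ζ) j) = fun x => kap Q (g x *ᵥ ζ) j := by
      funext x
      rw [sp_mulVec_kap]
    rw [h6] at h1
    exact h1.unique h2
  rw [← key]
  exact hd j k

/-- derivative of the rotations on Fock space -/
theorem hasDerivAt_Rg (Q : ℕ) {g : ℝ → Matrix (Fin 2) (Fin 2) ℂ} {a : Matrix (Fin 2) (Fin 2) ℂ}
    (h0 : g 0 = 1) (h : ∀ i j, HasDerivAt (fun x => g x i j) (a i j) 0) :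
    HasDerivAt (fun x => Rg Q (g x)) (dG (TT Q a)) 0 :=
  hasDerivAt_Gam (by rw [h0, sp_one]) fun j k => hasDerivAt_sp Q h0 h j k

/-! ### linearity of `TT` -/

lemma TT_add (Q : ℕ) (a b : Matrix (Fin 2) (Fin 2) ℂ) : TT Q (a + b) = TT Q a + TT Q b := by
  refine ext_kap fun ζ => ?_
  rw [add_mulVec, TT_mulVec_kap, TT_mulVec_kap, TT_mulVec_kap]
  funext j
  simp only [dk, add_mulVec, Pi.add_apply]
  ring

lemma TT_smul (Q : ℕ) (z : ℂ) (a : Matrix (Fin 2) (Fin 2) ℂ) : TT Q (z • a) = z • TT Q a := by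
  refine ext_kap fun ζ => ?_
  rw [smul_mulVec, TT_mulVec_kap, TT_mulVec_kap]
  funext j
  simp only [dk, smul_mulVec, Pi.smul_apply, smul_eq_mul]
  ring

lemma TT_E11 (Q : ℕ) : TT Q E11 = JJ Q := by
  refine ext_kap fun ζ => ?_
  rw [TT_mulVec_kap, JJ_mulVec_kap]

/-! ### one-parameter subgroups -/

/-- `diag (e^{is}, 1)` -/
def c1 (s : ℝ) : Matrix (Fin 2) (Fin 2) ℂ := !![Complex.exp (s * Complex.I), 0; 0, 1]
/-- `diag (1, e^{is})` -/
def c2 (s : ℝ) : Matrix (Fin 2) (Fin 2) ℂ := !![1, 0; 0, Complex.exp (s * Complex.I)]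
/-- real rotations -/
def c3 (s : ℝ) : Matrix (Fin 2) (Fin 2) ℂ :=
  !![(Real.cos s : ℂ), -(Real.sin s : ℂ); (Real.sin s : ℂ), (Real.cos s : ℂ)]
/-- the other rotations -/
def c4 (s : ℝ) : Matrix (Fin 2) (Fin 2) ℂ :=
  !![(Real.cos s : ℂ), Complex.I * (Real.sin s : ℂ); Complex.I * (Real.sin s : ℂ),
    (Real.cos s : ℂ)]

lemma exp_mul_conj (s : ℝ) : Complex.exp (s * Complex.I) *
    (starRingEnd ℂ) (Complex.exp (s * Complex.I)) = 1 := by
  rw [← Complex.exp_conj, ← Complex.exp_add]
  simp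

lemma cs_sq (s : ℝ) : (Real.cos s : ℂ) * (Real.cos s : ℂ) + (Real.sin s : ℂ) * (Real.sin s : ℂ) =
    1 := by
  have := Real.cos_sq_add_sin_sq s
  have h : ((Real.cos s ^ 2 + Real.sin s ^ 2 : ℝ) : ℂ) = 1 := by rw [this]; simp
  rw [← h]
  push_cast
  ring

lemma c1_mem (s : ℝ) : c1 s ∈ Matrix.unitaryGroup (Fin 2) ℂ := by
  rw [Matrix.mem_unitaryGroup_iff, Matrix.star_eq_conjTranspose]
  ext i j
  fin_cases i <;> fin_cases j <;>
    simp [c1, Matrix.mul_apply, Fin.sum_univ_two, Matrix.conjTranspose_apply, -Complex.ofReal_cos,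
      -Complex.ofReal_sin, exp_mul_conj]

lemma c2_mem (s : ℝ) : c2 s ∈ Matrix.unitaryGroup (Fin 2) ℂ := by
  rw [Matrix.mem_unitaryGroup_iff, Matrix.star_eq_conjTranspose]
  ext i j
  fin_cases i <;> fin_cases j <;>
    simp [c2, Matrix.mul_apply, Fin.sum_univ_two, Matrix.conjTranspose_apply, exp_mul_conj]

lemma c3_mem (s : ℝ) : c3 s ∈ Matrix.unitaryGroup (Fin 2) ℂ := by
  rw [Matrix.mem_unitaryGroup_iff, Matrix.star_eq_conjTranspose]
  have h := cs_sq s
  ext i j
  fin_cases i <;> fin_cases j <;>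
    simp only [c3, Matrix.mul_apply, Fin.sum_univ_two, Matrix.conjTranspose_apply,
      Complex.star_def, Fin.zero_eta, Fin.mk_one, Matrix.of_apply, Matrix.cons_val',
      Matrix.cons_val_zero, Matrix.cons_val_one, Matrix.cons_val_fin_one, map_neg,
      Complex.conj_ofReal, Matrix.one_apply_eq, ne_eq, zero_ne_one, one_ne_zero,
      not_false_eq_true, Matrix.one_apply_ne]
  · linear_combination h
  · ring
  · ring
  · linear_combination h

lemma c4_mem (s : ℝ) : c4 s ∈ Matrix.unitaryGroup (Fin 2) ℂ := by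
  rw [Matrix.mem_unitaryGroup_iff, Matrix.star_eq_conjTranspose]
  have h := cs_sq s
  have hI := Complex.I_mul_I
  ext i j
  fin_cases i <;> fin_cases j <;>
    simp only [c4, Matrix.mul_apply, Fin.sum_univ_two, Matrix.conjTranspose_apply,
      Complex.star_def, Fin.zero_eta, Fin.mk_one, Matrix.of_apply, Matrix.cons_val',
      Matrix.cons_val_zero, Matrix.cons_val_one, Matrix.cons_val_fin_one, map_mul,
      Complex.conj_ofReal, Complex.conj_I, Matrix.one_apply_eq, ne_eq, zero_ne_one, one_ne_zero,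
      not_false_eq_true, Matrix.one_apply_ne]
  · linear_combination h - (Real.sin s : ℂ) * (Real.sin s : ℂ) * hI
  · ring
  · ring
  · linear_combination h - (Real.sin s : ℂ) * (Real.sin s : ℂ) * hI

lemma c1_zero : c1 0 = 1 := by
  ext i j
  fin_cases i <;> fin_cases j <;> simp [c1]

lemma c2_zero : c2 0 = 1 := by
  ext i j
  fin_cases i <;> fin_cases j <;> simp [c2]

lemma c3_zero : c3 0 = 1 := by
  ext i j
  fin_cases i <;> fin_cases j <;> simp [c3]

lemma c4_zero : c4 0 = 1 := by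
  ext i j
  fin_cases i <;> fin_cases j <;> simp [c4]

lemma hasDerivAt_expI : HasDerivAt (fun s : ℝ => Complex.exp (s * Complex.I)) Complex.I 0 := by
  have h := ((Complex.ofRealCLM.hasDerivAt (x := (0 : ℝ))).mul_const Complex.I).cexp
  simpa using h

lemma hasDerivAt_cosC : HasDerivAt (fun s : ℝ => (Real.cos s : ℂ)) 0 0 := by
  have h := (Real.hasDerivAt_cos 0).ofReal_comp
  simpa using h

lemma hasDerivAt_sinC : HasDerivAt (fun s : ℝ => (Real.sin s : ℂ)) 1 0 := by
  have h := (Real.hasDerivAt_sin 0).ofReal_comp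
  simpa using h

/-- a linear condition on `a` which holds for all velocities of curves in the group holds for
every `a` -/
theorem forall_of_curves {P : Matrix (Fin 2) (Fin 2) ℂ → Prop}
    (hadd : ∀ a b, P a → P b → P (a + b)) (hsmul : ∀ (z : ℂ) a, P a → P (z • a))
    (hcurve : ∀ (g : ℝ → Matrix (Fin 2) (Fin 2) ℂ) (a : Matrix (Fin 2) (Fin 2) ℂ),
      (∀ s, g s ∈ Matrix.unitaryGroup (Fin 2) ℂ) → g 0 = 1 →
      (∀ i j, HasDerivAt (fun x => g x i j) (a i j) 0) → P a)
    (a : Matrix (Fin 2) (Fin 2) ℂ) : P a := by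
  have p1 : P !![Complex.I, 0; 0, 0] := hcurve c1 _ c1_mem c1_zero (by
    intro i j
    fin_cases i <;> fin_cases j
    · exact hasDerivAt_expI
    · exact hasDerivAt_const 0 _
    · exact hasDerivAt_const 0 _
    · exact hasDerivAt_const 0 _)
  have p2 : P !![0, 0; 0, Complex.I] := hcurve c2 _ c2_mem c2_zero (by
    intro i j
    fin_cases i <;> fin_cases j
    · exact hasDerivAt_const 0 _
    · exact hasDerivAt_const 0 _
    · exact hasDerivAt_const 0 _
    · exact hasDerivAt_expI)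
  have p3 : P !![0, -1; 1, 0] := hcurve c3 _ c3_mem c3_zero (by
    intro i j
    fin_cases i <;> fin_cases j
    · exact hasDerivAt_cosC
    · exact hasDerivAt_sinC.neg
    · exact hasDerivAt_sinC
    · exact hasDerivAt_cosC)
  have p4 : P !![0, Complex.I; Complex.I, 0] := hcurve c4 _ c4_mem c4_zero (by
    intro i j
    have h := hasDerivAt_sinC.const_mul Complex.I
    rw [mul_one] at h
    fin_cases i <;> fin_cases j
    · exact hasDerivAt_cosC
    · exact h
    · exact h
    · exact hasDerivAt_cosC)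
  have e : a = (-Complex.I * a 0 0) • !![Complex.I, 0; 0, 0] +
      (-Complex.I * a 1 1) • !![0, 0; 0, Complex.I] +
      ((a 1 0 - a 0 1) / 2) • !![0, -1; 1, 0] +
      (-Complex.I * (a 1 0 + a 0 1) / 2) • !![0, Complex.I; Complex.I, 0] := by
    have hI := Complex.I_mul_I
    ext i j
    fin_cases i <;> fin_cases j <;>
      simp only [Fin.zero_eta, Fin.mk_one, Matrix.add_apply, Matrix.smul_apply, Matrix.of_apply,
        Matrix.cons_val', Matrix.cons_val_zero, Matrix.cons_val_one, Matrix.cons_val_fin_one,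
        smul_eq_mul]
    · linear_combination a 0 0 * hI
    · linear_combination ((a 1 0 + a 0 1) / 2) * hI
    · linear_combination ((a 1 0 + a 0 1) / 2) * hI
    · linear_combination a 1 1 * hI
  rw [e]
  exact hadd _ _ (hadd _ _ (hadd _ _ (hsmul _ _ p1) (hsmul _ _ p2)) (hsmul _ _ p3))
    (hsmul _ _ p4)

/-- **Commutant.** -/
theorem commute_dG_TT {Q : ℕ} {A : Op (Fin (Q + 1))}
    (hA : ∀ g ∈ Matrix.unitaryGroup (Fin 2) ℂ, A * Rg Q g = Rg Q g * A)
    (a : Matrix (Fin 2) (Fin 2) ℂ) : A * dG (TT Q a) = dG (TT Q a) * A := by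
  refine forall_of_curves (P := fun a => A * dG (TT Q a) = dG (TT Q a) * A) ?_ ?_ ?_ a
  · intro a b ha hb
    simp only [TT_add, dG_add, mul_add, add_mul, ha, hb]
  · intro z a ha
    simp only [TT_smul, dG_smul, mul_smul_comm, smul_mul_assoc, ha]
  · intro g a hg h0 h
    have h1 := hasDerivAt_Rg Q h0 h
    have h2 := h1.const_mul A
    have h3 := h1.mul_const A
    have h4 : (fun x => A * Rg Q (g x)) = fun x => Rg Q (g x) * A := by
      funext x
      exact hA _ (hg x)
    rw [h4] at h2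
    exact h2.unique h3

/-- an invariant subspace is invariant under the infinitesimal rotations -/
theorem dG_TT_mem {Q : ℕ} {W : Submodule ℂ (Fk (Fin (Q + 1)))}
    (hW : ∀ g ∈ Matrix.unitaryGroup (Fin 2) ℂ, ∀ ψ ∈ W, Rg Q g ψ ∈ W)
    (a : Matrix (Fin 2) (Fin 2) ℂ) {ψ : Fk (Fin (Q + 1))} (hψ : ψ ∈ W) :
    dG (TT Q a) ψ ∈ W := by
  refine forall_of_curves (P := fun a => dG (TT Q a) ψ ∈ W) ?_ ?_ ?_ a
  · intro a b ha hb
    simp only [TT_add, dG_add, add_ap]
    exact W.add_mem ha hb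
  · intro z a ha
    simp only [TT_smul, dG_smul, smul_ap]
    exact W.smul_mem z ha
  · intro g a hg h0 h
    have h1 := hasDerivAt_Rg Q h0 h
    have h2 : HasDerivAt (fun x => (Rg Q (g x)) ψ) (dG (TT Q a) ψ) 0 :=
      ((Avg814.evL ψ).restrictScalars ℝ).hasFDerivAt.comp_hasDerivAt 0 h1
    have hcl : IsClosed (W : Set (Fk (Fin (Q + 1)))) := W.closed_of_finiteDimensional
    rw [hasDerivAt_iff_tendsto_slope] at h2
    refine hcl.mem_of_tendsto h2 (Filter.Eventually.of_forall fun x => ?_)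
    rw [slope_def_module]
    have h5 : (Rg Q (g x)) ψ - (Rg Q (g 0)) ψ ∈ W := W.sub_mem (hW _ (hg x) ψ hψ)
      (hW _ (hg 0) ψ hψ)
    have h6 : (x - 0)⁻¹ • ((Rg Q (g x)) ψ - (Rg Q (g 0)) ψ) =
        (((x - 0)⁻¹ : ℝ) : ℂ) • ((Rg Q (g x)) ψ - (Rg Q (g 0)) ψ) := (Complex.coe_smul _ _).symm
    rw [h6]
    exact W.smul_mem _ h5

end

end Crest.Agent.R340.Lie814
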