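import Crest.Agent.R340.KnI2_249
import Crest.Agent.R340.Cert_132

/-!
# S0533, linear part of the certificate (helper120): channel expansions

Closed forms of the `kap` polynomials of `Pl1_249` and the expansions of the one-body term `DD`, the
four-body term `TT` in the channel weights.
-/

set_option autoImplicit false
open scoped BigOperators
open Finset

namespace Crest.Agent.R340.Lin120

open Crest.Agent.R340.Kn249 Crest.Agent.R340.Pl249

section kap
variable {R : Type*} [CommRing R]

theorem kap_left (α : R) (m K : ℕ) : kap α m K 0 (m + K) = (-1) ^ m := by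
  induction K with
  | zero =>
    induction m with
    | zero => simp [kap_zero_zero]
    | succ m ih =>
      have ih' : kap α m 0 0 m = (-1) ^ m := ih
      show kap α (m + 1) 0 0 (m + 1) = (-1) ^ (m + 1)
      rw [kap_succ_zero, sh_zero_succ, ih', pow_succ]
      ring
  | succ K ih =>
    rw [kap_succ, show m + (K + 1) = (m + K) + 1 from rfl, sh_zero_succ, ih, one_mul]

theorem kap_right (α : R) (m K : ℕ) : kap α m K (m + K) 0 = α ^ K := by
  induction K with
  | zero =>
    induction m with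
    | zero => simp [kap_zero_zero]
    | succ m ih =>
      have ih' : kap α m 0 m 0 = α ^ 0 := ih
      show kap α (m + 1) 0 (m + 1) 0 = α ^ 0
      rw [kap_succ_zero, sh_succ_zero, ih', one_mul]
  | succ K ih =>
    rw [kap_succ, show m + (K + 1) = (m + K) + 1 from rfl, sh_succ_zero, ih, pow_succ]
    ring

theorem kap_one_zero (α : R) (m : ℕ) : kap α (m + 1) 0 m 1 = -(m + 1 : R) := by
  induction m with
  | zero =>
    rw [kap_succ_zero]
    simp [kap_zero_zero]
  | succ m ih =>
    rw [kap_succ_zero, sh_succ_succ, ih]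
    have h := kap_right α (m + 1) 0
    rw [add_zero, pow_zero] at h
    rw [h]
    push_cast
    ring

/-- `2 κ_m(q, 1) = 2^K (K - 2 m)` for `q + 1 = m + K`, in the case `α = 2`. -/
theorem kap_two_one (m K q : ℕ) (h : q + 1 = m + K) :
    2 * kap (2 : R) m K q 1 = 2 ^ K * ((K : R) - 2 * m) := by
  induction K generalizing q with
  | zero =>
    obtain rfl : m = q + 1 := by omega
    rw [kap_one_zero]
    push_cast
    ring
  | succ K ih =>
    rw [kap_succ]
    rcases q with _ | q
    · have hm : m = 0 := by omega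
      have hK : K = 0 := by omega
      subst hm; subst hK
      simp [kap_zero_zero]
    · rw [sh_succ_succ]
      have h1 := ih q (by omega)
      have h2 := kap_right (2 : R) m K
      have h3 : m + K = q + 1 := by omega
      rw [h3] at h2
      rw [h2]
      push_cast
      linear_combination 2 * h1

end kap

/-! ### expansions -/

/-- extension of the channel sum to a fixed range -/
theorem rhs_range (α c : ℝ) (g : ℕ → ℝ) (q k q' j N : ℕ) (h : q + k = q' + j) (hN : q + k < N) :
    rhs α c g q k q' j = ∑ m ∈ range N, g m * (if m ≤ q + k then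
      kap α m (q + k - m) q k * kap α m (q + k - m) q' j * co α c (q + k - m) else 0) := by
  unfold rhs
  rw [if_pos h]
  have hsub : range (q + k + 1) ⊆ range N := by
    intro m hm; simp only [mem_range] at hm ⊢; omega
  rw [← Finset.sum_subset hsub]
  · refine Finset.sum_congr rfl fun m hm => ?_
    rw [if_pos (by simpa [Nat.lt_succ_iff] using hm)]
    ring
  · intro m _ hm
    rw [if_neg (by simpa [Nat.lt_succ_iff] using hm), mul_zero]

/-- `b(n,m) = n (n-1) ... (n-m+1) / 3^(n-m)` -/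
noncomputable def bb (n m : ℕ) : ℝ := (n.descFactorial m : ℝ) / 3 ^ (n - m)

theorem descF_eq {n m : ℕ} (h : m ≤ n) :
    (n.descFactorial m : ℝ) = (n.factorial : ℝ) / ((n - m).factorial : ℝ) := by
  have h1 : ((n - m).factorial : ℝ) ≠ 0 := by exact_mod_cast Nat.factorial_ne_zero _
  rw [eq_div_iff h1]
  exact_mod_cast (by rw [mul_comm]; exact Nat.factorial_mul_descFactorial h :
    n.descFactorial m * (n - m).factorial = n.factorial)

theorem D_term1 (g : ℕ → ℝ) (p N : ℕ) (hN : p + 1 < N) :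
    ((p + 1).factorial : ℝ) / 2 ^ p * rhs 2 1 g 0 (p + 1) p 1 =
      ∑ m ∈ range N, g m * ((-1) ^ m / 2 ^ m * (((p : ℝ) + 1 - 3 * m) * bb (p + 1) m)) := by
  rw [rhs_range 2 1 g 0 (p + 1) p 1 N (by omega) (by omega), Finset.mul_sum]
  refine Finset.sum_congr rfl fun m _ => ?_
  by_cases hm : m ≤ 0 + (p + 1)
  · rw [if_pos hm]
    have hm' : m ≤ p + 1 := by omega
    obtain ⟨K, hK⟩ : ∃ K, p + 1 = m + K := ⟨p + 1 - m, by omega⟩
    have e0 : 0 + (p + 1) - m = K := by omega
    have e1 : p + 1 - m = K := by omega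
    have hl : kap (2 : ℝ) m K 0 (p + 1) = (-1) ^ m := by rw [hK]; exact kap_left _ _ _
    have ho : 2 * kap (2 : ℝ) m K p 1 = 2 ^ K * ((K : ℝ) - 2 * m) := kap_two_one m K p hK
    have hp : ((p : ℝ) + 1) = m + K := by exact_mod_cast hK
    have h2 : (2 : ℝ) ^ p * 2 = 2 ^ m * 2 ^ K := by rw [← pow_succ, ← pow_add, hK]
    rw [e0, hl, bb, descF_eq hm', e1, co, hp]
    have hf : (K.factorial : ℝ) ≠ 0 := by exact_mod_cast Nat.factorial_ne_zero _
    have h3 : ((2 : ℝ) + 1) ^ K = 3 ^ K := by norm_num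
    rw [h3, one_pow]
    have hx : kap (2 : ℝ) m K p 1 = 2 ^ K * ((K : ℝ) - 2 * m) / 2 := by linarith
    have hy : (2 : ℝ) ^ p = 2 ^ m * 2 ^ K / 2 := by linarith
    rw [hx, hy]
    field_simp
    ring
  · rw [if_neg hm, mul_zero, mul_zero, bb, Nat.descFactorial_of_lt (by omega)]
    simp

theorem D_term2 (g : ℕ → ℝ) (p N : ℕ) (hN : p < N) :
    ((p : ℝ) - 1) * (p.factorial : ℝ) / 2 ^ p * rhs 2 1 g 0 p p 0 =
      ∑ m ∈ range N, g m * ((-1) ^ m / 2 ^ m * (((p : ℝ) - 1) * bb p m)) := by
  rw [rhs_range 2 1 g 0 p p 0 N (by omega) (by omega), Finset.mul_sum]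
  refine Finset.sum_congr rfl fun m _ => ?_
  by_cases hm : m ≤ 0 + p
  · rw [if_pos hm]
    have hm' : m ≤ p := by omega
    obtain ⟨K, rfl⟩ : ∃ K, p = m + K := ⟨p - m, by omega⟩
    have e0 : 0 + (m + K) - m = K := by omega
    have e1 : m + K - m = K := by omega
    rw [e0, kap_left, kap_right, bb, descF_eq hm', e1, co, one_pow]
    have hf : (K.factorial : ℝ) ≠ 0 := by exact_mod_cast Nat.factorial_ne_zero _
    have h3 : ((2 : ℝ) + 1) ^ K = 3 ^ K := by norm_num
    rw [h3, pow_add]
    field_simp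
  · rw [if_neg hm, mul_zero, mul_zero, bb, Nat.descFactorial_of_lt (by omega)]
    simp

/-- channel coefficient of `DD` -/
noncomputable def Dc (P1 m : ℕ) : ℝ :=
  (-1) ^ m / 2 ^ m * ∑ p ∈ range P1,
    (((p : ℝ) + 1 - 3 * m) * bb (p + 1) m - ((p : ℝ) - 1) * bb p m)

theorem DD_eq (P1 : ℕ) (g : ℕ → ℝ) :
    DD P1 (rhs 2 1 g) = ∑ m ∈ range (P1 + 1), g m * Dc P1 m := by
  unfold DD
  have h : ∀ p ∈ range P1, (((p + 1).factorial : ℝ) / 2 ^ p * rhs 2 1 g 0 (p + 1) p 1 -
      ((p : ℝ) - 1) * (p.factorial : ℝ) / 2 ^ p * rhs 2 1 g 0 p p 0) =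
      ∑ m ∈ range (P1 + 1), g m * ((-1) ^ m / 2 ^ m *
        (((p : ℝ) + 1 - 3 * m) * bb (p + 1) m - ((p : ℝ) - 1) * bb p m)) := by
    intro p hp
    have hp' : p < P1 := by simpa using hp
    rw [D_term1 g p (P1 + 1) (by omega), D_term2 g p (P1 + 1) (by omega),
      ← Finset.sum_sub_distrib]
    refine Finset.sum_congr rfl fun m _ => ?_
    ring
  rw [Finset.sum_congr rfl h, Finset.sum_comm]
  refine Finset.sum_congr rfl fun m _ => ?_
  rw [Dc, ← Finset.mul_sum, ← Finset.mul_sum]

/-- channel coefficient of `TT` -/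
noncomputable def Tc (pw r : ℕ) : ℝ := (-1) ^ r * ∑ p ∈ range pw, (p.descFactorial r : ℝ) / 2 ^ p

theorem TT_eq (pw : ℕ) (f : ℕ → ℝ) :
    TT pw (rhs 1 2 f) = ∑ r ∈ range pw, f r * Tc pw r := by
  unfold TT
  have h : ∀ p ∈ range pw, (p.factorial : ℝ) / 2 ^ p * rhs 1 2 f 0 p p 0 =
      ∑ r ∈ range pw, f r * ((-1) ^ r * ((p.descFactorial r : ℝ) / 2 ^ p)) := by
    intro p hp
    have hp' : p < pw := by simpa using hp
    rw [rhs_range 1 2 f 0 p p 0 pw (by omega) (by omega), Finset.mul_sum]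
    refine Finset.sum_congr rfl fun m _ => ?_
    by_cases hm : m ≤ 0 + p
    · rw [if_pos hm]
      obtain ⟨K, rfl⟩ : ∃ K, p = m + K := ⟨p - m, by omega⟩
      have e0 : 0 + (m + K) - m = K := by omega
      have e1 : m + K - m = K := by omega
      rw [e0, kap_left, kap_right, descF_eq (by omega : m ≤ m + K), e1, co, one_pow]
      have hf : (K.factorial : ℝ) ≠ 0 := by exact_mod_cast Nat.factorial_ne_zero _
      have h3 : ((1 : ℝ) + 1) ^ K = 2 ^ K := by norm_num
      rw [h3]
      field_simp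
    · rw [if_neg hm, mul_zero, mul_zero, Nat.descFactorial_of_lt (by omega)]
      simp
  rw [Finset.sum_congr rfl h, Finset.sum_comm]
  refine Finset.sum_congr rfl fun m _ => ?_
  rw [Tc, ← Finset.mul_sum, ← Finset.mul_sum]

end Crest.Agent.R340.Lin120
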