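import Crest.Agent.R340.Fock_649
import Crest.Agent.R340.LR1_667

/-!
# R340 (helper163), O2 part 1: double commutator bound for `H = ∫ B_z^* B_z dν(z)`

Abstract version. `a k z` (`k = 0, 1`) are the frame vectors (coherent vectors), `v k z` the vectors of
the local pair annihilators `bb v z = an (v 1 z) * an (v 0 z)`.
If `x = ∫ ⟨a 0 y, x⟩ a 0 y dμ(y)` (resolution of the identity) then the double commutator of
`H = ∫ star (bb v z) * bb v z dν(z)` with a generator is dominated by the commutator profile, with the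
kernel `kap w y = 3 B² ∫ (∑ |⟨a k w, v l z⟩|) (∑ |⟨a 0 y, v l z⟩|) dν(z)`.
-/

set_option autoImplicit false
set_option linter.unusedSectionVars false

open MeasureTheory
open scoped ENNReal

namespace Crest.Agent.R340.LocT163

open Crest.Agent.R340.Fock649 Crest.Agent.R340.LR667

variable {ι : Type*} [Fintype ι] [LinearOrder ι]

/-! ### algebra -/

/-- pair annihilator of two vectors -/
noncomputable def pb (v1 v0 : L ι) : Op ι := an v1 * an v0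

/-- `B^* B` -/
noncomputable def pbb (v1 v0 : L ι) : Op ι := star (pb v1 v0) * pb v1 v0

theorem pbb_eq (v1 v0 : L ι) : pbb v1 v0 = cr v0 * cr v1 * (an v1 * an v0) := by
  rw [pbb, pb, star_mul, star_an, star_an]

theorem star_pbb (v1 v0 : L ι) : star (pbb v1 v0) = pbb v1 v0 := by
  rw [pbb, star_mul, star_star]

theorem lie_pbb_an (v1 v0 u : L ι) : ⁅pbb v1 v0, an u⁆ =
    (inner ℂ u v1 : ℂ) • (cr v0 * an v1 * an v0) - (inner ℂ u v0 : ℂ) • (cr v1 * an v1 * an v0) := by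
  have h1 : cr v1 * an u = (inner ℂ u v1 : ℂ) • (1 : Op ι) - an u * cr v1 :=
    eq_sub_of_add_eq (cr_an v1 u)
  have h0 : cr v0 * an u = (inner ℂ u v0 : ℂ) • (1 : Op ι) - an u * cr v0 :=
    eq_sub_of_add_eq (cr_an v0 u)
  have a1 : an v1 * an u = - (an u * an v1) := eq_neg_of_add_eq_zero_left (an_an v1 u)
  have a0 : an v0 * an u = - (an u * an v0) := eq_neg_of_add_eq_zero_left (an_an v0 u)
  have e1 : an v1 * an v0 * an u = an u * (an v1 * an v0) := by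
    rw [mul_assoc, a0, mul_neg, ← mul_assoc, a1]; simp [mul_assoc]
  have e2 : cr v0 * cr v1 * an u = (inner ℂ u v1 : ℂ) • cr v0 - (inner ℂ u v0 : ℂ) • cr v1 +
      an u * (cr v0 * cr v1) := by
    rw [mul_assoc, h1, mul_sub, ← mul_assoc, h0, sub_mul]
    simp only [mul_smul_comm, smul_mul_assoc, mul_one, one_mul, mul_assoc]
    abel
  rw [pbb_eq, Ring.lie_def]
  calc cr v0 * cr v1 * (an v1 * an v0) * an u - an u * (cr v0 * cr v1 * (an v1 * an v0))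
      = (cr v0 * cr v1 * an u) * (an v1 * an v0) - an u * (cr v0 * cr v1) * (an v1 * an v0) := by
        rw [mul_assoc (cr v0 * cr v1), e1]; simp only [mul_assoc]
    _ = _ := by
        rw [e2]
        simp only [add_mul, sub_mul, smul_mul_assoc, mul_assoc]
        abel

theorem lie_pbb_cr (v1 v0 u : L ι) : ⁅pbb v1 v0, cr u⁆ =
    (inner ℂ v0 u : ℂ) • (cr v0 * cr v1 * an v1) - (inner ℂ v1 u : ℂ) • (cr v0 * cr v1 * an v0) := by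
  have h : ⁅pbb v1 v0, cr u⁆ = - star ⁅pbb v1 v0, an u⁆ := by
    rw [Ring.lie_def, Ring.lie_def, star_sub, star_mul, star_mul, star_pbb, star_an]
    abel
  rw [h, lie_pbb_an, star_sub, star_smul, star_smul]
  simp only [star_mul, star_an, star_cr]
  rw [← starRingEnd_apply, ← starRingEnd_apply, inner_conj_symm, inner_conj_symm]
  simp only [mul_assoc]
  abel

theorem lie_mul' (X Y Z : Op ι) : ⁅X, Y * Z⁆ = ⁅X, Y⁆ * Z + Y * ⁅X, Z⁆ := by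
  simp only [Ring.lie_def, mul_sub, sub_mul, mul_assoc]
  abel

theorem enorm_mul_le' (Y Z : Op ι) : ‖Y * Z‖ₑ ≤ ‖Y‖ₑ * ‖Z‖ₑ := by
  simp only [enorm_eq_nnnorm]
  exact_mod_cast nnnorm_mul_le Y Z

theorem lie3_le {X a b c : Op ι} {B p : ℝ≥0∞} (ha : ‖a‖ₑ ≤ B) (hb : ‖b‖ₑ ≤ B) (hc : ‖c‖ₑ ≤ B)
    (hpa : ‖⁅X, a⁆‖ₑ ≤ p) (hpb : ‖⁅X, b⁆‖ₑ ≤ p) (hpc : ‖⁅X, c⁆‖ₑ ≤ p) :
    ‖⁅X, a * b * c⁆‖ₑ ≤ 3 * B ^ 2 * p := by
  have e : ⁅X, a * b * c⁆ = ⁅X, a⁆ * (b * c) + a * ⁅X, b⁆ * c + (a * b) * ⁅X, c⁆ := by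
    rw [lie_mul', lie_mul', add_mul]
    simp only [mul_assoc]
  rw [e]
  calc ‖⁅X, a⁆ * (b * c) + a * ⁅X, b⁆ * c + (a * b) * ⁅X, c⁆‖ₑ
      ≤ ‖⁅X, a⁆ * (b * c)‖ₑ + ‖a * ⁅X, b⁆ * c‖ₑ + ‖(a * b) * ⁅X, c⁆‖ₑ :=
        (enorm_add_le _ _).trans (by gcongr; exact enorm_add_le _ _)
    _ ≤ ‖⁅X, a⁆‖ₑ * (‖b‖ₑ * ‖c‖ₑ) + ‖a‖ₑ * ‖⁅X, b⁆‖ₑ * ‖c‖ₑ + (‖a‖ₑ * ‖b‖ₑ) * ‖⁅X, c⁆‖ₑ := by
        gcongr
        · exact (enorm_mul_le' _ _).trans (by gcongr; exact enorm_mul_le' _ _)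
        · exact (enorm_mul_le' _ _).trans (by gcongr; exact enorm_mul_le' _ _)
        · exact (enorm_mul_le' _ _).trans (by gcongr; exact enorm_mul_le' _ _)
    _ ≤ p * (B * B) + B * p * B + (B * B) * p := by gcongr
    _ = 3 * B ^ 2 * p := by ring

/-- common profile of the vectors `v0`, `v1` -/
noncomputable def pp (X : Op ι) (v1 v0 : L ι) : ℝ≥0∞ :=
  max (max ‖⁅X, an v0⁆‖ₑ ‖⁅X, cr v0⁆‖ₑ) (max ‖⁅X, an v1⁆‖ₑ ‖⁅X, cr v1⁆‖ₑ)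

theorem enorm_an (v : L ι) : ‖an v‖ₑ = ‖v‖ₑ := by
  rw [← ofReal_norm, ← ofReal_norm, norm_an]

theorem enorm_cr (v : L ι) : ‖cr v‖ₑ = ‖v‖ₑ := by
  rw [← ofReal_norm, ← ofReal_norm, norm_cr]

theorem lie_sub' (X Y Z : Op ι) : ⁅X, Y - Z⁆ = ⁅X, Y⁆ - ⁅X, Z⁆ := by
  simp only [Ring.lie_def, mul_sub, sub_mul]
  abel

theorem enorm_inner_symm (x y : L ι) : ‖(inner ℂ x y : ℂ)‖ₑ = ‖(inner ℂ y x : ℂ)‖ₑ := by
  rw [← ofReal_norm, ← ofReal_norm, norm_inner_symm]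

theorem lie_lie_pbb_an_le {X : Op ι} {v1 v0 u : L ι} {B : ℝ≥0∞} (h1 : ‖v1‖ₑ ≤ B) (h0 : ‖v0‖ₑ ≤ B) :
    ‖⁅X, ⁅pbb v1 v0, an u⁆⁆‖ₑ ≤
      (‖(inner ℂ u v0 : ℂ)‖ₑ + ‖(inner ℂ u v1 : ℂ)‖ₑ) * (3 * B ^ 2 * pp X v1 v0) := by
  have p0 : ‖⁅X, an v0⁆‖ₑ ≤ pp X v1 v0 := (le_max_left _ _).trans (le_max_left _ _)
  have q0 : ‖⁅X, cr v0⁆‖ₑ ≤ pp X v1 v0 := (le_max_right _ _).trans (le_max_left _ _)
  have p1 : ‖⁅X, an v1⁆‖ₑ ≤ pp X v1 v0 := (le_max_left _ _).trans (le_max_right _ _)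
  have q1 : ‖⁅X, cr v1⁆‖ₑ ≤ pp X v1 v0 := (le_max_right _ _).trans (le_max_right _ _)
  rw [lie_pbb_an, lie_sub', lie_smul', lie_smul', add_mul, add_comm]
  refine (enorm_sub_le).trans ?_
  rw [enorm_smul, enorm_smul]
  gcongr
  · exact lie3_le (by rwa [enorm_cr]) (by rwa [enorm_an]) (by rwa [enorm_an]) q0 p1 p0
  · exact lie3_le (by rwa [enorm_cr]) (by rwa [enorm_an]) (by rwa [enorm_an]) q1 p1 p0

theorem lie_lie_pbb_cr_le {X : Op ι} {v1 v0 u : L ι} {B : ℝ≥0∞} (h1 : ‖v1‖ₑ ≤ B) (h0 : ‖v0‖ₑ ≤ B) :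
    ‖⁅X, ⁅pbb v1 v0, cr u⁆⁆‖ₑ ≤
      (‖(inner ℂ u v0 : ℂ)‖ₑ + ‖(inner ℂ u v1 : ℂ)‖ₑ) * (3 * B ^ 2 * pp X v1 v0) := by
  have p0 : ‖⁅X, an v0⁆‖ₑ ≤ pp X v1 v0 := (le_max_left _ _).trans (le_max_left _ _)
  have q0 : ‖⁅X, cr v0⁆‖ₑ ≤ pp X v1 v0 := (le_max_right _ _).trans (le_max_left _ _)
  have p1 : ‖⁅X, an v1⁆‖ₑ ≤ pp X v1 v0 := (le_max_left _ _).trans (le_max_right _ _)
  have q1 : ‖⁅X, cr v1⁆‖ₑ ≤ pp X v1 v0 := (le_max_right _ _).trans (le_max_right _ _)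
  rw [lie_pbb_cr, lie_sub', lie_smul', lie_smul', add_mul]
  refine (enorm_sub_le).trans ?_
  rw [enorm_smul, enorm_smul, enorm_inner_symm v0 u, enorm_inner_symm v1 u]
  gcongr
  · exact lie3_le (by rwa [enorm_cr]) (by rwa [enorm_cr]) (by rwa [enorm_an]) q0 q1 p1
  · exact lie3_le (by rwa [enorm_cr]) (by rwa [enorm_cr]) (by rwa [enorm_an]) q0 q1 p0

theorem lie_pb_le {X : Op ι} {v1 v0 : L ι} {B : ℝ≥0∞} (h1 : ‖v1‖ₑ ≤ B) (h0 : ‖v0‖ₑ ≤ B) :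
    ‖⁅X, pb v1 v0⁆‖ₑ ≤ 2 * B * pp X v1 v0 := by
  have p0 : ‖⁅X, an v0⁆‖ₑ ≤ pp X v1 v0 := (le_max_left _ _).trans (le_max_left _ _)
  have p1 : ‖⁅X, an v1⁆‖ₑ ≤ pp X v1 v0 := (le_max_left _ _).trans (le_max_right _ _)
  rw [pb, lie_mul']
  calc ‖⁅X, an v1⁆ * an v0 + an v1 * ⁅X, an v0⁆‖ₑ
      ≤ ‖⁅X, an v1⁆‖ₑ * ‖an v0‖ₑ + ‖an v1‖ₑ * ‖⁅X, an v0⁆‖ₑ :=
        (enorm_add_le _ _).trans (add_le_add (enorm_mul_le' _ _) (enorm_mul_le' _ _))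
    _ ≤ pp X v1 v0 * B + B * pp X v1 v0 := by
        rw [enorm_an, enorm_an]
        gcongr
    _ = 2 * B * pp X v1 v0 := by ring

theorem lie_star_pb_le {X : Op ι} {v1 v0 : L ι} {B : ℝ≥0∞} (h1 : ‖v1‖ₑ ≤ B) (h0 : ‖v0‖ₑ ≤ B) :
    ‖⁅X, star (pb v1 v0)⁆‖ₑ ≤ 2 * B * pp X v1 v0 := by
  have q0 : ‖⁅X, cr v0⁆‖ₑ ≤ pp X v1 v0 := (le_max_right _ _).trans (le_max_left _ _)
  have q1 : ‖⁅X, cr v1⁆‖ₑ ≤ pp X v1 v0 := (le_max_right _ _).trans (le_max_right _ _)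
  rw [pb, star_mul, star_an, star_an, lie_mul']
  calc ‖⁅X, cr v0⁆ * cr v1 + cr v0 * ⁅X, cr v1⁆‖ₑ
      ≤ ‖⁅X, cr v0⁆‖ₑ * ‖cr v1‖ₑ + ‖cr v0‖ₑ * ‖⁅X, cr v1⁆‖ₑ :=
        (enorm_add_le _ _).trans (add_le_add (enorm_mul_le' _ _) (enorm_mul_le' _ _))
    _ ≤ pp X v1 v0 * B + B * pp X v1 v0 := by
        rw [enorm_cr, enorm_cr]
        gcongr
    _ = 2 * B * pp X v1 v0 := by ring

/-! ### continuity -/

theorem continuous_an : Continuous (an : L ι → Op ι) := by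
  have h : Isometry (an : L ι → Op ι) := by
    apply Isometry.of_dist_eq
    intro x y
    rw [dist_eq_norm, dist_eq_norm, ← an_sub, norm_an]
  exact h.continuous

theorem continuous_cr : Continuous (cr : L ι → Op ι) := by
  have h : Isometry (cr : L ι → Op ι) := by
    apply Isometry.of_dist_eq
    intro x y
    rw [dist_eq_norm, dist_eq_norm, ← cr_sub, norm_cr]
  exact h.continuous

theorem continuous_lie_left (X : Op ι) : Continuous fun Y : Op ι => ⁅X, Y⁆ := by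
  simp only [Ring.lie_def]
  fun_prop

theorem continuous_pbb : Continuous fun p : L ι × L ι => pbb p.1 p.2 := by
  have h1 : Continuous fun p : L ι × L ι => an p.1 := continuous_an.comp continuous_fst
  have h0 : Continuous fun p : L ι × L ι => an p.2 := continuous_an.comp continuous_snd
  have h1' : Continuous fun p : L ι × L ι => cr p.1 := continuous_cr.comp continuous_fst
  have h0' : Continuous fun p : L ι × L ι => cr p.2 := continuous_cr.comp continuous_snd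
  simp only [pbb_eq]
  exact (h0'.mul h1').mul (h1.mul h0)

attribute [irreducible] pbb

end Crest.Agent.R340.LocT163
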