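import Crest.Agent.R340.LocT1_163

/-!
# R340 (helper163), O2 part 2: the double commutator hypothesis of the Lieb-Robinson bound

`H = ∫ B_z^* B_z dν(z)`, `B_z = an (v 1 z) * an (v 0 z)`, frame `a k z`, resolution of the identity by
`a 0`. Kernels: `KS a v w z = ∑_{k,l} |⟨a k w, v l z⟩|`, `KB a v z y = ∑_l |⟨a 0 y, v l z⟩|`,
`kap w y = 3 B² ∫ KS w z * KB z y dν(z)`.
-/

set_option autoImplicit false
set_option linter.unusedSectionVars false

open MeasureTheory
open scoped ENNReal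

namespace Crest.Agent.R340.LocT163

open Crest.Agent.R340.Fock649 Crest.Agent.R340.LR667

variable {ι : Type*} [Fintype ι] [LinearOrder ι] {S : Type*} [MeasurableSpace S]

/-- the commutator with `X` as a continuous linear map -/
noncomputable def adL (X : Op ι) : Op ι →L[ℂ] Op ι :=
  ContinuousLinearMap.mul ℂ (Op ι) X - (ContinuousLinearMap.mul ℂ (Op ι)).flip X

theorem adL_apply (X Y : Op ι) : adL X Y = ⁅X, Y⁆ := by
  simp [adL, Ring.lie_def]

/-- creation operators as a continuous linear map -/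
noncomputable def crL : L ι →L[ℂ] Op ι :=
  LinearMap.mkContinuous ⟨⟨cr, cr_add⟩, cr_smul⟩ 1 (fun v => by
    change ‖cr v‖ ≤ 1 * ‖v‖
    rw [norm_cr, one_mul])

theorem crL_apply (v : L ι) : crL v = cr v := rfl

/-- the four generators -/
noncomputable def gen (a : Fin 2 → S → L ι) (k : Fin 2 × Bool) (z : S) : Op ι :=
  cond k.2 (cr (a k.1 z)) (an (a k.1 z))

theorem gen_false (a : Fin 2 → S → L ι) (k : Fin 2) (z : S) : gen a (k, false) z = an (a k z) := rfl
theorem gen_true (a : Fin 2 → S → L ι) (k : Fin 2) (z : S) : gen a (k, true) z = cr (a k z) := rfl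

theorem norm_gen_le {a : Fin 2 → S → L ι} {G : ℝ} (h : ∀ k z, ‖a k z‖ ≤ G) (k : Fin 2 × Bool)
    (z : S) : ‖gen a k z‖ ≤ G := by
  rcases k with ⟨k, b⟩
  cases b
  · rw [gen_false, norm_an]; exact h k z
  · rw [gen_true, norm_cr]; exact h k z

/-- resolution of the identity -/
structure Reso (μ : Measure S) (a0 : S → L ι) : Prop where
  int : ∀ x : L ι, Integrable (fun y => (inner ℂ (a0 y) x : ℂ) • a0 y) μ
  res : ∀ x : L ι, ∫ y, (inner ℂ (a0 y) x : ℂ) • a0 y ∂μ = x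

theorem Reso.cr_le {μ : Measure S} {a0 : S → L ι} (h : Reso μ a0) (X : Op ι) (x : L ι) :
    ‖⁅X, cr x⁆‖ₑ ≤ ∫⁻ y, ‖(inner ℂ (a0 y) x : ℂ)‖ₑ * ‖⁅X, cr (a0 y)⁆‖ₑ ∂μ := by
  have e : ⁅X, cr x⁆ = ∫ y, (inner ℂ (a0 y) x : ℂ) • ⁅X, cr (a0 y)⁆ ∂μ := by
    have h1 := ((adL X).comp crL).integral_comp_comm (h.int x)
    rw [h.res x] at h1
    simp only [ContinuousLinearMap.comp_apply, adL_apply, crL_apply, map_smul] at h1
    rw [← h1]
  rw [e]
  refine (enorm_integral_le_lintegral_enorm _).trans ?_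
  refine lintegral_mono fun y => ?_
  rw [enorm_smul]

theorem enorm_star' (Y : Op ι) : ‖star Y‖ₑ = ‖Y‖ₑ := by
  rw [← ofReal_norm, ← ofReal_norm, norm_star]

theorem enorm_lie_star (X Y : Op ι) : ‖⁅star X, star Y⁆‖ₑ = ‖⁅X, Y⁆‖ₑ := by
  have : ⁅star X, star Y⁆ = - star ⁅X, Y⁆ := by
    simp only [Ring.lie_def, star_sub, star_mul]; abel
  rw [this, enorm_neg, enorm_star']

theorem enorm_lie_star_cr (X : Op ι) (v : L ι) : ‖⁅star X, cr v⁆‖ₑ = ‖⁅X, an v⁆‖ₑ := by
  rw [← star_an, enorm_lie_star]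

theorem enorm_lie_star_an (X : Op ι) (v : L ι) : ‖⁅star X, an v⁆‖ₑ = ‖⁅X, cr v⁆‖ₑ := by
  rw [← star_cr, enorm_lie_star]

theorem Reso.an_le {μ : Measure S} {a0 : S → L ι} (h : Reso μ a0) (X : Op ι) (x : L ι) :
    ‖⁅X, an x⁆‖ₑ ≤ ∫⁻ y, ‖(inner ℂ (a0 y) x : ℂ)‖ₑ * ‖⁅X, an (a0 y)⁆‖ₑ ∂μ := by
  have h1 := h.cr_le (star X) x
  simp only [enorm_lie_star_cr] at h1
  exact h1

/-- the kernel `∑_{k,l} |⟨a k w, v l z⟩|` -/
noncomputable def KS (a v : Fin 2 → S → L ι) (w z : S) : ℝ≥0∞ :=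
  ∑ k, ∑ l, ‖(inner ℂ (a k w) (v l z) : ℂ)‖ₑ

/-- the kernel `∑_l |⟨a 0 y, v l z⟩|` -/
noncomputable def KB (a v : Fin 2 → S → L ι) (z y : S) : ℝ≥0∞ :=
  ∑ l, ‖(inner ℂ (a 0 y) (v l z) : ℂ)‖ₑ

theorem pp_le {μ : Measure S} {a v : Fin 2 → S → L ι} (h : Reso μ (a 0)) (X : Op ι) (z : S) :
    pp X (v 1 z) (v 0 z) ≤ ∫⁻ y, KB a v z y * prof (gen a) X y ∂μ := by
  have hl : ∀ l : Fin 2, ‖⁅X, an (v l z)⁆‖ₑ ≤ ∫⁻ y, KB a v z y * prof (gen a) X y ∂μ := by
    intro l
    refine (h.an_le X (v l z)).trans (lintegral_mono fun y => ?_)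
    have h1 : ‖(inner ℂ (a 0 y) (v l z) : ℂ)‖ₑ ≤ KB a v z y :=
      Finset.single_le_sum (f := fun l => ‖(inner ℂ (a 0 y) (v l z) : ℂ)‖ₑ)
        (fun _ _ => zero_le) (Finset.mem_univ l)
    exact mul_le_mul' h1 (le_prof (gen a) X y (0, false))
  have hl' : ∀ l : Fin 2, ‖⁅X, cr (v l z)⁆‖ₑ ≤ ∫⁻ y, KB a v z y * prof (gen a) X y ∂μ := by
    intro l
    refine (h.cr_le X (v l z)).trans (lintegral_mono fun y => ?_)
    have h1 : ‖(inner ℂ (a 0 y) (v l z) : ℂ)‖ₑ ≤ KB a v z y :=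
      Finset.single_le_sum (f := fun l => ‖(inner ℂ (a 0 y) (v l z) : ℂ)‖ₑ)
        (fun _ _ => zero_le) (Finset.mem_univ l)
    exact mul_le_mul' h1 (le_prof (gen a) X y (0, true))
  exact max_le (max_le (hl 0) (hl' 0)) (max_le (hl 1) (hl' 1))

theorem lie_bb_le {μ : Measure S} {a v : Fin 2 → S → L ι} (h : Reso μ (a 0)) {B : ℝ≥0∞}
    (hv : ∀ l z, ‖v l z‖ₑ ≤ B) (X : Op ι) (z : S) :
    ‖⁅X, pb (v 1 z) (v 0 z)⁆‖ₑ ≤ ∫⁻ y, 2 * B * KB a v z y * prof (gen a) X y ∂μ ∧
    ‖⁅X, star (pb (v 1 z) (v 0 z))⁆‖ₑ ≤ ∫⁻ y, 2 * B * KB a v z y * prof (gen a) X y ∂μ := by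
  rcases eq_or_ne B ⊤ with hB | hB
  · -- replace `B` by the maximum of the two norms
    set B' : ℝ≥0∞ := max ‖v 0 z‖ₑ ‖v 1 z‖ₑ with hB'
    have hB't : B' ≠ ⊤ := by
      rw [hB']
      exact (max_lt enorm_lt_top enorm_lt_top).ne
    have hle : B' ≤ B := by rw [hB]; exact le_top
    have e : ∫⁻ y, 2 * B' * KB a v z y * prof (gen a) X y ∂μ =
        2 * B' * ∫⁻ y, KB a v z y * prof (gen a) X y ∂μ := by
      rw [← lintegral_const_mul' _ _ (ENNReal.mul_ne_top (by simp) hB't)]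
      simp only [mul_assoc]
    have hm : ∫⁻ y, 2 * B' * KB a v z y * prof (gen a) X y ∂μ ≤
        ∫⁻ y, 2 * B * KB a v z y * prof (gen a) X y ∂μ := by
      refine lintegral_mono fun y => ?_
      gcongr
    have k1 := lie_pb_le (X := X) (v1 := v 1 z) (v0 := v 0 z) (B := B') (le_max_right _ _)
      (le_max_left _ _)
    have k2 := lie_star_pb_le (X := X) (v1 := v 1 z) (v0 := v 0 z) (B := B') (le_max_right _ _)
      (le_max_left _ _)
    have k3 : 2 * B' * pp X (v 1 z) (v 0 z) ≤ ∫⁻ y, 2 * B' * KB a v z y * prof (gen a) X y ∂μ := by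
      rw [e]
      gcongr
      exact pp_le h X z
    exact ⟨(k1.trans k3).trans hm, (k2.trans k3).trans hm⟩
  · have e : ∫⁻ y, 2 * B * KB a v z y * prof (gen a) X y ∂μ =
        2 * B * ∫⁻ y, KB a v z y * prof (gen a) X y ∂μ := by
      rw [← lintegral_const_mul' _ _ (ENNReal.mul_ne_top (by simp) hB)]
      simp only [mul_assoc]
    rw [e]
    constructor
    · refine (lie_pb_le (hv 1 z) (hv 0 z)).trans ?_
      gcongr
      exact pp_le h X z
    · refine (lie_star_pb_le (hv 1 z) (hv 0 z)).trans ?_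
      gcongr
      exact pp_le h X z

/-- `H = ∫ B_z^* B_z dν(z)` -/
noncomputable def HH (ν : Measure S) (v : Fin 2 → S → L ι) : Op ι :=
  ∫ z, pbb (v 1 z) (v 0 z) ∂ν

theorem norm_pbb_le {v1 v0 : L ι} {B : ℝ} (h1 : ‖v1‖ ≤ B) (h0 : ‖v0‖ ≤ B) :
    ‖pbb v1 v0‖ ≤ B * B * (B * B) := by
  have hB0 : 0 ≤ B := (norm_nonneg _).trans h0
  have e1 : ‖cr v0 * cr v1‖ ≤ B * B := by
    refine (norm_mul_le _ _).trans ?_
    rw [norm_cr, norm_cr]
    exact mul_le_mul h0 h1 (norm_nonneg _) hB0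
  have e2 : ‖an v1 * an v0‖ ≤ B * B := by
    refine (norm_mul_le _ _).trans ?_
    rw [norm_an, norm_an]
    exact mul_le_mul h1 h0 (norm_nonneg _) hB0
  rw [pbb_eq]
  exact (norm_mul_le _ _).trans (mul_le_mul e1 e2 (norm_nonneg _) (mul_nonneg hB0 hB0))

theorem integrable_pbb {ν : Measure S} [IsFiniteMeasure ν] {v : Fin 2 → S → L ι}
    (hm : ∀ l, StronglyMeasurable (v l)) {B : ℝ} (hB : ∀ l z, ‖v l z‖ ≤ B) :
    Integrable (fun z => pbb (v 1 z) (v 0 z)) ν := by
  have hm2 : AEStronglyMeasurable (fun z => (v 1 z, v 0 z)) ν :=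
    ((hm 1).prodMk (hm 0)).aestronglyMeasurable
  have hm3 := continuous_pbb.comp_aestronglyMeasurable hm2
  refine Integrable.of_bound hm3 (B * B * (B * B)) (Filter.Eventually.of_forall fun z => ?_)
  exact norm_pbb_le (hB 1 z) (hB 0 z)

theorem isSelfAdjoint_HH (ν : Measure S) (v : Fin 2 → S → L ι) : IsSelfAdjoint (HH ν v) := by
  rw [IsSelfAdjoint, HH]
  by_cases hi : Integrable (fun z => pbb (v 1 z) (v 0 z)) ν
  · have h := (starL' ℝ : Op ι ≃L[ℝ] Op ι).toContinuousLinearMap.integral_comp_comm hi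
    have h2 : ∫ z, star (pbb (v 1 z) (v 0 z)) ∂ν = star (∫ z, pbb (v 1 z) (v 0 z) ∂ν) := by
      simpa using h
    rw [← h2]
    simp only [star_pbb]
  · rw [integral_undef hi, star_zero]

theorem lie_lie_HH_le {ν : Measure S} {v : Fin 2 → S → L ι}
    (hi : Integrable (fun z => pbb (v 1 z) (v 0 z)) ν) (X Y : Op ι) :
    ‖⁅X, ⁅HH ν v, Y⁆⁆‖ₑ ≤ ∫⁻ z, ‖⁅X, ⁅pbb (v 1 z) (v 0 z), Y⁆⁆‖ₑ ∂ν := by
  have e : ⁅X, ⁅HH ν v, Y⁆⁆ = ∫ z, ⁅X, ⁅pbb (v 1 z) (v 0 z), Y⁆⁆ ∂ν := by
    have h1 := ((adL X).comp (-(adL Y))).integral_comp_comm hi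
    simp only [ContinuousLinearMap.comp_apply, adL_apply, neg_apply] at h1
    have hs : ∀ Z : Op ι, -⁅Y, Z⁆ = ⁅Z, Y⁆ := by
      intro Z; simp only [Ring.lie_def]; abel
    simp only [hs] at h1
    rw [h1, HH]
  rw [e]
  exact enorm_integral_le_lintegral_enorm _

theorem lie_lie_pbb_gen_le {a v : Fin 2 → S → L ι} {B : ℝ≥0∞} (hv : ∀ l z, ‖v l z‖ₑ ≤ B)
    (X : Op ι) (k : Fin 2 × Bool) (w z : S) :
    ‖⁅X, ⁅pbb (v 1 z) (v 0 z), gen a k w⁆⁆‖ₑ ≤ KS a v w z * (3 * B ^ 2 * pp X (v 1 z) (v 0 z)) := by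
  rcases k with ⟨k, b⟩
  have hk : ‖(inner ℂ (a k w) (v 0 z) : ℂ)‖ₑ + ‖(inner ℂ (a k w) (v 1 z) : ℂ)‖ₑ ≤ KS a v w z := by
    have h1 : ∑ l, ‖(inner ℂ (a k w) (v l z) : ℂ)‖ₑ ≤ KS a v w z :=
      Finset.single_le_sum (f := fun k => ∑ l, ‖(inner ℂ (a k w) (v l z) : ℂ)‖ₑ)
        (fun _ _ => zero_le) (Finset.mem_univ k)
    rwa [Fin.sum_univ_two] at h1
  cases b
  · rw [gen_false]
    exact (lie_lie_pbb_an_le (hv 1 z) (hv 0 z)).trans (by gcongr)
  · rw [gen_true]
    exact (lie_lie_pbb_cr_le (hv 1 z) (hv 0 z)).trans (by gcongr)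

theorem measurable_prof {a : Fin 2 → S → L ι} (ha : ∀ k, StronglyMeasurable (a k)) (X : Op ι) :
    Measurable (prof (gen a) X) := by
  refine Measurable.iSup fun k => ?_
  rcases k with ⟨k, b⟩
  cases b
  · simp only [gen_false]
    exact (((continuous_lie_left X).comp continuous_an).comp_stronglyMeasurable (ha k)).enorm
  · simp only [gen_true]
    exact (((continuous_lie_left X).comp continuous_cr).comp_stronglyMeasurable (ha k)).enorm

theorem measurable_inner_enorm {a b : S → L ι} (ha : StronglyMeasurable a)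
    (hb : StronglyMeasurable b) :
    Measurable fun p : S × S => ‖(inner ℂ (a p.1) (b p.2) : ℂ)‖ₑ :=
  ((ha.comp_measurable measurable_fst).inner (hb.comp_measurable measurable_snd)).enorm

/-- the double commutator kernel -/
noncomputable def kap (ν : Measure S) (a v : Fin 2 → S → L ι) (B : ℝ≥0∞) (w y : S) : ℝ≥0∞ :=
  ∫⁻ z, 3 * B ^ 2 * (KS a v w z * KB a v z y) ∂ν

theorem measurable_KS {a v : Fin 2 → S → L ι} (ha : ∀ k, StronglyMeasurable (a k))
    (hv : ∀ k, StronglyMeasurable (v k)) : Measurable fun p : S × S => KS a v p.1 p.2 := by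
  unfold KS
  refine Finset.measurable_sum _ fun k _ => Finset.measurable_sum _ fun l _ => ?_
  exact measurable_inner_enorm (ha k) (hv l)

theorem measurable_KB {a v : Fin 2 → S → L ι} (ha : ∀ k, StronglyMeasurable (a k))
    (hv : ∀ k, StronglyMeasurable (v k)) : Measurable fun p : S × S => KB a v p.1 p.2 := by
  unfold KB
  refine Finset.measurable_sum _ fun l _ => ?_
  have h : Measurable fun p : S × S => ‖(inner ℂ (a 0 p.1) (v l p.2) : ℂ)‖ₑ :=
    measurable_inner_enorm (ha 0) (hv l)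
  have h2 : Measurable fun p : S × S => (p.2, p.1) := measurable_snd.prodMk measurable_fst
  simpa only [Function.comp_def] using h.comp h2

theorem measurable_KS_right {a v : Fin 2 → S → L ι} (ha : ∀ k, StronglyMeasurable (a k))
    (hv : ∀ k, StronglyMeasurable (v k)) (w : S) : Measurable fun z => KS a v w z := by
  have h := (measurable_KS ha hv).comp (measurable_prodMk_left (x := w))
  simpa only [Function.comp_def] using h

theorem measurable_KB_right {a v : Fin 2 → S → L ι} (ha : ∀ k, StronglyMeasurable (a k))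
    (hv : ∀ k, StronglyMeasurable (v k)) (z : S) : Measurable fun y => KB a v z y := by
  have h := (measurable_KB ha hv).comp (measurable_prodMk_left (x := z))
  simpa only [Function.comp_def] using h

theorem measurable_KB_left {a v : Fin 2 → S → L ι} (ha : ∀ k, StronglyMeasurable (a k))
    (hv : ∀ k, StronglyMeasurable (v k)) (y : S) : Measurable fun z => KB a v z y := by
  have h := (measurable_KB ha hv).comp (measurable_prodMk_right (y := y))
  simpa only [Function.comp_def] using h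

theorem measurable_KB_swap {a v : Fin 2 → S → L ι} (ha : ∀ k, StronglyMeasurable (a k))
    (hv : ∀ k, StronglyMeasurable (v k)) : Measurable fun p : S × S => KB a v p.2 p.1 := by
  have h := (measurable_KB ha hv).comp (measurable_snd.prodMk measurable_fst : Measurable fun p : S × S => (p.2, p.1))
  simpa only [Function.comp_def] using h

/-- **the double commutator hypothesis** of `LR667.lr` -/
theorem dcomm {μ ν : Measure S} [SFinite μ] [IsFiniteMeasure ν] {a v : Fin 2 → S → L ι}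
    (ha : ∀ k, StronglyMeasurable (a k)) (hv : ∀ k, StronglyMeasurable (v k))
    (h : Reso μ (a 0)) {B : ℝ} (hB : ∀ l z, ‖v l z‖ ≤ B) (X : Op ι) (k : Fin 2 × Bool) (w : S) :
    ‖⁅X, ⁅HH ν v, gen a k w⁆⁆‖ₑ ≤
      ∫⁻ y, kap ν a v (ENNReal.ofReal B) w y * prof (gen a) X y ∂μ := by
  set B' := ENNReal.ofReal B with hB'
  have hB2 : ∀ l z, ‖v l z‖ₑ ≤ B' := by
    intro l z
    rw [← ofReal_norm, hB']
    exact ENNReal.ofReal_le_ofReal (hB l z)
  have hB3 : B' ≠ ⊤ := ENNReal.ofReal_ne_top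
  have h1 := lie_lie_HH_le (integrable_pbb (ν := ν) hv hB) X (gen a k w)
  have mp := measurable_prof ha X
  have mS := measurable_KS ha hv
  have mB := measurable_KB ha hv
  have mS' : Measurable fun z => KS a v w z := measurable_KS_right ha hv w
  calc ‖⁅X, ⁅HH ν v, gen a k w⁆⁆‖ₑ
      ≤ ∫⁻ z, ‖⁅X, ⁅pbb (v 1 z) (v 0 z), gen a k w⁆⁆‖ₑ ∂ν := h1
    _ ≤ ∫⁻ z, KS a v w z * (3 * B' ^ 2 * ∫⁻ y, KB a v z y * prof (gen a) X y ∂μ) ∂ν := by
        refine lintegral_mono fun z => ?_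
        refine (lie_lie_pbb_gen_le hB2 X k w z).trans ?_
        gcongr
        exact pp_le h X z
    _ = ∫⁻ z, ∫⁻ y, 3 * B' ^ 2 * (KS a v w z * KB a v z y) * prof (gen a) X y ∂μ ∂ν := by
        refine lintegral_congr fun z => ?_
        have m1 : Measurable fun y => KB a v z y * prof (gen a) X y :=
          (measurable_KB_right ha hv z).mul mp
        rw [← mul_assoc, ← lintegral_const_mul _ m1]
        refine lintegral_congr fun y => ?_
        ring
    _ = ∫⁻ y, ∫⁻ z, 3 * B' ^ 2 * (KS a v w z * KB a v z y) * prof (gen a) X y ∂ν ∂μ := by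
        rw [lintegral_lintegral_swap]
        refine Measurable.aemeasurable ?_
        exact (((mS'.comp measurable_fst).mul mB).const_mul _).mul (mp.comp measurable_snd)
    _ = ∫⁻ y, kap ν a v B' w y * prof (gen a) X y ∂μ := by
        refine lintegral_congr fun y => ?_
        rw [kap, ← lintegral_mul_const]
        exact (mS'.mul (measurable_KB_left ha hv y)).const_mul _

/-- composition of row sums -/
theorem lintegral_kap_le {μ ν : Measure S} [SFinite μ] [SFinite ν] {a v : Fin 2 → S → L ι}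
    (ha : ∀ k, StronglyMeasurable (a k)) (hv : ∀ k, StronglyMeasurable (v k)) (B : ℝ≥0∞)
    {E : S → S → ℝ≥0∞} (mE : Measurable fun p : S × S => E p.1 p.2)
    (hE : ∀ w z y, E w y ≤ E w z * E z y) {s b : ℝ≥0∞}
    (hs : ∀ w, ∫⁻ z, KS a v w z * E w z ∂ν ≤ s) (hb : ∀ z, ∫⁻ y, KB a v z y * E z y ∂μ ≤ b) (w : S) :
    ∫⁻ y, kap ν a v B w y * E w y ∂μ ≤ 3 * B ^ 2 * (s * b) := by
  have mS := measurable_KS ha hv
  have mB := measurable_KB ha hv
  have mS' : Measurable fun z => KS a v w z := measurable_KS_right ha hv w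
  have mE' : Measurable fun z => E w z := by
    have h := mE.comp (measurable_prodMk_left (x := w))
    simpa only [Function.comp_def] using h
  have mEr : ∀ z, Measurable fun y => E z y := by
    intro z
    have h := mE.comp (measurable_prodMk_left (x := z))
    simpa only [Function.comp_def] using h
  have mEs : Measurable fun p : S × S => E p.2 p.1 := by
    have h := mE.comp (measurable_snd.prodMk measurable_fst : Measurable fun p : S × S => (p.2, p.1))
    simpa only [Function.comp_def] using h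
  have m1 : ∀ y, Measurable fun z => KS a v w z * KB a v z y := fun y =>
    mS'.mul (measurable_KB_left ha hv y)
  calc ∫⁻ y, kap ν a v B w y * E w y ∂μ
      = ∫⁻ y, ∫⁻ z, 3 * B ^ 2 * (KS a v w z * KB a v z y) * E w y ∂ν ∂μ := by
        refine lintegral_congr fun y => ?_
        rw [kap, ← lintegral_mul_const]
        exact (m1 y).const_mul _
    _ ≤ ∫⁻ y, ∫⁻ z, 3 * B ^ 2 * ((KS a v w z * E w z) * (KB a v z y * E z y)) ∂ν ∂μ := by
        refine lintegral_mono fun y => lintegral_mono fun z => ?_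
        calc 3 * B ^ 2 * (KS a v w z * KB a v z y) * E w y
            ≤ 3 * B ^ 2 * (KS a v w z * KB a v z y) * (E w z * E z y) := by
              gcongr
              exact hE w z y
          _ = _ := by ring
    _ = ∫⁻ z, ∫⁻ y, 3 * B ^ 2 * ((KS a v w z * E w z) * (KB a v z y * E z y)) ∂μ ∂ν := by
        rw [lintegral_lintegral_swap]
        refine Measurable.aemeasurable ?_
        exact (((mS'.mul mE').comp measurable_snd).mul
          ((measurable_KB_swap ha hv).mul mEs)).const_mul _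
    _ = ∫⁻ z, 3 * B ^ 2 * ((KS a v w z * E w z) * ∫⁻ y, KB a v z y * E z y ∂μ) ∂ν := by
        refine lintegral_congr fun z => ?_
        have m2 : Measurable fun y => KB a v z y * E z y :=
          (measurable_KB_right ha hv z).mul (mEr z)
        rw [lintegral_const_mul _ (m2.const_mul _), lintegral_const_mul _ m2]
    _ ≤ ∫⁻ z, 3 * B ^ 2 * ((KS a v w z * E w z) * b) ∂ν := by
        refine lintegral_mono fun z => ?_
        gcongr
        exact hb z
    _ = 3 * B ^ 2 * ((∫⁻ z, KS a v w z * E w z ∂ν) * b) := by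
        have m3 : Measurable fun z => KS a v w z * E w z := mS'.mul mE'
        rw [lintegral_const_mul _ (m3.mul_const _), lintegral_mul_const _ m3]
    _ ≤ 3 * B ^ 2 * (s * b) := by
        gcongr
        exact hs w

end Crest.Agent.R340.LocT163
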