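import Crest.Agent.R340.GG_467
import Crest.Agent.R340.Peel_924

/-!
# NEAR export, part 1 (helper515, R340, orphan O9)

Trace functional on Fock space, the lowest eigenprojection of a self-adjoint operator, and the
criterion: `Y ≥ 0` as soon as `0 ≤ Re tr (P Y)` for every orthogonal projection `P` that commutes
with the whole (star-closed part of the) commutant of `Y`.
-/

set_option autoImplicit false
set_option linter.unusedSectionVars false

namespace Crest.Agent.R340.Near515

open Finset Fock649 GG467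

section Trace

variable {κ : Type*} [Fintype κ]

/-- trace on Fock space -/
noncomputable def tr (A : Op κ) : ℂ := LinearMap.trace ℂ (Fk κ) (A.ap : Fk κ →ₗ[ℂ] Fk κ)

theorem tr_add (A B : Op κ) : tr (A + B) = tr A + tr B := map_add (LinearMap.trace ℂ (Fk κ)) _ _

theorem tr_sub (A B : Op κ) : tr (A - B) = tr A - tr B := map_sub (LinearMap.trace ℂ (Fk κ)) _ _

theorem tr_neg (A : Op κ) : tr (-A) = - tr A := map_neg (LinearMap.trace ℂ (Fk κ)) _

theorem tr_zero : tr (0 : Op κ) = 0 := map_zero (LinearMap.trace ℂ (Fk κ))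

theorem tr_smul (a : ℂ) (A : Op κ) : tr (a • A) = a * tr A :=
  map_smul (LinearMap.trace ℂ (Fk κ)) a _

theorem tr_mul_comm (A B : Op κ) : tr (A * B) = tr (B * A) :=
  LinearMap.trace_mul_comm ℂ _ _

/-- the trace as a linear map -/
noncomputable def trL : Op κ →ₗ[ℂ] ℂ where
  toFun := tr
  map_add' := tr_add
  map_smul' := tr_smul

theorem tr_sum {σ : Type*} (s : Finset σ) (A : σ → Op κ) : tr (∑ i ∈ s, A i) = ∑ i ∈ s, tr (A i) :=
  map_sum (trL (κ := κ)) A s

/-- the trace as a continuous linear map -/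
noncomputable def trC : Op κ →L[ℂ] ℂ := LinearMap.toContinuousLinearMap trL

theorem trC_apply (A : Op κ) : trC A = tr A := rfl

/-- the standard orthonormal basis -/
noncomputable abbrev bF (κ : Type*) [Fintype κ] : OrthonormalBasis (Finset κ) ℂ (Fk κ) :=
  EuclideanSpace.basisFun (Finset κ) ℂ

theorem tr_eq_sum (A : Op κ) : tr A = ∑ S : Finset κ, inner ℂ (bF κ S) (A (bF κ S)) :=
  LinearMap.trace_eq_sum_inner (A.ap : Fk κ →ₗ[ℂ] Fk κ) (bF κ)

theorem tr_star_mul_self_eq (A : Op κ) :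
    tr (star A * A) = ((∑ S : Finset κ, ‖A (bF κ S)‖ ^ 2 : ℝ) : ℂ) := by
  rw [tr_eq_sum]
  push_cast
  refine Finset.sum_congr rfl fun S _ => ?_
  exact inner_star_mul_self A _

theorem tr_star_mul_self_nonneg (A : Op κ) : 0 ≤ (tr (star A * A)).re := by
  rw [tr_star_mul_self_eq, Complex.ofReal_re]
  positivity

theorem tr_star_mul_self_pos {A : Op κ} (hA : A ≠ 0) : 0 < (tr (star A * A)).re := by
  rw [tr_star_mul_self_eq, Complex.ofReal_re]
  by_contra hcon
  apply hA
  have h0 : ∀ S ∈ (Finset.univ : Finset (Finset κ)), 0 ≤ ‖A (bF κ S)‖ ^ 2 :=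
    fun S _ => by positivity
  have h1 : ∑ S : Finset κ, ‖A (bF κ S)‖ ^ 2 = 0 :=
    le_antisymm (not_lt.1 hcon) (Finset.sum_nonneg h0)
  rw [Finset.sum_eq_zero_iff_of_nonneg h0] at h1
  have h2 : (A.ap : Fk κ →ₗ[ℂ] Fk κ) = 0 := by
    refine (bF κ).toBasis.ext fun S => ?_
    have h4 := h1 S (Finset.mem_univ S)
    have h5 : A (bF κ S) = 0 := by simpa using h4
    rw [OrthonormalBasis.coe_toBasis]
    exact h5
  refine Op.ext fun v => ?_
  exact LinearMap.congr_fun h2 v

theorem tr_star (A : Op κ) : tr (star A) = (starRingEnd ℂ) (tr A) := by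
  rw [tr_eq_sum, tr_eq_sum, map_sum]
  refine Finset.sum_congr rfl fun S _ => ?_
  rw [inner_star_right, inner_conj_symm]

theorem tr_re_star (A : Op κ) : (tr (star A)).re = (tr A).re := by
  rw [tr_star, Complex.conj_re]

end Trace

section Lowest

variable {κ : Type*} [Fintype κ]

/-- a self-adjoint operator which is not `≥ 0` has a negative eigenvalue -/
theorem exists_neg_eigenvector {Y : Op κ} (hY : star Y = Y) (h : ¬ 0 ≤ Y) :
    ∃ (e : ℝ) (v : Fk κ), e < 0 ∧ v ≠ 0 ∧ Y v = (e : ℂ) • v := by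
  have hs : ∀ x y : Fk κ, (inner ℂ (Y x) y : ℂ) = inner ℂ x (Y y) := by
    intro v w
    have := inner_star_left Y v w
    rwa [hY] at this
  have hex : ∃ v : Fk κ, (inner ℂ v (Y v) : ℂ).re < 0 := by
    by_contra hcon
    push Not at hcon
    exact h ((Op.nonneg_iff Y).2 ⟨hY, hcon⟩)
  obtain ⟨v, hv⟩ := hex
  have hv0 : v ≠ 0 := by
    rintro rfl
    simp at hv
  have htop : (⊤ : Submodule ℂ (Fk κ)) ≠ ⊥ := by
    intro hb
    apply hv0
    have : v ∈ (⊥ : Submodule ℂ (Fk κ)) := hb ▸ Submodule.mem_top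
    simpa using this
  obtain ⟨lam, χ, -, hχ1, hχ2, hχ3⟩ := Peel924.exists_min_eigen ⊤ htop Y.ap hs
  refine ⟨lam, χ, ?_, ?_, ?_⟩
  · have h1 := hχ3 v Submodule.mem_top
    by_contra hcon
    push Not at hcon
    have h2 : 0 ≤ lam * ‖v‖ ^ 2 := by positivity
    have h3 : lam * ‖v‖ ^ 2 < 0 := lt_of_le_of_lt h1 hv
    linarith
  · rintro rfl
    simp at hχ1
  · refine ext_inner_left ℂ fun w => ?_
    rw [inner_smul_right]
    exact hχ2 w Submodule.mem_top

/-- **Criterion for positivity.** -/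
theorem nonneg_of_proj {Y : Op κ} (hY : star Y = Y)
    (h : ∀ P : Op κ, star P = P → P * P = P →
      (∀ T : Op κ, T * Y = Y * T → star T * Y = Y * star T → T * P = P * T) →
      0 ≤ (tr (P * Y)).re) : 0 ≤ Y := by
  by_contra hcon
  obtain ⟨e, v, he, hv0, hv⟩ := exists_neg_eigenvector hY hcon
  set P : Op κ := PK (Y - (e : ℂ) • 1) with hP
  have hPs : star P = P := star_PK _
  have hPP : P * P = P := PK_mul_self _
  have hYP : Y * P = (e : ℂ) • P := by
    have h1 : (Y - (e : ℂ) • 1) * P = 0 := mul_PK _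
    rw [sub_mul, smul_mul_assoc, one_mul, sub_eq_zero] at h1
    exact h1
  have h1 := h P hPs hPP (fun T hT hT' => by
    refine commute_PK ?_ ?_
    · rw [mul_sub, sub_mul, hT, smul_mul_assoc, mul_smul_comm, one_mul, mul_one]
    · rw [mul_sub, sub_mul, hT', smul_mul_assoc, mul_smul_comm, one_mul, mul_one])
  rw [tr_mul_comm, hYP, tr_smul, Complex.re_ofReal_mul] at h1
  have hP0 : P ≠ 0 := by
    intro h0
    apply hv0
    have h2 : P v = v := by
      rw [hP]
      refine pj_of_mem ?_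
      rw [mem_ker, sub_ap, smul_ap, one_ap, hv, sub_self]
    rw [← h2, h0]
    rfl
  have h3 : 0 < (tr P).re := by
    have := tr_star_mul_self_pos hP0
    rwa [hPs, hPP] at this
  have h4 : e * (tr P).re < 0 := mul_neg_of_neg_of_pos he h3
  linarith

end Lowest

end Crest.Agent.R340.Near515
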