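import Crest.Agent.R340.Rot3_303
import Crest.Agent.R340.KnI_249

/-!
# NEAR export, part 2 (helper515, R340, orphan O9)

Infinitesimal rotations: an operator which commutes with all second quantised rotations `Rg Q g`
(`g` unitary) commutes with the ladder operator `UN Q`, its adjoint and `ZN Q`.
-/

set_option autoImplicit false
set_option linter.unusedSectionVars false

namespace Crest.Agent.R340.Near515

open Finset Fock649 Polynomial Matrix CS809 Gam303 Rot303 Kn249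

noncomputable section

/-! ## derivative of the second quantisation at `1` -/

section Gam

variable {ι : Type*} [LinearOrder ι] [Fintype ι]

theorem hasDerivAt_ap (A : Op ι) {f : ℝ → Fk ι} {f' : Fk ι} {x : ℝ} (h : HasDerivAt f f' x) :
    HasDerivAt (fun t => A (f t)) (A f') x :=
  (ContinuousLinearMap.restrictScalars ℝ A.ap).hasFDerivAt.comp_hasDerivAt x h

theorem cr_mv_e (U : Matrix ι ι ℂ) (m : ι) (v : Fk ι) :
    cr (mv U (e m)) v = ∑ i, U i m • d i v := by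
  unfold cr
  rw [sum_ap]
  refine Finset.sum_congr rfl fun i _ => ?_
  rw [smul_ap, mv_e]

theorem hasDerivAt_Gam_ket {U : ℝ → Matrix ι ι ℂ} {U' : Matrix ι ι ℂ} (h1 : U 0 = 1)
    (hU : ∀ i k, HasDerivAt (fun t => U t i k) (U' i k) 0) (S : Finset ι) :
    HasDerivAt (fun t => Gam (U t) (ket S)) (dG U' (ket S)) 0 := by
  induction S using Finset.induction_on_min with
  | empty =>
    have e1 : (fun t => Gam (U t) (ket (∅ : Finset ι))) = fun _ => ket ∅ := by
      funext t; exact Gam_vac (U t)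
    have e2 : dG U' (ket (∅ : Finset ι)) = 0 := by
      unfold dG
      rw [sum_ap]
      refine Finset.sum_eq_zero fun i _ => ?_
      rw [sum_ap]
      refine Finset.sum_eq_zero fun j _ => ?_
      rw [smul_ap, mul_ap, c_ket]
      simp
    rw [e1, e2]
    exact hasDerivAt_const _ _
  | insert m S h ih =>
    have e1 : (fun t => Gam (U t) (ket (insert m S))) =
        fun t => ∑ i, U t i m • d i (Gam (U t) (ket S)) := by
      funext t
      rw [Gam_ket_insert_min _ h, cr_mv_e]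
    have e2 : dG U' (ket (insert m S)) =
        ∑ i, ((U 0) i m • d i (dG U' (ket S)) + U' i m • d i (Gam (U 0) (ket S))) := by
      rw [Finset.sum_add_distrib, ← cr_mv_e, ← cr_mv_e, h1, mv_one, cr_e, Gam_one, one_ap,
        ket_insert_min h, ← mul_ap, ← mul_ap]
      have h3 := dG_comm_cr U' (e m)
      rw [cr_e] at h3
      have h4 : dG U' * d m = d m * dG U' + cr (mv U' (e m)) := by
        rw [← h3]; abel
      rw [h4, add_ap]
    rw [e1, e2]
    refine HasDerivAt.fun_sum fun i _ => ?_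
    exact (hU i m).smul (hasDerivAt_ap (d i) ih)

/-- derivative of the second quantisation at `1`, strongly -/
theorem hasDerivAt_Gam {U : ℝ → Matrix ι ι ℂ} {U' : Matrix ι ι ℂ} (h1 : U 0 = 1)
    (hU : ∀ i k, HasDerivAt (fun t => U t i k) (U' i k) 0) (v : Fk ι) :
    HasDerivAt (fun t => Gam (U t) v) (dG U' v) 0 := by
  have e1 : ∀ A : Op ι, A v = ∑ S, v S • A (ket S) := by
    intro A
    have h2 : A.ap v = A.ap (∑ S, v S • ket S) := by rw [← fk_eq_sum v]
    rw [h2, map_sum]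
    exact Finset.sum_congr rfl fun S _ => map_smul _ _ _
  rw [e1 (dG U')]
  have e2 : (fun t => Gam (U t) v) = fun t => ∑ S, v S • Gam (U t) (ket S) := by
    funext t; exact e1 _
  rw [e2]
  refine HasDerivAt.fun_sum fun S _ => ?_
  exact (hasDerivAt_Gam_ket h1 hU S).const_smul (v S)

theorem comm_of_Gam {U : ℝ → Matrix ι ι ℂ} {U' : Matrix ι ι ℂ} (h1 : U 0 = 1)
    (hU : ∀ i k, HasDerivAt (fun t => U t i k) (U' i k) 0) {A : Op ι}
    (hA : ∀ t, Gam (U t) * A = A * Gam (U t)) : dG U' * A = A * dG U' := by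
  refine Op.ext fun v => ?_
  have h2 := hasDerivAt_Gam h1 hU (A v)
  have h3 := hasDerivAt_ap A (hasDerivAt_Gam h1 hU v)
  have h4 : (fun t => Gam (U t) (A v)) = fun t => A (Gam (U t) v) := by
    funext t
    rw [← mul_ap, hA, mul_ap]
  rw [h4] at h2
  rw [mul_ap, mul_ap]
  exact h2.unique h3

end Gam

/-! ## derivative of `sp` at `1` -/

section Sp

/-- coefficientwise differentiability of a curve of polynomials -/
def Dif (f : ℝ → ℂ[X]) : Prop := ∀ m, DifferentiableAt ℝ (fun t => (f t).coeff m) 0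

theorem Dif.mul {f h : ℝ → ℂ[X]} (hf : Dif f) (hh : Dif h) : Dif fun t => f t * h t := by
  intro m
  simp only [coeff_mul]
  exact DifferentiableAt.fun_sum fun x _ => (hf _).mul (hh _)

theorem Dif.pow {f : ℝ → ℂ[X]} (hf : Dif f) (n : ℕ) : Dif fun t => f t ^ n := by
  induction n with
  | zero => intro m; simp only [pow_zero]; exact differentiableAt_const _
  | succ n ih => simp only [pow_succ]; exact ih.mul hf

theorem dif_lf {g : ℝ → Matrix (Fin 2) (Fin 2) ℂ}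
    (hg : ∀ a b, DifferentiableAt ℝ (fun t => g t a b) 0) (a : Fin 2) :
    Dif fun t => lf (g t) a := by
  have hC : ∀ b, Dif fun t => (C (g t a b) : ℂ[X]) := by
    intro b m
    rcases Nat.eq_zero_or_pos m with rfl | hm
    · simp only [coeff_C_zero]; exact hg a b
    · simp only [coeff_C_of_ne_zero hm.ne']; exact differentiableAt_const _
  intro m
  simp only [lf, coeff_add]
  refine (hC 0 m).add ?_
  exact (hC 1).mul (h := fun _ => X) (fun _ => differentiableAt_const _) m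

theorem differentiableAt_sp (Q : ℕ) {g : ℝ → Matrix (Fin 2) (Fin 2) ℂ}
    (hg : ∀ a b, DifferentiableAt ℝ (fun t => g t a b) 0) (i k : Fin (Q + 1)) :
    DifferentiableAt ℝ (fun t => sp Q (g t) i k) 0 := by
  simp only [sp, of_apply]
  exact (differentiableAt_const _).mul ((((dif_lf hg 0).pow _).mul ((dif_lf hg 1).pow _)) _)

/-- the raising matrix `∑ λ_k e_{k+1,k}` -/
def Lp (Q : ℕ) : Matrix (Fin (Q + 1)) (Fin (Q + 1)) ℂ :=
  Matrix.of fun i j => if (i : ℕ) = j + 1 then ((Kn249.lam Q j : ℝ) : ℂ) else 0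

/-- the lowering matrix `∑ λ_k e_{k,k+1}` -/
def Lm (Q : ℕ) : Matrix (Fin (Q + 1)) (Fin (Q + 1)) ℂ :=
  Matrix.of fun i j => if (j : ℕ) = i + 1 then ((Kn249.lam Q i : ℝ) : ℂ) else 0

/-- the differential of `sp` at `1` -/
def dsp (Q : ℕ) (x : Matrix (Fin 2) (Fin 2) ℂ) : Matrix (Fin (Q + 1)) (Fin (Q + 1)) ℂ :=
  x 0 0 • Matrix.diagonal (fun k : Fin (Q + 1) => ((Q : ℂ) - (k : ℕ))) +
    x 1 1 • Matrix.diagonal (fun k : Fin (Q + 1) => ((k : ℕ) : ℂ)) + x 1 0 • Lp Q + x 0 1 • Lm Q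

theorem lam_sb (Q k : ℕ) (_hk : k < Q) : Kn249.lam Q k * sb Q k = (k + 1) * sb Q (k + 1) := by
  unfold Kn249.lam sb
  have h1 : ((Nat.choose Q (k + 1) : ℕ) : ℝ) * (k + 1) = (Nat.choose Q k : ℕ) * ((Q - k : ℕ) : ℝ) := by
    have := Nat.choose_succ_right_eq Q k
    exact_mod_cast this
  rw [← Real.sqrt_mul (by positivity)]
  have h2 : ((k : ℝ) + 1) * ((Q - k : ℕ) : ℝ) * (Nat.choose Q k : ℕ) =
      ((k : ℝ) + 1) ^ 2 * (Nat.choose Q (k + 1) : ℕ) := by
    linear_combination (-((k : ℝ) + 1)) * h1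
  rw [h2, Real.sqrt_mul (by positivity), Real.sqrt_sq (by positivity)]

theorem lam_sb' (Q k : ℕ) (_hk : k < Q) :
    Kn249.lam Q k * sb Q (k + 1) = ((Q - k : ℕ) : ℝ) * sb Q k := by
  unfold Kn249.lam sb
  have h1 : ((Nat.choose Q (k + 1) : ℕ) : ℝ) * (k + 1) = (Nat.choose Q k : ℕ) * ((Q - k : ℕ) : ℝ) := by
    have := Nat.choose_succ_right_eq Q k
    exact_mod_cast this
  rw [← Real.sqrt_mul (by positivity)]
  have h2 : ((k : ℝ) + 1) * ((Q - k : ℕ) : ℝ) * (Nat.choose Q (k + 1) : ℕ) =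
      ((Q - k : ℕ) : ℝ) ^ 2 * (Nat.choose Q k : ℕ) := by
    linear_combination (((Q - k : ℕ) : ℝ)) * h1
  rw [h2, Real.sqrt_mul (by positivity), Real.sqrt_sq (by positivity)]

theorem Lp_mulVec_kap (Q : ℕ) (ζ : Fin 2 → ℂ) (j : Fin (Q + 1)) :
    (Lp Q *ᵥ kap Q ζ) j = ((sb Q j : ℝ) : ℂ) *
      (ζ 0 ^ (Q - (j : ℕ)) * ζ 0 * (((j : ℕ) : ℂ) * ζ 1 ^ ((j : ℕ) - 1))) := by
  obtain ⟨j, hj⟩ := j
  simp only [Lp, mulVec, dotProduct, of_apply, kap]
  rcases Nat.eq_zero_or_pos j with rfl | h0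
  · rw [Finset.sum_eq_zero]
    · simp
    · intro i _
      rw [if_neg (by simp), zero_mul]
  · obtain ⟨k, rfl⟩ : ∃ k, j = k + 1 := ⟨j - 1, by omega⟩
    have hk : k < Q := by omega
    rw [Finset.sum_eq_single (⟨k, by omega⟩ : Fin (Q + 1))]
    · rw [if_pos rfl, ← mul_assoc, ← Complex.ofReal_mul]
      simp only
      rw [lam_sb Q k hk]
      have e1 : Q - k = Q - (k + 1) + 1 := by omega
      rw [e1, pow_succ, Nat.add_sub_cancel]
      push_cast
      ring
    · intro b _ hb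
      rw [if_neg, zero_mul]
      intro h
      apply hb
      ext
      simp only at h ⊢
      omega
    · intro h; exact absurd (Finset.mem_univ _) h

theorem Lm_mulVec_kap (Q : ℕ) (ζ : Fin 2 → ℂ) (j : Fin (Q + 1)) :
    (Lm Q *ᵥ kap Q ζ) j = ((sb Q j : ℝ) : ℂ) *
      ((((Q - (j : ℕ) : ℕ) : ℂ) * ζ 0 ^ (Q - (j : ℕ) - 1)) * (ζ 1 ^ (j : ℕ) * ζ 1)) := by
  obtain ⟨j, hj⟩ := j
  simp only [Lm, mulVec, dotProduct, of_apply, kap]
  rcases Nat.lt_or_ge j Q with h0 | h0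
  · rw [Finset.sum_eq_single (⟨j + 1, by omega⟩ : Fin (Q + 1))]
    · rw [if_pos rfl, ← mul_assoc, ← Complex.ofReal_mul]
      simp only
      rw [lam_sb' Q j h0]
      have e1 : Q - (j + 1) = Q - j - 1 := by omega
      rw [e1, pow_succ]
      push_cast
      ring
    · intro b _ hb
      rw [if_neg, zero_mul]
      intro h
      apply hb
      ext
      simp only at h ⊢
      omega
    · intro h; exact absurd (Finset.mem_univ _) h
  · have h1 : j = Q := by omega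
    subst h1
    rw [Finset.sum_eq_zero]
    · simp
    · intro i _
      rw [if_neg, zero_mul]
      have := i.2
      omega

/-- `dsp` on coherent vectors -/
theorem dsp_mulVec_kap (Q : ℕ) (x : Matrix (Fin 2) (Fin 2) ℂ) (ζ : Fin 2 → ℂ) (j : Fin (Q + 1)) :
    (dsp Q x *ᵥ kap Q ζ) j = ((sb Q j : ℝ) : ℂ) *
      ((((Q - (j : ℕ) : ℕ) : ℂ) * ζ 0 ^ (Q - (j : ℕ) - 1) * (x *ᵥ ζ) 0) * ζ 1 ^ (j : ℕ) +
        ζ 0 ^ (Q - (j : ℕ)) * (((j : ℕ) : ℂ) * ζ 1 ^ ((j : ℕ) - 1) * (x *ᵥ ζ) 1)) := by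
  unfold dsp
  have hj : (j : ℕ) ≤ Q := Nat.lt_succ_iff.1 j.2
  rw [Matrix.add_mulVec, Matrix.add_mulVec, Matrix.add_mulVec, Matrix.smul_mulVec,
    Matrix.smul_mulVec, Matrix.smul_mulVec, Matrix.smul_mulVec]
  simp only [Pi.add_apply, Pi.smul_apply, smul_eq_mul, Lp_mulVec_kap, Lm_mulVec_kap,
    Matrix.mulVec_diagonal]
  have e0 : (x *ᵥ ζ) 0 = x 0 0 * ζ 0 + x 0 1 * ζ 1 := by
    simp [Matrix.mulVec, dotProduct, Fin.sum_univ_two]
  have e1 : (x *ᵥ ζ) 1 = x 1 0 * ζ 0 + x 1 1 * ζ 1 := by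
    simp [Matrix.mulVec, dotProduct, Fin.sum_univ_two]
  rw [e0, e1]
  simp only [kap]
  have e2 : ((Q : ℂ) - (j : ℕ)) * ζ 0 ^ (Q - (j : ℕ)) =
      ((Q - (j : ℕ) : ℕ) : ℂ) * ζ 0 ^ (Q - (j : ℕ) - 1) * ζ 0 := by
    rcases Nat.eq_or_lt_of_le hj with h | h
    · rw [h]; simp
    · have e3 : Q - (j : ℕ) = Q - (j : ℕ) - 1 + 1 := by omega
      conv_lhs => rw [e3, pow_succ]
      rw [Nat.cast_sub hj]
      ring
  have e3 : ((j : ℕ) : ℂ) * ζ 1 ^ (j : ℕ) = ((j : ℕ) : ℂ) * ζ 1 ^ ((j : ℕ) - 1) * ζ 1 := by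
    rcases Nat.eq_zero_or_pos (j : ℕ) with h | h
    · rw [h]; simp
    · have e3 : (j : ℕ) = (j : ℕ) - 1 + 1 := by omega
      conv_lhs => rw [e3, pow_succ]
      rw [← e3]; ring
  linear_combination (x 0 0 * ((sb Q j : ℝ) : ℂ) * ζ 1 ^ (j : ℕ)) * e2 +
    (x 1 1 * ((sb Q j : ℝ) : ℂ) * ζ 0 ^ (Q - (j : ℕ))) * e3

theorem hasDerivAt_sp (Q : ℕ) {g : ℝ → Matrix (Fin 2) (Fin 2) ℂ} {x : Matrix (Fin 2) (Fin 2) ℂ}
    (h1 : g 0 = 1) (hg : ∀ a b, HasDerivAt (fun t => g t a b) (x a b) 0) (i k : Fin (Q + 1)) :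
    HasDerivAt (fun t => sp Q (g t) i k) (dsp Q x i k) 0 := by
  have hd : ∀ i k, DifferentiableAt ℝ (fun t => sp Q (g t) i k) 0 :=
    fun i k => differentiableAt_sp Q (fun a b => (hg a b).differentiableAt) i k
  set N : Matrix (Fin (Q + 1)) (Fin (Q + 1)) ℂ :=
    Matrix.of fun i k => deriv (fun t => sp Q (g t) i k) 0 with hN
  have hN' : ∀ i k, HasDerivAt (fun t => sp Q (g t) i k) (N i k) 0 := fun i k => (hd i k).hasDerivAt
  have key : N = dsp Q x := by
    refine ext_kap fun ζ => ?_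
    funext j
    have a1 : HasDerivAt (fun t => (sp Q (g t) *ᵥ kap Q ζ) j) ((N *ᵥ kap Q ζ) j) 0 := by
      simp only [mulVec, dotProduct]
      exact HasDerivAt.fun_sum fun k _ => (hN' j k).mul_const _
    have a2 : (fun t => (sp Q (g t) *ᵥ kap Q ζ) j) = fun t => ((sb Q j : ℝ) : ℂ) *
        ((g t *ᵥ ζ) 0 ^ (Q - (j : ℕ)) * (g t *ᵥ ζ) 1 ^ (j : ℕ)) := by
      funext t
      rw [sp_mulVec_kap]
      rfl
    have a3 : ∀ a, HasDerivAt (fun t => (g t *ᵥ ζ) a) ((x *ᵥ ζ) a) 0 := by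
      intro a
      simp only [mulVec, dotProduct]
      exact HasDerivAt.fun_sum fun k _ => (hg a k).mul_const _
    have a4 : ∀ a, (g 0 *ᵥ ζ) a = ζ a := by intro a; rw [h1, Matrix.one_mulVec]
    have a5 := (((a3 0).pow (Q - (j : ℕ))).mul ((a3 1).pow (j : ℕ))).const_mul ((sb Q j : ℝ) : ℂ)
    rw [a2] at a1
    have a6 := a1.unique a5
    rw [a6, dsp_mulVec_kap]
    simp only [Pi.pow_apply, a4]
  rw [← key]
  exact hN' i k

end Sp

/-! ## operators commuting with all rotations commute with the ladders -/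

section Comm

variable {Q : ℕ}

theorem comm_dG_dsp {A : Op (Fin (Q + 1))}
    (hA : ∀ g : Matrix (Fin 2) (Fin 2) ℂ, g * gᴴ = 1 → Rg Q g * A = A * Rg Q g)
    {g : ℝ → Matrix (Fin 2) (Fin 2) ℂ} {x : Matrix (Fin 2) (Fin 2) ℂ} (h1 : g 0 = 1)
    (hu : ∀ t, g t * (g t)ᴴ = 1) (hg : ∀ a b, HasDerivAt (fun t => g t a b) (x a b) 0) :
    dG (dsp Q x) * A = A * dG (dsp Q x) :=
  comm_of_Gam (U := fun t => sp Q (g t)) (by simp only [h1, sp_one])
    (hasDerivAt_sp Q h1 hg) (fun t => hA (g t) (hu t))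

/-- real rotation -/
def g1 (t : ℝ) : Matrix (Fin 2) (Fin 2) ℂ :=
  !![(Real.cos t : ℂ), -(Real.sin t : ℂ); (Real.sin t : ℂ), (Real.cos t : ℂ)]

/-- imaginary rotation -/
def g2 (t : ℝ) : Matrix (Fin 2) (Fin 2) ℂ :=
  !![(Real.cos t : ℂ), Complex.I * (Real.sin t : ℂ); Complex.I * (Real.sin t : ℂ), (Real.cos t : ℂ)]

/-- phase -/
def g3 (t : ℝ) : Matrix (Fin 2) (Fin 2) ℂ :=
  !![1, 0; 0, (Real.cos t : ℂ) + Complex.I * (Real.sin t : ℂ)]

theorem cs (t : ℝ) : (Real.cos t : ℂ) * (Real.cos t : ℂ) + (Real.sin t : ℂ) * (Real.sin t : ℂ) = 1 := by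
  have := Real.cos_sq_add_sin_sq t
  have h : ((Real.cos t ^ 2 + Real.sin t ^ 2 : ℝ) : ℂ) = 1 := by rw [this]; simp
  push_cast at h ⊢
  linear_combination h

theorem fin2_ext {a b c d : ℂ} (h1 : a = 1) (h2 : b = 0) (h3 : c = 0) (h4 : d = 1) :
    (!![a, b; c, d] : Matrix (Fin 2) (Fin 2) ℂ) = 1 := by
  rw [h1, h2, h3, h4, Matrix.one_fin_two]

theorem ct_fin_two (a b c d : ℂ) : (!![a, b; c, d] : Matrix (Fin 2) (Fin 2) ℂ)ᴴ =
    !![(starRingEnd ℂ) a, (starRingEnd ℂ) c; (starRingEnd ℂ) b, (starRingEnd ℂ) d] := by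
  ext i j
  fin_cases i <;> fin_cases j <;> rfl

theorem g1_unitary (t : ℝ) : g1 t * (g1 t)ᴴ = 1 := by
  have h := cs t
  rw [g1, ct_fin_two, Matrix.mul_fin_two]
  simp only [map_neg, Complex.conj_ofReal]
  exact fin2_ext (by linear_combination h) (by ring) (by ring) (by linear_combination h)

theorem g2_unitary (t : ℝ) : g2 t * (g2 t)ᴴ = 1 := by
  have h := cs t
  rw [g2, ct_fin_two, Matrix.mul_fin_two]
  simp only [map_mul, Complex.conj_ofReal, Complex.conj_I]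
  have hI := Complex.I_mul_I
  exact fin2_ext (by linear_combination h - ((Real.sin t : ℂ) ^ 2) * hI) (by ring) (by ring)
    (by linear_combination h - ((Real.sin t : ℂ) ^ 2) * hI)

theorem g3_unitary (t : ℝ) : g3 t * (g3 t)ᴴ = 1 := by
  have h := cs t
  rw [g3, ct_fin_two, Matrix.mul_fin_two]
  simp only [map_mul, map_add, map_one, map_zero, Complex.conj_ofReal, Complex.conj_I]
  have hI := Complex.I_mul_I
  exact fin2_ext (by ring) (by ring) (by ring)
    (by linear_combination h - ((Real.sin t : ℂ) ^ 2) * hI)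

theorem g1_zero : g1 0 = 1 := by
  rw [g1]; exact fin2_ext (by simp) (by simp) (by simp) (by simp)

theorem g2_zero : g2 0 = 1 := by
  rw [g2]; exact fin2_ext (by simp) (by simp) (by simp) (by simp)

theorem g3_zero : g3 0 = 1 := by
  rw [g3]; exact fin2_ext (by simp) (by simp) (by simp) (by simp)

theorem hasDerivAt_cos0 : HasDerivAt (fun t : ℝ => (Real.cos t : ℂ)) 0 0 := by
  have := (Real.hasDerivAt_cos 0).ofReal_comp
  simpa using this

theorem hasDerivAt_sin0 : HasDerivAt (fun t : ℝ => (Real.sin t : ℂ)) 1 0 := by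
  have := (Real.hasDerivAt_sin 0).ofReal_comp
  simpa using this

theorem g1_deriv (a b : Fin 2) : HasDerivAt (fun t => g1 t a b)
    ((!![0, -1; 1, 0] : Matrix (Fin 2) (Fin 2) ℂ) a b) 0 := by
  fin_cases a <;> fin_cases b
  · exact hasDerivAt_cos0
  · exact hasDerivAt_sin0.fun_neg
  · exact hasDerivAt_sin0
  · exact hasDerivAt_cos0

theorem g2_deriv (a b : Fin 2) : HasDerivAt (fun t => g2 t a b)
    ((!![0, Complex.I; Complex.I, 0] : Matrix (Fin 2) (Fin 2) ℂ) a b) 0 := by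
  have h := hasDerivAt_sin0.const_mul Complex.I
  rw [mul_one] at h
  fin_cases a <;> fin_cases b
  · exact hasDerivAt_cos0
  · exact h
  · exact h
  · exact hasDerivAt_cos0

theorem g3_deriv (a b : Fin 2) : HasDerivAt (fun t => g3 t a b)
    ((!![0, 0; 0, Complex.I] : Matrix (Fin 2) (Fin 2) ℂ) a b) 0 := by
  have h := hasDerivAt_cos0.fun_add (hasDerivAt_sin0.const_mul Complex.I)
  rw [mul_one, zero_add] at h
  fin_cases a <;> fin_cases b
  · exact hasDerivAt_const _ _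
  · exact hasDerivAt_const _ _
  · exact hasDerivAt_const _ _
  · exact h

theorem UN_eq : UN Q = dG (Lm Q) := rfl

theorem Lm_ct : (Lm Q)ᴴ = Lp Q := by
  ext i j
  simp only [Lm, Lp, Matrix.conjTranspose_apply, Matrix.of_apply]
  split_ifs
  · exact Complex.conj_ofReal _
  · exact star_zero _

theorem star_UN : star (UN Q) = dG (Lp Q) := by
  rw [UN_eq, star_dG, Lm_ct]

/-- **An operator commuting with all rotations commutes with the ladders.** -/
theorem comm_of_Rg {A : Op (Fin (Q + 1))}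
    (hA : ∀ g : Matrix (Fin 2) (Fin 2) ℂ, g * gᴴ = 1 → Rg Q g * A = A * Rg Q g) :
    UN Q * A = A * UN Q ∧ star (UN Q) * A = A * star (UN Q) ∧ ZN Q * A = A * ZN Q := by
  have e1 := comm_dG_dsp hA g1_zero g1_unitary g1_deriv
  have e2 := comm_dG_dsp hA g2_zero g2_unitary g2_deriv
  have e3 := comm_dG_dsp hA g3_zero g3_unitary g3_deriv
  have d1 : dsp Q !![0, -1; 1, 0] = Lp Q - Lm Q := by
    unfold dsp
    simp only [Matrix.of_apply, Matrix.cons_val', Matrix.cons_val_zero, Matrix.cons_val_one,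
      Matrix.cons_val_fin_one, Fin.isValue, zero_smul, one_smul, neg_smul]
    abel
  have d2 : dsp Q !![0, Complex.I; Complex.I, 0] = Complex.I • (Lp Q + Lm Q) := by
    unfold dsp
    simp only [Matrix.of_apply, Matrix.cons_val', Matrix.cons_val_zero, Matrix.cons_val_one,
      Matrix.cons_val_fin_one, Fin.isValue, zero_smul, smul_add, zero_add]
  have d3 : dsp Q !![0, 0; 0, Complex.I] =
      Complex.I • Matrix.diagonal (fun k : Fin (Q + 1) => ((k : ℕ) : ℂ)) := by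
    unfold dsp
    simp only [Matrix.of_apply, Matrix.cons_val', Matrix.cons_val_zero, Matrix.cons_val_one,
      Matrix.cons_val_fin_one, Fin.isValue, zero_smul, zero_add, add_zero]
  have hI : Complex.I ≠ 0 := Complex.I_ne_zero
  rw [d1, dG_sub, sub_mul, mul_sub] at e1
  rw [d2, dG_smul, dG_add, smul_mul_assoc, mul_smul_comm, add_mul, mul_add] at e2
  rw [d3, dG_smul, smul_mul_assoc, mul_smul_comm] at e3
  have e2' := smul_right_injective (Op (Fin (Q + 1))) hI e2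
  have e3' := smul_right_injective (Op (Fin (Q + 1))) hI e3
  have h2 : (2 : ℂ) ≠ 0 := two_ne_zero
  refine ⟨?_, ?_, e3'⟩
  · rw [UN_eq]
    refine smul_right_injective (Op (Fin (Q + 1))) h2 ?_
    change (2 : ℂ) • (dG (Lm Q) * A) = (2 : ℂ) • (A * dG (Lm Q))
    have h3 : (2 : ℂ) • (dG (Lm Q) * A) = (dG (Lp Q) * A + dG (Lm Q) * A) -
        (dG (Lp Q) * A - dG (Lm Q) * A) := by rw [two_smul]; abel
    have h4 : (2 : ℂ) • (A * dG (Lm Q)) = (A * dG (Lp Q) + A * dG (Lm Q)) -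
        (A * dG (Lp Q) - A * dG (Lm Q)) := by rw [two_smul]; abel
    rw [h3, h4, e1]
    congr 1
  · rw [star_UN]
    refine smul_right_injective (Op (Fin (Q + 1))) h2 ?_
    change (2 : ℂ) • (dG (Lp Q) * A) = (2 : ℂ) • (A * dG (Lp Q))
    have h3 : (2 : ℂ) • (dG (Lp Q) * A) = (dG (Lp Q) * A + dG (Lm Q) * A) +
        (dG (Lp Q) * A - dG (Lm Q) * A) := by rw [two_smul]; abel
    have h4 : (2 : ℂ) • (A * dG (Lp Q)) = (A * dG (Lp Q) + A * dG (Lm Q)) +
        (A * dG (Lp Q) - A * dG (Lm Q)) := by rw [two_smul]; abel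
    rw [h3, h4, e1]
    congr 1

end Comm

end

end Crest.Agent.R340.Near515
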