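import Crest.Agent.R340.Near1_515
import Crest.Agent.R340.Near2_515
import Crest.Agent.R340.Avg_814
import Crest.Agent.R340.Pl8_249

/-!
# NEAR export, part 3 (helper515, R340, orphan O9)

From `∀ t : Inv Q, γ * t.a ≤ t.N pw` (helper249's `near`) to the operator inequality

`γ H ≤ H² - ∑_q B_q^* H B_q + (2Q-1) ∫ (B_0(g))^* (∑_{p<pw} B_p(g)^* B_p(g)) B_0(g) dμ(g)`

on the whole Fock space (`μ` = Haar probability on `U(2)`).
-/

set_option autoImplicit false
set_option linter.unusedSectionVars false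

namespace Crest.Agent.R340.Near515

open Finset Fock649 Matrix CS809 Gam303 Rot303 Kn249 Avg814 MeasureTheory Br320
open Crest.Agent.R124.Haar

noncomputable section

variable {Q : ℕ}

/-! ## the average over rotations -/

theorem unit_coe (g : G2) : (g : Matrix (Fin 2) (Fin 2) ℂ) * (g : Matrix (Fin 2) (Fin 2) ℂ)ᴴ = 1 := by
  have := Matrix.mem_unitaryGroup_iff.1 g.2
  rwa [Matrix.star_eq_conjTranspose] at this

/-- average over all rotations -/
def avg (A : Op (Fin (Q + 1))) : Op (Fin (Q + 1)) :=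
  ∫ g : G2, cj (g : Matrix (Fin 2) (Fin 2) ℂ) A ∂hm

theorem continuous_cj_coe (A : Op (Fin (Q + 1))) :
    Continuous fun g : G2 => cj (g : Matrix (Fin 2) (Fin 2) ℂ) A :=
  (continuous_cj A).comp continuous_subtype_val

theorem integrable_cj (A : Op (Fin (Q + 1))) :
    Integrable (fun g : G2 => cj (g : Matrix (Fin 2) (Fin 2) ℂ) A) hm :=
  integrable_of_cont (continuous_cj_coe A)

theorem avg_add (A B : Op (Fin (Q + 1))) : avg (A + B) = avg A + avg B := by
  unfold avg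
  rw [← integral_add (integrable_cj A) (integrable_cj B)]
  simp only [cj_add]

theorem avg_sub (A B : Op (Fin (Q + 1))) : avg (A - B) = avg A - avg B := by
  unfold avg
  rw [← integral_sub (integrable_cj A) (integrable_cj B)]
  simp only [cj_sub]

theorem avg_smul (a : ℂ) (A : Op (Fin (Q + 1))) : avg (a • A) = a • avg A := by
  unfold avg
  rw [← integral_smul]
  simp only [cj_smul]

/-- the average is invariant -/
theorem cj_avg (h : G2) (A : Op (Fin (Q + 1))) :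
    cj (h : Matrix (Fin 2) (Fin 2) ℂ) (avg A) = avg A := by
  have h1 : cj (h : Matrix (Fin 2) (Fin 2) ℂ) (avg A) =
      ∫ g : G2, cj ((h * g : G2) : Matrix (Fin 2) (Fin 2) ℂ) A ∂hm := by
    change Rg Q (h : Matrix (Fin 2) (Fin 2) ℂ) *
      (∫ g : G2, cj (g : Matrix (Fin 2) (Fin 2) ℂ) A ∂hm) * star (Rg Q h) = _
    rw [mul_integral_op (integrable_cj A), integral_mul_op ((integrable_cj A).const_mul _)]
    refine integral_congr_ae (Filter.Eventually.of_forall fun g => ?_)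
    simp only
    rw [coe_mul', ← cj_cj]
    rfl
  rw [h1]
  exact integral_mul_left' (fun g : G2 => cj (g : Matrix (Fin 2) (Fin 2) ℂ) A) h

theorem Rg_mul_avg {g : Matrix (Fin 2) (Fin 2) ℂ} (hg : g * gᴴ = 1) (A : Op (Fin (Q + 1))) :
    Rg Q g * avg A = avg A * Rg Q g := by
  have hg' : g ∈ Matrix.unitaryGroup (Fin 2) ℂ := by
    rw [Matrix.mem_unitaryGroup_iff, Matrix.star_eq_conjTranspose]; exact hg
  have h := cj_avg (Q := Q) ⟨g, hg'⟩ A
  unfold cj at h
  calc Rg Q g * avg A = Rg Q g * avg A * (star (Rg Q g) * Rg Q g) := by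
        rw [star_Rg_mul hg, mul_one]
    _ = avg A * Rg Q g := by rw [← mul_assoc, h]

/-- trace against an invariant operator -/
theorem tr_mul_avg {P : Op (Fin (Q + 1))}
    (hP : ∀ g : Matrix (Fin 2) (Fin 2) ℂ, g * gᴴ = 1 → Rg Q g * P = P * Rg Q g)
    (A : Op (Fin (Q + 1))) : tr (P * avg A) = tr (P * A) := by
  have h1 : ∀ g : G2, tr (P * cj (g : Matrix (Fin 2) (Fin 2) ℂ) A) = tr (P * A) := by
    intro g
    unfold cj
    have e1 : P * (Rg Q g * A * star (Rg Q g)) = (P * Rg Q g * A) * star (Rg Q g) := by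
      noncomm_ring
    rw [e1, tr_mul_comm, ← hP _ (unit_coe g)]
    have e2 : star (Rg Q (g : Matrix (Fin 2) (Fin 2) ℂ)) * (Rg Q g * P * A) =
        (star (Rg Q g) * Rg Q g) * (P * A) := by noncomm_ring
    rw [e2, star_Rg_mul (unit_coe g), one_mul]
  have h2 : tr (P * avg A) = ∫ g : G2, tr (P * cj (g : Matrix (Fin 2) (Fin 2) ℂ) A) ∂hm := by
    unfold avg
    rw [mul_integral_op (integrable_cj A), ← trC_apply]
    exact (trC.integral_comp_comm ((integrable_cj A).const_mul P)).symm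
  rw [h2]
  simp only [h1]
  rw [integral_const]
  simp

theorem cj_of_comm {K : Op (Fin (Q + 1))} {g : Matrix (Fin 2) (Fin 2) ℂ} (hg : g * gᴴ = 1)
    (h : Rg Q g * K = K * Rg Q g) : cj g K = K := by
  unfold cj
  rw [h, mul_assoc, Rg_mul_star hg, mul_one]

/-- averaging an operator multiplied with an invariant one -/
theorem avg_mul_of_inv {K : Op (Fin (Q + 1))}
    (hK : ∀ g : Matrix (Fin 2) (Fin 2) ℂ, g * gᴴ = 1 → cj g K = K) (A : Op (Fin (Q + 1))) :
    avg (A * K) = avg A * K := by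
  unfold avg
  rw [integral_mul_op (integrable_cj A)]
  refine integral_congr_ae (Filter.Eventually.of_forall fun g => ?_)
  simp only
  rw [cj_mul (unit_coe g), hK _ (unit_coe g)]

/-- the average of `B_p^* K B_p` for an invariant `K` -/
theorem avg_conj {K : Op (Fin (Q + 1))}
    (hK : ∀ g : Matrix (Fin 2) (Fin 2) ℂ, g * gᴴ = 1 → cj g K = K) (p : Fin (2 * Q - 1)) :
    (2 * (Q : ℂ) - 1) • avg (star (Bp Q p) * K * Bp Q p) =
      ∑ q, star (Bp Q q) * K * Bp Q q := by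
  have h1 : ∀ g : G2, cj (g : Matrix (Fin 2) (Fin 2) ℂ) (star (Bp Q p) * K * Bp Q p) =
      ∑ q, ∑ r, (D2 Q (g : Matrix (Fin 2) (Fin 2) ℂ) q p *
        star (D2 Q (g : Matrix (Fin 2) (Fin 2) ℂ) r p)) • (star (Bp Q q) * K * Bp Q r) := by
    intro g
    have hg := unit_coe g
    rw [cj_mul hg, cj_mul hg, hK _ hg, ← cj_star]
    change star (Bg Q g p) * K * Bg Q g p = _
    rw [star_Bg_eq hg, Bg_eq hg, smul_mul_assoc, smul_mul_smul_comm, det_mul_star hg, one_smul,
      Finset.sum_mul, Finset.sum_mul_sum]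
    refine Finset.sum_congr rfl fun q _ => Finset.sum_congr rfl fun r _ => ?_
    rw [smul_mul_assoc, smul_mul_smul_comm]
  have hint : ∀ q r, Integrable (fun g : G2 => (D2 Q (g : Matrix (Fin 2) (Fin 2) ℂ) q p *
        star (D2 Q (g : Matrix (Fin 2) (Fin 2) ℂ) r p)) • (star (Bp Q q) * K * Bp Q r)) hm := by
    intro q r
    exact integrable_of_cont
      (((continuous_D2_entry Q q p).mul (continuous_D2_entry Q r p).star).smul continuous_const)
  unfold avg
  simp only [h1]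
  rw [integral_finsetSum _ fun q _ => integrable_finsetSum _ fun r _ => hint q r]
  have h2 : ∀ q r, ∫ g : G2, (D2 Q (g : Matrix (Fin 2) (Fin 2) ℂ) q p *
        star (D2 Q (g : Matrix (Fin 2) (Fin 2) ℂ) r p)) • (star (Bp Q q) * K * Bp Q r) ∂hm =
      (if q = r then (2 * (Q : ℂ) - 1)⁻¹ else 0) • (star (Bp Q q) * K * Bp Q r) := by
    intro q r
    rw [integral_smul_const, schur_D2]
    simp
  rw [Finset.smul_sum]
  refine Finset.sum_congr rfl fun q _ => ?_
  rw [integral_finsetSum _ fun r _ => hint q r]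
  simp only [h2, ite_smul, zero_smul, Finset.sum_ite_eq, Finset.mem_univ, if_true, smul_smul]
  have hne : (2 * (Q : ℂ) - 1) ≠ 0 := by
    have hQ : 1 ≤ Q := by
      rcases Nat.eq_zero_or_pos Q with rfl | h
      · exact (IsEmpty.elim (inferInstance : IsEmpty (Fin 0)) p)
      · exact h
    have : (2 * (Q : ℂ) - 1) = ((2 * Q - 1 : ℕ) : ℂ) := by
      rw [Nat.cast_sub (by omega)]; push_cast; ring
    rw [this]
    exact_mod_cast (by omega : 2 * Q - 1 ≠ 0)
  rw [mul_inv_cancel₀ hne, one_smul]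

/-! ## the near inequality -/

/-- the near term `B_0^* (∑_{p<pw} B_p^* B_p) B_0` -/
def nearT (Q pw : ℕ) : Op (Fin (Q + 1)) :=
  ∑ p ∈ range pw, star (WN Q p * WN Q 0) * (WN Q p * WN Q 0)

theorem star_nearT (pw : ℕ) : star (nearT Q pw) = nearT Q pw := by
  unfold nearT
  rw [star_sum]
  refine Finset.sum_congr rfl fun p _ => ?_
  rw [star_mul, star_star]

theorem star_avg (A : Op (Fin (Q + 1))) : star (avg A) = avg (star A) := by
  unfold avg
  rw [star_integral_op]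
  refine integral_congr_ae (Filter.Eventually.of_forall fun g => ?_)
  simp only
  rw [← cj_star]

theorem WN_eq_Bp (p : Fin (2 * Q - 1)) : WN Q p = Bp Q p := rfl

/-- the near operator `H² - ∑_q B_q^* H B_q + (2Q-1) avg(near) - γ H` -/
def nearY (Q pw : ℕ) (γ : ℝ) : Op (Fin (Q + 1)) :=
  HH Q * HH Q - ∑ q, star (Bp Q q) * HH Q * Bp Q q + (2 * (Q : ℂ) - 1) • avg (nearT Q pw) -
    (γ : ℂ) • HH Q

/-- the `q = 0` representative of `nearY` -/
def nearX (Q pw : ℕ) (γ : ℝ) : Op (Fin (Q + 1)) :=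
  star (WN Q 0) * (WN Q 0 * HN Q - HN Q * WN Q 0) + nearT Q pw -
    (γ : ℂ) • (star (WN Q 0) * WN Q 0)

theorem cj_HH' {g : Matrix (Fin 2) (Fin 2) ℂ} (hg : g * gᴴ = 1) : cj g (HH Q) = HH Q := cj_HH hg

theorem nearY_eq (hQ : 1 ≤ Q) (pw : ℕ) (γ : ℝ) :
    nearY Q pw γ = (2 * (Q : ℂ) - 1) • avg (nearX Q pw γ) := by
  have hp : 0 < 2 * Q - 1 := by omega
  set p0 : Fin (2 * Q - 1) := ⟨0, hp⟩ with hp0
  have hW : WN Q 0 = Bp Q p0 := rfl
  have e1 : (2 * (Q : ℂ) - 1) • avg (star (Bp Q p0) * Bp Q p0) = HH Q := by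
    have := avg_conj (Q := Q) (K := 1) (fun g hg => cj_one hg) p0
    simp only [mul_one] at this
    rw [this]
    rfl
  have e2 := avg_conj (Q := Q) (K := HH Q) (fun g hg => cj_HH hg) p0
  have e3 : avg (star (Bp Q p0) * Bp Q p0 * HH Q) = avg (star (Bp Q p0) * Bp Q p0) * HH Q :=
    avg_mul_of_inv (fun g hg => cj_HH hg) _
  have e4 : nearX Q pw γ = star (Bp Q p0) * Bp Q p0 * HH Q - star (Bp Q p0) * HH Q * Bp Q p0 +
      nearT Q pw - (γ : ℂ) • (star (Bp Q p0) * Bp Q p0) := by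
    unfold nearX
    rw [hW, HN_eq_HH, mul_sub]
    simp only [mul_assoc]
  rw [e4, avg_sub, avg_add, avg_sub, avg_smul, e3, smul_sub, smul_add, smul_sub, e2,
    ← smul_mul_assoc, e1, smul_comm, e1]
  rfl

theorem re_tr_nearX_nonneg {P : Op (Fin (Q + 1))} (hPs : star P = P) (hPP : P * P = P)
    (hP : ∀ g : Matrix (Fin 2) (Fin 2) ℂ, g * gᴴ = 1 → Rg Q g * P = P * Rg Q g) (pw : ℕ) (γ : ℝ)
    (hnear : ∀ t : Inv Q, γ * t.a ≤ t.N pw) : 0 ≤ (tr (P * nearX Q pw γ)).re := by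
  obtain ⟨hU, hV, hZ⟩ := comm_of_Rg hP
  let t : Inv Q :=
    { τ := trL.comp (LinearMap.mulLeft ℂ P)
      pos := fun A => by
        change 0 ≤ (tr (P * (star A * A))).re
        have e1 : tr (P * (star A * A)) = tr (star (A * P) * (A * P)) := by
          rw [star_mul, hPs]
          conv_lhs => rw [← hPP, mul_assoc, tr_mul_comm]
          congr 1
        rw [e1]
        exact tr_star_mul_self_nonneg _
      herm := fun A => by
        change tr (P * star A) = (starRingEnd ℂ) (tr (P * A))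
        rw [← tr_star, star_mul, hPs, tr_mul_comm]
      invU := fun A => by
        change tr (P * (UN Q * A)) = tr (P * (A * UN Q))
        rw [← mul_assoc, ← hU, mul_assoc, tr_mul_comm, mul_assoc]
      invV := fun A => by
        change tr (P * (star (UN Q) * A)) = tr (P * (A * star (UN Q)))
        rw [← mul_assoc, ← hV, mul_assoc, tr_mul_comm, mul_assoc]
      invZ := fun A => by
        change tr (P * (ZN Q * A)) = tr (P * (A * ZN Q))
        rw [← mul_assoc, ← hZ, mul_assoc, tr_mul_comm, mul_assoc] }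
  have h1 := hnear t
  have h2 : tr (P * nearX Q pw γ) = t.τ (nearX Q pw γ) := rfl
  have h3 : (t.τ (nearX Q pw γ)).re = t.N pw - γ * t.a := by
    unfold nearX nearT Inv.N Inv.a
    rw [map_sub, map_add, map_smul, map_sum, smul_eq_mul, Complex.sub_re, Complex.add_re,
      Complex.re_ofReal_mul, Complex.re_sum]
    ring
  rw [h2, h3]
  linarith

theorem star_HH (Q : ℕ) : star (HH Q) = HH Q := by
  rw [← HN_eq_HH]; exact Kn249.star_HN Q

theorem star_nearY (pw : ℕ) (γ : ℝ) : star (nearY Q pw γ) = nearY Q pw γ := by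
  unfold nearY
  have h1 : star (2 * (Q : ℂ) - 1) = 2 * (Q : ℂ) - 1 := by simp
  have h2 : star ((γ : ℝ) : ℂ) = (γ : ℂ) := Complex.conj_ofReal γ
  rw [star_sub, star_add, star_sub, star_mul, star_HH, star_smul, star_smul, h1, h2, star_avg,
    star_nearT, star_HH, star_sum]
  congr 3
  refine Finset.sum_congr rfl fun q _ => ?_
  rw [star_mul, star_mul, star_star, star_HH, mul_assoc]

/-- **The near inequality, operator form.** -/
theorem nearY_nonneg (hQ : 1 ≤ Q) (pw : ℕ) (γ : ℝ) (hnear : ∀ t : Inv Q, γ * t.a ≤ t.N pw) :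
    0 ≤ nearY Q pw γ := by
  refine nonneg_of_proj (star_nearY pw γ) fun P hPs hPP hP => ?_
  have hcomm : ∀ g : Matrix (Fin 2) (Fin 2) ℂ, g * gᴴ = 1 →
      Rg Q g * nearY Q pw γ = nearY Q pw γ * Rg Q g := by
    intro g hg
    rw [nearY_eq hQ, mul_smul_comm, smul_mul_assoc, Rg_mul_avg hg]
  have hP' : ∀ g : Matrix (Fin 2) (Fin 2) ℂ, g * gᴴ = 1 → Rg Q g * P = P * Rg Q g := by
    intro g hg
    refine hP _ (hcomm g hg) ?_
    have h := congrArg star (hcomm g hg)
    rw [star_mul, star_mul, star_nearY] at h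
    exact h.symm
  rw [nearY_eq hQ, mul_smul_comm, tr_smul, tr_mul_avg hP']
  have h1 : (2 * (Q : ℂ) - 1) = ((2 * (Q : ℝ) - 1 : ℝ) : ℂ) := by push_cast; ring
  rw [h1, Complex.re_ofReal_mul]
  refine mul_nonneg ?_ (re_tr_nearX_nonneg hPs hPP hP' pw γ hnear)
  have : (1 : ℝ) ≤ Q := by exact_mod_cast hQ
  linarith

/-- **NEAR** (the form consumed by the descent argument): for every Fock vector `ψ`,
`γ ⟨ψ,Hψ⟩ ≤ ‖Hψ‖² - ∑_q ⟨B_qψ, H B_qψ⟩ + (2Q-1) ∫ ∑_{p<pw} ‖B_p(g) B_0(g) ψ‖² dμ(g)`. -/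
theorem near_form (hQ : 1 ≤ Q) (pw : ℕ) (hpw : pw ≤ 2 * Q - 1) (γ : ℝ)
    (hnear : ∀ t : Inv Q, γ * t.a ≤ t.N pw) (ψ : Fk (Fin (Q + 1))) :
    γ * (inner ℂ ψ (HH Q ψ) : ℂ).re ≤ ‖HH Q ψ‖ ^ 2 -
      ∑ q, (inner ℂ (Bp Q q ψ) (HH Q (Bp Q q ψ)) : ℂ).re +
      (2 * (Q : ℝ) - 1) * ∫ g : G2, ∑ p : Fin pw,
        ‖Bg Q (g : Matrix (Fin 2) (Fin 2) ℂ) (Fin.castLE hpw p)
          (Bg Q g ⟨0, by omega⟩ ψ)‖ ^ 2 ∂hm := by
  have h0 := (Op.nonneg_iff _).1 (nearY_nonneg hQ pw γ hnear)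
  have h1 := h0.2 ψ
  unfold nearY at h1
  rw [sub_ap, add_ap, sub_ap, smul_ap, smul_ap, inner_sub_right, inner_add_right, inner_sub_right,
    inner_smul_right, inner_smul_right, Complex.sub_re, Complex.add_re, Complex.sub_re,
    Complex.re_ofReal_mul] at h1
  have e1 : (inner ℂ ψ ((HH Q * HH Q) ψ) : ℂ).re = ‖HH Q ψ‖ ^ 2 := by
    have : inner ℂ ψ ((star (HH Q) * HH Q) ψ) = ((‖HH Q ψ‖ : ℂ)) ^ 2 := inner_star_mul_self _ _
    rw [star_HH] at this
    rw [this, ← Complex.ofReal_pow, Complex.ofReal_re]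
  have e2 : (inner ℂ ψ ((∑ q, star (Bp Q q) * HH Q * Bp Q q) ψ) : ℂ).re =
      ∑ q, (inner ℂ (Bp Q q ψ) (HH Q (Bp Q q ψ)) : ℂ).re := by
    rw [sum_ap, inner_sum, Complex.re_sum]
    refine Finset.sum_congr rfl fun q _ => ?_
    rw [mul_ap, mul_ap, inner_star_right]
  have h2 : (2 * (Q : ℂ) - 1) = ((2 * (Q : ℝ) - 1 : ℝ) : ℂ) := by push_cast; ring
  have e3 : ((2 * (Q : ℂ) - 1) * inner ℂ ψ (avg (nearT Q pw) ψ) : ℂ).re =
      (2 * (Q : ℝ) - 1) * ∫ g : G2, ∑ p : Fin pw,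
        ‖Bg Q (g : Matrix (Fin 2) (Fin 2) ℂ) (Fin.castLE hpw p)
          (Bg Q g ⟨0, by omega⟩ ψ)‖ ^ 2 ∂hm := by
    rw [h2, Complex.re_ofReal_mul]
    congr 1
    unfold avg
    rw [re_inner_integral_ap (integrable_cj _)]
    refine integral_congr_ae (Filter.Eventually.of_forall fun g => ?_)
    simp only
    unfold nearT
    rw [cj_sum, sum_ap, inner_sum, Complex.re_sum, Finset.sum_range]
    refine Finset.sum_congr rfl fun p _ => ?_
    have hg := unit_coe g
    rw [cj_mul hg, ← cj_star, cj_mul hg, inner_star_mul_self, ← Complex.ofReal_pow,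
      Complex.ofReal_re]
    rfl
  rw [e1, e2, e3] at h1
  linarith

end

end Crest.Agent.R340.Near515
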