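import Mathlib

/-!
# R340 (helper757): binomial kernel facts K3 / K4 (pure real analysis)

`bw Q j t = C(Q,j) t^j (1-t)^(Q-j)` is the squared overlap of the coherent vector at (normalised
chordal distance)² `t` with the `j`-th orbital.
-/

set_option autoImplicit false

namespace Crest.Agent.R340.PD757

open Finset MeasureTheory

/-- binomial weight -/
noncomputable def bw (Q j : ℕ) (t : ℝ) : ℝ := (Q.choose j : ℝ) * t ^ j * (1 - t) ^ (Q - j)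

theorem bw_nonneg (Q j : ℕ) {t : ℝ} (h0 : 0 ≤ t) (h1 : t ≤ 1) : 0 ≤ bw Q j t := by
  unfold bw
  have : 0 ≤ 1 - t := by linarith
  positivity

theorem continuous_bw (Q j : ℕ) : Continuous (bw Q j) := by
  unfold bw; fun_prop

theorem bw_eq_zero {Q j : ℕ} (h : Q < j) (t : ℝ) : bw Q j t = 0 := by
  unfold bw; rw [Nat.choose_eq_zero_of_lt h]; simp

theorem sum_bw (Q : ℕ) (t : ℝ) : ∑ j ∈ range (Q + 1), bw Q j t = 1 := by
  have h := add_pow t (1 - t) Q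
  rw [show t + (1 - t) = 1 by ring, one_pow] at h
  rw [h]
  refine sum_congr rfl fun j _ => ?_
  unfold bw; ring

theorem bw_le_one {Q j : ℕ} {t : ℝ} (h0 : 0 ≤ t) (h1 : t ≤ 1) : bw Q j t ≤ 1 := by
  rcases lt_or_ge Q j with h | h
  · rw [bw_eq_zero h]; exact zero_le_one
  · rw [← sum_bw Q t]
    exact single_le_sum (f := fun j => bw Q j t) (fun i _ => bw_nonneg Q i h0 h1)
      (mem_range.2 (Nat.lt_succ_of_le h))

/-- reduction of the index -/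
theorem bw_succ {Q j : ℕ} (t : ℝ) :
    ((j:ℝ) + 1) * bw (Q + 1) (j + 1) t = ((Q:ℝ) + 1) * t * bw Q j t := by
  unfold bw
  have h : ((Q + 1 : ℕ) : ℝ) * (Q.choose j : ℝ) = ((Q + 1).choose (j + 1) : ℝ) * ((j + 1 : ℕ) : ℝ) := by
    exact_mod_cast Nat.add_one_mul_choose_eq Q j
  push_cast at h
  rw [show Q + 1 - (j + 1) = Q - j by omega]
  calc ((j:ℝ) + 1) * (((Q + 1).choose (j + 1) : ℝ) * t ^ (j + 1) * (1 - t) ^ (Q - j))
      = (((Q + 1).choose (j + 1) : ℝ) * ((j:ℝ) + 1)) * t ^ (j + 1) * (1 - t) ^ (Q - j) := by ring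
    _ = _ := by rw [← h]; ring

/-- `τ : Z → [0,1]` has the Beta moments of the squared chordal distance:
`∫ C(Q,j) τ^j (1-τ)^(Q-j) = 1/(Q+1)` (Schur orthogonality). -/
structure Tau {Z : Type*} [MeasurableSpace Z] (μ : Measure Z) (τ : Z → ℝ) : Prop where
  fin : IsFiniteMeasure μ
  meas : Measurable τ
  nonneg : ∀ z, 0 ≤ τ z
  le_one : ∀ z, τ z ≤ 1
  mom : ∀ Q j : ℕ, j ≤ Q → ∫ z, bw Q j (τ z) ∂μ = 1 / ((Q:ℝ) + 1)

namespace Tau

variable {Z : Type*} [MeasurableSpace Z] {μ : Measure Z} {τ : Z → ℝ}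

/-- every bounded continuous function of `τ` is integrable -/
theorem intble (h : Tau μ τ) {f : ℝ → ℝ} (hf : ContinuousOn f (Set.Icc 0 1)) :
    Integrable (fun z => f (τ z)) μ := by
  have := h.fin
  obtain ⟨C, hC⟩ := (isCompact_Icc (a := (0:ℝ)) (b := 1)).exists_bound_of_continuousOn hf
  have hm : Measurable fun z => f (τ z) := by
    let g : ℝ → ℝ := Set.IccExtend (zero_le_one (α := ℝ)) (Set.domRestrict (Set.Icc 0 1) f)
    have hg : Continuous g := (continuousOn_iff_continuous_domRestrict.1 hf).Icc_extend'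
    have he : (fun z => f (τ z)) = fun z => g (τ z) := by
      funext z
      simp only [g]
      rw [Set.IccExtend_of_mem _ _ (⟨h.nonneg z, h.le_one z⟩ : τ z ∈ Set.Icc (0:ℝ) 1)]
      rfl
    rw [he]
    exact hg.measurable.comp h.meas
  exact Integrable.of_bound hm.aestronglyMeasurable C
    (Filter.Eventually.of_forall fun z => hC _ ⟨h.nonneg z, h.le_one z⟩)

theorem intble_bw (h : Tau μ τ) (Q j : ℕ) : Integrable (fun z => bw Q j (τ z)) μ :=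
  h.intble (continuous_bw Q j).continuousOn

theorem qnn (h : Tau μ τ) (Q : ℕ) (z : Z) : 0 ≤ (Q:ℝ) * τ z :=
  mul_nonneg (Nat.cast_nonneg _) (h.nonneg z)

theorem cont_inv (Q n : ℕ) : ContinuousOn (fun t : ℝ => ((1 + (Q:ℝ) * t) ^ n)⁻¹) (Set.Icc 0 1) := by
  apply ContinuousOn.inv₀ (by fun_prop)
  intro t ht
  have : 0 ≤ (Q:ℝ) * t := mul_nonneg (Nat.cast_nonneg _) ht.1
  positivity

/-- the weighted beta moment -/
noncomputable def bm (μ : Measure Z) (τ : Z → ℝ) (n Q j : ℕ) : ℝ :=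
  ((Q : ℝ) + 1) * ∫ z, bw Q j (τ z) * ((1 + (Q:ℝ) * τ z) ^ n)⁻¹ ∂μ

theorem bm_intble (h : Tau μ τ) (n Q j : ℕ) :
    Integrable (fun z => bw Q j (τ z) * ((1 + (Q:ℝ) * τ z) ^ n)⁻¹) μ :=
  h.intble (f := fun t => bw Q j t * ((1 + (Q:ℝ) * t) ^ n)⁻¹)
    ((continuous_bw Q j).continuousOn.mul (cont_inv Q n))

theorem bm_le_one (h : Tau μ τ) (n : ℕ) {Q j : ℕ} (hj : j ≤ Q) : bm μ τ n Q j ≤ 1 := by
  have h1 : ((Q:ℝ) + 1) * ∫ z, bw Q j (τ z) ∂μ = 1 := by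
    rw [h.mom Q j hj]
    have : (Q:ℝ) + 1 ≠ 0 := by positivity
    field_simp
  rw [← h1]
  unfold bm
  refine mul_le_mul_of_nonneg_left ?_ (by positivity)
  refine integral_mono (h.bm_intble n Q j) (h.intble_bw Q j) fun z => ?_
  have h0 := h.qnn Q z
  have h1 : (1:ℝ) ≤ (1 + (Q:ℝ) * τ z) ^ n := one_le_pow₀ (by linarith)
  have h2 : ((1 + (Q:ℝ) * τ z) ^ n)⁻¹ ≤ 1 := inv_le_one_of_one_le₀ h1
  calc _ ≤ bw Q j (τ z) * 1 := mul_le_mul_of_nonneg_left h2 (bw_nonneg Q j (h.nonneg z) (h.le_one z))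
    _ = _ := mul_one _

theorem bm_int_nonneg (h : Tau μ τ) (n Q j : ℕ) :
    0 ≤ ∫ z, bw Q j (τ z) * ((1 + (Q:ℝ) * τ z) ^ n)⁻¹ ∂μ := by
  refine integral_nonneg fun z => ?_
  have h0 := h.qnn Q z
  have := bw_nonneg Q j (h.nonneg z) (h.le_one z)
  positivity

theorem bm_nonneg (h : Tau μ τ) (n Q j : ℕ) : 0 ≤ bm μ τ n Q j :=
  mul_nonneg (by positivity) (h.bm_int_nonneg n Q j)

theorem bm_succ_le (h : Tau μ τ) (n Q j : ℕ) :
    ((j:ℝ) + 1) * bm μ τ (n + 1) (Q + 1) (j + 1) ≤ 2 * bm μ τ n Q j := by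
  unfold bm
  rw [← mul_assoc, mul_comm ((j:ℝ) + 1) _, mul_assoc, ← integral_const_mul]
  have hle : ∫ z, ((j:ℝ) + 1) *
      (bw (Q + 1) (j + 1) (τ z) * ((1 + ((Q + 1 : ℕ):ℝ) * τ z) ^ (n + 1))⁻¹) ∂μ ≤
      ∫ z, bw Q j (τ z) * ((1 + (Q:ℝ) * τ z) ^ n)⁻¹ ∂μ := by
    refine integral_mono ((h.bm_intble (n + 1) (Q + 1) (j + 1)).const_mul _)
      (h.bm_intble n Q j) fun z => ?_
    simp only
    rw [← mul_assoc, bw_succ]
    have h0 := h.qnn Q z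
    have ht0 := h.nonneg z
    have hb := bw_nonneg Q j (h.nonneg z) (h.le_one z)
    push_cast
    have h1 : ((Q:ℝ) + 1) * τ z ≤ 1 + ((Q:ℝ) + 1) * τ z := by linarith
    have h2 : 0 < 1 + ((Q:ℝ) + 1) * τ z := by positivity
    have h3 : (1 + (Q:ℝ) * τ z) ^ n ≤ (1 + ((Q:ℝ) + 1) * τ z) ^ n :=
      pow_le_pow_left₀ (by positivity) (by nlinarith) n
    have h4 : (0:ℝ) < (1 + (Q:ℝ) * τ z) ^ n := by positivity
    have h5 : ((1 + ((Q:ℝ) + 1) * τ z) ^ n)⁻¹ ≤ ((1 + (Q:ℝ) * τ z) ^ n)⁻¹ := inv_anti₀ h4 h3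
    have h6 : ((Q:ℝ) + 1) * τ z * (1 + ((Q:ℝ) + 1) * τ z)⁻¹ ≤ 1 := by
      rw [← div_eq_mul_inv, div_le_one h2]; exact h1
    rw [pow_succ, mul_inv]
    calc ((Q:ℝ) + 1) * τ z * bw Q j (τ z) *
          (((1 + ((Q:ℝ) + 1) * τ z) ^ n)⁻¹ * (1 + ((Q:ℝ) + 1) * τ z)⁻¹)
        = bw Q j (τ z) * ((1 + ((Q:ℝ) + 1) * τ z) ^ n)⁻¹ *
          (((Q:ℝ) + 1) * τ z * (1 + ((Q:ℝ) + 1) * τ z)⁻¹) := by ring
      _ ≤ bw Q j (τ z) * ((1 + ((Q:ℝ) + 1) * τ z) ^ n)⁻¹ * 1 := by gcongr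
      _ ≤ bw Q j (τ z) * ((1 + (Q:ℝ) * τ z) ^ n)⁻¹ := by rw [mul_one]; gcongr
  have hI := h.bm_int_nonneg n Q j
  push_cast
  push_cast at hle
  calc _ ≤ ((Q:ℝ) + 1 + 1) * ∫ z, bw Q j (τ z) * ((1 + (Q:ℝ) * τ z) ^ n)⁻¹ ∂μ := by gcongr
    _ ≤ (2 * ((Q:ℝ) + 1)) * ∫ z, bw Q j (τ z) * ((1 + (Q:ℝ) * τ z) ^ n)⁻¹ ∂μ := by
        refine mul_le_mul_of_nonneg_right ?_ hI
        have : (0:ℝ) ≤ Q := Nat.cast_nonneg _
        linarith
    _ = _ := by ring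

/-- **K3** : the `j`-th orbital is at distance `√j` (negative moments). -/
theorem K3 (h : Tau μ τ) (n : ℕ) :
    ∀ {Q j : ℕ}, j ≤ Q → bm μ τ n Q j ≤ 2 ^ (n * (n + 3)) / ((1:ℝ) + j) ^ n := by
  induction n with
  | zero =>
    intro Q j hj
    simpa using h.bm_le_one 0 hj
  | succ n ih =>
    intro Q j hj
    have h1 : (1:ℝ) ≤ 2 ^ ((n + 1) * (n + 1 + 3)) := one_le_pow₀ (by norm_num)
    rcases j with _ | j
    · refine (h.bm_le_one (n + 1) hj).trans ?_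
      simpa using h1
    · obtain ⟨Q, rfl⟩ : ∃ Q', Q = Q' + 1 := ⟨Q - 1, by omega⟩
      have h2 := h.bm_succ_le n Q j
      have h3 := ih (show j ≤ Q by omega)
      have hj1 : (0:ℝ) < (j:ℝ) + 1 := by positivity
      have h4 : bm μ τ (n + 1) (Q + 1) (j + 1) ≤
          2 * (2 ^ (n * (n + 3)) / ((1:ℝ) + j) ^ n) / ((j:ℝ) + 1) := by
        rw [le_div_iff₀ hj1, mul_comm]
        linarith
      refine h4.trans ?_
      have h5 : ((1:ℝ) + ((j + 1 : ℕ) : ℝ)) ^ (n + 1) ≤ 2 ^ (n + 1) * ((j:ℝ) + 1) ^ (n + 1) := by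
        rw [← mul_pow]
        refine pow_le_pow_left₀ (by positivity) ?_ _
        push_cast
        linarith
      rw [← mul_div_assoc, div_div, div_le_div_iff₀ (by positivity) (by positivity)]
      calc 2 * 2 ^ (n * (n + 3)) * ((1:ℝ) + ((j + 1 : ℕ) : ℝ)) ^ (n + 1)
          ≤ 2 * 2 ^ (n * (n + 3)) * (2 ^ (n + 1) * ((j:ℝ) + 1) ^ (n + 1)) := by gcongr
        _ = 2 ^ (n * (n + 3) + n + 2) * (((1:ℝ) + j) ^ n * ((j:ℝ) + 1)) := by ring
        _ ≤ 2 ^ ((n + 1) * (n + 1 + 3)) * (((1:ℝ) + j) ^ n * ((j:ℝ) + 1)) := by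
          refine mul_le_mul_of_nonneg_right (pow_le_pow_right₀ (by norm_num) ?_) (by positivity)
          nlinarith

/-- the positive moments -/
noncomputable def bp (μ : Measure Z) (τ : Z → ℝ) (n Q j : ℕ) : ℝ :=
  ((Q : ℝ) + 1) * ∫ z, bw Q j (τ z) * (1 + (Q:ℝ) * τ z) ^ n ∂μ

theorem bp_intble (h : Tau μ τ) (n Q j : ℕ) :
    Integrable (fun z => bw Q j (τ z) * (1 + (Q:ℝ) * τ z) ^ n) μ :=
  h.intble (f := fun t => bw Q j t * (1 + (Q:ℝ) * t) ^ n)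
    ((continuous_bw Q j).continuousOn.mul (by fun_prop))

theorem bp_succ_le (h : Tau μ τ) (n Q j : ℕ) :
    bp μ τ (n + 1) Q j ≤ bp μ τ n Q j + ((j:ℝ) + 1) * bp μ τ n (Q + 1) (j + 1) := by
  unfold bp
  have hle : ∫ z, bw Q j (τ z) * (1 + (Q:ℝ) * τ z) ^ (n + 1) ∂μ ≤
      ∫ z, (bw Q j (τ z) * (1 + (Q:ℝ) * τ z) ^ n +
        ((j:ℝ) + 1) * (bw (Q + 1) (j + 1) (τ z) * (1 + ((Q + 1 : ℕ):ℝ) * τ z) ^ n)) ∂μ := by
    refine integral_mono (h.bp_intble (n + 1) Q j)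
      ((h.bp_intble n Q j).add ((h.bp_intble n (Q + 1) (j + 1)).const_mul _)) fun z => ?_
    simp only
    have h0 := h.qnn Q z
    have ht0 := h.nonneg z
    have hb := bw_nonneg Q j (h.nonneg z) (h.le_one z)
    have h3 : (1 + (Q:ℝ) * τ z) ^ n ≤ (1 + ((Q:ℝ) + 1) * τ z) ^ n :=
      pow_le_pow_left₀ (by positivity) (by nlinarith) n
    rw [← mul_assoc ((j:ℝ) + 1), bw_succ]
    push_cast
    have h4 : bw Q j (τ z) * ((Q:ℝ) * τ z) * (1 + (Q:ℝ) * τ z) ^ n ≤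
        ((Q:ℝ) + 1) * τ z * bw Q j (τ z) * (1 + ((Q:ℝ) + 1) * τ z) ^ n := by
      have h5 : bw Q j (τ z) * ((Q:ℝ) * τ z) ≤ ((Q:ℝ) + 1) * τ z * bw Q j (τ z) := by
        nlinarith [mul_nonneg hb ht0]
      exact mul_le_mul h5 h3 (by positivity) (by positivity)
    calc bw Q j (τ z) * (1 + (Q:ℝ) * τ z) ^ (n + 1)
        = bw Q j (τ z) * (1 + (Q:ℝ) * τ z) ^ n +
          bw Q j (τ z) * ((Q:ℝ) * τ z) * (1 + (Q:ℝ) * τ z) ^ n := by ring
      _ ≤ _ := by linarith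
  rw [integral_add (h.bp_intble n Q j) ((h.bp_intble n (Q + 1) (j + 1)).const_mul _),
    integral_const_mul] at hle
  have hI : 0 ≤ ∫ z, bw (Q + 1) (j + 1) (τ z) * (1 + ((Q + 1 : ℕ):ℝ) * τ z) ^ n ∂μ := by
    refine integral_nonneg fun z => ?_
    have h0 := h.qnn (Q + 1) z
    have := bw_nonneg (Q + 1) (j + 1) (h.nonneg z) (h.le_one z)
    positivity
  calc _ ≤ ((Q:ℝ) + 1) * (∫ z, bw Q j (τ z) * (1 + (Q:ℝ) * τ z) ^ n ∂μ +
        ((j:ℝ) + 1) * ∫ z, bw (Q + 1) (j + 1) (τ z) * (1 + ((Q + 1 : ℕ):ℝ) * τ z) ^ n ∂μ) := by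
        gcongr
    _ ≤ _ := by
      push_cast
      push_cast at hI
      nlinarith [mul_nonneg (show (0:ℝ) ≤ (j:ℝ) + 1 by positivity) hI]

/-- **K3up** : positive moments -/
theorem K3up (h : Tau μ τ) (n : ℕ) :
    ∀ {Q j : ℕ}, j ≤ Q → bp μ τ n Q j ≤ 2 ^ (n * (n + 1)) * ((1:ℝ) + j) ^ n := by
  induction n with
  | zero =>
    intro Q j hj
    unfold bp
    simp only [pow_zero, mul_one, zero_mul]
    rw [h.mom Q j hj]
    have : (Q:ℝ) + 1 ≠ 0 := by positivity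
    field_simp
    exact le_rfl
  | succ n ih =>
    intro Q j hj
    have h1 := h.bp_succ_le n Q j
    have h2 := ih hj
    have h3 := ih (show j + 1 ≤ Q + 1 by omega)
    have h5 : ((1:ℝ) + ((j + 1 : ℕ) : ℝ)) ^ n ≤ 2 ^ n * ((1:ℝ) + j) ^ n := by
      rw [← mul_pow]
      refine pow_le_pow_left₀ (by positivity) ?_ _
      push_cast
      have : (0:ℝ) ≤ j := Nat.cast_nonneg _
      linarith
    have hj1 : (0:ℝ) < (1:ℝ) + j := by positivity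
    have hj2 : (1:ℝ) ≤ (1:ℝ) + j := by have : (0:ℝ) ≤ j := Nat.cast_nonneg _; linarith
    calc bp μ τ (n + 1) Q j ≤ 2 ^ (n * (n + 1)) * ((1:ℝ) + j) ^ n +
          ((j:ℝ) + 1) * (2 ^ (n * (n + 1)) * ((1:ℝ) + ((j + 1 : ℕ) : ℝ)) ^ n) := by
          have : (0:ℝ) ≤ (j:ℝ) + 1 := by positivity
          nlinarith [mul_le_mul_of_nonneg_left h3 this]
      _ ≤ 2 ^ (n * (n + 1)) * ((1:ℝ) + j) ^ n +
          ((j:ℝ) + 1) * (2 ^ (n * (n + 1)) * (2 ^ n * ((1:ℝ) + j) ^ n)) := by gcongr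
      _ ≤ 2 ^ (n * (n + 1)) * (((1:ℝ) + j) ^ n * ((1:ℝ) + j)) +
          ((j:ℝ) + 1) * (2 ^ (n * (n + 1)) * (2 ^ n * ((1:ℝ) + j) ^ n)) := by
          have : ((1:ℝ) + j) ^ n ≤ ((1:ℝ) + j) ^ n * ((1:ℝ) + j) := le_mul_of_one_le_right (by positivity) hj2
          gcongr
      _ = 2 ^ (n * (n + 1)) * (1 + 2 ^ n) * ((1:ℝ) + j) ^ (n + 1) := by ring
      _ ≤ 2 ^ (n * (n + 1)) * 2 ^ (n + 1) * ((1:ℝ) + j) ^ (n + 1) := by
          have : (1:ℝ) ≤ 2 ^ n := one_le_pow₀ (by norm_num)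
          have h7 : (1:ℝ) + 2 ^ n ≤ 2 ^ (n + 1) := by rw [pow_succ]; linarith
          gcongr
      _ ≤ 2 ^ ((n + 1) * (n + 1 + 1)) * ((1:ℝ) + j) ^ (n + 1) := by
          rw [← pow_add]
          refine mul_le_mul_of_nonneg_right (pow_le_pow_right₀ (by norm_num) ?_) (by positivity)
          nlinarith

theorem sum_inv_sq (n : ℕ) : ∑ j ∈ range (n + 1), (1 / ((1:ℝ) + j) ^ 2) ≤ 2 - 1 / ((n:ℝ) + 1) := by
  induction n with
  | zero => simp; norm_num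
  | succ n ih =>
    rw [sum_range_succ]
    have h1 : (0:ℝ) < (n:ℝ) + 1 := by positivity
    have h2 : (1:ℝ) / ((1:ℝ) + ((n + 1 : ℕ):ℝ)) ^ 2 ≤ 1 / ((n:ℝ) + 1) - 1 / (((n + 1 : ℕ):ℝ) + 1) := by
      push_cast
      rw [div_sub_div _ _ h1.ne' (by positivity), div_le_div_iff₀ (by positivity) (by positivity)]
      nlinarith
    linarith

/-- **K2** -/
theorem K2 (h : Tau μ τ) (Q : ℕ) :
    ((Q : ℝ) + 1) * ∫ z, ((1 + (Q:ℝ) * τ z) ^ 2)⁻¹ ∂μ ≤ 2 ^ 11 := by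
  have h1 : ((Q : ℝ) + 1) * ∫ z, ((1 + (Q:ℝ) * τ z) ^ 2)⁻¹ ∂μ =
      ∑ j ∈ range (Q + 1), bm μ τ 2 Q j := by
    unfold bm
    rw [← mul_sum, ← integral_finsetSum _ fun j _ => h.bm_intble 2 Q j]
    congr 1
    refine integral_congr_ae (Filter.Eventually.of_forall fun z => ?_)
    simp only
    rw [← sum_mul, sum_bw, one_mul]
  rw [h1]
  calc ∑ j ∈ range (Q + 1), bm μ τ 2 Q j
      ≤ ∑ j ∈ range (Q + 1), 2 ^ (2 * (2 + 3)) * (1 / ((1:ℝ) + j) ^ 2) := by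
        refine sum_le_sum fun j hj => ?_
        rw [mul_one_div]
        exact h.K3 2 (Nat.lt_succ_iff.1 (mem_range.1 hj))
    _ = 2 ^ (2 * (2 + 3)) * ∑ j ∈ range (Q + 1), (1 / ((1:ℝ) + j) ^ 2) := by rw [mul_sum]
    _ ≤ 2 ^ (2 * (2 + 3)) * 2 := by
        have := sum_inv_sq Q
        have h3 : (0:ℝ) ≤ 1 / ((Q:ℝ) + 1) := by positivity
        gcongr
        linarith
    _ = _ := by norm_num

end Tau

/-! ## K4: Chernoff bounds -/

theorem sum_bw_tilt (Q : ℕ) (s t : ℝ) :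
    ∑ j ∈ range (Q + 1), s ^ j * bw Q j t = (s * t + (1 - t)) ^ Q := by
  rw [add_pow]
  refine sum_congr rfl fun j _ => ?_
  unfold bw
  rw [mul_pow]; ring

/-- lower tail -/
theorem K4_low (Q L : ℕ) {t : ℝ} (h0 : 0 ≤ t) (h1 : t ≤ 1) :
    ∑ j ∈ range L, bw Q j t ≤ Real.exp (L - Q * t / 2) := by
  have hs : ∀ j ∈ range L, bw Q j t ≤ Real.exp L * ((Real.exp (-1)) ^ j * bw Q j t) := by
    intro j hj
    have hjL : (j:ℝ) ≤ L := by exact_mod_cast (mem_range.1 hj).le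
    have hb := bw_nonneg Q j h0 h1
    rw [← mul_assoc]
    refine le_mul_of_one_le_left hb ?_
    rw [← Real.exp_nat_mul, ← Real.exp_add]
    exact Real.one_le_exp (by linarith)
  have he : Real.exp (-1) ≤ 1 / 2 := by
    rw [Real.exp_neg]
    have := Real.exp_one_gt_d9
    rw [inv_le_comm₀ (Real.exp_pos _) (by norm_num)]
    linarith
  calc ∑ j ∈ range L, bw Q j t
      ≤ ∑ j ∈ range L, Real.exp L * ((Real.exp (-1)) ^ j * bw Q j t) := sum_le_sum hs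
    _ ≤ ∑ j ∈ range (max L (Q + 1)), Real.exp L * ((Real.exp (-1)) ^ j * bw Q j t) := by
        refine sum_le_sum_of_subset_of_nonneg (range_subset_range.2 (le_max_left _ _)) ?_
        intro j _ _
        have hb := bw_nonneg Q j h0 h1
        positivity
    _ = ∑ j ∈ range (Q + 1), Real.exp L * ((Real.exp (-1)) ^ j * bw Q j t) := by
        refine (sum_subset (range_subset_range.2 (le_max_right _ _)) ?_).symm
        intro j _ hj
        rw [bw_eq_zero (by simpa using hj)]; ring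
    _ = Real.exp L * (Real.exp (-1) * t + (1 - t)) ^ Q := by
        rw [← mul_sum, sum_bw_tilt]
    _ ≤ Real.exp L * (Real.exp (-(t / 2))) ^ Q := by
        refine mul_le_mul_of_nonneg_left (pow_le_pow_left₀ ?_ ?_ Q) (Real.exp_pos _).le
        · have := Real.exp_pos (-1)
          have : 0 ≤ 1 - t := by linarith
          positivity
        · have h2 := Real.add_one_le_exp (-(t / 2))
          nlinarith
    _ = Real.exp (L - Q * t / 2) := by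
        rw [← Real.exp_nat_mul, ← Real.exp_add]; congr 1; ring

/-- upper tail -/
theorem K4_up (Q L : ℕ) {t : ℝ} (h0 : 0 ≤ t) (h1 : t ≤ 1) :
    ∑ j ∈ Ico L (Q + 1), bw Q j t ≤ Real.exp (2 * (Q * t) - L) := by
  have hs : ∀ j ∈ Ico L (Q + 1), bw Q j t ≤ Real.exp (-L) * ((Real.exp 1) ^ j * bw Q j t) := by
    intro j hj
    have hjL : (L:ℝ) ≤ j := by exact_mod_cast (mem_Ico.1 hj).1
    have hb := bw_nonneg Q j h0 h1
    rw [← mul_assoc]
    refine le_mul_of_one_le_left hb ?_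
    rw [← Real.exp_nat_mul, ← Real.exp_add]
    exact Real.one_le_exp (by linarith)
  calc ∑ j ∈ Ico L (Q + 1), bw Q j t
      ≤ ∑ j ∈ Ico L (Q + 1), Real.exp (-L) * ((Real.exp 1) ^ j * bw Q j t) := sum_le_sum hs
    _ ≤ ∑ j ∈ range (Q + 1), Real.exp (-L) * ((Real.exp 1) ^ j * bw Q j t) := by
        refine sum_le_sum_of_subset_of_nonneg ?_ ?_
        · intro j hj; exact mem_range.2 (mem_Ico.1 hj).2
        · intro j _ _
          have hb := bw_nonneg Q j h0 h1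
          positivity
    _ = Real.exp (-L) * (Real.exp 1 * t + (1 - t)) ^ Q := by
        rw [← mul_sum, sum_bw_tilt]
    _ ≤ Real.exp (-L) * (Real.exp (2 * t)) ^ Q := by
        refine mul_le_mul_of_nonneg_left (pow_le_pow_left₀ ?_ ?_ Q) (Real.exp_pos _).le
        · have := Real.exp_pos 1
          have : 0 ≤ 1 - t := by linarith
          positivity
        · have h2 := Real.add_one_le_exp (2 * t)
          have h3 := Real.exp_one_lt_d9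
          nlinarith
    _ = Real.exp (2 * (Q * t) - L) := by
        rw [← Real.exp_nat_mul, ← Real.exp_add]; congr 1; ring

end Crest.Agent.R340.PD757
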