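import Crest.Agent.R340.PD1_757
import Crest.Agent.R340.QL3_331
import Mathlib.MeasureTheory.Integral.Bochner.ContinuousLinearMap

/-!
# R340 (helper757): commutators with all orbitals from the coherent profile

`Frm` : frame of orthonormal bases `b z` (orbitals about `z`), coherent resolution of the identity.
* `cs_near`  : `cs y (b z 0) ≤ F (1+D z w)^{-M}` ⇒ `cs y (b w j) ≤ C F (1+j)^{-(M-2)/2}`;
* `cs_shift` : `cs y (b z 0) ≤ F (1+D z x)^{-m}` ⇒ `cs y (b w j) ≤ C F (1+j)^{(m+2)/2} (1+D w x)^{-m}`.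
-/

set_option autoImplicit false
set_option linter.unusedSectionVars false

namespace Crest.Agent.R340.PD757

open Finset MeasureTheory Crest.Agent.R340.QL331

/-- Frame data: `b z j` is the `j`-th orbital about `z`, `τ z w` the squared (normalised) chordal
distance, `D z w ≈ √(Q τ z w)` the distance in magnetic lengths. -/
structure Frm {Z V : Type*} [MeasurableSpace Z] (μ : Measure Z) (Q : ℕ)
    [NormedAddCommGroup V] [InnerProductSpace ℂ V]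
    (b : Z → OrthonormalBasis (Fin (Q + 1)) ℂ V) (τ D : Z → Z → ℝ) : Prop where
  tau : ∀ w, Tau μ fun z => τ z w
  ov0 : ∀ z w (j : Fin (Q + 1)), ‖(inner ℂ (b z 0) (b w j) : ℂ)‖ ^ 2 = bw Q j (τ z w)
  int : ∀ v : V, Integrable (fun z => (inner ℂ (b z 0) v : ℂ) • b z 0) μ
  res : ∀ v : V, ((Q : ℝ) + 1) • ∫ z, (inner ℂ (b z 0) v : ℂ) • b z 0 ∂μ = v
  Dnn : ∀ z w, 0 ≤ D z w
  Dlo : ∀ z w, 1 + (Q:ℝ) * τ z w ≤ (1 + D z w) ^ 2
  Dup : ∀ z w, (1 + D z w) ^ 2 ≤ 5 * (1 + (Q:ℝ) * τ z w)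
  symm : ∀ z w, D z w = D w z
  tri : ∀ x y z, D x z ≤ D x y + D y z

/-- `√(1+j)` -/
noncomputable def sj (j : ℕ) : ℝ := Real.sqrt (1 + j)

theorem sj_sq (j : ℕ) : sj j ^ 2 = 1 + j := Real.sq_sqrt (by positivity)
theorem sj_pos (j : ℕ) : 0 < sj j := Real.sqrt_pos.2 (by positivity)
theorem one_le_sj (j : ℕ) : 1 ≤ sj j := by
  rw [sj, Real.one_le_sqrt]; have : (0:ℝ) ≤ j := Nat.cast_nonneg _; linarith

/-- Young's inequality for the coherent amplitude -/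
theorem young {x y l : ℝ} (hl : 0 < l) : x * y ≤ (l * x ^ 2 + l⁻¹ * y ^ 2) / 2 := by
  have h := sq_nonneg (l * x - y)
  have h2 : (l * x - y) ^ 2 = l * (l * x ^ 2 + l⁻¹ * y ^ 2 - 2 * (x * y)) := by
    field_simp
    ring
  rw [h2] at h
  have h3 : 0 ≤ l * x ^ 2 + l⁻¹ * y ^ 2 - 2 * (x * y) := nonneg_of_mul_nonneg_right h hl
  linarith

section

variable {A V Z : Type*} [CStarAlgebra A] [NormedAddCommGroup V] [InnerProductSpace ℂ V]
  [CompleteSpace V] [MeasurableSpace Z] {μ : Measure Z} {Q : ℕ}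
  {b : Z → OrthonormalBasis (Fin (Q + 1)) ℂ V} {τ D : Z → Z → ℝ}

theorem Frm.norm_le (F : Frm μ Q b τ D) (Φ : V →L[ℝ] A) (v : V) {g : Z → ℝ}
    (hg : Integrable g μ) (h : ∀ z, ‖Φ ((inner ℂ (b z 0) v : ℂ) • b z 0)‖ ≤ g z) :
    ‖Φ v‖ ≤ ((Q : ℝ) + 1) * ∫ z, g z ∂μ := by
  have h1 : Φ v = ((Q : ℝ) + 1) • ∫ z, Φ ((inner ℂ (b z 0) v : ℂ) • b z 0) ∂μ := by
    rw [ContinuousLinearMap.integral_comp_comm Φ (F.int v), ← map_smul, F.res]
  rw [h1, norm_smul, Real.norm_of_nonneg (by positivity)]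
  gcongr
  exact norm_integral_le_of_norm_le hg (Filter.Eventually.of_forall h)

/-- `v ↦ ⁅y, a(v)⁆` -/
noncomputable def brAn (R : Car A V) (y : A) : V →L[ℝ] A :=
  LinearMap.mkContinuous
    { toFun := fun v => br y (R.an v)
      map_add' := fun v w => by rw [R.an_add, br_add]
      map_smul' := fun c v => by
        have h : c • v = (c : ℂ) • v := rfl
        rw [h, R.an_smul, br_smul, Complex.conj_ofReal]
        rfl }
    (2 * ‖y‖) fun v => by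
      refine (norm_br_le _ _).trans ?_
      exact mul_le_mul_of_nonneg_left (R.norm_an_le v) (by positivity)

/-- `v ↦ ⁅y, a*(v)⁆` -/
noncomputable def brCr (R : Car A V) (y : A) : V →L[ℝ] A :=
  LinearMap.mkContinuous
    { toFun := fun v => br y (R.cr v)
      map_add' := fun v w => by rw [R.cr_add, br_add]
      map_smul' := fun c v => by
        have h : c • v = (c : ℂ) • v := rfl
        rw [h, R.cr_smul, br_smul]
        rfl }
    (2 * ‖y‖) fun v => by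
      refine (norm_br_le _ _).trans ?_
      exact mul_le_mul_of_nonneg_left (R.norm_cr_le v) (by positivity)

theorem Frm.cs_le_int (F : Frm μ Q b τ D) (R : Car A V) (y v : _) {g : Z → ℝ}
    (hg : Integrable g μ) (h : ∀ z, ‖(inner ℂ (b z 0) v : ℂ)‖ * R.cs y (b z 0) ≤ g z) :
    R.cs y v ≤ 2 * (((Q : ℝ) + 1) * ∫ z, g z ∂μ) := by
  have h1 : ‖br y (R.an v)‖ ≤ ((Q : ℝ) + 1) * ∫ z, g z ∂μ := by
    refine F.norm_le (brAn R y) v hg fun z => ?_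
    change ‖br y (R.an _)‖ ≤ _
    rw [R.an_smul, br_smul, norm_smul, RCLike.norm_conj]
    refine le_trans (mul_le_mul_of_nonneg_left ?_ (norm_nonneg _)) (h z)
    unfold Car.cs; linarith [norm_nonneg (br y (R.cr (b z 0)))]
  have h2 : ‖br y (R.cr v)‖ ≤ ((Q : ℝ) + 1) * ∫ z, g z ∂μ := by
    refine F.norm_le (brCr R y) v hg fun z => ?_
    change ‖br y (R.cr _)‖ ≤ _
    rw [R.cr_smul, br_smul, norm_smul]
    refine le_trans (mul_le_mul_of_nonneg_left ?_ (norm_nonneg _)) (h z)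
    unfold Car.cs; linarith [norm_nonneg (br y (R.an (b z 0)))]
  unfold Car.cs; linarith

theorem Frm.one_add_pos (F : Frm μ Q b τ D) (z w : Z) : 0 < 1 + D z w := by
  have := F.Dnn z w; linarith

theorem Frm.qt_pos (F : Frm μ Q b τ D) (z w : Z) : 0 < 1 + (Q:ℝ) * τ z w := by
  have := (F.tau w).qnn Q z; linarith

/-- **same centre** -/
theorem Frm.cs_near (F : Frm μ Q b τ D) (R : Car A V) {y : A} {w : Z} {c : ℝ} (hc : 0 ≤ c) (n : ℕ)
    (h : ∀ z, R.cs y (b z 0) ≤ c * ((1 + D z w)⁻¹) ^ (n + 2)) (j : Fin (Q + 1)) :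
    R.cs y (b w j) ≤ (2 ^ (n * (n + 3)) + 2 ^ 11) * c * ((sj j)⁻¹) ^ n := by
  have hs := sj_pos (j : ℕ)
  set l : ℝ := sj j ^ n with hl
  have hl0 : 0 < l := pow_pos hs n
  have T := F.tau w
  set g : Z → ℝ := fun z => c / 2 * (l * (bw Q j (τ z w) * ((1 + (Q:ℝ) * τ z w) ^ n)⁻¹) +
    l⁻¹ * ((1 + (Q:ℝ) * τ z w) ^ 2)⁻¹) with hg
  have hi1 := T.bm_intble n Q j
  have hi2 : Integrable (fun z => ((1 + (Q:ℝ) * τ z w) ^ 2)⁻¹) μ :=
    T.intble (f := fun t => ((1 + (Q:ℝ) * t) ^ 2)⁻¹) (Tau.cont_inv Q 2)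
  have hgi : Integrable g μ := ((hi1.const_mul l).add (hi2.const_mul l⁻¹)).const_mul _
  have key := F.cs_le_int R y (b w j) hgi ?_
  · refine key.trans ?_
    have e : ((Q : ℝ) + 1) * ∫ z, g z ∂μ =
        c / 2 * (l * Tau.bm μ (fun z => τ z w) n Q j +
          l⁻¹ * (((Q : ℝ) + 1) * ∫ z, ((1 + (Q:ℝ) * τ z w) ^ 2)⁻¹ ∂μ)) := by
      rw [hg, integral_const_mul, integral_add (hi1.const_mul l) (hi2.const_mul l⁻¹),
        integral_const_mul, integral_const_mul]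
      unfold Tau.bm
      ring
    rw [e]
    have h3 := T.K3 n (Nat.lt_succ_iff.1 j.2)
    have h2 := T.K2 Q
    have h4 : l * (2 ^ (n * (n + 3)) / ((1:ℝ) + (j:ℕ)) ^ n) = 2 ^ (n * (n + 3)) * ((sj j)⁻¹) ^ n := by
      rw [← sj_sq, hl, inv_pow, ← pow_mul]
      field_simp
      ring
    have h5 : l⁻¹ = ((sj j)⁻¹) ^ n := by rw [hl, inv_pow]
    calc 2 * (c / 2 * (l * Tau.bm μ (fun z => τ z w) n Q j +
          l⁻¹ * (((Q : ℝ) + 1) * ∫ z, ((1 + (Q:ℝ) * τ z w) ^ 2)⁻¹ ∂μ)))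
        ≤ 2 * (c / 2 * (l * (2 ^ (n * (n + 3)) / ((1:ℝ) + (j:ℕ)) ^ n) + l⁻¹ * 2 ^ 11)) := by gcongr
      _ = _ := by rw [h4, h5]; ring
  · intro z
    have hD := F.one_add_pos z w
    have hq := F.qt_pos z w
    set a : ℝ := (1 + D z w) ^ 2 with ha
    have ha0 : 0 < a := by positivity
    set s : ℝ := ‖(inner ℂ (b z 0) (b w j) : ℂ)‖ with hsdef
    have hs0 : 0 ≤ s := norm_nonneg _
    have hs2 : s ^ 2 = bw Q j (τ z w) := F.ov0 z w j
    have hb : 0 ≤ bw Q j (τ z w) := by rw [← hs2]; positivity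
    have h1 : s * R.cs y (b z 0) ≤ s * (c * ((1 + D z w)⁻¹) ^ (n + 2)) :=
      mul_le_mul_of_nonneg_left (h z) hs0
    refine h1.trans ?_
    set e : ℝ := (1 + D z w)⁻¹ with he
    have he0 : 0 < e := by positivity
    have h6 := young (x := s * e ^ n) (y := e ^ 2) hl0
    have h7 : (e ^ n) ^ 2 = (a ^ n)⁻¹ := by
      rw [ha, he, inv_pow, inv_pow, ← pow_mul, ← pow_mul, mul_comm n 2]
    have h8 : (e ^ 2) ^ 2 = (a ^ 2)⁻¹ := by
      rw [ha, he, inv_pow, inv_pow]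
    have h10 : (a ^ n)⁻¹ ≤ ((1 + (Q:ℝ) * τ z w) ^ n)⁻¹ :=
      inv_anti₀ (by positivity) (pow_le_pow_left₀ hq.le (F.Dlo z w) n)
    have h11 : (a ^ 2)⁻¹ ≤ ((1 + (Q:ℝ) * τ z w) ^ 2)⁻¹ :=
      inv_anti₀ (by positivity) (pow_le_pow_left₀ hq.le (F.Dlo z w) 2)
    calc s * (c * e ^ (n + 2)) = c * ((s * e ^ n) * e ^ 2) := by ring
      _ ≤ c * ((l * (s * e ^ n) ^ 2 + l⁻¹ * (e ^ 2) ^ 2) / 2) := by gcongr
      _ = c / 2 * (l * (bw Q j (τ z w) * (a ^ n)⁻¹) + l⁻¹ * (a ^ 2)⁻¹) := by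
          rw [mul_pow, h7, h8, hs2]; ring
      _ ≤ c / 2 * (l * (bw Q j (τ z w) * ((1 + (Q:ℝ) * τ z w) ^ n)⁻¹) +
          l⁻¹ * ((1 + (Q:ℝ) * τ z w) ^ 2)⁻¹) := by gcongr

/-- **shifted centre** -/
theorem Frm.cs_shift (F : Frm μ Q b τ D) (R : Car A V) {y : A} {x : Z} {c : ℝ} (hc : 0 ≤ c) (m : ℕ)
    (h : ∀ z, R.cs y (b z 0) ≤ c * ((1 + D z x)⁻¹) ^ m) (w : Z) (j : Fin (Q + 1)) :
    R.cs y (b w j) ≤ (5 ^ (m + 2) * 2 ^ ((m + 2) * (m + 3)) + 2 ^ 11) * c *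
      (sj j) ^ (m + 2) * ((1 + D w x)⁻¹) ^ m := by
  have hs := sj_pos (j : ℕ)
  set l : ℝ := ((sj j) ^ (m + 2))⁻¹ with hl
  have hl0 : 0 < l := by positivity
  have T := F.tau w
  set c' : ℝ := c * ((1 + D w x)⁻¹) ^ m with hc'
  have hc'0 : 0 ≤ c' := by have := F.one_add_pos w x; positivity
  set g : Z → ℝ := fun z => c' / 2 * (l * (5 ^ (m + 2) * (bw Q j (τ z w) * (1 + (Q:ℝ) * τ z w) ^ (m + 2))) +
    l⁻¹ * ((1 + (Q:ℝ) * τ z w) ^ 2)⁻¹) with hg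
  have hi1 := T.bp_intble (m + 2) Q j
  have hi2 : Integrable (fun z => ((1 + (Q:ℝ) * τ z w) ^ 2)⁻¹) μ :=
    T.intble (f := fun t => ((1 + (Q:ℝ) * t) ^ 2)⁻¹) (Tau.cont_inv Q 2)
  have hi3 := (hi1.const_mul (5 ^ (m + 2))).const_mul l
  have hgi : Integrable g μ := (hi3.add (hi2.const_mul l⁻¹)).const_mul _
  have key := F.cs_le_int R y (b w j) hgi ?_
  · refine key.trans ?_
    have e : ((Q : ℝ) + 1) * ∫ z, g z ∂μ =
        c' / 2 * (l * (5 ^ (m + 2) * Tau.bp μ (fun z => τ z w) (m + 2) Q j) +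
          l⁻¹ * (((Q : ℝ) + 1) * ∫ z, ((1 + (Q:ℝ) * τ z w) ^ 2)⁻¹ ∂μ)) := by
      rw [hg, integral_const_mul, integral_add hi3 (hi2.const_mul l⁻¹),
        integral_const_mul, integral_const_mul, integral_const_mul]
      unfold Tau.bp
      ring
    rw [e]
    have h3 := T.K3up (m + 2) (Nat.lt_succ_iff.1 j.2)
    have h2 := T.K2 Q
    have h4 : l * (5 ^ (m + 2) * (2 ^ ((m + 2) * (m + 2 + 1)) * ((1:ℝ) + (j:ℕ)) ^ (m + 2))) =
        5 ^ (m + 2) * 2 ^ ((m + 2) * (m + 3)) * (sj j) ^ (m + 2) := by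
      rw [← sj_sq, hl, ← pow_mul, mul_comm 2 (m + 2), pow_mul]
      field_simp
      ring
    have h5 : l⁻¹ = (sj j) ^ (m + 2) := by rw [hl, inv_inv]
    calc 2 * (c' / 2 * (l * (5 ^ (m + 2) * Tau.bp μ (fun z => τ z w) (m + 2) Q j) +
          l⁻¹ * (((Q : ℝ) + 1) * ∫ z, ((1 + (Q:ℝ) * τ z w) ^ 2)⁻¹ ∂μ)))
        ≤ 2 * (c' / 2 * (l * (5 ^ (m + 2) * (2 ^ ((m + 2) * (m + 2 + 1)) *
          ((1:ℝ) + (j:ℕ)) ^ (m + 2))) + l⁻¹ * 2 ^ 11)) := by gcongr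
      _ = _ := by rw [h4, h5, hc']; ring
  · intro z
    have hD := F.one_add_pos z w
    have hDx := F.one_add_pos z x
    have hDw := F.one_add_pos w x
    have hq := F.qt_pos z w
    set a : ℝ := (1 + D z w) ^ 2 with ha
    have ha0 : 0 < a := by positivity
    set s : ℝ := ‖(inner ℂ (b z 0) (b w j) : ℂ)‖ with hsdef
    have hs0 : 0 ≤ s := norm_nonneg _
    have hs2 : s ^ 2 = bw Q j (τ z w) := F.ov0 z w j
    have hb : 0 ≤ bw Q j (τ z w) := by rw [← hs2]; positivity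
    have h1 : s * R.cs y (b z 0) ≤ s * (c * ((1 + D z x)⁻¹) ^ m) :=
      mul_le_mul_of_nonneg_left (h z) hs0
    refine h1.trans ?_
    have htri : (1 + D w x) ≤ (1 + D z x) * (1 + D z w) := by
      have h1 := F.tri w z x
      rw [F.symm w z] at h1
      nlinarith [F.Dnn z x, F.Dnn z w, mul_nonneg (F.Dnn z x) (F.Dnn z w)]
    have h12 : (1 + D z x)⁻¹ ≤ (1 + D w x)⁻¹ * (1 + D z w) := by
      rw [inv_mul_eq_div, inv_eq_one_div, div_le_div_iff₀ hDx hDw]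
      linarith
    have h13 : ((1 + D z x)⁻¹) ^ m ≤ ((1 + D w x)⁻¹) ^ m * (1 + D z w) ^ m := by
      rw [← mul_pow]
      exact pow_le_pow_left₀ (by positivity) h12 m
    set e : ℝ := (1 + D z w) with he
    have he0 : 0 < e := hD
    have h6 := young (x := s * e ^ (m + 2)) (y := (e ^ 2)⁻¹) hl0
    have h7 : (e ^ (m + 2)) ^ 2 = a ^ (m + 2) := by
      rw [ha, ← pow_mul, ← pow_mul, mul_comm]
    have h8 : ((e ^ 2)⁻¹) ^ 2 = (a ^ 2)⁻¹ := by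
      rw [ha, inv_pow]
    have h10 : a ^ (m + 2) ≤ 5 ^ (m + 2) * (1 + (Q:ℝ) * τ z w) ^ (m + 2) := by
      rw [← mul_pow]
      exact pow_le_pow_left₀ ha0.le (F.Dup z w) _
    have h11 : (a ^ 2)⁻¹ ≤ ((1 + (Q:ℝ) * τ z w) ^ 2)⁻¹ :=
      inv_anti₀ (by positivity) (pow_le_pow_left₀ hq.le (F.Dlo z w) 2)
    have h14 : s * e ^ m = (s * e ^ (m + 2)) * (e ^ 2)⁻¹ := by
      field_simp
      ring
    calc s * (c * ((1 + D z x)⁻¹) ^ m) ≤ s * (c * (((1 + D w x)⁻¹) ^ m * e ^ m)) := by gcongr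
      _ = c' * (s * e ^ m) := by rw [hc']; ring
      _ = c' * ((s * e ^ (m + 2)) * (e ^ 2)⁻¹) := by rw [h14]
      _ ≤ c' * ((l * (s * e ^ (m + 2)) ^ 2 + l⁻¹ * ((e ^ 2)⁻¹) ^ 2) / 2) := by gcongr
      _ = c' / 2 * (l * (bw Q j (τ z w) * a ^ (m + 2)) + l⁻¹ * (a ^ 2)⁻¹) := by
          rw [mul_pow, h7, h8, hs2]; ring
      _ ≤ c' / 2 * (l * (bw Q j (τ z w) * (5 ^ (m + 2) * (1 + (Q:ℝ) * τ z w) ^ (m + 2))) +
          l⁻¹ * ((1 + (Q:ℝ) * τ z w) ^ 2)⁻¹) := by gcongr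
      _ = _ := by ring

end

end Crest.Agent.R340.PD757
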