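import Crest.Agent.R340.PD2_757
import Crest.Agent.R340.QL5_331

/-!
# R340 (helper757): profile class ↔ dyadic pieces

* `Frm.sub_E_le`   : profile exponent `k+5` ⇒ `‖y - E_{4^l} y‖ ≤ C (2^l)^{-(k+1)}` (every `y`);
* `Frm.cs_of_E`    : `‖a - E_{4^l} a‖ ≤ c (2^l)^{-n}` for all `l`, `a` even ⇒ profile `n`, every orbital;
* `Frm.br_near_le` : `⁅X, Y⁆` for `X` in the profile class at `x`, `Y` generated by the modes
  `< 4^l` about `w`.
-/

set_option autoImplicit false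
set_option linter.unusedSectionVars false

namespace Crest.Agent.R340.PD757

open Finset MeasureTheory Crest.Agent.R340.QL331

/-! ## sums over orbitals -/

theorem sum_farS (n L : ℕ) (f : ℕ → ℝ) :
    ∑ j ∈ farS n L, f (j : ℕ) = ∑ j ∈ Ico L n, f j := by
  rw [farS, Finset.sum_filter, Fin.sum_univ_eq_sum_range (fun j => if L ≤ j then f j else 0) n,
    ← Finset.sum_filter]
  refine Finset.sum_congr ?_ fun _ _ => rfl
  ext j; simp [and_comm]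

theorem sum_nearS_le (n L : ℕ) (f : ℕ → ℝ) (hf : ∀ j, 0 ≤ f j) :
    ∑ j ∈ nearS n L, f (j : ℕ) ≤ ∑ j ∈ range L, f j := by
  rw [nearS, Finset.sum_filter, Fin.sum_univ_eq_sum_range (fun j => if j < L then f j else 0) n,
    ← Finset.sum_filter]
  refine Finset.sum_le_sum_of_subset_of_nonneg ?_ fun j _ _ => hf j
  intro j hj
  simp only [mem_filter] at hj
  exact mem_range.2 hj.2

theorem tele_sj (L : ℕ) (k : ℕ) :
    ∑ i ∈ range k, ((sj (L + 1 + i))⁻¹) ^ 3 ≤ 2 * ((sj L)⁻¹ - (sj (L + k))⁻¹) := by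
  induction k with
  | zero => simp
  | succ k ih =>
    rw [sum_range_succ]
    have ha := sj_pos (L + k)
    have hb := sj_pos (L + (k + 1))
    have h1 : sj (L + 1 + k) = sj (L + (k + 1)) := by congr 1; omega
    rw [h1]
    set a := sj (L + k) with hadef
    set c := sj (L + (k + 1)) with hcdef
    have hab : a ^ 2 + 1 = c ^ 2 := by
      rw [hadef, hcdef, sj_sq, sj_sq]; push_cast; ring
    have hle : a ≤ c := by nlinarith
    have key : (c⁻¹) ^ 3 ≤ 2 * (a⁻¹ - c⁻¹) := by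
      have e1 : a⁻¹ - c⁻¹ = (c - a) / (a * c) := by field_simp
      rw [e1, inv_pow, ← mul_div_assoc, inv_eq_one_div, div_le_div_iff₀ (by positivity) (by positivity)]
      have e2 : (c - a) * (c + a) = 1 := by nlinarith
      have e3 : 1 ≤ (c - a) * (2 * c) := by
        have : 0 ≤ c - a := by linarith
        nlinarith
      nlinarith [mul_pos ha hb, mul_pos hb hb]
    linarith

theorem sum_far_sj (n L : ℕ) :
    ∑ j ∈ farS n (L + 1), ((sj (j : ℕ))⁻¹) ^ 3 ≤ 2 * (sj L)⁻¹ := by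
  rw [sum_farS n (L + 1) fun j => ((sj j)⁻¹) ^ 3, Finset.sum_Ico_eq_sum_range]
  have h := tele_sj L (n - (L + 1))
  have h2 : 0 ≤ (sj (L + (n - (L + 1))))⁻¹ := (inv_pos.2 (sj_pos _)).le
  linarith

theorem sj_four_pow (l : ℕ) : 2 ^ l ≤ sj (4 ^ l) := by
  unfold sj
  refine Real.le_sqrt_of_sq_le ?_
  push_cast
  rw [← pow_mul, mul_comm l 2, pow_mul]
  norm_num

/-- `√(1+j) ≥ 2^l` for `j ≥ 4^l - 1` -/
theorem two_pow_le_sj {l j : ℕ} (h : 4 ^ l ≤ j + 1) : (2:ℝ) ^ l ≤ sj j := by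
  unfold sj
  refine Real.le_sqrt_of_sq_le ?_
  rw [← pow_mul, mul_comm l 2, pow_mul]
  have : ((4 ^ l : ℕ) : ℝ) ≤ ((j + 1 : ℕ) : ℝ) := by exact_mod_cast h
  push_cast at this
  norm_num
  linarith

theorem sj_le_two_pow {l j : ℕ} (h : j + 1 ≤ 4 ^ l) : sj j ≤ (2:ℝ) ^ l := by
  unfold sj
  rw [Real.sqrt_le_left (by positivity), ← pow_mul, mul_comm l 2, pow_mul]
  have : ((j + 1 : ℕ) : ℝ) ≤ ((4 ^ l : ℕ) : ℝ) := by exact_mod_cast h
  push_cast at this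
  norm_num
  linarith

theorem sum_far_pow (n l k : ℕ) :
    ∑ j ∈ farS n (4 ^ l), ((sj (j : ℕ))⁻¹) ^ (k + 3) ≤ 2 * (((2:ℝ) ^ l)⁻¹) ^ (k + 1) := by
  obtain ⟨L, hL⟩ : ∃ L, 4 ^ l = L + 1 := ⟨4 ^ l - 1, by have := Nat.one_le_pow l 4 (by norm_num); omega⟩
  have h1 : ∑ j ∈ farS n (4 ^ l), ((sj (j : ℕ))⁻¹) ^ (k + 3) ≤
      ∑ j ∈ farS n (4 ^ l), (((2:ℝ) ^ l)⁻¹) ^ k * ((sj (j : ℕ))⁻¹) ^ 3 := by
    refine sum_le_sum fun j hj => ?_
    rw [pow_add]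
    have hj' := mem_farS.1 hj
    have h2 : (2:ℝ) ^ l ≤ sj (j : ℕ) := two_pow_le_sj (by omega)
    have h3 : (sj (j : ℕ))⁻¹ ≤ ((2:ℝ) ^ l)⁻¹ := inv_anti₀ (by positivity) h2
    have h4 : 0 < (sj (j : ℕ))⁻¹ := inv_pos.2 (sj_pos _)
    gcongr
  rw [← mul_sum] at h1
  refine h1.trans ?_
  rw [hL]
  have h5 := sum_far_sj n L
  have h6 : (2:ℝ) ^ l ≤ sj L := two_pow_le_sj (by omega)
  have h7 : (sj L)⁻¹ ≤ ((2:ℝ) ^ l)⁻¹ := inv_anti₀ (by positivity) h6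
  calc (((2:ℝ) ^ l)⁻¹) ^ k * ∑ j ∈ farS n (L + 1), ((sj (j : ℕ))⁻¹) ^ 3
      ≤ (((2:ℝ) ^ l)⁻¹) ^ k * (2 * ((2:ℝ) ^ l)⁻¹) := by
        refine mul_le_mul_of_nonneg_left (h5.trans ?_) (by positivity)
        linarith
    _ = _ := by ring

section

variable {A V Z : Type*} [CStarAlgebra A] [NormedAddCommGroup V] [InnerProductSpace ℂ V]
  [CompleteSpace V] [MeasurableSpace Z] {μ : Measure Z} {Q : ℕ}
  {b : Z → OrthonormalBasis (Fin (Q + 1)) ℂ V} {τ D : Z → Z → ℝ}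

/-- constant of `cs_near` -/
noncomputable def Kn (n : ℕ) : ℝ := 2 ^ (n * (n + 3)) + 2 ^ 11
/-- constant of `cs_shift` -/
noncomputable def Ks (m : ℕ) : ℝ := 5 ^ (m + 2) * 2 ^ ((m + 2) * (m + 3)) + 2 ^ 11

theorem Kn_pos (n : ℕ) : 0 < Kn n := by unfold Kn; positivity
theorem Ks_pos (n : ℕ) : 0 < Ks n := by unfold Ks; positivity

/-- **(b)** profile ⇒ dyadic truncations (every operator). -/
theorem Frm.sub_E_le (F : Frm μ Q b τ D) (R : Car A V) {y : A} {w : Z} {c : ℝ} (hc : 0 ≤ c) (k : ℕ)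
    (h : ∀ z, R.cs y (b z 0) ≤ c * ((1 + D z w)⁻¹) ^ (k + 5)) (l : ℕ) :
    ‖y - R.E (b w) (4 ^ l) y‖ ≤ 2 * Kn (k + 3) * c * (((2:ℝ) ^ l)⁻¹) ^ (k + 1) := by
  refine (R.norm_sub_E_le (b w) _ _).trans ?_
  have h1 : ∀ j ∈ farS (Q + 1) (4 ^ l), R.cs y (b w j) ≤
      (Kn (k + 3) * c) * ((sj (j:ℕ))⁻¹) ^ (k + 3) := fun j _ => F.cs_near R hc (k + 3) h j
  refine (sum_le_sum h1).trans ?_
  rw [← mul_sum]
  have h2 := sum_far_pow (Q + 1) l k
  have h3 := Kn_pos (k + 3)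
  calc _ ≤ Kn (k + 3) * c * (2 * (((2:ℝ) ^ l)⁻¹) ^ (k + 1)) := by gcongr
    _ = _ := by ring

/-- **(b')** near twirl / commutator with near operators. -/
theorem Frm.sum_near_le (F : Frm μ Q b τ D) (R : Car A V) {y : A} {x : Z} {c : ℝ} (hc : 0 ≤ c) (m : ℕ)
    (h : ∀ z, R.cs y (b z 0) ≤ c * ((1 + D z x)⁻¹) ^ m) (w : Z) (l : ℕ) :
    ∑ j ∈ nearS (Q + 1) (4 ^ l), R.cs y (b w j) ≤
      Ks m * c * ((2:ℝ) ^ l) ^ (m + 4) * ((1 + D w x)⁻¹) ^ m := by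
  have hD := F.one_add_pos w x
  have hK := Ks_pos m
  have h1 : ∀ j ∈ nearS (Q + 1) (4 ^ l), R.cs y (b w j) ≤
      Ks m * c * ((2:ℝ) ^ l) ^ (m + 2) * ((1 + D w x)⁻¹) ^ m := by
    intro j hj
    refine (F.cs_shift R hc m h w j).trans ?_
    have h2 : sj (j:ℕ) ≤ (2:ℝ) ^ l := sj_le_two_pow (by have := mem_nearS.1 hj; omega)
    have h3 := (sj_pos (j:ℕ)).le
    unfold Ks
    gcongr
  refine (sum_le_sum h1).trans ?_
  rw [sum_const, nsmul_eq_mul]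
  have h4 : ((nearS (Q + 1) (4 ^ l)).card : ℝ) ≤ (2:ℝ) ^ l * (2:ℝ) ^ l := by
    have h5 : ∑ j ∈ nearS (Q + 1) (4 ^ l), (1:ℝ) ≤ ∑ j ∈ range (4 ^ l), (1:ℝ) :=
      sum_nearS_le (Q + 1) (4 ^ l) (fun _ => (1:ℝ)) fun _ => zero_le_one
    simp only [sum_const, card_range, nsmul_eq_mul, mul_one] at h5
    refine h5.trans (le_of_eq ?_)
    push_cast
    rw [← mul_pow]; norm_num
  calc _ ≤ ((2:ℝ) ^ l * (2:ℝ) ^ l) * (Ks m * c * ((2:ℝ) ^ l) ^ (m + 2) * ((1 + D w x)⁻¹) ^ m) := by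
        gcongr
    _ = _ := by ring

/-- **(d)** commutator of `X` (profile at `x`) with `Y` generated by the modes `< 4^l` about `w`. -/
theorem Frm.br_near_le (F : Frm μ Q b τ D) (R : Car A V) {X Y : A} {x : Z} {c : ℝ} (hc : 0 ≤ c)
    (m : ℕ) (h : ∀ z, R.cs X (b z 0) ≤ c * ((1 + D z x)⁻¹) ^ m) (w : Z) (l : ℕ)
    (hY : Y ∈ R.nalg (b w) (4 ^ l)) :
    ‖br X Y‖ ≤ 2 * Ks m * c * ‖Y‖ * ((2:ℝ) ^ l) ^ (m + 4) * ((1 + D w x)⁻¹) ^ m := by
  refine (R.norm_br_le_of_nalg (b w) hY X).trans ?_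
  have h1 := F.sum_near_le R hc m h w l
  calc _ ≤ 2 * ‖Y‖ * (Ks m * c * ((2:ℝ) ^ l) ^ (m + 4) * ((1 + D w x)⁻¹) ^ m) := by gcongr
    _ = _ := by ring

/-- (d) for the Klein transform of an odd operator. -/
theorem Frm.br_klein_le (F : Frm μ Q b τ D) (R : Car A V) (htop : ∀ a : A, a ∈ R.alg Set.univ)
    {X y : A} {x : Z} {c : ℝ} (hc : 0 ≤ c)
    (m : ℕ) (h : ∀ z, R.cs X (b z 0) ≤ c * ((1 + D z x)⁻¹) ^ m) (w : Z) (l : ℕ)
    (hy : R.par y = -y) :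
    ‖br X (R.E (b w) (4 ^ l) (y * R.th) * R.th)‖ ≤
      2 * Ks m * c * ‖R.E (b w) (4 ^ l) (y * R.th) * R.th‖ * ((2:ℝ) ^ l) ^ (m + 4) *
        ((1 + D w x)⁻¹) ^ m :=
  F.br_near_le R hc m h w l (R.klein_mem (b w) htop (Nat.one_le_pow _ _ (by norm_num))
    (Nat.succ_pos Q) hy)

/-- difference of two truncations -/
theorem Frm.sub_succ_E_le (F : Frm μ Q b τ D) (R : Car A V) {y : A} {w : Z} {c : ℝ} (hc : 0 ≤ c)
    (k : ℕ) (h : ∀ z, R.cs y (b z 0) ≤ c * ((1 + D z w)⁻¹) ^ (k + 5)) (l : ℕ) :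
    ‖R.E (b w) (4 ^ (l + 1)) y - R.E (b w) (4 ^ l) y‖ ≤
      4 * Kn (k + 3) * c * (((2:ℝ) ^ l)⁻¹) ^ (k + 1) := by
  have h1 := F.sub_E_le R hc k h l
  have h2 := F.sub_E_le R hc k h (l + 1)
  have h3 : (((2:ℝ) ^ (l + 1))⁻¹) ^ (k + 1) ≤ (((2:ℝ) ^ l)⁻¹) ^ (k + 1) := by
    refine pow_le_pow_left₀ (by positivity) (inv_anti₀ (by positivity) ?_) _
    exact pow_le_pow_right₀ (by norm_num) (Nat.le_succ l)
  have h4 := Kn_pos (k + 3)
  have h5 : R.E (b w) (4 ^ (l + 1)) y - R.E (b w) (4 ^ l) y =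
      (y - R.E (b w) (4 ^ l) y) - (y - R.E (b w) (4 ^ (l + 1)) y) := by abel
  rw [h5]
  calc _ ≤ ‖y - R.E (b w) (4 ^ l) y‖ + ‖y - R.E (b w) (4 ^ (l + 1)) y‖ := norm_sub_le _ _
    _ ≤ 2 * Kn (k + 3) * c * (((2:ℝ) ^ l)⁻¹) ^ (k + 1) +
        2 * Kn (k + 3) * c * (((2:ℝ) ^ l)⁻¹) ^ (k + 1) := by
        refine add_le_add h1 (h2.trans ?_)
        gcongr
    _ = _ := by ring

/-- the near part of the coherent vector -/
theorem Frm.norm_Pn_le (F : Frm μ Q b τ D) (x w : Z) (L : ℕ) :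
    ‖Car.Pn (b x) L (b w 0)‖ ^ 2 ≤ Real.exp (L - Q * τ w x / 2) := by
  rw [Car.norm_Pn_sq]
  have h1 : ∀ j ∈ nearS (Q + 1) L, ‖(inner ℂ (b x j) (b w 0) : ℂ)‖ ^ 2 = bw Q (j:ℕ) (τ w x) := by
    intro j _
    rw [norm_inner_symm, F.ov0]
  rw [sum_congr rfl h1]
  have T := F.tau x
  refine (sum_nearS_le (Q + 1) L (fun j => bw Q j (τ w x)) fun j =>
    bw_nonneg Q j (T.nonneg w) (T.le_one w)).trans ?_
  exact K4_low Q L (T.nonneg w) (T.le_one w)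

theorem cs_add_le (R : Car A V) (a c : A) (v : V) : R.cs (a + c) v ≤ R.cs a v + R.cs c v := by
  unfold Car.cs
  rw [add_br, add_br]
  have h1 := norm_add_le (br a (R.an v)) (br c (R.an v))
  have h2 := norm_add_le (br a (R.cr v)) (br c (R.cr v))
  linarith

/-- constant of `cs_of_E` -/
noncomputable def Kc (n : ℕ) : ℝ := 4 * 16 ^ n + 8 * n.factorial * 24 ^ n

theorem Kc_pos (n : ℕ) : 0 < Kc n := by unfold Kc; positivity

/-- **(c)** dyadic truncations ⇒ profile, no loss of exponent (coherent vectors). -/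
theorem Frm.cs_of_E (F : Frm μ Q b τ D) (R : Car A V) {a : A} {x : Z} {c : ℝ} (n : ℕ)
    (ha : R.Ev a) (hac : ‖a‖ ≤ c)
    (h : ∀ l : ℕ, ‖a - R.E (b x) (4 ^ l) a‖ ≤ c * (((2:ℝ) ^ l)⁻¹) ^ n) (w : Z) :
    R.cs a (b w 0) ≤ Kc n * c * ((1 + D w x)⁻¹) ^ n := by
  have hc : 0 ≤ c := (norm_nonneg a).trans hac
  set s : ℝ := 1 + D w x with hs
  have hs1 : 1 ≤ s := by have := F.Dnn w x; linarith
  have hs0 : 0 < s := by linarith
  have hv : ‖b w 0‖ = 1 := (b w).orthonormal.1 0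
  have hfac : (0:ℝ) ≤ 8 * n.factorial * 24 ^ n := by positivity
  rcases lt_or_ge s 16 with h16 | h16
  · have h1 : R.cs a (b w 0) ≤ 4 * c := by
      have := R.cs_le a (b w 0)
      rw [hv, mul_one] at this
      linarith
    have h2 : (1:ℝ) ≤ 16 ^ n * (s⁻¹) ^ n := by
      rw [← mul_pow]
      refine one_le_pow₀ ?_
      rw [← div_eq_mul_inv, one_le_div hs0]
      exact h16.le
    have h3 : 0 ≤ (s⁻¹) ^ n := by positivity
    calc R.cs a (b w 0) ≤ 4 * c * 1 := by linarith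
      _ ≤ 4 * c * (16 ^ n * (s⁻¹) ^ n) := by gcongr
      _ ≤ Kc n * c * (s⁻¹) ^ n := by
          unfold Kc
          nlinarith [mul_nonneg (mul_nonneg hfac hc) h3]
  · obtain ⟨l, hl1, hl2⟩ : ∃ l : ℕ, (2:ℝ) ^ l ≤ s / 8 ∧ s / 8 < (2:ℝ) ^ (l + 1) :=
      exists_nat_pow_near (by linarith) (by norm_num)
    have e1 : a = (a - R.E (b x) (4 ^ l) a) + R.E (b x) (4 ^ l) a := by abel
    have h1 : R.cs a (b w 0) ≤ R.cs (a - R.E (b x) (4 ^ l) a) (b w 0) +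
        R.cs (R.E (b x) (4 ^ l) a) (b w 0) := by
      nth_rewrite 1 [e1]
      exact cs_add_le R _ _ _
    have h2 : R.cs (a - R.E (b x) (4 ^ l) a) (b w 0) ≤ 4 * (c * (((2:ℝ) ^ l)⁻¹) ^ n) := by
      have := R.cs_le (a - R.E (b x) (4 ^ l) a) (b w 0)
      rw [hv, mul_one] at this
      linarith [h l]
    have h3 : R.cs (R.E (b x) (4 ^ l) a) (b w 0) ≤ 4 * c * ‖Car.Pn (b x) (4 ^ l) (b w 0)‖ := by
      refine (R.cs_le_of_loc (b x) (R.E_loc (b x) (4 ^ l) ha) (b w 0)).trans ?_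
      have := R.norm_E_le (b x) (4 ^ l) a
      gcongr
      exact this.trans hac
    have h4 : (((2:ℝ) ^ l)⁻¹) ^ n ≤ 16 ^ n * (s⁻¹) ^ n := by
      rw [← mul_pow]
      refine pow_le_pow_left₀ (by positivity) ?_ n
      rw [← div_eq_mul_inv, inv_eq_one_div, div_le_div_iff₀ (by positivity) hs0]
      rw [pow_succ] at hl2
      linarith
    -- Gaussian factor
    have h5 : ‖Car.Pn (b x) (4 ^ l) (b w 0)‖ ^ 2 ≤ Real.exp (1 - s ^ 2 / 12) := by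
      refine (F.norm_Pn_le x w (4 ^ l)).trans (Real.exp_le_exp.2 ?_)
      have h6 := F.Dup w x
      rw [← hs] at h6
      have h7 : (((4 ^ l : ℕ)) : ℝ) ≤ s ^ 2 / 64 := by
        push_cast
        have : (4:ℝ) ^ l = ((2:ℝ) ^ l) ^ 2 := by rw [← pow_mul, mul_comm l 2, pow_mul]; norm_num
        rw [this]
        have h8 : (0:ℝ) < 2 ^ l := by positivity
        nlinarith
      nlinarith
    have h6 : ‖Car.Pn (b x) (4 ^ l) (b w 0)‖ ≤ 2 * (n.factorial * 24 ^ n * (s⁻¹) ^ n) := by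
      have h7 : ‖Car.Pn (b x) (4 ^ l) (b w 0)‖ ≤ Real.exp (1 / 2 - s ^ 2 / 24) := by
        refine abs_le_of_sq_le_sq' ?_ (Real.exp_pos _).le |>.2
        rw [← Real.exp_nat_mul]
        refine h5.trans (le_of_eq ?_)
        congr 1; push_cast; ring
      refine h7.trans ?_
      have h8 : Real.exp (1 / 2 - s ^ 2 / 24) = Real.exp (1 / 2) * Real.exp (-(s ^ 2 / 24)) := by
        rw [← Real.exp_add]; congr 1
      have h9 : Real.exp (1 / 2) ≤ 2 := by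
        have : Real.exp (1 / 2) ^ 2 ≤ 2 ^ 2 := by
          rw [← Real.exp_nat_mul]
          have := Real.exp_one_lt_d9
          norm_num
          linarith
        exact abs_le_of_sq_le_sq' this (by norm_num) |>.2
      have h10 : Real.exp (-(s ^ 2 / 24)) ≤ n.factorial * 24 ^ n * (s⁻¹) ^ n := by
        have h11 : (s ^ 2 / 24) ^ n / n.factorial ≤ Real.exp (s ^ 2 / 24) :=
          Real.pow_div_factorial_le_exp _ (by positivity) n
        rw [Real.exp_neg, inv_eq_one_div, div_le_iff₀ (Real.exp_pos _)]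
        have h12 : (1:ℝ) ≤ n.factorial * 24 ^ n * (s⁻¹) ^ n * ((s ^ 2 / 24) ^ n / n.factorial) := by
          have h13 : (n.factorial : ℝ) ≠ 0 := by exact_mod_cast n.factorial_ne_zero
          have h14 : n.factorial * 24 ^ n * (s⁻¹) ^ n * ((s ^ 2 / 24) ^ n / n.factorial) = s ^ n := by
            rw [div_pow, inv_pow]
            field_simp
            ring
          rw [h14]
          exact one_le_pow₀ hs1
        calc (1:ℝ) ≤ _ := h12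
          _ ≤ _ := by gcongr
      rw [h8]
      calc _ ≤ 2 * (n.factorial * 24 ^ n * (s⁻¹) ^ n) := by gcongr
        _ = _ := rfl
    calc R.cs a (b w 0) ≤ 4 * (c * (((2:ℝ) ^ l)⁻¹) ^ n) + 4 * c * ‖Car.Pn (b x) (4 ^ l) (b w 0)‖ := by
          linarith
      _ ≤ 4 * (c * (16 ^ n * (s⁻¹) ^ n)) + 4 * c * (2 * (n.factorial * 24 ^ n * (s⁻¹) ^ n)) := by
          gcongr
      _ = Kc n * c * (s⁻¹) ^ n := by unfold Kc; ring

/-- **(c)** for every orbital -/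
theorem Frm.cs_of_E_all (F : Frm μ Q b τ D) (R : Car A V) {a : A} {x : Z} {c : ℝ} (n : ℕ)
    (ha : R.Ev a) (hac : ‖a‖ ≤ c)
    (h : ∀ l : ℕ, ‖a - R.E (b x) (4 ^ l) a‖ ≤ c * (((2:ℝ) ^ l)⁻¹) ^ n) (w : Z) (j : Fin (Q + 1)) :
    R.cs a (b w j) ≤ Ks n * Kc n * c * sj j ^ (n + 2) * ((1 + D w x)⁻¹) ^ n := by
  have hc : 0 ≤ c := (norm_nonneg a).trans hac
  have h1 := F.cs_shift R (c := Kc n * c) (by have := Kc_pos n; positivity) n
    (fun z => F.cs_of_E R n ha hac h z) w j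
  refine h1.trans (le_of_eq ?_)
  unfold Ks; ring

end

end Crest.Agent.R340.PD757
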