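import Mathlib

/-!
R340, pair-vector estimates, part 1 (helper341).
`aa Q p i = C(Q,i) C(Q,p-i)`, `xx p i = p - 2 i`; moments of `x` under the weight `a`:
`PV1 : ∑ a x^(2k+2) ≤ C_k min(p,2Q-p)^k ∑ a x^2`.
-/

set_option autoImplicit false

namespace Crest.Agent.R340.PV341

open Finset

/-- the weight `C(Q,i) C(Q,p-i)` -/
noncomputable def aa (Q p i : ℕ) : ℝ := (Q.choose i : ℝ) * (Q.choose (p - i) : ℝ)

/-- the difference `j - i = p - 2 i` (with `i + j = p`) -/
noncomputable def xx (p i : ℕ) : ℝ := (p : ℝ) - 2 * i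

/-- the moments `M_m = ∑ a x^m` -/
noncomputable def mom (Q p m : ℕ) : ℝ := ∑ i ∈ range (p + 1), aa Q p i * xx p i ^ m

lemma aa_nonneg (Q p i : ℕ) : 0 ≤ aa Q p i := by unfold aa; positivity

lemma choose_succ_real (Q i : ℕ) :
    (Q.choose i : ℝ) * ((Q : ℝ) - i) = (Q.choose (i + 1) : ℝ) * ((i : ℝ) + 1) := by
  have h := Nat.choose_succ_right_eq Q i
  rcases le_or_gt i Q with hi | hi
  · have : ((Q.choose (i + 1) * (i + 1) : ℕ) : ℝ) = ((Q.choose i * (Q - i) : ℕ) : ℝ) := by
      rw [h]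
    push_cast [Nat.cast_sub hi] at this
    linarith
  · rw [Nat.choose_eq_zero_of_lt hi, Nat.choose_eq_zero_of_lt (by omega : Q < i + 1)]
    simp

lemma aa_rec (Q p i : ℕ) (hi : i < p) :
    aa Q p i * (((p : ℝ) - i) * ((Q : ℝ) - i)) =
      aa Q p (i + 1) * (((i : ℝ) + 1) * ((Q : ℝ) - p + i + 1)) := by
  unfold aa
  have h1 := choose_succ_real Q i
  have h2 := choose_succ_real Q (p - (i + 1))
  have e : p - (i + 1) + 1 = p - i := by omega
  have e2 : ((p - (i + 1) : ℕ) : ℝ) = (p : ℝ) - (i + 1) := by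
    rw [Nat.cast_sub (by omega)]; push_cast; ring
  rw [e, e2] at h2
  calc (Q.choose i : ℝ) * (Q.choose (p - i) : ℝ) * (((p : ℝ) - i) * ((Q : ℝ) - i))
      = ((Q.choose i : ℝ) * ((Q : ℝ) - i)) * ((Q.choose (p - i) : ℝ) * ((p : ℝ) - (i + 1) + 1)) := by
        ring
    _ = ((Q.choose (i + 1) : ℝ) * ((i : ℝ) + 1)) *
        ((Q.choose (p - (i + 1)) : ℝ) * ((Q : ℝ) - ((p : ℝ) - (i + 1)))) := by rw [h1, ← h2]
    _ = _ := by ring

/-- Summation by parts. -/
lemma sum_parts (Q p : ℕ) (f : ℕ → ℝ) :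
    ∑ i ∈ range (p + 1), aa Q p i * (((p : ℝ) - i) * ((Q : ℝ) - i)) * f (i + 1) =
      ∑ i ∈ range (p + 1), aa Q p i * ((i : ℝ) * ((Q : ℝ) - p + i)) * f i := by
  rw [Finset.sum_range_succ, Finset.sum_range_succ' (fun i => aa Q p i * ((i : ℝ) *
    ((Q : ℝ) - p + i)) * f i)]
  simp only [sub_self, zero_mul, mul_zero, Nat.cast_zero, add_zero]
  refine Finset.sum_congr rfl fun i hi => ?_
  rw [aa_rec Q p i (Finset.mem_range.1 hi)]
  push_cast
  ring

lemma xx_succ (p i : ℕ) : xx p (i + 1) = xx p i - 2 := by unfold xx; push_cast; ring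

/-- the basic moment identity -/
lemma mom_id (Q p m : ℕ) :
    (Q : ℝ) * mom Q p (m + 1) =
      ∑ i ∈ range (p + 1), aa Q p i * (((p : ℝ) - i) * ((Q : ℝ) - i)) *
        (xx p i ^ m - (xx p i - 2) ^ m) := by
  have h := sum_parts Q p (fun i => xx p i ^ m)
  simp only [xx_succ] at h
  have e : ∀ i : ℕ, ((p : ℝ) - i) * ((Q : ℝ) - i) - (i : ℝ) * ((Q : ℝ) - p + i) = Q * xx p i := by
    intro i; unfold xx; ring
  calc (Q : ℝ) * mom Q p (m + 1)
      = ∑ i ∈ range (p + 1), aa Q p i * (((p : ℝ) - i) * ((Q : ℝ) - i) -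
          (i : ℝ) * ((Q : ℝ) - p + i)) * xx p i ^ m := by
        unfold mom
        rw [Finset.mul_sum]
        refine Finset.sum_congr rfl fun i _ => ?_
        rw [e]; ring
    _ = ∑ i ∈ range (p + 1), aa Q p i * (((p : ℝ) - i) * ((Q : ℝ) - i)) * xx p i ^ m -
        ∑ i ∈ range (p + 1), aa Q p i * ((i : ℝ) * ((Q : ℝ) - p + i)) * xx p i ^ m := by
        rw [← Finset.sum_sub_distrib]
        exact Finset.sum_congr rfl fun i _ => by ring
    _ = _ := by
        rw [← h, ← Finset.sum_sub_distrib]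
        exact Finset.sum_congr rfl fun i _ => by ring

/-- `D = min p (2Q-p)`, the distance to the nearer pole -/
def dd (Q p : ℕ) : ℕ := min p (2 * Q - p)

lemma aa_mul_le (Q p i : ℕ) (hi : i < p + 1) :
    aa Q p i * (((p : ℝ) - i) * ((Q : ℝ) - i)) ≤ aa Q p i * (Q * dd Q p) ∧
      0 ≤ aa Q p i * (((p : ℝ) - i) * ((Q : ℝ) - i)) := by
  rcases le_or_gt i Q with h1 | h1
  · rcases le_or_gt (p - i) Q with h2 | h2
    · have hpi : (i : ℝ) ≤ p := by exact_mod_cast (by omega : i ≤ p)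
      have h1' : (i : ℝ) ≤ Q := by exact_mod_cast h1
      have h2' : (p : ℝ) - i ≤ Q := by
        have : ((p - i : ℕ) : ℝ) ≤ Q := by exact_mod_cast h2
        rwa [Nat.cast_sub (by omega)] at this
      have hd : ((p : ℝ) - i) * ((Q : ℝ) - i) ≤ Q * dd Q p := by
        unfold dd
        rcases le_total p (2 * Q - p) with h | h
        · rw [min_eq_left h]
          nlinarith
        · rw [min_eq_right h]
          have : ((2 * Q - p : ℕ) : ℝ) = 2 * Q - p := by
            rw [Nat.cast_sub (by omega)]; push_cast; ring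
          rw [this]
          nlinarith
      refine ⟨mul_le_mul_of_nonneg_left hd (aa_nonneg _ _ _), ?_⟩
      exact mul_nonneg (aa_nonneg _ _ _) (mul_nonneg (by linarith) (by linarith))
    · have : aa Q p i = 0 := by unfold aa; rw [Nat.choose_eq_zero_of_lt h2]; simp
      rw [this]; simp
  · have : aa Q p i = 0 := by unfold aa; rw [Nat.choose_eq_zero_of_lt h1]; simp
    rw [this]; simp

lemma mom_even_nonneg (Q p k : ℕ) : 0 ≤ mom Q p (2 * k) :=
  Finset.sum_nonneg fun i _ => mul_nonneg (aa_nonneg _ _ _)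
    (by rw [pow_mul]; positivity)

/-- reflection `i → p - i` -/
lemma sum_reflect (Q p : ℕ) (g : ℝ → ℝ) :
    ∑ i ∈ range (p + 1), aa Q p i * g i = ∑ i ∈ range (p + 1), aa Q p i * g ((p : ℝ) - i) := by
  rw [← Finset.sum_range_reflect]
  refine Finset.sum_congr rfl fun i hi => ?_
  have hi' : i ≤ p := by have := Finset.mem_range.1 hi; omega
  have e : p + 1 - 1 - i = p - i := by omega
  rw [e]
  have e2 : p - (p - i) = i := by omega
  unfold aa
  rw [e2, Nat.cast_sub hi']
  ring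

/-- lower bound for the second moment -/
lemma mom_two_ge (Q p : ℕ) : (dd Q p : ℝ) * mom Q p 0 ≤ 2 * mom Q p 2 := by
  rcases Nat.eq_zero_or_pos Q with hQ | hQ
  · subst hQ
    have : dd 0 p = 0 := by unfold dd; simp
    rw [this]
    have := mom_even_nonneg 0 p 1
    simp at this ⊢
    linarith
  have hQ' : (0 : ℝ) < Q := by exact_mod_cast hQ
  have h := mom_id Q p 1
  have e1 : ∑ i ∈ range (p + 1), aa Q p i * (((p : ℝ) - i) * ((Q : ℝ) - i)) *
        (xx p i ^ 1 - (xx p i - 2) ^ 1) =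
      2 * ∑ i ∈ range (p + 1), aa Q p i * (((p : ℝ) - i) * ((Q : ℝ) - i)) := by
    rw [Finset.mul_sum]
    exact Finset.sum_congr rfl fun i _ => by ring
  rw [e1] at h
  have hr := sum_reflect Q p (fun y => ((p : ℝ) - y) * ((Q : ℝ) - y))
  have e2 : 2 * ∑ i ∈ range (p + 1), aa Q p i * (((p : ℝ) - i) * ((Q : ℝ) - i)) =
      ∑ i ∈ range (p + 1), aa Q p i * ((p : ℝ) * Q - 2 * i * (p - i)) := by
    rw [two_mul]
    nth_rewrite 1 [hr]
    rw [← Finset.sum_add_distrib]
    exact Finset.sum_congr rfl fun i _ => by ring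
  rw [e2] at h
  have key : ∀ i ∈ range (p + 1), aa Q p i * ((Q : ℝ) * dd Q p / 2) ≤
      aa Q p i * ((p : ℝ) * Q - 2 * i * (p - i)) := by
    intro i hi
    have hi' : i ≤ p := by have := Finset.mem_range.1 hi; omega
    rcases le_or_gt i Q with h1 | h1
    swap
    · have : aa Q p i = 0 := by unfold aa; rw [Nat.choose_eq_zero_of_lt h1]; simp
      rw [this]; simp
    rcases le_or_gt (p - i) Q with h2 | h2
    swap
    · have : aa Q p i = 0 := by unfold aa; rw [Nat.choose_eq_zero_of_lt h2]; simp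
      rw [this]; simp
    refine mul_le_mul_of_nonneg_left ?_ (aa_nonneg _ _ _)
    have hp : (p : ℝ) ≤ 2 * Q := by exact_mod_cast (by omega : p ≤ 2 * Q)
    have hp0 : (0 : ℝ) ≤ p := by positivity
    have hq : 2 * (i : ℝ) * (p - i) ≤ (p : ℝ) ^ 2 / 2 := by nlinarith [sq_nonneg ((p : ℝ) - 2 * i)]
    unfold dd
    rcases le_total p (2 * Q - p) with h | h
    · rw [min_eq_left h]
      have h' : (p : ℝ) ≤ Q := by exact_mod_cast (by omega : p ≤ Q)
      nlinarith
    · rw [min_eq_right h]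
      have : ((2 * Q - p : ℕ) : ℝ) = 2 * Q - p := by
        rw [Nat.cast_sub (by omega)]; push_cast; ring
      rw [this]
      have h' : (Q : ℝ) ≤ p := by exact_mod_cast (by omega : Q ≤ p)
      nlinarith
  have hs := Finset.sum_le_sum key
  rw [← h, ← Finset.sum_mul] at hs
  have e3 : mom Q p 0 = ∑ i ∈ range (p + 1), aa Q p i := by
    unfold mom; simp
  rw [← e3] at hs
  have : (Q : ℝ) * ((dd Q p : ℝ) * mom Q p 0) ≤ Q * (2 * mom Q p 2) := by
    norm_num at hs
    linarith
  exact le_of_mul_le_mul_left this hQ'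

lemma pow_sub_pow_le (x : ℝ) (m : ℕ) :
    x ^ (2 * m + 1) - (x - 2) ^ (2 * m + 1) ≤ 2 * (2 * m + 1) * (|x| + 2) ^ (2 * m) := by
  have h := sub_pow_le_aux x m
  exact h
where
  sub_pow_le_aux (x : ℝ) (m : ℕ) :
      x ^ (2 * m + 1) - (x - 2) ^ (2 * m + 1) ≤ 2 * (2 * m + 1) * (|x| + 2) ^ (2 * m) := by
    have e := (Commute.all x (x - 2)).geom_sum₂_mul (2 * m + 1)
    rw [← e]
    have e2 : x - (x - 2) = 2 := by ring
    rw [e2]
    have hb : ∀ i ∈ range (2 * m + 1), x ^ i * (x - 2) ^ (2 * m + 1 - 1 - i) ≤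
        (|x| + 2) ^ (2 * m) := by
      intro i hi
      have hi' : i ≤ 2 * m := by have := Finset.mem_range.1 hi; omega
      calc x ^ i * (x - 2) ^ (2 * m + 1 - 1 - i) ≤ |x ^ i * (x - 2) ^ (2 * m + 1 - 1 - i)| :=
            le_abs_self _
        _ = |x| ^ i * |x - 2| ^ (2 * m - i) := by
            rw [abs_mul, abs_pow, abs_pow]; rfl
        _ ≤ (|x| + 2) ^ i * (|x| + 2) ^ (2 * m - i) := by
            have h1 : |x| ≤ |x| + 2 := by linarith
            have h2 : |x - 2| ≤ |x| + 2 := by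
              calc |x - 2| ≤ |x| + |(2 : ℝ)| := abs_sub _ _
                _ = |x| + 2 := by norm_num
            gcongr
        _ = (|x| + 2) ^ (2 * m) := by
            rw [← pow_add]; congr 1; omega
    have h3 := Finset.sum_le_sum hb
    rw [Finset.sum_const, Finset.card_range, nsmul_eq_mul] at h3
    have h4 : (((2 * m + 1 : ℕ) : ℝ)) = 2 * m + 1 := by push_cast; ring
    rw [h4] at h3
    generalize (∑ i ∈ range (2 * m + 1), x ^ i * (x - 2) ^ (2 * m + 1 - 1 - i)) = S at h3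
    linarith

/-- **PV1**: all moments of `x = j - i` under `a x²` are Gaussian-like, uniformly. -/
theorem PV1 (k : ℕ) : ∃ C : ℝ, 0 ≤ C ∧ ∀ Q p : ℕ,
    mom Q p (2 * k + 2) ≤ C * (dd Q p : ℝ) ^ k * mom Q p 2 := by
  induction k with
  | zero => exact ⟨1, zero_le_one, fun Q p => by simp⟩
  | succ k ih =>
    obtain ⟨C, hC, h⟩ := ih
    refine ⟨2 * (2 * (k + 1) + 1) * (2 ^ (2 * (k + 1)) * (C + 2 * 2 ^ (2 * (k + 1)))),
      by positivity, fun Q p => ?_⟩
    rcases Nat.eq_zero_or_pos Q with hQ | hQ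
    · -- Q = 0 : only `i = 0`, `p = 0`
      subst hQ
      have hz : ∀ m : ℕ, mom 0 p (m + 1) = 0 := by
        intro m
        unfold mom
        refine Finset.sum_eq_zero fun i hi => ?_
        have hi' : i ≤ p := by have := Finset.mem_range.1 hi; omega
        rcases Nat.eq_zero_or_pos i with h0 | h0
        · subst h0
          rcases Nat.eq_zero_or_pos p with hp | hp
          · subst hp; simp [xx]
          · have : aa 0 p 0 = 0 := by
              unfold aa; rw [Nat.choose_eq_zero_of_lt (by omega : 0 < p - 0)]; simp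
            rw [this]; simp
        · have : aa 0 p i = 0 := by unfold aa; rw [Nat.choose_eq_zero_of_lt h0]; simp
          rw [this]; simp
      have e1 : 2 * (k + 1) + 2 = (2 * (k + 1) + 1) + 1 := by ring
      rw [e1, hz]
      have := hz 1
      norm_num at this
      rw [this]; simp
    have hQ' : (0 : ℝ) < Q := by exact_mod_cast hQ
    -- degenerate case `dd = 0`
    rcases Nat.eq_zero_or_pos (dd Q p) with hd | hd
    · have hM : mom Q p (2 * (k + 1) + 2) ≤ 0 := by
        have h1 := mom_id Q p (2 * (k + 1) + 1)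
        have h2 : ∑ i ∈ range (p + 1), aa Q p i * (((p : ℝ) - i) * ((Q : ℝ) - i)) *
            (xx p i ^ (2 * (k + 1) + 1) - (xx p i - 2) ^ (2 * (k + 1) + 1)) = 0 := by
          refine Finset.sum_eq_zero fun i hi => ?_
          have := aa_mul_le Q p i (Finset.mem_range.1 hi)
          rw [hd] at this
          simp only [Nat.cast_zero, mul_zero] at this
          rw [le_antisymm this.1 this.2]; ring
        rw [h2] at h1
        have : mom Q p (2 * (k + 1) + 1 + 1) = 0 := by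
          rcases mul_eq_zero.1 h1 with h | h
          · exact absurd h (ne_of_gt hQ')
          · exact h
        exact le_of_eq this
      refine hM.trans ?_
      have := mom_even_nonneg Q p 1
      norm_num at this
      positivity
    have hd' : (1 : ℝ) ≤ dd Q p := by exact_mod_cast hd
    set D : ℝ := (dd Q p : ℝ) with hD
    have h1 := mom_id Q p (2 * (k + 1) + 1)
    have hM2 : 0 ≤ mom Q p 2 := by simpa using mom_even_nonneg Q p 1
    have h2 : ∑ i ∈ range (p + 1), aa Q p i * (((p : ℝ) - i) * ((Q : ℝ) - i)) *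
            (xx p i ^ (2 * (k + 1) + 1) - (xx p i - 2) ^ (2 * (k + 1) + 1)) ≤
        ∑ i ∈ range (p + 1), aa Q p i * (Q * D) *
          (2 * (2 * (k + 1) + 1) * (2 ^ (2 * (k + 1)) *
            (xx p i ^ (2 * (k + 1)) + 2 ^ (2 * (k + 1))))) := by
      refine Finset.sum_le_sum fun i hi => ?_
      have ha := aa_mul_le Q p i (Finset.mem_range.1 hi)
      have hb := pow_sub_pow_le (xx p i) (k + 1)
      have hc : (|xx p i| + 2) ^ (2 * (k + 1)) ≤
          2 ^ (2 * (k + 1)) * (xx p i ^ (2 * (k + 1)) + 2 ^ (2 * (k + 1))) := by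
        have habs : xx p i ^ (2 * (k + 1)) = |xx p i| ^ (2 * (k + 1)) := by
          rw [pow_mul, pow_mul, sq_abs]
        rw [habs]
        have hx := abs_nonneg (xx p i)
        rcases le_total |xx p i| 2 with hh | hh
        · calc (|xx p i| + 2) ^ (2 * (k + 1)) ≤ (2 * 2) ^ (2 * (k + 1)) := by
                gcongr; linarith
            _ = 2 ^ (2 * (k + 1)) * 2 ^ (2 * (k + 1)) := by rw [mul_pow]
            _ ≤ _ := by gcongr; linarith [pow_nonneg hx (2 * (k + 1))]
        · calc (|xx p i| + 2) ^ (2 * (k + 1)) ≤ (2 * |xx p i|) ^ (2 * (k + 1)) := by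
                gcongr; linarith
            _ = 2 ^ (2 * (k + 1)) * |xx p i| ^ (2 * (k + 1)) := by rw [mul_pow]
            _ ≤ _ := by
                gcongr
                linarith [pow_nonneg (by norm_num : (0 : ℝ) ≤ 2) (2 * (k + 1))]
      have hd2 : xx p i ^ (2 * (k + 1) + 1) - (xx p i - 2) ^ (2 * (k + 1) + 1) ≤
          2 * (2 * (k + 1) + 1) * (2 ^ (2 * (k + 1)) *
            (xx p i ^ (2 * (k + 1)) + 2 ^ (2 * (k + 1)))) := by
        refine hb.trans ?_
        push_cast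
        gcongr
      have hpos : 0 ≤ 2 * (2 * ((k : ℝ) + 1) + 1) * (2 ^ (2 * (k + 1)) *
            (xx p i ^ (2 * (k + 1)) + 2 ^ (2 * (k + 1)))) := by
        have : 0 ≤ xx p i ^ (2 * (k + 1)) := by rw [pow_mul]; positivity
        positivity
      calc aa Q p i * (((p : ℝ) - i) * ((Q : ℝ) - i)) *
            (xx p i ^ (2 * (k + 1) + 1) - (xx p i - 2) ^ (2 * (k + 1) + 1))
          ≤ aa Q p i * (((p : ℝ) - i) * ((Q : ℝ) - i)) * (2 * (2 * (k + 1) + 1) *
            (2 ^ (2 * (k + 1)) * (xx p i ^ (2 * (k + 1)) + 2 ^ (2 * (k + 1))))) :=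
            mul_le_mul_of_nonneg_left hd2 ha.2
        _ ≤ _ := mul_le_mul_of_nonneg_right ha.1 hpos
    have h3 : ∑ i ∈ range (p + 1), aa Q p i * (Q * D) *
          (2 * (2 * (k + 1) + 1) * (2 ^ (2 * (k + 1)) *
            (xx p i ^ (2 * (k + 1)) + 2 ^ (2 * (k + 1))))) =
        Q * (D * (2 * (2 * (k + 1) + 1)) * (2 ^ (2 * (k + 1)) *
          (mom Q p (2 * (k + 1)) + 2 ^ (2 * (k + 1)) * mom Q p 0))) := by
      have e0 : mom Q p 0 = ∑ i ∈ range (p + 1), aa Q p i := by unfold mom; simp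
      rw [e0]
      unfold mom
      rw [Finset.mul_sum, ← Finset.sum_add_distrib, Finset.mul_sum, Finset.mul_sum,
        Finset.mul_sum]
      exact Finset.sum_congr rfl fun i _ => by ring
    rw [h3] at h2
    rw [← h1] at h2
    have h4 := le_of_mul_le_mul_left h2 hQ'
    have e5 : 2 * (k + 1) + 2 = 2 * (k + 1) + 1 + 1 := rfl
    rw [e5]
    refine h4.trans ?_
    have h6 : mom Q p (2 * (k + 1)) ≤ C * D ^ k * mom Q p 2 := h Q p
    have h7 : mom Q p 0 ≤ 2 * D ^ k * mom Q p 2 := by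
      have h8 := mom_two_ge Q p
      have h9 : (1 : ℝ) ≤ D ^ k := one_le_pow₀ hd'
      have h10 : mom Q p 0 ≤ D * mom Q p 0 := by
        have := mom_even_nonneg Q p 0
        simp only [mul_zero] at this
        nlinarith
      nlinarith
    have hk : (0 : ℝ) ≤ 2 ^ (2 * (k + 1)) := by positivity
    calc D * (2 * (2 * (k + 1) + 1)) * (2 ^ (2 * (k + 1)) *
          (mom Q p (2 * (k + 1)) + 2 ^ (2 * (k + 1)) * mom Q p 0))
        ≤ D * (2 * (2 * (k + 1) + 1)) * (2 ^ (2 * (k + 1)) *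
          (C * D ^ k * mom Q p 2 + 2 ^ (2 * (k + 1)) * (2 * D ^ k * mom Q p 2))) := by
          gcongr
      _ = _ := by ring

end Crest.Agent.R340.PV341
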