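import Crest.Agent.R340.PV1_341

/-!
R340, pair-vector estimates, part 2 (helper341).
Normalised weights `beta` on the half range `i < j`, their moments, and the
`l¹`-estimate `(∑ β g)² ≤ R ∑ β² g² (1 + x/R)²`.
-/

set_option autoImplicit false

namespace Crest.Agent.R340.PV341

open Finset

/-- pairs `i < j`, `i + j = p`, `j ≤ Q`, indexed by `i` -/
def half (Q p : ℕ) : Finset ℕ := (range (p + 1)).filter (fun i => 2 * i < p ∧ p - i ≤ Q)

/-- `∑_{i<j, i+j=p} a x²` -/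
noncomputable def nrm (Q p : ℕ) : ℝ := ∑ i ∈ half Q p, aa Q p i * xx p i ^ 2

/-- the normalised pair weight `|x| √a / √(∑ a x²)` -/
noncomputable def beta (Q p i : ℕ) : ℝ := |xx p i| * √(aa Q p i) / √(nrm Q p)

lemma mem_half {Q p i : ℕ} : i ∈ half Q p ↔ 2 * i < p ∧ p - i ≤ Q := by
  unfold half
  rw [Finset.mem_filter, Finset.mem_range]
  constructor
  · exact fun h => h.2
  · exact fun h => ⟨by omega, h⟩

lemma xx_pos {Q p i : ℕ} (h : i ∈ half Q p) : 1 ≤ xx p i := by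
  rw [mem_half] at h
  unfold xx
  have : 2 * (i : ℝ) + 1 ≤ p := by exact_mod_cast h.1
  linarith

lemma xx_cast {Q p i : ℕ} (h : i ∈ half Q p) : xx p i = ((p - 2 * i : ℕ) : ℝ) := by
  rw [mem_half] at h
  unfold xx
  rw [Nat.cast_sub (by omega)]
  push_cast; ring

lemma aa_pos {Q p i : ℕ} (h : i ∈ half Q p) : 0 < aa Q p i := by
  rw [mem_half] at h
  unfold aa
  have h1 : 0 < Q.choose i := Nat.choose_pos (by omega)
  have h2 : 0 < Q.choose (p - i) := Nat.choose_pos h.2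
  have h1' : (0 : ℝ) < Q.choose i := by exact_mod_cast h1
  have h2' : (0 : ℝ) < Q.choose (p - i) := by exact_mod_cast h2
  positivity

lemma beta_nonneg (Q p i : ℕ) : 0 ≤ beta Q p i := by unfold beta; positivity

lemma aa_refl (Q p i : ℕ) (h : i ≤ p) : aa Q p (p - i) = aa Q p i := by
  unfold aa
  have e2 : p - (p - i) = i := by omega
  rw [e2]; ring

lemma xx_refl (p i : ℕ) (h : i ≤ p) : xx p (p - i) = - xx p i := by
  unfold xx
  rw [Nat.cast_sub h]; ring

/-- half sums of even powers are half of the full sums -/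
lemma half_sum (Q p m : ℕ) :
    2 * ∑ i ∈ half Q p, aa Q p i * xx p i ^ (2 * (m + 1)) = mom Q p (2 * (m + 1)) := by
  set f : ℕ → ℝ := fun i => aa Q p i * xx p i ^ (2 * (m + 1)) with hf
  have h1 : ∑ i ∈ half Q p, f i = ∑ i ∈ (range (p + 1)).filter (fun i => 2 * i < p), f i := by
    unfold half
    refine Finset.sum_subset ?_ ?_
    · intro i hi
      rw [Finset.mem_filter] at hi ⊢
      exact ⟨hi.1, hi.2.1⟩
    · intro i hi hn
      rw [Finset.mem_filter] at hi hn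
      have : Q < p - i := by
        by_contra hc
        exact hn ⟨hi.1, hi.2, by omega⟩
      simp only [hf]
      have : aa Q p i = 0 := by unfold aa; rw [Nat.choose_eq_zero_of_lt this]; simp
      rw [this]; simp
  have h2 : ∑ i ∈ (range (p + 1)).filter (fun i => ¬ 2 * i < p), f i =
      ∑ i ∈ (range (p + 1)).filter (fun i => 2 * i < p), f i := by
    have h3 : ∑ i ∈ (range (p + 1)).filter (fun i => ¬ 2 * i < p), f i =
        ∑ i ∈ (range (p + 1)).filter (fun i => p < 2 * i), f i := by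
      symm
      refine Finset.sum_subset ?_ ?_
      · intro i hi
        rw [Finset.mem_filter] at hi ⊢
        exact ⟨hi.1, by omega⟩
      · intro i hi hn
        rw [Finset.mem_filter] at hi hn
        have he : p = 2 * i := by
          by_contra hc
          exact hn ⟨hi.1, by omega⟩
        simp only [hf]
        have : xx p i = 0 := by unfold xx; rw [he]; push_cast; ring
        rw [this]; simp
    rw [h3]
    refine Finset.sum_nbij' (fun i => p - i) (fun i => p - i) ?_ ?_ ?_ ?_ ?_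
    · intro i hi
      simp only [Finset.mem_filter, Finset.mem_range] at hi ⊢
      omega
    · intro i hi
      simp only [Finset.mem_filter, Finset.mem_range] at hi ⊢
      omega
    · intro i hi
      simp only [Finset.mem_filter, Finset.mem_range] at hi
      omega
    · intro i hi
      simp only [Finset.mem_filter, Finset.mem_range] at hi
      omega
    · intro i hi
      simp only [Finset.mem_filter, Finset.mem_range] at hi
      simp only [hf]
      rw [aa_refl Q p i (by omega), xx_refl p i (by omega), pow_mul, pow_mul, neg_sq]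
  have h4 := Finset.sum_filter_add_sum_filter_not (range (p + 1)) (fun i => 2 * i < p) f
  rw [h2] at h4
  rw [h1, two_mul, h4]
  rfl

lemma nrm_eq (Q p : ℕ) : 2 * nrm Q p = mom Q p 2 := by
  have := half_sum Q p 0
  simpa [nrm] using this

lemma nrm_nonneg (Q p : ℕ) : 0 ≤ nrm Q p :=
  Finset.sum_nonneg fun i _ => mul_nonneg (aa_nonneg _ _ _) (sq_nonneg _)

lemma nrm_pos {Q p i : ℕ} (h : i ∈ half Q p) : 0 < nrm Q p := by
  unfold nrm
  refine Finset.sum_pos' (fun _ _ => mul_nonneg (aa_nonneg _ _ _) (sq_nonneg _)) ⟨i, h, ?_⟩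
  have h1 := aa_pos h
  have h2 := xx_pos h
  positivity

lemma beta_sq {Q p i : ℕ} (h : i ∈ half Q p) :
    beta Q p i ^ 2 = xx p i ^ 2 * aa Q p i / nrm Q p := by
  unfold beta
  rw [div_pow, mul_pow, sq_abs, Real.sq_sqrt (aa_nonneg _ _ _), Real.sq_sqrt (nrm_nonneg _ _)]

lemma beta_pos {Q p i : ℕ} (h : i ∈ half Q p) : 0 < beta Q p i := by
  unfold beta
  have h1 := aa_pos h
  have h2 := xx_pos h
  have h3 := nrm_pos h
  have h4 : 0 < |xx p i| := abs_pos.2 (by linarith)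
  have h5 := Real.sqrt_pos.2 h1
  have h6 := Real.sqrt_pos.2 h3
  positivity

/-- normalisation -/
lemma sum_beta_sq {Q p : ℕ} (h : (half Q p).Nonempty) : ∑ i ∈ half Q p, beta Q p i ^ 2 = 1 := by
  obtain ⟨i0, h0⟩ := h
  have h3 := nrm_pos h0
  have : ∀ i ∈ half Q p, beta Q p i ^ 2 = aa Q p i * xx p i ^ 2 / nrm Q p := by
    intro i hi; rw [beta_sq hi]; ring
  rw [Finset.sum_congr rfl this, ← Finset.sum_div]
  exact div_self (ne_of_gt h3)

/-- moments of the normalised weights -/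
theorem beta_mom (m : ℕ) : ∃ C : ℝ, 0 ≤ C ∧ ∀ Q p : ℕ,
    ∑ i ∈ half Q p, beta Q p i ^ 2 * xx p i ^ (2 * m) ≤ C * (dd Q p : ℝ) ^ m := by
  obtain ⟨C, hC, h⟩ := PV1 m
  refine ⟨C, hC, fun Q p => ?_⟩
  rcases (half Q p).eq_empty_or_nonempty with he | ⟨i0, h0⟩
  · rw [he]; simp; positivity
  have h3 := nrm_pos h0
  have e1 : ∑ i ∈ half Q p, beta Q p i ^ 2 * xx p i ^ (2 * m) =
      (∑ i ∈ half Q p, aa Q p i * xx p i ^ (2 * (m + 1))) / nrm Q p := by
    rw [Finset.sum_div]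
    refine Finset.sum_congr rfl fun i hi => ?_
    rw [beta_sq hi]; ring
  rw [e1, div_le_iff₀ h3]
  have h4 := half_sum Q p m
  have h5 := nrm_eq Q p
  have h6 := h Q p
  have e2 : 2 * (m + 1) = 2 * m + 2 := by ring
  rw [e2] at h4 ⊢
  rw [← h5] at h6
  have h7 : C * (dd Q p : ℝ) ^ m * (2 * nrm Q p) = 2 * (C * (dd Q p : ℝ) ^ m * nrm Q p) := by ring
  rw [h7] at h6
  linarith

/-- telescoping bound -/
lemma tele (R : ℝ) (hR : 0 < R) (n : ℕ) :
    ∑ k ∈ Finset.Icc 1 n, ((1 + (k : ℝ) / R) ^ 2)⁻¹ ≤ R * (1 - (1 + (n : ℝ) / R)⁻¹) := by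
  induction n with
  | zero => simp
  | succ n ih =>
    rw [Finset.sum_Icc_succ_top (by omega)]
    have h1 : (0 : ℝ) < 1 + (n : ℝ) / R := by positivity
    have h2 : (0 : ℝ) < 1 + ((n + 1 : ℕ) : ℝ) / R := by positivity
    have key : ((1 + ((n + 1 : ℕ) : ℝ) / R) ^ 2)⁻¹ ≤
        R * ((1 + (n : ℝ) / R)⁻¹ - (1 + ((n + 1 : ℕ) : ℝ) / R)⁻¹) := by
      have e : R * ((1 + (n : ℝ) / R)⁻¹ - (1 + ((n + 1 : ℕ) : ℝ) / R)⁻¹) =
          ((1 + (n : ℝ) / R) * (1 + ((n + 1 : ℕ) : ℝ) / R))⁻¹ := by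
        push_cast
        field_simp
        ring
      rw [e]
      apply inv_anti₀ (by positivity)
      rw [sq]
      refine mul_le_mul_of_nonneg_right ?_ h2.le
      have : (n : ℝ) / R ≤ ((n + 1 : ℕ) : ℝ) / R := by
        apply div_le_div_of_nonneg_right _ hR.le
        push_cast; linarith
      linarith
    calc _ ≤ R * (1 - (1 + (n : ℝ) / R)⁻¹) +
          R * ((1 + (n : ℝ) / R)⁻¹ - (1 + ((n + 1 : ℕ) : ℝ) / R)⁻¹) := add_le_add ih key
      _ = _ := by ring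

lemma sum_half_inv (Q p : ℕ) (R : ℝ) (hR : 0 < R) :
    ∑ i ∈ half Q p, ((1 + xx p i / R) ^ 2)⁻¹ ≤ R := by
  have h1 : ∑ i ∈ half Q p, ((1 + xx p i / R) ^ 2)⁻¹ =
      ∑ k ∈ (half Q p).image (fun i => p - 2 * i), ((1 + (k : ℝ) / R) ^ 2)⁻¹ := by
    rw [Finset.sum_image]
    · exact Finset.sum_congr rfl fun i hi => by rw [xx_cast hi]
    · intro i hi j hj hij
      have hi' := mem_half.1 (Finset.mem_coe.1 hi)
      have hj' := mem_half.1 (Finset.mem_coe.1 hj)
      simp only at hij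
      omega
  rw [h1]
  calc ∑ k ∈ (half Q p).image (fun i => p - 2 * i), ((1 + (k : ℝ) / R) ^ 2)⁻¹
      ≤ ∑ k ∈ Finset.Icc 1 p, ((1 + (k : ℝ) / R) ^ 2)⁻¹ := by
        refine Finset.sum_le_sum_of_subset_of_nonneg ?_ fun _ _ _ => by positivity
        intro k hk
        rw [Finset.mem_image] at hk
        obtain ⟨i, hi, rfl⟩ := hk
        have hi' := mem_half.1 hi
        rw [Finset.mem_Icc]
        omega
    _ ≤ R * (1 - (1 + (p : ℝ) / R)⁻¹) := tele R hR p
    _ ≤ R := by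
        have : 0 ≤ (1 + (p : ℝ) / R)⁻¹ := by positivity
        nlinarith

/-- **`l¹`-bound** (Cauchy–Schwarz with the weight `1 + x/R`). -/
theorem l1_bound (Q p : ℕ) (g : ℕ → ℝ) (R : ℝ) (hR : 0 < R) :
    (∑ i ∈ half Q p, beta Q p i * g i) ^ 2 ≤
      R * ∑ i ∈ half Q p, beta Q p i ^ 2 * (g i ^ 2 * (1 + xx p i / R) ^ 2) := by
  have h := Finset.sum_mul_sq_le_sq_mul_sq (half Q p)
    (fun i => beta Q p i * g i * (1 + xx p i / R)) (fun i => (1 + xx p i / R)⁻¹)
  have e1 : ∑ i ∈ half Q p, beta Q p i * g i * (1 + xx p i / R) * (1 + xx p i / R)⁻¹ =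
      ∑ i ∈ half Q p, beta Q p i * g i := by
    refine Finset.sum_congr rfl fun i hi => ?_
    have h0 : 0 < 1 + xx p i / R := by
      have := xx_pos hi
      positivity
    rw [mul_assoc, mul_inv_cancel₀ (ne_of_gt h0), mul_one]
  rw [e1] at h
  have e2 : ∑ i ∈ half Q p, ((1 + xx p i / R)⁻¹) ^ 2 ≤ R := by
    simpa only [inv_pow] using sum_half_inv Q p R hR
  have e3 : ∑ i ∈ half Q p, (beta Q p i * g i * (1 + xx p i / R)) ^ 2 =
      ∑ i ∈ half Q p, beta Q p i ^ 2 * (g i ^ 2 * (1 + xx p i / R) ^ 2) :=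
    Finset.sum_congr rfl fun i _ => by ring
  rw [e3] at h
  refine h.trans ?_
  rw [mul_comm]
  refine mul_le_mul_of_nonneg_right e2 (Finset.sum_nonneg fun i _ => by positivity)

/-- **Monomial `l¹`-bound**: `(∑ β x^{2m})² ≤ C √R D^{2m}` type bound with `R² = D' ≥ D`. -/
theorem l1_mom (m : ℕ) : ∃ C : ℝ, 0 ≤ C ∧ ∀ (Q p : ℕ) (P : ℝ), 0 < P → (dd Q p : ℝ) ≤ P →
    (∑ i ∈ half Q p, beta Q p i * xx p i ^ m) ^ 2 ≤ C * √P * P ^ m := by
  obtain ⟨C1, hC1, h1⟩ := beta_mom m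
  obtain ⟨C2, hC2, h2⟩ := beta_mom (m + 1)
  refine ⟨2 * (C1 + C2), by positivity, fun Q p P hP hd => ?_⟩
  have hs : 0 < √P := Real.sqrt_pos.2 hP
  refine (l1_bound Q p (fun i => xx p i ^ m) (√P) hs).trans ?_
  have hd0 : (0 : ℝ) ≤ dd Q p := by positivity
  have hb : ∑ i ∈ half Q p, beta Q p i ^ 2 * ((xx p i ^ m) ^ 2 * (1 + xx p i / √P) ^ 2) ≤
      2 * (C1 + C2) * P ^ m := by
    have h3 : ∀ i ∈ half Q p,
        beta Q p i ^ 2 * ((xx p i ^ m) ^ 2 * (1 + xx p i / √P) ^ 2) ≤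
        2 * (beta Q p i ^ 2 * xx p i ^ (2 * m)) +
          2 * (beta Q p i ^ 2 * xx p i ^ (2 * (m + 1))) / P := by
      intro i hi
      have h4 : (1 + xx p i / √P) ^ 2 ≤ 2 + 2 * xx p i ^ 2 / P := by
        have e : (xx p i / √P) ^ 2 = xx p i ^ 2 / P := by
          rw [div_pow, Real.sq_sqrt hP.le]
        have : (1 + xx p i / √P) ^ 2 ≤ 2 + 2 * (xx p i / √P) ^ 2 := by
          nlinarith [sq_nonneg (1 - xx p i / √P)]
        rw [e] at this
        linarith [this, (by ring : 2 * (xx p i ^ 2 / P) = 2 * xx p i ^ 2 / P)]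
      calc beta Q p i ^ 2 * ((xx p i ^ m) ^ 2 * (1 + xx p i / √P) ^ 2)
          ≤ beta Q p i ^ 2 * ((xx p i ^ m) ^ 2 * (2 + 2 * xx p i ^ 2 / P)) := by
            gcongr
        _ = _ := by ring
    refine (Finset.sum_le_sum h3).trans ?_
    rw [Finset.sum_add_distrib, ← Finset.mul_sum, ← Finset.sum_div, ← Finset.mul_sum]
    have h5 := h1 Q p
    have h6 := h2 Q p
    have h7 : C1 * (dd Q p : ℝ) ^ m ≤ C1 * P ^ m := by gcongr
    have h8 : C2 * (dd Q p : ℝ) ^ (m + 1) ≤ C2 * P ^ (m + 1) := by gcongr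
    have h9 : 2 * (∑ i ∈ half Q p, beta Q p i ^ 2 * xx p i ^ (2 * (m + 1))) / P ≤
        2 * (C2 * P ^ m) := by
      rw [div_le_iff₀ hP]
      calc _ ≤ 2 * (C2 * P ^ (m + 1)) := by linarith
        _ = _ := by ring
    linarith
  calc √P * ∑ i ∈ half Q p, beta Q p i ^ 2 * ((xx p i ^ m) ^ 2 * (1 + xx p i / √P) ^ 2)
      ≤ √P * (2 * (C1 + C2) * P ^ m) := by gcongr
    _ = _ := by ring

end Crest.Agent.R340.PV341
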