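import Crest.Agent.R340.Path_924
import Crest.Agent.R340.PSD_716
import Crest.Agent.R340.Scal_725

/-!
# R340, doc 1094 section 3/4/5: the path half of the A/B steps, abstract layer (helper880)

* `off Z x = (1 - P_Z) x`;
* discrete Taylor formula `f j = f 0 + j (f 1 - f 0) + ∑_p f''_p (j - p - 1)_+`;
* ring decomposition `(1 - P) T f ψ = ∑_p f''_p • (1 - P) T (kink (p+1)) ψ`;
* second differences of the metric term `g = - ∑_k log (Q - j + k)` (convexity, size,
  log-Lipschitz property).
-/

set_option autoImplicit false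

namespace Crest.Agent.R340.PathStep880

open Finset
open Crest.Agent.R340.Scal725 (dd prof)

/-! ### 1. the off-diagonal part -/

section off
variable {E : Type*} [NormedAddCommGroup E] [InnerProductSpace ℂ E] [FiniteDimensional ℂ E]

/-- `(1 - P_Z) x`. -/
noncomputable def off (Z : Submodule ℂ E) : E →L[ℂ] E := 1 - Z.starProjection

theorem off_apply (Z : Submodule ℂ E) (x : E) : off Z x = x - Z.starProjection x := rfl

theorem off_of_mem {Z : Submodule ℂ E} {x : E} (hx : x ∈ Z) : off Z x = 0 := by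
  rw [off_apply, Submodule.starProjection_eq_self_iff.2 hx, sub_self]

theorem inner_off_of_mem {Z : Submodule ℂ E} {x y : E} (hx : x ∈ Z) :
    inner ℂ x (off Z y) = 0 := by
  rw [off_apply]
  exact Submodule.inner_right_of_mem_orthogonal hx (Submodule.sub_starProjection_mem_orthogonal y)

theorem inner_off_off (Z : Submodule ℂ E) (x y : E) :
    inner ℂ (off Z x) (off Z y) = inner ℂ x (off Z y) := by
  have h : inner ℂ (Z.starProjection x) (off Z y) = 0 :=
    inner_off_of_mem (Submodule.starProjection_apply_mem Z x)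
  rw [off_apply Z x, inner_sub_left, h, sub_zero]

theorem norm_off_le (Z : Submodule ℂ E) (x : E) : ‖off Z x‖ ≤ ‖x‖ := by
  have h := Z.norm_sq_eq_add_norm_sq_starProjection x
  have h2 : Zᗮ.starProjection x = off Z x := by
    rw [Submodule.starProjection_orthogonal_val, off_apply]
  rw [h2] at h
  have h3 : ‖off Z x‖ ^ 2 ≤ ‖x‖ ^ 2 := by
    rw [h]; nlinarith [sq_nonneg ‖Z.starProjection x‖]
  exact (sq_le_sq₀ (norm_nonneg _) (norm_nonneg _)).1 h3

end off

/-! ### 2. discrete Taylor formula -/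

/-- `(j - p)_+`. -/
def kink (p : ℕ) (j : ℕ) : ℝ := ((j - p : ℕ) : ℝ)

theorem kink_of_le {p j : ℕ} (h : j ≤ p) : kink p j = 0 := by
  unfold kink; rw [Nat.sub_eq_zero_of_le h]; simp

theorem taylor (f : ℕ → ℝ) (j : ℕ) :
    f (j + 1) = f 0 + (j + 1) * (f 1 - f 0) + ∑ p ∈ range j, dd f p * ((j : ℝ) - p) := by
  have h1 : ∀ j, f (j + 1) - f j = f 1 - f 0 + ∑ p ∈ range j, dd f p := by
    intro j
    induction j with
    | zero => simp
    | succ j ih =>
      rw [sum_range_succ]
      unfold dd at ih ⊢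
      linarith
  induction j with
  | zero => simp
  | succ j ih =>
    have h2 := h1 (j + 1)
    rw [sum_range_succ]
    have h3 : ∑ p ∈ range j, dd f p * (((j + 1 : ℕ) : ℝ) - p) =
        ∑ p ∈ range j, dd f p * ((j : ℝ) - p) + ∑ p ∈ range j, dd f p := by
      rw [← sum_add_distrib]
      refine sum_congr rfl fun p _ => ?_
      push_cast; ring
    rw [sum_range_succ] at h2
    rw [h3]
    push_cast
    linarith

theorem taylor_kink {Q : ℕ} (f : ℕ → ℝ) {j : ℕ} (hj : j ≤ Q) :
    f j = f 0 + j * (f 1 - f 0) + ∑ p ∈ range (Q - 1), dd f p * kink (p + 1) j := by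
  rcases Nat.eq_zero_or_pos j with rfl | h
  · have h0 : ∑ p ∈ range (Q - 1), dd f p * kink (p + 1) 0 = 0 := by
      refine sum_eq_zero fun p _ => ?_
      rw [kink_of_le (Nat.zero_le _), mul_zero]
    rw [h0]; simp
  · obtain ⟨j, rfl⟩ : ∃ i, j = i + 1 := ⟨j - 1, by omega⟩
    have h2 : ∑ p ∈ range (Q - 1), dd f p * kink (p + 1) (j + 1) =
        ∑ p ∈ range j, dd f p * ((j : ℝ) - p) := by
      rw [← sum_subset (range_subset_range.2 (by omega : j ≤ Q - 1))]
      · refine sum_congr rfl fun p hp => ?_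
        have hp' := mem_range.1 hp
        unfold kink
        rw [show j + 1 - (p + 1) = j - p by omega, Nat.cast_sub hp'.le]
      · intro p _ hp
        rw [mem_range, not_lt] at hp
        rw [kink_of_le (by omega), mul_zero]
    rw [h2, taylor f j]
    push_cast
    ring

/-! ### 3. ring decomposition -/

section ring
variable {E : Type*} [NormedAddCommGroup E] [InnerProductSpace ℂ E] [FiniteDimensional ℂ E]

/-- **Ring decomposition.** `T` is a real-linear family of operators depending on the values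
`f 0, …, f Q` only, with `T 1` and `T j` preserving `Z`. -/
theorem off_eq_sum {Q : ℕ} (T : (ℕ → ℝ) →ₗ[ℝ] (E →L[ℂ] E))
    (hT : ∀ f g : ℕ → ℝ, (∀ j ≤ Q, f j = g j) → T f = T g) (Z : Submodule ℂ E) {ψ : E}
    (h1 : T (fun _ => 1) ψ ∈ Z) (hj : T (fun j => (j : ℝ)) ψ ∈ Z) (f : ℕ → ℝ) :
    off Z (T f ψ) =
      ∑ p ∈ range (Q - 1), ((dd f p : ℝ) : ℂ) • off Z (T (kink (p + 1)) ψ) := by
  have e : T f = f 0 • T (fun _ => 1) + (f 1 - f 0) • T (fun j => (j : ℝ)) +
      ∑ p ∈ range (Q - 1), dd f p • T (kink (p + 1)) := by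
    have e1 : T f = T (f 0 • (fun _ => (1 : ℝ)) + (f 1 - f 0) • (fun j : ℕ => (j : ℝ)) +
        ∑ p ∈ range (Q - 1), dd f p • kink (p + 1)) := by
      apply hT
      intro j hj
      rw [taylor_kink f hj]
      simp only [Pi.add_apply, Pi.smul_apply, smul_eq_mul, Finset.sum_apply, mul_one]
      ring
    rw [e1, map_add, map_add, map_smul, map_smul, map_sum]
    congr 1
    refine sum_congr rfl fun p _ => ?_
    rw [map_smul]
  rw [e]
  simp only [ContinuousLinearMap.add_apply, ContinuousLinearMap.sum_apply, map_add, map_sum]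
  have r : ∀ (a : ℝ) (A : E →L[ℂ] E), (a • A) ψ = (a : ℂ) • A ψ := fun a A => rfl
  simp only [r, map_smul]
  rw [off_of_mem h1, off_of_mem hj]
  simp

end ring

end Crest.Agent.R340.PathStep880
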