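import Crest.Agent.R340.PathStep1_880

/-!
# R340, doc 1094 sections 3/4/5: the scalars of the path half (helper880)

`gm b Q j = - ∑_{k<b} log (Q - j + k + 1)` (minus the derivative of `log ν_θ(j)²`):
second differences `∑_{k<b} phi (Q - p + k)`, `phi y = - log (1 - 1/y²)`; size `y⁻² ≤ phi y ≤ (4/3) y⁻²`,
log-Lipschitz on the scale `Q - p + 1`; log-Lipschitz property of `dd (prof a R)`; the two sums
`∑_p d_p f''_p g''_p` and `∑_p g''_p (p+1)⁻²`.
-/

set_option autoImplicit false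

namespace Crest.Agent.R340.PathStep880

open Finset
open Crest.Agent.R340.Scal725 (dd prof)

/-! ### 1. the function `phi` -/

/-- `phi y = 2 log y - log (y+1) - log (y-1) = - log (1 - 1/y²)`. -/
noncomputable def phi (y : ℝ) : ℝ := 2 * Real.log y - Real.log (y + 1) - Real.log (y - 1)

theorem phi_eq {y : ℝ} (hy : 1 < y) : phi y = - Real.log (1 - (y ^ 2)⁻¹) := by
  have h0 : 0 < y := by linarith
  have e : 1 - (y ^ 2)⁻¹ = (y + 1) * (y - 1) / y ^ 2 := by field_simp; ring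
  rw [e, Real.log_div (mul_ne_zero (by linarith) (by linarith)) (by positivity),
    Real.log_mul (by linarith) (by linarith), Real.log_pow]
  unfold phi
  push_cast
  ring

theorem inv_sq_le_phi {y : ℝ} (hy : 2 ≤ y) : (y ^ 2)⁻¹ ≤ phi y := by
  have h4 : (4 : ℝ) ≤ y ^ 2 := by nlinarith
  have h1 : (y ^ 2)⁻¹ ≤ 1 / 4 := by
    rw [inv_le_comm₀ (by positivity) (by norm_num)]; linarith
  rw [phi_eq (by linarith)]
  have := Real.log_le_sub_one_of_pos (show 0 < 1 - (y ^ 2)⁻¹ by linarith)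
  linarith

theorem phi_pos {y : ℝ} (hy : 2 ≤ y) : 0 < phi y :=
  lt_of_lt_of_le (by positivity) (inv_sq_le_phi hy)

theorem phi_le {y : ℝ} (hy : 2 ≤ y) : phi y ≤ 4 / 3 * (y ^ 2)⁻¹ := by
  have h4 : (4 : ℝ) ≤ y ^ 2 := by nlinarith
  have h1 : (y ^ 2)⁻¹ ≤ 1 / 4 := by
    rw [inv_le_comm₀ (by positivity) (by norm_num)]; linarith
  have h2 : 0 < (y ^ 2)⁻¹ := by positivity
  rw [phi_eq (by linarith)]
  set t := (y ^ 2)⁻¹ with ht
  have h3 : - Real.log (1 - t) = Real.log ((1 - t)⁻¹) := (Real.log_inv _).symm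
  rw [h3]
  have h5 := Real.log_le_sub_one_of_pos (show 0 < (1 - t)⁻¹ by
    apply inv_pos.2; linarith)
  refine h5.trans ?_
  have h6 : (1 - t)⁻¹ - 1 = t / (1 - t) := by
    have : (1 - t) ≠ 0 := by linarith
    field_simp; ring
  rw [h6, div_le_iff₀ (by linarith)]
  nlinarith

theorem hasDerivAt_phi {y : ℝ} (hy : 1 < y) : HasDerivAt phi (-2 / (y * (y ^ 2 - 1))) y := by
  have h0 : y ≠ 0 := by linarith
  have h1 : y + 1 ≠ 0 := by linarith
  have h2 : y - 1 ≠ 0 := by linarith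
  have d1 : HasDerivAt (fun y : ℝ => 2 * Real.log y) (2 * y⁻¹) y :=
    (Real.hasDerivAt_log h0).const_mul 2
  have d2 : HasDerivAt (fun y : ℝ => Real.log (y + 1)) (1 / (y + 1)) y :=
    ((hasDerivAt_id y).add_const 1).log h1
  have d3 : HasDerivAt (fun y : ℝ => Real.log (y - 1)) (1 / (y - 1)) y :=
    ((hasDerivAt_id y).sub_const 1).log h2
  have d := (d1.sub d2).sub d3
  have e : 2 * y⁻¹ - 1 / (y + 1) - 1 / (y - 1) = -2 / (y * (y ^ 2 - 1)) := by
    have h3 : y ^ 2 - 1 ≠ 0 := by nlinarith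
    field_simp
    ring
  rw [e] at d
  exact d

theorem phi_anti : AntitoneOn phi (Set.Ici 2) := by
  apply antitoneOn_of_deriv_nonpos (convex_Ici 2)
  · intro y hy
    have : 1 < y := by have := Set.mem_Ici.1 hy; linarith
    exact (hasDerivAt_phi this).continuousAt.continuousWithinAt
  · intro y hy
    rw [interior_Ici] at hy
    have : 1 < y := by have := Set.mem_Ioi.1 hy; linarith
    exact (hasDerivAt_phi this).differentiableAt.differentiableWithinAt
  · intro y hy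
    rw [interior_Ici] at hy
    have h1 : 1 < y := by have := Set.mem_Ioi.1 hy; linarith
    rw [(hasDerivAt_phi h1).deriv]
    apply div_nonpos_of_nonpos_of_nonneg (by norm_num)
    have : 0 < y ^ 2 - 1 := by nlinarith
    positivity

theorem phi_cube_mono : MonotoneOn (fun y => y ^ 3 * phi y) (Set.Ici 2) := by
  have key : ∀ y : ℝ, 1 < y → HasDerivAt (fun y => y ^ 3 * phi y)
      (3 * y ^ 2 * phi y + y ^ 3 * (-2 / (y * (y ^ 2 - 1)))) y := by
    intro y hy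
    have d : HasDerivAt (fun y => y ^ 3 * phi y)
        (((3 : ℕ) : ℝ) * y ^ (3 - 1) * phi y + y ^ 3 * (-2 / (y * (y ^ 2 - 1)))) y :=
      (hasDerivAt_pow 3 y).mul (hasDerivAt_phi hy)
    have e : ((3 : ℕ) : ℝ) * y ^ (3 - 1) * phi y + y ^ 3 * (-2 / (y * (y ^ 2 - 1))) =
        3 * y ^ 2 * phi y + y ^ 3 * (-2 / (y * (y ^ 2 - 1))) := by norm_num
    rw [e] at d
    exact d
  apply monotoneOn_of_deriv_nonneg (convex_Ici 2)
  · intro y hy
    have : 1 < y := by have := Set.mem_Ici.1 hy; linarith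
    exact (key y this).continuousAt.continuousWithinAt
  · intro y hy
    rw [interior_Ici] at hy
    have : 1 < y := by have := Set.mem_Ioi.1 hy; linarith
    exact (key y this).differentiableAt.differentiableWithinAt
  · intro y hy
    rw [interior_Ici] at hy
    have h2 : 2 ≤ y := (Set.mem_Ioi.1 hy).le
    rw [(key y (by linarith)).deriv]
    have h3 : 1 ≤ y ^ 2 * phi y := by
      have := inv_sq_le_phi h2
      calc (1 : ℝ) = y ^ 2 * (y ^ 2)⁻¹ := by field_simp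
        _ ≤ _ := by gcongr
    have h4 : (0 : ℝ) < y ^ 2 - 1 := by nlinarith
    have h5 : y ^ 3 * (-2 / (y * (y ^ 2 - 1))) = -(2 + 2 / (y ^ 2 - 1)) := by
      have : y ≠ 0 := by linarith
      field_simp
      ring
    have h6 : 2 / (y ^ 2 - 1) ≤ 1 := by
      rw [div_le_one h4]; nlinarith
    rw [h5]
    nlinarith

theorem phi_ratio {y y' : ℝ} (hy : 2 ≤ y) (h : y ≤ y') : phi y ≤ (y' / y) ^ 3 * phi y' := by
  have h1 := phi_cube_mono (Set.mem_Ici.2 hy) (Set.mem_Ici.2 (hy.trans h)) h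
  simp only at h1
  have h0 : 0 < y := by linarith
  rw [div_pow, div_mul_eq_mul_div, le_div_iff₀ (by positivity)]
  linarith

/-! ### 2. the metric term -/

/-- `g_j = - ∑_{k<b} log (Q - j + k + 1)`, minus the derivative of `log ν_θ(j)²`. -/
noncomputable def gm (b Q : ℕ) (j : ℕ) : ℝ := - ∑ k ∈ range b, Real.log ((Q : ℝ) - j + k + 1)

theorem dd_gm (b Q p : ℕ) : dd (gm b Q) p = ∑ k ∈ range b, phi ((Q : ℝ) - p + k) := by
  unfold dd gm phi
  rw [Finset.sum_sub_distrib, Finset.sum_sub_distrib, ← Finset.mul_sum]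
  have e1 : ∀ k : ℕ, (Q : ℝ) - ((p + 1 : ℕ) : ℝ) + k + 1 = (Q : ℝ) - p + k := fun k => by
    push_cast; ring
  have e2 : ∀ k : ℕ, (Q : ℝ) - ((p + 2 : ℕ) : ℝ) + k + 1 = (Q : ℝ) - p + k - 1 := fun k => by
    push_cast; ring
  simp only [e1, e2]
  ring

theorem two_le_arg {Q p : ℕ} (hp : p < Q - 1) (k : ℕ) : (2 : ℝ) ≤ (Q : ℝ) - p + k := by
  have h : (p : ℝ) + 2 ≤ Q := by exact_mod_cast (by omega : p + 2 ≤ Q)
  have : (0 : ℝ) ≤ k := Nat.cast_nonneg k
  linarith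

theorem dd_gm_pos {b Q p : ℕ} (hb : 0 < b) (hp : p < Q - 1) : 0 < dd (gm b Q) p := by
  rw [dd_gm]
  exact sum_pos (fun k _ => phi_pos (two_le_arg hp k)) ⟨0, mem_range.2 hb⟩

theorem dd_gm_nonneg {b Q p : ℕ} (hp : p < Q - 1) : 0 ≤ dd (gm b Q) p := by
  rw [dd_gm]
  exact sum_nonneg (fun k _ => (phi_pos (two_le_arg hp k)).le)

theorem dd_gm_le {b Q p : ℕ} (hp : p < Q - 1) :
    dd (gm b Q) p ≤ 4 / 3 * b * (((Q : ℝ) - p) ^ 2)⁻¹ := by
  rw [dd_gm]
  have h2 := two_le_arg hp 0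
  rw [Nat.cast_zero, add_zero] at h2
  calc ∑ k ∈ range b, phi ((Q : ℝ) - p + k) ≤ ∑ k ∈ range b, 4 / 3 * (((Q : ℝ) - p) ^ 2)⁻¹ := by
        refine sum_le_sum fun k _ => (phi_le (two_le_arg hp k)).trans ?_
        have : (0 : ℝ) ≤ k := Nat.cast_nonneg k
        gcongr
        linarith
    _ = _ := by rw [sum_const, card_range, nsmul_eq_mul]; ring

/-- the second differences of `g` at two rings, `u = Q - p ≤ u' = Q - q`. -/
theorem dd_gm_ratio {b Q p q : ℕ} (hp : p < Q - 1) (hqp : q ≤ p) :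
    dd (gm b Q) q ≤ dd (gm b Q) p ∧
    dd (gm b Q) p ≤ (((Q : ℝ) - q + 1) / ((Q : ℝ) - p + 1)) ^ 6 * dd (gm b Q) q := by
  have hq : q < Q - 1 := by omega
  have hqp' : (q : ℝ) ≤ p := by exact_mod_cast hqp
  have hpQ : (p : ℝ) + 2 ≤ Q := by exact_mod_cast (by omega : p + 2 ≤ Q)
  rw [dd_gm, dd_gm]
  constructor
  · refine sum_le_sum fun k _ => ?_
    exact phi_anti (Set.mem_Ici.2 (two_le_arg hp k)) (Set.mem_Ici.2 (two_le_arg hq k))
      (by linarith)
  · rw [mul_sum]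
    refine sum_le_sum fun k _ => ?_
    have h2 := two_le_arg hp k
    have h3 := two_le_arg hq k
    refine (phi_ratio (y' := (Q : ℝ) - q + k) h2 (by linarith)).trans ?_
    have hk : (0 : ℝ) ≤ k := Nat.cast_nonneg k
    apply mul_le_mul_of_nonneg_right _ (phi_pos h3).le
    rw [show (6 : ℕ) = 2 * 3 from rfl, pow_mul]
    apply pow_le_pow_left₀ (by positivity)
    set u := (Q : ℝ) - p with hu
    set u' := (Q : ℝ) - q with hu'
    have huu : u ≤ u' := by linarith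
    have hu2 : 2 ≤ u := by linarith
    have e1 : (u' + k) / (u + k) ≤ u' / u := by
      rw [div_le_div_iff₀ (by linarith) (by linarith)]
      nlinarith
    refine e1.trans ?_
    rw [div_pow, div_le_div_iff₀ (by linarith) (by positivity)]
    have h5 : 0 ≤ (u' - u) * (u * u' - 1) := by
      apply mul_nonneg (by linarith); nlinarith
    nlinarith

/-- log-Lipschitz property from a two-sided power bound -/
theorem abs_log_sub_le {x y r : ℝ} {n : ℕ} (hx : 0 < x) (hy : 0 < y) (hr : 1 ≤ r) (h1 : x ≤ y)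
    (h2 : y ≤ r ^ n * x) : |Real.log x - Real.log y| ≤ n * |Real.log r| := by
  have h3 : Real.log x ≤ Real.log y := Real.log_le_log hx h1
  have h4 : Real.log y ≤ Real.log (r ^ n * x) := Real.log_le_log hy h2
  rw [Real.log_mul (by positivity) hx.ne', Real.log_pow] at h4
  rw [abs_sub_comm, abs_of_nonneg (by linarith), abs_of_nonneg (Real.log_nonneg hr)]
  linarith

theorem log_dd_gm {b Q p q : ℕ} (hb : 0 < b) (hp : p < Q - 1) (hq : q < Q - 1) :
    |Real.log (dd (gm b Q) p) - Real.log (dd (gm b Q) q)| ≤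
      6 * |Real.log (((Q : ℝ) - p + 1) / ((Q : ℝ) - q + 1))| := by
  wlog hqp : q ≤ p generalizing p q
  · have := this hq hp (by omega)
    rw [abs_sub_comm, ← inv_div, Real.log_inv, abs_neg]
    exact this
  have hqp' : (q : ℝ) ≤ p := by exact_mod_cast hqp
  have hpQ : (p : ℝ) + 2 ≤ Q := by exact_mod_cast (by omega : p + 2 ≤ Q)
  obtain ⟨h1, h2⟩ := dd_gm_ratio (b := b) hp hqp
  have h3 := abs_log_sub_le (dd_gm_pos hb hq) (dd_gm_pos hb hp)
    (by rw [le_div_iff₀ (by linarith)]; linarith) h1 h2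
  rw [abs_sub_comm, ← inv_div, Real.log_inv, abs_neg]
  exact_mod_cast h3

/-! ### 3. the profile -/

theorem dd_prof_ratio {a R : ℝ} (ha0 : 0 ≤ a) (ha2 : a ≤ 2) (haR : a ≤ R) {p q : ℕ} (hpq : p ≤ q) :
    dd (prof a R) q ≤ dd (prof a R) p ∧
    dd (prof a R) p ≤ (((q : ℝ) + 1) / ((p : ℝ) + 1)) ^ 4 * dd (prof a R) q := by
  have hR : 0 ≤ R := ha0.trans haR
  have haR' : a < R + 1 := by linarith
  refine ⟨Scal725.dd_prof_antitone hR ha0 haR' hpq, ?_⟩
  obtain ⟨d, rfl⟩ := Nat.exists_eq_add_of_le hpq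
  clear hpq
  induction d with
  | zero => simp [div_self (show ((p : ℝ) + 1) ≠ 0 by positivity)]
  | succ d ih =>
    refine ih.trans ?_
    set j := p + d with hj
    have hs := Scal725.dd_prof_succ (a := a) hR j
    have h0 := Scal725.dd_prof_nonneg hR ha0 haR' (j + 1)
    have hj0 : (0 : ℝ) ≤ j := Nat.cast_nonneg j
    have hp0 : (0 : ℝ) ≤ p := Nat.cast_nonneg p
    have hpos : 0 < R + j + 1 - a := by linarith
    have key : dd (prof a R) j ≤ (((j : ℝ) + 2) / ((j : ℝ) + 1)) ^ 4 * dd (prof a R) (j + 1) := by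
      have e : dd (prof a R) j = (R + j + 3) / (R + j + 1 - a) * dd (prof a R) (j + 1) := by
        field_simp
        linarith
      rw [e]
      apply mul_le_mul_of_nonneg_right _ h0
      have h1 : 1 + 4 * (1 / ((j : ℝ) + 1)) ≤ (((j : ℝ) + 2) / ((j : ℝ) + 1)) ^ 4 := by
        have e2 : ((j : ℝ) + 2) / ((j : ℝ) + 1) = 1 + 1 / ((j : ℝ) + 1) := by
          field_simp; ring
        rw [e2]
        have := one_add_mul_le_pow (a := 1 / ((j : ℝ) + 1)) (by
          have : 0 ≤ 1 / ((j : ℝ) + 1) := by positivity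
          linarith) 4
        exact_mod_cast this
      refine le_trans ?_ h1
      have e3 : (R + j + 3) / (R + j + 1 - a) = 1 + (2 + a) / (R + j + 1 - a) := by
        field_simp; ring
      rw [e3]
      have h2 : (2 + a) / (R + j + 1 - a) ≤ 4 * (1 / ((j : ℝ) + 1)) := by
        rw [mul_one_div, div_le_div_iff₀ hpos (by positivity)]
        have : (2 + a) * ((j : ℝ) + 1) ≤ 4 * ((j : ℝ) + 1) := by
          apply mul_le_mul_of_nonneg_right (by linarith) (by linarith)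
        nlinarith
      linarith
    calc (((j : ℝ) + 1) / ((p : ℝ) + 1)) ^ 4 * dd (prof a R) j
        ≤ (((j : ℝ) + 1) / ((p : ℝ) + 1)) ^ 4 *
          ((((j : ℝ) + 2) / ((j : ℝ) + 1)) ^ 4 * dd (prof a R) (j + 1)) := by gcongr
      _ = _ := by
          rw [← mul_assoc, ← mul_pow]
          congr 2
          rw [show p + (d + 1) = j + 1 by omega]
          push_cast
          have : (j : ℝ) + 1 ≠ 0 := by positivity
          field_simp
          ring

theorem dd_prof_pos {a R : ℝ} (ha0 : 0 < a) (haR : a ≤ R) (p : ℕ) : 0 < dd (prof a R) p := by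
  have hR : 0 ≤ R := ha0.le.trans haR
  rw [Scal725.dd_prof hR]
  have := Scal725.prof_pos hR (show a < R + 1 by linarith) p
  positivity

theorem log_dd_prof {a R : ℝ} (ha0 : 0 < a) (ha2 : a ≤ 2) (haR : a ≤ R) (p q : ℕ) :
    |Real.log (dd (prof a R) p) - Real.log (dd (prof a R) q)| ≤
      4 * |Real.log (((p : ℝ) + 1) / ((q : ℝ) + 1))| := by
  wlog hpq : q ≤ p generalizing p q
  · have := this q p (by omega)
    rw [abs_sub_comm, ← inv_div, Real.log_inv, abs_neg]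
    exact this
  obtain ⟨h1, h2⟩ := dd_prof_ratio ha0.le ha2 haR hpq
  have hpq' : (q : ℝ) ≤ p := by exact_mod_cast hpq
  have hq0 : (0 : ℝ) ≤ q := Nat.cast_nonneg q
  have h3 := abs_log_sub_le (dd_prof_pos ha0 haR p) (dd_prof_pos ha0 haR q)
    (by rw [le_div_iff₀ (by linarith)]; linarith) h1 h2
  exact_mod_cast h3

/-- the log-Lipschitz hypothesis of `PSD716.cross_lower`, `κ = 6`. -/
theorem log_ratio {a R : ℝ} (ha0 : 0 < a) (ha2 : a ≤ 2) (haR : a ≤ R) {b Q p q : ℕ} (hb : 0 < b)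
    (hp : p < Q - 1) (hq : q < Q - 1) :
    |Real.log (dd (gm b Q) p / dd (prof a R) p) - Real.log (dd (gm b Q) q / dd (prof a R) q)| ≤
      6 * (|Real.log (((p : ℝ) + 1) / ((q : ℝ) + 1))| +
        |Real.log (((Q : ℝ) - p + 1) / ((Q : ℝ) - q + 1))|) := by
  rw [Real.log_div (dd_gm_pos hb hp).ne' (dd_prof_pos ha0 haR p).ne',
    Real.log_div (dd_gm_pos hb hq).ne' (dd_prof_pos ha0 haR q).ne']
  have h1 := log_dd_gm hb hp hq
  have h2 := log_dd_prof ha0 ha2 haR p q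
  have h3 := abs_sub_le_iff.1 h1
  have h4 := abs_sub_le_iff.1 h2
  have h5 : 0 ≤ |Real.log (((p : ℝ) + 1) / ((q : ℝ) + 1))| := abs_nonneg _
  rw [abs_sub_le_iff]
  constructor <;> linarith

/-! ### 4. the two sums -/

/-- `∑_{u=2}^{n} 1/u ≤ log n`-type bound. -/
theorem sum_inv_le_log (n : ℕ) : ∑ k ∈ range n, ((k : ℝ) + 2)⁻¹ ≤ Real.log (n + 1) := by
  induction n with
  | zero => simp
  | succ n ih =>
    rw [sum_range_succ]
    have h1 : ((n : ℝ) + 2)⁻¹ ≤ Real.log (((n : ℝ) + 2) / ((n : ℝ) + 1)) := by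
      have h2 := Real.one_sub_inv_le_log_of_pos (show 0 < ((n : ℝ) + 2) / ((n : ℝ) + 1) by positivity)
      refine le_trans (le_of_eq ?_) h2
      rw [inv_div]
      have : (n : ℝ) + 2 ≠ 0 := by positivity
      field_simp; ring
    rw [Real.log_div (by positivity) (by positivity)] at h1
    push_cast
    rw [show (n : ℝ) + 1 + 1 = n + 2 by ring]
    linarith

theorem sum_inv_sq_le_one (n : ℕ) : ∑ k ∈ range n, (((k : ℝ) + 2) ^ 2)⁻¹ ≤ 1 := by
  have h : ∀ n : ℕ, ∑ k ∈ range n, (((k : ℝ) + 2) ^ 2)⁻¹ ≤ 1 - ((n : ℝ) + 1)⁻¹ := by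
    intro n
    induction n with
    | zero => simp
    | succ n ih =>
      rw [sum_range_succ]
      have h1 : (((n : ℝ) + 2) ^ 2)⁻¹ ≤ ((n : ℝ) + 1)⁻¹ - ((n : ℝ) + 2)⁻¹ := by
        rw [inv_sub_inv (by positivity) (by positivity), inv_eq_one_div,
          div_le_div_iff₀ (by positivity) (by positivity)]
        nlinarith
      push_cast
      rw [show (n : ℝ) + 1 + 1 = n + 2 by ring]
      linarith
  refine (h n).trans ?_
  have : 0 ≤ ((n : ℝ) + 1)⁻¹ := by positivity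
  linarith

/-- reflection of sums over rings -/
theorem sum_reflect (Q : ℕ) (F : ℝ → ℝ) :
    ∑ p ∈ range (Q - 1), F ((Q : ℝ) - p) = ∑ k ∈ range (Q - 1), F ((k : ℝ) + 2) := by
  rw [← sum_range_reflect]
  refine sum_congr rfl fun k hk => ?_
  have hk' := mem_range.1 hk
  congr 1
  have : ((Q - 1 - 1 - k : ℕ) : ℝ) = (Q : ℝ) - 2 - k := by
    rw [Nat.cast_sub (by omega), Nat.cast_sub (by omega), Nat.cast_sub (by omega)]
    push_cast; ring
  rw [this]; ring

theorem sum_cross {a R : ℝ} (ha0 : 0 ≤ a) (ha2 : a ≤ 2) (haR : a ≤ R) (b Q : ℕ) :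
    ∑ p ∈ range (Q - 1), PSD716.dd Q p * (dd (gm b Q) p * dd (prof a R) p) ≤
      4 / 3 * b * (4 * (1 + a) / Q ^ 2 + 24 * dd (prof a R) Q * Real.log Q) := by
  have hR : 0 ≤ R := ha0.trans haR
  have haR' : a < R + 1 := by linarith
  rcases Nat.lt_or_ge Q 2 with hQ | hQ
  · have : Q - 1 = 0 := by omega
    rw [this, range_zero, sum_empty]
    have h1 := Scal725.dd_prof_nonneg hR ha0 haR' Q
    have h2 : 0 ≤ Real.log Q := Real.log_natCast_nonneg Q
    positivity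
  have hQ0 : (2 : ℝ) ≤ Q := by exact_mod_cast hQ
  have hFQ := Scal725.dd_prof_nonneg hR ha0 haR' Q
  have hterm : ∀ p ∈ range (Q - 1), PSD716.dd Q p * (dd (gm b Q) p * dd (prof a R) p) ≤
      4 / 3 * b * (4 * (1 + a) / Q ^ 2 * (prof a R p - prof a R (p + 1)) +
        24 * dd (prof a R) Q * ((Q : ℝ) - p)⁻¹) := by
    intro p hp
    have hp' := mem_range.1 hp
    have hpQ : (p : ℝ) + 2 ≤ Q := by exact_mod_cast (by omega : p + 2 ≤ Q)
    have hp0 : (0 : ℝ) ≤ p := Nat.cast_nonneg p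
    have hF := Scal725.dd_prof_nonneg hR ha0 haR' p
    have hH := dd_gm_le (b := b) hp'
    have hH0 := dd_gm_nonneg (b := b) hp'
    have hfd : 0 ≤ prof a R p - prof a R (p + 1) := by
      rw [Scal725.prof_diff]
      have := Scal725.prof_pos hR haR' p
      positivity
    have hdd0 : 0 ≤ PSD716.dd Q p := by
      have := PSD716.one_le_dd (Q := Q) (p := p) (by omega)
      linarith
    have hb0 : (0 : ℝ) ≤ b := Nat.cast_nonneg b
    have hu0 : (0 : ℝ) < (Q : ℝ) - p := by linarith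
    -- reduce to the bound of `dd F / u²`
    have h1 : PSD716.dd Q p * dd (prof a R) p * (((Q : ℝ) - p) ^ 2)⁻¹ ≤
        4 * (1 + a) / Q ^ 2 * (prof a R p - prof a R (p + 1)) +
        24 * dd (prof a R) Q * ((Q : ℝ) - p)⁻¹ := by
      rcases le_or_gt (2 * p) Q with h | h
      · -- near x
        have h' : 2 * (p : ℝ) ≤ Q := by exact_mod_cast h
        have h2 : (((Q : ℝ) - p) ^ 2)⁻¹ ≤ 4 / Q ^ 2 := by
          rw [inv_eq_one_div, div_le_div_iff₀ (by positivity) (by positivity)]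
          nlinarith
        have h3 : PSD716.dd Q p * dd (prof a R) p ≤ (1 + a) * (prof a R p - prof a R (p + 1)) := by
          rw [Scal725.prof_diff, Scal725.dd_prof hR]
          have h4 : PSD716.dd Q p ≤ R + p + 2 := by
            refine (min_le_left _ _).trans ?_
            linarith
          have hpp := Scal725.prof_pos hR haR' p
          have e : (1 + a) * (a * prof a R p / (R + p + 1)) =
              (R + p + 2) * (a * (1 + a) * prof a R p / ((R + p + 1) * (R + p + 2))) := by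
            field_simp
          rw [e]
          apply mul_le_mul_of_nonneg_right h4
          positivity
        have h5 : PSD716.dd Q p * dd (prof a R) p * (((Q : ℝ) - p) ^ 2)⁻¹ ≤
            (1 + a) * (prof a R p - prof a R (p + 1)) * (4 / Q ^ 2) := by
          apply mul_le_mul h3 h2 (by positivity)
          positivity
        have h6 : 0 ≤ 24 * dd (prof a R) Q * ((Q : ℝ) - p)⁻¹ := by positivity
        calc _ ≤ (1 + a) * (prof a R p - prof a R (p + 1)) * (4 / Q ^ 2) := h5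
          _ = 4 * (1 + a) / Q ^ 2 * (prof a R p - prof a R (p + 1)) := by ring
          _ ≤ _ := by linarith
      · -- near s
        have h' : (Q : ℝ) ≤ 2 * p := by exact_mod_cast h.le
        have h2 : dd (prof a R) p ≤ 16 * dd (prof a R) Q := by
          have h3 := (dd_prof_ratio ha0 ha2 haR (show p ≤ Q by omega)).2
          refine h3.trans ?_
          apply mul_le_mul_of_nonneg_right _ hFQ
          have h4 : ((Q : ℝ) + 1) / ((p : ℝ) + 1) ≤ 2 := by
            rw [div_le_iff₀ (by positivity)]; linarith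
          calc (((Q : ℝ) + 1) / ((p : ℝ) + 1)) ^ 4 ≤ 2 ^ 4 := by gcongr
            _ = 16 := by norm_num
        have h5 : PSD716.dd Q p * (((Q : ℝ) - p) ^ 2)⁻¹ ≤ 3 / 2 * ((Q : ℝ) - p)⁻¹ := by
          have h6 : PSD716.dd Q p ≤ (Q : ℝ) - p + 1 := min_le_right _ _
          calc PSD716.dd Q p * (((Q : ℝ) - p) ^ 2)⁻¹
              ≤ (3 / 2 * ((Q : ℝ) - p)) * (((Q : ℝ) - p) ^ 2)⁻¹ := by
                apply mul_le_mul_of_nonneg_right _ (by positivity)
                linarith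
            _ = 3 / 2 * ((Q : ℝ) - p)⁻¹ := by field_simp
        have h7 : PSD716.dd Q p * dd (prof a R) p * (((Q : ℝ) - p) ^ 2)⁻¹ ≤
            (3 / 2 * ((Q : ℝ) - p)⁻¹) * (16 * dd (prof a R) Q) := by
          calc _ = (PSD716.dd Q p * (((Q : ℝ) - p) ^ 2)⁻¹) * dd (prof a R) p := by ring
            _ ≤ _ := by
              apply mul_le_mul h5 h2 hF
              positivity
        have h8 : 0 ≤ 4 * (1 + a) / (Q : ℝ) ^ 2 * (prof a R p - prof a R (p + 1)) := by positivity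
        calc _ ≤ (3 / 2 * ((Q : ℝ) - p)⁻¹) * (16 * dd (prof a R) Q) := h7
          _ = 24 * dd (prof a R) Q * ((Q : ℝ) - p)⁻¹ := by ring
          _ ≤ _ := by linarith
    calc PSD716.dd Q p * (dd (gm b Q) p * dd (prof a R) p)
        ≤ PSD716.dd Q p * ((4 / 3 * b * (((Q : ℝ) - p) ^ 2)⁻¹) * dd (prof a R) p) := by gcongr
      _ = 4 / 3 * b * (PSD716.dd Q p * dd (prof a R) p * (((Q : ℝ) - p) ^ 2)⁻¹) := by ring
      _ ≤ _ := by gcongr
  refine (sum_le_sum hterm).trans ?_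
  rw [← mul_sum, sum_add_distrib, ← mul_sum, ← mul_sum]
  have hs1 : ∑ p ∈ range (Q - 1), (prof a R p - prof a R (p + 1)) ≤ 1 := by
    rw [sum_range_sub']
    have := Scal725.prof_pos hR haR' (Q - 1)
    rw [Scal725.prof_zero]
    linarith
  have hs2 : ∑ p ∈ range (Q - 1), ((Q : ℝ) - p)⁻¹ ≤ Real.log Q := by
    rw [sum_reflect Q (fun x => x⁻¹)]
    refine (sum_inv_le_log (Q - 1)).trans (le_of_eq ?_)
    congr 1
    rw [Nat.cast_sub (by omega)]; push_cast; ring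
  have hb0 : (0 : ℝ) ≤ b := Nat.cast_nonneg b
  apply mul_le_mul_of_nonneg_left _ (by positivity)
  apply add_le_add
  · calc 4 * (1 + a) / (Q : ℝ) ^ 2 * ∑ p ∈ range (Q - 1), (prof a R p - prof a R (p + 1))
        ≤ 4 * (1 + a) / (Q : ℝ) ^ 2 * 1 := by gcongr
      _ = _ := by ring
  · gcongr

theorem sum_X (b Q : ℕ) :
    ∑ p ∈ range (Q - 1), dd (gm b Q) p * (((p : ℝ) + 1) ^ 2)⁻¹ ≤ 16 * b / Q ^ 2 := by
  rcases Nat.lt_or_ge Q 2 with hQ | hQ
  · have : Q - 1 = 0 := by omega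
    rw [this, range_zero, sum_empty]
    positivity
  have hQ0 : (2 : ℝ) ≤ Q := by exact_mod_cast hQ
  have hb0 : (0 : ℝ) ≤ b := Nat.cast_nonneg b
  have hterm : ∀ p ∈ range (Q - 1), dd (gm b Q) p * (((p : ℝ) + 1) ^ 2)⁻¹ ≤
      4 / 3 * b * (4 / Q ^ 2 * (((p : ℝ) + 1) ^ 2)⁻¹ + 4 / Q ^ 2 * (((Q : ℝ) - p) ^ 2)⁻¹) := by
    intro p hp
    have hp' := mem_range.1 hp
    have hpQ : (p : ℝ) + 2 ≤ Q := by exact_mod_cast (by omega : p + 2 ≤ Q)
    have hp0 : (0 : ℝ) ≤ p := Nat.cast_nonneg p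
    have hH := dd_gm_le (b := b) hp'
    have hu0 : (0 : ℝ) < (Q : ℝ) - p := by linarith
    have h1 : (((Q : ℝ) - p) ^ 2)⁻¹ * (((p : ℝ) + 1) ^ 2)⁻¹ ≤
        4 / Q ^ 2 * (((p : ℝ) + 1) ^ 2)⁻¹ + 4 / Q ^ 2 * (((Q : ℝ) - p) ^ 2)⁻¹ := by
      rcases le_or_gt (2 * (p : ℝ)) Q with h | h
      · have h2 : (((Q : ℝ) - p) ^ 2)⁻¹ ≤ 4 / Q ^ 2 := by
          rw [inv_eq_one_div, div_le_div_iff₀ (by positivity) (by positivity)]
          nlinarith
        have h3 : 0 ≤ 4 / (Q : ℝ) ^ 2 * (((Q : ℝ) - p) ^ 2)⁻¹ := by positivity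
        have h4 : (((Q : ℝ) - p) ^ 2)⁻¹ * (((p : ℝ) + 1) ^ 2)⁻¹ ≤
            4 / Q ^ 2 * (((p : ℝ) + 1) ^ 2)⁻¹ := by gcongr
        linarith
      · have h2 : (((p : ℝ) + 1) ^ 2)⁻¹ ≤ 4 / (Q : ℝ) ^ 2 := by
          rw [inv_eq_one_div, div_le_div_iff₀ (by positivity) (by positivity)]
          nlinarith
        have h3 : 0 ≤ 4 / (Q : ℝ) ^ 2 * (((p : ℝ) + 1) ^ 2)⁻¹ := by positivity
        have h4 : (((Q : ℝ) - p) ^ 2)⁻¹ * (((p : ℝ) + 1) ^ 2)⁻¹ ≤
            (((Q : ℝ) - p) ^ 2)⁻¹ * (4 / Q ^ 2) := by gcongr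
        have h5 : (((Q : ℝ) - p) ^ 2)⁻¹ * (4 / (Q : ℝ) ^ 2) =
          4 / (Q : ℝ) ^ 2 * (((Q : ℝ) - p) ^ 2)⁻¹ := by ring
        linarith
    calc dd (gm b Q) p * (((p : ℝ) + 1) ^ 2)⁻¹
        ≤ (4 / 3 * b * (((Q : ℝ) - p) ^ 2)⁻¹) * (((p : ℝ) + 1) ^ 2)⁻¹ := by gcongr
      _ = 4 / 3 * b * ((((Q : ℝ) - p) ^ 2)⁻¹ * (((p : ℝ) + 1) ^ 2)⁻¹) := by ring
      _ ≤ _ := by gcongr
  refine (sum_le_sum hterm).trans ?_
  rw [← mul_sum, sum_add_distrib, ← mul_sum, ← mul_sum]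
  have h1 := PSD716.sum_inv_sq_nat (Q - 1)
  have h2 : ∑ p ∈ range (Q - 1), (((Q : ℝ) - p) ^ 2)⁻¹ ≤ 1 := by
    rw [sum_reflect Q (fun x => (x ^ 2)⁻¹)]
    exact sum_inv_sq_le_one (Q - 1)
  calc 4 / 3 * (b : ℝ) * (4 / (Q : ℝ) ^ 2 * ∑ p ∈ range (Q - 1), (((p : ℝ) + 1) ^ 2)⁻¹ +
        4 / (Q : ℝ) ^ 2 * ∑ p ∈ range (Q - 1), (((Q : ℝ) - p) ^ 2)⁻¹)
      ≤ 4 / 3 * (b : ℝ) * (4 / (Q : ℝ) ^ 2 * 2 + 4 / (Q : ℝ) ^ 2 * 1) := by gcongr
    _ = 16 * (b : ℝ) / (Q : ℝ) ^ 2 := by ring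

end Crest.Agent.R340.PathStep880
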