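import Crest.Agent.R340.PathStep4_880

/-!
# R340, doc 1315: path theorems with a moving profile (helper880)

* `path_op`: arbitrary differentiable self-adjoint family `D θ`;
* `path_general2`: `D θ = c θ - 3 dG (F0 + θ F1) - X`;
* the same two statements for the zero mode spaces `Zn (nuT (tA θ) Q) Q n`.
-/

set_option autoImplicit false

namespace Crest.Agent.R340.PathStep880

open Finset Set
open Crest.Agent.R340.Scal725 (dd prof)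
open Crest.Agent.R340.Fock649
open Crest.Agent.R340.Geo986 Crest.Agent.R340.Peel596 Crest.Agent.R340.Step596

/-- **Path theorem**, arbitrary differentiable self-adjoint family. -/
theorem path_op {b Q : ℕ} (Z0 : Submodule ℂ (Fk (Fin (Q + 1))))
    (D D' : ℝ → Fk (Fin (Q + 1)) →L[ℂ] Fk (Fin (Q + 1)))
    (hD : ∀ θ ∈ Icc (0 : ℝ) 1, HasDerivAt D (D' θ) θ)
    (hDs : ∀ θ ∈ Icc (0 : ℝ) 1, ∀ x y, inner ℂ (D θ x) y = inner ℂ x (D θ y))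
    (h0 : ∀ ψ ∈ Z0, 0 ≤ (inner ℂ ψ (D 0 ψ)).re)
    (hR : ∀ θ ∈ Ioc (0 : ℝ) 1, ∀ ψ ∈ Zt b Q Z0 θ, ∀ lam : ℝ, lam < 0 →
      (∀ φ ∈ Zt b Q Z0 θ, inner ℂ φ (D θ ψ) = lam * inner ℂ φ ψ) →
      0 ≤ -(inner ℂ (off (Zt b Q Z0 θ) (TT Q (gm b Q) ψ)) (off (Zt b Q Z0 θ) (D θ ψ))).re +
          (inner ℂ ψ (D' θ ψ)).re) :
    ∀ θ ∈ Icc (0 : ℝ) 1, ∀ ψ ∈ Zt b Q Z0 θ, 0 ≤ (inner ℂ ψ (D θ ψ)).re := by
  refine Path924.path_nonneg_map Z0 (Gm b Q) (fun _ => TT Q (gm b Q)) D D' 1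
    (fun θ _ => Gm_injective b Q θ) (fun θ _ F => hasDerivAt_Gm b Q θ F) hD hDs ?_ ?_
  · intro ψ hψ
    have : ψ ∈ Z0 := by
      have h1 : Zt b Q Z0 0 = Z0 := Zt_zero b Q Z0
      rw [← h1]; exact hψ
    exact h0 ψ this
  · intro θ hθ ψ hψ lam hlam heig
    exact hR θ hθ ψ hψ lam hlam heig

theorem TT_add_smul (Q : ℕ) (F0 F1 : ℕ → ℝ) (t : ℝ) :
    TT Q (F0 + t • F1) = TT Q F0 + (t : ℂ) • TT Q F1 := by
  rw [map_add, map_smul]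
  rfl

theorem hasDerivAt_DD2 {Q : ℕ} {c c' : ℝ → ℝ} (F0 F1 : ℕ → ℝ) (X : Op (Fin (Q + 1))) {θ : ℝ}
    (hc : HasDerivAt c (c' θ) θ) :
    HasDerivAt (fun t : ℝ => DD Q (c t) 1 (F0 + t • F1) X) (DD Q (c' θ) 1 F1 0) θ := by
  have e1 : (fun t : ℝ => DD Q (c t) 1 (F0 + t • F1) X) = fun t : ℝ =>
      ((c t : ℝ) : ℂ) • ContinuousLinearMap.id ℂ (Fk (Fin (Q + 1))) -
        (((3 * 1 : ℝ) : ℂ) • TT Q F0 + ((3 * 1 * t : ℝ) : ℂ) • TT Q F1) - X.ap := by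
    funext t
    unfold DD
    rw [TT_add_smul, smul_add, smul_smul]
    push_cast
    rfl
  have e2 : DD Q (c' θ) 1 F1 0 = ((c' θ : ℝ) : ℂ) • ContinuousLinearMap.id ℂ (Fk (Fin (Q + 1))) -
      (0 + ((3 * 1 * 1 : ℝ) : ℂ) • TT Q F1) := by
    unfold DD
    have e : ((0 : Op (Fin (Q + 1)))).ap = 0 := rfl
    rw [e, sub_zero, zero_add]
    simp only [mul_one]
  rw [e1, e2]
  have h1 : HasDerivAt (fun t => ((c t : ℝ) : ℂ) •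
      ContinuousLinearMap.id ℂ (Fk (Fin (Q + 1)))) (((c' θ : ℝ) : ℂ) •
      ContinuousLinearMap.id ℂ (Fk (Fin (Q + 1)))) θ :=
    hc.ofReal_comp.smul_const (ContinuousLinearMap.id ℂ (Fk (Fin (Q + 1))))
  have h2 : HasDerivAt (fun t : ℝ => ((3 * 1 * t : ℝ) : ℂ) • TT Q F1)
      (((3 * 1 * 1 : ℝ) : ℂ) • TT Q F1) θ :=
    ((hasDerivAt_id θ).const_mul (3 * 1)).ofReal_comp.smul_const (TT Q F1)
  have h3 := (hasDerivAt_const θ (((3 * 1 : ℝ) : ℂ) • TT Q F0)).add h2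
  exact (h1.sub h3).sub_const X.ap

/-- **Path theorem with a moving profile**, `D θ = c θ - 3 dG (F0 + θ F1) - X`. -/
theorem path_general2 {b Q : ℕ} (Z0 : Submodule ℂ (Fk (Fin (Q + 1)))) (F0 F1 : ℕ → ℝ)
    (X : Op (Fin (Q + 1))) (hX : IsSelfAdjoint X) (c c' : ℝ → ℝ)
    (hc : ∀ θ ∈ Icc (0 : ℝ) 1, HasDerivAt c (c' θ) θ)
    (h0 : ∀ ψ ∈ Z0, 0 ≤ (inner ℂ ψ (DD Q (c 0) 1 F0 X ψ)).re)
    (hR : ∀ θ ∈ Ioc (0 : ℝ) 1, ∀ ψ ∈ Zt b Q Z0 θ, ∀ lam : ℝ, lam < 0 →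
      (∀ φ ∈ Zt b Q Z0 θ, inner ℂ φ (DD Q (c θ) 1 (F0 + θ • F1) X ψ) = lam * inner ℂ φ ψ) →
      0 ≤ 3 * (inner ℂ (off (Zt b Q Z0 θ) (TT Q (gm b Q) ψ))
            (off (Zt b Q Z0 θ) (TT Q (F0 + θ • F1) ψ))).re +
          (inner ℂ (off (Zt b Q Z0 θ) (TT Q (gm b Q) ψ)) (off (Zt b Q Z0 θ) (X ψ))).re +
          (c' θ * ‖ψ‖ ^ 2 - 3 * (inner ℂ ψ (TT Q F1 ψ)).re)) :
    ∀ θ ∈ Icc (0 : ℝ) 1, ∀ ψ ∈ Zt b Q Z0 θ,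
      0 ≤ (inner ℂ ψ (DD Q (c θ) 1 (F0 + θ • F1) X ψ)).re := by
  refine path_op Z0 (fun θ => DD Q (c θ) 1 (F0 + θ • F1) X) (fun θ => DD Q (c' θ) 1 F1 0)
    (fun θ hθ => hasDerivAt_DD2 F0 F1 X (hc θ hθ)) (fun θ _ => DD_symm _ _ _ hX) ?_ ?_
  · intro ψ hψ
    have := h0 ψ hψ
    simpa using this
  · intro θ hθ ψ hψ lam hlam heig
    have h1 := hR θ hθ ψ hψ lam hlam heig
    have h2 := deriv_number (c θ) 1 (F0 + θ • F1) X (Zt b Q Z0 θ) hψ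
      (off (Zt b Q Z0 θ) (TT Q (gm b Q) ψ))
    have h3 : (inner ℂ ψ (DD Q (c' θ) 1 F1 0 ψ)).re =
        c' θ * ‖ψ‖ ^ 2 - 3 * (inner ℂ ψ (TT Q F1 ψ)).re := by
      rw [DD_apply]
      have h4 : (inner ℂ ψ ψ).re = ‖ψ‖ ^ 2 := by
        rw [inner_self_eq_norm_sq_to_K]; norm_cast
      simp only [inner_sub_right, inner_smul_right, Complex.sub_re, Complex.re_ofReal_mul,
        zero_ap, inner_zero_right, Complex.zero_re, h4]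
      ring
    rw [h3]
    rw [mul_one] at h2
    rw [h2]
    exact h1

/-- `path_general2` on the zero modes of the geometries `nuT (tA θ) Q`. -/
theorem path_general2_A {Q n : ℕ} (F0 F1 : ℕ → ℝ) (X : Op (Fin (Q + 1))) (hX : IsSelfAdjoint X)
    (c c' : ℝ → ℝ) (hc : ∀ θ ∈ Icc (0 : ℝ) 1, HasDerivAt c (c' θ) θ)
    (h0 : ∀ ψ ∈ Zn (nu0 Q) Q n, 0 ≤ (inner ℂ ψ (DD Q (c 0) 1 F0 X ψ)).re)
    (hR : ∀ θ ∈ Ioc (0 : ℝ) 1, ∀ ψ ∈ Zn (nuT (tA θ) Q) Q n,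
      0 ≤ 3 * (inner ℂ (off (Zn (nuT (tA θ) Q) Q n) (TT Q (gm 3 Q) ψ))
            (off (Zn (nuT (tA θ) Q) Q n) (TT Q (F0 + θ • F1) ψ))).re +
          (inner ℂ (off (Zn (nuT (tA θ) Q) Q n) (TT Q (gm 3 Q) ψ))
            (off (Zn (nuT (tA θ) Q) Q n) (X ψ))).re +
          (c' θ * ‖ψ‖ ^ 2 - 3 * (inner ℂ ψ (TT Q F1 ψ)).re)) :
    ∀ θ ∈ Icc (0 : ℝ) 1, ∀ ψ ∈ Zn (nuT (tA θ) Q) Q n,
      0 ≤ (inner ℂ ψ (DD Q (c θ) 1 (F0 + θ • F1) X ψ)).re := by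
  intro θ hθ ψ hψ
  refine path_general2 (b := 3) (Zn (nu0 Q) Q n) F0 F1 X hX c c' hc h0 ?_ θ hθ ψ
    (by rw [Zt_A]; exact hψ)
  intro θ hθ ψ hψ lam _ _
  have h := hR θ hθ ψ (by rw [← Zt_A]; exact hψ)
  rw [← Zt_A] at h
  exact h

end Crest.Agent.R340.PathStep880
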