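import Mathlib

/-!
# R340: positivity along a moving family of subspaces (first-time argument)

`Z b = range (Γ b)` is a moving family of subspaces, `d/db Γ_b F = -(1/2) G_b Γ_b F`.
If the quadratic form of `D_0` is nonnegative on `Z 0` and, at every `b` and every
`ψ ∈ Z b` with `P_b D_b ψ = lam ψ`, `lam < 0`, the derivative number
`-Re ⟪G ψ, D ψ - lam ψ⟫ + Re ⟪ψ, D' ψ⟫` is nonnegative, then the form of `D_b` is nonnegative on `Z b`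
for all `b`.
-/

set_option autoImplicit false
set_option linter.unusedSectionVars false

namespace Crest.Agent.R340.Path924

open Set Filter Topology
open scoped InnerProductSpace ComplexConjugate

variable {V E : Type*} [NormedAddCommGroup V] [NormedSpace ℂ V] [FiniteDimensional ℂ V]
  [NormedAddCommGroup E] [InnerProductSpace ℂ E] [FiniteDimensional ℂ E]

theorem re_inner_smul_self (r : ℝ) (x : E) : (⟪x, (r : ℂ) • x⟫_ℂ).re = r * ‖x‖ ^ 2 := by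
  rw [inner_smul_right, Complex.re_ofReal_mul, inner_self_eq_norm_sq_to_K]
  congr 1
  norm_cast

/-- If a self-adjoint form is nonnegative on the range of `L` and vanishes at `L F`, then
`⟪L H, T (L F)⟫ = 0` for all `H`. -/
theorem form_critical (L : V →L[ℂ] E) (T : E →L[ℂ] E) (hT : ∀ x y, ⟪T x, y⟫_ℂ = ⟪x, T y⟫_ℂ)
    (hpos : ∀ F, 0 ≤ (⟪L F, T (L F)⟫_ℂ).re) (F : V) (h0 : (⟪L F, T (L F)⟫_ℂ).re ≤ 0) (H : V) :
    ⟪L H, T (L F)⟫_ℂ = 0 := by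
  have h0' : (⟪L F, T (L F)⟫_ℂ).re = 0 := le_antisymm h0 (hpos F)
  -- real part of any such inner product vanishes
  have key : ∀ H : V, (⟪L H, T (L F)⟫_ℂ).re = 0 := by
    intro H
    have hexp : ∀ t : ℝ, (⟪L (F + (t : ℂ) • H), T (L (F + (t : ℂ) • H))⟫_ℂ).re =
        2 * t * (⟪L H, T (L F)⟫_ℂ).re + t ^ 2 * (⟪L H, T (L H)⟫_ℂ).re := by
      intro t
      have e1 : ⟪L F, T (L H)⟫_ℂ = conj (⟪L H, T (L F)⟫_ℂ) := by
        rw [← hT, inner_conj_symm]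
      have e5 : ⟪L (F + (t : ℂ) • H), T (L (F + (t : ℂ) • H))⟫_ℂ =
          ⟪L F, T (L F)⟫_ℂ + (t : ℂ) * ⟪L H, T (L F)⟫_ℂ + (t : ℂ) * conj (⟪L H, T (L F)⟫_ℂ)
            + (t : ℂ) * ((t : ℂ) * ⟪L H, T (L H)⟫_ℂ) := by
        simp only [map_add, map_smul, inner_add_left, inner_add_right, inner_smul_left,
          inner_smul_right, Complex.conj_ofReal]
        rw [e1]; ring
      have e2 : ((t : ℂ) * ⟪L H, T (L F)⟫_ℂ).re = t * (⟪L H, T (L F)⟫_ℂ).re := by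
        rw [Complex.re_ofReal_mul]
      have e3 : ((t : ℂ) * conj (⟪L H, T (L F)⟫_ℂ)).re = t * (⟪L H, T (L F)⟫_ℂ).re := by
        rw [Complex.re_ofReal_mul, Complex.conj_re]
      have e4 : ((t : ℂ) * ((t : ℂ) * ⟪L H, T (L H)⟫_ℂ)).re = t ^ 2 * (⟪L H, T (L H)⟫_ℂ).re := by
        rw [Complex.re_ofReal_mul, Complex.re_ofReal_mul]; ring
      rw [e5, Complex.add_re, Complex.add_re, Complex.add_re, h0', e2, e3, e4]; ring
    by_contra hne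
    set a := (⟪L H, T (L F)⟫_ℂ).re with ha
    set c := (⟪L H, T (L H)⟫_ℂ).re with hc
    have hc0 : 0 ≤ c := hpos H
    have := hpos (F + ((-a / (c + 1) : ℝ) : ℂ) • H)
    rw [hexp] at this
    have hc1 : 0 < c + 1 := by linarith
    have : 0 ≤ -(a ^ 2) * (c + 2) / (c + 1) ^ 2 := by
      have e : 2 * (-a / (c + 1)) * a + (-a / (c + 1)) ^ 2 * c =
          -(a ^ 2) * (c + 2) / (c + 1) ^ 2 := by
        field_simp; ring
      rwa [← e]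
    have h2 : -(a ^ 2) * (c + 2) / (c + 1) ^ 2 < 0 := by
      apply div_neg_of_neg_of_pos
      · have : 0 < a ^ 2 := by positivity
        nlinarith
      · positivity
    linarith
  apply Complex.ext
  · simpa using key H
  · have := key (Complex.I • H)
    simp only [map_smul, inner_smul_left, Complex.conj_I, neg_mul, Complex.neg_re,
      Complex.mul_re, Complex.I_re, Complex.I_im, zero_mul, one_mul, zero_sub, neg_neg] at this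
    simpa using this

/-- Product rule for a moving operator applied to a moving vector. -/
theorem hasDerivAt_apply {D : ℝ → E →L[ℂ] E} {D' : E →L[ℂ] E} {f : ℝ → E} {f' : E} {b : ℝ}
    (hD : HasDerivAt D D' b) (hf : HasDerivAt f f' b) :
    HasDerivAt (fun t => D t (f t)) (D' (f b) + D b f') b := by
  have h1 : HasDerivAt (fun t => ContinuousLinearMap.restrictScalarsL ℂ E E ℝ ℝ (D t))
      (ContinuousLinearMap.restrictScalarsL ℂ E E ℝ ℝ D') b :=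
    (ContinuousLinearMap.restrictScalarsL ℂ E E ℝ ℝ).hasFDerivAt.comp_hasDerivAt b hD
  have h2 := h1.clm_apply hf
  simpa using h2

/-- Derivative of the quadratic form along the moving family. -/
theorem hasDerivAt_form {D : ℝ → E →L[ℂ] E} {D' : E →L[ℂ] E} {f : ℝ → E} {f' : E} {b : ℝ}
    (hf : HasDerivAt f f' b) (hD : HasDerivAt D D' b)
    (hDs : ∀ x y, ⟪D b x, y⟫_ℂ = ⟪x, D b y⟫_ℂ) :
    HasDerivAt (fun t => (⟪f t, D t (f t)⟫_ℂ).re)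
      (2 * (⟪f', D b (f b)⟫_ℂ).re + (⟪f b, D' (f b)⟫_ℂ).re) b := by
  have h1 : HasDerivAt (fun t => D t (f t)) (D' (f b) + D b f') b := hasDerivAt_apply hD hf
  have h2 := HasDerivAt.inner ℂ hf h1
  have h3 : HasDerivAt (fun t => (⟪f t, D t (f t)⟫_ℂ).re)
      (⟪f b, D' (f b) + D b f'⟫_ℂ + ⟪f', D b (f b)⟫_ℂ).re b := by
    exact (Complex.reCLM.hasFDerivAt).comp_hasDerivAt b h2
  convert h3 using 1
  have h4 : (⟪f b, D b f'⟫_ℂ).re = (⟪f', D b (f b)⟫_ℂ).re := by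
    rw [← hDs, ← inner_conj_symm, Complex.conj_re]
  rw [inner_add_right, Complex.add_re, Complex.add_re, h4]
  ring

/-- **Path theorem** (first-time argument), with a window: the derivative condition is needed only
for `-w < lam < 0` (any `w > 0`). -/
theorem path_nonneg_window (Γ : ℝ → V →L[ℂ] E) (G D D' : ℝ → E →L[ℂ] E) (B w : ℝ) (hw : 0 < w)
    (hinj : ∀ b ∈ Icc 0 B, Function.Injective (Γ b))
    (hΓ : ∀ b ∈ Icc 0 B, ∀ F, HasDerivAt (fun t => Γ t F) (-(1 / 2 : ℂ) • G b (Γ b F)) b)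
    (hD : ∀ b ∈ Icc 0 B, HasDerivAt D (D' b) b)
    (hDs : ∀ b ∈ Icc 0 B, ∀ x y, ⟪D b x, y⟫_ℂ = ⟪x, D b y⟫_ℂ)
    (h0 : ∀ F, 0 ≤ (⟪Γ 0 F, D 0 (Γ 0 F)⟫_ℂ).re)
    (hR : ∀ b ∈ Ioc 0 B, ∀ F : V, F ≠ 0 → ∀ lam : ℝ, -w < lam → lam < 0 →
      (∀ H : V, ⟪Γ b H, D b (Γ b F)⟫_ℂ = lam * ⟪Γ b H, Γ b F⟫_ℂ) →
      0 ≤ -(⟪G b (Γ b F), D b (Γ b F) - (lam : ℂ) • Γ b F⟫_ℂ).re
        + (⟪Γ b F, D' b (Γ b F)⟫_ℂ).re) :
    ∀ b ∈ Icc 0 B, ∀ F, 0 ≤ (⟪Γ b F, D b (Γ b F)⟫_ℂ).re := by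
  -- strictified version
  have main : ∀ ε : ℝ, 0 < ε → ε * (1 + B) < w → ∀ b ∈ Icc 0 B, ∀ F : V, ‖F‖ = 1 →
      0 < (⟪Γ b F, (D b + ((ε * (1 + b) : ℝ) : ℂ) • (1 : E →L[ℂ] E)) (Γ b F)⟫_ℂ).re := by
    intro ε hε hεw
    set T : ℝ → E →L[ℂ] E := fun b => D b + ((ε * (1 + b) : ℝ) : ℂ) • (1 : E →L[ℂ] E) with hTdef
    have hTa : ∀ b x, T b x = D b x + ((ε * (1 + b) : ℝ) : ℂ) • x := fun b x => rfl
    have hTd : ∀ b ∈ Icc 0 B, HasDerivAt T (D' b + ((ε : ℝ) : ℂ) • (1 : E →L[ℂ] E)) b := by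
      intro b hb
      refine (hD b hb).add ?_
      have h1 : HasDerivAt (fun t : ℝ => ((ε * (1 + t) : ℝ) : ℂ)) ((ε : ℝ) : ℂ) b := by
        have h2 : HasDerivAt (fun t : ℝ => ε * (1 + t)) ε b := by
          simpa using ((hasDerivAt_id b).const_add 1).const_mul ε
        exact h2.ofReal_comp
      exact h1.smul_const (1 : E →L[ℂ] E)
    have hTs : ∀ b ∈ Icc 0 B, ∀ x y, ⟪T b x, y⟫_ℂ = ⟪x, T b y⟫_ℂ := by
      intro b hb x y
      rw [hTa, hTa, inner_add_left, inner_add_right, inner_smul_left,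
        inner_smul_right, Complex.conj_ofReal, hDs b hb]
    -- joint continuity
    have hcont : ContinuousOn (fun p : ℝ × V => (⟪Γ p.1 p.2, T p.1 (Γ p.1 p.2)⟫_ℂ).re)
        (Icc 0 B ×ˢ (Metric.sphere (0 : V) 1)) := by
      have hΓc : ContinuousOn Γ (Icc 0 B) := by
        rw [continuousOn_clm_apply]
        intro F b hb
        exact (hΓ b hb F).continuousAt.continuousWithinAt
      have hTc : ContinuousOn T (Icc 0 B) := fun b hb =>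
        (hTd b hb).continuousAt.continuousWithinAt
      have h1 : ContinuousOn (fun p : ℝ × V => Γ p.1 p.2)
          (Icc 0 B ×ˢ (Metric.sphere (0 : V) 1)) := by
        apply ContinuousOn.clm_apply
        · exact hΓc.comp continuousOn_fst (fun p hp => hp.1)
        · exact continuousOn_snd
      have h2 : ContinuousOn (fun p : ℝ × V => T p.1 (Γ p.1 p.2))
          (Icc 0 B ×ˢ (Metric.sphere (0 : V) 1)) := by
        apply ContinuousOn.clm_apply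
        · exact hTc.comp continuousOn_fst (fun p hp => hp.1)
        · exact h1
      exact Complex.continuous_re.comp_continuousOn (h1.inner h2)
    by_contra hcon
    push Not at hcon
    obtain ⟨b1, hb1, F1, hF1, hq1⟩ := hcon
    -- compact bad set
    set K : Set (ℝ × V) := {p | p ∈ Icc 0 B ×ˢ (Metric.sphere (0 : V) 1) ∧
      (⟪Γ p.1 p.2, T p.1 (Γ p.1 p.2)⟫_ℂ).re ≤ 0} with hK
    have hcompact : IsCompact K := by
      have hc : IsCompact (Icc (0 : ℝ) B ×ˢ (Metric.sphere (0 : V) 1)) := by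
        have : ProperSpace V := FiniteDimensional.proper ℂ V
        exact isCompact_Icc.prod (isCompact_sphere _ _)
      have : K = (Icc (0 : ℝ) B ×ˢ (Metric.sphere (0 : V) 1)) ∩
          (fun p : ℝ × V => (⟪Γ p.1 p.2, T p.1 (Γ p.1 p.2)⟫_ℂ).re) ⁻¹' (Iic 0) := by
        ext p; simp [hK]
      rw [this]
      exact hc.of_isClosed_subset
        (hcont.preimage_isClosed_of_isClosed hc.isClosed isClosed_Iic) inter_subset_left
    have hne : K.Nonempty := ⟨(b1, F1), ⟨⟨hb1, by simpa using hF1⟩, hq1⟩⟩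
    obtain ⟨⟨bs, Fs⟩, hmem, hmin⟩ :=
      hcompact.exists_isMinOn hne (continuousOn_fst (s := K) : ContinuousOn Prod.fst K)
    obtain ⟨⟨hbs, hFs⟩, hqs⟩ := hmem
    simp only at hbs hFs hqs
    have hFs1 : ‖Fs‖ = 1 := by simpa using hFs
    have hFs0 : Fs ≠ 0 := by
      intro h; rw [h, norm_zero] at hFs1; exact zero_ne_one hFs1
    -- before `bs` everything is positive
    have hpre : ∀ b ∈ Ico 0 bs, ∀ F : V, ‖F‖ = 1 → 0 < (⟪Γ b F, T b (Γ b F)⟫_ℂ).re := by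
      intro b hb F hF
      by_contra hle
      push Not at hle
      have : ((b, F) : ℝ × V) ∈ K := ⟨⟨⟨hb.1, hb.2.le.trans hbs.2⟩, by simpa using hF⟩, hle⟩
      have h2 := hmin this
      simp only [mem_ofPred_eq] at h2
      exact absurd h2 (not_le.mpr hb.2)
    -- expand the perturbed form
    have hform : ∀ b F, (⟪Γ b F, T b (Γ b F)⟫_ℂ).re =
        (⟪Γ b F, D b (Γ b F)⟫_ℂ).re + ε * (1 + b) * ‖Γ b F‖ ^ 2 := by
      intro b F
      rw [hTa, inner_add_right, Complex.add_re, re_inner_smul_self]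
    have hbs0 : 0 < bs := by
      rcases hbs.1.lt_or_eq with h | h
      · exact h
      · exfalso
        rw [← h, hform] at hqs
        have h1 := h0 Fs
        have h2 : Γ 0 Fs ≠ 0 := by
          intro h3
          exact hFs0 (hinj 0 ⟨le_rfl, hb1.1.trans hb1.2⟩ (by rw [h3, map_zero]))
        have h3 : 0 < ‖Γ 0 Fs‖ ^ 2 := by positivity
        nlinarith [mul_pos hε h3]
    -- at `bs` everything is nonnegative
    have hat1 : ∀ F : V, ‖F‖ = 1 → 0 ≤ (⟪Γ bs F, T bs (Γ bs F)⟫_ℂ).re := by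
      intro F hF
      have hc1 : ContinuousAt (fun b => (⟪Γ b F, T b (Γ b F)⟫_ℂ).re) bs :=
        (hasDerivAt_form (hΓ bs hbs F) (hTd bs hbs) (hTs bs hbs)).continuousAt
      have hc2 : Tendsto (fun b => (⟪Γ b F, T b (Γ b F)⟫_ℂ).re) (𝓝[Iio bs] bs)
          (𝓝 ((⟪Γ bs F, T bs (Γ bs F)⟫_ℂ).re)) := hc1.tendsto.mono_left nhdsWithin_le_nhds
      refine ge_of_tendsto hc2 ?_
      have : Ioo 0 bs ∈ 𝓝[Iio bs] bs := by
        rw [← nhdsWithin_Ioo_eq_nhdsLT hbs0]; exact self_mem_nhdsWithin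
      filter_upwards [this] with b hb
      exact (hpre b ⟨hb.1.le, hb.2⟩ F hF).le
    have hat : ∀ F : V, 0 ≤ (⟪Γ bs F, T bs (Γ bs F)⟫_ℂ).re := by
      intro F
      by_cases hF : F = 0
      · simp [hF]
      have hn : (0 : ℝ) < ‖F‖ := norm_pos_iff.mpr hF
      have h1 := hat1 (((‖F‖⁻¹ : ℝ) : ℂ) • F) (by
        rw [norm_smul, Complex.norm_real, norm_inv, norm_norm, inv_mul_cancel₀ hn.ne'])
      have h2 : (⟪Γ bs (((‖F‖⁻¹ : ℝ) : ℂ) • F), T bs (Γ bs (((‖F‖⁻¹ : ℝ) : ℂ) • F))⟫_ℂ).re =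
          ‖F‖⁻¹ ^ 2 * (⟪Γ bs F, T bs (Γ bs F)⟫_ℂ).re := by
        rw [map_smul, map_smul, inner_smul_left, inner_smul_right, Complex.conj_ofReal,
          Complex.re_ofReal_mul, Complex.re_ofReal_mul]
        ring
      rw [h2] at h1
      have h3 : 0 < ‖F‖⁻¹ ^ 2 := by positivity
      exact nonneg_of_mul_nonneg_right h1 h3
    have hq0 : (⟪Γ bs Fs, T bs (Γ bs Fs)⟫_ℂ).re = 0 := le_antisymm hqs (hat Fs)
    have hcrit : ∀ H, ⟪Γ bs H, T bs (Γ bs Fs)⟫_ℂ = 0 := fun H =>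
      form_critical (Γ bs) (T bs) (hTs bs hbs) hat Fs hqs H
    -- eigenvalue equation
    have heig : ∀ H : V, ⟪Γ bs H, D bs (Γ bs Fs)⟫_ℂ =
        ((-(ε * (1 + bs)) : ℝ) : ℂ) * ⟪Γ bs H, Γ bs Fs⟫_ℂ := by
      intro H
      have := hcrit H
      rw [hTa, inner_add_right, inner_smul_right] at this
      rw [eq_neg_of_add_eq_zero_left this]
      push_cast; ring
    have hR1 := hR bs ⟨hbs0, hbs.2⟩ Fs hFs0 (-(ε * (1 + bs))) (by nlinarith [hbs.2])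
      (by nlinarith) heig
    -- derivative of the form at `bs`
    have hder := hasDerivAt_form (hΓ bs hbs Fs) (hTd bs hbs) (hTs bs hbs)
    set d := 2 * (⟪-(1 / 2 : ℂ) • G bs (Γ bs Fs), T bs (Γ bs Fs)⟫_ℂ).re +
      (⟪Γ bs Fs, (D' bs + ((ε : ℝ) : ℂ) • (1 : E →L[ℂ] E)) (Γ bs Fs)⟫_ℂ).re with hd
    have hdle : d ≤ 0 := by
      have hmin2 : IsMinOn (fun b => (⟪Γ b Fs, T b (Γ b Fs)⟫_ℂ).re) (Icc 0 bs) bs := by
        intro b hb
        simp only [mem_ofPred_eq]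
        rw [hq0]
        rcases hb.2.lt_or_eq with h | h
        · exact (hpre b ⟨hb.1, h⟩ Fs hFs1).le
        · rw [h]; exact hq0.ge
      have h1 := hmin2.localize.hasFDerivWithinAt_nonneg hder.hasFDerivAt.hasFDerivWithinAt
        (sub_mem_posTangentConeAt_of_segment_subset (x := bs) (y := 0)
          (by rw [segment_symm, segment_eq_Icc hbs0.le]))
      simp at h1
      nlinarith
    have hdpos : 0 < d := by
      have e1 : (⟪Γ bs Fs, (D' bs + ((ε : ℝ) : ℂ) • (1 : E →L[ℂ] E)) (Γ bs Fs)⟫_ℂ).re =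
          (⟪Γ bs Fs, D' bs (Γ bs Fs)⟫_ℂ).re + ε * ‖Γ bs Fs‖ ^ 2 := by
        have : (D' bs + ((ε : ℝ) : ℂ) • (1 : E →L[ℂ] E)) (Γ bs Fs) =
            D' bs (Γ bs Fs) + ((ε : ℝ) : ℂ) • Γ bs Fs := rfl
        rw [this, inner_add_right, Complex.add_re, re_inner_smul_self]
      have e2 : 2 * (⟪-(1 / 2 : ℂ) • G bs (Γ bs Fs), T bs (Γ bs Fs)⟫_ℂ).re =
          -(⟪G bs (Γ bs Fs), D bs (Γ bs Fs) - ((-(ε * (1 + bs)) : ℝ) : ℂ) • Γ bs Fs⟫_ℂ).re := by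
        have : T bs (Γ bs Fs) = D bs (Γ bs Fs) - ((-(ε * (1 + bs)) : ℝ) : ℂ) • Γ bs Fs := by
          rw [hTa, Complex.ofReal_neg, neg_smul, sub_neg_eq_add]
        rw [← this, inner_smul_left]
        have h3 : conj (-(1 / 2 : ℂ)) = ((-(1 / 2) : ℝ) : ℂ) := by
          rw [← Complex.conj_ofReal]; push_cast; rfl
        rw [h3, Complex.re_ofReal_mul]; ring
      have h2 : Γ bs Fs ≠ 0 := by
        intro h3
        exact hFs0 (hinj bs hbs (by rw [h3, map_zero]))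
      have h3 : 0 < ‖Γ bs Fs‖ ^ 2 := by positivity
      rw [hd, e1, e2]
      have := mul_pos hε h3
      linarith
    linarith
  intro b hb F
  by_cases hF : F = 0
  · simp [hF]
  have hn : (0 : ℝ) < ‖F‖ := norm_pos_iff.mpr hF
  -- let ε → 0
  by_contra hneg
  push Not at hneg
  set q := (⟪Γ b F, D b (Γ b F)⟫_ℂ).re with hq
  have hb1 : 0 < 1 + b := by linarith [hb.1]
  have hB1 : 0 < 1 + B := by linarith [hb.1, hb.2]
  have hε0 : 0 < -q / (2 * (1 + b) * (‖Γ b F‖ ^ 2 + 1)) := by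
    apply div_pos (by linarith); positivity
  have hw0 : 0 < w / (2 * (1 + B)) := div_pos hw (by linarith)
  set ε := min (-q / (2 * (1 + b) * (‖Γ b F‖ ^ 2 + 1))) (w / (2 * (1 + B))) with hεd
  have hε : 0 < ε := lt_min hε0 hw0
  have hεw : ε * (1 + B) < w := by
    have : ε * (1 + B) ≤ w / (2 * (1 + B)) * (1 + B) :=
      mul_le_mul_of_nonneg_right (min_le_right _ _) hB1.le
    have h2 : w / (2 * (1 + B)) * (1 + B) = w / 2 := by field_simp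
    linarith
  have h1 := main _ hε hεw b hb (((‖F‖⁻¹ : ℝ) : ℂ) • F) (by
    rw [norm_smul, Complex.norm_real, norm_inv, norm_norm, inv_mul_cancel₀ hn.ne'])
  have h2 : (⟪Γ b (((‖F‖⁻¹ : ℝ) : ℂ) • F), (D b + ((ε * (1 + b) : ℝ) : ℂ) • (1 : E →L[ℂ] E))
      (Γ b (((‖F‖⁻¹ : ℝ) : ℂ) • F))⟫_ℂ).re =
      ‖F‖⁻¹ ^ 2 * (q + ε * (1 + b) * ‖Γ b F‖ ^ 2) := by
    have e0 : (D b + ((ε * (1 + b) : ℝ) : ℂ) • (1 : E →L[ℂ] E)) (Γ b (((‖F‖⁻¹ : ℝ) : ℂ) • F)) =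
        ((‖F‖⁻¹ : ℝ) : ℂ) • (D b (Γ b F) + ((ε * (1 + b) : ℝ) : ℂ) • Γ b F) := by
      rw [map_smul, map_smul]; rfl
    rw [e0, map_smul, inner_smul_left, inner_smul_right, Complex.conj_ofReal,
      Complex.re_ofReal_mul, Complex.re_ofReal_mul, inner_add_right, Complex.add_re,
      re_inner_smul_self, ← hq]
    ring
  rw [h2] at h1
  have h3 : 0 < ‖F‖⁻¹ ^ 2 := by positivity
  have h4 : 0 < q + ε * (1 + b) * ‖Γ b F‖ ^ 2 := (mul_pos_iff_of_pos_left h3).mp h1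
  have h5 : ε * (1 + b) * ‖Γ b F‖ ^ 2 ≤ -q / 2 := by
    have hp : (0:ℝ) < ‖Γ b F‖ ^ 2 + 1 := by positivity
    have h7 : ε * (1 + b) * ‖Γ b F‖ ^ 2 ≤
        -q / (2 * (1 + b) * (‖Γ b F‖ ^ 2 + 1)) * (1 + b) * ‖Γ b F‖ ^ 2 := by
      have := min_le_left (-q / (2 * (1 + b) * (‖Γ b F‖ ^ 2 + 1))) (w / (2 * (1 + B)))
      rw [← hεd] at this
      exact mul_le_mul_of_nonneg_right (mul_le_mul_of_nonneg_right this hb1.le) (sq_nonneg _)
    refine h7.trans ?_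
    have : -q / (2 * (1 + b) * (‖Γ b F‖ ^ 2 + 1)) * (1 + b) * ‖Γ b F‖ ^ 2 =
        -q / 2 * (‖Γ b F‖ ^ 2 / (‖Γ b F‖ ^ 2 + 1)) := by
      field_simp
    rw [this]
    have h6 : ‖Γ b F‖ ^ 2 / (‖Γ b F‖ ^ 2 + 1) ≤ 1 := by
      rw [div_le_one hp]; linarith
    nlinarith
  linarith

/-- **Path theorem** (first-time argument). -/
theorem path_nonneg (Γ : ℝ → V →L[ℂ] E) (G D D' : ℝ → E →L[ℂ] E) (B : ℝ)
    (hinj : ∀ b ∈ Icc 0 B, Function.Injective (Γ b))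
    (hΓ : ∀ b ∈ Icc 0 B, ∀ F, HasDerivAt (fun t => Γ t F) (-(1 / 2 : ℂ) • G b (Γ b F)) b)
    (hD : ∀ b ∈ Icc 0 B, HasDerivAt D (D' b) b)
    (hDs : ∀ b ∈ Icc 0 B, ∀ x y, ⟪D b x, y⟫_ℂ = ⟪x, D b y⟫_ℂ)
    (h0 : ∀ F, 0 ≤ (⟪Γ 0 F, D 0 (Γ 0 F)⟫_ℂ).re)
    (hR : ∀ b ∈ Ioc 0 B, ∀ F : V, ∀ lam : ℝ, lam < 0 →
      (∀ H : V, ⟪Γ b H, D b (Γ b F)⟫_ℂ = lam * ⟪Γ b H, Γ b F⟫_ℂ) →
      0 ≤ -(⟪G b (Γ b F), D b (Γ b F) - (lam : ℂ) • Γ b F⟫_ℂ).re
        + (⟪Γ b F, D' b (Γ b F)⟫_ℂ).re) :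
    ∀ b ∈ Icc 0 B, ∀ F, 0 ≤ (⟪Γ b F, D b (Γ b F)⟫_ℂ).re :=
  path_nonneg_window Γ G D D' B 1 one_pos hinj hΓ hD hDs h0
    (fun b hb F _ lam _ hlam heig => hR b hb F lam hlam heig)

/-- If `P_Z (D ψ) = lam ψ` weakly on `Z`, then `⟪G ψ, D ψ - lam ψ⟫ = ⟪(1-P) G ψ, (1-P) D ψ⟫`. -/
theorem inner_eq_proj (Z : Submodule ℂ E) (x y ψ : E) (hψ : ψ ∈ Z) (lam : ℝ)
    (h : ∀ φ ∈ Z, ⟪φ, y⟫_ℂ = lam * ⟪φ, ψ⟫_ℂ) :
    ⟪x, y - (lam : ℂ) • ψ⟫_ℂ = ⟪x - Z.starProjection x, y - Z.starProjection y⟫_ℂ := by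
  have hy : Z.starProjection y = (lam : ℂ) • ψ := by
    apply Submodule.eq_starProjection_of_mem_of_inner_eq_zero
    · exact Z.smul_mem _ hψ
    · intro w hw
      rw [inner_sub_left, inner_smul_left, Complex.conj_ofReal, ← inner_conj_symm, h w hw,
        map_mul, Complex.conj_ofReal, inner_conj_symm, sub_self]
  rw [← hy, inner_sub_left]
  have : ⟪Z.starProjection x, y - Z.starProjection y⟫_ℂ = 0 :=
    Submodule.inner_right_of_mem_orthogonal (Submodule.starProjection_apply_mem Z x)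
      (Submodule.sub_starProjection_mem_orthogonal y)
  rw [this, sub_zero]

/-- **Path theorem**, projection form: `Z b = range (Γ b)`, and the derivative number is
`-Re ⟪(1-P_b) G ψ, (1-P_b) D ψ⟫ + Re ⟪ψ, D' ψ⟫`. -/
theorem path_nonneg_proj (Γ : ℝ → V →L[ℂ] E) (G D D' : ℝ → E →L[ℂ] E) (B : ℝ)
    (hinj : ∀ b ∈ Icc 0 B, Function.Injective (Γ b))
    (hΓ : ∀ b ∈ Icc 0 B, ∀ F, HasDerivAt (fun t => Γ t F) (-(1 / 2 : ℂ) • G b (Γ b F)) b)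
    (hD : ∀ b ∈ Icc 0 B, HasDerivAt D (D' b) b)
    (hDs : ∀ b ∈ Icc 0 B, ∀ x y, ⟪D b x, y⟫_ℂ = ⟪x, D b y⟫_ℂ)
    (Z : ℝ → Submodule ℂ E) (hZ : ∀ b ∈ Icc 0 B, Z b = LinearMap.range (Γ b).toLinearMap)
    (h0 : ∀ ψ ∈ Z 0, 0 ≤ (⟪ψ, D 0 ψ⟫_ℂ).re)
    (hR : ∀ b ∈ Ioc 0 B, ∀ ψ ∈ Z b, ∀ lam : ℝ, lam < 0 →
      (∀ φ ∈ Z b, ⟪φ, D b ψ⟫_ℂ = lam * ⟪φ, ψ⟫_ℂ) →
      0 ≤ -(⟪G b ψ - (Z b).starProjection (G b ψ),
            D b ψ - (Z b).starProjection (D b ψ)⟫_ℂ).re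
        + (⟪ψ, D' b ψ⟫_ℂ).re) :
    ∀ b ∈ Icc 0 B, ∀ ψ ∈ Z b, 0 ≤ (⟪ψ, D b ψ⟫_ℂ).re := by
  intro b hb ψ hψ
  have hB : (0 : ℝ) ∈ Icc 0 B := ⟨le_rfl, hb.1.trans hb.2⟩
  have key := path_nonneg Γ G D D' B hinj hΓ hD hDs
    (fun F => h0 _ (by rw [hZ 0 hB]; exact ⟨F, rfl⟩)) ?_ b hb
  · rw [hZ b hb] at hψ
    obtain ⟨F, rfl⟩ := hψ
    exact key F
  · intro b hb F lam hlam heig
    have hb' : b ∈ Icc 0 B := ⟨hb.1.le, hb.2⟩
    have hmem : Γ b F ∈ Z b := by rw [hZ b hb']; exact ⟨F, rfl⟩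
    have heig' : ∀ φ ∈ Z b, ⟪φ, D b (Γ b F)⟫_ℂ = lam * ⟪φ, Γ b F⟫_ℂ := by
      intro φ hφ
      rw [hZ b hb'] at hφ
      obtain ⟨H, rfl⟩ := hφ
      exact heig H
    have h1 := hR b hb (Γ b F) hmem lam hlam heig'
    rwa [← inner_eq_proj (Z b) (G b (Γ b F)) (D b (Γ b F)) (Γ b F) hmem lam heig'] at h1

/-- **Path theorem** for `Z b = Gm b '' Z0` with a fixed subspace `Z0` of the same space. -/
theorem path_nonneg_map (Z0 : Submodule ℂ E) (Gm : ℝ → E →L[ℂ] E) (G D D' : ℝ → E →L[ℂ] E)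
    (B : ℝ) (hinj : ∀ b ∈ Icc 0 B, Function.Injective (Gm b))
    (hΓ : ∀ b ∈ Icc 0 B, ∀ F, HasDerivAt (fun t => Gm t F) (-(1 / 2 : ℂ) • G b (Gm b F)) b)
    (hD : ∀ b ∈ Icc 0 B, HasDerivAt D (D' b) b)
    (hDs : ∀ b ∈ Icc 0 B, ∀ x y, ⟪D b x, y⟫_ℂ = ⟪x, D b y⟫_ℂ)
    (h0 : ∀ ψ ∈ Z0.map (Gm 0).toLinearMap, 0 ≤ (⟪ψ, D 0 ψ⟫_ℂ).re)
    (hR : ∀ b ∈ Ioc 0 B, ∀ ψ ∈ Z0.map (Gm b).toLinearMap, ∀ lam : ℝ, lam < 0 →
      (∀ φ ∈ Z0.map (Gm b).toLinearMap, ⟪φ, D b ψ⟫_ℂ = lam * ⟪φ, ψ⟫_ℂ) →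
      0 ≤ -(⟪G b ψ - (Z0.map (Gm b).toLinearMap).starProjection (G b ψ),
            D b ψ - (Z0.map (Gm b).toLinearMap).starProjection (D b ψ)⟫_ℂ).re
        + (⟪ψ, D' b ψ⟫_ℂ).re) :
    ∀ b ∈ Icc 0 B, ∀ ψ ∈ Z0.map (Gm b).toLinearMap, 0 ≤ (⟪ψ, D b ψ⟫_ℂ).re := by
  refine path_nonneg_proj (V := Z0) (fun b => (Gm b).comp Z0.subtypeL) G D D' B ?_ ?_ hD hDs
    (fun b => Z0.map (Gm b).toLinearMap) ?_ h0 hR
  · intro b hb x y hxy
    exact Subtype.ext (hinj b hb hxy)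
  · intro b hb F
    exact hΓ b hb F
  · intro b _
    ext x
    simp [Submodule.mem_map, LinearMap.mem_range]

end Crest.Agent.R340.Path924
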