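import Crest.Agent.R340.Peel_924

/-!
# R340: iterated peeling (doc 1283): peel several modes in a row

`Zk r = Z ⊓ ker c_0 ⊓ ... ⊓ ker c_{r-1}`; if every occupied block and the last (all empty) block have
lower bound `L`, then `D ≥ L - 2 Σ e_r` on `Z`.
-/

set_option autoImplicit false
set_option linter.unusedSectionVars false

namespace Crest.Agent.R340.Peel3_924

open Crest.Agent.R340.Peel924
open scoped InnerProductSpace ComplexConjugate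

variable {E F : Type*} [NormedAddCommGroup E] [InnerProductSpace ℂ E] [FiniteDimensional ℂ E]
  [NormedAddCommGroup F] [InnerProductSpace ℂ F] [FiniteDimensional ℂ F]

/-- zero modes with the first `r` peeled modes empty -/
def Zk (Z : Submodule ℂ E) (c : ℕ → E →L[ℂ] F) : ℕ → Submodule ℂ E
  | 0 => Z
  | r + 1 => Zk Z c r ⊓ LinearMap.ker (c r).toLinearMap

theorem mem_Zk {Z : Submodule ℂ E} {c : ℕ → E →L[ℂ] F} {r : ℕ} {ψ : E} :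
    ψ ∈ Zk Z c r ↔ ψ ∈ Z ∧ ∀ i < r, c i ψ = 0 := by
  induction r with
  | zero => simp [Zk]
  | succ r ih =>
    simp only [Zk, Submodule.mem_inf, ih, LinearMap.mem_ker, ContinuousLinearMap.coe_coe]
    constructor
    · rintro ⟨⟨h1, h2⟩, h3⟩
      refine ⟨h1, fun i hi => ?_⟩
      rcases Nat.lt_succ_iff_lt_or_eq.mp hi with h | h
      · exact h2 i h
      · rw [h]; exact h3
    · rintro ⟨h1, h2⟩
      exact ⟨⟨h1, fun i hi => h2 i (Nat.lt_succ_of_lt hi)⟩, h2 r (Nat.lt_succ_self r)⟩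

/-- **Iterated peeling.** `k` modes `c 0, ..., c (k-1)` are peeled in a row; `DA r` is the shifted
detector in the block where mode `r` is occupied (and the previous ones are empty). -/
theorem peel_iter (Z : Submodule ℂ E) (c : ℕ → E →L[ℂ] F) (D : E →L[ℂ] E) (DA : ℕ → F →L[ℂ] F)
    (hD : ∀ x y, ⟪D x, y⟫_ℂ = ⟪x, D y⟫_ℂ) (k : ℕ)
    (κ δ η : ℕ → ℝ) (L : ℝ) (hκ : ∀ r < k, 0 < κ r) (hδ : ∀ r < k, 0 ≤ δ r)
    (hη : ∀ r < k, 0 ≤ η r)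
    (hc1 : ∀ r < k, ∀ x, ‖c r x‖ ≤ ‖x‖)
    (hG0 : ∀ r < k, ∀ ψ ∈ Zk Z c r, (∀ φ ∈ Zk Z c r, c r φ = 0 → ⟪φ, ψ⟫_ℂ = 0) →
      κ r * ‖ψ‖ ^ 2 ≤ ‖c r ψ‖ ^ 2)
    (hcomm : ∀ r < k, ∀ ψ ∈ Zk Z c r, ‖c r (D ψ) - DA r (c r ψ)‖ ≤ η r * ‖ψ‖)
    (hcross : ∀ r < k, ∀ ψ ∈ Zk Z c r, ∀ φ ∈ Zk Z c r,
      ‖⟪(c r).adjoint (c r ψ) - (Zk Z c r).starProjection ((c r).adjoint (c r ψ)), D φ⟫_ℂ‖
        ≤ δ r * ‖ψ‖ * ‖φ‖)
    (hA : ∀ r < k, ∀ ψ ∈ Zk Z c r, L * ‖c r ψ‖ ^ 2 ≤ (⟪c r ψ, DA r (c r ψ)⟫_ℂ).re)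
    (hB : ∀ ψ ∈ Zk Z c k, L * ‖ψ‖ ^ 2 ≤ (⟪ψ, D ψ⟫_ℂ).re) :
    ∀ ψ ∈ Z, (L - 2 * ∑ r ∈ Finset.range k, (δ r + η r) / κ r) * ‖ψ‖ ^ 2
      ≤ (⟪ψ, D ψ⟫_ℂ).re := by
  -- downward induction on the level
  have key : ∀ m, m ≤ k → ∀ ψ ∈ Zk Z c (k - m),
      (L - 2 * ∑ r ∈ Finset.Ico (k - m) k, (δ r + η r) / κ r) * ‖ψ‖ ^ 2
        ≤ (⟪ψ, D ψ⟫_ℂ).re := by
    intro m
    induction m with
    | zero =>
      intro _ ψ hψ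
      simpa using hB ψ hψ
    | succ m ih =>
      intro hm ψ hψ
      have hr : k - (m + 1) < k := by omega
      have hr1 : k - (m + 1) + 1 = k - m := by omega
      set r := k - (m + 1) with hrdef
      have hsum : ∑ i ∈ Finset.Ico r k, (δ i + η i) / κ i =
          (δ r + η r) / κ r + ∑ i ∈ Finset.Ico (k - m) k, (δ i + η i) / κ i := by
        rw [Finset.sum_eq_sum_Ico_succ_bot hr, hr1]
      have hnn : 0 ≤ ∑ i ∈ Finset.Ico (k - m) k, (δ i + η i) / κ i := by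
        apply Finset.sum_nonneg
        intro i hi
        have hi' := (Finset.mem_Ico.mp hi).2
        exact div_nonneg (add_nonneg (hδ i hi') (hη i hi')) (hκ i hi').le
      have h := peel (Zk Z c r) (c r) D (DA r) hD (κ r) (δ r) (η r) L
        (L - 2 * ∑ i ∈ Finset.Ico (k - m) k, (δ i + η i) / κ i) (hκ r hr) (hδ r hr) (hη r hr)
        (hc1 r hr) (hG0 r hr) (hcomm r hr) (hcross r hr)
        (fun φ hφ hc => ih (by omega) φ (by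
          rw [← hr1]
          exact Submodule.mem_inf.mpr ⟨hφ, hc⟩))
        (hA r hr) ψ hψ
      rw [min_eq_right (by linarith)] at h
      rw [hsum]
      refine le_trans (le_of_eq ?_) h
      ring
  have h := key k le_rfl
  intro ψ hψ
  have h2 := h ψ (by rw [Nat.sub_self]; exact hψ)
  rwa [Nat.sub_self, ← Finset.range_eq_Ico] at h2

/-- **Triple peeling** in the form used for the strong pass (doc 1283): `L0` bounds the shifted form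
`D - s₀` on the target space `ZA` (= zero modes of flux `Q-3`, geometry `b = 3`, same number of holes)
that contains all the occupied blocks, the shifts at the three levels are `s 0, s 1, s 2`,
`s r ≤ s 0 + ℓ`. -/
theorem peel_triple (Z : Submodule ℂ E) (ZA : Submodule ℂ F) (c : ℕ → E →L[ℂ] F)
    (D : E →L[ℂ] E) (D0 : F →L[ℂ] F) (s : ℕ → ℝ)
    (hD : ∀ x y, ⟪D x, y⟫_ℂ = ⟪x, D y⟫_ℂ) (k : ℕ)
    (κ δ η : ℕ → ℝ) (L L0 ℓ : ℝ) (hκ : ∀ r < k, 0 < κ r) (hδ : ∀ r < k, 0 ≤ δ r)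
    (hη : ∀ r < k, 0 ≤ η r)
    (hc1 : ∀ r < k, ∀ x, ‖c r x‖ ≤ ‖x‖)
    (hG0 : ∀ r < k, ∀ ψ ∈ Zk Z c r, (∀ φ ∈ Zk Z c r, c r φ = 0 → ⟪φ, ψ⟫_ℂ = 0) →
      κ r * ‖ψ‖ ^ 2 ≤ ‖c r ψ‖ ^ 2)
    (hcomm : ∀ r < k, ∀ ψ ∈ Zk Z c r,
      ‖c r (D ψ) - (D0 (c r ψ) - (s r : ℂ) • c r ψ)‖ ≤ η r * ‖ψ‖)
    (hcross : ∀ r < k, ∀ ψ ∈ Zk Z c r, ∀ φ ∈ Zk Z c r,
      ‖⟪(c r).adjoint (c r ψ) - (Zk Z c r).starProjection ((c r).adjoint (c r ψ)), D φ⟫_ℂ‖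
        ≤ δ r * ‖ψ‖ * ‖φ‖)
    (hmem : ∀ r < k, ∀ ψ ∈ Zk Z c r, c r ψ ∈ ZA)
    (hs : ∀ r < k, s r ≤ s 0 + ℓ)
    (hA : ∀ φ ∈ ZA, L0 * ‖φ‖ ^ 2 ≤ (⟪φ, D0 φ⟫_ℂ).re - s 0 * ‖φ‖ ^ 2)
    (hL : L ≤ L0 - ℓ)
    (hB : ∀ ψ ∈ Zk Z c k, L * ‖ψ‖ ^ 2 ≤ (⟪ψ, D ψ⟫_ℂ).re) :
    ∀ ψ ∈ Z, (L - 2 * ∑ r ∈ Finset.range k, (δ r + η r) / κ r) * ‖ψ‖ ^ 2
      ≤ (⟪ψ, D ψ⟫_ℂ).re := by
  have hDA : ∀ r (x : F), (D0 - ((s r : ℝ) : ℂ) • (1 : F →L[ℂ] F)) x =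
      D0 x - (s r : ℂ) • x := fun r x => rfl
  refine peel_iter Z c D (fun r => D0 - ((s r : ℝ) : ℂ) • (1 : F →L[ℂ] F)) hD k κ δ η L hκ hδ hη
    hc1 hG0 (fun r hr ψ hψ => ?_) hcross (fun r hr ψ hψ => ?_) hB
  · rw [hDA]; exact hcomm r hr ψ hψ
  · rw [hDA, inner_sub_right, Complex.sub_re, Crest.Agent.R340.Path924.re_inner_smul_self]
    have h1 := hA _ (hmem r hr ψ hψ)
    have h2 := hs r hr
    have h3 : 0 ≤ ‖c r ψ‖ ^ 2 := sq_nonneg _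
    nlinarith [mul_le_mul_of_nonneg_right h2 h3, mul_le_mul_of_nonneg_right hL h3]

end Crest.Agent.R340.Peel3_924
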