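import Crest.Agent.R340.Pl1_249

set_option autoImplicit false
open scoped BigOperators
open Finset

namespace Crest.Agent.R340.Pl249

/-- Positivity of a planar correlator. -/
def PSD (G : ℕ → ℕ → ℕ → ℕ → ℝ) : Prop :=
  ∀ (n : ℕ) (x y : ℕ → ℕ) (u : ℕ → ℝ),
    0 ≤ ∑ i ∈ range n, ∑ j ∈ range n, u i * u j * G (x i) (y i) (x j) (y j)

theorem ev_ev_eq (α : ℝ) (G : ℕ → ℕ → ℕ → ℕ → ℝ) (m : ℕ) :
    ev α m (fun q k => ev α m (G q k)) = ∑ i ∈ range (m + 1), ∑ j ∈ range (m + 1),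
      (-α) ^ (m - i) * (-α) ^ (m - j) * G i (m - i) j (m - j) := by
  unfold ev
  refine Finset.sum_congr rfl fun i _ => ?_
  rw [Finset.mul_sum]
  refine Finset.sum_congr rfl fun j _ => ?_
  ring

theorem gam_nonneg {G : ℕ → ℕ → ℕ → ℕ → ℝ} (α : ℝ) (h : PSD G) (m : ℕ) : 0 ≤ gam α G m := by
  unfold gam
  apply div_nonneg _ (sq_nonneg _)
  rw [ev_ev_eq]
  exact h (m + 1) (fun i => i) (fun i => m - i) (fun i => (-α) ^ (m - i))

theorem PSD.cs {G : ℕ → ℕ → ℕ → ℕ → ℝ} (h : PSD G) (hs : ∀ q k q' j : ℕ, G q k q' j = G q' j q k)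
    (n : ℕ) (x y : ℕ → ℕ) (u : ℕ → ℝ) :
    ∑ i ∈ range n, ∑ j ∈ range n, u i * u j * G (x i) (y i) (x j) (y j) ≤
      n * ∑ i ∈ range n, u i ^ 2 * G (x i) (y i) (x i) (y i) := by
  have h2 : ∀ i j, 2 * (u i * u j * G (x i) (y i) (x j) (y j)) ≤
      u i ^ 2 * G (x i) (y i) (x i) (y i) + u j ^ 2 * G (x j) (y j) (x j) (y j) := by
    intro i j
    have h3 := h 2 (fun l => if l = 0 then x i else x j) (fun l => if l = 0 then y i else y j)
      (fun l => if l = 0 then u i else - u j)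
    simp only [Finset.sum_range_succ, Finset.sum_range_zero, if_true, one_ne_zero, if_false,
      zero_add] at h3
    have h4 := hs (x i) (y i) (x j) (y j)
    rw [← h4] at h3
    linarith
  have h5 : ∑ i ∈ range n, ∑ j ∈ range n, 2 * (u i * u j * G (x i) (y i) (x j) (y j)) ≤
      ∑ i ∈ range n, ∑ j ∈ range n, (u i ^ 2 * G (x i) (y i) (x i) (y i) +
        u j ^ 2 * G (x j) (y j) (x j) (y j)) :=
    Finset.sum_le_sum fun i _ => Finset.sum_le_sum fun j _ => h2 i j
  simp only [Finset.sum_add_distrib, Finset.sum_const, Finset.card_range, nsmul_eq_mul,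
    ← Finset.mul_sum] at h5
  linarith

/-- Pauli bound for the 3-body channel weights. -/
theorem gam_le {G : ℕ → ℕ → ℕ → ℕ → ℝ} (h : PSD G) (hs : ∀ q k q' j : ℕ, G q k q' j = G q' j q k)
    (hb : ∀ q k : ℕ, G q k q k ≤ 2 ^ q / ((q.factorial : ℝ) * k.factorial)) (m : ℕ) :
    gam 2 G m ≤ (m + 1) * (2 / 3) ^ m / (m.factorial : ℝ) := by
  have h1 := h.cs hs (m + 1) (fun i => i) (fun i => m - i) (fun i => (-2 : ℝ) ^ (m - i))
  have h2 : ∑ i ∈ range (m + 1), ((-2 : ℝ) ^ (m - i)) ^ 2 * G i (m - i) i (m - i) ≤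
      6 ^ m / (m.factorial : ℝ) := by
    have h3 : ∀ i ∈ range (m + 1), ((-2 : ℝ) ^ (m - i)) ^ 2 * G i (m - i) i (m - i) ≤
        (2 ^ i * 4 ^ (m - i) * (m.choose i : ℝ)) / (m.factorial : ℝ) := by
      intro i hi
      have hi' : i ≤ m := by simpa [Nat.lt_succ_iff] using hi
      have e1 : ((-2 : ℝ) ^ (m - i)) ^ 2 = 4 ^ (m - i) := by
        rw [← pow_mul, mul_comm, pow_mul]; norm_num
      rw [e1]
      have e2 : ((m.choose i : ℕ) : ℝ) = (m.factorial : ℝ) /
          ((i.factorial : ℝ) * ((m - i).factorial : ℝ)) := by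
        rw [Nat.cast_choose ℝ hi']
      have hm : (m.factorial : ℝ) ≠ 0 := by exact_mod_cast Nat.factorial_ne_zero m
      have e3 : (2 ^ i * 4 ^ (m - i) * (m.choose i : ℝ)) / (m.factorial : ℝ) =
          4 ^ (m - i) * (2 ^ i / ((i.factorial : ℝ) * (m - i).factorial)) := by
        rw [e2]
        field_simp
      rw [e3]
      exact mul_le_mul_of_nonneg_left (hb i (m - i)) (by positivity)
    refine (Finset.sum_le_sum h3).trans ?_
    rw [← Finset.sum_div, ← add_pow]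
    norm_num
  unfold gam
  rw [ev_ev_eq]
  have e9 : (((2 : ℝ) + 1) ^ m) ^ 2 = 9 ^ m := by
    rw [← pow_mul, mul_comm, pow_mul]; norm_num
  rw [e9, div_le_iff₀ (by positivity)]
  refine h1.trans ?_
  have hm : (0 : ℝ) < (m.factorial : ℝ) := by exact_mod_cast Nat.factorial_pos m
  have e4 : ((m : ℝ) + 1) * (2 / 3) ^ m / (m.factorial : ℝ) * 9 ^ m =
      (m + 1) * (6 ^ m / (m.factorial : ℝ)) := by
    have : (6 : ℝ) ^ m = (2 / 3) ^ m * 9 ^ m := by rw [← mul_pow]; norm_num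
    rw [this]; ring
  rw [e4]
  push_cast
  exact mul_le_mul_of_nonneg_left h2 (by positivity)

theorem gam_zero_of_vanish {G : ℕ → ℕ → ℕ → ℕ → ℝ} (α : ℝ) (m : ℕ)
    (h : ∀ q k q' j : ℕ, q + k = m → q' + j = m → G q k q' j = 0) : gam α G m = 0 := by
  unfold gam
  rw [ev_ev_eq]
  rw [Finset.sum_eq_zero, zero_div]
  intro i hi
  refine Finset.sum_eq_zero fun j hj => ?_
  have hi' : i ≤ m := by simpa [Nat.lt_succ_iff] using hi
  have hj' : j ≤ m := by simpa [Nat.lt_succ_iff] using hj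
  rw [h i (m - i) j (m - j) (by omega) (by omega)]
  ring

/-- If the weight-`m` block has rank one with a vector killed by the evaluation, the channel
vanishes. -/
theorem gam_zero_of_rank_one {G : ℕ → ℕ → ℕ → ℕ → ℝ} (α : ℝ) (m : ℕ) (f : ℕ → ℕ → ℝ) (z : ℝ)
    (h : ∀ q k q' j : ℕ, q + k = m → q' + j = m → G q k q' j = f q k * f q' j * z)
    (hf : ev α m f = 0) : gam α G m = 0 := by
  unfold gam
  have h1 : ev α m (fun q k => ev α m (G q k)) = 0 := by
    rw [ev_congr α m _ (fun q k => 0 * f q k)]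
    · rw [ev_smul, zero_mul]
    · intro a b hab
      rw [ev_congr α m (G a b) (fun q' j => (f a b * z) * f q' j)]
      · rw [ev_smul, hf]; ring
      · intro q' j hqj
        rw [h a b q' j hab hqj]; ring
  rw [h1, zero_div]

/-- Odd channels vanish for exchange-symmetric correlators (`α = 1`). -/
theorem gam_odd {G : ℕ → ℕ → ℕ → ℕ → ℝ} (m : ℕ) (hm : Odd m)
    (hx : ∀ q k q' j : ℕ, G q k q' j = G k q q' j) : gam 1 G m = 0 := by
  unfold gam
  set f : ℕ → ℕ → ℝ := fun q k => ev 1 m (G q k) with hf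
  have hfs : ∀ q k, f q k = f k q := by
    intro q k
    simp only [hf]
    congr 1
    funext a b
    exact hx q k a b
  have h1 : ev 1 m f = - ev 1 m f := by
    unfold ev
    conv_lhs => rw [← Finset.sum_range_reflect]
    rw [← Finset.sum_neg_distrib]
    refine Finset.sum_congr rfl fun i hi => ?_
    have hi' : i ≤ m := by simpa [Nat.lt_succ_iff] using hi
    have e1 : m + 1 - 1 - i = m - i := by omega
    have e2 : m - (m - i) = i := by omega
    rw [e1, e2, hfs (m - i) i]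
    have e3 : (-1 : ℝ) ^ (m - i) = - (-1) ^ i := by
      have h4 : (-1 : ℝ) ^ (m - i) * (-1) ^ i = -1 := by
        rw [← pow_add, Nat.sub_add_cancel hi']
        exact hm.neg_one_pow
      have h5 : (-1 : ℝ) ^ i * (-1) ^ i = 1 := by
        rw [← mul_pow]; norm_num
      have h6 : (-1 : ℝ) ^ (m - i) = (-1 : ℝ) ^ (m - i) * ((-1) ^ i * (-1) ^ i) := by
        rw [h5, mul_one]
      rw [h6, ← mul_assoc, h4]; ring
    rw [e3]; ring
  have h2 : ev 1 m f = 0 := by linarith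
  rw [h2, zero_div]

end Crest.Agent.R340.Pl249
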