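import Crest.Agent.R340.Pl3_249

set_option autoImplicit false
open scoped BigOperators Topology
open Finset Filter

namespace Crest.Agent.R340.Pl249

/-- Translation relations at finite flux: `m` = coefficients for the first index,
`l` = coefficients for the second index. -/
structure FR (m l : ℕ → ℝ) (G : ℕ → ℕ → ℕ → ℕ → ℝ) : Prop where
  sym : ∀ q k q' j : ℕ, G q k q' j = G q' j q k
  wt : ∀ q k q' j : ℕ, q + k ≠ q' + j → G q k q' j = 0
  tr : ∀ q k q' j : ℕ, m q * G (q + 1) k q' j + l k * G q (k + 1) q' j =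
    (if q' = 0 then 0 else m (q' - 1) * G q k (q' - 1) j) +
    (if j = 0 then 0 else l (j - 1) * G q k q' (j - 1))

/-- Every bounded real sequence converges along an ultrafilter. -/
theorem ulim_exists (U : Ultrafilter ℕ) (f : ℕ → ℝ) (C : ℝ) (h : ∀ n, |f n| ≤ C) :
    ∃ x, Tendsto f U (𝓝 x) := by
  have hc : IsCompact (Set.Icc (-C) C) := isCompact_Icc
  have hm : Set.Icc (-C) C ∈ (U.map f) := by
    rw [Ultrafilter.mem_map]
    have : f ⁻¹' Set.Icc (-C) C = Set.univ := by
      ext n; simp only [Set.mem_preimage, Set.mem_Icc, Set.mem_univ, iff_true]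
      exact abs_le.mp (h n)
    rw [this]; exact Filter.univ_mem
  obtain ⟨x, -, hx⟩ := hc.ultrafilter_le_nhds' (U.map f) hm
  exact ⟨x, hx⟩

/-- the same for sequences that are eventually bounded along the ultrafilter -/
theorem ulim_exists' (U : Ultrafilter ℕ) (f : ℕ → ℝ) (C : ℝ) (h : ∀ᶠ n in (U : Filter ℕ), |f n| ≤ C) :
    ∃ x, Tendsto f U (𝓝 x) := by
  have hc : IsCompact (Set.Icc (-C) C) := isCompact_Icc
  have hm : Set.Icc (-C) C ∈ (U.map f) := by
    rw [Ultrafilter.mem_map]
    filter_upwards [h] with n hn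
    exact abs_le.mp hn
  obtain ⟨x, -, hx⟩ := hc.ultrafilter_le_nhds' (U.map f) hm
  exact ⟨x, hx⟩

/-- Limit of the translation relations. -/
theorem FR.limit {F : Filter ℕ} [F.NeBot] {m l : ℕ → ℕ → ℝ} {r : ℕ → ℝ} {mi li : ℕ → ℝ}
    {G : ℕ → ℕ → ℕ → ℕ → ℕ → ℝ} {Gi : ℕ → ℕ → ℕ → ℕ → ℝ}
    (hG : ∀ q k q' j : ℕ, Tendsto (fun n => G n q k q' j) F (𝓝 (Gi q k q' j)))
    (hm : ∀ q, Tendsto (fun n => m n q / r n) F (𝓝 (mi q)))
    (hl : ∀ k, Tendsto (fun n => l n k / r n) F (𝓝 (li k)))
    (h : ∀ n, FR (m n) (l n) (G n)) : FR mi li Gi := by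
  refine ⟨?_, ?_, ?_⟩
  · intro q k q' j
    refine tendsto_nhds_unique (hG q k q' j) ?_
    have := hG q' j q k
    refine this.congr fun n => ?_
    exact ((h n).sym q k q' j).symm
  · intro q k q' j hw
    refine tendsto_nhds_unique (hG q k q' j) ?_
    refine (tendsto_const_nhds (x := (0 : ℝ))).congr fun n => ?_
    exact ((h n).wt q k q' j hw).symm
  · intro q k q' j
    have h1 : Tendsto (fun n => m n q / r n * G n (q + 1) k q' j + l n k / r n * G n q (k + 1) q' j)
        F (𝓝 (mi q * Gi (q + 1) k q' j + li k * Gi q (k + 1) q' j)) :=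
      ((hm q).mul (hG _ _ _ _)).add ((hl k).mul (hG _ _ _ _))
    have h2 : Tendsto (fun n => (if q' = 0 then 0 else m n (q' - 1) / r n * G n q k (q' - 1) j) +
        (if j = 0 then 0 else l n (j - 1) / r n * G n q k q' (j - 1)))
        F (𝓝 ((if q' = 0 then 0 else mi (q' - 1) * Gi q k (q' - 1) j) +
        (if j = 0 then 0 else li (j - 1) * Gi q k q' (j - 1)))) := by
      refine Tendsto.add ?_ ?_
      · by_cases h0 : q' = 0
        · simp only [h0, if_true]; exact tendsto_const_nhds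
        · simp only [h0, if_false]; exact (hm _).mul (hG _ _ _ _)
      · by_cases h0 : j = 0
        · simp only [h0, if_true]; exact tendsto_const_nhds
        · simp only [h0, if_false]; exact (hl _).mul (hG _ _ _ _)
    refine tendsto_nhds_unique h1 (h2.congr fun n => ?_)
    have h3 := (h n).tr q k q' j
    have e1 : m n q / r n * G n (q + 1) k q' j + l n k / r n * G n q (k + 1) q' j =
        (m n q * G n (q + 1) k q' j + l n k * G n q (k + 1) q' j) / r n := by ring
    rw [e1, h3, add_div]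
    congr 1
    · split_ifs
      · simp
      · ring
    · split_ifs
      · simp
      · ring

/-- Scaling factor `√(q!/x^q) √(k!/y^k)`. -/
noncomputable def sc (x y : ℝ) (q k : ℕ) : ℝ :=
  Real.sqrt ((q.factorial : ℝ) / x ^ q) * Real.sqrt ((k.factorial : ℝ) / y ^ k)

theorem sc_pos {x y : ℝ} (hx : 0 < x) (hy : 0 < y) (q k : ℕ) : 0 < sc x y q k := by
  unfold sc
  have h1 : (0 : ℝ) < (q.factorial : ℝ) := by exact_mod_cast Nat.factorial_pos q
  have h2 : (0 : ℝ) < (k.factorial : ℝ) := by exact_mod_cast Nat.factorial_pos k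
  positivity

theorem sqrt_fact_succ {x : ℝ} (hx : 0 < x) (q : ℕ) :
    Real.sqrt (x * (q + 1)) * Real.sqrt (((q + 1).factorial : ℝ) / x ^ (q + 1)) =
      (q + 1) * Real.sqrt ((q.factorial : ℝ) / x ^ q) := by
  rw [← Real.sqrt_mul (by positivity)]
  have e1 : x * (q + 1) * (((q + 1).factorial : ℝ) / x ^ (q + 1)) =
      ((q + 1 : ℝ)) ^ 2 * ((q.factorial : ℝ) / x ^ q) := by
    rw [Nat.factorial_succ]
    push_cast
    field_simp
    ring
  rw [e1, Real.sqrt_mul (by positivity), Real.sqrt_sq (by positivity)]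

theorem sqrt_fact_pred {x : ℝ} (hx : 0 < x) (q : ℕ) (hq : q ≠ 0) :
    Real.sqrt (x * ((q - 1 : ℕ) + 1 : ℝ)) * Real.sqrt (((q - 1).factorial : ℝ) / x ^ (q - 1)) =
      x * Real.sqrt ((q.factorial : ℝ) / x ^ q) := by
  obtain ⟨q, rfl⟩ : ∃ n, q = n + 1 := ⟨q - 1, by omega⟩
  rw [Nat.add_sub_cancel, ← Real.sqrt_mul (by positivity)]
  have e1 : x * ((q : ℝ) + 1) * ((q.factorial : ℝ) / x ^ q) =
      x ^ 2 * (((q + 1).factorial : ℝ) / x ^ (q + 1)) := by
    rw [Nat.factorial_succ]
    push_cast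
    field_simp
    ring
  rw [e1, Real.sqrt_mul (by positivity), Real.sqrt_sq hx.le]

/-- Rescaling to the rational planar relations. -/
theorem FR.rel {α c : ℝ} (hα : 0 < α) (hc : 0 < c) {G : ℕ → ℕ → ℕ → ℕ → ℝ}
    (h : FR (fun q => Real.sqrt (c * α * (q + 1))) (fun k => Real.sqrt (c * (k + 1))) G) :
    Rel α c (fun q k q' j => G q k q' j / (sc (c * α) c q k * sc (c * α) c q' j)) := by
  have hx : 0 < c * α := by positivity
  refine ⟨?_, ?_, ?_⟩
  · intro q k q' j
    rw [h.sym q k q' j, mul_comm (sc (c * α) c q k)]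
  · intro q k q' j hw
    rw [h.wt q k q' j hw, zero_div]
  · intro q k q' j
    have hs : ∀ q k, sc (c * α) c q k ≠ 0 := fun q k => (sc_pos hx hc q k).ne'
    have htr := h.tr q k q' j
    have a1 : (q + 1 : ℝ) / sc (c * α) c (q + 1) k =
        Real.sqrt (c * α * (q + 1)) / sc (c * α) c q k := by
      rw [div_eq_div_iff (hs _ _) (hs _ _)]
      unfold sc
      have := sqrt_fact_succ hx q
      linear_combination -Real.sqrt ((k.factorial : ℝ) / c ^ k) * this
    have a2 : (k + 1 : ℝ) / sc (c * α) c q (k + 1) =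
        Real.sqrt (c * (k + 1)) / sc (c * α) c q k := by
      rw [div_eq_div_iff (hs _ _) (hs _ _)]
      unfold sc
      have := sqrt_fact_succ hc k
      linear_combination -Real.sqrt ((q.factorial : ℝ) / (c * α) ^ q) * this
    have a3 : q' ≠ 0 → Real.sqrt (c * α * ((q' - 1 : ℕ) + 1)) / sc (c * α) c q' j =
        c * α / sc (c * α) c (q' - 1) j := by
      intro h0
      rw [div_eq_div_iff (hs _ _) (hs _ _)]
      unfold sc
      have := sqrt_fact_pred hx q' h0
      linear_combination Real.sqrt ((j.factorial : ℝ) / c ^ j) * this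
    have a4 : j ≠ 0 → Real.sqrt (c * ((j - 1 : ℕ) + 1)) / sc (c * α) c q' j =
        c / sc (c * α) c q' (j - 1) := by
      intro h0
      rw [div_eq_div_iff (hs _ _) (hs _ _)]
      unfold sc
      have := sqrt_fact_pred hc j h0
      linear_combination Real.sqrt ((q'.factorial : ℝ) / (c * α) ^ q') * this
    have b1 : (q + 1 : ℝ) * (G (q + 1) k q' j / (sc (c * α) c (q + 1) k * sc (c * α) c q' j)) =
        (Real.sqrt (c * α * (q + 1)) * G (q + 1) k q' j) /
          (sc (c * α) c q k * sc (c * α) c q' j) := by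
      calc _ = ((q + 1 : ℝ) / sc (c * α) c (q + 1) k) * (G (q + 1) k q' j / sc (c * α) c q' j) := by
            field_simp
        _ = _ := by rw [a1]; field_simp
    have b2 : (k + 1 : ℝ) * (G q (k + 1) q' j / (sc (c * α) c q (k + 1) * sc (c * α) c q' j)) =
        (Real.sqrt (c * (k + 1)) * G q (k + 1) q' j) /
          (sc (c * α) c q k * sc (c * α) c q' j) := by
      calc _ = ((k + 1 : ℝ) / sc (c * α) c q (k + 1)) * (G q (k + 1) q' j / sc (c * α) c q' j) := by
            field_simp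
        _ = _ := by rw [a2]; field_simp
    have t1 : (if q' = 0 then 0 else Real.sqrt (c * α * ((q' - 1 : ℕ) + 1)) * G q k (q' - 1) j) /
        (sc (c * α) c q k * sc (c * α) c q' j) =
        c * (if q' = 0 then 0 else α * (G q k (q' - 1) j /
          (sc (c * α) c q k * sc (c * α) c (q' - 1) j))) := by
      split_ifs with h0
      · simp
      · have := a3 h0
        calc _ = (Real.sqrt (c * α * ((q' - 1 : ℕ) + 1)) / sc (c * α) c q' j) *
              (G q k (q' - 1) j / sc (c * α) c q k) := by field_simp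
          _ = _ := by rw [this]; field_simp
    have t2 : (if j = 0 then 0 else Real.sqrt (c * ((j - 1 : ℕ) + 1)) * G q k q' (j - 1)) /
        (sc (c * α) c q k * sc (c * α) c q' j) =
        c * (if j = 0 then 0 else 1 * (G q k q' (j - 1) /
          (sc (c * α) c q k * sc (c * α) c q' (j - 1)))) := by
      split_ifs with h0
      · simp
      · have := a4 h0
        calc _ = (Real.sqrt (c * ((j - 1 : ℕ) + 1)) / sc (c * α) c q' j) *
              (G q k q' (j - 1) / sc (c * α) c q k) := by field_simp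
          _ = _ := by rw [this]; field_simp
    rw [b1, b2, ← add_div, htr, add_div, t1, t2, ← mul_add]
    rfl

theorem PSD.scale {G : ℕ → ℕ → ℕ → ℕ → ℝ} (h : PSD G) (s : ℕ → ℕ → ℝ) :
    PSD (fun q k q' j => G q k q' j / (s q k * s q' j)) := by
  intro n x y u
  have := h n x y (fun i => u i / s (x i) (y i))
  refine this.trans_eq ?_
  refine Finset.sum_congr rfl fun i _ => Finset.sum_congr rfl fun j _ => ?_
  rw [div_mul_div_comm, div_mul_eq_mul_div, mul_div_assoc]

theorem PSD.limit {F : Filter ℕ} [F.NeBot] {G : ℕ → ℕ → ℕ → ℕ → ℕ → ℝ} {Gi : ℕ → ℕ → ℕ → ℕ → ℝ}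
    (hG : ∀ q k q' j : ℕ, Tendsto (fun n => G n q k q' j) F (𝓝 (Gi q k q' j)))
    (h : ∀ n, PSD (G n)) : PSD Gi := by
  intro n x y u
  have h1 : Tendsto (fun N => ∑ i ∈ range n, ∑ j ∈ range n,
      u i * u j * G N (x i) (y i) (x j) (y j)) F (𝓝 (∑ i ∈ range n, ∑ j ∈ range n,
      u i * u j * Gi (x i) (y i) (x j) (y j))) :=
    tendsto_finsetSum _ fun i _ => tendsto_finsetSum _ fun j _ => (hG _ _ _ _).const_mul _
  exact ge_of_tendsto' h1 fun N => h N n x y u

end Crest.Agent.R340.Pl249
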