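import Crest.Agent.R340.KnI2_249
import Crest.Agent.R340.Pl4_249

set_option autoImplicit false
open scoped BigOperators ComplexConjugate
open Finset

namespace Crest.Agent.R340.Kn249

open Crest.Agent.R340.Fock649 Crest.MathPhysics.Laughlin Crest.Agent.R340.Pl249

/-- Ladder identities at flux `Q`. -/
structure LadQ (Q : ℕ) : Prop where
  Uc : ∀ k, UN Q * cN Q k - cN Q k * UN Q = -(((lam Q k : ℝ) : ℂ) • cN Q (k + 1))
  Vc0 : star (UN Q) * cN Q 0 - cN Q 0 * star (UN Q) = 0
  Vc : ∀ k, star (UN Q) * cN Q (k + 1) - cN Q (k + 1) * star (UN Q) =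
    -(((lam Q k : ℝ) : ℂ) • cN Q k)
  UW : ∀ q, UN Q * WN Q q - WN Q q * UN Q = -(((mu Q q : ℝ) : ℂ) • WN Q (q + 1))
  VW0 : star (UN Q) * WN Q 0 - WN Q 0 * star (UN Q) = 0
  VW : ∀ q, star (UN Q) * WN Q (q + 1) - WN Q (q + 1) * star (UN Q) =
    -(((mu Q q : ℝ) : ℂ) • WN Q q)
  Zc : ∀ k : ℕ, ZN Q * cN Q k - cN Q k * ZN Q = -((k : ℂ) • cN Q k)
  ZW : ∀ q : ℕ, ZN Q * WN Q q - WN Q q * ZN Q = -(((q : ℂ) + 1) • WN Q q)
  Zs : star (ZN Q) = ZN Q
  WW : ∀ p q, WN Q p * WN Q q = WN Q q * WN Q p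

/-- A positive functional invariant under the rotations of the sphere. -/
structure Inv (Q : ℕ) where
  τ : Op (Fin (Q + 1)) →ₗ[ℂ] ℂ
  pos : ∀ A, 0 ≤ (τ (star A * A)).re
  herm : ∀ A, τ (star A) = conj (τ A)
  invU : ∀ A, τ (UN Q * A) = τ (A * UN Q)
  invV : ∀ A, τ (star (UN Q) * A) = τ (A * star (UN Q))
  invZ : ∀ A, τ (ZN Q * A) = τ (A * ZN Q)

variable {Q : ℕ}

/-- real correlator of a doubly indexed family of operators -/
noncomputable def Inv.cor (t : Inv Q) (T : ℕ → ℕ → Op (Fin (Q + 1))) (q k q' j : ℕ) : ℝ :=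
  (t.τ (star (T q k) * T q' j)).re

theorem Inv.cor_sym (t : Inv Q) (T : ℕ → ℕ → Op (Fin (Q + 1))) (q k q' j : ℕ) :
    t.cor T q k q' j = t.cor T q' j q k := by
  unfold Inv.cor
  have : star (T q' j) * T q k = star (star (T q k) * T q' j) := by rw [star_mul, star_star]
  rw [this, t.herm, Complex.conj_re]

theorem Inv.cor_psd (t : Inv Q) (T : ℕ → ℕ → Op (Fin (Q + 1))) : PSD (t.cor T) := by
  intro n x y u
  have h := t.pos (∑ i ∈ range n, ((u i : ℝ) : ℂ) • T (x i) (y i))
  refine h.trans_eq ?_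
  rw [star_sum, Finset.sum_mul, map_sum, Complex.re_sum]
  refine Finset.sum_congr rfl fun i _ => ?_
  rw [Finset.mul_sum, map_sum, Complex.re_sum]
  refine Finset.sum_congr rfl fun j _ => ?_
  rw [star_smul, smul_mul_assoc, mul_smul_comm, map_smul, map_smul]
  unfold Inv.cor
  simp only [RCLike.star_def, Complex.conj_ofReal, smul_eq_mul]
  rw [← mul_assoc, ← Complex.ofReal_mul, Complex.re_ofReal_mul]

theorem comm_mul {A : Type*} [Ring A] (V X Y : A) :
    V * (X * Y) - (X * Y) * V = (V * X - X * V) * Y + X * (V * Y - Y * V) := by noncomm_ring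

theorem Inv.cor_FR (t : Inv Q) (T : ℕ → ℕ → Op (Fin (Q + 1))) (m l : ℕ → ℝ) (e : ℝ)
    (hZs : star (ZN Q) = ZN Q)
    (hU : ∀ q k, UN Q * T q k - T q k * UN Q =
      -(((m q : ℝ) : ℂ) • T (q + 1) k + ((l k : ℝ) : ℂ) • T q (k + 1)))
    (hV : ∀ q k, star (UN Q) * T q k - T q k * star (UN Q) =
      -((if q = 0 then 0 else ((m (q - 1) : ℝ) : ℂ) • T (q - 1) k) +
        (if k = 0 then 0 else ((l (k - 1) : ℝ) : ℂ) • T q (k - 1))))
    (hZ : ∀ q k : ℕ, ZN Q * T q k - T q k * ZN Q = -((((q : ℝ) + k + e : ℝ) : ℂ) • T q k)) :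
    FR m l (t.cor T) := by
  have hc : ∀ q k q' j, t.cor T q k q' j = (t.τ (star (T q k) * T q' j)).re := fun _ _ _ _ => rfl
  refine ⟨t.cor_sym T, ?_, ?_⟩
  · intro q k q' j hw
    have h1 : t.τ (ZN Q * (star (T q k) * T q' j) - (star (T q k) * T q' j) * ZN Q) = 0 := by
      rw [map_sub, t.invZ, sub_self]
    rw [comm_mul] at h1
    have h2 : ZN Q * star (T q k) - star (T q k) * ZN Q =
        (((q : ℝ) + k + e : ℝ) : ℂ) • star (T q k) := by
      have h3 := congrArg star (hZ q k)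
      rw [star_sub, star_mul, star_mul, hZs, star_neg, star_smul, RCLike.star_def,
        Complex.conj_ofReal] at h3
      rw [← neg_sub, h3, neg_neg]
    rw [h2, hZ, smul_mul_assoc, mul_neg, mul_smul_comm, ← sub_eq_add_neg, ← sub_smul, map_smul,
      ← Complex.ofReal_sub, smul_eq_mul] at h1
    rw [hc]
    have h4 : ((q : ℝ) + k + e) - ((q' : ℝ) + j + e) ≠ 0 := by
      intro h5
      apply hw
      have h6 : (q : ℝ) + k = q' + j := by linarith
      exact_mod_cast h6
    have h7 : t.τ (star (T q k) * T q' j) = 0 := by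
      rcases mul_eq_zero.mp h1 with h | h
      · exfalso; apply h4; exact_mod_cast h
      · exact h
    rw [h7, Complex.zero_re]
  · intro q k q' j
    have h1 : t.τ (star (UN Q) * (star (T q k) * T q' j) -
        (star (T q k) * T q' j) * star (UN Q)) = 0 := by
      rw [map_sub, t.invV, sub_self]
    rw [comm_mul] at h1
    have h2 : star (UN Q) * star (T q k) - star (T q k) * star (UN Q) =
        ((m q : ℝ) : ℂ) • star (T (q + 1) k) + ((l k : ℝ) : ℂ) • star (T q (k + 1)) := by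
      have h3 := congrArg star (hU q k)
      rw [star_sub, star_mul, star_mul, star_neg, star_add, star_smul, star_smul,
        RCLike.star_def, Complex.conj_ofReal, Complex.conj_ofReal] at h3
      rw [← neg_sub, h3, neg_neg]
    rw [h2, hV, add_mul, smul_mul_assoc, smul_mul_assoc, mul_neg, mul_add, map_add, map_neg,
      map_add, map_add, map_smul, map_smul] at h1
    have h5 := congrArg Complex.re h1
    simp only [smul_eq_mul, Complex.add_re, Complex.neg_re, Complex.re_ofReal_mul,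
      Complex.zero_re] at h5
    have e1 : (t.τ (star (T q k) *
        (if q' = 0 then 0 else ((m (q' - 1) : ℝ) : ℂ) • T (q' - 1) j))).re =
        if q' = 0 then 0 else m (q' - 1) * t.cor T q k (q' - 1) j := by
      split_ifs with h0
      · simp
      · rw [mul_smul_comm, map_smul, smul_eq_mul, Complex.re_ofReal_mul, hc]
    have e2 : (t.τ (star (T q k) *
        (if j = 0 then 0 else ((l (j - 1) : ℝ) : ℂ) • T q' (j - 1)))).re =
        if j = 0 then 0 else l (j - 1) * t.cor T q k q' (j - 1) := by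
      split_ifs with h0
      · simp
      · rw [mul_smul_comm, map_smul, smul_eq_mul, Complex.re_ofReal_mul, hc]
    rw [e1, e2] at h5
    rw [hc, hc]
    linarith

/-- three-body family `T q k = c_k W_q` -/
noncomputable def T3 (Q : ℕ) (q k : ℕ) : Op (Fin (Q + 1)) := cN Q k * WN Q q

/-- four-body family `T q s = W_s W_q` -/
noncomputable def T4 (Q : ℕ) (q s : ℕ) : Op (Fin (Q + 1)) := WN Q s * WN Q q

theorem Inv.FR3 (hL : LadQ Q) (t : Inv Q) : FR (mu Q) (lam Q) (t.cor (T3 Q)) := by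
  refine t.cor_FR (T3 Q) (mu Q) (lam Q) 1 hL.Zs ?_ ?_ ?_
  · intro q k
    unfold T3
    rw [comm_mul, hL.Uc, hL.UW]
    simp only [neg_mul, mul_neg, smul_mul_assoc, mul_smul_comm]
    abel
  · intro q k
    unfold T3
    rw [comm_mul]
    have e1 : star (UN Q) * cN Q k - cN Q k * star (UN Q) =
        -(if k = 0 then 0 else ((lam Q (k - 1) : ℝ) : ℂ) • cN Q (k - 1)) := by
      rcases k with _ | k
      · rw [hL.Vc0]; simp
      · rw [hL.Vc]; simp
    have e2 : star (UN Q) * WN Q q - WN Q q * star (UN Q) =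
        -(if q = 0 then 0 else ((mu Q (q - 1) : ℝ) : ℂ) • WN Q (q - 1)) := by
      rcases q with _ | q
      · rw [hL.VW0]; simp
      · rw [hL.VW]; simp
    rw [e1, e2]
    split_ifs <;> simp only [neg_mul, mul_neg, smul_mul_assoc, mul_smul_comm, zero_mul, mul_zero,
      neg_zero, add_zero, zero_add] <;> try abel
  · intro q k
    unfold T3
    rw [comm_mul, hL.Zc, hL.ZW]
    simp only [neg_mul, mul_neg, smul_mul_assoc, mul_smul_comm]
    rw [← neg_add, ← add_smul]
    congr 2
    push_cast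
    ring

theorem Inv.FR4 (hL : LadQ Q) (t : Inv Q) : FR (mu Q) (mu Q) (t.cor (T4 Q)) := by
  refine t.cor_FR (T4 Q) (mu Q) (mu Q) 2 hL.Zs ?_ ?_ ?_
  · intro q k
    unfold T4
    rw [comm_mul, hL.UW, hL.UW]
    simp only [neg_mul, mul_neg, smul_mul_assoc, mul_smul_comm]
    abel
  · intro q k
    unfold T4
    rw [comm_mul]
    have e2 : ∀ q, star (UN Q) * WN Q q - WN Q q * star (UN Q) =
        -(if q = 0 then 0 else ((mu Q (q - 1) : ℝ) : ℂ) • WN Q (q - 1)) := by
      intro q
      rcases q with _ | q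
      · rw [hL.VW0]; simp
      · rw [hL.VW]; simp
    rw [e2, e2]
    split_ifs <;> simp only [neg_mul, mul_neg, smul_mul_assoc, mul_smul_comm, zero_mul, mul_zero,
      neg_zero, add_zero, zero_add] <;> try abel
  · intro q k
    unfold T4
    rw [comm_mul, hL.ZW, hL.ZW]
    simp only [neg_mul, mul_neg, smul_mul_assoc, mul_smul_comm]
    rw [← neg_add, ← add_smul]
    congr 2
    push_cast
    ring

/-- `τ` is monotone. -/
theorem Inv.re_nonneg (t : Inv Q) {A : Op (Fin (Q + 1))} (hA : 0 ≤ A) : 0 ≤ (t.τ A).re := by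
  obtain ⟨B, rfl⟩ := CStarAlgebra.nonneg_iff_eq_star_mul_self.mp hA
  exact t.pos B

theorem Inv.re_mono (t : Inv Q) {A B : Op (Fin (Q + 1))} (h : A ≤ B) : (t.τ A).re ≤ (t.τ B).re := by
  have := t.re_nonneg (sub_nonneg.mpr h)
  rw [map_sub, Complex.sub_re] at this
  linarith

/-- `τ((XW)^*(XW)) ≤ ‖X‖² τ(W^*W)` -/
theorem Inv.conj_le (t : Inv Q) (X W : Op (Fin (Q + 1))) :
    (t.τ (star (X * W) * (X * W))).re ≤ ‖X‖ ^ 2 * (t.τ (star W * W)).re := by
  have h1 : star X * X ≤ algebraMap ℝ (Op (Fin (Q + 1))) (‖X‖ ^ 2) :=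
    CStarAlgebra.star_mul_le_algebraMap_norm_sq
  have h2 := star_left_conjugate_le_conjugate h1 W
  have h3 := t.re_mono h2
  have e1 : star W * (star X * X) * W = star (X * W) * (X * W) := by
    rw [star_mul]; noncomm_ring
  have e2 : star W * algebraMap ℝ (Op (Fin (Q + 1))) (‖X‖ ^ 2) * W =
      (((‖X‖ ^ 2 : ℝ)) : ℂ) • (star W * W) := by
    rw [Algebra.algebraMap_eq_smul_one, mul_smul_comm, mul_one, smul_mul_assoc]
    exact (Complex.coe_smul _ _).symm
  rw [e1, e2, map_smul, smul_eq_mul, Complex.re_ofReal_mul] at h3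
  exact h3

/-- off-diagonal correlators are bounded by diagonal ones -/
theorem Inv.abs_cor_le (t : Inv Q) (T : ℕ → ℕ → Op (Fin (Q + 1))) (q k q' j : ℕ) :
    |t.cor T q k q' j| ≤ (t.cor T q k q k + t.cor T q' j q' j) / 2 := by
  have h := t.cor_psd T
  have hs := t.cor_sym T q k q' j
  rw [abs_le]
  constructor
  · have h3 := h 2 (fun l => if l = 0 then q else q') (fun l => if l = 0 then k else j)
      (fun l => if l = 0 then 1 else 1)
    simp only [Finset.sum_range_succ, Finset.sum_range_zero, if_true, one_ne_zero, if_false,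
      zero_add] at h3
    rw [← hs] at h3
    linarith
  · have h3 := h 2 (fun l => if l = 0 then q else q') (fun l => if l = 0 then k else j)
      (fun l => if l = 0 then 1 else -1)
    simp only [Finset.sum_range_succ, Finset.sum_range_zero, if_true, one_ne_zero, if_false,
      zero_add] at h3
    rw [← hs] at h3
    linarith

theorem norm_cN_le (Q k : ℕ) : ‖cN Q k‖ ≤ 1 := by
  unfold cN
  split_ifs with h
  · rw [norm_c]
  · simp

theorem Inv.cor3_diag_le (t : Inv Q) (q k : ℕ) :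
    t.cor (T3 Q) q k q k ≤ (t.τ (star (WN Q q) * WN Q q)).re := by
  have h := t.conj_le (cN Q k) (WN Q q)
  have h1 : ‖cN Q k‖ ^ 2 ≤ 1 := by
    have := norm_cN_le Q k
    have h0 := norm_nonneg (cN Q k)
    nlinarith
  have h2 := t.pos (WN Q q)
  unfold Inv.cor T3
  nlinarith

theorem Inv.cor4_diag_le (t : Inv Q) (q s : ℕ) :
    t.cor (T4 Q) q s q s ≤ ‖WN Q s‖ ^ 2 * (t.τ (star (WN Q q) * WN Q q)).re :=
  t.conj_le (WN Q s) (WN Q q)

/-- `τ(W_q^* W_q)` does not depend on `q`. -/
theorem Inv.norm_W (hL : LadQ Q) (t : Inv Q) (q : ℕ) (hq : q < 2 * Q - 1) :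
    (t.τ (star (WN Q q) * WN Q q)).re = (t.τ (star (WN Q 0) * WN Q 0)).re := by
  induction q with
  | zero => rfl
  | succ q ih =>
    rw [← ih (by omega)]
    have h1 : t.τ (star (UN Q) * (star (WN Q q) * WN Q (q + 1)) -
        (star (WN Q q) * WN Q (q + 1)) * star (UN Q)) = 0 := by
      rw [map_sub, t.invV, sub_self]
    rw [comm_mul] at h1
    have h2 : star (UN Q) * star (WN Q q) - star (WN Q q) * star (UN Q) =
        ((mu Q q : ℝ) : ℂ) • star (WN Q (q + 1)) := by
      have h3 := congrArg star (hL.UW q)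
      rw [star_sub, star_mul, star_mul, star_neg, star_smul, RCLike.star_def,
        Complex.conj_ofReal] at h3
      rw [← neg_sub, h3, neg_neg]
    rw [h2, hL.VW, smul_mul_assoc, mul_neg, mul_smul_comm, map_add, map_neg, map_smul,
      map_smul] at h1
    have h5 := congrArg Complex.re h1
    simp only [smul_eq_mul, Complex.add_re, Complex.neg_re, Complex.re_ofReal_mul,
      Complex.zero_re] at h5
    have hmu : mu Q q ≠ 0 := by
      unfold mu
      apply Real.sqrt_ne_zero'.mpr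
      have : 0 < 2 * Q - 2 - q := by omega
      have h6 : (0 : ℝ) < ((2 * Q - 2 - q : ℕ) : ℝ) := by exact_mod_cast this
      positivity
    have h7 : mu Q q * ((t.τ (star (WN Q (q + 1)) * WN Q (q + 1))).re -
        (t.τ (star (WN Q q) * WN Q q)).re) = 0 := by linarith
    rcases mul_eq_zero.mp h7 with h | h
    · exact absurd h hmu
    · linarith

end Crest.Agent.R340.Kn249
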