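import Crest.Agent.R340.Pl5_249

set_option autoImplicit false
open scoped BigOperators ComplexConjugate Topology
open Finset Filter

namespace Crest.Agent.R340.Kn249

open Crest.Agent.R340.Fock649 Crest.MathPhysics.Laughlin Crest.Agent.R340.Pl249

variable {Q : ℕ}

/-- `√2 w_p(0,p+1)` -/
noncomputable def v0 (Q p : ℕ) : ℝ := Real.sqrt 2 * pv Q p 0 (p + 1)
/-- `√2 w_p(1,p)` -/
noncomputable def v1 (Q p : ℕ) : ℝ := Real.sqrt 2 * pv Q p 1 p

/-- normalisation of an invariant functional -/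
noncomputable def Inv.a (t : Inv Q) : ℝ := (t.τ (star (WN Q 0) * WN Q 0)).re

/-- near energy of an invariant functional -/
noncomputable def Inv.N (pw : ℕ) (t : Inv Q) : ℝ :=
  ∑ p ∈ range pw, (t.τ (star (WN Q p * WN Q 0) * (WN Q p * WN Q 0))).re +
    (t.τ (star (WN Q 0) * (WN Q 0 * HN Q - HN Q * WN Q 0))).re

/-- commutator of `W_0` with `W_p^*` -/
def Comm0 (Q : ℕ) : Prop := ∀ p : ℕ, p < 2 * Q - 1 →
  WN Q 0 * star (WN Q p) - star (WN Q p) * WN Q 0 = (if p = 0 then 1 else 0) -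
    ((v0 Q p : ℝ) : ℂ) • (star (cN Q (p + 1)) * cN Q 1) +
    ((v1 Q p : ℝ) : ℂ) • (star (cN Q p) * cN Q 0)

/-- rescaling of an invariant functional -/
noncomputable def Inv.scale (t : Inv Q) (r : ℝ) (hr : 0 ≤ r) : Inv Q where
  τ := (r : ℂ) • t.τ
  pos A := by
    rw [LinearMap.smul_apply, smul_eq_mul, Complex.re_ofReal_mul]
    exact mul_nonneg hr (t.pos A)
  herm A := by
    rw [LinearMap.smul_apply, LinearMap.smul_apply, smul_eq_mul, smul_eq_mul, map_mul,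
      Complex.conj_ofReal, t.herm]
  invU A := by rw [LinearMap.smul_apply, LinearMap.smul_apply, t.invU]
  invV A := by rw [LinearMap.smul_apply, LinearMap.smul_apply, t.invV]
  invZ A := by rw [LinearMap.smul_apply, LinearMap.smul_apply, t.invZ]

theorem Inv.scale_re (t : Inv Q) (r : ℝ) (hr : 0 ≤ r) (A : Op (Fin (Q + 1))) :
    ((t.scale r hr).τ A).re = r * (t.τ A).re := by
  show (((r : ℂ) • t.τ) A).re = _
  rw [LinearMap.smul_apply, smul_eq_mul, Complex.re_ofReal_mul]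

theorem Inv.a_nonneg (t : Inv Q) : 0 ≤ t.a := t.pos _

/-- nonnegative form implies nonnegative expectation -/
theorem Inv.re_nonneg_of_form (t : Inv Q) (Y : Op (Fin (Q + 1)))
    (h : ∀ v : Fk (Fin (Q + 1)), 0 ≤ (inner ℂ v (Y v) : ℂ).re) : 0 ≤ (t.τ Y).re := by
  have h1 : 0 ≤ Y + star Y := by
    rw [Op.nonneg_iff]
    refine ⟨IsSelfAdjoint.add_star_self Y, fun v => ?_⟩
    rw [add_ap, inner_add_right, Complex.add_re, inner_star_right]
    have h2 : (inner ℂ (Y v) v : ℂ).re = (inner ℂ v (Y v) : ℂ).re :=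
      inner_re_symm (𝕜 := ℂ) (Y v) v
    rw [h2]
    have := h v
    linarith
  have h3 := t.re_nonneg h1
  rw [map_add, t.herm, Complex.add_re, Complex.conj_re] at h3
  linarith

theorem Inv.energy_expand (hL : LadQ Q) (hC : Comm0 Q) (t : Inv Q) (hQ : 1 ≤ Q) :
    (t.τ (star (WN Q 0) * (WN Q 0 * HN Q - HN Q * WN Q 0))).re =
      t.a - ∑ p ∈ range (2 * Q - 1), (v0 Q p * t.cor (T3 Q) 0 (p + 1) p 1 -
        v1 Q p * t.cor (T3 Q) 0 p p 0) := by
  have h1 : WN Q 0 * HN Q - HN Q * WN Q 0 = ∑ p ∈ range (2 * Q - 1),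
      (WN Q 0 * star (WN Q p) - star (WN Q p) * WN Q 0) * WN Q p := by
    unfold HN
    rw [Finset.mul_sum, Finset.sum_mul, ← Finset.sum_sub_distrib]
    refine Finset.sum_congr rfl fun p _ => ?_
    rw [sub_mul, mul_assoc, mul_assoc, mul_assoc, hL.WW p 0]
  rw [h1, Finset.mul_sum, map_sum, Complex.re_sum]
  have h2 : ∀ p ∈ range (2 * Q - 1), (t.τ (star (WN Q 0) *
      ((WN Q 0 * star (WN Q p) - star (WN Q p) * WN Q 0) * WN Q p))).re =
      (if p = 0 then t.a else 0) - (v0 Q p * t.cor (T3 Q) 0 (p + 1) p 1 -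
        v1 Q p * t.cor (T3 Q) 0 p p 0) := by
    intro p hp
    have hp' : p < 2 * Q - 1 := by simpa using hp
    rw [hC p hp']
    have e1 : star (WN Q 0) * (((if p = 0 then (1 : Op (Fin (Q + 1))) else 0) -
        ((v0 Q p : ℝ) : ℂ) • (star (cN Q (p + 1)) * cN Q 1) +
        ((v1 Q p : ℝ) : ℂ) • (star (cN Q p) * cN Q 0)) * WN Q p) =
        (if p = 0 then star (WN Q 0) * WN Q 0 else 0) -
        ((v0 Q p : ℝ) : ℂ) • (star (T3 Q 0 (p + 1)) * T3 Q p 1) +
        ((v1 Q p : ℝ) : ℂ) • (star (T3 Q 0 p) * T3 Q p 0) := by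
      unfold T3
      rw [add_mul, sub_mul, mul_add, mul_sub, smul_mul_assoc, smul_mul_assoc, mul_smul_comm,
        mul_smul_comm]
      congr 2
      · by_cases h0 : p = 0
        · simp [h0]
        · simp [h0]
      · rw [star_mul]; simp only [mul_assoc]
      · rw [star_mul]; simp only [mul_assoc]
    rw [e1, map_add, map_sub, map_smul, map_smul, Complex.add_re, Complex.sub_re, smul_eq_mul,
      smul_eq_mul, Complex.re_ofReal_mul, Complex.re_ofReal_mul]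
    have e2 : (t.τ (if p = 0 then star (WN Q 0) * WN Q 0 else 0)).re =
        if p = 0 then t.a else 0 := by
      split_ifs
      · rfl
      · simp
    rw [e2]
    unfold Inv.cor
    ring
  rw [Finset.sum_congr rfl h2, Finset.sum_sub_distrib, Finset.sum_ite_eq' (range (2 * Q - 1)) 0]
  rw [if_pos (by simp only [Finset.mem_range]; omega)]

theorem Inv.abs_cor3_le (hL : LadQ Q) (t : Inv Q) (q k q' j : ℕ) (hq : q < 2 * Q - 1)
    (hq' : q' < 2 * Q - 1) : |t.cor (T3 Q) q k q' j| ≤ t.a := by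
  have h := t.abs_cor_le (T3 Q) q k q' j
  have h1 := t.cor3_diag_le q k
  have h2 := t.cor3_diag_le q' j
  rw [t.norm_W hL q hq] at h1
  rw [t.norm_W hL q' hq'] at h2
  unfold Inv.a
  linarith

/-- splitting off the tail of the one-body term -/
theorem Inv.N_ge (hL : LadQ Q) (hC : Comm0 Q) (t : Inv Q) (hQ : 1 ≤ Q) (P1 pw : ℕ)
    (hP1 : P1 ≤ 2 * Q - 1) (b : ℕ → ℝ) (tl : ℝ)
    (hb : ∀ p, p < 2 * Q - 1 → |v0 Q p| + |v1 Q p| ≤ b p)
    (htl : ∑ p ∈ Ico P1 (2 * Q - 1), b p ≤ tl) :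
    t.a - ∑ p ∈ range P1, (v0 Q p * t.cor (T3 Q) 0 (p + 1) p 1 -
        v1 Q p * t.cor (T3 Q) 0 p p 0) - tl * t.a +
      ∑ p ∈ range pw, (t.τ (star (WN Q p * WN Q 0) * (WN Q p * WN Q 0))).re ≤ t.N pw := by
  unfold Inv.N
  rw [t.energy_expand hL hC hQ]
  have ha := t.a_nonneg
  have h1 : ∑ p ∈ range (2 * Q - 1), (v0 Q p * t.cor (T3 Q) 0 (p + 1) p 1 -
        v1 Q p * t.cor (T3 Q) 0 p p 0) =
      ∑ p ∈ range P1, (v0 Q p * t.cor (T3 Q) 0 (p + 1) p 1 -
        v1 Q p * t.cor (T3 Q) 0 p p 0) +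
      ∑ p ∈ Ico P1 (2 * Q - 1), (v0 Q p * t.cor (T3 Q) 0 (p + 1) p 1 -
        v1 Q p * t.cor (T3 Q) 0 p p 0) :=
    (Finset.sum_range_add_sum_Ico _ hP1).symm
  have h2 : ∑ p ∈ Ico P1 (2 * Q - 1), (v0 Q p * t.cor (T3 Q) 0 (p + 1) p 1 -
        v1 Q p * t.cor (T3 Q) 0 p p 0) ≤ ∑ p ∈ Ico P1 (2 * Q - 1), b p * t.a := by
    refine Finset.sum_le_sum fun p hp => ?_
    have hp' : p < 2 * Q - 1 := (Finset.mem_Ico.mp hp).2
    have c1 := t.abs_cor3_le hL 0 (p + 1) p 1 (by omega) hp'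
    have c2 := t.abs_cor3_le hL 0 p p 0 (by omega) hp'
    have d1 : v0 Q p * t.cor (T3 Q) 0 (p + 1) p 1 ≤ |v0 Q p| * t.a := by
      refine (le_abs_self _).trans ?_
      rw [abs_mul]
      exact mul_le_mul_of_nonneg_left c1 (abs_nonneg _)
    have d2 : -(v1 Q p * t.cor (T3 Q) 0 p p 0) ≤ |v1 Q p| * t.a := by
      refine (neg_le_abs _).trans ?_
      rw [abs_mul]
      exact mul_le_mul_of_nonneg_left c2 (abs_nonneg _)
    have d3 := mul_le_mul_of_nonneg_right (hb p hp') ha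
    linarith
  rw [← Finset.sum_mul] at h2
  have h3 := mul_le_mul_of_nonneg_right htl ha
  rw [h1]
  linarith

end Crest.Agent.R340.Kn249
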