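import Mathlib
import Crest.Prelude.Def_Laughlin

/-!
helper385: leaf PROF (real-analysis part) of the DL block: the loss profile
`sP P1 j = 0` for `j ≤ P1`, `1 - ((P1+1)/(j+1))^2` for `j > P1`, and the l1 estimate for the
difference between the damped pair vector and a multiple of the pair vector.
-/

set_option autoImplicit false

namespace Crest.Agent.R340.Prof385

open Finset Crest.MathPhysics.Laughlin

/-- the loss profile -/
noncomputable def sP (P1 j : ℕ) : ℝ :=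
  if j ≤ P1 then 0 else 1 - (((P1 : ℝ) + 1) / ((j : ℝ) + 1)) ^ 2

/-- value at the middle of the pair `i + j = p + 1` -/
noncomputable def sg (P1 p : ℕ) : ℝ := sP P1 ((p + 1) / 2) * sP P1 ((p + 2) / 2)

theorem sP_of_le {P1 j : ℕ} (h : j ≤ P1) : sP P1 j = 0 := by simp [sP, h]

theorem sP_of_lt {P1 j : ℕ} (h : P1 < j) :
    sP P1 j = 1 - (((P1 : ℝ) + 1) / ((j : ℝ) + 1)) ^ 2 := by
  simp [sP, not_le.mpr h]

theorem ratio_lt {P1 j : ℕ} (h : P1 < j) : ((P1 : ℝ) + 1) / ((j : ℝ) + 1) < 1 := by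
  have : (P1 : ℝ) < j := by exact_mod_cast h
  rw [div_lt_one (by positivity)]
  linarith

theorem sP_nonneg (P1 j : ℕ) : 0 ≤ sP P1 j := by
  rcases le_or_gt j P1 with h | h
  · rw [sP_of_le h]
  · rw [sP_of_lt h]
    have h1 := ratio_lt h
    have h0 : 0 ≤ ((P1 : ℝ) + 1) / ((j : ℝ) + 1) := by positivity
    nlinarith

theorem sP_lt_one (P1 j : ℕ) : sP P1 j < 1 := by
  rcases le_or_gt j P1 with h | h
  · rw [sP_of_le h]; norm_num
  · rw [sP_of_lt h]
    have h0 : 0 < ((P1 : ℝ) + 1) / ((j : ℝ) + 1) := by positivity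
    nlinarith [pow_pos h0 2]

theorem sP_le_one (P1 j : ℕ) : sP P1 j ≤ 1 := (sP_lt_one P1 j).le

theorem sP_mono (P1 : ℕ) : Monotone (sP P1) := by
  intro i j hij
  rcases le_or_gt i P1 with h | h
  · rw [sP_of_le h]; exact sP_nonneg _ _
  · rw [sP_of_lt h, sP_of_lt (lt_of_lt_of_le h hij)]
    have : (i : ℝ) ≤ j := by exact_mod_cast hij
    have h1 : ((P1 : ℝ) + 1) / ((j : ℝ) + 1) ≤ ((P1 : ℝ) + 1) / ((i : ℝ) + 1) := by
      apply div_le_div_of_nonneg_left <;> first | positivity | linarith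
    have h0 : 0 ≤ ((P1 : ℝ) + 1) / ((j : ℝ) + 1) := by positivity
    nlinarith

theorem sP_mul_eq_zero {P1 i j : ℕ} (h : i + j ≤ 2 * P1 + 1) : sP P1 i * sP P1 j = 0 := by
  rcases le_or_gt i P1 with h1 | h1
  · rw [sP_of_le h1, zero_mul]
  · rw [sP_of_le (by omega : j ≤ P1), mul_zero]

theorem sg_nonneg (P1 p : ℕ) : 0 ≤ sg P1 p := mul_nonneg (sP_nonneg _ _) (sP_nonneg _ _)

theorem sg_lt_one (P1 p : ℕ) : sg P1 p < 1 := by
  unfold sg
  have := sP_nonneg P1 ((p + 1) / 2)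
  have := sP_nonneg P1 ((p + 2) / 2)
  have := sP_lt_one P1 ((p + 1) / 2)
  have := sP_lt_one P1 ((p + 2) / 2)
  nlinarith

/-- the number of lost particles is finite -/
theorem sum_one_sub_sP_le (P1 n : ℕ) : ∑ j ∈ range n, (1 - sP P1 j) ≤ 2 * ((P1 : ℝ) + 1) := by
  have key : ∀ n : ℕ, ∑ j ∈ range (P1 + 1 + n), (1 - sP P1 j) ≤
      2 * ((P1 : ℝ) + 1) - ((P1 : ℝ) + 1) ^ 2 / ((P1 : ℝ) + 1 + n) := by
    intro n
    induction n with
    | zero =>
      have : ∑ j ∈ range (P1 + 1 + 0), (1 - sP P1 j) = ∑ j ∈ range (P1 + 1), (1 : ℝ) := by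
        apply sum_congr rfl
        intro j hj
        rw [sP_of_le (by have := mem_range.mp hj; omega), sub_zero]
      rw [this]
      simp only [sum_const, card_range, nsmul_eq_mul, mul_one, CharP.cast_eq_zero, add_zero]
      push_cast
      field_simp
      ring_nf
      exact le_refl _
    | succ n ih =>
      rw [← Nat.add_assoc, sum_range_succ]
      have h1 : 1 - sP P1 (P1 + 1 + n) = ((P1 : ℝ) + 1) ^ 2 / ((P1 : ℝ) + 1 + n + 1) ^ 2 := by
        rw [sP_of_lt (by omega)]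
        push_cast
        rw [div_pow]; ring
      rw [h1]
      have h2 : ((P1 : ℝ) + 1) ^ 2 / ((P1 : ℝ) + 1 + n + 1) ^ 2 ≤
          ((P1 : ℝ) + 1) ^ 2 / ((P1 : ℝ) + 1 + n) - ((P1 : ℝ) + 1) ^ 2 / ((P1 : ℝ) + 1 + n + 1) := by
        have hp : (0 : ℝ) < (P1 : ℝ) + 1 + n := by positivity
        rw [div_sub_div _ _ (by positivity) (by positivity), div_le_div_iff₀ (by positivity) (by positivity)]
        nlinarith [mul_pos (pow_pos (show (0:ℝ) < (P1 : ℝ) + 1 by positivity) 2)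
          (pow_pos (show (0:ℝ) < (P1 : ℝ) + 1 + n + 1 by positivity) 2),
          mul_pos (pow_pos (show (0:ℝ) < (P1 : ℝ) + 1 by positivity) 2)
          (show (0:ℝ) < (P1 : ℝ) + 1 + n + 1 by positivity)]
      push_cast
      have : (P1 : ℝ) + 1 + (n + 1) = (P1 : ℝ) + 1 + n + 1 := by ring
      rw [this]
      linarith
  have h2 : ∑ j ∈ range n, (1 - sP P1 j) ≤ ∑ j ∈ range (P1 + 1 + n), (1 - sP P1 j) := by
    apply sum_le_sum_of_subset_of_nonneg
    · intro x hx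
      simp only [mem_range] at *
      omega
    · intro i _ _
      linarith [sP_le_one P1 i]
  have h3 := key n
  have h4 : 0 ≤ ((P1 : ℝ) + 1) ^ 2 / ((P1 : ℝ) + 1 + n) := by positivity
  linarith

theorem sum_one_sub_sP_sq_le (P1 n : ℕ) :
    ∑ j ∈ range n, (1 - sP P1 j ^ 2) ≤ 4 * ((P1 : ℝ) + 1) := by
  have h1 : ∑ j ∈ range n, (1 - sP P1 j ^ 2) ≤ ∑ j ∈ range n, 2 * (1 - sP P1 j) := by
    apply sum_le_sum
    intro j _
    nlinarith [sP_nonneg P1 j, sP_le_one P1 j, mul_nonneg (sP_nonneg P1 j) (sub_nonneg.mpr (sP_le_one P1 j))]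
  rw [← mul_sum] at h1
  linarith [sum_one_sub_sP_le P1 n]

/-! ### pointwise estimate -/

/-- continuous profile in the variable `u = j + 1` -/
noncomputable def fR (R u : ℝ) : ℝ := if u ≤ R then 0 else 1 - (R / u) ^ 2

theorem sP_eq_fR (P1 j : ℕ) : sP P1 j = fR ((P1 : ℝ) + 1) ((j : ℝ) + 1) := by
  unfold sP fR
  by_cases h : j ≤ P1
  · rw [if_pos h, if_pos]
    have : (j : ℝ) ≤ P1 := by exact_mod_cast h
    linarith
  · rw [if_neg h, if_neg]
    have : (P1 : ℝ) < j := by exact_mod_cast (not_le.mp h)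
    linarith

theorem fR_nonneg {R u : ℝ} (hR : 0 < R) : 0 ≤ fR R u := by
  unfold fR
  split_ifs with h
  · exact le_refl _
  · push_neg at h
    have h0 : 0 < R / u := div_pos hR (hR.trans h)
    have h1 : R / u < 1 := by rw [div_lt_one (hR.trans h)]; exact h
    nlinarith

theorem fR_le_one {R u : ℝ} : fR R u ≤ 1 := by
  unfold fR
  split_ifs with h
  · norm_num
  · nlinarith [sq_nonneg (R / u)]

theorem fR_le {R u : ℝ} (hR : 0 < R) (hu : R ≤ u) : fR R u ≤ 2 * (u - R) / u := by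
  have hu0 : 0 < u := hR.trans_le hu
  unfold fR
  split_ifs with h
  · apply div_nonneg _ hu0.le; linarith
  · rw [div_pow, le_div_iff₀ hu0]
    have : (1 - R ^ 2 / u ^ 2) * u = (u ^ 2 - R ^ 2) / u := by field_simp
    rw [this, div_le_iff₀ hu0]
    nlinarith [sq_nonneg (u - R)]

/-- closed form of the product -/
theorem fR_mul_fR {R u v : ℝ} (hR : 0 < R) (hu : R ≤ u) (hv : R ≤ v) :
    fR R u * fR R v = 1 - R ^ 2 * ((u + v) ^ 2 - 2 * (u * v) - R ^ 2) / (u * v) ^ 2 := by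
  have hu0 : 0 < u := hR.trans_le hu
  have hv0 : 0 < v := hR.trans_le hv
  have e : ∀ w : ℝ, R ≤ w → fR R w = 1 - (R / w) ^ 2 := by
    intro w hw
    unfold fR
    split_ifs with h
    · have : w = R := le_antisymm h hw
      subst this
      rw [div_self hR.ne']; norm_num
    · rfl
  rw [e u hu, e v hv]
  field_simp
  ring

theorem diff_bound_aux {R S A B : ℝ} (hR : 0 < R) (hS : 0 < S) (hA : S ^ 2 / 8 ≤ A) (hAB : A ≤ B)
    (hRA : R ^ 2 ≤ S ^ 2 - 2 * A) :
    (1 - R ^ 2 * (S ^ 2 - 2 * B - R ^ 2) / B ^ 2) - (1 - R ^ 2 * (S ^ 2 - 2 * A - R ^ 2) / A ^ 2) ≤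
      1024 * R ^ 2 * (B - A) / S ^ 4 := by
  have hS2 : 0 < S ^ 2 := pow_pos hS 2
  have hA0 : 0 < A := lt_of_lt_of_le (by positivity) hA
  have hB0 : 0 < B := lt_of_lt_of_le hA0 hAB
  have hB : S ^ 2 / 8 ≤ B := hA.trans hAB
  -- difference = R² [ (S²-R²)(1/A²-1/B²) - 2(1/A-1/B) ]
  have h1 : (1 - R ^ 2 * (S ^ 2 - 2 * B - R ^ 2) / B ^ 2) -
      (1 - R ^ 2 * (S ^ 2 - 2 * A - R ^ 2) / A ^ 2) =
      R ^ 2 * ((S ^ 2 - R ^ 2) * (1 / A ^ 2 - 1 / B ^ 2) - 2 * (1 / A - 1 / B)) := by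
    field_simp
    ring
  rw [h1]
  have h2 : 1 / A ^ 2 - 1 / B ^ 2 = (B - A) * (B + A) / (A ^ 2 * B ^ 2) := by
    field_simp
    ring
  have h3 : 0 ≤ 1 / A - 1 / B := by
    rw [sub_nonneg]
    exact one_div_le_one_div_of_le hA0 hAB
  have h4 : 0 ≤ (B - A) * (B + A) / (A ^ 2 * B ^ 2) := by
    apply div_nonneg (mul_nonneg (by linarith) (by linarith)) (by positivity)
  have h5 : (S ^ 2 - R ^ 2) * (1 / A ^ 2 - 1 / B ^ 2) - 2 * (1 / A - 1 / B) ≤
      S ^ 2 * ((B - A) * (B + A) / (A ^ 2 * B ^ 2)) := by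
    rw [h2]
    nlinarith [mul_nonneg (sq_nonneg R) h4]
  have h6 : (B - A) * (B + A) / (A ^ 2 * B ^ 2) ≤ 1024 * (B - A) / S ^ 6 := by
    rw [div_le_div_iff₀ (by positivity) (by positivity)]
    have k1 : S ^ 2 ≤ 8 * A := by linarith
    have k2 : S ^ 2 ≤ 8 * B := by linarith
    have k3 : S ^ 6 ≤ 512 * (A ^ 2 * B) := by
      have : S ^ 6 = S ^ 2 * S ^ 2 * S ^ 2 := by ring
      rw [this]
      calc S ^ 2 * S ^ 2 * S ^ 2 ≤ (8 * A) * (8 * A) * (8 * B) := by
            gcongr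
        _ = 512 * (A ^ 2 * B) := by ring
    have k4 : (B + A) * S ^ 6 ≤ 1024 * (A ^ 2 * B ^ 2) := by
      calc (B + A) * S ^ 6 ≤ (2 * B) * (512 * (A ^ 2 * B)) := by
            apply mul_le_mul (by linarith) k3 (by positivity) (by positivity)
        _ = 1024 * (A ^ 2 * B ^ 2) := by ring
    have k5 : 0 ≤ B - A := by linarith
    calc (B - A) * (B + A) * S ^ 6 = (B - A) * ((B + A) * S ^ 6) := by ring
      _ ≤ (B - A) * (1024 * (A ^ 2 * B ^ 2)) := mul_le_mul_of_nonneg_left k4 k5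
      _ = 1024 * (B - A) * (A ^ 2 * B ^ 2) := by ring
  calc R ^ 2 * ((S ^ 2 - R ^ 2) * (1 / A ^ 2 - 1 / B ^ 2) - 2 * (1 / A - 1 / B))
      ≤ R ^ 2 * (S ^ 2 * ((B - A) * (B + A) / (A ^ 2 * B ^ 2))) :=
        mul_le_mul_of_nonneg_left h5 (sq_nonneg R)
    _ ≤ R ^ 2 * (S ^ 2 * (1024 * (B - A) / S ^ 6)) := by gcongr
    _ = 1024 * R ^ 2 * (B - A) / S ^ 4 := by field_simp

/-- the product at `(u,v)` is below the product at the middle -/
theorem prod_le_mid {R u v m n : ℝ} (hR : 0 < R) (hu : 0 < u) (hum : u ≤ m) (hmn : m ≤ n)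
    (hnv : n ≤ v) (hs : u + v = m + n) :
    fR R u * fR R v ≤ fR R m * fR R n := by
  rcases le_or_gt u R with h | h
  · have : fR R u = 0 := by simp [fR, h]
    rw [this, zero_mul]
    exact mul_nonneg (fR_nonneg hR) (fR_nonneg hR)
  · have hm : R ≤ m := h.le.trans hum
    rw [fR_mul_fR hR h.le (h.le.trans (hum.trans (hmn.trans hnv))), fR_mul_fR hR hm (hm.trans hmn), hs]
    have hA0 : 0 < u * v := mul_pos hu (by linarith)
    have hAB : u * v ≤ m * n := by nlinarith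
    have hB0 : 0 < m * n := lt_of_lt_of_le hA0 hAB
    have h7 : R ^ 2 ≤ (m + n) ^ 2 - 2 * (m * n) := by nlinarith
    have h8 : R ^ 2 ≤ (m + n) ^ 2 - 2 * (u * v) := by nlinarith
    have : R ^ 2 * ((m + n) ^ 2 - 2 * (m * n) - R ^ 2) / (m * n) ^ 2 ≤
        R ^ 2 * ((m + n) ^ 2 - 2 * (u * v) - R ^ 2) / (u * v) ^ 2 := by
      apply div_le_div₀
      · apply mul_nonneg (sq_nonneg R); linarith
      · apply mul_le_mul_of_nonneg_left _ (sq_nonneg R); linarith
      · positivity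
      · gcongr
    linarith

theorem mid_sub_le {R u v m n : ℝ} (hR : 1 ≤ R) (hu : 0 < u) (hum : u ≤ m) (hmn : m ≤ n)
    (hnv : n ≤ v) (hs : u + v = m + n) (hmn1 : n ≤ m + 1) (huv : 1 ≤ v - u) (hRm : R ≤ m) :
    fR R m * fR R n - fR R u * fR R v ≤
      256 * (R ^ 2 * (v - u) ^ 2 / (u + v) ^ 4 + (v - u) ^ 8 / (u + v) ^ 8) := by
  have hR0 : 0 < R := by linarith
  set S := u + v with hS
  have hm0 : 0 < m := lt_of_lt_of_le hu hum
  have hS0 : 0 < S := by rw [hS]; linarith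
  have hSne : S ≠ 0 := hS0.ne'
  rcases lt_or_ge u (S / 4) with h4 | h4
  · -- far from the middle
    have h1 : fR R m * fR R n - fR R u * fR R v ≤ 1 := by
      have a1 := fR_nonneg (R := R) (u := u) hR0
      have a2 := fR_nonneg (R := R) (u := v) hR0
      have a3 := fR_nonneg (R := R) (u := m) hR0
      have a4 := fR_nonneg (R := R) (u := n) hR0
      have b3 := fR_le_one (R := R) (u := m)
      have b4 := fR_le_one (R := R) (u := n)
      nlinarith [mul_nonneg a1 a2]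
    have h2 : 1 ≤ 2 * (v - u) / S := by
      rw [le_div_iff₀ hS0]
      linarith
    have h3 : 1 ≤ (2 * (v - u) / S) ^ 8 := one_le_pow₀ h2
    have h5 : (2 * (v - u) / S) ^ 8 = 256 * ((v - u) ^ 8 / S ^ 8) := by
      rw [div_pow, mul_pow]; norm_num; ring
    have h6 : 0 ≤ R ^ 2 * (v - u) ^ 2 / S ^ 4 := by positivity
    linarith
  · have h0 : 0 ≤ (v - u) ^ 8 / S ^ 8 := by
      apply div_nonneg (pow_nonneg (by linarith) 8) (by positivity)
    have hv2 : S / 2 ≤ v := by rw [hS]; linarith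
    suffices h : fR R m * fR R n - fR R u * fR R v ≤ 256 * (R ^ 2 * (v - u) ^ 2 / S ^ 4) by
      linarith
    rcases le_or_gt u R with huR | huR
    · have e0 : fR R u = 0 := by simp [fR, huR]
      rw [e0, zero_mul, sub_zero]
      have hm := fR_le hR0 hRm
      have hn := fR_le hR0 (hRm.trans hmn)
      have hn0 : 0 < n := by linarith
      have c1 : fR R m ≤ (v - u) / m := by
        refine hm.trans ?_
        apply div_le_div_of_nonneg_right _ hm0.le
        linarith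
      have c2 : fR R n ≤ 2 * (v - u) / n := by
        refine hn.trans ?_
        apply div_le_div_of_nonneg_right _ hn0.le
        linarith
      have c3 : fR R m * fR R n ≤ (v - u) / m * (2 * (v - u) / n) := by
        apply mul_le_mul c1 c2 (fR_nonneg hR0)
        apply div_nonneg (by linarith) hm0.le
      have c4 : (v - u) / m * (2 * (v - u) / n) = 2 * (v - u) ^ 2 / (m * n) := by
        field_simp
      have hm1 : 1 ≤ m := hR.trans hRm
      have c5 : S ^ 2 / 8 ≤ m * n := by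
        rw [hs]
        nlinarith
      have c6 : 2 * (v - u) ^ 2 / (m * n) ≤ 2 * (v - u) ^ 2 / (S ^ 2 / 8) := by
        apply div_le_div_of_nonneg_left (by positivity) (by positivity) c5
      have c7 : 1 ≤ 16 * R ^ 2 / S ^ 2 := by
        rw [le_div_iff₀ (by positivity)]
        nlinarith
      have c8 : 2 * (v - u) ^ 2 / (S ^ 2 / 8) ≤ 2 * (v - u) ^ 2 / (S ^ 2 / 8) * (16 * R ^ 2 / S ^ 2) := by
        apply le_mul_of_one_le_right (by positivity) c7
      have c9 : 2 * (v - u) ^ 2 / (S ^ 2 / 8) * (16 * R ^ 2 / S ^ 2) =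
          256 * (R ^ 2 * (v - u) ^ 2 / S ^ 4) := by
        field_simp
        ring
      linarith [c3, c4.le, c6, c8, c9.le]
    · have hvR : R ≤ v := by linarith
      rw [fR_mul_fR hR0 hRm (hRm.trans hmn), fR_mul_fR hR0 huR.le hvR, ← hs]
      have hA : S ^ 2 / 8 ≤ u * v := by
        nlinarith
      have hAB : u * v ≤ m * n := by nlinarith
      have hRA : R ^ 2 ≤ S ^ 2 - 2 * (u * v) := by
        rw [hS]; nlinarith
      have key := diff_bound_aux hR0 hS0 hA hAB hRA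
      rw [← hS]
      refine key.trans ?_
      have hd : m * n - u * v ≤ (v - u) ^ 2 / 4 := by
        have e1 : 4 * (m * n) = (m + n) ^ 2 - (n - m) ^ 2 := by ring
        have e2 : 4 * (u * v) = (u + v) ^ 2 - (v - u) ^ 2 := by ring
        have e3 : (u + v) ^ 2 = (m + n) ^ 2 := by rw [← hs]
        nlinarith [sq_nonneg (n - m)]
      have : 1024 * R ^ 2 * (m * n - u * v) / S ^ 4 ≤ 1024 * R ^ 2 * ((v - u) ^ 2 / 4) / S ^ 4 := by
        gcongr
      refine this.trans (le_of_eq ?_)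
      ring

end Crest.Agent.R340.Prof385
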