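import Mathlib
import Crest.Prelude.Def_Laughlin
import Crest.Agent.R340.PV1_341
import Crest.Agent.R340.Prof_385

/-!
helper385: leaf PROF, l1 estimates: normalisation of `pairVec`, Cauchy–Schwarz with weights, and the
final sum over the pair momentum.
-/

set_option autoImplicit false

namespace Crest.Agent.R340.Prof385

open Finset Crest.MathPhysics.Laughlin Crest.Agent.R340.PV341

/-! ### normalisation -/

lemma choose_a (n i : ℕ) : ((n + 1).choose i : ℝ) * (((n + 1 : ℕ) : ℝ) - i) =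
    ((n : ℝ) + 1) * (n.choose i : ℝ) := by
  rcases le_or_gt i (n + 1) with h | h
  · have := Nat.choose_mul_succ_eq n i
    have h2 : ((n.choose i * (n + 1) : ℕ) : ℝ) = (((n + 1).choose i * (n + 1 - i) : ℕ) : ℝ) := by
      rw [this]
    push_cast [Nat.cast_sub h] at h2
    push_cast
    linarith
  · rw [Nat.choose_eq_zero_of_lt h, Nat.choose_eq_zero_of_lt (by omega : n < i)]
    simp

lemma choose_b (n j : ℕ) : ((n + 1).choose (j + 1) : ℝ) * ((j : ℝ) + 1) =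
    ((n : ℝ) + 1) * (n.choose j : ℝ) := by
  have := Nat.add_one_mul_choose_eq n j
  have h2 : (((n + 1) * n.choose j : ℕ) : ℝ) = (((n + 1).choose (j + 1) * (j + 1) : ℕ) : ℝ) := by
    rw [this]
  push_cast at h2
  linarith

lemma mom_two (n b : ℕ) : mom (n + 1) (b + 1) 2 = 2 * ((n : ℝ) + 1) * ((2 * n).choose b : ℝ) := by
  have h := mom_id (n + 1) (b + 1) 1
  have e1 : ∑ i ∈ range (b + 1 + 1), aa (n + 1) (b + 1) i * ((((b + 1 : ℕ) : ℝ) - i) *
        (((n + 1 : ℕ) : ℝ) - i)) * (xx (b + 1) i ^ 1 - (xx (b + 1) i - 2) ^ 1) =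
      2 * (((n : ℝ) + 1) ^ 2 * ((2 * n).choose b : ℝ)) := by
    have e2 : ∀ i ∈ range (b + 1 + 1), aa (n + 1) (b + 1) i * ((((b + 1 : ℕ) : ℝ) - i) *
        (((n + 1 : ℕ) : ℝ) - i)) * (xx (b + 1) i ^ 1 - (xx (b + 1) i - 2) ^ 1) =
        2 * (((n : ℝ) + 1) * (n.choose i : ℝ)) *
          (((n + 1).choose (b + 1 - i) : ℝ) * (((b + 1 : ℕ) : ℝ) - i)) := by
      intro i _
      rw [← choose_a n i]
      unfold aa
      ring
    rw [sum_congr rfl e2, sum_range_succ]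
    have e3 : (((b + 1 : ℕ) : ℝ) - ((b + 1 : ℕ) : ℝ)) = 0 := sub_self _
    rw [e3, mul_zero, mul_zero, add_zero]
    have e4 : ∀ i ∈ range (b + 1), 2 * (((n : ℝ) + 1) * (n.choose i : ℝ)) *
          (((n + 1).choose (b + 1 - i) : ℝ) * (((b + 1 : ℕ) : ℝ) - i)) =
          2 * ((n : ℝ) + 1) ^ 2 * ((n.choose i : ℝ) * (n.choose (b - i) : ℝ)) := by
      intro i hi
      have hi' : i ≤ b := by have := mem_range.mp hi; omega
      have h5 : b + 1 - i = (b - i) + 1 := by omega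
      have h6 : (((b + 1 : ℕ) : ℝ) - i) = ((b - i : ℕ) : ℝ) + 1 := by
        rw [Nat.cast_sub hi']; push_cast; ring
      rw [h5, h6, choose_b]
      ring
    rw [sum_congr rfl e4, ← mul_sum]
    have e5 : ∑ i ∈ range (b + 1), ((n.choose i : ℝ) * (n.choose (b - i) : ℝ)) =
        ((2 * n).choose b : ℝ) := by
      rw [two_mul, Nat.add_choose_eq, Finset.Nat.sum_antidiagonal_eq_sum_range_succ_mk]
      push_cast
      rfl
    rw [e5]
    ring
  rw [e1] at h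
  have hn : (((n + 1 : ℕ) : ℝ)) ≠ 0 := by positivity
  have : ((n + 1 : ℕ) : ℝ) * mom (n + 1) (b + 1) 2 =
      ((n + 1 : ℕ) : ℝ) * (2 * ((n : ℝ) + 1) * ((2 * n).choose b : ℝ)) := by
    rw [show (1 + 1 : ℕ) = 2 from rfl] at h
    rw [h]; push_cast; ring
  exact mul_left_cancel₀ hn this

lemma two_pairNorm (n b : ℕ) :
    2 * pairNorm (n + 1) (b + 1) = 2 * ((n : ℝ) + 1) * ((2 * n).choose b : ℝ) := by
  unfold pairNorm
  have h1 := choose_b (2 * n + 1) b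
  have h2 := choose_a (2 * n) b
  have e1 : 2 * (n + 1) = 2 * n + 1 + 1 := by ring
  have e2 : (2 * (((n + 1 : ℕ) : ℝ)) - 1) ≠ 0 := by
    push_cast
    have : (0 : ℝ) ≤ n := by positivity
    nlinarith
  rw [e1]
  have e3 : ((b + 1 : ℕ) : ℝ) * (2 * ((n + 1 : ℕ) : ℝ) - ((b + 1 : ℕ) : ℝ)) *
      ((2 * n + 1 + 1).choose (b + 1) : ℝ) =
      (2 * (((n + 1 : ℕ) : ℝ)) - 1) * (2 * ((n : ℝ) + 1) * ((2 * n).choose b : ℝ)) := by
    have e4 : (2 * ((n + 1 : ℕ) : ℝ) - ((b + 1 : ℕ) : ℝ)) = ((2 * n + 1 : ℕ) : ℝ) - b := by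
      push_cast; ring
    rw [e4]
    calc ((b + 1 : ℕ) : ℝ) * (((2 * n + 1 : ℕ) : ℝ) - b) * ((2 * n + 1 + 1).choose (b + 1) : ℝ)
        = (((2 * n + 1 + 1).choose (b + 1) : ℝ) * ((b : ℝ) + 1)) * (((2 * n + 1 : ℕ) : ℝ) - b) := by
          push_cast; ring
      _ = (((2 * n + 1 : ℕ) : ℝ) + 1) * (((2 * n + 1).choose b : ℝ) * (((2 * n + 1 : ℕ) : ℝ) - b)) := by
          rw [h1]; ring
      _ = (((2 * n + 1 : ℕ) : ℝ) + 1) * ((((2 * n : ℕ) : ℝ) + 1) * ((2 * n).choose b : ℝ)) := by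
          rw [h2]
      _ = _ := by push_cast; ring
  rw [e3]
  field_simp

lemma two_pairNorm_eq_mom (Q p : ℕ) (hQ : 1 ≤ Q) : 2 * pairNorm Q (p + 1) = mom Q (p + 1) 2 := by
  obtain ⟨n, rfl⟩ : ∃ n, Q = n + 1 := ⟨Q - 1, by omega⟩
  rw [two_pairNorm, mom_two]

/-! ### sum of the weights -/

lemma tele (r : ℝ) (hr : 0 < r) (n : ℕ) :
    ∑ k ∈ range n, 1 / (1 + ((k : ℝ) + 1) / r) ^ 2 ≤ r := by
  have key : ∀ n : ℕ, ∑ k ∈ range n, 1 / (1 + ((k : ℝ) + 1) / r) ^ 2 ≤ r - r / (1 + (n : ℝ) / r) := by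
    intro n
    induction n with
    | zero => simp
    | succ n ih =>
      rw [sum_range_succ]
      have h1 : 1 / (1 + ((n : ℝ) + 1) / r) ^ 2 ≤ r / (1 + (n : ℝ) / r) - r / (1 + ((n : ℝ) + 1) / r) := by
        have p1 : 0 < 1 + (n : ℝ) / r := by positivity
        have p2 : 0 < 1 + ((n : ℝ) + 1) / r := by positivity
        rw [div_sub_div _ _ p1.ne' p2.ne', div_le_div_iff₀ (by positivity) (by positivity)]
        have e : r * (1 + ((n : ℝ) + 1) / r) - (1 + (n : ℝ) / r) * r = 1 := by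
          field_simp; ring
        rw [e]
        have : 1 + (n : ℝ) / r ≤ 1 + ((n : ℝ) + 1) / r := by
          gcongr; linarith
        nlinarith
      push_cast
      linarith
  have h := key n
  have : 0 ≤ r / (1 + (n : ℝ) / r) := by positivity
  linarith

/-- the sum of the weights over `x = b - 2 i` -/
lemma sum_weight_le (b : ℕ) (r : ℝ) (hr : 0 < r) :
    ∑ i ∈ range (b + 1), 1 / (1 + |xx b i| / r) ^ 2 ≤ 2 * (1 + r) := by
  set φ : ℕ → ℝ := fun k => 1 / (1 + (k : ℝ) / r) ^ 2 with hφ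
  have hφ0 : ∀ k, 0 ≤ φ k := fun k => by rw [hφ]; positivity
  have h1 : ∑ k ∈ range (b + 1), φ k ≤ 1 + r := by
    rw [sum_range_succ']
    have := tele r hr b
    have e : ∀ k ∈ range b, φ (k + 1) = 1 / (1 + ((k : ℝ) + 1) / r) ^ 2 := by
      intro k _; rw [hφ]; push_cast; rfl
    rw [sum_congr rfl e]
    have e0 : φ 0 = 1 := by rw [hφ]; simp
    linarith
  have hsplit : ∑ i ∈ range (b + 1), 1 / (1 + |xx b i| / r) ^ 2 =
      ∑ i ∈ (range (b + 1)).filter (fun i => 2 * i ≤ b), 1 / (1 + |xx b i| / r) ^ 2 +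
      ∑ i ∈ (range (b + 1)).filter (fun i => ¬ 2 * i ≤ b), 1 / (1 + |xx b i| / r) ^ 2 :=
    (sum_filter_add_sum_filter_not _ _ _).symm
  rw [hsplit]
  have hA : ∑ i ∈ (range (b + 1)).filter (fun i => 2 * i ≤ b), 1 / (1 + |xx b i| / r) ^ 2 ≤
      ∑ k ∈ range (b + 1), φ k := by
    have : ∑ i ∈ (range (b + 1)).filter (fun i => 2 * i ≤ b), 1 / (1 + |xx b i| / r) ^ 2 =
        ∑ k ∈ ((range (b + 1)).filter (fun i => 2 * i ≤ b)).image (fun i => b - 2 * i), φ k := by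
      rw [sum_image]
      · apply sum_congr rfl
        intro i hi
        have h2 : 2 * i ≤ b := (mem_filter.mp hi).2
        have : xx b i = ((b - 2 * i : ℕ) : ℝ) := by
          unfold xx; rw [Nat.cast_sub h2]; push_cast; ring
        rw [this, hφ, abs_of_nonneg (by positivity)]
      · intro i hi j hj hij
        have h2 : 2 * i ≤ b := (mem_filter.mp hi).2
        have h3 : 2 * j ≤ b := (mem_filter.mp hj).2
        simp only at hij
        omega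
    rw [this]
    apply sum_le_sum_of_subset_of_nonneg
    · intro k hk
      obtain ⟨i, _, rfl⟩ := mem_image.mp hk
      simp only [mem_range]; omega
    · intro i _ _; exact hφ0 i
  have hB : ∑ i ∈ (range (b + 1)).filter (fun i => ¬ 2 * i ≤ b), 1 / (1 + |xx b i| / r) ^ 2 ≤
      ∑ k ∈ range (b + 1), φ k := by
    have : ∑ i ∈ (range (b + 1)).filter (fun i => ¬ 2 * i ≤ b), 1 / (1 + |xx b i| / r) ^ 2 =
        ∑ k ∈ ((range (b + 1)).filter (fun i => ¬ 2 * i ≤ b)).image (fun i => 2 * i - b), φ k := by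
      rw [sum_image]
      · apply sum_congr rfl
        intro i hi
        have h2 : ¬ 2 * i ≤ b := (mem_filter.mp hi).2
        have : xx b i = -((2 * i - b : ℕ) : ℝ) := by
          unfold xx; rw [Nat.cast_sub (by omega)]; push_cast; ring
        rw [this, hφ, abs_neg, abs_of_nonneg (by positivity)]
      · intro i hi j hj hij
        have h2 : ¬ 2 * i ≤ b := (mem_filter.mp hi).2
        have h3 : ¬ 2 * j ≤ b := (mem_filter.mp hj).2
        simp only at hij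
        omega
    rw [this]
    apply sum_le_sum_of_subset_of_nonneg
    · intro k hk
      obtain ⟨i, hi, rfl⟩ := mem_image.mp hk
      have := mem_range.mp (mem_filter.mp hi).1
      simp only [mem_range]; omega
    · intro i _ _; exact hφ0 i
  linarith

/-! ### pointwise bound in terms of `b` and `x` -/

lemma rho_abs_le (P1 b i : ℕ) (hi : i ≤ b) (hb : 2 * P1 + 2 ≤ b) :
    |sP P1 i * sP P1 (b - i) - sP P1 (b / 2) * sP P1 ((b + 1) / 2)| * |xx b i| ≤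
      256 * (((P1 : ℝ) + 1) ^ 2 * (xx b i) ^ 2 / (b : ℝ) ^ 4 + (xx b i) ^ 8 / (b : ℝ) ^ 8) *
        |xx b i| := by
  -- reduce to `i ≤ b - i`
  wlog hle : i ≤ b - i generalizing i with H
  · have h := H (b - i) (by omega) (by omega)
    have e : b - (b - i) = i := by omega
    have e2 : xx b (b - i) = - xx b i := by
      unfold xx; rw [Nat.cast_sub hi]; ring
    rw [e, e2, abs_neg, neg_pow_two, Even.neg_pow (by decide : Even 8)] at h
    rw [mul_comm (sP P1 i)]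
    exact h
  rcases Nat.eq_or_lt_of_le hle with h0 | h0
  · have : xx b i = 0 := by
      unfold xx
      have : b = 2 * i := by omega
      rw [this]; push_cast; ring
    rw [this]; simp
  · have hbpos : 0 < b := by omega
    apply mul_le_mul_of_nonneg_right _ (abs_nonneg _)
    set R : ℝ := (P1 : ℝ) + 1 with hR
    have hR1 : (1 : ℝ) ≤ R := by rw [hR]; linarith [(Nat.cast_nonneg P1 : (0:ℝ) ≤ P1)]
    -- real variables
    have hm1 : (((b / 2 : ℕ) : ℝ) + 1) + ((((b + 1) / 2 : ℕ) : ℝ) + 1) = (b : ℝ) + 2 := by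
      have : b / 2 + (b + 1) / 2 = b := by omega
      have h2 : (((b / 2 + (b + 1) / 2 : ℕ)) : ℝ) = (b : ℝ) := by rw [this]
      push_cast at h2
      linarith
    have hs : ((i : ℝ) + 1) + (((b - i : ℕ) : ℝ) + 1) = (((b / 2 : ℕ) : ℝ) + 1) + ((((b + 1) / 2 : ℕ) : ℝ) + 1) := by
      rw [hm1, Nat.cast_sub hi]; ring
    have hu : (0 : ℝ) < (i : ℝ) + 1 := by positivity
    have hum : (i : ℝ) + 1 ≤ ((b / 2 : ℕ) : ℝ) + 1 := by
      have : i ≤ b / 2 := by omega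
      have : (i : ℝ) ≤ ((b / 2 : ℕ) : ℝ) := by exact_mod_cast this
      linarith
    have hmn : ((b / 2 : ℕ) : ℝ) + 1 ≤ (((b + 1) / 2 : ℕ) : ℝ) + 1 := by
      have : b / 2 ≤ (b + 1) / 2 := by omega
      have : ((b / 2 : ℕ) : ℝ) ≤ (((b + 1) / 2 : ℕ) : ℝ) := by exact_mod_cast this
      linarith
    have hnv : (((b + 1) / 2 : ℕ) : ℝ) + 1 ≤ ((b - i : ℕ) : ℝ) + 1 := by
      have : (b + 1) / 2 ≤ b - i := by omega
      have : (((b + 1) / 2 : ℕ) : ℝ) ≤ ((b - i : ℕ) : ℝ) := by exact_mod_cast this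
      linarith
    have hmn1 : (((b + 1) / 2 : ℕ) : ℝ) + 1 ≤ ((b / 2 : ℕ) : ℝ) + 1 + 1 := by
      have : (b + 1) / 2 ≤ b / 2 + 1 := by omega
      have : (((b + 1) / 2 : ℕ) : ℝ) ≤ ((b / 2 + 1 : ℕ) : ℝ) := by exact_mod_cast this
      push_cast at this
      linarith
    have hx : (((b - i : ℕ) : ℝ) + 1) - ((i : ℝ) + 1) = xx b i := by
      unfold xx; rw [Nat.cast_sub hi]; ring
    have huv : 1 ≤ (((b - i : ℕ) : ℝ) + 1) - ((i : ℝ) + 1) := by
      have : i + 1 ≤ b - i := h0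
      have : ((i + 1 : ℕ) : ℝ) ≤ ((b - i : ℕ) : ℝ) := by exact_mod_cast this
      push_cast at this
      linarith
    have hRm : R ≤ ((b / 2 : ℕ) : ℝ) + 1 := by
      have : P1 ≤ b / 2 := by omega
      have : (P1 : ℝ) ≤ ((b / 2 : ℕ) : ℝ) := by exact_mod_cast this
      rw [hR]; linarith
    have hge := prod_le_mid (R := R) (by linarith) hu hum hmn hnv hs
    have hle2 := mid_sub_le hR1 hu hum hmn hnv hs hmn1 huv hRm
    rw [hx] at hle2
    have hS : ((i : ℝ) + 1) + (((b - i : ℕ) : ℝ) + 1) = (b : ℝ) + 2 := by rw [hs, hm1]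
    rw [hS] at hle2
    rw [sP_eq_fR, sP_eq_fR, sP_eq_fR, sP_eq_fR, ← hR]
    rw [abs_sub_comm, abs_of_nonneg (by linarith)]
    refine hle2.trans ?_
    have hb0 : (0 : ℝ) < b := by exact_mod_cast hbpos
    have hx0 : 0 ≤ xx b i := by rw [← hx]; linarith
    gcongr <;> linarith


/-! ### Cauchy–Schwarz with weights -/

/-- l1 sum over the ring `i + j = b` -/
noncomputable def TT (P1 Q b : ℕ) : ℝ :=
  ∑ i ∈ range (b + 1), |sP P1 i * sP P1 (b - i) - sP P1 (b / 2) * sP P1 ((b + 1) / 2)| *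
    (|xx b i| * Real.sqrt (aa Q b i))

lemma TT_nonneg (P1 Q b : ℕ) : 0 ≤ TT P1 Q b :=
  sum_nonneg fun _ _ => mul_nonneg (abs_nonneg _) (mul_nonneg (abs_nonneg _) (Real.sqrt_nonneg _))

theorem TT_sq_le : ∃ C : ℝ, 0 ≤ C ∧ ∀ P1 Q b : ℕ, 2 * P1 + 2 ≤ b →
    TT P1 Q b ^ 2 ≤ C * Real.sqrt b * ((P1 : ℝ) + 1) ^ 4 / (b : ℝ) ^ 6 * mom Q b 2 := by
  obtain ⟨C2, hC2, h2⟩ := PV1 2
  obtain ⟨C3, hC3, h3⟩ := PV1 3
  obtain ⟨C8, hC8, h8⟩ := PV1 8
  obtain ⟨C9, hC9, h9⟩ := PV1 9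
  refine ⟨4 * (2 * 2 * 256 ^ 2 * (C2 + C3 + C8 + C9)), by positivity, fun P1 Q b hb => ?_⟩
  set R : ℝ := (P1 : ℝ) + 1 with hR
  have hR1 : (1 : ℝ) ≤ R := by rw [hR]; linarith [(Nat.cast_nonneg P1 : (0:ℝ) ≤ P1)]
  have hb1 : (1 : ℝ) ≤ b := by exact_mod_cast (by omega : 1 ≤ b)
  have hb0 : (0 : ℝ) < b := by linarith
  set r : ℝ := Real.sqrt b with hr
  have hr1 : 1 ≤ r := by rw [hr]; exact Real.one_le_sqrt.mpr hb1
  have hr0 : 0 < r := by linarith
  have hrsq : r ^ 2 = b := by rw [hr]; exact Real.sq_sqrt hb0.le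
  -- Cauchy–Schwarz
  have hCS := sum_mul_sq_le_sq_mul_sq (range (b + 1)) (fun i => 1 / (1 + |xx b i| / r))
    (fun i => (1 + |xx b i| / r) *
      (|sP P1 i * sP P1 (b - i) - sP P1 (b / 2) * sP P1 ((b + 1) / 2)| *
        (|xx b i| * Real.sqrt (aa Q b i))))
  have e1 : ∑ i ∈ range (b + 1), 1 / (1 + |xx b i| / r) * ((1 + |xx b i| / r) *
      (|sP P1 i * sP P1 (b - i) - sP P1 (b / 2) * sP P1 ((b + 1) / 2)| *
        (|xx b i| * Real.sqrt (aa Q b i)))) = TT P1 Q b := by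
    unfold TT
    apply sum_congr rfl
    intro i _
    have : (1 + |xx b i| / r) ≠ 0 := by positivity
    field_simp
  rw [e1] at hCS
  have hW : ∑ i ∈ range (b + 1), (1 / (1 + |xx b i| / r)) ^ 2 ≤ 4 * r := by
    have := sum_weight_le b r hr0
    have e : ∀ i ∈ range (b + 1), (1 / (1 + |xx b i| / r)) ^ 2 = 1 / (1 + |xx b i| / r) ^ 2 := by
      intro i _; rw [div_pow, one_pow]
    rw [sum_congr rfl e]
    linarith
  -- the second factor
  have hterm : ∀ i ∈ range (b + 1), ((1 + |xx b i| / r) *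
      (|sP P1 i * sP P1 (b - i) - sP P1 (b / 2) * sP P1 ((b + 1) / 2)| *
        (|xx b i| * Real.sqrt (aa Q b i)))) ^ 2 ≤
      2 * 2 * 256 ^ 2 * (R ^ 4 / (b : ℝ) ^ 8 * (aa Q b i * xx b i ^ 6) +
        R ^ 4 / (b : ℝ) ^ 9 * (aa Q b i * xx b i ^ 8) +
        1 / (b : ℝ) ^ 16 * (aa Q b i * xx b i ^ 18) + 1 / (b : ℝ) ^ 17 * (aa Q b i * xx b i ^ 20)) := by
    intro i hi
    have hi' : i ≤ b := by have := mem_range.mp hi; omega
    have hrho := rho_abs_le P1 b i hi' hb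
    rw [← hR] at hrho
    set ρ := |sP P1 i * sP P1 (b - i) - sP P1 (b / 2) * sP P1 ((b + 1) / 2)| with hρ
    set x := xx b i with hx
    set a := aa Q b i with ha
    have ha0 : 0 ≤ a := aa_nonneg _ _ _
    have hsq : ((1 + |x| / r) * (ρ * (|x| * Real.sqrt a))) ^ 2 =
        (1 + |x| / r) ^ 2 * (ρ * |x|) ^ 2 * a := by
      have : Real.sqrt a ^ 2 = a := Real.sq_sqrt ha0
      calc ((1 + |x| / r) * (ρ * (|x| * Real.sqrt a))) ^ 2 =
          (1 + |x| / r) ^ 2 * (ρ * |x|) ^ 2 * (Real.sqrt a ^ 2) := by ring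
        _ = _ := by rw [this]
    rw [hsq]
    have h5 : (1 + |x| / r) ^ 2 ≤ 2 * (1 + x ^ 2 / b) := by
      have : (|x| / r) ^ 2 = x ^ 2 / b := by rw [div_pow, sq_abs, hrsq]
      nlinarith [sq_nonneg (1 - |x| / r)]
    have h6 : (ρ * |x|) ^ 2 ≤ 2 * 256 ^ 2 * (R ^ 4 * x ^ 6 / (b : ℝ) ^ 8 + x ^ 18 / (b : ℝ) ^ 16) := by
      have h7 : (ρ * |x|) ^ 2 ≤
          (256 * (R ^ 2 * x ^ 2 / (b : ℝ) ^ 4 + x ^ 8 / (b : ℝ) ^ 8) * |x|) ^ 2 := by
        apply pow_le_pow_left₀ _ hrho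
        positivity
      refine h7.trans ?_
      have h8 : (256 * (R ^ 2 * x ^ 2 / (b : ℝ) ^ 4 + x ^ 8 / (b : ℝ) ^ 8) * |x|) ^ 2 =
          256 ^ 2 * (R ^ 2 * x ^ 2 / (b : ℝ) ^ 4 + x ^ 8 / (b : ℝ) ^ 8) ^ 2 * x ^ 2 := by
        rw [mul_pow, mul_pow, sq_abs]
      rw [h8]
      have h9 : (R ^ 2 * x ^ 2 / (b : ℝ) ^ 4 + x ^ 8 / (b : ℝ) ^ 8) ^ 2 ≤
          2 * ((R ^ 2 * x ^ 2 / (b : ℝ) ^ 4) ^ 2 + (x ^ 8 / (b : ℝ) ^ 8) ^ 2) := by
        nlinarith [sq_nonneg (R ^ 2 * x ^ 2 / (b : ℝ) ^ 4 - x ^ 8 / (b : ℝ) ^ 8)]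
      have h10 : (R ^ 2 * x ^ 2 / (b : ℝ) ^ 4) ^ 2 * x ^ 2 = R ^ 4 * x ^ 6 / (b : ℝ) ^ 8 := by
        field_simp
      have h11 : (x ^ 8 / (b : ℝ) ^ 8) ^ 2 * x ^ 2 = x ^ 18 / (b : ℝ) ^ 16 := by
        field_simp
      calc 256 ^ 2 * (R ^ 2 * x ^ 2 / (b : ℝ) ^ 4 + x ^ 8 / (b : ℝ) ^ 8) ^ 2 * x ^ 2
          ≤ 256 ^ 2 * (2 * ((R ^ 2 * x ^ 2 / (b : ℝ) ^ 4) ^ 2 + (x ^ 8 / (b : ℝ) ^ 8) ^ 2)) * x ^ 2 := by
            gcongr
        _ = 2 * 256 ^ 2 * ((R ^ 2 * x ^ 2 / (b : ℝ) ^ 4) ^ 2 * x ^ 2 +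
            (x ^ 8 / (b : ℝ) ^ 8) ^ 2 * x ^ 2) := by ring
        _ = _ := by rw [h10, h11]
    have hx6 : 0 ≤ x ^ 6 := Even.pow_nonneg (by decide) x
    have hx18 : 0 ≤ x ^ 18 := Even.pow_nonneg (by decide) x
    calc (1 + |x| / r) ^ 2 * (ρ * |x|) ^ 2 * a
        ≤ (2 * (1 + x ^ 2 / b)) * (2 * 256 ^ 2 * (R ^ 4 * x ^ 6 / (b : ℝ) ^ 8 + x ^ 18 / (b : ℝ) ^ 16)) * a := by
          gcongr
      _ = _ := by
          field_simp
          ring
  have hsum := sum_le_sum hterm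
  have e2 : ∑ i ∈ range (b + 1), 2 * 2 * 256 ^ 2 * (R ^ 4 / (b : ℝ) ^ 8 * (aa Q b i * xx b i ^ 6) +
        R ^ 4 / (b : ℝ) ^ 9 * (aa Q b i * xx b i ^ 8) +
        1 / (b : ℝ) ^ 16 * (aa Q b i * xx b i ^ 18) + 1 / (b : ℝ) ^ 17 * (aa Q b i * xx b i ^ 20)) =
      2 * 2 * 256 ^ 2 * (R ^ 4 / (b : ℝ) ^ 8 * mom Q b 6 + R ^ 4 / (b : ℝ) ^ 9 * mom Q b 8 +
        1 / (b : ℝ) ^ 16 * mom Q b 18 + 1 / (b : ℝ) ^ 17 * mom Q b 20) := by
    rw [← mul_sum, sum_add_distrib, sum_add_distrib, sum_add_distrib]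
    unfold mom
    simp only [mul_sum]
  rw [e2] at hsum
  have hdd : (dd Q b : ℝ) ≤ b := by
    have : dd Q b ≤ b := min_le_left _ _
    exact_mod_cast this
  have hdd0 : (0 : ℝ) ≤ dd Q b := by positivity
  have hM0 : 0 ≤ mom Q b 2 := by
    have := mom_even_nonneg Q b 1
    simpa using this
  have m6 : mom Q b 6 ≤ C2 * (b : ℝ) ^ 2 * mom Q b 2 := (h2 Q b).trans (by gcongr)
  have m8 : mom Q b 8 ≤ C3 * (b : ℝ) ^ 3 * mom Q b 2 := (h3 Q b).trans (by gcongr)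
  have m18 : mom Q b 18 ≤ C8 * (b : ℝ) ^ 8 * mom Q b 2 := (h8 Q b).trans (by gcongr)
  have m20 : mom Q b 20 ≤ C9 * (b : ℝ) ^ 9 * mom Q b 2 := (h9 Q b).trans (by gcongr)
  have hR4 : 1 ≤ R ^ 4 := one_le_pow₀ hR1
  have f1 : R ^ 4 / (b : ℝ) ^ 8 * mom Q b 6 ≤ C2 * (R ^ 4 / (b : ℝ) ^ 6 * mom Q b 2) := by
    calc R ^ 4 / (b : ℝ) ^ 8 * mom Q b 6 ≤ R ^ 4 / (b : ℝ) ^ 8 * (C2 * (b : ℝ) ^ 2 * mom Q b 2) := by
          gcongr
      _ = _ := by field_simp
  have f2 : R ^ 4 / (b : ℝ) ^ 9 * mom Q b 8 ≤ C3 * (R ^ 4 / (b : ℝ) ^ 6 * mom Q b 2) := by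
    calc R ^ 4 / (b : ℝ) ^ 9 * mom Q b 8 ≤ R ^ 4 / (b : ℝ) ^ 9 * (C3 * (b : ℝ) ^ 3 * mom Q b 2) := by
          gcongr
      _ = _ := by field_simp
  have hb86 : 1 / (b : ℝ) ^ 8 ≤ R ^ 4 / (b : ℝ) ^ 6 := by
    rw [div_le_div_iff₀ (by positivity) (by positivity)]
    have h68 : (b : ℝ) ^ 6 ≤ (b : ℝ) ^ 8 := pow_le_pow_right₀ hb1 (by norm_num)
    calc 1 * (b : ℝ) ^ 6 ≤ 1 * (b : ℝ) ^ 8 := by rw [one_mul, one_mul]; exact h68
      _ ≤ R ^ 4 * (b : ℝ) ^ 8 := mul_le_mul_of_nonneg_right hR4 (by positivity)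
  have f3 : 1 / (b : ℝ) ^ 16 * mom Q b 18 ≤ C8 * (R ^ 4 / (b : ℝ) ^ 6 * mom Q b 2) := by
    calc 1 / (b : ℝ) ^ 16 * mom Q b 18 ≤ 1 / (b : ℝ) ^ 16 * (C8 * (b : ℝ) ^ 8 * mom Q b 2) := by
          gcongr
      _ = C8 * (1 / (b : ℝ) ^ 8 * mom Q b 2) := by field_simp
      _ ≤ _ := by gcongr
  have f4 : 1 / (b : ℝ) ^ 17 * mom Q b 20 ≤ C9 * (R ^ 4 / (b : ℝ) ^ 6 * mom Q b 2) := by
    calc 1 / (b : ℝ) ^ 17 * mom Q b 20 ≤ 1 / (b : ℝ) ^ 17 * (C9 * (b : ℝ) ^ 9 * mom Q b 2) := by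
          gcongr
      _ = C9 * (1 / (b : ℝ) ^ 8 * mom Q b 2) := by field_simp
      _ ≤ _ := by gcongr
  have hsecond : ∑ i ∈ range (b + 1), ((1 + |xx b i| / r) *
      (|sP P1 i * sP P1 (b - i) - sP P1 (b / 2) * sP P1 ((b + 1) / 2)| *
        (|xx b i| * Real.sqrt (aa Q b i)))) ^ 2 ≤
      2 * 2 * 256 ^ 2 * (C2 + C3 + C8 + C9) * (R ^ 4 / (b : ℝ) ^ 6 * mom Q b 2) := by
    refine hsum.trans ?_
    calc 2 * 2 * 256 ^ 2 * (R ^ 4 / (b : ℝ) ^ 8 * mom Q b 6 + R ^ 4 / (b : ℝ) ^ 9 * mom Q b 8 +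
        1 / (b : ℝ) ^ 16 * mom Q b 18 + 1 / (b : ℝ) ^ 17 * mom Q b 20)
        ≤ 2 * 2 * 256 ^ 2 * (C2 * (R ^ 4 / (b : ℝ) ^ 6 * mom Q b 2) +
          C3 * (R ^ 4 / (b : ℝ) ^ 6 * mom Q b 2) + C8 * (R ^ 4 / (b : ℝ) ^ 6 * mom Q b 2) +
          C9 * (R ^ 4 / (b : ℝ) ^ 6 * mom Q b 2)) := by
          apply mul_le_mul_of_nonneg_left _ (by norm_num)
          exact add_le_add (add_le_add (add_le_add f1 f2) f3) f4
      _ = _ := by ring
  refine hCS.trans ?_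
  calc (∑ i ∈ range (b + 1), (1 / (1 + |xx b i| / r)) ^ 2) *
      (∑ i ∈ range (b + 1), ((1 + |xx b i| / r) *
      (|sP P1 i * sP P1 (b - i) - sP P1 (b / 2) * sP P1 ((b + 1) / 2)| *
        (|xx b i| * Real.sqrt (aa Q b i)))) ^ 2)
      ≤ (4 * r) * (2 * 2 * 256 ^ 2 * (C2 + C3 + C8 + C9) * (R ^ 4 / (b : ℝ) ^ 6 * mom Q b 2)) := by
        apply mul_le_mul hW hsecond _ (by positivity)
        exact sum_nonneg fun _ _ => sq_nonneg _
    _ = _ := by ring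

/-! ### from `Fin` sums to the ring -/

lemma fin_sum_le (P1 Q : ℕ) (hQ : 1 ≤ Q) (p : Fin (2 * Q - 1)) :
    ∑ i : Fin (Q + 1), ∑ j : Fin (Q + 1), |sP P1 i * sP P1 j - sg P1 p| * |pairVec Q p i j| ≤
      TT P1 Q (p + 1) / Real.sqrt (mom Q (p + 1) 2) := by
  set b : ℕ := (p : ℕ) + 1 with hb
  set H : ℕ → ℝ := fun i => |sP P1 i * sP P1 (b - i) - sP P1 (b / 2) * sP P1 ((b + 1) / 2)| *
    (|xx b i| * Real.sqrt (aa Q b i)) / Real.sqrt (mom Q b 2) with hH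
  have hH0 : ∀ i, 0 ≤ H i := fun i => by rw [hH]; positivity
  have hpn : 2 * pairNorm Q b = mom Q b 2 := two_pairNorm_eq_mom Q p hQ
  have inner : ∀ i : Fin (Q + 1), ∑ j : Fin (Q + 1),
      |sP P1 i * sP P1 j - sg P1 p| * |pairVec Q p i j| =
      if (i : ℕ) ≤ b ∧ b - (i : ℕ) ≤ Q then H i else 0 := by
    intro i
    by_cases hi : (i : ℕ) ≤ b ∧ b - (i : ℕ) ≤ Q
    · rw [if_pos hi]
      have hlt : b - (i : ℕ) < Q + 1 := by omega
      rw [Finset.sum_eq_single (⟨b - (i : ℕ), hlt⟩ : Fin (Q + 1))]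
      · have hsum : (i : ℕ) + ((⟨b - (i : ℕ), hlt⟩ : Fin (Q + 1)) : ℕ) = (p : ℕ) + 1 := by
          simp only; omega
        have hval : pairVec Q p i ⟨b - (i : ℕ), hlt⟩ =
            xx b i * Real.sqrt (aa Q b i) / Real.sqrt (mom Q b 2) := by
          unfold pairVec
          rw [if_pos hsum, ← hpn]
          congr 2
          simp only
          unfold xx
          rw [Nat.cast_sub hi.1]
          ring
        rw [hval, hH]
        simp only
        rw [abs_div, abs_mul, abs_of_nonneg (Real.sqrt_nonneg (aa Q b i)),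
          abs_of_nonneg (Real.sqrt_nonneg (mom Q b 2))]
        unfold sg
        rw [show ((p : ℕ) + 2) / 2 = (b + 1) / 2 by rw [hb], ← hb]
        ring
      · intro j _ hj
        have : (i : ℕ) + (j : ℕ) ≠ (p : ℕ) + 1 := by
          intro h
          apply hj
          ext
          simp only
          omega
        unfold pairVec
        rw [if_neg this]
        simp
      · intro h; exact absurd (mem_univ _) h
    · rw [if_neg hi]
      apply sum_eq_zero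
      intro j _
      have : (i : ℕ) + (j : ℕ) ≠ (p : ℕ) + 1 := by
        intro h
        apply hi
        have := j.2
        constructor <;> omega
      unfold pairVec
      rw [if_neg this]
      simp
  rw [sum_congr rfl fun i _ => inner i]
  rw [Fin.sum_univ_eq_sum_range (fun i : ℕ => if i ≤ b ∧ b - i ≤ Q then H i else 0) (Q + 1)]
  rw [← sum_filter]
  have : ∑ a ∈ (range (Q + 1)).filter (fun a => a ≤ b ∧ b - a ≤ Q), H a ≤
      ∑ a ∈ range (b + 1), H a := by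
    apply sum_le_sum_of_subset_of_nonneg
    · intro a ha
      have := (mem_filter.mp ha).2.1
      simp only [mem_range]; omega
    · intro a _ _; exact hH0 a
  refine this.trans (le_of_eq ?_)
  rw [hH]
  unfold TT
  rw [sum_div]

lemma l1_zero (P1 Q : ℕ) (p : Fin (2 * Q - 1)) (hp : (p : ℕ) + 1 ≤ 2 * P1 + 1) :
    ∑ i : Fin (Q + 1), ∑ j : Fin (Q + 1), |sP P1 i * sP P1 j - sg P1 p| * |pairVec Q p i j| = 0 := by
  apply sum_eq_zero
  intro i _
  apply sum_eq_zero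
  intro j _
  by_cases h : (i : ℕ) + (j : ℕ) = (p : ℕ) + 1
  · have h1 : sP P1 i * sP P1 j = 0 := sP_mul_eq_zero (by omega)
    have h2 : sg P1 p = 0 := sP_mul_eq_zero (by omega)
    rw [h1, h2]; simp
  · unfold pairVec
    rw [if_neg h]; simp

lemma one_sub_sg_sq_ge (P1 p : ℕ) (hp : 2 * P1 + 2 ≤ p + 1) :
    (((P1 : ℝ) + 1) / ((p : ℝ) + 1)) ^ 2 ≤ 1 - sg P1 p ^ 2 := by
  have h0 := sg_nonneg P1 p
  have h1 := (sg_lt_one P1 p).le
  have h2 : 1 - sg P1 p ≤ 1 - sg P1 p ^ 2 := by nlinarith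
  refine le_trans ?_ h2
  have h3 : sg P1 p ≤ sP P1 ((p + 1) / 2) := by
    unfold sg
    have := sP_nonneg P1 ((p + 1) / 2)
    have := sP_le_one P1 ((p + 2) / 2)
    nlinarith
  have h4 : P1 < (p + 1) / 2 := by omega
  rw [sP_of_lt h4] at h3
  have h5 : (((P1 : ℝ) + 1) / ((p : ℝ) + 1)) ^ 2 ≤
      (((P1 : ℝ) + 1) / ((((p + 1) / 2 : ℕ) : ℝ) + 1)) ^ 2 := by
    have : (((p + 1) / 2 : ℕ) : ℝ) + 1 ≤ (p : ℝ) + 1 := by
      have : (p + 1) / 2 ≤ p := by omega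
      have : (((p + 1) / 2 : ℕ) : ℝ) ≤ (p : ℝ) := by exact_mod_cast this
      linarith
    gcongr
  linarith

lemma tail_sum (m n : ℕ) (hm : 1 ≤ m) :
    ∑ p ∈ range n, (if m < p + 1 then 1 / (((p : ℝ) + 1) ^ 2) else 0) ≤ 1 / (m : ℝ) := by
  have hm0 : (0 : ℝ) < m := by exact_mod_cast hm
  have key : ∀ k : ℕ, ∑ p ∈ range (m + k), (if m < p + 1 then 1 / (((p : ℝ) + 1) ^ 2) else 0) ≤
      1 / (m : ℝ) - 1 / ((m : ℝ) + k) := by
    intro k
    induction k with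
    | zero =>
      rw [Nat.add_zero]
      have : ∑ p ∈ range m, (if m < p + 1 then 1 / (((p : ℝ) + 1) ^ 2) else 0) = 0 := by
        apply sum_eq_zero
        intro p hp
        rw [if_neg (by have := mem_range.mp hp; omega)]
      rw [this]; simp
    | succ k ih =>
      rw [← Nat.add_assoc, sum_range_succ, if_pos (by omega)]
      have h1 : 1 / ((((m + k : ℕ) : ℝ) + 1) ^ 2) ≤ 1 / ((m : ℝ) + k) - 1 / ((m : ℝ) + k + 1) := by
        have p1 : (0 : ℝ) < (m : ℝ) + k := by positivity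
        push_cast
        rw [div_sub_div _ _ p1.ne' (by positivity), div_le_div_iff₀ (by positivity) (by positivity)]
        nlinarith
      push_cast at h1 ⊢
      have e : (m : ℝ) + (k + 1) = (m : ℝ) + k + 1 := by ring
      rw [e]
      linarith
  have h2 : ∑ p ∈ range n, (if m < p + 1 then 1 / (((p : ℝ) + 1) ^ 2) else 0) ≤
      ∑ p ∈ range (m + n), (if m < p + 1 then 1 / (((p : ℝ) + 1) ^ 2) else 0) := by
    apply sum_le_sum_of_subset_of_nonneg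
    · intro x hx
      simp only [mem_range] at *
      omega
    · intro i _ _
      split_ifs <;> positivity
  have h3 := key n
  have h4 : 0 ≤ 1 / ((m : ℝ) + n) := by positivity
  linarith

/-- **PROF, real part.** -/
theorem prof_l1 : ∃ C : ℝ, 0 ≤ C ∧ ∀ P1 Q : ℕ, 1 ≤ Q →
    ∑ p : Fin (2 * Q - 1), (∑ i : Fin (Q + 1), ∑ j : Fin (Q + 1),
      |sP P1 i * sP P1 j - sg P1 p| * |pairVec Q p i j|) ^ 2 / (1 - sg P1 p ^ 2) ≤
      C / Real.sqrt ((P1 : ℝ) + 1) := by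
  obtain ⟨C, hC, hT⟩ := TT_sq_le
  refine ⟨C, hC, fun P1 Q hQ => ?_⟩
  set R : ℝ := (P1 : ℝ) + 1 with hR
  have hR1 : (1 : ℝ) ≤ R := by rw [hR]; linarith [(Nat.cast_nonneg P1 : (0:ℝ) ≤ P1)]
  have hR0 : 0 < R := by linarith
  have hsR : 0 < Real.sqrt R := Real.sqrt_pos.mpr hR0
  have hterm : ∀ p : Fin (2 * Q - 1), (∑ i : Fin (Q + 1), ∑ j : Fin (Q + 1),
      |sP P1 i * sP P1 j - sg P1 p| * |pairVec Q p i j|) ^ 2 / (1 - sg P1 p ^ 2) ≤
      C * (R / Real.sqrt R) *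
        (if 2 * P1 + 1 < (p : ℕ) + 1 then 1 / ((((p : ℕ) : ℝ) + 1) ^ 2) else 0) := by
    intro p
    by_cases hp : 2 * P1 + 1 < (p : ℕ) + 1
    · rw [if_pos hp]
      have hb : 2 * P1 + 2 ≤ (p : ℕ) + 1 := by omega
      set b : ℝ := ((p : ℕ) : ℝ) + 1 with hbdef
      have hbR : 2 * R ≤ b := by
        have : ((2 * P1 + 2 : ℕ) : ℝ) ≤ (((p : ℕ) + 1 : ℕ) : ℝ) := by exact_mod_cast hb
        push_cast at this
        rw [hR, hbdef]; linarith
      have hb0 : 0 < b := by linarith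
      have hcast : (((p : ℕ) + 1 : ℕ) : ℝ) = b := by push_cast; rfl
      have h1 := fin_sum_le P1 Q hQ p
      have h2 := hT P1 Q ((p : ℕ) + 1) hb
      rw [← hR, hcast] at h2
      have hM : 0 < mom Q ((p : ℕ) + 1) 2 := by
        rw [← two_pairNorm_eq_mom Q p hQ]
        have h3 : 0 < pairNorm Q ((p : ℕ) + 1) := by
          unfold pairNorm
          have hp2 := p.2
          have hQ1 : (1 : ℝ) ≤ Q := by exact_mod_cast hQ
          have hlt : (((p : ℕ) + 1 : ℕ) : ℝ) < 2 * (Q : ℝ) := by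
            have : (p : ℕ) + 1 < 2 * Q := by omega
            exact_mod_cast this
          have hch : 0 < ((2 * Q).choose ((p : ℕ) + 1) : ℝ) := by
            exact_mod_cast Nat.choose_pos (by omega)
          have hp1 : (0 : ℝ) < (((p : ℕ) + 1 : ℕ) : ℝ) := by positivity
          apply div_pos
          · apply mul_pos (mul_pos hp1 (by linarith)) hch
          · linarith
        linarith
      have h4 : (∑ i : Fin (Q + 1), ∑ j : Fin (Q + 1),
          |sP P1 i * sP P1 j - sg P1 p| * |pairVec Q p i j|) ^ 2 ≤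
          C * Real.sqrt b * R ^ 4 / b ^ 6 := by
        calc (∑ i : Fin (Q + 1), ∑ j : Fin (Q + 1),
          |sP P1 i * sP P1 j - sg P1 p| * |pairVec Q p i j|) ^ 2
            ≤ (TT P1 Q (p + 1) / Real.sqrt (mom Q (p + 1) 2)) ^ 2 := by
              apply pow_le_pow_left₀ _ h1
              exact sum_nonneg fun _ _ => sum_nonneg fun _ _ => mul_nonneg (abs_nonneg _) (abs_nonneg _)
          _ = TT P1 Q (p + 1) ^ 2 / mom Q (p + 1) 2 := by
              rw [div_pow, Real.sq_sqrt hM.le]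
          _ ≤ _ := by
              rw [div_le_iff₀ hM]; exact h2
      have h5 := one_sub_sg_sq_ge P1 p hb
      rw [← hR, ← hbdef] at h5
      have h6 : 0 < (R / b) ^ 2 := by positivity
      have hsb : 0 < Real.sqrt b := Real.sqrt_pos.mpr hb0
      calc (∑ i : Fin (Q + 1), ∑ j : Fin (Q + 1),
          |sP P1 i * sP P1 j - sg P1 p| * |pairVec Q p i j|) ^ 2 / (1 - sg P1 p ^ 2)
          ≤ (C * Real.sqrt b * R ^ 4 / b ^ 6) / (R / b) ^ 2 := by
            apply div_le_div₀ (by positivity) h4 h6 h5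
        _ = C * Real.sqrt b * R ^ 2 / b ^ 4 := by field_simp
        _ ≤ C * (R / Real.sqrt R) * (1 / b ^ 2) := by
            have h7 : Real.sqrt b * R ^ 2 / b ^ 4 ≤ (R / Real.sqrt R) * (1 / b ^ 2) := by
              rw [div_mul_div_comm, div_le_div_iff₀ (by positivity) (by positivity)]
              -- √b R² √R b² ≤ R b⁴
              have h8 : Real.sqrt b * Real.sqrt R ≤ b := by
                have : Real.sqrt b * Real.sqrt R ≤ Real.sqrt b * Real.sqrt b := by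
                  gcongr; linarith
                rwa [Real.mul_self_sqrt hb0.le] at this
              have h9 : R ≤ b := by linarith
              calc Real.sqrt b * R ^ 2 * (Real.sqrt R * b ^ 2)
                  = (Real.sqrt b * Real.sqrt R) * R * (R * b ^ 2) := by ring
                _ ≤ b * b * (R * b ^ 2) := by gcongr
                _ = R * 1 * b ^ 4 := by ring
            calc C * Real.sqrt b * R ^ 2 / b ^ 4 = C * (Real.sqrt b * R ^ 2 / b ^ 4) := by ring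
              _ ≤ C * ((R / Real.sqrt R) * (1 / b ^ 2)) := by gcongr
              _ = _ := by ring
    · rw [if_neg hp, l1_zero P1 Q p (by omega)]
      simp
  refine (sum_le_sum fun p _ => hterm p).trans ?_
  rw [← mul_sum, Fin.sum_univ_eq_sum_range
    (fun p : ℕ => if 2 * P1 + 1 < p + 1 then 1 / (((p : ℝ) + 1) ^ 2) else 0) (2 * Q - 1)]
  have h1 := tail_sum (2 * P1 + 1) (2 * Q - 1) (by omega)
  have h2 : 1 / ((2 * P1 + 1 : ℕ) : ℝ) ≤ 1 / R := by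
    apply one_div_le_one_div_of_le hR0
    rw [hR]; push_cast
    linarith [(Nat.cast_nonneg P1 : (0:ℝ) ≤ P1)]
  calc C * (R / Real.sqrt R) * ∑ p ∈ range (2 * Q - 1),
        (if 2 * P1 + 1 < p + 1 then 1 / (((p : ℝ) + 1) ^ 2) else 0)
      ≤ C * (R / Real.sqrt R) * (1 / R) := by
        gcongr
        exact h1.trans h2
    _ = C / Real.sqrt R := by field_simp

end Crest.Agent.R340.Prof385
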