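import Crest.Agent.R340.Fock_649
import Crest.Agent.R340.Loss_674

/-!
O8 (doc 1215), Fock half: loss profile on the pair annihilators.
`Bt_p = pa (s_i s_j w_p)`, `∑ star Bt_p * Bt_p ≤ ∑_{p far} star B_p * B_p + η`,
and `Ph s (star B_p * B_p) = star Bt_p * Bt_p` for 674's loss channel.
-/

set_option autoImplicit false
set_option linter.unusedSectionVars false

namespace Crest.Agent.R340.Prof482

open Finset Crest.Agent.R340.Fock649

variable {ι : Type*} [Fintype ι] [LinearOrder ι]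

/-- `ℓ¹` bound of a pair annihilator. -/
theorem norm_pa_le (r : Matrix ι ι ℂ) : ‖pa r‖ ≤ (Real.sqrt 2)⁻¹ * ∑ i, ∑ j, ‖r i j‖ := by
  unfold pa
  rw [norm_smul, norm_inv, Complex.norm_real, Real.norm_of_nonneg (Real.sqrt_nonneg 2)]
  apply mul_le_mul_of_nonneg_left _ (by positivity)
  refine (norm_sum_le _ _).trans (Finset.sum_le_sum fun i _ => ?_)
  refine (norm_sum_le _ _).trans (Finset.sum_le_sum fun j _ => ?_)
  rw [norm_smul, RCLike.norm_conj]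
  have : ‖(c j * c i : Op ι)‖ ≤ 1 := by
    refine (norm_mul_le _ _).trans ?_
    rw [norm_c, norm_c, mul_one]
  calc ‖r i j‖ * ‖(c j * c i : Op ι)‖ ≤ ‖r i j‖ * 1 :=
        mul_le_mul_of_nonneg_left this (norm_nonneg _)
    _ = _ := mul_one _

theorem norm_pa_sq_le (r : Matrix ι ι ℂ) : ‖pa r‖ ^ 2 ≤ (∑ i, ∑ j, ‖r i j‖) ^ 2 / 2 := by
  have h := norm_pa_le r
  have h2 : ‖pa r‖ ^ 2 ≤ ((Real.sqrt 2)⁻¹ * ∑ i, ∑ j, ‖r i j‖) ^ 2 :=
    pow_le_pow_left₀ (norm_nonneg _) h 2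
  have h3 : ((Real.sqrt 2)⁻¹ * ∑ i, ∑ j, ‖r i j‖) ^ 2 = (∑ i, ∑ j, ‖r i j‖) ^ 2 / 2 := by
    rw [mul_pow, inv_pow, Real.sq_sqrt (by norm_num)]
    ring
  rw [← h3]; exact h2

/-- Young: `‖σ b + r‖² ≤ ‖b‖² + ‖r‖²/(1-σ²)`. -/
theorem young {V : Type*} [NormedAddCommGroup V] [NormedSpace ℂ V] {σ : ℝ} (h0 : 0 ≤ σ)
    (h1 : σ < 1) (b r : V) :
    ‖(σ : ℂ) • b + r‖ ^ 2 ≤ ‖b‖ ^ 2 + ‖r‖ ^ 2 / (1 - σ ^ 2) := by
  have hs : 0 < 1 - σ ^ 2 := by nlinarith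
  have h2 : ‖(σ : ℂ) • b + r‖ ≤ σ * ‖b‖ + ‖r‖ := by
    refine (norm_add_le _ _).trans ?_
    rw [norm_smul, Complex.norm_real, Real.norm_of_nonneg h0]
  have h3 : ‖(σ : ℂ) • b + r‖ ^ 2 ≤ (σ * ‖b‖ + ‖r‖) ^ 2 := pow_le_pow_left₀ (norm_nonneg _) h2 2
  refine h3.trans ?_
  rw [← sub_nonneg]
  have : ‖b‖ ^ 2 + ‖r‖ ^ 2 / (1 - σ ^ 2) - (σ * ‖b‖ + ‖r‖) ^ 2 =
      ((1 - σ ^ 2) * ‖b‖ - σ * ‖r‖) ^ 2 / (1 - σ ^ 2) := by
    field_simp
    ring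
  rw [this]
  positivity

/-- scaled pair matrix `s_i s_j w i j` -/
def sw (s : ι → ℝ) (w : Matrix ι ι ℂ) : Matrix ι ι ℂ := fun i j => ((s i * s j : ℝ) : ℂ) * w i j

/-- remainder `(s_i s_j - σ) w i j` -/
def rw' (s : ι → ℝ) (σ : ℝ) (w : Matrix ι ι ℂ) : Matrix ι ι ℂ :=
  fun i j => ((s i * s j - σ : ℝ) : ℂ) * w i j

theorem sw_split (s : ι → ℝ) (σ : ℝ) (w : Matrix ι ι ℂ) :
    pa (sw s w) = (σ : ℂ) • pa w + pa (rw' s σ w) := by
  have h : sw s w = (σ : ℂ) • w + rw' s σ w := by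
    funext i j
    simp only [sw, rw', Matrix.add_apply, Matrix.smul_apply, smul_eq_mul]
    push_cast
    ring
  rw [h, pa_add, pa_smul, Complex.conj_ofReal]

/-- One pair annihilator. -/
theorem one_pair (s : ι → ℝ) {σ : ℝ} (h0 : 0 ≤ σ) (h1 : σ < 1) (w : Matrix ι ι ℂ) (v : Fk ι) :
    ‖pa (sw s w) v‖ ^ 2 ≤ ‖pa w v‖ ^ 2 +
      (∑ i, ∑ j, |s i * s j - σ| * ‖w i j‖) ^ 2 / (1 - σ ^ 2) / 2 * ‖v‖ ^ 2 := by
  have hs : 0 < 1 - σ ^ 2 := by nlinarith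
  set r : Matrix ι ι ℂ := rw' s σ w with hr
  have e : pa (sw s w) v = (σ : ℂ) • (pa w v) + pa r v := by
    rw [sw_split s σ w, add_ap, smul_ap]
  rw [e]
  refine (young h0 h1 _ _).trans ?_
  have h2 : ‖pa r v‖ ^ 2 ≤ ‖pa r‖ ^ 2 * ‖v‖ ^ 2 := by
    rw [← mul_pow]
    exact pow_le_pow_left₀ (norm_nonneg _) (Op.norm_ap_le _ _) 2
  have h3 := norm_pa_sq_le r
  have h4 : ∑ i, ∑ j, ‖r i j‖ = ∑ i, ∑ j, |s i * s j - σ| * ‖w i j‖ := by
    refine Finset.sum_congr rfl fun i _ => Finset.sum_congr rfl fun j _ => ?_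
    rw [hr]
    simp only [rw', norm_mul, Complex.norm_real, Real.norm_eq_abs]
  rw [h4] at h3
  have h5 : ‖pa r v‖ ^ 2 / (1 - σ ^ 2) ≤
      (∑ i, ∑ j, |s i * s j - σ| * ‖w i j‖) ^ 2 / (1 - σ ^ 2) / 2 * ‖v‖ ^ 2 := by
    rw [div_le_iff₀ hs]
    have : (∑ i, ∑ j, |s i * s j - σ| * ‖w i j‖) ^ 2 / (1 - σ ^ 2) / 2 * ‖v‖ ^ 2 * (1 - σ ^ 2) =
      (∑ i, ∑ j, |s i * s j - σ| * ‖w i j‖) ^ 2 / 2 * ‖v‖ ^ 2 := by
      field_simp
    rw [this]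
    exact h2.trans (mul_le_mul_of_nonneg_right h3 (by positivity))
  linarith

/-- Vector form of PROF for an arbitrary finite family of pair tensors. -/
theorem sum_pairs {κ : Type*} [Fintype κ] (s : ι → ℝ) (w : κ → Matrix ι ι ℂ) (σ : κ → ℝ)
    (h0 : ∀ p, 0 ≤ σ p) (h1 : ∀ p, σ p < 1) (far : κ → Prop) [DecidablePred far]
    (hz : ∀ p, ¬ far p → ∀ i j, ((s i * s j : ℝ) : ℂ) * w p i j = 0) {η : ℝ}
    (hη : ∑ p, (∑ i, ∑ j, |s i * s j - σ p| * ‖w p i j‖) ^ 2 / (1 - σ p ^ 2) ≤ 2 * η)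
    (v : Fk ι) :
    ∑ p, ‖pa (sw s (w p)) v‖ ^ 2 ≤
      ∑ p with far p, ‖pa (w p) v‖ ^ 2 + η * ‖v‖ ^ 2 := by
  have hterm : ∀ p, ‖pa (sw s (w p)) v‖ ^ 2 ≤ (if far p then ‖pa (w p) v‖ ^ 2 else 0) +
      (∑ i, ∑ j, |s i * s j - σ p| * ‖w p i j‖) ^ 2 / (1 - σ p ^ 2) / 2 * ‖v‖ ^ 2 := by
    intro p
    by_cases hp : far p
    · rw [if_pos hp]
      exact one_pair s (h0 p) (h1 p) (w p) v
    · rw [if_neg hp]
      have : sw s (w p) = 0 := by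
        funext i j
        exact hz p hp i j
      rw [this]
      have e0 : (pa (0 : Matrix ι ι ℂ)) v = 0 := by
        have : pa (0 : Matrix ι ι ℂ) = 0 := by simp [pa]
        rw [this, zero_ap]
      rw [e0, norm_zero]
      have hs : 0 < 1 - σ p ^ 2 := by nlinarith [h0 p, h1 p]
      have : 0 ≤ (∑ i, ∑ j, |s i * s j - σ p| * ‖w p i j‖) ^ 2 / (1 - σ p ^ 2) / 2 * ‖v‖ ^ 2 := by
        apply mul_nonneg (div_nonneg (div_nonneg (sq_nonneg _) hs.le) (by norm_num)) (sq_nonneg _)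
      simpa using this
  calc ∑ p, ‖pa (sw s (w p)) v‖ ^ 2
      ≤ ∑ p, ((if far p then ‖pa (w p) v‖ ^ 2 else 0) +
      (∑ i, ∑ j, |s i * s j - σ p| * ‖w p i j‖) ^ 2 / (1 - σ p ^ 2) / 2 * ‖v‖ ^ 2) :=
        Finset.sum_le_sum fun p _ => hterm p
    _ = ∑ p with far p, ‖pa (w p) v‖ ^ 2 +
        (∑ p, (∑ i, ∑ j, |s i * s j - σ p| * ‖w p i j‖) ^ 2 / (1 - σ p ^ 2)) / 2 * ‖v‖ ^ 2 := by
        rw [Finset.sum_add_distrib, Finset.sum_filter, ← Finset.sum_mul, ← Finset.sum_div]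
    _ ≤ _ := by
        have : 0 ≤ ‖v‖ ^ 2 := by positivity
        nlinarith

/-- `Re ⟪v, (∑ star A_p * A_p) v⟫ = ∑ ‖A_p v‖²`. -/
theorem re_inner_sum_star {κ : Type*} (K : Finset κ) (A : κ → Op ι) (v : Fk ι) :
    (inner ℂ v ((∑ p ∈ K, star (A p) * A p) v) : ℂ).re = ∑ p ∈ K, ‖A p v‖ ^ 2 := by
  rw [sum_ap, inner_sum, Complex.re_sum]
  refine Finset.sum_congr rfl fun p _ => ?_
  rw [inner_star_mul_self]
  norm_cast

theorem isSelfAdjoint_sum_star {κ : Type*} (K : Finset κ) (A : κ → Op ι) :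
    IsSelfAdjoint (∑ p ∈ K, star (A p) * A p) := by
  rw [IsSelfAdjoint, star_sum]
  refine Finset.sum_congr rfl fun p _ => ?_
  rw [star_mul, star_star]

theorem re_inner_smul_one (η : ℝ) (v : Fk ι) :
    (inner ℂ v (((η : ℂ) • (1 : Op ι)) v) : ℂ).re = η * ‖v‖ ^ 2 := by
  rw [smul_ap, one_ap, inner_smul_right, inner_self_eq_norm_sq_to_K, Complex.re_ofReal_mul]
  norm_cast

/-- Operator form of PROF. -/
theorem sum_pairs_op {κ : Type*} [Fintype κ] (s : ι → ℝ) (w : κ → Matrix ι ι ℂ) (σ : κ → ℝ)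
    (h0 : ∀ p, 0 ≤ σ p) (h1 : ∀ p, σ p < 1) (far : κ → Prop) [DecidablePred far]
    (hz : ∀ p, ¬ far p → ∀ i j, ((s i * s j : ℝ) : ℂ) * w p i j = 0) {η : ℝ}
    (hη : ∑ p, (∑ i, ∑ j, |s i * s j - σ p| * ‖w p i j‖) ^ 2 / (1 - σ p ^ 2) ≤ 2 * η) :
    ∑ p, star (pa (sw s (w p))) * pa (sw s (w p)) ≤
      ∑ p with far p, star (pa (w p)) * pa (w p) + (η : ℂ) • (1 : Op ι) := by
  have hsa : IsSelfAdjoint ((η : ℂ) • (1 : Op ι)) := by
    rw [IsSelfAdjoint, star_smul, star_one]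
    simp
  rw [Op.le_iff (isSelfAdjoint_sum_star _ _) ((isSelfAdjoint_sum_star _ _).add hsa)]
  intro v
  rw [add_ap, inner_add_right, Complex.add_re, re_inner_sum_star, re_inner_sum_star,
    re_inner_smul_one]
  exact sum_pairs s w σ h0 h1 far hz hη v

/-! ### The channel of 674 -/

open Crest.Agent.R340.Loss674

theorem car : CAR (fun i : ι => (c i : Op ι)) where
  anti i j := c_c i j
  car i j := by
    show c i * star (c j) + star (c j) * c i = _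
    rw [star_c]; exact c_d i j

theorem pa_mul_Gm (s : ι → ℝ) (w : Matrix ι ι ℂ) :
    pa w * Gm (fun i : ι => (c i : Op ι)) s univ =
      Gm (fun i : ι => (c i : Op ι)) s univ * pa (sw s w) := by
  unfold pa
  rw [smul_mul_assoc, mul_smul_comm]
  congr 1
  rw [Finset.sum_mul, Finset.mul_sum]
  refine Finset.sum_congr rfl fun i _ => ?_
  rw [Finset.sum_mul, Finset.mul_sum]
  refine Finset.sum_congr rfl fun j _ => ?_
  rw [smul_mul_assoc, cc_mul_Gm (car (ι := ι)) s (mem_univ i) (mem_univ j), mul_smul_comm,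
    mul_smul_comm, smul_smul]
  congr 1
  simp only [sw, map_mul, Complex.conj_ofReal]
  ring

theorem pa_comm_c (w : Matrix ι ι ℂ) (k : ι) : pa w * c k = c k * pa w := by
  unfold pa
  rw [smul_mul_assoc, mul_smul_comm]
  congr 1
  rw [Finset.sum_mul, Finset.mul_sum]
  refine Finset.sum_congr rfl fun i _ => ?_
  rw [Finset.sum_mul, Finset.mul_sum]
  refine Finset.sum_congr rfl fun j _ => ?_
  rw [smul_mul_assoc, mul_smul_comm]
  congr 1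
  have h1 : ∀ a b : ι, (c a * c b : Op ι) = - (c b * c a) := by
    intro a b
    rw [eq_neg_iff_add_eq_zero]; exact c_c a b
  calc c j * c i * c k = c j * (c i * c k) := by noncomm_ring
    _ = - (c j * c k) * c i := by rw [h1 i k]; noncomm_ring
    _ = c k * (c j * c i) := by rw [h1 j k]; noncomm_ring

/-- The loss channel maps `star B * B'` to `star Bt * Bt'`. -/
theorem Ph_pa (s : ι → ℝ) (w w' : Matrix ι ι ℂ) :
    Ph (fun i : ι => (c i : Op ι)) s univ (star (pa w) * pa w') =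
      star (pa (sw s w)) * pa (sw s w') := by
  refine Ph_mul (car (ι := ι)) s univ 1 (by norm_num) (pa_mul_Gm s w) (pa_mul_Gm s w') ?_ ?_
  · intro j _
    rw [Complex.ofReal_one, one_smul]; exact pa_comm_c _ _
  · intro j _
    rw [Complex.ofReal_one, one_smul]; exact pa_comm_c _ _

theorem Ph_sum_pa {κ : Type*} [Fintype κ] (s : ι → ℝ) (w : κ → Matrix ι ι ℂ) :
    Ph (fun i : ι => (c i : Op ι)) s univ (∑ p, star (pa (w p)) * pa (w p)) =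
      ∑ p, star (pa (sw s (w p))) * pa (sw s (w p)) := by
  rw [Ph_sum (car (ι := ι))]
  exact Finset.sum_congr rfl fun p _ => Ph_pa s (w p) (w p)

/-- PROF for 674's channel, any finite family of pair tensors. -/
theorem Ph_le {κ : Type*} [Fintype κ] (s : ι → ℝ) (w : κ → Matrix ι ι ℂ) (σ : κ → ℝ)
    (h0 : ∀ p, 0 ≤ σ p) (h1 : ∀ p, σ p < 1) (far : κ → Prop) [DecidablePred far]
    (hz : ∀ p, ¬ far p → ∀ i j, ((s i * s j : ℝ) : ℂ) * w p i j = 0) {η : ℝ}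
    (hη : ∑ p, (∑ i, ∑ j, |s i * s j - σ p| * ‖w p i j‖) ^ 2 / (1 - σ p ^ 2) ≤ 2 * η) :
    Ph (fun i : ι => (c i : Op ι)) s univ (∑ p, star (pa (w p)) * pa (w p)) ≤
      ∑ p with far p, star (pa (w p)) * pa (w p) + (η : ℂ) • (1 : Op ι) := by
  rw [Ph_sum_pa]
  exact sum_pairs_op s w σ h0 h1 far hz hη

end Crest.Agent.R340.Prof482
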