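import Crest.Agent.R340.ProfF_482
import Crest.Agent.R340.Prof2_385
import Crest.Agent.R340.Bridge_320
import Crest.Agent.R340.JumpH_674

/-!
PROF (docs 1205), final form: `Φ_g(H) ≤ H - ∑_{p<pw} B_p(g)^* B_p(g) + η`, uniformly in `Q`,
for 674's channel `Phi U s` with 385's profile `sP P1`.
-/

set_option autoImplicit false
set_option linter.unusedSectionVars false

namespace Crest.Agent.R340.Prof482

open Finset Crest.Agent.R340.Fock649 Crest.Agent.R340.Br320 Crest.Agent.R340.JumpH674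
open Crest.MathPhysics.Laughlin
open Crest.Agent.R340.Prof385 (sP prof_l1 sP_nonneg sP_le_one sP_mul_eq_zero sg_nonneg sg_lt_one)
open scoped InnerProductSpace

/-- near part `∑_{p<pw} B_p^* B_p` -/
noncomputable def hn (Q pw : ℕ) : Op (Fin (Q + 1)) :=
  ∑ p ∈ univ.filter (fun p : Fin (2 * Q - 1) => (p : ℕ) < pw), star (Bp Q p) * Bp Q p

/-- near part about `U`: `∑_{p<pw} B_p(U)^* B_p(U)`, `B_p(U) = U B_p U^*` -/
noncomputable def hnU (Q pw : ℕ) (U : Op (Fin (Q + 1))) : Op (Fin (Q + 1)) :=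
  ∑ p ∈ univ.filter (fun p : Fin (2 * Q - 1) => (p : ℕ) < pw), star (U * Bp Q p * star U) * (U * Bp Q p * star U)

theorem hnU_eq {Q pw : ℕ} {U : Op (Fin (Q + 1))} (hU : star U * U = 1) :
    hnU Q pw U = U * hn Q pw * star U := by
  unfold hnU hn
  rw [Finset.mul_sum, Finset.sum_mul]
  refine Finset.sum_congr rfl fun p _ => ?_
  calc star (U * Bp Q p * star U) * (U * Bp Q p * star U)
      = U * star (Bp Q p) * (star U * U) * Bp Q p * star U := by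
        rw [star_mul, star_mul, star_star]; noncomm_ring
    _ = _ := by rw [hU]; noncomm_ring

theorem dmp_eq_sw {ι : Type*} [Fintype ι] [LinearOrder ι] (s : ι → ℝ) (w : Matrix ι ι ℂ) :
    dmp s w = sw s w := rfl

/-- `Phi 1 s (HH Q) = ∑ Bt_p^* Bt_p`. -/
theorem Phi_HH (Q : ℕ) (s : Fin (Q + 1) → ℝ) :
    Phi 1 s (HH Q) = ∑ p, star (pa (sw s (wM Q p))) * pa (sw s (wM Q p)) := by
  rw [Phi_one_eq]
  exact Ph_sum_pa s (wM Q)

/-- PROF at the pole. -/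
theorem prof_pole {η : ℝ} (hη : 0 < η) (pw : ℕ) : ∃ P0 : ℕ, pw ≤ 2 * P0 + 1 ∧ ∀ P1 : ℕ, P0 ≤ P1 →
    ∀ Q : ℕ, 1 ≤ Q →
      Phi 1 (fun j : Fin (Q + 1) => sP P1 j) (HH Q) ≤
        HH Q - hn Q pw + (η : ℂ) • (1 : Op (Fin (Q + 1))) := by
  obtain ⟨C, hC, hl⟩ := prof_l1
  obtain ⟨P0, hP0⟩ := exists_nat_ge (max ((C / (2 * η)) ^ 2) (pw : ℝ))
  have hP0a : (C / (2 * η)) ^ 2 ≤ P0 := (le_max_left _ _).trans hP0
  have hP0b : pw ≤ P0 := by exact_mod_cast (le_max_right _ _).trans hP0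
  refine ⟨P0, by omega, fun P1 hP1 Q hQ => ?_⟩
  have hP1' : (P0 : ℝ) ≤ P1 := by exact_mod_cast hP1
  have hs : C / (2 * η) ≤ Real.sqrt ((P1 : ℝ) + 1) := by
    apply Real.le_sqrt_of_sq_le
    linarith
  have hspos : 0 < Real.sqrt ((P1 : ℝ) + 1) := Real.sqrt_pos.mpr (by positivity)
  have hb : C / Real.sqrt ((P1 : ℝ) + 1) ≤ 2 * η := by
    rw [div_le_iff₀ hspos]
    rw [div_le_iff₀ (by positivity)] at hs
    linarith
  have key := sum_pairs_op (fun j : Fin (Q + 1) => sP P1 j) (wM Q)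
    (fun p => Prof385.sg P1 p) (fun p => sg_nonneg P1 p) (fun p => sg_lt_one P1 p)
    (fun p => pw ≤ (p : ℕ)) (fun p hp i j => ?_) (η := η) ?_
  · rw [Phi_HH]
    have e : HH Q - hn Q pw = ∑ p ∈ univ.filter (fun p : Fin (2 * Q - 1) => pw ≤ (p : ℕ)), star (pa (wM Q p)) * pa (wM Q p) := by
      have h1 : HH Q = hn Q pw +
          ∑ p ∈ univ.filter (fun p : Fin (2 * Q - 1) => pw ≤ (p : ℕ)), star (pa (wM Q p)) * pa (wM Q p) := by
        unfold HH hn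
        rw [← Finset.sum_filter_add_sum_filter_not univ (fun p : Fin (2 * Q - 1) => (p : ℕ) < pw)]
        simp only [not_lt]
        rfl
      rw [h1]; abel
    rw [e]
    exact key
  · rw [wM_apply]
    by_cases hij : (i : ℕ) + j = p + 1
    · have : sP P1 (i : ℕ) * sP P1 (j : ℕ) = 0 := sP_mul_eq_zero (by omega)
      show ((sP P1 (i : ℕ) * sP P1 (j : ℕ) : ℝ) : ℂ) * _ = 0
      rw [this]; simp
    · have : pairVec Q p i j = 0 := by unfold pairVec; rw [if_neg hij]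
      rw [this]; simp
  · refine le_trans (le_of_eq ?_) ((hl P1 Q hQ).trans hb)
    refine Finset.sum_congr rfl fun p _ => ?_
    congr 2
    refine Finset.sum_congr rfl fun i _ => Finset.sum_congr rfl fun j _ => ?_
    rw [wM_apply, Complex.norm_real, Real.norm_eq_abs]

theorem isSelfAdjoint_hn (Q pw : ℕ) : IsSelfAdjoint (hn Q pw) := isSelfAdjoint_sum_star _ _

theorem conj_le {ι : Type*} [Fintype ι] [LinearOrder ι] {A B : Op ι} (h : A ≤ B) (U : Op ι) :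
    U * A * star U ≤ U * B * star U := star_right_conjugate_le_conjugate h U

/-- **PROF**: Loewner form, about any unitary that commutes with `H`. -/
theorem prof {η : ℝ} (hη : 0 < η) (pw : ℕ) : ∃ P0 : ℕ, pw ≤ 2 * P0 + 1 ∧ ∀ P1 : ℕ, P0 ≤ P1 →
    ∀ Q : ℕ, 1 ≤ Q → ∀ U : Op (Fin (Q + 1)), star U * U = 1 → U * star U = 1 →
      U * HH Q * star U = HH Q →
      Phi U (fun j : Fin (Q + 1) => sP P1 j) (HH Q) ≤
        HH Q - hnU Q pw U + (η : ℂ) • (1 : Op (Fin (Q + 1))) := by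
  obtain ⟨P0, h0, h⟩ := prof_pole hη pw
  refine ⟨P0, h0, fun P1 hP1 Q hQ U hU hU' hH => ?_⟩
  have h1 := conj_le (h P1 hP1 Q hQ) U
  have e1 : U * Phi 1 (fun j : Fin (Q + 1) => sP P1 j) (HH Q) * star U =
      Phi U (fun j : Fin (Q + 1) => sP P1 j) (HH Q) := by
    rw [← Phi_conj hU hU', hH]
  have e2 : U * (HH Q - hn Q pw + (η : ℂ) • (1 : Op (Fin (Q + 1)))) * star U =
      HH Q - hnU Q pw U + (η : ℂ) • (1 : Op (Fin (Q + 1))) := by
    rw [mul_add, mul_sub, add_mul, sub_mul, hH, hnU_eq hU, mul_smul_comm, mul_one,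
      smul_mul_assoc, hU']
  rw [e1, e2] at h1
  exact h1

/-- **PROF**: form version, exactly the hypothesis `hprof` of `JumpH674.J1`. -/
theorem prof_form {η : ℝ} (hη : 0 < η) (pw : ℕ) :
    ∃ P0 : ℕ, pw ≤ 2 * P0 + 1 ∧ ∀ P1 : ℕ, P0 ≤ P1 →
    ∀ Q : ℕ, 1 ≤ Q → ∀ U : Op (Fin (Q + 1)), star U * U = 1 → U * star U = 1 →
      U * HH Q * star U = HH Q → ∀ v : Fk (Fin (Q + 1)),
      (⟪v, Phi U (fun j : Fin (Q + 1) => sP P1 j) (HH Q) v⟫_ℂ).re ≤
        (⟪v, HH Q v⟫_ℂ).re - (⟪v, hnU Q pw U v⟫_ℂ).re + η * ‖v‖ ^ 2 := by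
  obtain ⟨P0, h0, h⟩ := prof hη pw
  refine ⟨P0, h0, fun P1 hP1 Q hQ U hU hU' hH v => ?_⟩
  have h1 := h P1 hP1 Q hQ U hU hU' hH
  have h2 := (Op.nonneg_iff _).mp (sub_nonneg.mpr h1)
  have h3 := h2.2 v
  rw [sub_ap, add_ap, sub_ap, inner_sub_right, inner_add_right, inner_sub_right, Complex.sub_re,
    Complex.add_re, Complex.sub_re, re_inner_smul_one] at h3
  linarith

end Crest.Agent.R340.Prof482
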