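import Crest.Agent.R340.QL1_331

/-!
Quasi-local calculus, part 2: parity, the subalgebra generated by a set of modes, and the fact
that the conditional expectation of an even element lies in the subalgebra of the near modes.
-/

set_option autoImplicit false
set_option linter.unusedSectionVars false

namespace Crest.Agent.R340.QL331

open Complex ComplexConjugate

variable {A V : Type*} [NormedRing A] [StarRing A] [CStarRing A] [NormedAlgebra ℂ A]
  [StarModule ℂ A] [NormedAddCommGroup V] [InnerProductSpace ℂ V]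

namespace Car

variable (R : Car A V)

/-- parity automorphism -/
def par (a : A) : A := R.th * a * R.th

/-- even elements -/
def Ev (a : A) : Prop := R.par a = a

theorem par_add (a b : A) : R.par (a + b) = R.par a + R.par b := by
  unfold par; noncomm_ring

theorem par_sub (a b : A) : R.par (a - b) = R.par a - R.par b := by
  unfold par; noncomm_ring

theorem par_smul (z : ℂ) (a : A) : R.par (z • a) = z • R.par a := by
  unfold par; rw [mul_smul_comm, smul_mul_assoc]

theorem par_mul (a b : A) : R.par (a * b) = R.par a * R.par b := by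
  unfold par
  calc R.th * (a * b) * R.th = R.th * a * 1 * b * R.th := by noncomm_ring
    _ = R.th * a * (R.th * R.th) * b * R.th := by rw [R.th_sq]
    _ = _ := by noncomm_ring

theorem par_one : R.par 1 = 1 := by unfold par; rw [mul_one, R.th_sq]

theorem par_zero : R.par 0 = 0 := by unfold par; simp

theorem par_par (a : A) : R.par (R.par a) = a := by
  unfold par
  calc R.th * (R.th * a * R.th) * R.th = (R.th * R.th) * a * (R.th * R.th) := by noncomm_ring
    _ = a := by rw [R.th_sq]; noncomm_ring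

theorem par_star (a : A) : R.par (star a) = star (R.par a) := by
  unfold par; rw [star_mul, star_mul, R.th_star, mul_assoc]

theorem par_an (v : V) : R.par (R.an v) = - R.an v := R.th_an v

theorem par_cr (v : V) : R.par (R.cr v) = - R.cr v := by
  unfold cr; rw [par_star, par_an, star_neg]

theorem par_maj (v : V) : R.par (R.maj v) = - R.maj v := by
  unfold maj; rw [par_add, par_star, par_an, star_neg]; abel

theorem norm_par (a : A) : ‖R.par a‖ ≤ ‖a‖ := by
  rcases subsingleton_or_nontrivial A with hA | hA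
  · rw [Subsingleton.elim (R.par a) a]
  · have h : ‖R.th‖ = 1 := by
      have h1 := CStarRing.norm_star_mul_self (x := R.th)
      rw [R.th_star, R.th_sq, CStarRing.norm_one] at h1
      have h2 : 0 ≤ ‖R.th‖ := norm_nonneg _
      nlinarith
    unfold par
    calc ‖R.th * a * R.th‖ ≤ ‖R.th‖ * ‖a‖ * ‖R.th‖ :=
          (norm_mul_le _ _).trans (mul_le_mul_of_nonneg_right (norm_mul_le _ _) (norm_nonneg _))
      _ = ‖a‖ := by rw [h]; ring

theorem ev_one : R.Ev 1 := R.par_one
theorem ev_zero : R.Ev 0 := R.par_zero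
theorem Ev.add {R : Car A V} {a b : A} (ha : R.Ev a) (hb : R.Ev b) : R.Ev (a + b) := by
  unfold Ev at *; rw [par_add, ha, hb]
theorem Ev.sub {R : Car A V} {a b : A} (ha : R.Ev a) (hb : R.Ev b) : R.Ev (a - b) := by
  unfold Ev at *; rw [par_sub, ha, hb]
theorem Ev.smul {R : Car A V} (z : ℂ) {a : A} (ha : R.Ev a) : R.Ev (z • a) := by
  unfold Ev at *; rw [par_smul, ha]
theorem Ev.neg {R : Car A V} {a : A} (ha : R.Ev a) : R.Ev (-a) := by
  have := ha.smul (-1); simpa using this
theorem Ev.mul {R : Car A V} {a b : A} (ha : R.Ev a) (hb : R.Ev b) : R.Ev (a * b) := by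
  unfold Ev at *; rw [par_mul, ha, hb]
theorem Ev.star {R : Car A V} {a : A} (ha : R.Ev a) : R.Ev (star a) := by
  unfold Ev at *; rw [par_star, ha]
theorem Ev.br {R : Car A V} {a b : A} (ha : R.Ev a) (hb : R.Ev b) : R.Ev (br a b) :=
  (ha.mul hb).sub (hb.mul ha)

theorem ev_odd_mul_odd {a b : A} (ha : R.par a = -a) (hb : R.par b = -b) : R.Ev (a * b) := by
  unfold Ev; rw [par_mul, ha, hb]; noncomm_ring

theorem Ev.tw {R : Car A V} {a : A} (ha : R.Ev a) (v : V) : R.Ev (R.tw v a) := by
  unfold Car.tw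
  refine Ev.smul _ (ha.add ?_)
  unfold Ev at *
  rw [par_mul, par_mul, ha, par_maj]; noncomm_ring

theorem Ev.ex1 {R : Car A V} {a : A} (ha : R.Ev a) (v : V) : R.Ev (R.ex1 v a) :=
  (ha.tw _).tw _

theorem Ev.ex {R : Car A V} {a : A} (ha : R.Ev a) (l : List V) : R.Ev (R.ex l a) := by
  induction l with
  | nil => exact ha
  | cons v l ih => exact Ev.ex1 ih v

/-- the algebra generated by a set of modes -/
def alg (W : Set V) : Subalgebra ℂ A := Algebra.adjoin ℂ (R.an '' W ∪ R.cr '' W)

theorem an_mem_alg {W : Set V} {v : V} (hv : v ∈ W) : R.an v ∈ R.alg W :=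
  Algebra.subset_adjoin (Or.inl ⟨v, hv, rfl⟩)

theorem cr_mem_alg {W : Set V} {v : V} (hv : v ∈ W) : R.cr v ∈ R.alg W :=
  Algebra.subset_adjoin (Or.inr ⟨v, hv, rfl⟩)

theorem alg_mono {W W' : Set V} (h : W ⊆ W') : R.alg W ≤ R.alg W' :=
  Algebra.adjoin_mono (Set.union_subset_union (Set.image_mono h) (Set.image_mono h))

theorem alg_induction {W : Set V} {p : A → Prop}
    (h_an : ∀ v ∈ W, p (R.an v)) (h_cr : ∀ v ∈ W, p (R.cr v)) (h_al : ∀ z : ℂ, p (algebraMap ℂ A z))
    (h_add : ∀ a b, p a → p b → p (a + b)) (h_mul : ∀ a b, p a → p b → p (a * b))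
    {a : A} (ha : a ∈ R.alg W) : p a := by
  refine Algebra.adjoin_induction (p := fun x _ => p x) ?_ h_al (fun x y _ _ => h_add x y)
    (fun x y _ _ => h_mul x y) ha
  rintro x (⟨v, hv, rfl⟩ | ⟨v, hv, rfl⟩)
  · exact h_an v hv
  · exact h_cr v hv

theorem star_mem_alg {W : Set V} {a : A} (ha : a ∈ R.alg W) : star a ∈ R.alg W := by
  refine R.alg_induction (p := fun x => star x ∈ R.alg W) ?_ ?_ ?_ ?_ ?_ ha
  · intro v hv; exact R.cr_mem_alg hv
  · intro v hv; rw [star_cr]; exact R.an_mem_alg hv
  · intro z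
    rw [Algebra.algebraMap_eq_smul_one, star_smul, star_one]
    exact Subalgebra.smul_mem _ (Subalgebra.one_mem _) _
  · intro a b ha hb; rw [star_add]; exact Subalgebra.add_mem _ ha hb
  · intro a b ha hb; rw [star_mul]; exact Subalgebra.mul_mem _ hb ha

theorem par_mem_alg {W : Set V} {a : A} (ha : a ∈ R.alg W) : R.par a ∈ R.alg W := by
  refine R.alg_induction (p := fun x => R.par x ∈ R.alg W) ?_ ?_ ?_ ?_ ?_ ha
  · intro v hv; rw [par_an]; exact Subalgebra.neg_mem _ (R.an_mem_alg hv)
  · intro v hv; rw [par_cr]; exact Subalgebra.neg_mem _ (R.cr_mem_alg hv)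
  · intro z
    rw [Algebra.algebraMap_eq_smul_one, par_smul, par_one]
    exact Subalgebra.smul_mem _ (Subalgebra.one_mem _) _
  · intro a b ha hb; rw [par_add]; exact Subalgebra.add_mem _ ha hb
  · intro a b ha hb; rw [par_mul]; exact Subalgebra.mul_mem _ ha hb

/-- an element commuting with all modes of `W` commutes with the algebra they generate -/
theorem commute_alg {W : Set V} {a : A} (h : ∀ v ∈ W, R.Cm v a) {y : A} (hy : y ∈ R.alg W) :
    Commute a y := by
  refine R.alg_induction (p := fun x => Commute a x) ?_ ?_ ?_ ?_ ?_ hy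
  · intro v hv; exact (h v hv).1
  · intro v hv; exact (h v hv).2
  · intro z; exact (Algebra.commutes z a).symm
  · intro x y hx hy; exact hx.add_right hy
  · intro x y hx hy; exact hx.mul_right hy

/-- orthogonal annihilators graded-commute with the algebra -/
theorem an_mul_alg {W : Set V} {w : V} (h : ∀ v ∈ W, (inner ℂ w v : ℂ) = 0) {y : A}
    (hy : y ∈ R.alg W) : R.an w * y = R.par y * R.an w := by
  refine R.alg_induction (p := fun x => R.an w * x = R.par x * R.an w) ?_ ?_ ?_ ?_ ?_ hy
  · intro v _; rw [par_an, neg_mul]; exact eq_neg_of_add_eq_zero_left (R.an_an w v)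
  · intro v hv
    rw [par_cr, neg_mul]
    refine eq_neg_of_add_eq_zero_left ?_
    have := R.an_cr w v
    rw [h v hv, zero_smul] at this
    exact this
  · intro z
    rw [Algebra.algebraMap_eq_smul_one, par_smul, par_one, mul_smul_comm, smul_mul_assoc, mul_one,
      one_mul]
  · intro x y hx hy; rw [par_add, mul_add, add_mul, hx, hy]
  · intro x y hx hy
    rw [par_mul, ← mul_assoc, hx, mul_assoc, hy, mul_assoc]

theorem cr_mul_alg {W : Set V} {w : V} (h : ∀ v ∈ W, (inner ℂ w v : ℂ) = 0) {y : A}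
    (hy : y ∈ R.alg W) : R.cr w * y = R.par y * R.cr w := by
  have h1 := R.an_mul_alg h (R.par_mem_alg (R.star_mem_alg hy))
  rw [par_par] at h1
  have h2 := congrArg star h1
  rw [star_mul, star_mul, par_star, star_star, star_star] at h2
  exact h2.symm

theorem cm_of_orth {W : Set V} {w : V} (h : ∀ v ∈ W, (inner ℂ w v : ℂ) = 0) {y : A}
    (hy : y ∈ R.alg W) (he : R.Ev y) : R.Cm w y := by
  refine ⟨?_, ?_⟩
  · have := R.an_mul_alg h hy
    rw [he] at this
    exact this.symm
  · have := R.cr_mul_alg h hy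
    rw [he] at this
    exact this.symm

/-- normal form relative to one extra mode -/
theorem normal_form {W : Set V} {e : V} (he : ‖e‖ = 1) (h : ∀ v ∈ W, (inner ℂ e v : ℂ) = 0)
    {y : A} (hy : y ∈ R.alg (insert e W)) :
    ∃ a ∈ R.alg W, ∃ b ∈ R.alg W, ∃ d ∈ R.alg W, ∃ f ∈ R.alg W,
      y = a + b * R.an e + d * R.cr e + f * (R.cr e * R.an e) := by
  have hee : (inner ℂ e e : ℂ) = 1 := by
    rw [inner_self_eq_norm_sq_to_K, he]; simp
  have h1 : R.an e * R.cr e = 1 - R.cr e * R.an e := by
    have := R.an_cr e e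
    rw [hee, one_smul] at this
    unfold cr; rw [← this]; abel
  have two : (2 : ℂ) ≠ 0 := two_ne_zero
  have h2 : R.an e * R.an e = 0 := by
    have := R.an_an e e
    rw [← two_smul ℂ] at this
    exact (smul_eq_zero.mp this).resolve_left two
  have h3 : R.cr e * R.cr e = 0 := by
    have := R.cr_cr e e
    rw [← two_smul ℂ] at this
    exact (smul_eq_zero.mp this).resolve_left two
  let M : A → Prop := fun y => ∃ a ∈ R.alg W, ∃ b ∈ R.alg W, ∃ d ∈ R.alg W, ∃ f ∈ R.alg W,
      y = a + b * R.an e + d * R.cr e + f * (R.cr e * R.an e)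
  have hadd : ∀ y z, M y → M z → M (y + z) := by
    rintro y z ⟨a, ha, b, hb, d, hd, f, hf, rfl⟩ ⟨a', ha', b', hb', d', hd', f', hf', rfl⟩
    exact ⟨a + a', Subalgebra.add_mem _ ha ha', b + b', Subalgebra.add_mem _ hb hb',
      d + d', Subalgebra.add_mem _ hd hd', f + f', Subalgebra.add_mem _ hf hf', by noncomm_ring⟩
  have hcoef : ∀ x ∈ R.alg W, ∀ y, M y → M (x * y) := by
    rintro x hx y ⟨a, ha, b, hb, d, hd, f, hf, rfl⟩
    exact ⟨x * a, Subalgebra.mul_mem _ hx ha, x * b, Subalgebra.mul_mem _ hx hb,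
      x * d, Subalgebra.mul_mem _ hx hd, x * f, Subalgebra.mul_mem _ hx hf, by noncomm_ring⟩
  have han : ∀ y, M y → M (R.an e * y) := by
    rintro y ⟨a, ha, b, hb, d, hd, f, hf, rfl⟩
    refine ⟨R.par d, R.par_mem_alg hd, R.par a + R.par f,
      Subalgebra.add_mem _ (R.par_mem_alg ha) (R.par_mem_alg hf), 0, Subalgebra.zero_mem _,
      - R.par d, Subalgebra.neg_mem _ (R.par_mem_alg hd), ?_⟩
    have ea := R.an_mul_alg h ha
    have eb := R.an_mul_alg h hb
    have ed := R.an_mul_alg h hd
    have ef := R.an_mul_alg h hf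
    calc R.an e * (a + b * R.an e + d * R.cr e + f * (R.cr e * R.an e))
        = R.an e * a + (R.an e * b) * R.an e + (R.an e * d) * R.cr e
          + (R.an e * f) * (R.cr e * R.an e) := by noncomm_ring
      _ = R.par a * R.an e + R.par b * (R.an e * R.an e) + R.par d * (R.an e * R.cr e)
          + R.par f * ((R.an e * R.cr e) * R.an e) := by
            rw [ea, eb, ed, ef]; noncomm_ring
      _ = _ := by
        rw [h2, h1]
        have : (1 - R.cr e * R.an e) * R.an e = R.an e := by
          calc (1 - R.cr e * R.an e) * R.an e = R.an e - R.cr e * (R.an e * R.an e) := by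
                noncomm_ring
            _ = R.an e := by rw [h2]; noncomm_ring
        rw [this]; noncomm_ring
  have hcr : ∀ y, M y → M (R.cr e * y) := by
    rintro y ⟨a, ha, b, hb, d, hd, f, hf, rfl⟩
    refine ⟨0, Subalgebra.zero_mem _, 0, Subalgebra.zero_mem _, R.par a, R.par_mem_alg ha,
      R.par b, R.par_mem_alg hb, ?_⟩
    have ea := R.cr_mul_alg h ha
    have eb := R.cr_mul_alg h hb
    have ed := R.cr_mul_alg h hd
    have ef := R.cr_mul_alg h hf
    calc R.cr e * (a + b * R.an e + d * R.cr e + f * (R.cr e * R.an e))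
        = R.cr e * a + (R.cr e * b) * R.an e + (R.cr e * d) * R.cr e
          + (R.cr e * f) * (R.cr e * R.an e) := by noncomm_ring
      _ = R.par a * R.cr e + R.par b * (R.cr e * R.an e) + R.par d * (R.cr e * R.cr e)
          + R.par f * ((R.cr e * R.cr e) * R.an e) := by
            rw [ea, eb, ed, ef]; noncomm_ring
      _ = _ := by
        rw [h3]; noncomm_ring
  have hleft : ∀ x ∈ R.alg (insert e W), ∀ y, M y → M (x * y) := by
    intro x hx
    refine R.alg_induction (p := fun x => ∀ y, M y → M (x * y)) ?_ ?_ ?_ ?_ ?_ hx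
    · rintro v (rfl | hv) y hy
      · exact han y hy
      · exact hcoef _ (R.an_mem_alg hv) y hy
    · rintro v (rfl | hv) y hy
      · exact hcr y hy
      · exact hcoef _ (R.cr_mem_alg hv) y hy
    · intro z y hy; exact hcoef _ (Subalgebra.algebraMap_mem _ z) y hy
    · intro a b ha hb y hy; rw [add_mul]; exact hadd _ _ (ha y hy) (hb y hy)
    · intro a b ha hb y hy; rw [mul_assoc]; exact ha _ (hb y hy)
  have hone : M 1 := ⟨1, Subalgebra.one_mem _, 0, Subalgebra.zero_mem _, 0, Subalgebra.zero_mem _,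
    0, Subalgebra.zero_mem _, by noncomm_ring⟩
  have := hleft y hy 1 hone
  rwa [mul_one] at this

theorem maj_conj_an {e : V} (he : ‖e‖ = 1) : R.maj e * R.an e * R.maj e = R.cr e := by
  have hee : (inner ℂ e e : ℂ) = 1 := by
    rw [inner_self_eq_norm_sq_to_K, he]; simp
  have h1 : R.an e * R.cr e + R.cr e * R.an e = 1 := by
    have := R.an_cr e e
    rw [hee, one_smul] at this
    exact this
  have two : (2 : ℂ) ≠ 0 := two_ne_zero
  have h2 : R.an e * R.an e = 0 := by
    have := R.an_an e e
    rw [← two_smul ℂ] at this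
    exact (smul_eq_zero.mp this).resolve_left two
  have h3 : R.cr e * R.cr e = 0 := by
    have := R.cr_cr e e
    rw [← two_smul ℂ] at this
    exact (smul_eq_zero.mp this).resolve_left two
  have hm : R.maj e = R.an e + R.cr e := rfl
  calc R.maj e * R.an e * R.maj e
      = (R.an e * R.an e) * (R.an e + R.cr e) + R.cr e * (R.an e * R.an e)
        + R.cr e * (R.an e * R.cr e + R.cr e * R.an e) - (R.cr e * R.cr e) * R.an e := by
          rw [hm]; noncomm_ring
    _ = R.cr e := by rw [h1, h2, h3]; noncomm_ring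

theorem maj_conj_cr {e : V} (he : ‖e‖ = 1) : R.maj e * R.cr e * R.maj e = R.an e := by
  have h := congrArg star (R.maj_conj_an he)
  rw [star_mul, star_mul, star_maj, star_cr, ← mul_assoc] at h
  exact h

theorem majI_conj_an {e : V} (he : ‖e‖ = 1) :
    R.maj (I • e) * R.an e * R.maj (I • e) = - R.cr e := by
  have h := R.maj_conj_an (e := I • e) (by rw [norm_smul, Complex.norm_I, one_mul, he])
  rw [R.an_smul, cr_smul, Complex.conj_I, mul_smul_comm, smul_mul_assoc] at h
  have h2 : R.maj (I • e) * R.an e * R.maj (I • e)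
      = I • ((-I) • (R.maj (I • e) * R.an e * R.maj (I • e))) := by
    rw [smul_smul]; simp
  rw [h2, h, smul_smul]; simp

theorem majI_conj_cr {e : V} (he : ‖e‖ = 1) :
    R.maj (I • e) * R.cr e * R.maj (I • e) = - R.an e := by
  have h := congrArg star (R.majI_conj_an he)
  rw [star_mul, star_mul, star_maj, star_neg, star_cr, ← mul_assoc] at h
  exact h

theorem maj_mul_alg {W : Set V} {w : V} (h : ∀ v ∈ W, (inner ℂ w v : ℂ) = 0) {y : A}
    (hy : y ∈ R.alg W) : R.maj w * y = R.par y * R.maj w := by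
  have h1 := R.an_mul_alg h hy
  have h2 := R.cr_mul_alg h hy
  have hm : R.maj w = R.an w + R.cr w := rfl
  rw [hm, add_mul, mul_add, h1, h2]

/-- twirling kills odd parts and averages the number operator -/
theorem ex1_normal {W : Set V} {e : V} (he : ‖e‖ = 1) (h : ∀ v ∈ W, (inner ℂ e v : ℂ) = 0)
    {a b d f : A} (ha : a ∈ R.alg W) (hb : b ∈ R.alg W) (hd : d ∈ R.alg W) (hf : f ∈ R.alg W)
    (ea : R.par a = a) (eb : R.par b = -b) (ed : R.par d = -d) (ef : R.par f = f) :
    R.ex1 e (a + b * R.an e + d * R.cr e + f * (R.cr e * R.an e)) = a + (2 : ℂ)⁻¹ • f := by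
  have hI : ∀ v ∈ W, (inner ℂ (I • e) v : ℂ) = 0 := by
    intro v hv; rw [inner_smul_left, h v hv, mul_zero]
  have hIn : ‖(I : ℂ) • e‖ = 1 := by rw [norm_I_smul, he]
  have hee : (inner ℂ e e : ℂ) = 1 := by
    rw [inner_self_eq_norm_sq_to_K, he]; simp
  have h1 : R.an e * R.cr e = 1 - R.cr e * R.an e := by
    have := R.an_cr e e
    rw [hee, one_smul] at this
    unfold cr; rw [← this]; abel
  have two : (2 : ℂ) ≠ 0 := two_ne_zero
  -- conjugations by g = maj (I•e)
  set g := R.maj (I • e) with hg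
  set u := R.maj e with hu
  have gg : g * g = 1 := R.maj_sq_one hIn
  have uu : u * u = 1 := R.maj_sq_one he
  have ga : g * a = a * g := by rw [hg, R.maj_mul_alg hI ha, ea]
  have gb : g * b = - (b * g) := by rw [hg, R.maj_mul_alg hI hb, eb, neg_mul]
  have gd : g * d = - (d * g) := by rw [hg, R.maj_mul_alg hI hd, ed, neg_mul]
  have gf : g * f = f * g := by rw [hg, R.maj_mul_alg hI hf, ef]
  have ua : u * a = a * u := by rw [hu, R.maj_mul_alg h ha, ea]
  have ub : u * b = - (b * u) := by rw [hu, R.maj_mul_alg h hb, eb, neg_mul]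
  have ud : u * d = - (d * u) := by rw [hu, R.maj_mul_alg h hd, ed, neg_mul]
  have uf : u * f = f * u := by rw [hu, R.maj_mul_alg h hf, ef]
  have g1 : g * R.an e * g = - R.cr e := R.majI_conj_an he
  have g2 : g * R.cr e * g = - R.an e := R.majI_conj_cr he
  have u1 : u * R.an e * u = R.cr e := R.maj_conj_an he
  have u2 : u * R.cr e * u = R.an e := R.maj_conj_cr he
  have g3 : g * (R.cr e * R.an e) * g = R.an e * R.cr e := by
    calc g * (R.cr e * R.an e) * g = (g * R.cr e * g) * (g * R.an e * g) := by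
          have : (g * R.cr e * g) * (g * R.an e * g) = g * R.cr e * (g * g) * R.an e * g := by
            noncomm_ring
          rw [this, gg]; noncomm_ring
      _ = _ := by rw [g1, g2]; noncomm_ring
  -- first twirl
  have t1 : R.tw (I • e) (a + b * R.an e + d * R.cr e + f * (R.cr e * R.an e))
      = a + (2 : ℂ)⁻¹ • (b * R.an e + b * R.cr e + d * R.cr e + d * R.an e) + (2 : ℂ)⁻¹ • f := by
    unfold tw
    have c1 : g * (a + b * R.an e + d * R.cr e + f * (R.cr e * R.an e)) * g
        = a + b * R.cr e + d * R.an e + f * (1 - R.cr e * R.an e) := by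
      calc g * (a + b * R.an e + d * R.cr e + f * (R.cr e * R.an e)) * g
          = (g * a) * g + (g * b) * R.an e * g + (g * d) * R.cr e * g
            + (g * f) * (R.cr e * R.an e) * g := by noncomm_ring
        _ = a * (g * g) - b * (g * R.an e * g) - d * (g * R.cr e * g)
            + f * (g * (R.cr e * R.an e) * g) := by rw [ga, gb, gd, gf]; noncomm_ring
        _ = _ := by rw [gg, g1, g2, g3, h1]; noncomm_ring
    rw [c1]
    have c2 : a + b * R.an e + d * R.cr e + f * (R.cr e * R.an e)
        + (a + b * R.cr e + d * R.an e + f * (1 - R.cr e * R.an e))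
        = (2 : ℂ) • a + (b * R.an e + b * R.cr e + d * R.cr e + d * R.an e) + f := by
      rw [two_smul]; noncomm_ring
    rw [c2, smul_add, smul_add, smul_smul, inv_mul_cancel₀ two, one_smul]
  unfold ex1
  rw [t1]
  unfold tw
  have c3 : u * (a + (2 : ℂ)⁻¹ • (b * R.an e + b * R.cr e + d * R.cr e + d * R.an e)
      + (2 : ℂ)⁻¹ • f) * u
      = a - (2 : ℂ)⁻¹ • (b * R.an e + b * R.cr e + d * R.cr e + d * R.an e) + (2 : ℂ)⁻¹ • f := by
    calc u * (a + (2 : ℂ)⁻¹ • (b * R.an e + b * R.cr e + d * R.cr e + d * R.an e)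
          + (2 : ℂ)⁻¹ • f) * u
        = (u * a) * u + (2 : ℂ)⁻¹ • ((u * b) * R.an e * u + (u * b) * R.cr e * u
            + (u * d) * R.cr e * u + (u * d) * R.an e * u) + (2 : ℂ)⁻¹ • ((u * f) * u) := by
          rw [mul_add, mul_add, add_mul, add_mul, mul_smul_comm, smul_mul_assoc, mul_smul_comm,
            smul_mul_assoc]
          congr 2
          congr 1
          noncomm_ring
      _ = a * (u * u) - (2 : ℂ)⁻¹ • (b * (u * R.an e * u) + b * (u * R.cr e * u)
            + d * (u * R.cr e * u) + d * (u * R.an e * u)) + (2 : ℂ)⁻¹ • (f * (u * u)) := by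
          rw [ua, ub, ud, uf, sub_eq_add_neg, ← smul_neg]
          congr 2
          · noncomm_ring
          · congr 1
            noncomm_ring
          · noncomm_ring
      _ = _ := by
          rw [uu, u1, u2, mul_one, mul_one]
          congr 2
          congr 1
          abel
  rw [c3]
  have c4 : a + (2 : ℂ)⁻¹ • (b * R.an e + b * R.cr e + d * R.cr e + d * R.an e) + (2 : ℂ)⁻¹ • f
      + (a - (2 : ℂ)⁻¹ • (b * R.an e + b * R.cr e + d * R.cr e + d * R.an e) + (2 : ℂ)⁻¹ • f)
      = (2 : ℂ) • (a + (2 : ℂ)⁻¹ • f) := by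
    rw [two_smul]; abel
  rw [c4, smul_smul, inv_mul_cancel₀ two, one_smul]

/-- even part -/
noncomputable def evp (a : A) : A := (2 : ℂ)⁻¹ • (a + R.par a)
/-- odd part -/
noncomputable def odp (a : A) : A := (2 : ℂ)⁻¹ • (a - R.par a)

theorem par_evp (a : A) : R.par (R.evp a) = R.evp a := by
  unfold evp; rw [par_smul, par_add, par_par]; congr 1; abel

theorem par_odp (a : A) : R.par (R.odp a) = - R.odp a := by
  unfold odp; rw [par_smul, par_sub, par_par, ← smul_neg]; congr 1; abel

theorem evp_mem {W : Set V} {a : A} (ha : a ∈ R.alg W) : R.evp a ∈ R.alg W :=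
  Subalgebra.smul_mem _ (Subalgebra.add_mem _ ha (R.par_mem_alg ha)) _

theorem odp_mem {W : Set V} {a : A} (ha : a ∈ R.alg W) : R.odp a ∈ R.alg W :=
  Subalgebra.smul_mem _ (Subalgebra.sub_mem _ ha (R.par_mem_alg ha)) _

/-- the conditional expectation of an even element of the algebra of `insert e W` lies in the
algebra of `W`. -/
theorem ex1_mem {W : Set V} {e : V} (he : ‖e‖ = 1) (h : ∀ v ∈ W, (inner ℂ e v : ℂ) = 0)
    {y : A} (hy : y ∈ R.alg (insert e W)) (hev : R.Ev y) : R.ex1 e y ∈ R.alg W := by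
  obtain ⟨a, ha, b, hb, d, hd, f, hf, rfl⟩ := R.normal_form he h hy
  have two : (2 : ℂ) ≠ 0 := two_ne_zero
  have key : a + b * R.an e + d * R.cr e + f * (R.cr e * R.an e)
      = R.evp a + R.odp b * R.an e + R.odp d * R.cr e + R.evp f * (R.cr e * R.an e) := by
    have h1 : R.par (a + b * R.an e + d * R.cr e + f * (R.cr e * R.an e))
        = R.par a - R.par b * R.an e - R.par d * R.cr e + R.par f * (R.cr e * R.an e) := by
      rw [par_add, par_add, par_add, par_mul, par_mul, par_mul, par_mul, par_an, par_cr]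
      noncomm_ring
    have h2 : a + b * R.an e + d * R.cr e + f * (R.cr e * R.an e)
        = (2 : ℂ)⁻¹ • ((a + b * R.an e + d * R.cr e + f * (R.cr e * R.an e))
          + R.par (a + b * R.an e + d * R.cr e + f * (R.cr e * R.an e))) := by
      have : R.par (a + b * R.an e + d * R.cr e + f * (R.cr e * R.an e))
          = a + b * R.an e + d * R.cr e + f * (R.cr e * R.an e) := hev
      rw [this, ← two_smul ℂ, smul_smul, inv_mul_cancel₀ two, one_smul]
    rw [h2, h1]
    unfold evp odp
    rw [smul_mul_assoc, smul_mul_assoc, smul_mul_assoc, ← smul_add, ← smul_add, ← smul_add]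
    congr 1
    noncomm_ring
  rw [key, R.ex1_normal he h (R.evp_mem ha) (R.odp_mem hb) (R.odp_mem hd) (R.evp_mem hf)
    (R.par_evp _) (R.par_odp _) (R.par_odp _) (R.par_evp _)]
  exact Subalgebra.add_mem _ (R.evp_mem ha) (Subalgebra.smul_mem _ (R.evp_mem hf) _)

/-- list version -/
theorem ex_mem (l : List V) : ∀ (W : Set V), (∀ v ∈ l, ‖v‖ = 1) →
    (l.Pairwise fun v w => (inner ℂ v w : ℂ) = 0) →
    (∀ e ∈ l, ∀ v ∈ W, (inner ℂ e v : ℂ) = 0) →
    ∀ {y : A}, y ∈ R.alg (W ∪ {v | v ∈ l}) → R.Ev y → R.ex l y ∈ R.alg W := by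
  induction l with
  | nil =>
    intro W _ _ _ y hy _
    simpa using hy
  | cons v l ih =>
    intro W hn ho hW y hy hev
    rw [List.pairwise_cons] at ho
    rw [ex_cons]
    refine R.ex1_mem (hn v (by simp)) (hW v (by simp)) ?_ (hev.ex l)
    refine ih (insert v W) (fun w hw => hn w (by simp [hw])) ho.2 ?_ ?_ hev
    · rintro e he w (rfl | hw)
      · rw [← inner_conj_symm, ho.1 e he, map_zero]
      · exact hW e (by simp [he]) w hw
    · convert hy using 2
      ext w
      simp only [Set.mem_union, Set.mem_insert_iff, Set.mem_setOf_eq, List.mem_cons]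
      tauto

end Car

end Crest.Agent.R340.QL331
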