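import Crest.Agent.R340.DC0_867

/-!
Quasi-local calculus, part 4 (helper331): the profile class `PC m C X x` and its closure
properties, on an abstract frame `u : Fin 2 → S → V` over a measure space `S` with a distance `d`.
Main results: `PC_O` (quadratic map, same exponent) and `PC_W` (commutators with integrals of
families).
-/

set_option autoImplicit false
set_option linter.unusedSectionVars false

open scoped ENNReal NNReal
open MeasureTheory

namespace Crest.Agent.R340.QL331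

open Crest.Agent.R340.LR667 Crest.Agent.R340.DC867

variable {A V : Type*} [CStarAlgebra A] [NormedAddCommGroup V] [InnerProductSpace ℂ V]
  (R : Car A V) {S : Type*} (u : Fin 2 → S → V) (d : S → S → ℝ)

/-- The profile class: `‖X‖ ≤ C` and all commutators with generators decay like `(1+d)^{-m}`. -/
def PC (m : ℕ) (C : ℝ) (X : A) (x : S) : Prop :=
  ‖X‖ ≤ C ∧ ∀ k w, ‖⁅X, gen R u k w⁆‖ ≤ C / (1 + d w x) ^ m

variable {R u d}

theorem norm_star_lie (X Y : A) : ‖⁅star X, star Y⁆‖ = ‖⁅X, Y⁆‖ := by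
  have e : ⁅star X, star Y⁆ = -star ⁅X, Y⁆ := by
    simp only [Ring.lie_def, star_sub, star_mul]
    abel
  rw [e, norm_neg, norm_star]

theorem lie_swap (X Y : A) : ⁅X, Y⁆ = -⁅Y, X⁆ := by simp only [Ring.lie_def]; abel

theorem norm_lie_swap (X Y : A) : ‖⁅X, Y⁆‖ = ‖⁅Y, X⁆‖ := by rw [lie_swap, norm_neg]

theorem norm_star_lie_gen (X : A) (k : Fin 2 × Bool) (w : S) :
    ‖⁅star X, gen R u k w⁆‖ = ‖⁅X, gen R u (k.1, !k.2) w⁆‖ := by
  obtain ⟨k, b⟩ := k
  have h := norm_star_lie X (gen R u (k, !b) w)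
  rw [star_gen, Bool.not_not] at h
  exact h

section basic

variable {m : ℕ} {C C' : ℝ} {X Y : A} {x : S}

theorem PC.nonneg (h : PC R u d m C X x) : 0 ≤ C := (norm_nonneg _).trans h.1

theorem PC.mono (hd : ∀ w, 0 ≤ d w x) (h : PC R u d m C X x) (hC : C ≤ C') :
    PC R u d m C' X x := by
  refine ⟨h.1.trans hC, fun k w => (h.2 k w).trans ?_⟩
  have : 0 < 1 + d w x := by linarith [hd w]
  gcongr

theorem PC.mono_exp {m' : ℕ} (hd : ∀ w, 0 ≤ d w x) (h : PC R u d m C X x) (hm : m' ≤ m) :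
    PC R u d m' C X x := by
  refine ⟨h.1, fun k w => (h.2 k w).trans ?_⟩
  have h1 : 1 ≤ 1 + d w x := by linarith [hd w]
  have h2 : (1 + d w x) ^ m' ≤ (1 + d w x) ^ m := pow_le_pow_right₀ h1 hm
  have h3 := h.nonneg
  gcongr

theorem PC.star (h : PC R u d m C X x) : PC R u d m C (star X) x := by
  refine ⟨by rw [norm_star]; exact h.1, fun k w => ?_⟩
  rw [norm_star_lie_gen]; exact h.2 _ _

theorem PC.add (h : PC R u d m C X x) (h' : PC R u d m C' Y x) :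
    PC R u d m (C + C') (X + Y) x := by
  refine ⟨(norm_add_le _ _).trans (add_le_add h.1 h'.1), fun k w => ?_⟩
  rw [add_lie', add_div]
  exact (norm_add_le _ _).trans (add_le_add (h.2 k w) (h'.2 k w))

theorem PC.neg (h : PC R u d m C X x) : PC R u d m C (-X) x := by
  refine ⟨by rw [norm_neg]; exact h.1, fun k w => ?_⟩
  rw [neg_lie', norm_neg]; exact h.2 k w

theorem PC.sub (h : PC R u d m C X x) (h' : PC R u d m C' Y x) :
    PC R u d m (C + C') (X - Y) x := by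
  rw [sub_eq_add_neg]; exact h.add h'.neg

theorem PC.smul (h : PC R u d m C X x) (z : ℂ) : PC R u d m (‖z‖ * C) (z • X) x := by
  refine ⟨by rw [norm_smul]; exact mul_le_mul_of_nonneg_left h.1 (norm_nonneg _), fun k w => ?_⟩
  rw [smul_lie', norm_smul, mul_div_assoc]
  exact mul_le_mul_of_nonneg_left (h.2 k w) (norm_nonneg _)

theorem PC.one (hd : ∀ w, 0 ≤ d w x) (m : ℕ) : PC R u d m 1 (1 : A) x := by
  refine ⟨?_, fun k w => ?_⟩
  · rcases subsingleton_or_nontrivial A with hA | hA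
    · rw [Subsingleton.elim (1 : A) 0, norm_zero]; exact zero_le_one
    · rw [CStarRing.norm_one]
  · have : ⁅(1 : A), gen R u k w⁆ = 0 := by rw [Ring.lie_def]; simp
    rw [this, norm_zero]
    have : 0 < 1 + d w x := by linarith [hd w]
    positivity

theorem lie_mul_left (X Y Z : A) : ⁅X * Y, Z⁆ = X * ⁅Y, Z⁆ + ⁅X, Z⁆ * Y := by
  simp only [Ring.lie_def, mul_sub, sub_mul, mul_assoc]; abel

theorem lie_mul_right (X Y Z : A) : ⁅X, Y * Z⁆ = ⁅X, Y⁆ * Z + Y * ⁅X, Z⁆ := by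
  simp only [Ring.lie_def, mul_sub, sub_mul, mul_assoc]; abel

theorem norm_lie_mul_left (X Y Z : A) : ‖⁅X * Y, Z⁆‖ ≤ ‖X‖ * ‖⁅Y, Z⁆‖ + ‖⁅X, Z⁆‖ * ‖Y‖ := by
  rw [lie_mul_left]
  exact (norm_add_le _ _).trans (add_le_add (norm_mul_le _ _) (norm_mul_le _ _))

theorem norm_lie_mul_right (X Y Z : A) : ‖⁅X, Y * Z⁆‖ ≤ ‖⁅X, Y⁆‖ * ‖Z‖ + ‖Y‖ * ‖⁅X, Z⁆‖ := by
  rw [lie_mul_right]
  exact (norm_add_le _ _).trans (add_le_add (norm_mul_le _ _) (norm_mul_le _ _))

theorem PC.mul (hd : ∀ w, 0 ≤ d w x) (h : PC R u d m C X x) (h' : PC R u d m C' Y x) :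
    PC R u d m (2 * (C * C')) (X * Y) x := by
  have hC := h.nonneg
  have hC' := h'.nonneg
  refine ⟨?_, fun k w => ?_⟩
  · calc ‖X * Y‖ ≤ ‖X‖ * ‖Y‖ := norm_mul_le _ _
      _ ≤ C * C' := mul_le_mul h.1 h'.1 (norm_nonneg _) hC
      _ ≤ 2 * (C * C') := by nlinarith [mul_nonneg hC hC']
  · have hp : 0 < (1 + d w x) ^ m := by have := hd w; positivity
    calc ‖⁅X * Y, gen R u k w⁆‖ ≤ ‖X‖ * ‖⁅Y, gen R u k w⁆‖ + ‖⁅X, gen R u k w⁆‖ * ‖Y‖ :=
          norm_lie_mul_left _ _ _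
      _ ≤ C * (C' / (1 + d w x) ^ m) + C / (1 + d w x) ^ m * C' := by
          gcongr
          · exact h.1
          · exact h'.2 k w
          · exact h.2 k w
          · exact h'.1
      _ = 2 * (C * C') / (1 + d w x) ^ m := by ring

theorem PC.lie (hd : ∀ w, 0 ≤ d w x) (h : PC R u d m C X x) (h' : PC R u d m C' Y x) :
    PC R u d m (4 * (C * C')) ⁅X, Y⁆ x := by
  rw [Ring.lie_def]
  have h1 := (h.mul hd h').sub (h'.mul hd h)
  convert h1 using 1
  ring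

end basic

/-! ### Commutators with the pair annihilators -/

section pair

variable {m : ℕ} {C C' : ℝ} {X Y : A} {x : S}

theorem norm_lie_Bz_le (hu : ∀ k z, ‖u k z‖ ≤ 1) {X : A} {y : S} {P : ℝ}
    (h : ∀ k, ‖⁅X, gen R u k y⁆‖ ≤ P) : ‖⁅X, Bz R u y⁆‖ ≤ 2 * P := by
  have h0 := h (0, false)
  have h1 := h (1, false)
  rw [gen_false] at h0 h1
  have n0 : ‖R.an (u 0 y)‖ ≤ 1 := (R.norm_an_le _).trans (hu 0 y)
  have n1 : ‖R.an (u 1 y)‖ ≤ 1 := (R.norm_an_le _).trans (hu 1 y)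
  unfold Bz
  have hP : 0 ≤ P := (norm_nonneg _).trans h0
  calc ‖⁅X, R.an (u 1 y) * R.an (u 0 y)⁆‖
      ≤ ‖⁅X, R.an (u 1 y)⁆‖ * ‖R.an (u 0 y)‖ + ‖R.an (u 1 y)‖ * ‖⁅X, R.an (u 0 y)⁆‖ :=
        norm_lie_mul_right _ _ _
    _ ≤ P * 1 + 1 * P := by gcongr
    _ = 2 * P := by ring

theorem norm_Bz_le (hu : ∀ k z, ‖u k z‖ ≤ 1) (y : S) : ‖Bz R u y‖ ≤ 1 := by
  have n0 : ‖R.an (u 0 y)‖ ≤ 1 := (R.norm_an_le _).trans (hu 0 y)
  have n1 : ‖R.an (u 1 y)‖ ≤ 1 := (R.norm_an_le _).trans (hu 1 y)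
  unfold Bz
  calc ‖R.an (u 1 y) * R.an (u 0 y)‖ ≤ ‖R.an (u 1 y)‖ * ‖R.an (u 0 y)‖ := norm_mul_le _ _
    _ ≤ 1 * 1 := by gcongr
    _ = 1 := one_mul 1

theorem PC.lie_Bz (hu : ∀ k z, ‖u k z‖ ≤ 1) (h : PC R u d m C X x) (y : S) :
    ‖⁅Bz R u y, X⁆‖ ≤ 2 * C / (1 + d y x) ^ m := by
  rw [norm_lie_swap]
  have := norm_lie_Bz_le hu (fun k => h.2 k y)
  rwa [← mul_div_assoc] at this

/-- the overlap kernel -/
noncomputable def kp (u : Fin 2 → S → V) (y w : S) : ℝ :=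
  ∑ k : Fin 2, (‖(inner ℂ (u k w) (u 0 y) : ℂ)‖ + ‖(inner ℂ (u k w) (u 1 y) : ℂ)‖)

theorem kp_nonneg (y w : S) : 0 ≤ kp u y w := by unfold kp; positivity

theorem le_kp (k : Fin 2) (y w : S) :
    ‖(inner ℂ (u k w) (u 0 y) : ℂ)‖ + ‖(inner ℂ (u k w) (u 1 y) : ℂ)‖ ≤ kp u y w := by
  unfold kp
  exact Finset.single_le_sum (f := fun k : Fin 2 =>
    ‖(inner ℂ (u k w) (u 0 y) : ℂ)‖ + ‖(inner ℂ (u k w) (u 1 y) : ℂ)‖)
    (fun _ _ => by positivity) (Finset.mem_univ k)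

theorem lie_Bz_an (y : S) (v : V) : ⁅Bz R u y, R.an v⁆ = 0 := by
  rw [Ring.lie_def, Bz_comm_an, sub_self]

theorem lie_Bz_cr (y : S) (v : V) :
    ⁅Bz R u y, R.cr v⁆ = (starRingEnd ℂ) (inner ℂ v (u 0 y) : ℂ) • R.an (u 1 y)
      - (starRingEnd ℂ) (inner ℂ v (u 1 y) : ℂ) • R.an (u 0 y) := by
  have h := congrArg star (lie_star_Bz_an R u y v)
  simp only [Ring.lie_def, star_sub, star_mul, star_star, star_smul, R.star_cr] at h
  have e1 : star (R.an v) = R.cr v := rfl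
  rw [e1] at h
  rw [Ring.lie_def, ← neg_sub, h]
  simp only [RCLike.star_def]
  abel

/-- commutator with `⁅B_y, generator at w⁆` -/
theorem norm_lie_lie_Bz_le {X : A} {y : S} {P : ℝ} (h : ∀ k, ‖⁅X, gen R u k y⁆‖ ≤ P)
    (k : Fin 2 × Bool) (w : S) : ‖⁅X, ⁅Bz R u y, gen R u k w⁆⁆‖ ≤ kp u y w * P := by
  have hP : 0 ≤ P := (norm_nonneg _).trans (h (0, false))
  obtain ⟨k, b⟩ := k
  cases b
  · rw [gen_false, lie_Bz_an]
    have : ⁅X, (0 : A)⁆ = 0 := by rw [Ring.lie_def]; simp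
    rw [this, norm_zero]
    exact mul_nonneg (kp_nonneg _ _) hP
  · rw [gen_true, lie_Bz_cr, lie_sub', lie_smul', lie_smul']
    refine (norm_sub_le _ _).trans ?_
    rw [norm_smul, norm_smul, RCLike.norm_conj, RCLike.norm_conj]
    have h0 := h (0, false)
    have h1 := h (1, false)
    rw [gen_false] at h0 h1
    calc ‖(inner ℂ (u k w) (u 0 y) : ℂ)‖ * ‖⁅X, R.an (u 1 y)⁆‖
          + ‖(inner ℂ (u k w) (u 1 y) : ℂ)‖ * ‖⁅X, R.an (u 0 y)⁆‖
        ≤ ‖(inner ℂ (u k w) (u 0 y) : ℂ)‖ * P + ‖(inner ℂ (u k w) (u 1 y) : ℂ)‖ * P := by gcongr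
      _ = (‖(inner ℂ (u k w) (u 0 y) : ℂ)‖ + ‖(inner ℂ (u k w) (u 1 y) : ℂ)‖) * P := by ring
      _ ≤ kp u y w * P := mul_le_mul_of_nonneg_right (le_kp k y w) hP

theorem norm_lie_Bz_gen_le (hu : ∀ k z, ‖u k z‖ ≤ 1) (y : S) (k : Fin 2 × Bool) (w : S) :
    ‖⁅Bz R u y, gen R u k w⁆‖ ≤ kp u y w := by
  obtain ⟨k, b⟩ := k
  cases b
  · rw [gen_false, lie_Bz_an, norm_zero]; exact kp_nonneg _ _
  · rw [gen_true, lie_Bz_cr]
    refine (norm_sub_le _ _).trans ?_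
    rw [norm_smul, norm_smul, RCLike.norm_conj, RCLike.norm_conj]
    have n0 : ‖R.an (u 0 y)‖ ≤ 1 := (R.norm_an_le _).trans (hu 0 y)
    have n1 : ‖R.an (u 1 y)‖ ≤ 1 := (R.norm_an_le _).trans (hu 1 y)
    refine le_trans ?_ (le_kp k y w)
    calc _ ≤ ‖(inner ℂ (u k w) (u 0 y) : ℂ)‖ * 1 + ‖(inner ℂ (u k w) (u 1 y) : ℂ)‖ * 1 := by gcongr
      _ = _ := by ring

theorem lie_lie_jacobi (X Y Z : A) : ⁅⁅X, Y⁆, Z⁆ = ⁅X, ⁅Y, Z⁆⁆ - ⁅Y, ⁅X, Z⁆⁆ := by
  simp only [Ring.lie_def, mul_sub, sub_mul, mul_assoc]; abel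

/-- double commutators `⁅⁅B_y, X⁆, a(w)⁆` -/
theorem PC.lie_lie_Bz (hu : ∀ k z, ‖u k z‖ ≤ 1) (h : PC R u d m C X x) (y : S)
    (k : Fin 2 × Bool) (w : S) :
    ‖⁅⁅Bz R u y, X⁆, gen R u k w⁆‖ ≤
      2 * C / (1 + d w x) ^ m + kp u y w * (C / (1 + d y x) ^ m) := by
  rw [lie_lie_jacobi]
  refine (norm_sub_le _ _).trans (add_le_add ?_ ?_)
  · have h1 := norm_lie_le (Bz R u y) ⁅X, gen R u k w⁆
    have h2 := norm_Bz_le (R := R) hu y
    have h3 := h.2 k w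
    calc _ ≤ 2 * ‖Bz R u y‖ * ‖⁅X, gen R u k w⁆‖ := h1
      _ ≤ 2 * 1 * (C / (1 + d w x) ^ m) := by gcongr
      _ = _ := by ring
  · exact norm_lie_lie_Bz_le (fun k => h.2 k y) k w

end pair

/-! ### The quadratic map -/

section quadratic

variable [MeasurableSpace S] {ν : Measure S}

/-- Schur hypotheses for the frame -/
structure Schur (ν : Measure S) (u : Fin 2 → S → V) (d : S → S → ℝ) (Cs : ℝ) (K : ℕ → ℝ) :
    Prop where
  u_le : ∀ k z, ‖u k z‖ ≤ 1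
  d_nonneg : ∀ x y, 0 ≤ d x y
  d_symm : ∀ x y, d x y = d y x
  d_tri : ∀ x y z, d x z ≤ d x y + d y z
  Cs_nonneg : 0 ≤ Cs
  K_nonneg : ∀ a, 0 ≤ K a
  int3 : ∀ x, Integrable (fun y => 1 / (1 + d x y) ^ 3) ν ∧ ∫ y, 1 / (1 + d x y) ^ 3 ∂ν ≤ Cs
  kp_le : ∀ (a : ℕ) y w, kp u y w ≤ K a / (1 + d y w) ^ a

variable {Cs : ℝ} {K : ℕ → ℝ}

theorem Schur.one_le (hS : Schur ν u d Cs K) (x y : S) : 1 ≤ 1 + d x y := by
  linarith [hS.d_nonneg x y]

theorem Schur.pos (hS : Schur ν u d Cs K) (x y : S) : 0 < 1 + d x y := by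
  linarith [hS.d_nonneg x y]

theorem Schur.mul_tri (hS : Schur ν u d Cs K) (x y z : S) :
    1 + d x z ≤ (1 + d x y) * (1 + d y z) := by
  nlinarith [hS.d_tri x y z, hS.d_nonneg x y, hS.d_nonneg y z,
    mul_nonneg (hS.d_nonneg x y) (hS.d_nonneg y z)]

/-- kernel bound with weights: `kp(y,w) (1+d(x,y))^{-a} ≤ K_{a+3} (1+d(y,w))^{-3} (1+d(x,w))^{-a}` -/
theorem Schur.kp_weight (hS : Schur ν u d Cs K) (a : ℕ) (x y w : S) :
    kp u y w * (1 / (1 + d x y) ^ a) ≤ K (a + 3) * (1 / (1 + d w y) ^ 3) * (1 / (1 + d x w) ^ a) := by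
  have h1 := hS.kp_le (a + 3) y w
  have p1 := hS.pos x y
  have p2 := hS.pos y w
  have p3 := hS.pos x w
  have hK := hS.K_nonneg (a + 3)
  rw [hS.d_symm w y]
  have h2 : (1 + d x w) ^ a ≤ (1 + d x y) ^ a * (1 + d y w) ^ a := by
    rw [← mul_pow]
    exact pow_le_pow_left₀ p3.le (hS.mul_tri x y w) a
  have h3 : 1 / ((1 + d x y) ^ a * (1 + d y w) ^ a) ≤ 1 / (1 + d x w) ^ a :=
    one_div_le_one_div_of_le (by positivity) h2
  calc kp u y w * (1 / (1 + d x y) ^ a)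
      ≤ K (a + 3) / (1 + d y w) ^ (a + 3) * (1 / (1 + d x y) ^ a) := by gcongr
    _ = K (a + 3) * (1 / (1 + d y w) ^ 3) * (1 / ((1 + d x y) ^ a * (1 + d y w) ^ a)) := by
        rw [pow_add]; field_simp
    _ ≤ _ := by gcongr

/-- the integrand of the quadratic map -/
noncomputable def Oint (R : Car A V) (u : Fin 2 → S → V) (d : S → S → ℝ) (T : A) (x y : S) : A :=
  ((1 + d x y) ^ 3 : ℝ) • (star ⁅Bz R u y, T⁆ * ⁅Bz R u y, T⁆)

/-- the quadratic map -/
noncomputable def Oq (ν : Measure S) (R : Car A V) (u : Fin 2 → S → V) (d : S → S → ℝ) (T : A)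
    (x : S) : A := ∫ y, Oint R u d T x y ∂ν

theorem norm_Oint_le (hS : Schur ν u d Cs K) {m : ℕ} (hm : 3 ≤ m) {C : ℝ} {T : A} {x : S}
    (h : PC R u d m C T x) (y : S) :
    ‖Oint R u d T x y‖ ≤ 4 * C ^ 2 * (1 / (1 + d x y) ^ 3) := by
  have hC := h.nonneg
  have h1 := h.lie_Bz hS.u_le y
  rw [hS.d_symm y x] at h1
  have p := hS.pos x y
  unfold Oint
  rw [norm_smul, CStarRing.norm_star_mul_self]
  have h2 : ‖((1 + d x y) ^ 3 : ℝ)‖ = (1 + d x y) ^ 3 := by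
    rw [Real.norm_eq_abs, abs_of_nonneg (by positivity)]
  rw [h2]
  calc (1 + d x y) ^ 3 * (‖⁅Bz R u y, T⁆‖ * ‖⁅Bz R u y, T⁆‖)
      ≤ (1 + d x y) ^ 3 * ((2 * C / (1 + d x y) ^ m) * (2 * C / (1 + d x y) ^ m)) := by gcongr
    _ = 4 * C ^ 2 * ((1 + d x y) ^ 3 / ((1 + d x y) ^ m * (1 + d x y) ^ m)) := by ring
    _ ≤ 4 * C ^ 2 * (1 / (1 + d x y) ^ 3) := by
        have h3 : (1 + d x y) ^ 3 / ((1 + d x y) ^ m * (1 + d x y) ^ m) ≤ 1 / (1 + d x y) ^ 3 := by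
          rw [div_le_div_iff₀ (by positivity) (by positivity), one_mul]
          have h4 : (1 + d x y) ^ 3 ≤ (1 + d x y) ^ m := pow_le_pow_right₀ (hS.one_le x y) hm
          have h5 : 0 ≤ (1 + d x y) ^ 3 := by positivity
          exact mul_le_mul h4 h4 h5 (by positivity)
        gcongr

theorem norm_lie_Oint_le (hS : Schur ν u d Cs K) {m : ℕ} (hm : 6 ≤ m) {C : ℝ} {T : A} {x : S}
    (h : PC R u d m C T x) (k : Fin 2 × Bool) (w y : S) :
    ‖⁅Oint R u d T x y, gen R u k w⁆‖ ≤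
      (8 * C ^ 2 * (1 / (1 + d x y) ^ 3) + 4 * C ^ 2 * K (m + 3) * (1 / (1 + d w y) ^ 3))
        * (1 / (1 + d w x) ^ m) := by
  have hC := h.nonneg
  have h1 := h.lie_Bz hS.u_le y
  rw [hS.d_symm y x] at h1
  have p := hS.pos x y
  have pw := hS.pos x w
  set D := ⁅Bz R u y, T⁆ with hD
  have h2 : ∀ k, ‖⁅D, gen R u k w⁆‖ ≤
      2 * C / (1 + d x w) ^ m + kp u y w * (C / (1 + d x y) ^ m) := by
    intro k
    have := h.lie_lie_Bz hS.u_le y k w
    rwa [hS.d_symm w x, hS.d_symm y x] at this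
  have h3 : ‖⁅star D, gen R u k w⁆‖ ≤
      2 * C / (1 + d x w) ^ m + kp u y w * (C / (1 + d x y) ^ m) := by
    rw [norm_star_lie_gen]; exact h2 _
  set P := 2 * C / (1 + d x w) ^ m + kp u y w * (C / (1 + d x y) ^ m) with hP
  have hP0 : 0 ≤ P := (norm_nonneg _).trans (h2 k)
  have h4 : ‖⁅star D * D, gen R u k w⁆‖ ≤ 2 * (2 * C / (1 + d x y) ^ m) * P := by
    calc _ ≤ ‖star D‖ * ‖⁅D, gen R u k w⁆‖ + ‖⁅star D, gen R u k w⁆‖ * ‖D‖ :=
          norm_lie_mul_left _ _ _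
      _ ≤ (2 * C / (1 + d x y) ^ m) * P + P * (2 * C / (1 + d x y) ^ m) := by
          rw [norm_star]
          gcongr
          exact h2 k
      _ = _ := by ring
  have e : ⁅Oint R u d T x y, gen R u k w⁆
      = ((1 + d x y) ^ 3 : ℝ) • ⁅star D * D, gen R u k w⁆ := by
    unfold Oint
    rw [← hD]
    simp only [Ring.lie_def, mul_smul_comm, smul_mul_assoc, smul_sub]
  rw [e, norm_smul]
  have h5 : ‖((1 + d x y) ^ 3 : ℝ)‖ = (1 + d x y) ^ 3 := by
    rw [Real.norm_eq_abs, abs_of_nonneg (by positivity)]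
  rw [h5, hS.d_symm w x]
  -- arithmetic
  have q1 : (1 + d x y) ^ 3 * (1 / (1 + d x y) ^ m) ≤ 1 / (1 + d x y) ^ 3 := by
    rw [mul_one_div, div_le_div_iff₀ (by positivity) (by positivity), one_mul, ← pow_add]
    exact pow_le_pow_right₀ (hS.one_le x y) (by omega)
  have q2 : (1 + d x y) ^ 3 * (1 / (1 + d x y) ^ m) * (1 / (1 + d x y) ^ m)
      ≤ 1 / (1 + d x y) ^ m := by
    have : (1 + d x y) ^ 3 * (1 / (1 + d x y) ^ m) ≤ 1 := by
      rw [mul_one_div, div_le_one (by positivity)]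
      exact pow_le_pow_right₀ (hS.one_le x y) (by omega)
    calc _ ≤ 1 * (1 / (1 + d x y) ^ m) := by gcongr
      _ = _ := one_mul _
  have q3 := hS.kp_weight m x y w
  have hk := kp_nonneg (u := u) y w
  calc (1 + d x y) ^ 3 * ‖⁅star D * D, gen R u k w⁆‖
      ≤ (1 + d x y) ^ 3 * (2 * (2 * C / (1 + d x y) ^ m) * P) := by gcongr
    _ = 8 * C ^ 2 * ((1 + d x y) ^ 3 * (1 / (1 + d x y) ^ m)) * (1 / (1 + d x w) ^ m)
        + 4 * C ^ 2 * kp u y w *
          ((1 + d x y) ^ 3 * (1 / (1 + d x y) ^ m) * (1 / (1 + d x y) ^ m)) := by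
        rw [hP]; ring
    _ ≤ 8 * C ^ 2 * (1 / (1 + d x y) ^ 3) * (1 / (1 + d x w) ^ m)
        + 4 * C ^ 2 * kp u y w * (1 / (1 + d x y) ^ m) := by gcongr
    _ = 8 * C ^ 2 * (1 / (1 + d x y) ^ 3) * (1 / (1 + d x w) ^ m)
        + 4 * C ^ 2 * (kp u y w * (1 / (1 + d x y) ^ m)) := by ring
    _ ≤ 8 * C ^ 2 * (1 / (1 + d x y) ^ 3) * (1 / (1 + d x w) ^ m)
        + 4 * C ^ 2 * (K (m + 3) * (1 / (1 + d w y) ^ 3) * (1 / (1 + d x w) ^ m)) := by gcongr
    _ = _ := by ring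

theorem star_Oint (T : A) (x y : S) : star (Oint R u d T x y) = Oint R u d T x y := by
  unfold Oint
  rw [star_smul, star_mul, star_star]
  simp

theorem star_Oq (T : A) (x : S) : star (Oq ν R u d T x) = Oq ν R u d T x := by
  unfold Oq
  have h := (starL' ℝ (A := A)).integral_comp_comm (μ := ν) (Oint R u d T x)
  have h2 : ∀ a : A, (starL' ℝ (A := A)) a = star a := fun _ => rfl
  simp only [h2] at h
  rw [← h]
  exact integral_congr_ae (Filter.Eventually.of_forall fun y => star_Oint T x y)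

/-- **The quadratic map preserves the profile class, with the same exponent.** -/
theorem PC_O (hS : Schur ν u d Cs K) {m : ℕ} (hm : 6 ≤ m) {C : ℝ} {T : A} {x : S}
    (h : PC R u d m C T x) :
    PC R u d m ((8 * Cs + 4 * K (m + 3) * Cs) * C ^ 2) (Oq ν R u d T x) x := by
  have hC := h.nonneg
  have hCs := hS.Cs_nonneg
  have hK := hS.K_nonneg (m + 3)
  refine ⟨?_, fun k w => ?_⟩
  · unfold Oq
    calc ‖∫ y, Oint R u d T x y ∂ν‖ ≤ ∫ y, 4 * C ^ 2 * (1 / (1 + d x y) ^ 3) ∂ν :=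
          norm_integral_le_of_norm_le ((hS.int3 x).1.const_mul _)
            (Filter.Eventually.of_forall fun y => norm_Oint_le hS (by omega) h y)
      _ = 4 * C ^ 2 * ∫ y, 1 / (1 + d x y) ^ 3 ∂ν := integral_const_mul _ _
      _ ≤ 4 * C ^ 2 * Cs := by gcongr; exact (hS.int3 x).2
      _ ≤ _ := by
        have : 0 ≤ C ^ 2 * Cs := by positivity
        have : 0 ≤ K (m + 3) * Cs * C ^ 2 := by positivity
        nlinarith
  · by_cases hi : Integrable (Oint R u d T x) ν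
    · unfold Oq
      rw [integral_lie ν hi]
      have pw := hS.pos w x
      have hb : ∀ y, ‖⁅Oint R u d T x y, gen R u k w⁆‖ ≤
          (8 * C ^ 2 * (1 / (1 + d x y) ^ 3) + 4 * C ^ 2 * K (m + 3) * (1 / (1 + d w y) ^ 3))
            * (1 / (1 + d w x) ^ m) := fun y => norm_lie_Oint_le hS hm h k w y
      have hi2 : Integrable (fun y => (8 * C ^ 2 * (1 / (1 + d x y) ^ 3)
          + 4 * C ^ 2 * K (m + 3) * (1 / (1 + d w y) ^ 3)) * (1 / (1 + d w x) ^ m)) ν :=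
        (((hS.int3 x).1.const_mul _).add ((hS.int3 w).1.const_mul _)).mul_const _
      calc ‖∫ y, ⁅Oint R u d T x y, gen R u k w⁆ ∂ν‖
          ≤ ∫ y, (8 * C ^ 2 * (1 / (1 + d x y) ^ 3)
            + 4 * C ^ 2 * K (m + 3) * (1 / (1 + d w y) ^ 3)) * (1 / (1 + d w x) ^ m) ∂ν :=
            norm_integral_le_of_norm_le hi2 (Filter.Eventually.of_forall hb)
        _ = (8 * C ^ 2 * (∫ y, 1 / (1 + d x y) ^ 3 ∂ν)
            + 4 * C ^ 2 * K (m + 3) * ∫ y, 1 / (1 + d w y) ^ 3 ∂ν) * (1 / (1 + d w x) ^ m) := by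
            rw [integral_mul_const, integral_add ((hS.int3 x).1.const_mul _)
              ((hS.int3 w).1.const_mul _), integral_const_mul, integral_const_mul]
        _ ≤ (8 * C ^ 2 * Cs + 4 * C ^ 2 * K (m + 3) * Cs) * (1 / (1 + d w x) ^ m) := by
            have i1 := (hS.int3 x).2
            have i2 := (hS.int3 w).2
            gcongr
        _ = _ := by ring
    · unfold Oq
      rw [integral_undef hi]
      have : ⁅(0 : A), gen R u k w⁆ = 0 := by rw [Ring.lie_def]; simp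
      rw [this, norm_zero]
      have pw := hS.pos w x
      positivity

/-- integrals over a label at a fixed centre -/
theorem PC_integral {T' : Type*} [MeasurableSpace T'] {μ : Measure T'} {m : ℕ} {x : S}
    {Y : T' → A} {c : T' → ℝ} (hd : ∀ w, 0 ≤ d w x) (hc : Integrable c μ)
    (h : ∀ t, PC R u d m (c t) (Y t) x) : PC R u d m (∫ t, c t ∂μ) (∫ t, Y t ∂μ) x := by
  have hc0 : ∀ t, 0 ≤ c t := fun t => (h t).nonneg
  refine ⟨norm_integral_le_of_norm_le hc (Filter.Eventually.of_forall fun t => (h t).1),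
    fun k w => ?_⟩
  have pw : 0 < 1 + d w x := by linarith [hd w]
  by_cases hi : Integrable Y μ
  · rw [integral_lie μ hi]
    calc ‖∫ t, ⁅Y t, gen R u k w⁆ ∂μ‖ ≤ ∫ t, c t / (1 + d w x) ^ m ∂μ :=
          norm_integral_le_of_norm_le (hc.div_const _)
            (Filter.Eventually.of_forall fun t => (h t).2 k w)
      _ = _ := integral_div _ _
  · rw [integral_undef hi]
    have : ⁅(0 : A), gen R u k w⁆ = 0 := by rw [Ring.lie_def]; simp
    rw [this, norm_zero]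
    have : 0 ≤ ∫ t, c t ∂μ := integral_nonneg hc0
    positivity

/-- `∫ min((1+d(g,x))^{-m}, (1+d(w,x))^{-m})`-type pointwise bound -/
theorem Schur.min_bound (hS : Schur ν u d Cs K) (m : ℕ) (g w x : S) {a b t : ℝ}
    (ha : 0 ≤ a) (hb : 0 ≤ b)
    (h1 : t ≤ a * (1 / (1 + d g x) ^ (m + 3))) (h2 : t ≤ b * (1 / (1 + d w x) ^ (m + 3))) :
    t ≤ 2 ^ m * (a + b) * (1 / (1 + d g w) ^ m)
      * (1 / (1 + d g x) ^ 3 + 1 / (1 + d w x) ^ 3) := by
  have p1 := hS.pos g x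
  have p2 := hS.pos w x
  have p3 := hS.pos g w
  have o1 := hS.one_le g x
  have o2 := hS.one_le w x
  have key : ∀ y : S, (1 + d g w) / 2 ≤ 1 + d y x →
      1 / (1 + d y x) ^ (m + 3) ≤ 2 ^ m * (1 / (1 + d g w) ^ m) * (1 / (1 + d y x) ^ 3) := by
    intro y hy
    have py := hS.pos y x
    have e1 : (2 : ℝ) ^ m * (1 / (1 + d g w) ^ m) = 1 / ((1 + d g w) / 2) ^ m := by
      rw [div_pow]; field_simp
    have e2 : 1 / (1 + d y x) ^ (m + 3) = 1 / (1 + d y x) ^ m * (1 / (1 + d y x) ^ 3) := by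
      rw [pow_add, one_div_mul_one_div]
    rw [e1, e2]
    have h4 : 1 / (1 + d y x) ^ m ≤ 1 / ((1 + d g w) / 2) ^ m :=
      one_div_le_one_div_of_le (by positivity) (pow_le_pow_left₀ (by positivity) hy m)
    gcongr
  rcases le_total (d w x) (d g x) with h | h
  · have hy : (1 + d g w) / 2 ≤ 1 + d g x := by
      have := hS.d_tri g x w
      rw [hS.d_symm x w] at this
      linarith
    have h3 := key g hy
    have n1 : 0 ≤ 1 / (1 + d w x) ^ 3 := by positivity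
    have n2 : 0 ≤ 2 ^ m * (1 / (1 + d g w) ^ m) * (1 / (1 + d g x) ^ 3) := by positivity
    calc t ≤ a * (1 / (1 + d g x) ^ (m + 3)) := h1
      _ ≤ a * (2 ^ m * (1 / (1 + d g w) ^ m) * (1 / (1 + d g x) ^ 3)) := by gcongr
      _ ≤ (a + b) * (2 ^ m * (1 / (1 + d g w) ^ m) * (1 / (1 + d g x) ^ 3)) := by gcongr; linarith
      _ = 2 ^ m * (a + b) * (1 / (1 + d g w) ^ m) * (1 / (1 + d g x) ^ 3) := by ring
      _ ≤ _ := by gcongr; linarith
  · have hy : (1 + d g w) / 2 ≤ 1 + d w x := by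
      have := hS.d_tri g x w
      rw [hS.d_symm x w] at this
      linarith
    have h3 := key w hy
    have n1 : 0 ≤ 1 / (1 + d g x) ^ 3 := by positivity
    calc t ≤ b * (1 / (1 + d w x) ^ (m + 3)) := h2
      _ ≤ b * (2 ^ m * (1 / (1 + d g w) ^ m) * (1 / (1 + d w x) ^ 3)) := by gcongr
      _ ≤ (a + b) * (2 ^ m * (1 / (1 + d g w) ^ m) * (1 / (1 + d w x) ^ 3)) := by gcongr; linarith
      _ = 2 ^ m * (a + b) * (1 / (1 + d g w) ^ m) * (1 / (1 + d w x) ^ 3) := by ring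
      _ ≤ _ := by gcongr; linarith

/-- **Commutators with integrals of families**: `[B_g, ∫ s X]` is in the profile class at `g`, with
loss of three powers. -/
theorem PC_W (hS : Schur ν u d Cs K) {m : ℕ} {C : ℝ} {X : S → A} {s : S → ℂ}
    (hs : ∀ x, ‖s x‖ ≤ 1) (hX : ∀ x, PC R u d (m + 3) C (X x) x)
    (hi : Integrable (fun x => s x • X x) ν) (g : S) :
    PC R u d m ((2 + 12 * 2 ^ m + K m) * Cs * C) ⁅Bz R u g, ∫ x, s x • X x ∂ν⁆ g := by
  have hC : 0 ≤ C := (hX g).nonneg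
  have hCs := hS.Cs_nonneg
  have hK := hS.K_nonneg m
  have hbase : ∀ x, ‖⁅Bz R u g, X x⁆‖ ≤ 2 * C * (1 / (1 + d g x) ^ (m + 3)) := by
    intro x
    have := (hX x).lie_Bz hS.u_le g
    rwa [mul_one_div]
  have hbase3 : ∀ x, ‖⁅Bz R u g, X x⁆‖ ≤ 2 * C * (1 / (1 + d g x) ^ 3) := by
    intro x
    refine (hbase x).trans ?_
    have p := hS.pos g x
    have : (1 + d g x) ^ 3 ≤ (1 + d g x) ^ (m + 3) := pow_le_pow_right₀ (hS.one_le g x) (by omega)
    have : 1 / (1 + d g x) ^ (m + 3) ≤ 1 / (1 + d g x) ^ 3 :=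
      one_div_le_one_div_of_le (by positivity) this
    gcongr
  have e1 : ⁅Bz R u g, ∫ x, s x • X x ∂ν⁆ = ∫ x, ⁅Bz R u g, s x • X x⁆ ∂ν :=
    lie_integral ν hi _
  have i1 := (hS.int3 g).1
  have i1' := (hS.int3 g).2
  refine ⟨?_, fun k w => ?_⟩
  · rw [e1]
    calc ‖∫ x, ⁅Bz R u g, s x • X x⁆ ∂ν‖ ≤ ∫ x, 2 * C * (1 / (1 + d g x) ^ 3) ∂ν := by
          refine norm_integral_le_of_norm_le (i1.const_mul _)
            (Filter.Eventually.of_forall fun x => ?_)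
          rw [lie_smul', norm_smul]
          calc ‖s x‖ * ‖⁅Bz R u g, X x⁆‖ ≤ 1 * (2 * C * (1 / (1 + d g x) ^ 3)) := by
                gcongr
                · exact hs x
                · exact hbase3 x
            _ = _ := one_mul _
      _ = 2 * C * ∫ x, 1 / (1 + d g x) ^ 3 ∂ν := integral_const_mul _ _
      _ ≤ 2 * C * Cs := by gcongr
      _ ≤ _ := by
        have h1 : 0 ≤ Cs * C := by positivity
        have h2 : 0 ≤ (12 * 2 ^ m + K m) * (Cs * C) := by positivity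
        nlinarith
  · have p3 := hS.pos w g
    have hi2 : Integrable (fun x => ⁅Bz R u g, s x • X x⁆) ν := by
      have := (adR (Bz R u g)).integrable_comp hi
      simpa using this
    rw [e1, integral_lie ν hi2]
    have iw := (hS.int3 w).1
    have iw' := (hS.int3 w).2
    have hpt : ∀ x, ‖⁅⁅Bz R u g, s x • X x⁆, gen R u k w⁆‖ ≤
        (2 ^ m * (4 * C + 2 * C) * (1 / (1 + d g w) ^ m))
          * (1 / (1 + d g x) ^ 3 + 1 / (1 + d w x) ^ 3)
        + K m * C * (1 / (1 + d g w) ^ m) * (1 / (1 + d g x) ^ 3) := by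
      intro x
      have q1 : ‖⁅⁅Bz R u g, X x⁆, gen R u k w⁆‖ ≤ 4 * C * (1 / (1 + d g x) ^ (m + 3)) := by
        have := norm_lie_le ⁅Bz R u g, X x⁆ (gen R u k w)
        have h1 := norm_gen_le R hS.u_le k w
        have h2 := hbase x
        have h3 : 0 ≤ 2 * C * (1 / (1 + d g x) ^ (m + 3)) := (norm_nonneg _).trans h2
        calc _ ≤ 2 * ‖⁅Bz R u g, X x⁆‖ * ‖gen R u k w‖ := this
          _ ≤ 2 * (2 * C * (1 / (1 + d g x) ^ (m + 3))) * 1 := by gcongr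
          _ = _ := by ring
      have q2 := (hX x).lie_lie_Bz hS.u_le g k w
      have pg := hS.pos g x
      have pw := hS.pos w x
      have pgw := hS.pos g w
      have q3 : kp u g w * (C / (1 + d g x) ^ (m + 3))
          ≤ K m * C * (1 / (1 + d g w) ^ m) * (1 / (1 + d g x) ^ 3) := by
        have h1 := hS.kp_le m g w
        have h2 : C / (1 + d g x) ^ (m + 3) ≤ C * (1 / (1 + d g x) ^ 3) := by
          rw [← mul_one_div]
          have : (1 + d g x) ^ 3 ≤ (1 + d g x) ^ (m + 3) :=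
            pow_le_pow_right₀ (hS.one_le g x) (by omega)
          have : 1 / (1 + d g x) ^ (m + 3) ≤ 1 / (1 + d g x) ^ 3 :=
            one_div_le_one_div_of_le (by positivity) this
          gcongr
        calc _ ≤ K m / (1 + d g w) ^ m * (C * (1 / (1 + d g x) ^ 3)) := by
              gcongr
          _ = _ := by ring
      set t := ‖⁅⁅Bz R u g, X x⁆, gen R u k w⁆‖ with ht
      set r := K m * C * (1 / (1 + d g w) ^ m) * (1 / (1 + d g x) ^ 3) with hr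
      have hr0 : 0 ≤ r := by positivity
      have m1 : t - r ≤ 4 * C * (1 / (1 + d g x) ^ (m + 3)) := by linarith
      have m2 : t - r ≤ 2 * C * (1 / (1 + d w x) ^ (m + 3)) := by
        have : 2 * C * (1 / (1 + d w x) ^ (m + 3)) = 2 * C / (1 + d w x) ^ (m + 3) := by ring
        rw [this]; linarith
      have m3 := hS.min_bound m g w x (by positivity) (by positivity) m1 m2
      have e : ⁅⁅Bz R u g, s x • X x⁆, gen R u k w⁆ = s x • ⁅⁅Bz R u g, X x⁆, gen R u k w⁆ := by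
        rw [lie_smul', smul_lie']
      rw [e, norm_smul]
      calc ‖s x‖ * t ≤ 1 * t := by gcongr; exact hs x
        _ ≤ _ := by linarith
    have j1 : Integrable (fun x => (2 ^ m * (4 * C + 2 * C) * (1 / (1 + d g w) ^ m))
          * (1 / (1 + d g x) ^ 3 + 1 / (1 + d w x) ^ 3)) ν := (i1.add iw).const_mul _
    have j2 : Integrable (fun x => K m * C * (1 / (1 + d g w) ^ m)
          * (1 / (1 + d g x) ^ 3)) ν := i1.const_mul _
    have hi3 : Integrable (fun x => (2 ^ m * (4 * C + 2 * C) * (1 / (1 + d g w) ^ m))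
          * (1 / (1 + d g x) ^ 3 + 1 / (1 + d w x) ^ 3)
        + K m * C * (1 / (1 + d g w) ^ m) * (1 / (1 + d g x) ^ 3)) ν := j1.add j2
    have pgw := hS.pos g w
    calc ‖∫ x, ⁅⁅Bz R u g, s x • X x⁆, gen R u k w⁆ ∂ν‖
        ≤ ∫ x, ((2 ^ m * (4 * C + 2 * C) * (1 / (1 + d g w) ^ m))
          * (1 / (1 + d g x) ^ 3 + 1 / (1 + d w x) ^ 3)
        + K m * C * (1 / (1 + d g w) ^ m) * (1 / (1 + d g x) ^ 3)) ∂ν :=
          norm_integral_le_of_norm_le hi3 (Filter.Eventually.of_forall hpt)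
      _ = (2 ^ m * (4 * C + 2 * C) * (1 / (1 + d g w) ^ m))
          * ((∫ x, 1 / (1 + d g x) ^ 3 ∂ν) + ∫ x, 1 / (1 + d w x) ^ 3 ∂ν)
        + K m * C * (1 / (1 + d g w) ^ m) * ∫ x, 1 / (1 + d g x) ^ 3 ∂ν := by
          rw [integral_add j1 j2, integral_const_mul, integral_const_mul, integral_add i1 iw]
      _ ≤ (2 ^ m * (4 * C + 2 * C) * (1 / (1 + d g w) ^ m)) * (Cs + Cs)
        + K m * C * (1 / (1 + d g w) ^ m) * Cs := by gcongr
      _ ≤ (2 + 12 * 2 ^ m + K m) * Cs * C / (1 + d w g) ^ m := by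
          rw [hS.d_symm w g, ← mul_one_div ((2 + 12 * 2 ^ m + K m) * Cs * C)]
          have h1 : 0 ≤ Cs * C * (1 / (1 + d g w) ^ m) := by positivity
          nlinarith

/-- continuity of the quadratic map -/
theorem continuous_Oq [TopologicalSpace S] [FirstCountableTopology S] [OpensMeasurableSpace S]
    [CompactSpace S] [SecondCountableTopologyEither S A] [IsFiniteMeasure ν] {T : S → A}
    (hT : Continuous T) (hB : Continuous (Bz R u)) (hd : Continuous fun p : S × S => d p.1 p.2) :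
    Continuous fun x => Oq ν R u d (T x) x := by
  have hc : Continuous fun p : S × S => Oint R u d (T p.1) p.1 p.2 := by
    have h1 : Continuous fun p : S × S => Bz R u p.2 := hB.comp continuous_snd
    have h2 : Continuous fun p : S × S => T p.1 := hT.comp continuous_fst
    unfold Oint
    simp only [Ring.lie_def]
    exact ((continuous_const.add hd).pow 3).smul
      (((h1.mul h2).sub (h2.mul h1)).star.mul ((h1.mul h2).sub (h2.mul h1)))
  obtain ⟨M, hM⟩ : ∃ M, ∀ p : S × S, ‖Oint R u d (T p.1) p.1 p.2‖ ≤ M := by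
    obtain ⟨M, hM⟩ := isCompact_univ.bddAbove_image (f := fun p : S × S =>
      ‖Oint R u d (T p.1) p.1 p.2‖) hc.norm.continuousOn
    exact ⟨M, fun p => hM ⟨p, trivial, rfl⟩⟩
  unfold Oq
  refine continuous_of_dominated (bound := fun _ => M) ?_ ?_ (integrable_const _) ?_
  · intro x
    exact (hc.comp (Continuous.prodMk_right x)).aestronglyMeasurable
  · intro x; exact Filter.Eventually.of_forall fun y => hM (x, y)
  · exact Filter.Eventually.of_forall fun y => hc.comp (Continuous.prodMk_left y)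

end quadratic

end Crest.Agent.R340.QL331
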