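import Crest.Agent.R340.RecS_735

/-!
R340 (S0532), block L5 (helper735): absorbing the errors of the strong pass into
`f_Q / (S + Q)`, `f = prof A S`, for `Q ≥ ε S` and `S` large.
-/

set_option autoImplicit false

open Finset

namespace Crest.Agent.R340.RecE735

open Crest.Agent.R340.Scal725
open Crest.Agent.R340.Rec735
open Crest.Agent.R340.RecS735

/-- lower bound of the strong profile: `f_Q ≥ (S / (2 b Q))^A` when `S + Q ≤ b Q` -/
theorem prof_ge_rpow {A S b : ℝ} (hA1 : 1 ≤ A) (hS : 2 * A ≤ S) {Q : ℕ} (hQ : (0 : ℝ) < Q)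
    (hb : S + Q ≤ b * Q) : (S / (2 * b * Q)) ^ A ≤ prof A S Q := by
  have hS0 : 0 < S := by linarith
  refine le_trans ?_ (rpow_le_prof_of_one_le hA1 (by linarith) Q)
  apply Real.rpow_le_rpow _ _ (by linarith)
  · have : 0 < b * Q := by linarith
    have h2 : (2 : ℝ) * b * Q = 2 * (b * Q) := by ring
    rw [h2]; positivity
  · have hbQ : 0 < b * Q := by linarith
    rw [div_le_div_iff₀ (by nlinarith) (by nlinarith)]
    have h1 : S / 2 ≤ S + 1 - A := by linarith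
    have h2 : S * (S + 1 - A + Q) ≤ (S + 1 - A) * (2 * (S + Q)) := by nlinarith
    have h3 : (S + 1 - A) * (2 * (S + Q)) ≤ (S + 1 - A) * (2 * b * Q) := by
      apply mul_le_mul_of_nonneg_left _ (by linarith)
      linarith
    linarith

/-- **Absorption of power errors**: if `A + 1 ≤ q`, `p < q - 1`, then for `S` large
`M S^p Q^(-q) ≤ c f_Q / (S + Q)` for all `Q ≥ ε S`. -/
theorem pow_absorb {A ε p q : ℝ} (M : ℝ) {c : ℝ} (hA1 : 1 ≤ A) (hε : 0 < ε) (hq : A + 1 ≤ q)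
    (hp : p < q - 1) (hc : 0 < c) :
    ∃ S0 : ℝ, 400 ≤ S0 ∧ ∀ S : ℝ, S0 ≤ S → ∀ Q : ℕ, ε * S ≤ Q →
      M * S ^ p * (Q : ℝ) ^ (-q) ≤ c * (prof A S Q / (S + Q)) := by
  set b : ℝ := 1 + 1 / ε with hb
  have hb0 : 0 < b := by positivity
  set L : ℝ := |M| * (2 * b) ^ A * b / c * ε ^ (-(q - A - 1)) with hL
  have hL0 : 0 ≤ L := by positivity
  -- S^(q-1-p) tends to infinity
  have hlim : Filter.Tendsto (fun S : ℝ => S ^ (q - 1 - p)) Filter.atTop Filter.atTop :=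
    tendsto_rpow_atTop (by linarith)
  obtain ⟨S1, hS1⟩ := Filter.eventually_atTop.1 (hlim.eventually_ge_atTop L)
  refine ⟨max (max 400 (2 * A)) S1, by simp, fun S hS Q hQ => ?_⟩
  have hS400 : 400 ≤ S := le_trans (le_trans (le_max_left _ _) (le_max_left _ _)) hS
  have hSA : 2 * A ≤ S := le_trans (le_trans (le_max_right _ _) (le_max_left _ _)) hS
  have hSL : L ≤ S ^ (q - 1 - p) := hS1 S (le_trans (le_max_right _ _) hS)
  have hS0 : 0 < S := by linarith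
  have hQ0 : (0 : ℝ) < Q := lt_of_lt_of_le (by positivity) hQ
  have hbQ : S + Q ≤ b * Q := by
    have : S ≤ 1 / ε * Q := by
      rw [one_div, inv_mul_eq_div, le_div_iff₀ hε]; linarith
    rw [hb]; linarith
  have h1 := prof_ge_rpow hA1 hSA hQ0 hbQ
  have hSQ : 0 < S + Q := by positivity
  have h2 : (S / (2 * b * Q)) ^ A / (b * Q) ≤ prof A S Q / (S + Q) :=
    div_le_div₀ (le_trans (by positivity) h1) h1 hSQ hbQ
  refine le_trans ?_ (mul_le_mul_of_nonneg_left h2 hc.le)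
  -- rewrite the right hand side
  have e1 : (S / (2 * b * Q)) ^ A / (b * Q) =
      (S ^ A * (Q : ℝ) ^ (-(A + 1))) / ((2 * b) ^ A * b) := by
    rw [Real.div_rpow hS0.le (by positivity), Real.mul_rpow (by positivity) hQ0.le, neg_add,
      Real.rpow_add hQ0, Real.rpow_neg hQ0.le, Real.rpow_neg hQ0.le, Real.rpow_one]
    field_simp
  rw [e1]
  have h3 : M * S ^ p * (Q : ℝ) ^ (-q) ≤ |M| * S ^ p * (Q : ℝ) ^ (-q) := by
    apply mul_le_mul_of_nonneg_right _ (by positivity)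
    exact mul_le_mul_of_nonneg_right (le_abs_self M) (by positivity)
  refine h3.trans ?_
  -- |M| S^p Q^(-q) ≤ c/(..) S^A Q^(-(A+1))
  have hQpow : (ε * S) ^ (q - A - 1) ≤ (Q : ℝ) ^ (q - A - 1) :=
    Real.rpow_le_rpow (by positivity) hQ (by linarith)
  have e2 : (Q : ℝ) ^ (-(A + 1)) = (Q : ℝ) ^ (-q) * (Q : ℝ) ^ (q - A - 1) := by
    rw [← Real.rpow_add hQ0]; congr 1; ring
  have e3 : S ^ A * S ^ (q - A - 1) = S ^ p * S ^ (q - 1 - p) := by
    rw [← Real.rpow_add hS0, ← Real.rpow_add hS0]; congr 1; ring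
  have h4 : |M| * ((2 * b) ^ A * b) / c ≤ ε ^ (q - A - 1) * S ^ (q - 1 - p) := by
    have h5 : ε ^ (q - A - 1) * L ≤ ε ^ (q - A - 1) * S ^ (q - 1 - p) :=
      mul_le_mul_of_nonneg_left hSL (by positivity)
    refine le_trans (le_of_eq ?_) h5
    rw [hL, Real.rpow_neg hε.le]
    have : ε ^ (q - A - 1) ≠ 0 := (Real.rpow_pos_of_pos hε _).ne'
    field_simp
  rw [e2]
  have h6 : |M| * S ^ p ≤ c * (S ^ A * (Q : ℝ) ^ (q - A - 1)) / ((2 * b) ^ A * b) := by
    have h7 : |M| * ((2 * b) ^ A * b) ≤ c * (ε ^ (q - A - 1) * S ^ (q - 1 - p)) := by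
      rw [div_le_iff₀ hc] at h4; linarith
    have h8 : S ^ p * (ε ^ (q - A - 1) * S ^ (q - 1 - p)) = S ^ A * (ε * S) ^ (q - A - 1) := by
      rw [Real.mul_rpow hε.le hS0.le]
      calc S ^ p * (ε ^ (q - A - 1) * S ^ (q - 1 - p)) =
          ε ^ (q - A - 1) * (S ^ p * S ^ (q - 1 - p)) := by ring
        _ = ε ^ (q - A - 1) * (S ^ A * S ^ (q - A - 1)) := by rw [e3]
        _ = _ := by ring
    rw [le_div_iff₀ (by positivity)]
    calc |M| * S ^ p * ((2 * b) ^ A * b) = S ^ p * (|M| * ((2 * b) ^ A * b)) := by ring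
      _ ≤ S ^ p * (c * (ε ^ (q - A - 1) * S ^ (q - 1 - p))) :=
          mul_le_mul_of_nonneg_left h7 (by positivity)
      _ = c * (S ^ p * (ε ^ (q - A - 1) * S ^ (q - 1 - p))) := by ring
      _ = c * (S ^ A * (ε * S) ^ (q - A - 1)) := by rw [h8]
      _ ≤ c * (S ^ A * (Q : ℝ) ^ (q - A - 1)) := by
          apply mul_le_mul_of_nonneg_left _ hc.le
          exact mul_le_mul_of_nonneg_left hQpow (by positivity)
  calc |M| * S ^ p * (Q : ℝ) ^ (-q) ≤
      c * (S ^ A * (Q : ℝ) ^ (q - A - 1)) / ((2 * b) ^ A * b) * (Q : ℝ) ^ (-q) :=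
        mul_le_mul_of_nonneg_right h6 (by positivity)
    _ = _ := by ring

/-- the same with natural exponents: `M S^p / Q^q` -/
theorem npow_absorb {A ε : ℝ} {p q : ℕ} (M : ℝ) {c : ℝ} (hA1 : 1 ≤ A) (hε : 0 < ε)
    (hq : A + 1 ≤ q) (hp : p + 1 < q) (hc : 0 < c) :
    ∃ S0 : ℝ, 400 ≤ S0 ∧ ∀ S : ℝ, S0 ≤ S → ∀ Q : ℕ, ε * S ≤ Q →
      M * S ^ p / (Q : ℝ) ^ q ≤ c * (prof A S Q / (S + Q)) := by
  have hp' : (p : ℝ) < (q : ℝ) - 1 := by
    have : (p : ℝ) + 1 < q := by exact_mod_cast hp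
    linarith
  obtain ⟨S0, h0, h⟩ := pow_absorb (A := A) (ε := ε) (p := (p : ℝ)) (q := (q : ℝ)) M hA1 hε hq
    hp' hc
  refine ⟨S0, h0, fun S hS Q hQ => ?_⟩
  have h1 := h S hS Q hQ
  have hQ0 : (0 : ℝ) < Q := lt_of_lt_of_le (by
    have : 0 < S := by linarith
    positivity) hQ
  rw [Real.rpow_neg hQ0.le, Real.rpow_natCast, Real.rpow_natCast] at h1
  rw [div_eq_mul_inv]
  exact h1

/-- second differences with a logarithm: `M dd f_Q log(Q+2) ≤ c f_Q/(S+Q)` -/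
theorem dd_log_absorb {A : ℝ} (M : ℝ) {ε c : ℝ} (hA1 : 1 ≤ A) (hA2 : A ≤ 2) (hε : 0 < ε)
    (hc : 0 < c) :
    ∃ S0 : ℝ, 400 ≤ S0 ∧ ∀ S : ℝ, S0 ≤ S → ∀ Q : ℕ, ε * S ≤ Q →
      M * (dd (prof A S) Q * Real.log (Q + 2)) ≤ c * (prof A S Q / (S + Q)) := by
  -- log (Q+2) ≤ ε' Q eventually
  have h := Real.isLittleO_log_id_atTop.def (show (0 : ℝ) < c / (6 * (|M| + 1)) / 2 by positivity)
  rw [Filter.eventually_atTop] at h
  obtain ⟨x0, hx0⟩ := h
  refine ⟨max (max 400 (x0 / ε)) (2 / ε), by simp, fun S hS Q hQ => ?_⟩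
  have hS400 : 400 ≤ S := le_trans (le_trans (le_max_left _ _) (le_max_left _ _)) hS
  have hSx : x0 / ε ≤ S := le_trans (le_trans (le_max_right _ _) (le_max_left _ _)) hS
  have hS2 : 2 / ε ≤ S := le_trans (le_max_right _ _) hS
  have hS0 : 0 < S := by linarith
  have hQx : x0 ≤ Q := by
    rw [div_le_iff₀ hε] at hSx; linarith
  have hQ2 : (2 : ℝ) ≤ Q := by
    rw [div_le_iff₀ hε] at hS2; linarith
  have h1 := hx0 ((Q : ℝ) + 2) (by linarith)
  rw [Real.norm_eq_abs, id, Real.norm_eq_abs, abs_of_nonneg (Real.log_nonneg (by linarith)),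
    abs_of_nonneg (by linarith : (0 : ℝ) ≤ Q + 2)] at h1
  have hlog : 0 ≤ Real.log ((Q : ℝ) + 2) := Real.log_nonneg (by linarith)
  have hA : A < S + 1 := by linarith
  have hp := prof_pos hS0.le hA Q
  rw [dd_prof hS0.le]
  have h2 : A * (1 + A) * prof A S Q / ((S + Q + 1) * (S + Q + 2)) ≤
      6 * prof A S Q / ((S + Q) * (S + Q)) := by
    apply div_le_div₀ (by positivity) _ (by positivity) (by nlinarith)
    apply mul_le_mul_of_nonneg_right _ hp.le
    nlinarith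
  have h3 : Real.log ((Q : ℝ) + 2) ≤ c / (6 * (|M| + 1)) * (S + Q) := by
    refine h1.trans ?_
    have e : c / (6 * (|M| + 1)) / 2 * ((Q : ℝ) + 2) = c / (6 * (|M| + 1)) * ((Q + 2) / 2) := by
      ring
    rw [e]
    apply mul_le_mul_of_nonneg_left _ (by positivity)
    linarith
  have hdd : 0 ≤ A * (1 + A) * prof A S Q / ((S + Q + 1) * (S + Q + 2)) := by positivity
  calc M * (A * (1 + A) * prof A S Q / ((S + Q + 1) * (S + Q + 2)) * Real.log (Q + 2))
      ≤ (|M| + 1) * (A * (1 + A) * prof A S Q / ((S + Q + 1) * (S + Q + 2)) *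
          Real.log (Q + 2)) :=
        mul_le_mul_of_nonneg_right (by linarith [le_abs_self M]) (mul_nonneg hdd hlog)
    _ ≤ (|M| + 1) * (6 * prof A S Q / ((S + Q) * (S + Q)) * (c / (6 * (|M| + 1)) * (S + Q))) := by
        apply mul_le_mul_of_nonneg_left _ (by positivity)
        exact mul_le_mul h2 h3 hlog (by positivity)
    _ = c * (prof A S Q / (S + Q)) := by
        field_simp

/-- constants over `S`: `M ≤ c S` for `S` large, and `M S^(1-a) ≤ c S` -/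
theorem exists_rpow_le {a : ℝ} (M : ℝ) {c : ℝ} (ha : 0 < a) (hc : 0 < c) :
    ∃ S0 : ℝ, 400 ≤ S0 ∧ ∀ S : ℝ, S0 ≤ S → M * S ^ (1 - a) ≤ c * S := by
  have hlim : Filter.Tendsto (fun S : ℝ => S ^ a) Filter.atTop Filter.atTop :=
    tendsto_rpow_atTop ha
  obtain ⟨S1, hS1⟩ := Filter.eventually_atTop.1 (hlim.eventually_ge_atTop (|M| / c))
  refine ⟨max 400 S1, by simp, fun S hS => ?_⟩
  have hS400 : 400 ≤ S := le_trans (le_max_left _ _) hS
  have hS0 : 0 < S := by linarith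
  have h1 := hS1 S (le_trans (le_max_right _ _) hS)
  have e : c * S = c * S ^ a * S ^ (1 - a) := by
    rw [mul_assoc, ← Real.rpow_add hS0]; simp
  rw [e]
  apply mul_le_mul_of_nonneg_right _ (by positivity)
  rw [div_le_iff₀ hc] at h1
  linarith [le_abs_self M]

end Crest.Agent.R340.RecE735
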