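import Crest.Agent.R340.Scal_725
import Crest.Agent.R340.Rec_735

/-!
R340 (S0532), block L5: scalar facts of the strong pass (helper735).

`F = prof A S`, `Φ = prof a S` with `0 < a < 1 < A < 1 + a`, `S` = the scale `Q₂`;
`rt a A S j = Φ_j / F_j`.
-/

set_option autoImplicit false

open Finset

namespace Crest.Agent.R340.RecS735

open Crest.Agent.R340.Dom735 (Cvx)
open Crest.Agent.R340.Scal725
open Crest.Agent.R340.Rec735

/-! ### One-sided difference bounds for the profile -/

/-- upper bound of the decrease over `k` steps -/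
theorem prof_sub_le {a R : ℝ} (hR : 0 ≤ R) (ha0 : 0 ≤ a) (ha : a < R + 1) (Q k : ℕ) :
    prof a R Q - prof a R (Q + k) ≤ k * (a * prof a R Q / (R + Q + 1)) := by
  induction k with
  | zero => simp
  | succ k ih =>
    have hd := prof_diff (a := a) (R := R) (Q + k)
    have hm : prof a R (Q + k) ≤ prof a R Q := prof_antitone hR ha0 ha (by omega)
    have hp := prof_pos hR ha (Q + k)
    have e1 : a * prof a R (Q + k) / (R + (Q + k : ℕ) + 1) ≤ a * prof a R Q / (R + Q + 1) := by
      push_cast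
      apply div_le_div₀ _ _ (by positivity) _
      · have := prof_pos hR ha Q; positivity
      · exact mul_le_mul_of_nonneg_left hm ha0
      · have : (0 : ℝ) ≤ k := Nat.cast_nonneg k
        linarith
    have e2 : prof a R (Q + (k + 1)) = prof a R (Q + k + 1) := rfl
    rw [e2]
    push_cast
    linarith

/-- relative lower bound over `k` steps -/
theorem prof_ge_mul {a R : ℝ} (hR : 0 ≤ R) (ha0 : 0 ≤ a) (ha : a < R + 1) (Q k : ℕ) :
    prof a R Q * (1 - k * a / (R + Q + 1)) ≤ prof a R (Q + k) := by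
  have h := prof_sub_le hR ha0 ha Q k
  have e : (k : ℝ) * (a * prof a R Q / (R + Q + 1)) = prof a R Q * (k * a / (R + Q + 1)) := by
    ring
  rw [e] at h
  linarith

/-- relative upper bound of an earlier value: `f_Q ≤ f_{Q+k} (1 + 2 k a / (R+Q+1))`
when `2 k a ≤ R + Q + 1`. -/
theorem prof_le_mul {a R : ℝ} (hR : 0 ≤ R) (ha0 : 0 ≤ a) (ha : a < R + 1) (Q k : ℕ)
    (h2 : 2 * (k * a) ≤ R + Q + 1) :
    prof a R Q ≤ prof a R (Q + k) * (1 + 2 * (k * a) / (R + Q + 1)) := by
  have h := prof_ge_mul hR ha0 ha Q k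
  have hp := prof_pos hR ha Q
  have hx : (0 : ℝ) < R + Q + 1 := by positivity
  set y : ℝ := k * a / (R + Q + 1) with hy
  have hy0 : 0 ≤ y := by positivity
  have hy1 : y ≤ 1 / 2 := by
    rw [hy, div_le_div_iff₀ hx (by norm_num)]; linarith
  have e : 2 * (k * a) / (R + Q + 1) = 2 * y := by rw [hy]; ring
  rw [e]
  have h3 : prof a R Q * (1 - y) * (1 + 2 * y) ≤ prof a R (Q + k) * (1 + 2 * y) :=
    mul_le_mul_of_nonneg_right h (by linarith)
  refine le_trans ?_ h3
  have : 0 ≤ y * (1 - 2 * y) := mul_nonneg hy0 (by linarith)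
  nlinarith

/-! ### The ratio of the weak and the strong profile -/

/-- `Φ_j / F_j` with `Φ = prof a S`, `F = prof A S`. -/
noncomputable def rt (a A S : ℝ) (j : ℕ) : ℝ := prof a S j / prof A S j

@[simp] theorem rt_zero (a A S : ℝ) : rt a A S 0 = 1 := by simp [rt]

theorem rt_pos {a A S : ℝ} (hS : 0 ≤ S) (haA : a ≤ A) (hA : A < S + 1) (j : ℕ) :
    0 < rt a A S j :=
  div_pos (prof_pos hS (lt_of_le_of_lt haA hA) j) (prof_pos hS hA j)

theorem rt_mul {a A S : ℝ} (hS : 0 ≤ S) (hA : A < S + 1) (j : ℕ) :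
    rt a A S j * prof A S j = prof a S j := by
  unfold rt
  rw [div_mul_cancel₀ _ (prof_pos hS hA j).ne']

theorem rt_succ {a A S : ℝ} (hS : 0 ≤ S) (hA : A < S + 1) (j : ℕ) :
    rt a A S (j + 1) = rt a A S j * ((S + j + 1 - a) / (S + j + 1 - A)) := by
  unfold rt
  rw [prof_succ, prof_succ]
  have h1 : (0 : ℝ) < S + j + 1 := by positivity
  have h2 : (0 : ℝ) < S + j + 1 - A := by
    have : (0 : ℝ) ≤ j := Nat.cast_nonneg j
    linarith
  have h3 := prof_pos hS hA j
  have e1 : 1 - a / (S + j + 1) = (S + j + 1 - a) / (S + j + 1) := by field_simp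
  have e2 : 1 - A / (S + j + 1) = (S + j + 1 - A) / (S + j + 1) := by field_simp
  rw [e1, e2]
  field_simp

theorem rt_diff {a A S : ℝ} (hS : 0 ≤ S) (hA : A < S + 1) (j : ℕ) :
    rt a A S (j + 1) - rt a A S j = rt a A S j * ((A - a) / (S + j + 1 - A)) := by
  have h2 : (S : ℝ) + j + 1 - A ≠ 0 := by
    have : (0 : ℝ) ≤ j := Nat.cast_nonneg j
    have : 0 < (S : ℝ) + j + 1 - A := by linarith
    exact this.ne'
  rw [rt_succ hS hA]
  field_simp
  ring

theorem rt_mono {a A S : ℝ} (hS : 0 ≤ S) (haA : a ≤ A) (hA : A < S + 1) :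
    Monotone (rt a A S) := by
  apply monotone_nat_of_le_succ
  intro j
  have h := rt_diff (a := a) hS hA j
  have h2 : (0 : ℝ) < S + j + 1 - A := by
    have : (0 : ℝ) ≤ j := Nat.cast_nonneg j
    linarith
  have : 0 ≤ rt a A S j * ((A - a) / (S + j + 1 - A)) :=
    mul_nonneg (rt_pos hS haA hA j).le (div_nonneg (by linarith) h2.le)
  linarith

theorem one_le_rt {a A S : ℝ} (hS : 0 ≤ S) (haA : a ≤ A) (hA : A < S + 1) (j : ℕ) :
    1 ≤ rt a A S j := by
  simpa using rt_mono hS haA hA (Nat.zero_le j)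

/-- growth over `k` steps, lower bound -/
theorem rt_grow {a A S : ℝ} (hS : 0 ≤ S) (haA : a ≤ A) (hA0 : 0 ≤ A) (hA : A < S + 1) (Q k : ℕ) :
    rt a A S Q * (1 + k * (A - a) / (S + Q + k)) ≤ rt a A S (Q + k) := by
  induction k with
  | zero => simp
  | succ k ih =>
    have hd := rt_diff (a := a) hS hA (Q + k)
    have h2 : (0 : ℝ) < S + (Q + k : ℕ) + 1 - A := by
      have : (0 : ℝ) ≤ (Q + k : ℕ) := Nat.cast_nonneg _
      linarith
    have hr0 := rt_pos (a := a) hS haA hA Q
    have hm : rt a A S Q ≤ rt a A S (Q + k) := rt_mono hS haA hA (by omega)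
    have hx : (0 : ℝ) < S + Q + (k + 1 : ℕ) := by
      push_cast
      positivity
    have e0 : (A - a) / (S + Q + (k + 1 : ℕ)) ≤ (A - a) / (S + (Q + k : ℕ) + 1 - A) := by
      apply div_le_div_of_nonneg_left (by linarith) h2
      push_cast; linarith
    have e1 : rt a A S Q * ((A - a) / (S + Q + (k + 1 : ℕ))) ≤
        rt a A S (Q + k) * ((A - a) / (S + (Q + k : ℕ) + 1 - A)) :=
      mul_le_mul hm e0 (div_nonneg (by linarith) hx.le) (le_trans hr0.le hm)
    have e2 : rt a A S Q * (k * (A - a) / (S + Q + (k + 1 : ℕ))) ≤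
        rt a A S Q * (k * (A - a) / (S + Q + k)) := by
      rcases Nat.eq_zero_or_pos k with hk | hk
      · subst hk; simp
      · apply mul_le_mul_of_nonneg_left _ hr0.le
        have hkr : (0 : ℝ) < k := by exact_mod_cast hk
        apply div_le_div_of_nonneg_left
        · exact mul_nonneg hkr.le (by linarith)
        · positivity
        · push_cast; linarith
    have e3 : rt a A S Q * (1 + ((k + 1 : ℕ) : ℝ) * (A - a) / (S + Q + (k + 1 : ℕ))) =
        rt a A S Q + rt a A S Q * (k * (A - a) / (S + Q + (k + 1 : ℕ))) +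
          rt a A S Q * ((A - a) / (S + Q + (k + 1 : ℕ))) := by
      push_cast; ring
    have e4 : rt a A S (Q + (k + 1)) = rt a A S (Q + k + 1) := rfl
    rw [e3, e4]
    have e5 : rt a A S Q * (1 + k * (A - a) / (S + Q + k)) =
        rt a A S Q + rt a A S Q * (k * (A - a) / (S + Q + k)) := by ring
    rw [e5] at ih
    linarith

/-- `rt_j / (S + j)` decreases when `A < 1 + a` -/
theorem rt_div_sub {a A S : ℝ} (ha1 : a ≤ 1) (hA1 : 1 ≤ A) (hAa : A < 1 + a)
    (hS1 : 2 * (A - 1) ≤ (1 + a - A) * S) (hSA : A < S) (j : ℕ) :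
    (1 + a - A) / 2 * (rt a A S j / (S + j + 1) ^ 2) ≤
      rt a A S j / (S + j) - rt a A S (j + 1) / (S + j + 1) := by
  have hS : 0 < S := by linarith
  have hA : A < S + 1 := by linarith
  have hj : (0 : ℝ) ≤ j := Nat.cast_nonneg j
  have hr := rt_pos (a := a) hS.le (by linarith) hA j
  rw [rt_succ hS.le hA]
  set r := rt a A S j with hrdef
  set x : ℝ := S + j with hx
  have hx0 : 0 < x := by positivity
  have hx1 : 0 < x + 1 := by linarith
  have hxA : 0 < x + 1 - A := by linarith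
  have hxS : S ≤ x := by linarith
  have hδ : 0 < 1 + a - A := by linarith
  have e1 : r / x - r * ((x + 1 - a) / (x + 1 - A)) / (x + 1) =
      r * (((1 + a - A) * x - (A - 1)) / (x * (x + 1 - A) * (x + 1))) := by
    field_simp
    ring
  rw [e1]
  have e2 : (1 + a - A) / 2 * (r / (x + 1) ^ 2) = r * ((1 + a - A) / 2 / (x + 1) ^ 2) := by ring
  rw [e2]
  apply mul_le_mul_of_nonneg_left _ hr.le
  rw [div_le_div_iff₀ (by positivity) (by positivity)]
  have h1 : (1 + a - A) / 2 * x ≤ (1 + a - A) * x - (A - 1) := by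
    have : (1 + a - A) * S ≤ (1 + a - A) * x := mul_le_mul_of_nonneg_left hxS hδ.le
    linarith
  have h2 : (x + 1 - A) * (x + 1) ≤ (x + 1) ^ 2 := by nlinarith
  calc (1 + a - A) / 2 * (x * (x + 1 - A) * (x + 1))
      = ((1 + a - A) / 2 * x) * ((x + 1 - A) * (x + 1)) := by ring
    _ ≤ ((1 + a - A) / 2 * x) * (x + 1) ^ 2 :=
        mul_le_mul_of_nonneg_left h2 (by positivity)
    _ ≤ ((1 + a - A) * x - (A - 1)) * (x + 1) ^ 2 :=
        mul_le_mul_of_nonneg_right h1 (by positivity)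

/-- `rt_j / (S + j) ≤ 1 / S` -/
theorem rt_div_le {a A S : ℝ} (ha1 : a ≤ 1) (hA1 : 1 ≤ A) (hAa : A < 1 + a)
    (hS1 : 2 * (A - 1) ≤ (1 + a - A) * S) (hSA : A < S) (j : ℕ) :
    rt a A S j / (S + j) ≤ 1 / S := by
  induction j with
  | zero => simp
  | succ j ih =>
    have h := rt_div_sub ha1 hA1 hAa hS1 hSA j
    have hS : 0 < S := by linarith
    have hr := rt_pos (a := a) hS.le (by linarith) (by linarith : A < S + 1) j
    have h2 : 0 ≤ (1 + a - A) / 2 * (rt a A S j / (S + j + 1) ^ 2) := by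
      have : 0 < 1 + a - A := by linarith
      positivity
    push_cast
    rw [← add_assoc]
    linarith

/-- `∑_j rt_j / (S+j+1)² ≤ 2 / ((1+a-A) S)` -/
theorem sum_rt_le {a A S : ℝ} (ha1 : a ≤ 1) (hA1 : 1 ≤ A) (hAa : A < 1 + a)
    (hS1 : 2 * (A - 1) ≤ (1 + a - A) * S) (hSA : A < S) (n : ℕ) :
    ∑ j ∈ range n, rt a A S j / (S + j + 1) ^ 2 ≤ 2 / ((1 + a - A) * S) := by
  have hS : 0 < S := by linarith
  have hδ : 0 < 1 + a - A := by linarith
  have h : ∀ n : ℕ, (1 + a - A) / 2 * ∑ j ∈ range n, rt a A S j / (S + j + 1) ^ 2 ≤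
      1 / S - rt a A S n / (S + n) := by
    intro n
    induction n with
    | zero => simp
    | succ n ih =>
      rw [sum_range_succ, mul_add]
      have := rt_div_sub ha1 hA1 hAa hS1 hSA n
      push_cast
      rw [← add_assoc]
      linarith
  have h1 := h n
  have hr := rt_pos (a := a) hS.le (by linarith) (by linarith : A < S + 1) n
  have h2 : 0 ≤ rt a A S n / (S + n) := by positivity
  rw [le_div_iff₀ (by positivity)]
  have h3 : (1 + a - A) / 2 * ∑ j ∈ range n, rt a A S j / (S + j + 1) ^ 2 ≤ 1 / S := by linarith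
  have h4 := mul_le_mul_of_nonneg_left h3 (by positivity : (0 : ℝ) ≤ 2 * S)
  have e1 : 2 * S * (1 / S) = 2 := by field_simp
  rw [e1] at h4
  linarith

/-- the same with `Q⁻²`, for `Q ≥ ε S` -/
theorem sum_rt_sq_le {a A S ε : ℝ} (ha1 : a ≤ 1) (hA1 : 1 ≤ A) (hAa : A < 1 + a)
    (hS1 : 2 * (A - 1) ≤ (1 + a - A) * S) (hSA : A < S) (hε : 0 < ε) (n : ℕ) :
    ∑ j ∈ (range n).filter (fun j : ℕ => ε * S ≤ j), rt a A S j / (j : ℝ) ^ 2 ≤
      (1 / ε + 2) ^ 2 * (2 / ((1 + a - A) * S)) := by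
  have hS : 0 < S := by linarith
  have h := sum_rt_le ha1 hA1 hAa hS1 hSA n
  calc ∑ j ∈ (range n).filter (fun j : ℕ => ε * S ≤ j), rt a A S j / (j : ℝ) ^ 2
      ≤ ∑ j ∈ (range n).filter (fun j : ℕ => ε * S ≤ j),
        (1 / ε + 2) ^ 2 * (rt a A S j / (S + j + 1) ^ 2) := by
        apply sum_le_sum
        intro j hj
        rw [mem_filter] at hj
        have hj0 : (0 : ℝ) < j := lt_of_lt_of_le (by positivity) hj.2
        have hj1 : (1 : ℝ) ≤ j := by
          have : 0 < j := by exact_mod_cast hj0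
          exact_mod_cast this
        have hr := rt_pos (a := a) hS.le (by linarith) (by linarith : A < S + 1) j
        have h1 : S + j + 1 ≤ (1 / ε + 2) * j := by
          have : S ≤ 1 / ε * j := by
            rw [one_div, inv_mul_eq_div, le_div_iff₀ hε]; linarith
          linarith
        have h2 : (S + j + 1) ^ 2 ≤ ((1 / ε + 2) * j) ^ 2 :=
          pow_le_pow_left₀ (by positivity) h1 2
        rw [mul_div_assoc', div_le_div_iff₀ (by positivity) (by positivity)]
        have : rt a A S j * (S + j + 1) ^ 2 ≤ rt a A S j * ((1 / ε + 2) * j) ^ 2 :=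
          mul_le_mul_of_nonneg_left h2 hr.le
        calc _ ≤ rt a A S j * ((1 / ε + 2) * j) ^ 2 := this
          _ = _ := by ring
    _ ≤ ∑ j ∈ range n, (1 / ε + 2) ^ 2 * (rt a A S j / (S + j + 1) ^ 2) := by
        apply sum_le_sum_of_subset_of_nonneg (filter_subset _ _)
        intro j _ _
        have hr := rt_pos (a := a) hS.le (by linarith) (by linarith : A < S + 1) j
        positivity
    _ = (1 / ε + 2) ^ 2 * ∑ j ∈ range n, (rt a A S j / (S + j + 1) ^ 2) := by rw [mul_sum]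
    _ ≤ _ := mul_le_mul_of_nonneg_left h (by positivity)

/-! ### Convexity of `A₀ C F - Φ` near the origin -/

/-- ratio of second differences: `dd F_j = (A(1+A)/(a(1+a))) · dd Φ_j / rt_j` -/
theorem dd_ratio {a A S : ℝ} (hS : 0 ≤ S) (hA : A < S + 1) (j : ℕ) :
    rt a A S j * (a * (1 + a)) * dd (prof A S) j = A * (1 + A) * dd (prof a S) j := by
  rw [dd_prof hS, dd_prof hS]
  have h := rt_mul (a := a) hS hA j
  have e : rt a A S j * (a * (1 + a)) * (A * (1 + A) * prof A S j / ((S + j + 1) * (S + j + 2))) =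
      a * (1 + a) * (A * (1 + A)) * (rt a A S j * prof A S j) / ((S + j + 1) * (S + j + 2)) := by
    ring
  rw [e, h]
  ring

/-- for `rt_j ≤ M`, `M a (1+a) ≤ A₀ A (1+A)`: the second difference of `Φ` is at most `A₀` times the
second difference of `F` -/
theorem dd_le {a A S M A0 : ℝ} (hS : 0 ≤ S) (ha0 : 0 < a) (haA : a ≤ A) (hA : A < S + 1)
    (hM : M * (a * (1 + a)) ≤ A0 * (A * (1 + A))) {j : ℕ} (hj : rt a A S j ≤ M) :
    dd (prof a S) j ≤ A0 * dd (prof A S) j := by
  have h := dd_ratio (a := a) hS hA j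
  have hA0 : 0 < A := by linarith
  have h1 := dd_prof_nonneg hS hA0.le hA j
  have h2 : rt a A S j * (a * (1 + a)) * dd (prof A S) j ≤
      A0 * (A * (1 + A)) * dd (prof A S) j := by
    apply mul_le_mul_of_nonneg_right _ h1
    have : rt a A S j * (a * (1 + a)) ≤ M * (a * (1 + a)) :=
      mul_le_mul_of_nonneg_right hj (by positivity)
    linarith
  rw [h] at h2
  have h3 : 0 < A * (1 + A) := by positivity
  have h4 : A * (1 + A) * dd (prof a S) j ≤ A * (1 + A) * (A0 * dd (prof A S) j) := by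
    refine h2.trans (le_of_eq ?_); ring
  exact le_of_mul_le_mul_left h4 h3

/-- first differences -/
theorem diff_le {a A S M A0 : ℝ} (hS : 0 ≤ S) (ha0 : 0 < a) (hA : A < S + 1)
    (hM : M * a ≤ A0 * A) {j : ℕ} (hj : rt a A S j ≤ M) :
    prof a S j - prof a S (j + 1) ≤ A0 * (prof A S j - prof A S (j + 1)) := by
  rw [prof_diff, prof_diff]
  have h := rt_mul (a := a) hS hA j
  have hp := prof_pos hS hA j
  rw [← h, mul_div_assoc']
  apply div_le_div_of_nonneg_right _ (by positivity)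
  have h1 : rt a A S j * a ≤ M * a := mul_le_mul_of_nonneg_right hj ha0.le
  have h2 : rt a A S j * a * prof A S j ≤ A0 * A * prof A S j :=
    mul_le_mul_of_nonneg_right (h1.trans hM) hp.le
  linarith

/-- `rt` is close to `1` up to `ε S`: `rt_j ≤ 1 + 2 (A - a) j / (S - A)` when
`2 (A - a) j ≤ S - A`. -/
theorem rt_le_of_small {a A S : ℝ} (ha1 : a ≤ 1) (hA1 : 1 ≤ A) (hSA : A < S) (j : ℕ) (hj : 2 * ((A - a) * j) ≤ S - A) :
    rt a A S j ≤ 1 + 2 * (A - a) * j / (S - A) := by
  have hS : 0 < S := by linarith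
  have hSA' : 0 < S - A := by linarith
  have hA : A < S + 1 := by linarith
  induction j with
  | zero => simp
  | succ j ih =>
    push_cast at hj
    have hd : 0 ≤ A - a := by linarith
    · have hj' : 2 * ((A - a) * j) ≤ S - A := by nlinarith
      have ih' := ih hj'
      have hr := rt_diff (a := a) hS.le hA j
      have hrt2 : rt a A S j ≤ 2 := by
        refine ih'.trans ?_
        have : 2 * (A - a) * j / (S - A) ≤ 1 := by
          rw [div_le_one hSA']; linarith
        linarith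
      have h3 : (A - a) / (S + j + 1 - A) ≤ (A - a) / (S - A) := by
        apply div_le_div_of_nonneg_left hd hSA'
        have : (0 : ℝ) ≤ j := Nat.cast_nonneg j
        linarith
      have hr0 := rt_pos (a := a) hS.le (by linarith) hA j
      have h4 : rt a A S j * ((A - a) / (S + j + 1 - A)) ≤ 2 * ((A - a) / (S - A)) :=
        mul_le_mul hrt2 h3 (div_nonneg hd (by
          have : (0 : ℝ) ≤ j := Nat.cast_nonneg j
          linarith)) (by norm_num)
      have e : 1 + 2 * (A - a) * ((j + 1 : ℕ) : ℝ) / (S - A) =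
          1 + 2 * (A - a) * j / (S - A) + 2 * ((A - a) / (S - A)) := by
        push_cast; ring
      rw [e]
      linarith

/-- **Base of (b)**, scalar part: `α = A₀ C`, `α F_Q ≥ (1+μ)(1+η) Φ̂_Q`, `Φ_Q ≤ Φ̂_Q`, and the
oscillation of `F` on `0..Q` plus the `X`-term small. -/
theorem base_b_scalar {α μ η K FQ PQ PhQ y : ℝ} (hμ : 0 ≤ μ) (hη : 0 < η) (hK : 1 ≤ K)
    (hα : 0 ≤ α) (hF : 0 < FQ)
    (h1 : (1 + μ) * (1 + η) * PhQ ≤ α * FQ) (h2 : PQ ≤ PhQ) (hy : 0 ≤ y)
    (h3 : 2 * (1 - FQ) + y ≤ FQ * (η / (1 + η))) :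
    μ * K * PhQ ≤ K * (α * FQ - PQ) - 2 * (α * (1 - FQ)) - α * y := by
  have h4 : α * (2 * (1 - FQ) + y) ≤ α * (FQ * (η / (1 + η))) := mul_le_mul_of_nonneg_left h3 hα
  have h5 : α * FQ * (η / (1 + η)) ≤ α * FQ * (η / (1 + η)) * K :=
    le_mul_of_one_le_right (by positivity) hK
  have h6 : (1 + μ) * PhQ ≤ α * FQ / (1 + η) := by
    rw [le_div_iff₀ (by linarith)]; linarith
  have h7 : α * FQ / (1 + η) = α * FQ - α * FQ * (η / (1 + η)) := by
    field_simp; ring
  have h8 : K * ((1 + μ) * PhQ) ≤ K * (α * FQ - α * FQ * (η / (1 + η))) := by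
    rw [← h7]; exact mul_le_mul_of_nonneg_left h6 (by linarith)
  have h9 : K * PQ ≤ K * PhQ := mul_le_mul_of_nonneg_left h2 (by linarith)
  nlinarith

end Crest.Agent.R340.RecS735
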