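import Crest.Agent.R340.Rot3_303
import Crest.Agent.R340.Avg_814

/-!
# R340 (helper303), rotation layer 6: Haar averages of the rotated pair operators

`integral_Bg : ∫ star (Bg g p) * X * Bg g p' = δ_{pp'} (2Q-1)⁻¹ ∑ q, star (Bp q) * X * Bp q` for
every `X` (no invariance), and its corollaries.
-/

set_option autoImplicit false

open Matrix MeasureTheory

namespace Crest.Agent.R340.Rot303

open Crest.Agent.R340.CS809 Crest.MathPhysics.Laughlin Crest.Agent.R340.Fock649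
  Crest.Agent.R340.Gam303 Crest.Agent.R340.Br320 Crest.Agent.R340.Avg814

noncomputable section

variable {Q : ℕ}

lemma G2_mul_ct (g : G2) :
    (g : Matrix (Fin 2) (Fin 2) ℂ) * (g : Matrix (Fin 2) (Fin 2) ℂ)ᴴ = 1 :=
  mul_eq_one_comm.1 (Matrix.UnitaryGroup.star_mul_self g)

theorem star_Bg_mul_Bg {g : Matrix (Fin 2) (Fin 2) ℂ} (hg : g * gᴴ = 1)
    (X : Op (Fin (Q + 1))) (p p' : Fin (2 * Q - 1)) :
    star (Bg Q g p) * X * Bg Q g p' =
      ∑ q, ∑ r, (D2 Q g q p * star (D2 Q g r p')) • (star (Bp Q q) * X * Bp Q r) := by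
  rw [star_Bg_eq hg, Bg_eq hg, smul_mul_assoc, smul_mul_smul_comm, det_mul_star hg, one_smul,
    Finset.sum_mul, Finset.sum_mul_sum]
  refine Finset.sum_congr rfl fun q _ => Finset.sum_congr rfl fun r _ => ?_
  rw [smul_mul_assoc, smul_mul_smul_comm]

theorem continuous_Bg_G2 (p : Fin (2 * Q - 1)) :
    Continuous fun g : G2 => Bg Q (g : Matrix (Fin 2) (Fin 2) ℂ) p :=
  (continuous_Bg p).comp continuous_subtype_val

theorem continuous_cj_G2 (X : Op (Fin (Q + 1))) :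
    Continuous fun g : G2 => cj (g : Matrix (Fin 2) (Fin 2) ℂ) X :=
  (continuous_cj X).comp continuous_subtype_val

theorem continuous_star_Bg_mul_Bg (X : Op (Fin (Q + 1))) (p p' : Fin (2 * Q - 1)) :
    Continuous fun g : G2 => star (Bg Q (g : Matrix (Fin 2) (Fin 2) ℂ) p) * X *
      Bg Q (g : Matrix (Fin 2) (Fin 2) ℂ) p' :=
  ((continuous_star.comp (continuous_Bg_G2 p)).mul continuous_const).mul (continuous_Bg_G2 p')

theorem integrable_star_Bg_mul_Bg (X : Op (Fin (Q + 1))) (p p' : Fin (2 * Q - 1)) :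
    Integrable (fun g : G2 => star (Bg Q (g : Matrix (Fin 2) (Fin 2) ℂ) p) * X *
      Bg Q (g : Matrix (Fin 2) (Fin 2) ℂ) p') hm :=
  Crest.Agent.R124.Haar.integrable_of_cont (continuous_star_Bg_mul_Bg X p p')

theorem continuous_D2_mul (q p r p' : Fin (2 * Q - 1)) : Continuous fun g : G2 =>
    D2 Q (g : Matrix (Fin 2) (Fin 2) ℂ) q p * star (D2 Q (g : Matrix (Fin 2) (Fin 2) ℂ) r p') := by
  have h : ∀ i k, Continuous fun g : G2 => D2 Q (g : Matrix (Fin 2) (Fin 2) ℂ) i k := fun i k =>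
    ((continuous_D2 Q).matrix_elem i k).comp continuous_subtype_val
  exact (h q p).mul (h r p').star

/-- **Haar average of a rotated pair operator with an arbitrary operator in the middle.** -/
theorem integral_Bg (X : Op (Fin (Q + 1))) (p p' : Fin (2 * Q - 1)) :
    ∫ g : G2, star (Bg Q (g : Matrix (Fin 2) (Fin 2) ℂ) p) * X *
      Bg Q (g : Matrix (Fin 2) (Fin 2) ℂ) p' ∂hm =
      if p = p' then (2 * (Q : ℂ) - 1)⁻¹ • ∑ q, star (Bp Q q) * X * Bp Q q else 0 := by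
  have h1 : ∀ g : G2, star (Bg Q (g : Matrix (Fin 2) (Fin 2) ℂ) p) * X *
      Bg Q (g : Matrix (Fin 2) (Fin 2) ℂ) p' =
      ∑ q, ∑ r, (D2 Q (g : Matrix (Fin 2) (Fin 2) ℂ) q p *
        star (D2 Q (g : Matrix (Fin 2) (Fin 2) ℂ) r p')) • (star (Bp Q q) * X * Bp Q r) :=
    fun g => star_Bg_mul_Bg (G2_mul_ct g) X p p'
  have hint : ∀ q r, Integrable (fun g : G2 => (D2 Q (g : Matrix (Fin 2) (Fin 2) ℂ) q p *
        star (D2 Q (g : Matrix (Fin 2) (Fin 2) ℂ) r p')) • (star (Bp Q q) * X * Bp Q r)) hm :=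
    fun q r => (Crest.Agent.R124.Haar.integrable_of_cont (continuous_D2_mul q p r p')).smul_const _
  rw [integral_congr_ae (Filter.Eventually.of_forall h1), integral_finsetSum]
  · have h2 : ∀ q : Fin (2 * Q - 1), ∫ g : G2, ∑ r, (D2 Q (g : Matrix (Fin 2) (Fin 2) ℂ) q p *
        star (D2 Q (g : Matrix (Fin 2) (Fin 2) ℂ) r p')) • (star (Bp Q q) * X * Bp Q r) ∂hm =
        if p = p' then (2 * (Q : ℂ) - 1)⁻¹ • (star (Bp Q q) * X * Bp Q q) else 0 := by
      intro q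
      rw [integral_finsetSum _ fun r _ => hint q r]
      have h3 : ∀ r, ∫ g : G2, (D2 Q (g : Matrix (Fin 2) (Fin 2) ℂ) q p *
        star (D2 Q (g : Matrix (Fin 2) (Fin 2) ℂ) r p')) • (star (Bp Q q) * X * Bp Q r) ∂hm =
        (if q = r ∧ p = p' then (2 * (Q : ℂ) - 1)⁻¹ else 0) • (star (Bp Q q) * X * Bp Q r) := by
        intro r
        rw [integral_smul_const, schur_D2]
      rw [Finset.sum_congr rfl fun r _ => h3 r, Finset.sum_eq_single q]
      · by_cases hp : p = p'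
        · rw [if_pos ⟨rfl, hp⟩, if_pos hp]
        · rw [if_neg (fun h => hp h.2), if_neg hp, zero_smul]
      · intro r _ hr
        rw [if_neg (fun h => hr h.1.symm), zero_smul]
      · intro h; exact absurd (Finset.mem_univ _) h
    rw [Finset.sum_congr rfl fun q _ => h2 q]
    by_cases hp : p = p'
    · simp only [if_pos hp]
      rw [Finset.smul_sum]
    · simp only [if_neg hp, Finset.sum_const_zero]
  · intro q _
    exact integrable_finsetSum _ fun r _ => hint q r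

/-- the diagonal case -/
theorem integral_Bg_self (X : Op (Fin (Q + 1))) (p : Fin (2 * Q - 1)) :
    ∫ g : G2, star (Bg Q (g : Matrix (Fin 2) (Fin 2) ℂ) p) * X *
      Bg Q (g : Matrix (Fin 2) (Fin 2) ℂ) p ∂hm =
      (2 * (Q : ℂ) - 1)⁻¹ • ∑ q, star (Bp Q q) * X * Bp Q q := by
  rw [integral_Bg, if_pos rfl]

theorem two_mul_sub_one_pos (p : Fin (2 * Q - 1)) : (0 : ℝ) < 2 * (Q : ℝ) - 1 := by
  have h := p.2
  have h2 : 1 ≤ Q := by omega
  have h3 : (1 : ℝ) ≤ Q := by exact_mod_cast h2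
  linarith

theorem two_mul_sub_one_ne (p : Fin (2 * Q - 1)) : (2 * (Q : ℂ) - 1) ≠ 0 := by
  have h := (two_mul_sub_one_pos p).ne'
  intro h2
  apply h
  have h3 := congrArg Complex.re h2
  simpa using h3

/-- **(ROT)** with the measure `(2Q-1) dHaar`, any operator in the middle. -/
theorem smul_integral_Bg (X : Op (Fin (Q + 1))) (p : Fin (2 * Q - 1)) :
    (2 * (Q : ℝ) - 1) • ∫ g : G2, star (Bg Q (g : Matrix (Fin 2) (Fin 2) ℂ) p) * X *
      Bg Q (g : Matrix (Fin 2) (Fin 2) ℂ) p ∂hm = ∑ q, star (Bp Q q) * X * Bp Q q := by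
  rw [integral_Bg_self]
  have h : ∀ Y : Op (Fin (Q + 1)), (2 * (Q : ℝ) - 1) • Y = (2 * (Q : ℂ) - 1) • Y := by
    intro Y
    have : (2 * (Q : ℂ) - 1) = ((2 * (Q : ℝ) - 1 : ℝ) : ℂ) := by push_cast; ring
    rw [this]
    rfl
  rw [h, smul_smul, mul_inv_cancel₀ (two_mul_sub_one_ne p), one_smul]

/-- **(ROT)**, `X = 1`. -/
theorem smul_integral_Bg_one (p : Fin (2 * Q - 1)) :
    (2 * (Q : ℝ) - 1) • ∫ g : G2, star (Bg Q (g : Matrix (Fin 2) (Fin 2) ℂ) p) *
      Bg Q (g : Matrix (Fin 2) (Fin 2) ℂ) p ∂hm = HH Q := by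
  have h := smul_integral_Bg (1 : Op (Fin (Q + 1))) p
  simp only [mul_one] at h
  exact h

/-- the same for a scaled measure -/
theorem integral_Bg_measure (X : Op (Fin (Q + 1))) (p : Fin (2 * Q - 1)) :
    ∫ g : G2, star (Bg Q (g : Matrix (Fin 2) (Fin 2) ℂ) p) * X *
      Bg Q (g : Matrix (Fin 2) (Fin 2) ℂ) p ∂(ENNReal.ofReal (2 * (Q : ℝ) - 1) • hm) =
      ∑ q, star (Bp Q q) * X * Bp Q q := by
  rw [integral_smul_measure, ENNReal.toReal_ofReal (two_mul_sub_one_pos p).le, smul_integral_Bg]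

theorem integral_Bg_measure_one (p : Fin (2 * Q - 1)) :
    ∫ g : G2, star (Bg Q (g : Matrix (Fin 2) (Fin 2) ℂ) p) *
      Bg Q (g : Matrix (Fin 2) (Fin 2) ℂ) p ∂(ENNReal.ofReal (2 * (Q : ℝ) - 1) • hm) = HH Q := by
  have h := integral_Bg_measure (1 : Op (Fin (Q + 1))) p
  simp only [mul_one] at h
  exact h

/-- vector form -/
theorem integral_norm_Bg_sq (p : Fin (2 * Q - 1)) (v : Fk (Fin (Q + 1))) :
    (2 * (Q : ℝ) - 1) * ∫ g : G2, ‖Bg Q (g : Matrix (Fin 2) (Fin 2) ℂ) p v‖ ^ 2 ∂hm =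
      (inner ℂ v (HH Q v) : ℂ).re := by
  have hint := integrable_star_Bg_mul_Bg (1 : Op (Fin (Q + 1))) p p
  simp only [mul_one] at hint
  have h1 := re_inner_integral_ap hint v v
  have h2 : ∀ g : G2, (inner ℂ v ((star (Bg Q (g : Matrix (Fin 2) (Fin 2) ℂ) p) *
      Bg Q (g : Matrix (Fin 2) (Fin 2) ℂ) p) v) : ℂ).re =
      ‖Bg Q (g : Matrix (Fin 2) (Fin 2) ℂ) p v‖ ^ 2 := by
    intro g
    rw [inner_star_mul_self, ← Complex.ofReal_pow, Complex.ofReal_re]
  rw [integral_congr_ae (Filter.Eventually.of_forall h2)] at h1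
  rw [← h1, ← smul_integral_Bg_one p]
  have h3 : ∀ (r : ℝ) (Y : Op (Fin (Q + 1))), (r • Y) v = (r : ℂ) • Y v := fun r Y => rfl
  rw [h3, inner_smul_right, Complex.re_ofReal_mul]

/-- `qf` with rotated operators -/
theorem integral_cj_qf (M : Matrix (Fin (2 * Q - 1)) (Fin (2 * Q - 1)) ℂ) :
    ∫ g : G2, cj (g : Matrix (Fin 2) (Fin 2) ℂ) (qf M 1) ∂hm =
      (M.trace * (2 * (Q : ℂ) - 1)⁻¹) • HH Q := by
  have h1 : ∀ g : G2, cj (g : Matrix (Fin 2) (Fin 2) ℂ) (qf M 1) =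
      ∑ p, ∑ p', M p p' • (star (Bg Q (g : Matrix (Fin 2) (Fin 2) ℂ) p) * 1 *
        Bg Q (g : Matrix (Fin 2) (Fin 2) ℂ) p') := by
    intro g
    rw [cj_qf (G2_mul_ct g), cj_one (G2_mul_ct g), sum_Bg _ (G2_mul_ct g)]
  have hint : ∀ p p', Integrable (fun g : G2 => M p p' •
      (star (Bg Q (g : Matrix (Fin 2) (Fin 2) ℂ) p) * 1 *
        Bg Q (g : Matrix (Fin 2) (Fin 2) ℂ) p')) hm :=
    fun p p' => (integrable_star_Bg_mul_Bg 1 p p').smul (M p p')
  rw [integral_congr_ae (Filter.Eventually.of_forall h1),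
    integral_finsetSum _ fun p _ => integrable_finsetSum _ fun p' _ => hint p p']
  have h2 : ∀ p, ∫ g : G2, ∑ p', M p p' • (star (Bg Q (g : Matrix (Fin 2) (Fin 2) ℂ) p) * 1 *
        Bg Q (g : Matrix (Fin 2) (Fin 2) ℂ) p') ∂hm =
      M p p • ((2 * (Q : ℂ) - 1)⁻¹ • HH Q) := by
    intro p
    rw [integral_finsetSum _ fun p' _ => hint p p', Finset.sum_eq_single p]
    · rw [integral_smul, integral_Bg_self]
      simp only [mul_one]
      rfl
    · intro p' _ hp'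
      rw [integral_smul, integral_Bg, if_neg (Ne.symm hp'), smul_zero]
    · intro h; exact absurd (Finset.mem_univ _) h
  rw [Finset.sum_congr rfl fun p _ => h2 p, ← Finset.sum_smul, smul_smul]
  rfl

/-- **Average of a rotated radial weight.** -/
theorem integral_cj_radial (h : Fin (2 * Q - 1) → ℂ) :
    ∫ g : G2, cj (g : Matrix (Fin 2) (Fin 2) ℂ) (∑ p, h p • (star (Bp Q p) * Bp Q p)) ∂hm =
      ((∑ p, h p) * (2 * (Q : ℂ) - 1)⁻¹) • HH Q := by
  have h1 := integral_cj_qf (Q := Q) (Matrix.diagonal h)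
  rw [qf_diagonal, Matrix.trace_diagonal] at h1
  simp only [mul_one] at h1
  exact h1

/-- rotated radial weights in terms of `Bg` -/
theorem cj_radial {g : Matrix (Fin 2) (Fin 2) ℂ} (hg : g * gᴴ = 1) (h : Fin (2 * Q - 1) → ℂ) :
    cj g (∑ p, h p • (star (Bp Q p) * Bp Q p)) = ∑ p, h p • (star (Bg Q g p) * Bg Q g p) := by
  rw [cj_sum]
  refine Finset.sum_congr rfl fun p _ => ?_
  rw [cj_smul, cj_mul hg, ← cj_star]
  rfl

end

end Crest.Agent.R340.Rot303
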