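import Crest.Agent.R340.PathStep1_880

/-!
# R340, strong pass, operator side, part 1 (helper875): absorbing the cross error into the profile

Abstract form of doc 1315.  `E` finite dimensional, `Γ θ : E → E` injective with
`d/dθ Γ_θ F = -(1/2) G Γ_θ F` (structure `Flow`), `MZ Γ Z0 θ = Γ_θ (Z0)`.  For a vector `Ω ≠ 0`,
`vE Γ Ω A θ` is the expectation of `A` in the direction `Γ_θ Ω`.
* `path_affine`     : first-time theorem for `c(θ) + A + θ B`;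
* `hasDerivAt_vE`   : derivative of the vacuum expectation = `-cross`;
* `wmove`           : a lower bound for fixed operators moved along `θ` with absolute errors;
* `absorb`          : the moving-profile step (doc 1315).
-/

set_option autoImplicit false
set_option linter.unusedSectionVars false

namespace Crest.Agent.R340.Str875

open Set
open Crest.Agent.R340.PathStep880 (off off_apply off_of_mem inner_off_off)

variable {E : Type*} [NormedAddCommGroup E] [InnerProductSpace ℂ E] [FiniteDimensional ℂ E]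

/-! ### 0. symmetric operators -/

theorem re_inner_self (ψ : E) : (inner ℂ ψ ψ).re = ‖ψ‖ ^ 2 := by
  rw [inner_self_eq_norm_sq_to_K]; norm_cast

/-- symmetric operators -/
def Sym (A : E →L[ℂ] E) : Prop := ∀ x y, inner ℂ (A x) y = inner ℂ x (A y)

theorem Sym.add {A B : E →L[ℂ] E} (hA : Sym A) (hB : Sym B) : Sym (A + B) := fun x y => by
  have e1 : (A + B) x = A x + B x := rfl
  have e2 : (A + B) y = A y + B y := rfl
  rw [e1, e2, inner_add_left, inner_add_right, hA, hB]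

theorem Sym.smul {A : E →L[ℂ] E} (hA : Sym A) (r : ℝ) : Sym (((r : ℝ) : ℂ) • A) := fun x y => by
  have e1 : ∀ x, (((r : ℝ) : ℂ) • A) x = (r : ℂ) • A x := fun _ => rfl
  rw [e1, e1, inner_smul_left, inner_smul_right, hA, Complex.conj_ofReal]

theorem Sym.neg {A : E →L[ℂ] E} (hA : Sym A) : Sym (-A) := fun x y => by
  have e1 : ∀ x, (-A) x = -(A x) := fun _ => rfl
  rw [e1, e1, inner_neg_left, inner_neg_right, hA]

theorem Sym.sub {A B : E →L[ℂ] E} (hA : Sym A) (hB : Sym B) : Sym (A - B) := by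
  rw [sub_eq_add_neg]; exact hA.add hB.neg

theorem Sym.id : Sym (ContinuousLinearMap.id ℂ E) := fun _ _ => rfl

theorem Sym.inner_im {A : E →L[ℂ] E} (hA : Sym A) (u : E) : (inner ℂ u (A u)).im = 0 := by
  have h5 : inner ℂ u (A u) = (starRingEnd ℂ) (inner ℂ u (A u)) := by
    rw [inner_conj_symm, hA]
  have h6 := congrArg Complex.im h5
  rw [Complex.conj_im] at h6
  linarith

/-- `c • 1 + A + θ • B` -/
noncomputable def aff (c : ℝ) (A B : E →L[ℂ] E) (θ : ℝ) : E →L[ℂ] E :=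
  (c : ℂ) • ContinuousLinearMap.id ℂ E + A + (θ : ℂ) • B

theorem aff_apply (c : ℝ) (A B : E →L[ℂ] E) (θ : ℝ) (ψ : E) :
    aff c A B θ ψ = (c : ℂ) • ψ + A ψ + (θ : ℂ) • B ψ := rfl

theorem sym_aff (c : ℝ) {A B : E →L[ℂ] E} (hA : Sym A) (hB : Sym B) (θ : ℝ) :
    Sym (aff c A B θ) := by
  intro x y
  rw [aff_apply, aff_apply]
  simp only [inner_add_left, inner_add_right, inner_smul_left, inner_smul_right,
    Complex.conj_ofReal]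
  rw [hA, hB]

theorem aff_number (c : ℝ) (A B : E →L[ℂ] E) (θ : ℝ) (Z : Submodule ℂ E) {ψ : E} (hψ : ψ ∈ Z)
    (v : E) :
    (inner ℂ v (off Z (aff c A B θ ψ))).re =
      (inner ℂ v (off Z (A ψ))).re + θ * (inner ℂ v (off Z (B ψ))).re := by
  rw [aff_apply, map_add, map_add, map_smul, map_smul, off_of_mem hψ, smul_zero, zero_add,
    inner_add_right, inner_smul_right, Complex.add_re, Complex.re_ofReal_mul]

theorem hasDerivAt_aff {c : ℝ → ℝ} {c' : ℝ} (A B : E →L[ℂ] E) {θ : ℝ}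
    (hc : HasDerivAt c c' θ) :
    HasDerivAt (fun t => aff (c t) A B t) (((c' : ℝ) : ℂ) • ContinuousLinearMap.id ℂ E + B) θ := by
  unfold aff
  have h1 : HasDerivAt (fun t => ((c t : ℝ) : ℂ) •
      ContinuousLinearMap.id ℂ E) (((c' : ℝ) : ℂ) • ContinuousLinearMap.id ℂ E) θ :=
    hc.ofReal_comp.smul_const (ContinuousLinearMap.id ℂ E)
  have h2 : HasDerivAt (fun t : ℝ => ((t : ℝ) : ℂ) • B) B θ := by
    have h3 : HasDerivAt (fun t : ℝ => ((t : ℝ) : ℂ)) (((1 : ℝ) : ℂ)) θ :=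
      (hasDerivAt_id θ).ofReal_comp
    have h4 := h3.smul_const B
    rw [Complex.ofReal_one, one_smul] at h4
    exact h4
  exact (h1.add_const A).add h2

/-! ### 1. flows -/

/-- `d/dθ Γ_θ F = -(1/2) G Γ_θ F`, `Γ_θ` injective, `Γ_0 = 1`. -/
structure Flow (Γ : ℝ → E →L[ℂ] E) (G : E →L[ℂ] E) : Prop where
  zero : Γ 0 = ContinuousLinearMap.id ℂ E
  inj : ∀ θ, Function.Injective (Γ θ)
  der : ∀ θ F, HasDerivAt (fun t => Γ t F) (-(1 / 2 : ℂ) • G (Γ θ F)) θ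

/-- the moving space -/
noncomputable def MZ (Γ : ℝ → E →L[ℂ] E) (Z0 : Submodule ℂ E) (θ : ℝ) : Submodule ℂ E :=
  Z0.map (Γ θ).toLinearMap

theorem MZ_zero {Γ : ℝ → E →L[ℂ] E} {G : E →L[ℂ] E} (h : Flow Γ G) (Z0 : Submodule ℂ E) :
    MZ Γ Z0 0 = Z0 := by
  unfold MZ
  rw [h.zero]
  exact Submodule.map_id Z0

/-- the cross number `Re ⟪(1-P) G ψ, (1-P) A ψ⟫` -/
noncomputable def crs (G : E →L[ℂ] E) (Z : Submodule ℂ E) (A : E →L[ℂ] E) (ψ : E) : ℝ :=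
  (inner ℂ (off Z (G ψ)) (off Z (A ψ))).re

theorem crs_add (G : E →L[ℂ] E) (Z : Submodule ℂ E) (A B : E →L[ℂ] E) (ψ : E) :
    crs G Z (A + B) ψ = crs G Z A ψ + crs G Z B ψ := by
  unfold crs
  have e : (A + B) ψ = A ψ + B ψ := rfl
  rw [e, map_add, inner_add_right, Complex.add_re]

theorem crs_smul (G : E →L[ℂ] E) (Z : Submodule ℂ E) (r : ℝ) (A : E →L[ℂ] E) (ψ : E) :
    crs G Z (((r : ℝ) : ℂ) • A) ψ = r * crs G Z A ψ := by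
  unfold crs
  have e : ((((r : ℝ) : ℂ)) • A) ψ = (r : ℂ) • A ψ := rfl
  rw [e, map_smul, inner_smul_right, Complex.re_ofReal_mul]

theorem crs_neg (G : E →L[ℂ] E) (Z : Submodule ℂ E) (A : E →L[ℂ] E) (ψ : E) :
    crs G Z (-A) ψ = -crs G Z A ψ := by
  unfold crs
  have e : (-A) ψ = -(A ψ) := rfl
  rw [e, map_neg, inner_neg_right, Complex.neg_re]

theorem crs_sub (G : E →L[ℂ] E) (Z : Submodule ℂ E) (A B : E →L[ℂ] E) (ψ : E) :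
    crs G Z (A - B) ψ = crs G Z A ψ - crs G Z B ψ := by
  rw [sub_eq_add_neg, crs_add, crs_neg, sub_eq_add_neg]

/-- scaling of the cross number -/
theorem crs_scal (G : E →L[ℂ] E) (Z : Submodule ℂ E) (A : E →L[ℂ] E) (r : ℝ) (φ : E) :
    crs G Z A ((r : ℂ) • φ) = r ^ 2 * crs G Z A φ := by
  unfold crs
  rw [map_smul, map_smul, map_smul, map_smul, inner_smul_left, inner_smul_right,
    Complex.conj_ofReal, Complex.re_ofReal_mul, Complex.re_ofReal_mul]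
  ring

theorem form_scal (A : E →L[ℂ] E) (r : ℝ) (φ : E) :
    (inner ℂ ((r : ℂ) • φ) (A ((r : ℂ) • φ))).re = r ^ 2 * (inner ℂ φ (A φ)).re := by
  rw [map_smul, inner_smul_left, inner_smul_right, Complex.conj_ofReal,
    Complex.re_ofReal_mul, Complex.re_ofReal_mul]
  ring

theorem exists_unit {Z : Submodule ℂ E} {ψ : E} (hψ : ψ ∈ Z) (hne : ψ ≠ 0) :
    ∃ φ ∈ Z, ‖φ‖ = 1 ∧ ψ = ((‖ψ‖ : ℝ) : ℂ) • φ := by
  have hn : 0 < ‖ψ‖ := norm_pos_iff.2 hne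
  refine ⟨((‖ψ‖⁻¹ : ℝ) : ℂ) • ψ, Z.smul_mem _ hψ, ?_, ?_⟩
  · rw [norm_smul, Complex.norm_real, norm_inv, norm_norm, inv_mul_cancel₀ hn.ne']
  · rw [smul_smul, ← Complex.ofReal_mul, mul_inv_cancel₀ hn.ne']; simp

/-- **Affine path theorem.** -/
theorem path_affine {Γ : ℝ → E →L[ℂ] E} {G : E →L[ℂ] E} (hF : Flow Γ G) (Z0 : Submodule ℂ E)
    (A B : E →L[ℂ] E) (hA : Sym A) (hB : Sym B) (c c' : ℝ → ℝ)
    (hc : ∀ θ ∈ Icc (0 : ℝ) 1, HasDerivAt c (c' θ) θ)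
    (h0 : ∀ ψ ∈ Z0, 0 ≤ c 0 * ‖ψ‖ ^ 2 + (inner ℂ ψ (A ψ)).re)
    (hR : ∀ θ ∈ Ioc (0 : ℝ) 1, ∀ ψ ∈ MZ Γ Z0 θ, ‖ψ‖ = 1 →
      0 ≤ -(crs G (MZ Γ Z0 θ) A ψ + θ * crs G (MZ Γ Z0 θ) B ψ) + (inner ℂ ψ (B ψ)).re + c' θ) :
    ∀ θ ∈ Icc (0 : ℝ) 1, ∀ ψ ∈ MZ Γ Z0 θ,
      0 ≤ c θ * ‖ψ‖ ^ 2 + (inner ℂ ψ (A ψ)).re + θ * (inner ℂ ψ (B ψ)).re := by
  have hval : ∀ (r θ : ℝ) (ψ : E), (inner ℂ ψ (aff r A B θ ψ)).re =
      r * ‖ψ‖ ^ 2 + (inner ℂ ψ (A ψ)).re + θ * (inner ℂ ψ (B ψ)).re := by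
    intro r θ ψ
    rw [aff_apply]
    simp only [inner_add_right, inner_smul_right, Complex.add_re, Complex.re_ofReal_mul,
      re_inner_self]
  have key := Path924.path_nonneg_map Z0 Γ (fun _ => G)
    (fun θ => aff (c θ) A B θ) (fun θ => ((c' θ : ℝ) : ℂ) • ContinuousLinearMap.id ℂ _ + B) 1
    (fun θ _ => hF.inj θ) (fun θ _ F => hF.der θ F)
    (fun θ hθ => hasDerivAt_aff A B (hc θ hθ)) (fun θ _ => sym_aff _ hA hB θ) ?_ ?_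
  · intro θ hθ ψ hψ
    have h1 := key θ hθ ψ hψ
    rwa [hval] at h1
  · intro ψ hψ
    have h1 : MZ Γ Z0 0 = Z0 := MZ_zero hF Z0
    have h2 : ψ ∈ Z0 := by rw [← h1]; exact hψ
    rw [hval]
    have := h0 ψ h2
    linarith
  · intro θ hθ ψ hψ lam _ _
    have hψ' : ψ ∈ MZ Γ Z0 θ := hψ
    have e0 : (inner ℂ (G ψ - (Z0.map (Γ θ).toLinearMap).starProjection (G ψ))
        (aff (c θ) A B θ ψ - (Z0.map (Γ θ).toLinearMap).starProjection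
          (aff (c θ) A B θ ψ))).re =
        crs G (MZ Γ Z0 θ) A ψ + θ * crs G (MZ Γ Z0 θ) B ψ :=
      aff_number (c θ) A B θ (MZ Γ Z0 θ) hψ' (off (MZ Γ Z0 θ) (G ψ))
    have e1 : ((((c' θ : ℝ) : ℂ) • ContinuousLinearMap.id ℂ E + B) ψ) =
        (c' θ : ℂ) • ψ + B ψ := rfl
    rw [e0, e1, inner_add_right, inner_smul_right, Complex.add_re, Complex.re_ofReal_mul,
      re_inner_self]
    rcases eq_or_ne ψ 0 with rfl | hne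
    · simp [crs]
    obtain ⟨φ, hφZ, hφ1, hψφ⟩ := exists_unit hψ' hne
    have h1 := hR θ hθ φ hφZ hφ1
    have s1 : ∀ T : E →L[ℂ] E, crs G (MZ Γ Z0 θ) T ψ = ‖ψ‖ ^ 2 * crs G (MZ Γ Z0 θ) T φ := by
      intro T
      conv_lhs => rw [hψφ]
      exact crs_scal G _ T ‖ψ‖ φ
    have s2 : (inner ℂ ψ (B ψ)).re = ‖ψ‖ ^ 2 * (inner ℂ φ (B φ)).re := by
      conv_lhs => rw [hψφ]
      exact form_scal B ‖ψ‖ φ
    rw [s1, s1, s2]
    have h2 := mul_nonneg (sq_nonneg ‖ψ‖) h1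
    linarith

/-! ### 2. expectation in a moving vector -/

/-- expectation of `A` in the direction `Γ_θ Ω` -/
noncomputable def vE (Γ : ℝ → E →L[ℂ] E) (Ω : E) (A : E →L[ℂ] E) (θ : ℝ) : ℝ :=
  (inner ℂ (Γ θ Ω) (A (Γ θ Ω))).re / ‖Γ θ Ω‖ ^ 2

theorem Flow.ne_zero {Γ : ℝ → E →L[ℂ] E} {G : E →L[ℂ] E} (hF : Flow Γ G) {Ω : E} (hΩ : Ω ≠ 0)
    (θ : ℝ) : Γ θ Ω ≠ 0 := by
  intro h
  exact hΩ (hF.inj θ (by rw [h, map_zero]))

theorem vE_add (Γ : ℝ → E →L[ℂ] E) (Ω : E) (A B : E →L[ℂ] E) (θ : ℝ) :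
    vE Γ Ω (A + B) θ = vE Γ Ω A θ + vE Γ Ω B θ := by
  unfold vE
  have e : (A + B) (Γ θ Ω) = A (Γ θ Ω) + B (Γ θ Ω) := rfl
  rw [e, inner_add_right, Complex.add_re, add_div]

theorem vE_neg (Γ : ℝ → E →L[ℂ] E) (Ω : E) (A : E →L[ℂ] E) (θ : ℝ) :
    vE Γ Ω (-A) θ = -vE Γ Ω A θ := by
  unfold vE
  have e : (-A) (Γ θ Ω) = -(A (Γ θ Ω)) := rfl
  rw [e, inner_neg_right, Complex.neg_re, neg_div]

theorem vE_sub (Γ : ℝ → E →L[ℂ] E) (Ω : E) (A B : E →L[ℂ] E) (θ : ℝ) :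
    vE Γ Ω (A - B) θ = vE Γ Ω A θ - vE Γ Ω B θ := by
  rw [sub_eq_add_neg, vE_add, vE_neg, sub_eq_add_neg]

theorem vE_smul (Γ : ℝ → E →L[ℂ] E) (Ω : E) (A : E →L[ℂ] E) (r θ : ℝ) :
    vE Γ Ω (((r : ℝ) : ℂ) • A) θ = r * vE Γ Ω A θ := by
  unfold vE
  have e : ((((r : ℝ) : ℂ)) • A) (Γ θ Ω) = (r : ℂ) • A (Γ θ Ω) := rfl
  rw [e, inner_smul_right, Complex.re_ofReal_mul, mul_div_assoc]

/-- the projection on a line -/
theorem inner_off_span {u : E} (hu : ‖u‖ = 1) (x y : E) :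
    inner ℂ (off (Submodule.span ℂ {u}) x) (off (Submodule.span ℂ {u}) y) =
      inner ℂ x y - inner ℂ x u * inner ℂ u y := by
  rw [inner_off_off, off_apply, Submodule.starProjection_unit_singleton ℂ hu, inner_sub_right,
    inner_smul_right]
  ring

/-- derivative of a vacuum expectation: `-` the cross number on the vacuum line. -/
theorem hasDerivAt_vE {Γ : ℝ → E →L[ℂ] E} {G : E →L[ℂ] E} (hF : Flow Γ G) {Ω : E} (hΩ : Ω ≠ 0)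
    {A : E →L[ℂ] E} (hA : Sym A) (θ : ℝ) {u : E} (hu1 : ‖u‖ = 1)
    (hu : Γ θ Ω = ((‖Γ θ Ω‖ : ℝ) : ℂ) • u) :
    HasDerivAt (vE Γ Ω A) (-crs G (Submodule.span ℂ {u}) A u) θ := by
  have hn : 0 < ‖Γ θ Ω‖ := norm_pos_iff.2 (hF.ne_zero hΩ θ)
  have hG := hF.der θ Ω
  have h1 : HasDerivAt (fun t => (inner ℂ (Γ t Ω) (A (Γ t Ω))).re)
      (2 * (inner ℂ (-(1 / 2 : ℂ) • G (Γ θ Ω)) (A (Γ θ Ω))).re +
        (inner ℂ (Γ θ Ω) ((0 : E →L[ℂ] E) (Γ θ Ω))).re)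
      θ := Path924.hasDerivAt_form (D := fun _ => A) hG (hasDerivAt_const θ A) hA
  have h2 : HasDerivAt (fun t => (inner ℂ (Γ t Ω) (Γ t Ω)).re)
      (2 * (inner ℂ (-(1 / 2 : ℂ) • G (Γ θ Ω)) (Γ θ Ω)).re +
        (inner ℂ (Γ θ Ω) ((0 : E →L[ℂ] E) (Γ θ Ω))).re)
      θ := Path924.hasDerivAt_form
        (D := fun _ => ContinuousLinearMap.id ℂ E) hG (hasDerivAt_const θ _) (fun x y => rfl)
  have hz : (inner ℂ (Γ θ Ω) ((0 : E →L[ℂ] E) (Γ θ Ω))).re = 0 := by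
    have e : (0 : E →L[ℂ] E) (Γ θ Ω) = 0 := rfl
    rw [e, inner_zero_right, Complex.zero_re]
  rw [hz, add_zero] at h1 h2
  have hne : (inner ℂ (Γ θ Ω) (Γ θ Ω)).re ≠ 0 := by
    rw [re_inner_self]; positivity
  have h3 := h1.div h2 hne
  have e0 : (fun t => (inner ℂ (Γ t Ω) (A (Γ t Ω))).re) /
      (fun t => (inner ℂ (Γ t Ω) (Γ t Ω)).re) = vE Γ Ω A := by
    funext t
    simp only [Pi.div_apply, vE, re_inner_self]
  rw [e0] at h3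
  refine h3.congr_deriv ?_
  -- compute both sides at the unit vector
  have half : ∀ x y : E, (inner ℂ (-(1 / 2 : ℂ) • x) y).re = -(1 / 2) * (inner ℂ x y).re := by
    intro x y
    rw [inner_smul_left]
    have h4 : (starRingEnd ℂ) (-(1 / 2 : ℂ)) = ((-(1 / 2) : ℝ) : ℂ) := by
      rw [map_neg]
      have : (1 / 2 : ℂ) = (((1 / 2 : ℝ)) : ℂ) := by push_cast; rfl
      rw [this, Complex.conj_ofReal]; push_cast; rfl
    rw [h4, Complex.re_ofReal_mul]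
  have sc : ∀ (S T : E →L[ℂ] E),
      (inner ℂ (S (Γ θ Ω)) (T (Γ θ Ω))).re = ‖Γ θ Ω‖ ^ 2 * (inner ℂ (S u) (T u)).re := by
    intro S T
    have e1 : S (Γ θ Ω) = ((‖Γ θ Ω‖ : ℝ) : ℂ) • S u := by
      conv_lhs => rw [hu]
      rw [map_smul]
    have e2 : T (Γ θ Ω) = ((‖Γ θ Ω‖ : ℝ) : ℂ) • T u := by
      conv_lhs => rw [hu]
      rw [map_smul]
    rw [e1, e2, inner_smul_left, inner_smul_right, Complex.conj_ofReal,
      Complex.re_ofReal_mul, Complex.re_ofReal_mul]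
    ring
  have s1 := sc G A
  have s2 : (inner ℂ (G (Γ θ Ω)) (Γ θ Ω)).re = ‖Γ θ Ω‖ ^ 2 * (inner ℂ (G u) u).re :=
    sc G (ContinuousLinearMap.id ℂ E)
  have s3 : (inner ℂ (Γ θ Ω) (A (Γ θ Ω))).re = ‖Γ θ Ω‖ ^ 2 * (inner ℂ u (A u)).re :=
    sc (ContinuousLinearMap.id ℂ E) A
  rw [half, half, s1, s2, s3, re_inner_self, crs, inner_off_span hu1, Complex.sub_re,
    Complex.mul_re, hA.inner_im u]
  field_simp
  ring

/-- a unit vector in the direction of the vacuum; the moving line is its span -/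
theorem exists_vac {Γ : ℝ → E →L[ℂ] E} {G : E →L[ℂ] E} (hF : Flow Γ G) {Ω : E} (hΩ : Ω ≠ 0)
    (θ : ℝ) : ∃ u, ‖u‖ = 1 ∧ Γ θ Ω = ((‖Γ θ Ω‖ : ℝ) : ℂ) • u ∧
      MZ Γ (Submodule.span ℂ {Ω}) θ = Submodule.span ℂ {u} ∧
      ∀ A : E →L[ℂ] E, (inner ℂ u (A u)).re = vE Γ Ω A θ := by
  have hn : 0 < ‖Γ θ Ω‖ := norm_pos_iff.2 (hF.ne_zero hΩ θ)
  have hmem : Γ θ Ω ∈ Submodule.span ℂ {Γ θ Ω} := Submodule.mem_span_singleton_self _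
  obtain ⟨u, hu, hu1, hu2⟩ := exists_unit hmem (hF.ne_zero hΩ θ)
  refine ⟨u, hu1, hu2, ?_, ?_⟩
  · unfold MZ
    rw [Submodule.map_span, Set.image_singleton]
    have h1 : (Γ θ).toLinearMap Ω = Γ θ Ω := rfl
    rw [h1]
    apply le_antisymm
    · rw [Submodule.span_singleton_le_iff_mem]
      rw [hu2]
      exact Submodule.smul_mem _ _ (Submodule.mem_span_singleton_self u)
    · rw [Submodule.span_singleton_le_iff_mem]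
      exact hu
  · intro A
    unfold vE
    have h1 : (inner ℂ (Γ θ Ω) (A (Γ θ Ω))).re = ‖Γ θ Ω‖ ^ 2 * (inner ℂ u (A u)).re := by
      have h2 := form_scal A ‖Γ θ Ω‖ u
      rw [← hu2] at h2
      exact h2
    rw [h1]
    field_simp

/-! ### 3. moving a fixed lower bound, absolute errors -/

/-- **wmove**: the bound `a (⟨W⟩_vac - W) + (Y - ⟨Y⟩_vac) ≥ 0` on `Z0` moved to `θ`. -/
theorem wmove {Γ : ℝ → E →L[ℂ] E} {G : E →L[ℂ] E} (hF : Flow Γ G) {Ω : E} (hΩ : Ω ≠ 0)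
    (Z0 : Submodule ℂ E) {W Y : E →L[ℂ] E} (hW : Sym W) (hY : Sym Y) {a eW eY : ℝ} (ha : 0 ≤ a)
    (hZW : ∀ θ ∈ Ioc (0 : ℝ) 1, ∀ ψ ∈ MZ Γ Z0 θ, ‖ψ‖ = 1 → |crs G (MZ Γ Z0 θ) W ψ| ≤ eW)
    (hVW : ∀ θ ∈ Ioc (0 : ℝ) 1, ∀ ψ ∈ MZ Γ (Submodule.span ℂ {Ω}) θ, ‖ψ‖ = 1 →
      |crs G (MZ Γ (Submodule.span ℂ {Ω}) θ) W ψ| ≤ eW)
    (hZY : ∀ θ ∈ Ioc (0 : ℝ) 1, ∀ ψ ∈ MZ Γ Z0 θ, ‖ψ‖ = 1 → |crs G (MZ Γ Z0 θ) Y ψ| ≤ eY)
    (hVY : ∀ θ ∈ Ioc (0 : ℝ) 1, ∀ ψ ∈ MZ Γ (Submodule.span ℂ {Ω}) θ, ‖ψ‖ = 1 →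
      |crs G (MZ Γ (Submodule.span ℂ {Ω}) θ) Y ψ| ≤ eY)
    (h0 : ∀ ψ ∈ Z0, 0 ≤ a * (vE Γ Ω W 0 * ‖ψ‖ ^ 2 - (inner ℂ ψ (W ψ)).re) +
      ((inner ℂ ψ (Y ψ)).re - vE Γ Ω Y 0 * ‖ψ‖ ^ 2)) :
    ∀ θ ∈ Icc (0 : ℝ) 1, ∀ ψ ∈ MZ Γ Z0 θ,
      0 ≤ a * (vE Γ Ω W θ * ‖ψ‖ ^ 2 - (inner ℂ ψ (W ψ)).re) +
        ((inner ℂ ψ (Y ψ)).re - vE Γ Ω Y θ * ‖ψ‖ ^ 2) + 2 * (a * eW + eY) * θ * ‖ψ‖ ^ 2 := by
  choose u hu1 hu2 hu3 _ using fun θ => exists_vac hF hΩ θ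
  have key := path_affine hF Z0 (-(((a : ℝ) : ℂ) • W) + Y) 0 ((hW.smul a).neg.add hY)
    (fun x y => by
      have e1 : ∀ z, (0 : E →L[ℂ] E) z = 0 := fun _ => rfl
      rw [e1, e1, inner_zero_left, inner_zero_right])
    (fun θ => a * vE Γ Ω W θ - vE Γ Ω Y θ + 2 * (a * eW + eY) * θ)
    (fun θ => a * (-crs G (Submodule.span ℂ {u θ}) W (u θ)) -
      (-crs G (Submodule.span ℂ {u θ}) Y (u θ)) + 2 * (a * eW + eY))
    (fun θ _ => by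
      have h1 := (hasDerivAt_vE hF hΩ hW θ (hu1 θ) (hu2 θ)).const_mul a
      have h2 := hasDerivAt_vE hF hΩ hY θ (hu1 θ) (hu2 θ)
      have h3 := (hasDerivAt_id θ).const_mul (2 * (a * eW + eY))
      have h4 := (h1.sub h2).add h3
      exact h4.congr_deriv (by ring))
    ?_ ?_
  · intro θ hθ ψ hψ
    have h1 := key θ hθ ψ hψ
    have e1 : (-(((a : ℝ) : ℂ) • W) + Y) ψ = -((a : ℂ) • W ψ) + Y ψ := rfl
    have e2 : (0 : E →L[ℂ] E) ψ = 0 := rfl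
    rw [e1, e2, inner_add_right, inner_neg_right, inner_smul_right, Complex.add_re,
      Complex.neg_re, Complex.re_ofReal_mul, inner_zero_right, Complex.zero_re] at h1
    linarith
  · intro ψ hψ
    have h1 := h0 ψ hψ
    have e1 : (-(((a : ℝ) : ℂ) • W) + Y) ψ = -((a : ℂ) • W ψ) + Y ψ := rfl
    rw [e1, inner_add_right, inner_neg_right, inner_smul_right, Complex.add_re,
      Complex.neg_re, Complex.re_ofReal_mul]
    linarith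
  · intro θ hθ ψ hψ hψ1
    have b1 := abs_le.1 (hZW θ hθ ψ hψ hψ1)
    have b2 := abs_le.1 (hZY θ hθ ψ hψ hψ1)
    have hmem : u θ ∈ MZ Γ (Submodule.span ℂ {Ω}) θ := by
      rw [hu3 θ]; exact Submodule.mem_span_singleton_self _
    have b3 := hVW θ hθ (u θ) hmem (hu1 θ)
    have b4 := hVY θ hθ (u θ) hmem (hu1 θ)
    rw [hu3 θ] at b3 b4
    have b3' := abs_le.1 b3
    have b4' := abs_le.1 b4
    have e0 : crs G (MZ Γ Z0 θ) (0 : E →L[ℂ] E) ψ = 0 := by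
      unfold crs
      have e : (0 : E →L[ℂ] E) ψ = 0 := rfl
      rw [e, map_zero, inner_zero_right, Complex.zero_re]
    have e2 : (0 : E →L[ℂ] E) ψ = 0 := rfl
    rw [crs_add, crs_neg, crs_smul, e0, e2, inner_zero_right, Complex.zero_re]
    have m1 := mul_le_mul_of_nonneg_left b1.1 ha
    have m2 := mul_le_mul_of_nonneg_left b3'.2 ha
    linarith [b2.2, b4'.1]

/-! ### 4. absorption -/

/-- **absorb** (doc 1315): `TF = dG F`, `Te = dG ε`. -/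
theorem absorb {Γ : ℝ → E →L[ℂ] E} {G : E →L[ℂ] E} (hF : Flow Γ G) {Ω : E} (hΩ : Ω ≠ 0)
    (Z0 : Submodule ℂ E) {TF Te X : E →L[ℂ] E} (hTF : Sym TF) (hTe : Sym Te) (hX : Sym X)
    {a eW eY eT m : ℝ} (ha : 0 ≤ a)
    (hZW : ∀ θ ∈ Ioc (0 : ℝ) 1, ∀ ψ ∈ MZ Γ Z0 θ, ‖ψ‖ = 1 → |crs G (MZ Γ Z0 θ) Te ψ| ≤ eW)
    (hVW : ∀ θ ∈ Ioc (0 : ℝ) 1, ∀ ψ ∈ MZ Γ (Submodule.span ℂ {Ω}) θ, ‖ψ‖ = 1 →
      |crs G (MZ Γ (Submodule.span ℂ {Ω}) θ) Te ψ| ≤ eW)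
    (hT : ∀ θ ∈ Ioc (0 : ℝ) 1, ∃ Y : E →L[ℂ] E, Sym Y ∧
      (∀ ψ ∈ MZ Γ Z0 θ, ‖ψ‖ = 1 →
        |a * crs G (MZ Γ Z0 θ) TF ψ + crs G (MZ Γ Z0 θ) X ψ - (inner ℂ ψ (Y ψ)).re| ≤ eT) ∧
      (∀ ψ ∈ MZ Γ (Submodule.span ℂ {Ω}) θ, ‖ψ‖ = 1 →
        |a * crs G (MZ Γ (Submodule.span ℂ {Ω}) θ) TF ψ +
          crs G (MZ Γ (Submodule.span ℂ {Ω}) θ) X ψ - (inner ℂ ψ (Y ψ)).re| ≤ eT) ∧
      (∀ θ' ∈ Ioc (0 : ℝ) 1, ∀ ψ ∈ MZ Γ Z0 θ', ‖ψ‖ = 1 → |crs G (MZ Γ Z0 θ') Y ψ| ≤ eY) ∧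
      (∀ θ' ∈ Ioc (0 : ℝ) 1, ∀ ψ ∈ MZ Γ (Submodule.span ℂ {Ω}) θ', ‖ψ‖ = 1 →
        |crs G (MZ Γ (Submodule.span ℂ {Ω}) θ') Y ψ| ≤ eY) ∧
      (∀ ψ ∈ Z0, 0 ≤ a * (vE Γ Ω Te 0 * ‖ψ‖ ^ 2 - (inner ℂ ψ (Te ψ)).re) +
        ((inner ℂ ψ (Y ψ)).re - vE Γ Ω Y 0 * ‖ψ‖ ^ 2)))
    (h0 : ∀ ψ ∈ Z0, m * ‖ψ‖ ^ 2 ≤
      (a * (vE Γ Ω TF 0 - vE Γ Ω Te 0) + vE Γ Ω X 0) * ‖ψ‖ ^ 2 -
        a * ((inner ℂ ψ (TF ψ)).re - (inner ℂ ψ (Te ψ)).re) - (inner ℂ ψ (X ψ)).re) :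
    ∀ ψ ∈ MZ Γ Z0 1, (m - (4 * (a * eW) + 2 * eY + 2 * eT)) * ‖ψ‖ ^ 2 ≤
      (a * vE Γ Ω TF 1 + vE Γ Ω X 1) * ‖ψ‖ ^ 2 - a * (inner ℂ ψ (TF ψ)).re -
        (inner ℂ ψ (X ψ)).re := by
  choose u hu1 hu2 hu3 hu4 using fun θ => exists_vac hF hΩ θ
  -- A = -a TF + a Te - X,  B = - a Te
  have key := path_affine hF Z0 (-(((a : ℝ) : ℂ) • TF) + ((a : ℝ) : ℂ) • Te + -X)
    (-(((a : ℝ) : ℂ) • Te)) (((hTF.smul a).neg.add (hTe.smul a)).add hX.neg) (hTe.smul a).neg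
    (fun θ => a * vE Γ Ω TF θ + vE Γ Ω X θ - (1 - θ) * (a * vE Γ Ω Te θ) - m +
      (4 * (a * eW) + 2 * eY + 2 * eT) * θ)
    (fun θ => a * (-crs G (Submodule.span ℂ {u θ}) TF (u θ)) +
      (-crs G (Submodule.span ℂ {u θ}) X (u θ)) -
      ((-1) * (a * vE Γ Ω Te θ) +
        (1 - θ) * (a * (-crs G (Submodule.span ℂ {u θ}) Te (u θ)))) +
      (4 * (a * eW) + 2 * eY + 2 * eT))
    (fun θ _ => by
      have h1 := (hasDerivAt_vE hF hΩ hTF θ (hu1 θ) (hu2 θ)).const_mul a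
      have h2 := hasDerivAt_vE hF hΩ hX θ (hu1 θ) (hu2 θ)
      have h3 := (hasDerivAt_vE hF hΩ hTe θ (hu1 θ) (hu2 θ)).const_mul a
      have h4 : HasDerivAt (fun t : ℝ => 1 - t) (-1) θ := by
        simpa using (hasDerivAt_id θ).const_sub 1
      have h5 := (hasDerivAt_id θ).const_mul (4 * (a * eW) + 2 * eY + 2 * eT)
      have h6 := (((h1.add h2).sub (h4.mul h3)).sub_const m).add h5
      exact h6.congr_deriv (by ring))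
    ?_ ?_
  · intro ψ hψ
    have h1 := key 1 ⟨zero_le_one, le_rfl⟩ ψ hψ
    have e1 : (-(((a : ℝ) : ℂ) • TF) + ((a : ℝ) : ℂ) • Te + -X) ψ =
      -((a : ℂ) • TF ψ) + (a : ℂ) • Te ψ + -(X ψ) := rfl
    have e2 : (-(((a : ℝ) : ℂ) • Te)) ψ = -((a : ℂ) • Te ψ) := rfl
    rw [e1, e2] at h1
    simp only [inner_add_right, inner_neg_right, inner_smul_right, Complex.add_re,
      Complex.neg_re, Complex.re_ofReal_mul] at h1
    linarith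
  · intro ψ hψ
    have h1 := h0 ψ hψ
    have e1 : (-(((a : ℝ) : ℂ) • TF) + ((a : ℝ) : ℂ) • Te + -X) ψ =
      -((a : ℂ) • TF ψ) + (a : ℂ) • Te ψ + -(X ψ) := rfl
    rw [e1]
    simp only [inner_add_right, inner_neg_right, inner_smul_right, Complex.add_re,
      Complex.neg_re, Complex.re_ofReal_mul]
    linarith
  · intro θ hθ ψ hψ hψ1
    obtain ⟨Y, hYs, hYZ, hYV, hcZ, hcV, hW0⟩ := hT θ hθ
    have hθ' : θ ∈ Icc (0 : ℝ) 1 := ⟨hθ.1.le, hθ.2⟩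
    have hw := wmove hF hΩ Z0 hTe hYs ha hZW hVW hcZ hcV hW0 θ hθ' ψ hψ
    have hmem : u θ ∈ MZ Γ (Submodule.span ℂ {Ω}) θ := by
      rw [hu3 θ]; exact Submodule.mem_span_singleton_self _
    have b1 := abs_le.1 (hYZ ψ hψ hψ1)
    have b2 := hYV (u θ) hmem (hu1 θ)
    rw [hu3 θ, hu4 θ Y] at b2
    have b2' := abs_le.1 b2
    have b3 := abs_le.1 (hZW θ hθ ψ hψ hψ1)
    have b4 := hVW θ hθ (u θ) hmem (hu1 θ)
    rw [hu3 θ] at b4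
    have b4' := abs_le.1 b4
    have e2 : (-(((a : ℝ) : ℂ) • Te)) ψ = -((a : ℂ) • Te ψ) := rfl
    rw [crs_add, crs_add, crs_neg, crs_smul, crs_smul, crs_neg, crs_neg, crs_smul, e2,
      inner_neg_right, inner_smul_right, Complex.neg_re, Complex.re_ofReal_mul]
    rw [hψ1] at hw
    have hθ0 := hθ.1.le
    have hθ1 := hθ.2
    have heW : 0 ≤ eW := (abs_nonneg _).trans (hZW θ hθ ψ hψ hψ1)
    have heY : 0 ≤ eY := (abs_nonneg _).trans (hcZ θ hθ ψ hψ hψ1)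
    have n1 : 2 * (a * eW + eY) * θ ≤ 2 * (a * eW + eY) := by
      have : 0 ≤ 2 * (a * eW + eY) := by positivity
      nlinarith
    -- (1-θ) a |crs Te| ≤ a eW
    have n2 : (1 - θ) * (a * (crs G (MZ Γ Z0 θ) Te ψ -
        crs G (Submodule.span ℂ {u θ}) Te (u θ))) ≤ 2 * (a * eW) := by
      have k1 : a * (crs G (MZ Γ Z0 θ) Te ψ - crs G (Submodule.span ℂ {u θ}) Te (u θ)) ≤
          2 * (a * eW) := by
        have : crs G (MZ Γ Z0 θ) Te ψ - crs G (Submodule.span ℂ {u θ}) Te (u θ) ≤ 2 * eW := by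
          linarith [b3.2, b4'.1]
        have := mul_le_mul_of_nonneg_left this ha
        linarith
      have k2 : 0 ≤ 2 * (a * eW) := by positivity
      nlinarith
    linarith [b1.1, b2'.2]

end Crest.Agent.R340.Str875
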