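import Crest.Agent.R340.Str1_875
import Crest.Agent.R340.PathStep4_880
import Crest.Agent.R340.Vac3_467
import Crest.Agent.R340.DomG_735

/-!
# R340, strong pass, operator side, part 2 (helper875): the absorption step on the Fock model

* `flow_Gm`   : the metric flow of PathStep_880 is a `Flow` of Str1_875;
* `cr Q k θ A ψ` : the cross number `Re ⟪(1-P) dG(g) ψ, (1-P) A ψ⟫` in the sector `k` of the
  geometry `nuT (tA θ) Q`;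
* `s1`        : the vacuum scalar at `θ = 1`;
* `move_strong` : from the bound for the profile `F - ε` on the round sphere of flux `Q` to the bound
  for the profile `F` in the metric of the round sphere of flux `Q + 3`, restricted to flux `Q`.
-/

set_option autoImplicit false
set_option linter.unusedSectionVars false

namespace Crest.Agent.R340.Str875

open Set
open Crest.Agent.R340.PathStep880
open Crest.Agent.R340.Fock649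
open Crest.Agent.R340.Geo986 Crest.Agent.R340.Peel596 Crest.Agent.R340.Step596
open Crest.Agent.R340.Vac467 (IsRef)
open Crest.Agent.R340.Scal725 (cs)
open Crest.Agent.R340.DomF735 (dGf)
open Crest.Agent.R340.GG467 (pj)

/-! ### 1. the instance -/

theorem flow_Gm (b Q : ℕ) : Flow (Gm b Q) (TT Q (gm b Q)) :=
  ⟨Gm_zero b Q, Gm_injective b Q, fun θ F => hasDerivAt_Gm b Q θ F⟩

theorem MZ_A (Q n : ℕ) (θ : ℝ) :
    MZ (Gm 3 Q) (Zn (nu0 Q) Q n) θ = Zn (nuT (tA θ) Q) Q n := Zt_A Q n θ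

theorem sym_TT {Q : ℕ} (f : ℕ → ℝ) : Sym (TT Q f) := fun x y => inner_TT Q f x y

theorem sym_of_star {Q : ℕ} {X : Op (Fin (Q + 1))} (hX : star X = X) : Sym X.ap := fun x y => by
  have := inner_star_left X x y
  rw [hX] at this
  exact this

theorem dGf_ap (Q : ℕ) (f : ℕ → ℝ) (ψ : Fk (Fin (Q + 1))) : dGf f Q ψ = TT Q f ψ := rfl

/-- the cross number in the sector `k` of the geometry `θ` -/
noncomputable def cr (Q k : ℕ) (θ : ℝ) (A : Fk (Fin (Q + 1)) →L[ℂ] Fk (Fin (Q + 1)))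
    (ψ : Fk (Fin (Q + 1))) : ℝ :=
  (inner ℂ (off (Zn (nuT (tA θ) Q) Q k) (TT Q (gm 3 Q) ψ))
    (off (Zn (nuT (tA θ) Q) Q k) (A ψ))).re

theorem crs_A (Q k : ℕ) (θ : ℝ) (A : Fk (Fin (Q + 1)) →L[ℂ] Fk (Fin (Q + 1)))
    (ψ : Fk (Fin (Q + 1))) :
    crs (TT Q (gm 3 Q)) (MZ (Gm 3 Q) (Zn (nu0 Q) Q k) θ) A ψ = cr Q k θ A ψ := by
  rw [MZ_A]; rfl

/-- the quadratic form `3 (cs f Q ‖ψ‖² - ⟪ψ, dG f ψ⟫)` -/
noncomputable def hh (f : ℕ → ℝ) (Q : ℕ) (ψ : Fk (Fin (Q + 1))) : ℝ :=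
  3 * (cs f Q * ‖ψ‖ ^ 2 - (inner ℂ ψ (dGf f Q ψ)).re)

theorem re_inner_Dop (Q : ℕ) (s : ℝ) (f : ℕ → ℝ) (X : Op (Fin (Q + 1))) (ψ : Fk (Fin (Q + 1))) :
    (inner ℂ ψ (Dop Q s 3 f X ψ)).re =
      s * ‖ψ‖ ^ 2 - 3 * (inner ℂ ψ (TT Q f ψ)).re - (inner ℂ ψ (X ψ)).re := by
  have e : (Dop Q s 3 f X) ψ = (s : ℂ) • ψ - ((3 : ℝ) : ℂ) • TT Q f ψ - X ψ := by
    unfold Dop
    rw [sub_ap, sub_ap, smul_ap, smul_ap, one_ap]
    rfl
  rw [e]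
  simp only [inner_sub_right, inner_smul_right, Complex.sub_re, Complex.re_ofReal_mul]
  rw [re_inner_self]

theorem TT_sub_apply (Q : ℕ) (f g : ℕ → ℝ) (ψ : Fk (Fin (Q + 1))) :
    TT Q (fun j => f j - g j) ψ = TT Q f ψ - TT Q g ψ := by
  have h : TT Q (f - g) = TT Q f - TT Q g := map_sub (TT Q) f g
  have h2 : (f - g) = fun j => f j - g j := rfl
  rw [← h2, h]; rfl

/-! ### 2. the vacuum -/

theorem Zn_vac_eq_span {Q n0 : ℕ} (hn0 : Q = 3 * (n0 - 1)) {Φ : Fk (Fin (Q + 1))}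
    (hΦ : IsRef (nu0 Q) Q n0 Φ) : Zn (nu0 Q) Q n0 = Submodule.span ℂ {Φ} := by
  apply le_antisymm
  · intro ψ hψ
    rw [hΦ.span (posM_nu0 Q) hn0 hψ]
    exact Submodule.smul_mem _ _ (Submodule.mem_span_singleton_self _)
  · rw [Submodule.span_singleton_le_iff_mem]
    exact hΦ.mem_Zn

theorem vE_zero {Q n0 : ℕ} {Φ : Fk (Fin (Q + 1))} (hΦ : IsRef (nu0 Q) Q n0 Φ)
    (A : Fk (Fin (Q + 1)) →L[ℂ] Fk (Fin (Q + 1))) :
    vE (Gm 3 Q) Φ A 0 = (inner ℂ Φ (A Φ)).re := by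
  unfold vE
  rw [Gm_zero]
  have e : (ContinuousLinearMap.id ℂ (Fk (Fin (Q + 1)))) Φ = Φ := rfl
  rw [e, hΦ.unit, one_pow, div_one]

theorem vE_TT_zero {Q n0 : ℕ} (hn1 : 1 ≤ n0) (hn0 : Q = 3 * (n0 - 1)) {Φ : Fk (Fin (Q + 1))}
    (hΦ : IsRef (nu0 Q) Q n0 Φ) (f : ℕ → ℝ) : vE (Gm 3 Q) Φ (TT Q f) 0 = cs f Q := by
  rw [vE_zero hΦ]
  have h := hΦ.dens_diag hn1 hn0 f
  have e : (TT Q f) Φ = (dG (Matrix.diagonal fun j : Fin (Q + 1) => ((f j : ℝ) : ℂ))) Φ := rfl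
  rw [e, h, Complex.ofReal_re]

/-- the vacuum scalar at the end of the A-path -/
noncomputable def s1 (Q : ℕ) (Φ : Fk (Fin (Q + 1))) (F : ℕ → ℝ) (X : Op (Fin (Q + 1))) : ℝ :=
  3 * vE (Gm 3 Q) Φ (TT Q F) 1 + vE (Gm 3 Q) Φ X.ap 1

/-! ### 3. the absorption step -/

/-- **The strong move** (doc 1315). -/
theorem move_strong {Q n n0 : ℕ} (hn1 : 1 ≤ n0) (hn0 : Q = 3 * (n0 - 1)) {Φ : Fk (Fin (Q + 1))}
    (hΦ : IsRef (nu0 Q) Q n0 Φ) (F ε : ℕ → ℝ) (X : Op (Fin (Q + 1))) (hX : star X = X)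
    {eW eY eT m : ℝ}
    (hW : ∀ θ ∈ Ioc (0 : ℝ) 1, ∀ k, ∀ ψ ∈ Zn (nuT (tA θ) Q) Q k, ‖ψ‖ = 1 →
      |cr Q k θ (TT Q ε) ψ| ≤ eW)
    (hT : ∀ θ ∈ Ioc (0 : ℝ) 1, ∃ Y : Op (Fin (Q + 1)), star Y = Y ∧
      (∀ k, ∀ ψ ∈ Zn (nuT (tA θ) Q) Q k, ‖ψ‖ = 1 →
        |3 * cr Q k θ (TT Q F) ψ + cr Q k θ X.ap ψ - (inner ℂ ψ (Y ψ)).re| ≤ eT) ∧
      (∀ θ' ∈ Ioc (0 : ℝ) 1, ∀ k, ∀ ψ ∈ Zn (nuT (tA θ') Q) Q k, ‖ψ‖ = 1 →
        |cr Q k θ' Y.ap ψ| ≤ eY) ∧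
      (∀ ψ ∈ Zn (nu0 Q) Q n,
        -(hh ε Q ψ) ≤ (inner ℂ ψ (Y ψ)).re - (inner ℂ Φ (Y Φ)).re * ‖ψ‖ ^ 2))
    (h0 : LB (nu0 Q) Q n (Dop Q (3 * cs (fun j => F j - ε j) Q + (inner ℂ Φ (X Φ)).re) 3
      (fun j => F j - ε j) X) m) :
    LB (nu0 (Q + 3)) Q n (Dop Q (s1 Q Φ F X) 3 F X) (m - (12 * eW + 2 * eY + 2 * eT)) := by
  have hsp := Zn_vac_eq_span hn0 hΦ
  have key := absorb (flow_Gm 3 Q) hΦ.ne (Zn (nu0 Q) Q n) (sym_TT F) (sym_TT ε)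
    (sym_of_star hX) (a := 3) (eW := eW) (eY := eY) (eT := eT) (m := m) (by norm_num)
    (fun θ hθ ψ hψ h1 => by
      rw [crs_A]
      rw [MZ_A] at hψ
      exact hW θ hθ n ψ hψ h1)
    (fun θ hθ ψ hψ h1 => by
      rw [← hsp] at hψ ⊢
      rw [crs_A]
      rw [MZ_A] at hψ
      exact hW θ hθ n0 ψ hψ h1)
    (fun θ hθ => by
      obtain ⟨Y, hYs, hY1, hY2, hY3⟩ := hT θ hθ
      refine ⟨Y.ap, sym_of_star hYs, ?_, ?_, ?_, ?_, ?_⟩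
      · intro ψ hψ h1
        rw [crs_A, crs_A]
        rw [MZ_A] at hψ
        exact hY1 n ψ hψ h1
      · intro ψ hψ h1
        rw [← hsp] at hψ ⊢
        rw [crs_A, crs_A]
        rw [MZ_A] at hψ
        exact hY1 n0 ψ hψ h1
      · intro θ' hθ' ψ hψ h1
        rw [crs_A]
        rw [MZ_A] at hψ
        exact hY2 θ' hθ' n ψ hψ h1
      · intro θ' hθ' ψ hψ h1
        rw [← hsp] at hψ ⊢
        rw [crs_A]
        rw [MZ_A] at hψ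
        exact hY2 θ' hθ' n0 ψ hψ h1
      · intro ψ hψ
        have h1 := hY3 ψ hψ
        rw [vE_TT_zero hn1 hn0 hΦ, vE_zero hΦ]
        unfold hh at h1
        rw [dGf_ap] at h1
        linarith)
    (fun ψ hψ => by
      have h1 := h0 ψ hψ
      rw [re_inner_Dop, TT_sub_apply, inner_sub_right, Complex.sub_re] at h1
      rw [vE_TT_zero hn1 hn0 hΦ, vE_TT_zero hn1 hn0 hΦ, vE_zero hΦ]
      have e : cs (fun j => F j - ε j) Q = cs F Q - cs ε Q := by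
        unfold Scal725.cs
        rw [Finset.sum_sub_distrib]; ring
      rw [e] at h1
      linarith)
  intro ψ hψ
  have hψ' : ψ ∈ MZ (Gm 3 Q) (Zn (nu0 Q) Q n) 1 := by
    rw [MZ_A, Zn_A]; exact hψ
  have h1 := key ψ hψ'
  rw [re_inner_Dop]
  unfold s1
  linarith

end Crest.Agent.R340.Str875
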