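import Crest.Agent.R340.Str_735
import Crest.Agent.R340.DomG_735

/-!
R340 (S0532), block L5 (helper735): the base of the strong pass (doc 1315) in operator form: on
fluxes `Q ≤ (S+1)/100` the profile `C f - Ψ` is convex and antitone on `0..Q`, and dominance gives
`h_F ≥ (9/10) C K f_Q + C/10`.
-/

set_option autoImplicit false

open Finset

namespace Crest.Agent.R340.StrB735

open Fock649 Geo986 Dom735 DomF735 DomG735
open Crest.Agent.R340.Scal725
open Crest.Agent.R340.RecS735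
open Crest.Agent.R340.Str735
open Crest.Agent.R340.Conv102 (DD DD_zero DD_succ DD_two DD_smul)

theorem Cls.le_zero {g : ℕ → ℝ} {η : ℝ} {Q : ℕ} {Ψ : ℕ → ℝ} (h : Cls g η Q Ψ) {j : ℕ}
    (hj : j ≤ Q) : Ψ j ≤ Ψ 0 := by
  induction j with
  | zero => exact le_rfl
  | succ j ih => exact (h.anti hj).trans (ih (by omega))

theorem rt_le_two {a A S : ℝ} (ha0 : 0 ≤ a) (ha1 : a ≤ 1) (hA1 : 1 ≤ A) (hA2 : A ≤ 2)
    (hS : 400 ≤ S) {j : ℕ} (hj : 100 * (j : ℝ) ≤ S + 1) : rt a A S j ≤ 2 := by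
  have hj0 : (0 : ℝ) ≤ j := Nat.cast_nonneg j
  have h1 : 2 * ((A - a) * j) ≤ S - A := by nlinarith
  have h := rt_le_of_small ha1 hA1 (by linarith : A < S) j h1
  refine h.trans ?_
  have : 2 * (A - a) * j / (S - A) ≤ 1 := by
    rw [div_le_one (by linarith)]; linarith
  linarith

section
variable {a A S C e : ℝ} {Q : ℕ} {Ψ : ℕ → ℝ}

theorem base_cvx (ha0 : 0 < a) (ha1 : a ≤ 1) (hA1 : 1 ≤ A) (hA2 : A ≤ 2) (hS : 400 ≤ S)
    (hC : 0 ≤ C) (heQ : e / Q ≤ 1 / 40) (he : 0 ≤ e / Q) (hQ : 100 * (Q : ℝ) ≤ S + 1)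
    (hΨ : Cls (prof a S) (C * (e / Q)) Q Ψ) :
    CvxOn (fun j => C * prof A S j - Ψ j) Q := by
  intro j hj
  have hjQ : (j : ℝ) ≤ Q := by exact_mod_cast (by omega : j ≤ Q)
  have hrt := rt_le_two (A := A) ha0.le ha1 hA1 hA2 hS (j := j) (by linarith)
  have hA : A < S + 1 := by linarith
  have h1 := dd_le (M := 2) (A0 := 2) (by linarith : 0 ≤ S) ha0 (by linarith : a ≤ A) hA
    (by nlinarith) hrt
  have h2 := (hΨ 2 le_rfl j hj).2
  rw [DD_two, DD_two] at h2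
  have h3 := dd_prof_nonneg (by linarith : 0 ≤ S) (by linarith : 0 ≤ A) hA j
  have h4 : C * (e / Q) * dd (prof a S) j ≤ C * (1 / 40) * (2 * dd (prof A S) j) := by
    apply mul_le_mul _ h1 (dd_prof_nonneg (by linarith) ha0.le (by linarith) j) (by positivity)
    exact mul_le_mul_of_nonneg_left heQ hC
  have h5 : dd Ψ j ≤ C * dd (prof A S) j := by
    have : 0 ≤ C * dd (prof A S) j := mul_nonneg hC h3
    linarith
  unfold dd at h5
  simp only
  linarith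

theorem base_anti (ha0 : 0 < a) (ha1 : a ≤ 1) (hA1 : 1 ≤ A) (hA2 : A ≤ 2) (hS : 400 ≤ S)
    (hC : 0 ≤ C) (heQ : e / Q ≤ 1 / 40) (he : 0 ≤ e / Q) (hQ : 100 * (Q : ℝ) ≤ S + 1)
    (hΨ : Cls (prof a S) (C * (e / Q)) Q Ψ) :
    AntiOn (fun j => C * prof A S j - Ψ j) Q := by
  intro j hj
  have hjQ : (j : ℝ) ≤ Q := by exact_mod_cast (by omega : j ≤ Q)
  have hrt := rt_le_two (A := A) ha0.le ha1 hA1 hA2 hS (j := j) (by linarith)
  have hA : A < S + 1 := by linarith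
  have h1 := diff_le (M := 2) (A0 := 2) (by linarith : 0 ≤ S) ha0 hA (by linarith) hrt
  have h2 := (hΨ 1 (by norm_num) j hj).2
  rw [DD_one, DD_one] at h2
  have h3 : 0 ≤ prof A S j - prof A S (j + 1) :=
    sub_nonneg.2 (prof_antitone (by linarith) (by linarith) hA (by omega))
  have h3' : 0 ≤ prof a S j - prof a S (j + 1) :=
    sub_nonneg.2 (prof_antitone (by linarith) ha0.le (by linarith) (by omega))
  have h4 : C * (e / Q) * (prof a S j - prof a S (j + 1)) ≤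
      C * (1 / 40) * (2 * (prof A S j - prof A S (j + 1))) := by
    apply mul_le_mul _ h1 h3' (by positivity)
    exact mul_le_mul_of_nonneg_left heQ hC
  have : 0 ≤ C * (prof A S j - prof A S (j + 1)) := mul_nonneg hC h3
  simp only
  linarith

/-- **Base of the strong pass** (operator form). `y` bounds the `X`-term. -/
theorem base_strong (ha0 : 0 < a) (ha1 : a ≤ 1) (hA1 : 1 ≤ A) (hA2 : A ≤ 2) (hS : 400 ≤ S)
    (hC : 0 ≤ C) (heQ : e / Q ≤ 1 / 40) (he : 0 ≤ e / Q) (hQ : 100 * (Q : ℝ) ≤ S + 1)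
    (hΨ : Cls (prof a S) (C * (e / Q)) Q Ψ) {y : ℝ} (hy : y ≤ C / 10)
    {ν : ℕ → ℝ} (hν : PosM ν Q) {ψ : Fk (Fin (Q + 1))} (hψ : ψ ∈ Zs ν Q) {n K : ℕ}
    (hN : ∀ S, ψ S ≠ 0 → S.card = n) (hK : 3 ≤ K) (hnK : 3 * n + K = Q + 3) :
    9 / 10 * C * K * prof A S Q * ‖ψ‖ ^ 2 ≤
      hf (fun j => C * prof A S j - Ψ j) ψ - y * ‖ψ‖ ^ 2 := by
  have h := hf_ge hν hψ hN (base_cvx ha0 ha1 hA1 hA2 hS hC heQ he hQ hΨ)
    (base_anti ha0 ha1 hA1 hA2 hS hC heQ he hQ hΨ)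
  have hKn : (Q : ℝ) + 3 - 3 * n = K := by
    have : (3 : ℝ) * n + K = Q + 3 := by exact_mod_cast hnK
    linarith
  rw [hKn] at h
  simp only [prof_zero] at h
  have hA : A < S + 1 := by linarith
  have hS0 : 0 ≤ S := by linarith
  have hQ0 : (0 : ℝ) ≤ Q := Nat.cast_nonneg Q
  set fQ := prof A S Q with hfQ
  have hp : 0 < fQ := prof_pos hS0 hA Q
  have h1 := one_sub_prof_le hS0 (by linarith : 0 ≤ A) hA Q
  have h1' : 1 - fQ ≤ 1 / 50 := by
    refine h1.trans ?_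
    rw [div_le_div_iff₀ (by linarith) (by norm_num)]
    nlinarith
  have hΨ0 : Ψ Q ≤ Ψ 0 := Cls.le_zero hΨ le_rfl
  have hΨQ : Ψ Q ≤ C * (e / Q) * prof a S Q := (hΨ 0 (by norm_num) Q (by omega)).2
  have hrt := rt_le_two (A := A) ha0.le ha1 hA1 hA2 hS (j := Q) hQ
  have hg : prof a S Q ≤ 2 * fQ := by
    rw [← rt_mul (a := a) hS0 hA Q]
    exact mul_le_mul_of_nonneg_right hrt hp.le
  have hg0 := prof_pos hS0 (by linarith : a < S + 1) Q
  have hΨQ' : Ψ Q ≤ C * (1 / 20) * fQ := by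
    refine hΨQ.trans ?_
    calc C * (e / Q) * prof a S Q ≤ C * (1 / 40) * (2 * fQ) := by
          apply mul_le_mul _ hg hg0.le (by positivity)
          exact mul_le_mul_of_nonneg_left heQ hC
      _ = _ := by ring
  have hK' : (3 : ℝ) ≤ K := by exact_mod_cast hK
  have hkey : 9 / 10 * C * K * fQ ≤
      (K * (C * fQ - Ψ Q) - 2 * (C * 1 - Ψ 0 - (C * fQ - Ψ Q))) - y := by
    have e1 : (K : ℝ) * (C * fQ * (19 / 20)) ≤ K * (C * fQ - Ψ Q) := by
      apply mul_le_mul_of_nonneg_left _ (by linarith)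
      linarith
    have e2 : C * (1 - fQ) ≤ C * (1 / 50) := mul_le_mul_of_nonneg_left h1' hC
    have e3 : (3 : ℝ) * (C * (49 / 50)) ≤ K * (C * fQ) := by
      apply mul_le_mul hK' _ (by positivity) (by linarith)
      apply mul_le_mul_of_nonneg_left _ hC
      linarith
    nlinarith
  have h2 := mul_le_mul_of_nonneg_right hkey (sq_nonneg ‖ψ‖)
  rw [sub_mul] at h2
  linarith

end

end Crest.Agent.R340.StrB735
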