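import Crest.Agent.R340.Step_596
import Crest.Agent.R340.DomG_735
import Crest.Agent.R340.Rec_735
import Crest.Agent.R340.GG_467

/-!
# R340 / S0532: weak pass (W), assembly part 1 (helper716)

Base cases (`Q` small, `n = 0`) on the Fock model and the reduction of (W) to the one-hole sector
and the one-step inequality.
-/

set_option autoImplicit false
set_option linter.unusedSectionVars false
open scoped InnerProductSpace ComplexConjugate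

namespace Crest.Agent.R340.Weak716

open Finset
open Crest.Agent.R340.Fock649 Crest.Agent.R340.Emb596 Crest.Agent.R340.Geo986
  Crest.Agent.R340.Peel596 Crest.Agent.R340.Step596
open Crest.Agent.R340.Scal725 Crest.Agent.R340.DomF735 Crest.Agent.R340.DomG735

/-- the operator of the weak pass: `3 C (cs f Q - dΓ f) + x - X`. -/
noncomputable def DW (C : ℝ) (f : ℕ → ℝ) (x : ℝ) (Q : ℕ) (X : Op (Fin (Q + 1))) :
    Op (Fin (Q + 1)) :=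
  Dop Q (3 * C * cs f Q + x) (3 * C) f X

theorem re_inner_Dop (Q : ℕ) (s a : ℝ) (f : ℕ → ℝ) (X : Op (Fin (Q + 1)))
    (ψ : Fk (Fin (Q + 1))) :
    (⟪ψ, Dop Q s a f X ψ⟫_ℂ).re =
      s * ‖ψ‖ ^ 2 - a * (⟪ψ, dGf f Q ψ⟫_ℂ).re - (⟪ψ, X ψ⟫_ℂ).re := by
  have e : dG (Matrix.diagonal fun j : Fin (Q + 1) => ((f j : ℝ) : ℂ)) = dGf f Q := rfl
  unfold Dop
  rw [e, sub_ap, sub_ap, smul_ap, smul_ap, one_ap, inner_sub_right, inner_sub_right,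
    inner_smul_right, inner_smul_right, Complex.sub_re, Complex.sub_re, Complex.re_ofReal_mul,
    Complex.re_ofReal_mul]
  congr 2
  rw [inner_self_eq_norm_sq_to_K]
  norm_cast

theorem re_inner_DW (C : ℝ) (f : ℕ → ℝ) (x : ℝ) (Q : ℕ) (X : Op (Fin (Q + 1)))
    (ψ : Fk (Fin (Q + 1))) :
    (⟪ψ, DW C f x Q X ψ⟫_ℂ).re = C * hf f ψ + x * ‖ψ‖ ^ 2 - (⟪ψ, X ψ⟫_ℂ).re := by
  unfold DW hf
  rw [re_inner_Dop]
  ring

theorem re_inner_le_of_norm {Q : ℕ} {X : Op (Fin (Q + 1))} {B : ℝ} (hX : ‖X‖ ≤ B)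
    (ψ : Fk (Fin (Q + 1))) : |(⟪ψ, X ψ⟫_ℂ).re| ≤ B * ‖ψ‖ ^ 2 := by
  calc |(⟪ψ, X ψ⟫_ℂ).re| ≤ ‖⟪ψ, X ψ⟫_ℂ‖ := Complex.abs_re_le_norm _
    _ ≤ ‖ψ‖ * ‖X ψ‖ := norm_inner_le_norm _ _
    _ ≤ ‖ψ‖ * (‖X‖ * ‖ψ‖) := by gcongr; exact Op.norm_ap_le X ψ
    _ ≤ ‖ψ‖ * (B * ‖ψ‖) := by gcongr
    _ = B * ‖ψ‖ ^ 2 := by ring

/-- small flux: dominance. -/
theorem base_small {a R C θ B x : ℝ} (hR : 1 ≤ R) (ha0 : 0 < a) (ha1 : a ≤ 1 / 100)
    (hC : 40 * B ≤ C) (hC0 : 0 ≤ C) (hθ1 : θ ≤ 9 / 10) {n Q : ℕ} (hQ : (Q : ℝ) ≤ R + 1)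
    (hn : 3 * n ≤ Q + 2) {X : Op (Fin (Q + 1))} (hX : ‖X‖ ≤ B) (hx : |x| ≤ B) :
    LB (nu0 Q) Q n (DW C (prof a R) x Q X) (θ * C * (Q + 3 - 3 * n) * prof a R Q) := by
  intro ψ hψ
  have hR0 : 0 ≤ R := by linarith
  have haR : a < R + 1 := by linarith
  have hN : ∀ S, ψ S ≠ 0 → S.card = n := by
    intro S hS
    by_contra hne
    exact hS ((GG467.mem_sector_iff (N := n) (v := ψ)).1 hψ.2 S hne)
  have h1 := hf_ge (posM_nu0 Q) hψ.1 hN (f := prof a R)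
    (fun j _ => prof_cvx hR0 ha0.le haR j) (fun j _ => prof_antitone hR0 ha0.le haR (Nat.le_succ j))
  have h2 := re_inner_le_of_norm hX ψ
  rw [re_inner_DW]
  have hK : (1 : ℝ) ≤ (Q : ℝ) + 3 - 3 * n := by
    have : (3 * n : ℝ) ≤ Q + 2 := by exact_mod_cast hn
    linarith
  have h3 := Rec735.base_target (a := a) (R := R) (C := C) (θ := θ)
    (K := (Q : ℝ) + 3 - 3 * n) (D := C * (((Q : ℝ) + 3 - 3 * n) * prof a R Q -
      2 * (prof a R 0 - prof a R Q)) - 2 * B) (x := 2 * B) (Q := Q) (by linarith) ha0 ha1 hC0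
      hθ1 hK hQ (by linarith) le_rfl
  have h4 := mul_le_mul_of_nonneg_right h3 (sq_nonneg ‖ψ‖)
  have h5 := mul_le_mul_of_nonneg_left h1 hC0
  have h6 := (abs_le.1 h2).2
  have h7 := (abs_le.1 hx).1
  have h8 : -B * ‖ψ‖ ^ 2 ≤ x * ‖ψ‖ ^ 2 := mul_le_mul_of_nonneg_right h7 (sq_nonneg _)
  nlinarith

/-- no particles. -/
theorem base_zero {a R C θ B x : ℝ} (hR : 1 ≤ R) (ha0 : 0 < a) (ha1 : a ≤ 1 / 100)
    (hC : 40 * B ≤ C) (hC0 : 0 ≤ C) (hθ1 : θ ≤ 9 / 10) {Q : ℕ}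
    {X : Op (Fin (Q + 1))} (hX : ‖X‖ ≤ B) (hx : |x| ≤ B) :
    LB (nu0 Q) Q 0 (DW C (prof a R) x Q X) (θ * C * (Q + 3) * prof a R Q) := by
  intro ψ hψ
  have hR0 : 0 ≤ R := by linarith
  have haR : a < R + 1 := by linarith
  have hN : ∀ S, ψ S ≠ 0 → S.card = 0 := by
    intro S hS
    by_contra hne
    exact hS ((GG467.mem_sector_iff (N := 0) (v := ψ)).1 hψ.2 S hne)
  have h0 : hf (prof a R) ψ = 3 * cs (prof a R) Q * ‖ψ‖ ^ 2 := by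
    rw [hf_eq_sum, norm_sq_eq_sum, mul_sum]
    refine sum_congr rfl fun S _ => ?_
    by_cases hS : ψ S = 0
    · simp [hS]
    · have := card_eq_zero.1 (hN S hS)
      subst this
      simp
  have h1 := Rec735.cs_ge (prof_antitone hR0 ha0.le haR) Q
  have h2 := re_inner_le_of_norm hX ψ
  rw [re_inner_DW, h0]
  have h6 := (abs_le.1 h2).2
  have h7 := (abs_le.1 hx).1
  have hp := rpow_le_prof (a := a) (R := R) (by linarith) ha0.le (by linarith) Q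
  have hb0 : 0 < R / (R + (Q : ℝ)) := by positivity
  have hb1 : R / (R + (Q : ℝ)) ≤ 1 := by
    rw [div_le_one (by positivity)]
    have : (0 : ℝ) ≤ Q := Nat.cast_nonneg _
    linarith
  have h3 : R / (R + (Q : ℝ)) ≤ prof a R Q := by
    refine le_trans ?_ hp
    have := Real.rpow_le_rpow_of_exponent_ge hb0 hb1 (by linarith : a ≤ 1)
    rwa [Real.rpow_one] at this
  have h4 : 1 ≤ ((Q : ℝ) + 3) * prof a R Q := by
    have hQ0 : (0 : ℝ) ≤ Q := Nat.cast_nonneg _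
    have h5 : 1 / ((Q : ℝ) + 3) ≤ R / (R + (Q : ℝ)) := by
      rw [div_le_div_iff₀ (by positivity) (by positivity)]
      nlinarith
    have h8 := h5.trans h3
    rw [div_le_iff₀ (by positivity)] at h8
    linarith
  have h9 : θ * (C * (((Q : ℝ) + 3) * prof a R Q)) ≤ 9 / 10 * (C * (((Q : ℝ) + 3) * prof a R Q)) :=
    mul_le_mul_of_nonneg_right hθ1 (by positivity)
  have h10 : C * (((Q : ℝ) + 3) * prof a R Q) ≤ C * (3 * cs (prof a R) Q) :=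
    mul_le_mul_of_nonneg_left h1 hC0
  have h11 : C ≤ C * (((Q : ℝ) + 3) * prof a R Q) := le_mul_of_one_le_right hC0 h4
  have h12 : θ * C * ((Q : ℝ) + 3) * prof a R Q ≤ C * (3 * cs (prof a R) Q) - 2 * B := by
    nlinarith
  have h13 := mul_le_mul_of_nonneg_right h12 (sq_nonneg ‖ψ‖)
  have h8 : -B * ‖ψ‖ ^ 2 ≤ x * ‖ψ‖ ^ 2 := mul_le_mul_of_nonneg_right h7 (sq_nonneg _)
  nlinarith

/-- **(W), reduction**: fixed top flux `Qt` and operator `X`; `XX Q` = its compression to flux `Q`. -/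
theorem weak_red {a R C θ B : ℝ} (hR : 43 ≤ R) (ha0 : 0 < a) (ha1 : a ≤ 1 / 100)
    (hC : 40 * B ≤ C) (hC0 : 0 ≤ C) (hθ0 : 4 / 5 ≤ θ) (hθ1 : θ ≤ 9 / 10) (Qt : ℕ)
    (XX : (Q : ℕ) → Op (Fin (Q + 1))) (x : ℕ → ℝ) (hX : ∀ Q ≤ Qt, ‖XX Q‖ ≤ B)
    (hx : ∀ Q ≤ Qt, |x Q| ≤ B) (eA eB : ℕ → ℝ)
    (hone : ∀ n Q, Q ≤ Qt → Q + 2 = 3 * n →
      LB (nu0 Q) Q n (DW C (prof a R) (x Q) Q (XX Q)) (θ * C * prof a R Q))
    (hstep : ∀ n Q, Q + 3 ≤ Qt → R ≤ Q + 3 → 3 * n ≤ Q + 1 → ∀ L1 L2,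
      LB (nu0 Q) Q n (DW C (prof a R) (x Q) Q (XX Q)) L1 →
      LB (nu0 (Q + 2)) (Q + 2) (n + 1) (DW C (prof a R) (x (Q + 2)) (Q + 2) (XX (Q + 2))) L2 →
      LB (nu0 (Q + 3)) (Q + 3) (n + 1) (DW C (prof a R) (x (Q + 3)) (Q + 3) (XX (Q + 3)))
        (min (L1 + (3 * C * (cs (prof a R) (Q + 3) - prof a R (Q + 3) - cs (prof a R) Q) -
            eA (Q + 3)))
          (L2 + (3 * C * (cs (prof a R) (Q + 3) - cs (prof a R) (Q + 2)) - eB (Q + 3)))))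
    (heA : ∀ Q : ℕ, R ≤ Q → eA Q ≤ C * (a * prof a R Q / (R + Q)))
    (heB : ∀ Q : ℕ, R ≤ Q → eB Q ≤ C * prof a R Q / 20) :
    ∀ Q n, Q ≤ Qt → 3 * n ≤ Q + 2 →
      LB (nu0 Q) Q n (DW C (prof a R) (x Q) Q (XX Q)) (θ * C * (Q + 3 - 3 * n) * prof a R Q) := by
  have hceil : R ≤ (⌈R⌉₊ : ℝ) := Nat.le_ceil R
  have hmain := Rec735.weak_pass
    (fun n Q L => Q ≤ Qt → LB (nu0 Q) Q n (DW C (prof a R) (x Q) Q (XX Q)) L)
    (fun n Q L L' hL h hQ => (h hQ).mono hL) (a := a) (R := R) (C := C) (θ := θ) (by linarith)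
    ha0 ha1 hC0 hθ0 hθ1 ⌈R⌉₊ (by
      have : (43 : ℝ) ≤ ⌈R⌉₊ := hR.trans hceil
      exact_mod_cast this) eA eB
    (by
      intro n Q hQ hn hQt
      refine base_small (by linarith) ha0 ha1 hC hC0 hθ1 ?_ hn (hX Q hQt) (hx Q hQt)
      have : (Q : ℝ) < R := Nat.lt_ceil.1 hQ
      linarith)
    (by
      intro Q hQt
      exact base_zero (by linarith) ha0 ha1 hC hC0 hθ1 (hX Q hQt) (hx Q hQt))
    (by intro n Q h hQt; exact hone n Q hQt h)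
    (by
      intro n Q hQ hn L1 L2 h1 h2 hQt
      refine hstep n Q hQt ?_ hn L1 L2 (h1 (by omega)) (h2 (by omega))
      have : (⌈R⌉₊ : ℝ) ≤ ((Q + 3 : ℕ) : ℝ) := by exact_mod_cast hQ
      push_cast at this
      linarith)
    (by
      intro Q hQ
      exact heA Q (hceil.trans (by exact_mod_cast hQ)))
    (by
      intro Q hQ
      exact heB Q (hceil.trans (by exact_mod_cast hQ)))
  intro Q n hQt hn
  exact hmain Q n hn hQt

end Crest.Agent.R340.Weak716
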