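import Crest.Agent.R340.StrB_735
import Crest.Agent.R340.Weak1_716

/-!
# R340 / S0532: strong pass (doc 1315), reduction to the one-step inequality on the Fock model
(helper735)

`DS F x Q X = 3 (cs F Q - dΓ F) + x - X` (the profile `F` contains the constant `C`).
`strong_pass2` : the abstract recursion with `K = Q + 3` (no particles) treated separately;
`strong_red`   : (S) for a compressible family `XX Q`, `Q ≤ Qt`, from the one-step inequality and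
                 the vacuum bound.
-/

set_option autoImplicit false
set_option linter.unusedSectionVars false
open scoped InnerProductSpace ComplexConjugate

namespace Crest.Agent.R340.StrR735

open Finset
open Crest.Agent.R340.Fock649 Crest.Agent.R340.Emb596 Crest.Agent.R340.Geo986
  Crest.Agent.R340.Peel596 Crest.Agent.R340.Step596
open Crest.Agent.R340.Scal725 Crest.Agent.R340.DomF735 Crest.Agent.R340.DomG735
open Crest.Agent.R340.RecS735 Crest.Agent.R340.Str735 Crest.Agent.R340.StrB735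
open Crest.Agent.R340.Conv102 (DD DD_zero DD_succ DD_two DD_smul)

/-- **The abstract strong pass**, with the case `K = Q + 3` (no particles) given separately. -/
theorem strong_pass2 (LB : ℕ → ℕ → (ℕ → ℝ) → ℝ → Prop)
    (hmono : ∀ Q K F μ μ', μ' ≤ μ → LB Q K F μ → LB Q K F μ')
    {a A S C θ e : ℝ} (ha0 : 0 ≤ a) (haA : a ≤ A) (hA0 : 0 < A) (hA2 : A ≤ 2) (hS : 400 ≤ S)
    (hC : 0 ≤ C) (hθ : 9 / 10 ≤ θ) (he : 0 ≤ e) (Q0 : ℕ) (hQ0 : 4 ≤ Q0) (crude : ℕ → ℝ)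
    (hbase : ∀ Q K Ψ, 3 ∣ Q → 3 ∣ K → 3 ≤ K → K ≤ Q + 3 → Q < Q0 → Q0 ≤ Q + 3 →
      Cls (prof a S) (C * (e / Q)) Q Ψ →
      LB Q K (fun j => C * prof A S j - Ψ j) (θ * C * K * prof A S Q))
    (hzero : ∀ Q Ψ, 3 ∣ Q → Q0 ≤ Q → Cls (prof a S) (C * (e / Q)) Q Ψ →
      LB Q (Q + 3) (fun j => C * prof A S j - Ψ j) (θ * C * ((Q + 3 : ℕ) : ℝ) * prof A S Q))
    (hvac : ∀ Q F, 3 ∣ Q → LB Q 0 F 0)
    (hstep : ∀ Q K Ψ, 3 ∣ Q → 3 ∣ K → 3 ≤ K → K ≤ Q + 3 → Q0 ≤ Q + 3 →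
      Cls (prof a S) (C * (e / (Q + 3 : ℕ))) (Q + 3) Ψ →
      ∃ eps : ℕ → ℝ, Cls (prof a S) (C * (3 * e / ((Q + 3 : ℕ) : ℝ) ^ 2)) Q eps ∧
        ∀ m1 m2, LB Q K (fun j => C * prof A S j - (Ψ j + eps j)) m1 →
          LB Q (K - 3) (fun j => C * prof A S j - (Ψ j + eps j)) m2 →
          LB (Q + 3) K (fun j => C * prof A S j - Ψ j)
            (min (m1 - 3 * ((C * prof A S (Q + 1) - Ψ (Q + 1)) -
                (C * prof A S (Q + 3) - Ψ (Q + 3))))
              (m2 + 3 * (C * prof A S (Q + 3) - Ψ (Q + 3))) - crude (Q + 3)))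
    (hcr : ∀ Q : ℕ, Q0 ≤ Q + 3 → crude (Q + 3) ≤ C * (A * prof A S (Q + 3) / (S + Q + 3)))
    (hB : ∀ Q : ℕ, Q0 ≤ Q + 3 → 3 * (e / (Q + 3 : ℕ) * prof a S (Q + 3)) +
      A * prof A S (Q + 3) / (S + Q + 3) ≤ 3 * (1 - θ) * prof A S (Q + 3)) :
    ∀ Q K Ψ, 3 ∣ Q → 3 ∣ K → 3 ≤ K → K ≤ Q + 3 → Q0 ≤ Q + 3 →
      Cls (prof a S) (C * (e / Q)) Q Ψ →
      LB Q K (fun j => C * prof A S j - Ψ j) (θ * C * K * prof A S Q) := by
  intro Q
  induction Q using Nat.strong_induction_on with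
  | _ Q ih =>
    intro K Ψ hQ3 hK3 hK hKQ hQ hΨ
    rcases lt_or_ge Q Q0 with h0 | h0
    · exact hbase Q K Ψ hQ3 hK3 hK hKQ h0 hQ hΨ
    obtain ⟨q, rfl⟩ : ∃ q, Q = q + 3 := ⟨Q - 3, by omega⟩
    rcases Nat.eq_or_lt_of_le hKQ with hKe | hKlt
    · subst hKe
      exact hzero (q + 3) Ψ hQ3 h0 hΨ
    have hq3 : 3 ∣ q := by omega
    have hq1 : 1 ≤ q := by omega
    have hKq : K ≤ q + 3 := by omega
    obtain ⟨eps, heps, hst⟩ := hstep q K Ψ hq3 hK3 hK hKq h0 hΨ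
    have hg : ∀ r ≤ 2, ∀ j, 0 ≤ DD (prof a S) r j := fun r hr j =>
      DD_prof_nonneg (by linarith) ha0 (by linarith) hr j
    have hcls : Cls (prof a S) (C * (e / q)) q (fun j => Ψ j + eps j) := by
      refine ((hΨ.restrict (by omega)).add heps).mono ?_ hg
      rw [← mul_add]
      exact mul_le_mul_of_nonneg_left (eta_step he hq1) hC
    have i1 := ih q (by omega) K (fun j => Ψ j + eps j) hq3 hK3 hK hKq (by omega) hcls
    have hKr : (3 : ℝ) ≤ K := by exact_mod_cast hK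
    have hA' := A_branch (K := (K : ℝ)) (θ := θ) hA0 hA2 hS hC hθ hKr hΨ (hcr q h0)
    have hB' := B_branch (K := (K : ℝ)) (θ := θ) (A := A) hA0 (by linarith) (by linarith) hC
      (by linarith) hKr hΨ (hB q h0) (hcr q h0)
    rcases Nat.eq_or_lt_of_le hK with hK' | hK'
    · -- `K = 3`
      have i2 : LB q (K - 3) (fun j => C * prof A S j - (Ψ j + eps j)) 0 := by
        rw [← hK']; exact hvac q _ hq3
      refine hmono _ _ _ _ _ ?_ (hst _ _ i1 i2)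
      rw [le_sub_iff_add_le, le_min_iff]
      constructor
      · linarith
      · have : (K : ℝ) = 3 := by exact_mod_cast hK'.symm
        rw [this] at hB'
        rw [this]
        have e0 : θ * C * (3 - 3) * prof A S q = 0 := by ring
        rw [e0] at hB'
        linarith
    · have i2 := ih q (by omega) (K - 3) (fun j => Ψ j + eps j) hq3 (by omega) (by omega)
        (by omega) (by omega) hcls
      refine hmono _ _ _ _ _ ?_ (hst _ _ i1 i2)
      rw [le_sub_iff_add_le, le_min_iff]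
      constructor
      · linarith
      · rw [Nat.cast_sub hK]
        push_cast
        linarith

/-! ### The Fock model -/

/-- the operator of the strong pass: `3 (cs F Q - dΓ F) + x - X` -/
noncomputable def DS (F : ℕ → ℝ) (x : ℝ) (Q : ℕ) (X : Op (Fin (Q + 1))) : Op (Fin (Q + 1)) :=
  Dop Q (3 * cs F Q + x) 3 F X

theorem re_inner_DS (F : ℕ → ℝ) (x : ℝ) (Q : ℕ) (X : Op (Fin (Q + 1)))
    (ψ : Fk (Fin (Q + 1))) :
    (⟪ψ, DS F x Q X ψ⟫_ℂ).re = hf F ψ + x * ‖ψ‖ ^ 2 - (⟪ψ, X ψ⟫_ℂ).re := by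
  unfold DS hf
  rw [Weak716.re_inner_Dop]
  ring

theorem card_of_mem_Zn {ν : ℕ → ℝ} {Q n : ℕ} {ψ : Fk (Fin (Q + 1))} (hψ : ψ ∈ Zn ν Q n) :
    ∀ S, ψ S ≠ 0 → S.card = n := by
  intro S hS
  by_contra hne
  exact hS ((GG467.mem_sector_iff (N := n) (v := ψ)).1 hψ.2 S hne)

/-- base: `Q ≤ (S+1)/100` -/
theorem base_small {a A S C e B x : ℝ} {Q : ℕ} {Ψ : ℕ → ℝ} (ha0 : 0 < a) (ha1 : a ≤ 1)
    (hA1 : 1 ≤ A) (hA2 : A ≤ 2) (hS : 400 ≤ S) (hC : 0 ≤ C) (heQ : e / Q ≤ 1 / 40)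
    (he : 0 ≤ e / Q) (hQ : 100 * (Q : ℝ) ≤ S + 1) (hCB : 20 * B ≤ C)
    (hΨ : Cls (prof a S) (C * (e / Q)) Q Ψ) {n K : ℕ} (hK : 3 ≤ K) (hnK : 3 * n + K = Q + 3)
    {X : Op (Fin (Q + 1))} (hX : ‖X‖ ≤ B) (hx : |x| ≤ B) :
    LB (nu0 Q) Q n (DS (fun j => C * prof A S j - Ψ j) x Q X)
      (9 / 10 * C * K * prof A S Q) := by
  intro ψ hψ
  have h1 := base_strong (a := a) (A := A) (C := C) (e := e) (y := 2 * B) ha0 ha1 hA1 hA2 hS hC
    heQ he hQ hΨ (by linarith) (posM_nu0 Q) hψ.1 (card_of_mem_Zn hψ) hK hnK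
  have h2 := Weak716.re_inner_le_of_norm hX ψ
  rw [re_inner_DS]
  have h6 := (abs_le.1 h2).2
  have h7 := (abs_le.1 hx).1
  have h8 : -B * ‖ψ‖ ^ 2 ≤ x * ‖ψ‖ ^ 2 := mul_le_mul_of_nonneg_right h7 (sq_nonneg _)
  nlinarith

theorem hf_zero {F : ℕ → ℝ} {Q : ℕ} {ψ : Fk (Fin (Q + 1))} (hN : ∀ S, ψ S ≠ 0 → S.card = 0) :
    hf F ψ = 3 * cs F Q * ‖ψ‖ ^ 2 := by
  rw [hf_eq_sum, norm_sq_eq_sum, mul_sum]
  refine sum_congr rfl fun S _ => ?_
  by_cases hS : ψ S = 0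
  · simp [hS]
  · have := card_eq_zero.1 (hN S hS)
    subst this
    simp

/-- no particles -/
theorem zero_case {a A S C e B x ε : ℝ} {Q : ℕ} {Ψ : ℕ → ℝ} (ha0 : 0 ≤ a) (ha1 : a ≤ 1)
    (hA1 : 1 ≤ A) (hA2 : A ≤ 2) (hAa : A < 1 + a) (hS1 : 2 * (A - 1) ≤ (1 + a - A) * S)
    (hS : 400 ≤ S) (hC : 0 ≤ C) (hε : 0 < ε) (he : 0 ≤ e)
    (heS : 20 * e * (1 / ε + 1) ≤ S) (hQ : ε * S ≤ Q) (hCB : 40 * B ≤ C)
    (hΨ : Cls (prof a S) (C * (e / Q)) Q Ψ)
    {X : Op (Fin (Q + 1))} (hX : ‖X‖ ≤ B) (hx : |x| ≤ B) :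
    LB (nu0 Q) Q 0 (DS (fun j => C * prof A S j - Ψ j) x Q X)
      (9 / 10 * C * ((Q + 3 : ℕ) : ℝ) * prof A S Q) := by
  intro ψ hψ
  have hS0 : 0 < S := by linarith
  have hA : A < S + 1 := by linarith
  have hQ0 : (0 : ℝ) < Q := lt_of_lt_of_le (by positivity) hQ
  rw [re_inner_DS, hf_zero (card_of_mem_Zn hψ)]
  have h2 := Weak716.re_inner_le_of_norm hX ψ
  have h6 := (abs_le.1 h2).2
  have h7 := (abs_le.1 hx).1
  -- `e * rt / Q ≤ 1/20`
  have hrt : e * (rt a A S Q / Q) ≤ 1 / 20 := by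
    have h1 := rt_div_le ha1 hA1 hAa hS1 (by linarith) Q
    have hr := rt_pos (a := a) hS0.le (by linarith) hA Q
    have h4 : S + (Q : ℝ) ≤ (1 / ε + 1) * Q := by
      have : S ≤ 1 / ε * Q := by
        rw [one_div, inv_mul_eq_div, le_div_iff₀ hε]; linarith
      linarith
    have h3 : rt a A S Q / Q ≤ (1 / ε + 1) / S := by
      rw [div_le_div_iff₀ (by positivity) hS0] at h1 ⊢
      linarith
    refine (mul_le_mul_of_nonneg_left h3 he).trans ?_
    rw [mul_div_assoc', div_le_div_iff₀ hS0 (by norm_num)]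
    linarith
  have hj : ∀ j ≤ Q, C * (19 / 20) * prof A S j ≤ C * prof A S j - Ψ j := by
    intro j hj
    have h1 := (hΨ 0 (by norm_num) j (by omega)).2
    rw [DD_zero, DD_zero] at h1
    have hp := prof_pos hS0.le hA j
    have h3 : C * (e / Q) * prof a S j ≤ C * (1 / 20) * prof A S j := by
      rw [← rt_mul (a := a) hS0.le hA j]
      have hm : rt a A S j ≤ rt a A S Q := rt_mono hS0.le (by linarith) hA hj
      have h4 : e / Q * rt a A S j ≤ 1 / 20 := by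
        refine le_trans ?_ hrt
        calc e / Q * rt a A S j ≤ e / Q * rt a A S Q :=
              mul_le_mul_of_nonneg_left hm (by positivity)
          _ = e * (rt a A S Q / Q) := by ring
      calc C * (e / Q) * (rt a A S j * prof A S j) = C * (e / Q * rt a A S j) * prof A S j := by
            ring
        _ ≤ C * (1 / 20) * prof A S j := by
            apply mul_le_mul_of_nonneg_right _ hp.le
            exact mul_le_mul_of_nonneg_left h4 hC
    linarith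
  have h8 : C * (19 / 20) * (3 * cs (prof A S) Q) ≤ 3 * cs (fun j => C * prof A S j - Ψ j) Q := by
    have := cs_mono (f := fun j => C * (19 / 20) * prof A S j)
      (g := fun j => C * prof A S j - Ψ j) hj
    rw [cs_smul] at this
    linarith
  have h9 := Rec735.cs_ge (prof_antitone hS0.le (by linarith) hA) Q
  have h10 : 1 ≤ 3 * cs (prof A S) Q := by
    have h3w : 3 * cs (prof A S) Q = (3 * w Q) * ∑ j ∈ range (Q + 1), prof A S j := by
      unfold cs; ring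
    have h11 : 1 ≤ ∑ j ∈ range (Q + 1), prof A S j := by
      have := single_le_sum (f := fun j => prof A S j)
        (fun j _ => (prof_pos hS0.le hA j).le) (mem_range.2 (Nat.succ_pos Q))
      simpa using this
    rw [h3w]
    have := one_le_three_w Q
    nlinarith
  have h12 : 9 / 10 * C * ((Q + 3 : ℕ) : ℝ) * prof A S Q ≤
      3 * cs (fun j => C * prof A S j - Ψ j) Q - 2 * B := by
    push_cast
    have h13 : C * (((Q : ℝ) + 3) * prof A S Q) ≤ C * (3 * cs (prof A S) Q) :=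
      mul_le_mul_of_nonneg_left h9 hC
    have h14 : C * 1 ≤ C * (3 * cs (prof A S) Q) := mul_le_mul_of_nonneg_left h10 hC
    nlinarith
  have h15 := mul_le_mul_of_nonneg_right h12 (sq_nonneg ‖ψ‖)
  have h16 : -B * ‖ψ‖ ^ 2 ≤ x * ‖ψ‖ ^ 2 := mul_le_mul_of_nonneg_right h7 (sq_nonneg _)
  nlinarith

/-- **(S), reduction** to the one-step inequality. `Qt` = top flux, `XX Q` = compression of `X`. -/
theorem strong_red {a A S C e B : ℝ} (ha0 : 0 < a) (ha1 : a ≤ 1) (hA1 : 1 ≤ A) (hA2 : A ≤ 2)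
    (hAa : A < 1 + a) (hS1 : 2 * (A - 1) ≤ (1 + a - A) * S) (hS : 4000 ≤ S) (hC : 0 ≤ C)
    (he : 0 ≤ e) (heS : 10000 * e ≤ S) (hCB : 40 * B ≤ C) (Qt : ℕ)
    (XX : (Q : ℕ) → Op (Fin (Q + 1))) (x : ℕ → ℝ) (hX : ∀ Q ≤ Qt, ‖XX Q‖ ≤ B)
    (hx : ∀ Q ≤ Qt, |x Q| ≤ B) (crude : ℕ → ℝ)
    (hvac : ∀ n Q F, Q ≤ Qt → 3 ∣ Q → Q + 3 = 3 * n → LB (nu0 Q) Q n (DS F (x Q) Q (XX Q)) 0)
    (hstep : ∀ n Q Ψ, 3 ∣ Q → Q + 3 ≤ Qt → S ≤ 100 * (Q + 3 : ℕ) → 3 * n ≤ Q →
      Cls (prof a S) (C * (e / (Q + 3 : ℕ))) (Q + 3) Ψ →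
      ∃ eps : ℕ → ℝ, Cls (prof a S) (C * (3 * e / ((Q + 3 : ℕ) : ℝ) ^ 2)) Q eps ∧
        ∀ m1 m2, LB (nu0 Q) Q n
            (DS (fun j => C * prof A S j - (Ψ j + eps j)) (x Q) Q (XX Q)) m1 →
          LB (nu0 Q) Q (n + 1)
            (DS (fun j => C * prof A S j - (Ψ j + eps j)) (x Q) Q (XX Q)) m2 →
          LB (nu0 (Q + 3)) (Q + 3) (n + 1)
            (DS (fun j => C * prof A S j - Ψ j) (x (Q + 3)) (Q + 3) (XX (Q + 3)))
            (min (m1 - 3 * ((C * prof A S (Q + 1) - Ψ (Q + 1)) -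
                (C * prof A S (Q + 3) - Ψ (Q + 3))))
              (m2 + 3 * (C * prof A S (Q + 3) - Ψ (Q + 3))) - crude (Q + 3)))
    (hcr : ∀ Q : ℕ, S ≤ 100 * (Q + 3 : ℕ) →
      crude (Q + 3) ≤ C * (A * prof A S (Q + 3) / (S + Q + 3))) :
    ∀ Q n, Q ≤ Qt → 3 ∣ Q → 3 * n ≤ Q → S ≤ 100 * (Q + 3 : ℕ) →
      LB (nu0 Q) Q n (DS (fun j => C * prof A S j) (x Q) Q (XX Q))
        (9 / 10 * C * (Q + 3 - 3 * n) * prof A S Q) := by
  have hS0 : 0 < S := by linarith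
  have hceil : S / 100 ≤ (⌈S / 100⌉₊ : ℝ) := Nat.le_ceil _
  set Q0 : ℕ := ⌈S / 100⌉₊ with hQ0def
  have hQ0lt : (Q0 : ℝ) < S / 100 + 1 := Nat.ceil_lt_add_one (by positivity)
  have hQ040 : 4 ≤ Q0 := by
    have : (4 : ℝ) ≤ Q0 := by linarith
    exact_mod_cast this
  have hge : ∀ Q : ℕ, Q0 ≤ Q → S ≤ 100 * (Q : ℝ) := by
    intro Q h
    have : (Q0 : ℝ) ≤ Q := by exact_mod_cast h
    linarith
  have hmain := strong_pass2
    (fun Q K F μ => Q ≤ Qt → ∀ n, 3 * n + K = Q + 3 →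
      LB (nu0 Q) Q n (DS F (x Q) Q (XX Q)) μ)
    (fun Q K F μ μ' hμ h hQ n hn => (h hQ n hn).mono hμ) (a := a) (A := A) (S := S) (C := C)
    (θ := 9 / 10) (e := e) ha0.le (by linarith) (by linarith) hA2 (by linarith) hC le_rfl he Q0
    hQ040 crude
    (by
      intro Q K Ψ _ _ hK _ hQ hQ' hΨ hQt n hn
      have h1 : (Q : ℝ) + 1 ≤ Q0 := by exact_mod_cast hQ
      have h2 : S ≤ 100 * ((Q + 3 : ℕ) : ℝ) := hge _ hQ'
      push_cast at h2
      have hQpos : (0 : ℝ) < Q := by linarith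
      refine base_small ha0 ha1 hA1 hA2 (by linarith) hC ?_ (by positivity) (by linarith)
        (by linarith [(abs_nonneg (x Q)).trans (hx Q hQt)]) hΨ hK hn (hX Q hQt) (hx Q hQt)
      rw [div_le_div_iff₀ hQpos (by norm_num)]
      linarith)
    (by
      intro Q Ψ _ hQ hΨ hQt n hn
      have hn0 : n = 0 := by omega
      subst hn0
      have h2 := hge Q hQ
      exact zero_case (ε := 1 / 100) ha0.le ha1 hA1 hA2 hAa hS1 (by linarith) hC (by norm_num) he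
        (by norm_num; linarith) (by linarith) hCB hΨ (hX Q hQt) (hx Q hQt))
    (by
      intro Q F hQ3 hQt n hn
      exact hvac n Q F hQt hQ3 (by omega))
    (by
      intro Q K Ψ hQ3 hK3 hK hKQ hQ hΨ
      have hex : ∃ m, 3 * m + K = Q + 3 := by
        obtain ⟨q, rfl⟩ := hQ3
        obtain ⟨k, rfl⟩ := hK3
        exact ⟨q + 1 - k, by omega⟩
      obtain ⟨m, hm⟩ := hex
      rcases Nat.lt_or_ge Qt (Q + 3) with hQt | hQt
      · -- beyond the top flux: nothing to prove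
        refine ⟨fun _ => 0, ?_, fun m1 m2 _ _ hQt' => absurd hQt' (by omega)⟩
        apply Cls.zero
        · positivity
        · intro r hr j
          exact DD_prof_nonneg hS0.le ha0.le (by linarith) hr j
      · obtain ⟨eps, h1, h2⟩ := hstep m Q Ψ hQ3 hQt (hge _ hQ) (by omega) hΨ
        refine ⟨eps, h1, fun m1 m2 hm1 hm2 _ n hn => ?_⟩
        have hnm : n = m + 1 := by omega
        subst hnm
        exact h2 m1 m2 (hm1 (by omega) m hm) (hm2 (by omega) (m + 1) (by omega)))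
    (by
      intro Q hQ
      exact hcr Q (hge _ hQ))
    (by
      intro Q hQ
      exact hB_of (ε := 1 / 100) ha1 hA1 hAa hS1 (by linarith) le_rfl (by norm_num) he
        (by norm_num; linarith) (by have := hge _ hQ; linarith))
  intro Q n hQt hQ3 hn hQS
  have hK : ∃ K, 3 * n + K = Q + 3 := ⟨Q + 3 - 3 * n, by omega⟩
  obtain ⟨K, hK⟩ := hK
  have hQ0 : Q0 ≤ Q + 3 := by
    rw [hQ0def, Nat.ceil_le, div_le_iff₀ (by norm_num)]
    linarith
  have h := hmain Q K (fun _ => 0) hQ3 (by omega) (by omega) (by omega) hQ0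
    (by
      apply Cls.zero
      · positivity
      · intro r hr j
        exact DD_prof_nonneg hS0.le ha0.le (by linarith) hr j) hQt n hK
  have e1 : (fun j => C * prof A S j - 0) = fun j => C * prof A S j := by
    funext j; rw [sub_zero]
  have e2 : (K : ℝ) = Q + 3 - 3 * n := by
    have : (3 : ℝ) * n + K = Q + 3 := by exact_mod_cast hK
    linarith
  rw [e1, e2] at h
  exact h

end Crest.Agent.R340.StrR735
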