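import Crest.Agent.R340.RecS_735
import Crest.Agent.R340.Conv1_102

/-!
R340 (S0532), block L5: the strong pass (doc 1315 of helper875, triple peel of helper924) as an
abstract recursion with a moving profile (helper735).

`LB Q K F μ` : "`h_F - (X - x_Q) ≥ μ` on `Z_K(Q)`", `F = C f - Ψ`, `f = prof A S`, `g = prof a S`.
-/

set_option autoImplicit false

open Finset

namespace Crest.Agent.R340.Str735

open Crest.Agent.R340.Dom735 (Cvx)
open Crest.Agent.R340.Scal725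
open Crest.Agent.R340.Rec735
open Crest.Agent.R340.RecS735
open Crest.Agent.R340.Conv102 (DD DD_zero DD_succ DD_two DD_smul)

/-! `DD F 0 = F`, `DD F (r+1) j = DD F r j - DD F r (j+1)` (helper102's `Conv102.DD`). -/

theorem DD_one (F : ℕ → ℝ) (j : ℕ) : DD F 1 j = F j - F (j + 1) := rfl

theorem DD_add (F G : ℕ → ℝ) (r j : ℕ) : DD (fun i => F i + G i) r j = DD F r j + DD G r j := by
  induction r generalizing j with
  | zero => rfl
  | succ r ih => rw [DD_succ, ih, ih, DD_succ, DD_succ]; ring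

theorem DD_prof_nonneg {a S : ℝ} (hS : 0 ≤ S) (ha0 : 0 ≤ a) (ha : a < S + 1) {r : ℕ} (hr : r ≤ 2)
    (j : ℕ) : 0 ≤ DD (prof a S) r j := by
  interval_cases r
  · exact (prof_pos hS ha j).le
  · rw [DD_one]; exact sub_nonneg.2 (prof_antitone hS ha0 ha (by omega))
  · rw [DD_two]; exact dd_prof_nonneg hS ha0 ha j

/-- the cone class of the correction profiles on the orbitals `0..Q`: all differences of order
`≤ 2` are between `0` and `η` times those of `g` -/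
def Cls (g : ℕ → ℝ) (η : ℝ) (Q : ℕ) (Ψ : ℕ → ℝ) : Prop :=
  ∀ r ≤ 2, ∀ j, j + r ≤ Q → 0 ≤ DD Ψ r j ∧ DD Ψ r j ≤ η * DD g r j

theorem Cls.zero {g : ℕ → ℝ} {η : ℝ} {Q : ℕ} (hη : 0 ≤ η)
    (hg : ∀ r ≤ 2, ∀ j, 0 ≤ DD g r j) : Cls g η Q (fun _ => 0) := by
  intro r hr j _
  have : DD (fun _ => (0 : ℝ)) r j = 0 := by
    have := DD_smul 0 g r j
    simpa using this
  rw [this]
  exact ⟨le_rfl, mul_nonneg hη (hg r hr j)⟩

theorem Cls.add {g : ℕ → ℝ} {η η' : ℝ} {Q : ℕ} {Ψ Ψ' : ℕ → ℝ} (h : Cls g η Q Ψ)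
    (h' : Cls g η' Q Ψ') : Cls g (η + η') Q (fun j => Ψ j + Ψ' j) := by
  intro r hr j hj
  rw [DD_add]
  have h1 := h r hr j hj
  have h2 := h' r hr j hj
  constructor
  · linarith [h1.1, h2.1]
  · linarith [h1.2, h2.2]

theorem Cls.mono {g : ℕ → ℝ} {η η' : ℝ} {Q : ℕ} {Ψ : ℕ → ℝ} (h : Cls g η Q Ψ) (hη : η ≤ η')
    (hg : ∀ r ≤ 2, ∀ j, 0 ≤ DD g r j) : Cls g η' Q Ψ := by
  intro r hr j hj
  exact ⟨(h r hr j hj).1, (h r hr j hj).2.trans (mul_le_mul_of_nonneg_right hη (hg r hr j))⟩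

theorem Cls.restrict {g : ℕ → ℝ} {η : ℝ} {Q Q' : ℕ} {Ψ : ℕ → ℝ} (h : Cls g η Q Ψ)
    (hQ : Q' ≤ Q) : Cls g η Q' Ψ :=
  fun r hr j hj => h r hr j (hj.trans hQ)

theorem Cls.anti {g : ℕ → ℝ} {η : ℝ} {Q : ℕ} {Ψ : ℕ → ℝ} (h : Cls g η Q Ψ) {j : ℕ}
    (hj : j + 1 ≤ Q) : Ψ (j + 1) ≤ Ψ j := by
  have := (h 1 (by norm_num) j hj).1
  rw [DD_one] at this
  linarith

/-! ### Branch inequalities -/

/-- two-step loss: `f_Q - f_{Q+2} ≤ (21/10) A f_{Q+2} / (S+Q+2)` for `S` large -/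
theorem two_step {A S : ℝ} (hA0 : 0 < A) (hA2 : A ≤ 2) (hS : 400 ≤ S) (Q : ℕ) :
    prof A S Q - prof A S (Q + 2) ≤ 21 / 10 * (A * prof A S (Q + 2) / (S + Q + 2)) := by
  have hS0 : 0 ≤ S := by linarith
  have hA : A < S + 1 := by linarith
  have hQ : (0 : ℝ) ≤ Q := Nat.cast_nonneg Q
  have h1 := prof_sub_le hS0 hA0.le hA Q 2
  have h2 := prof_le_mul hS0 hA0.le hA Q 2 (by push_cast; linarith)
  push_cast at h1 h2
  have hp := prof_pos hS0 hA (Q + 2)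
  refine h1.trans ?_
  set x : ℝ := S + Q + 1 with hx
  have hx1 : 400 ≤ x := by linarith
  have e : S + Q + 2 = x + 1 := by rw [hx]; ring
  rw [e]
  have h3 : prof A S Q ≤ prof A S (Q + 2) * (1 + 8 / x) := by
    refine h2.trans ?_
    apply mul_le_mul_of_nonneg_left _ hp.le
    have : 2 * (2 * A) / x ≤ 8 / x := by
      apply div_le_div_of_nonneg_right _ (by linarith); linarith
    linarith
  have h4 : 2 * (A * prof A S Q / x) ≤ 2 * (A * (prof A S (Q + 2) * (1 + 8 / x)) / x) := by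
    apply mul_le_mul_of_nonneg_left _ (by norm_num)
    apply div_le_div_of_nonneg_right _ (by linarith)
    exact mul_le_mul_of_nonneg_left h3 hA0.le
  refine h4.trans ?_
  have h5 : 2 * ((1 + 8 / x) / x) ≤ 21 / 10 * (1 / (x + 1)) := by
    rw [mul_div_assoc', mul_one_div, div_le_div_iff₀ (by linarith) (by linarith)]
    have : (8 : ℝ) / x ≤ 1 / 50 := by
      rw [div_le_div_iff₀ (by linarith) (by norm_num)]; linarith
    nlinarith
  have h6 := mul_le_mul_of_nonneg_left h5 (by positivity : 0 ≤ A * prof A S (Q + 2))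
  calc 2 * (A * (prof A S (Q + 2) * (1 + 8 / x)) / x)
      = A * prof A S (Q + 2) * (2 * ((1 + 8 / x) / x)) := by ring
    _ ≤ A * prof A S (Q + 2) * (21 / 10 * (1 / (x + 1))) := h6
    _ = _ := by ring

/-- **A-branch** (occupied block) of the triple peel from `Q` to `Q + 3`. -/
theorem A_branch {a A S C θ K η crude : ℝ} {Q : ℕ} {Ψ : ℕ → ℝ} (hA0 : 0 < A) (hA2 : A ≤ 2)
    (hS : 400 ≤ S) (hC : 0 ≤ C) (hθ : 9 / 10 ≤ θ) (hK : 3 ≤ K)
    (hΨ : Cls (prof a S) η (Q + 3) Ψ)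
    (hcr : crude ≤ C * (A * prof A S (Q + 3) / (S + Q + 3))) :
    θ * C * K * prof A S (Q + 3) ≤
      θ * C * K * prof A S Q -
        3 * ((C * prof A S (Q + 1) - Ψ (Q + 1)) - (C * prof A S (Q + 3) - Ψ (Q + 3))) - crude := by
  have hS0 : 0 ≤ S := by linarith
  have hA : A < S + 1 := by linarith
  have h1 := two_step hA0 hA2 hS (Q + 1)
  have h2 := prof_sub_ge hS0 hA0.le hA Q 3
  push_cast at h1 h2
  have e1 : prof A S (Q + 1 + 2) = prof A S (Q + 3) := rfl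
  rw [e1, show S + ((Q : ℝ) + 1) + 2 = S + Q + 3 by ring] at h1
  set u := A * prof A S (Q + 3) / (S + Q + 3) with hu
  have hp := prof_pos hS0 hA (Q + 3)
  have hu0 : 0 ≤ u := by positivity
  have h3 : Ψ (Q + 3) ≤ Ψ (Q + 1) := (hΨ.anti (j := Q + 2) (by omega)).trans
    (hΨ.anti (j := Q + 1) (by omega))
  have hθK : 27 / 10 ≤ θ * K := by nlinarith
  have h4 : 27 / 10 * C * (3 * u) ≤ θ * K * C * (prof A S Q - prof A S (Q + 3)) := by
    have h9 : 0 ≤ prof A S Q - prof A S (Q + 3) := le_trans (by positivity) h2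
    exact mul_le_mul (mul_le_mul_of_nonneg_right hθK hC) h2 (by positivity) (by positivity)
  have h5 : C * (prof A S (Q + 1) - prof A S (Q + 3)) ≤ C * (21 / 10 * u) :=
    mul_le_mul_of_nonneg_left h1 hC
  have hCu : 0 ≤ C * u := mul_nonneg hC hu0
  nlinarith

/-- **B-branch** (all three peeled orbitals empty). -/
theorem B_branch {a A S C θ K η crude : ℝ} {Q : ℕ} {Ψ : ℕ → ℝ} (hA0 : 0 < A)
    (hAS : A < S + 1) (hS : 0 ≤ S) (hC : 0 ≤ C) (hθ0 : 0 ≤ θ) (hK : 3 ≤ K)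
    (hΨ : Cls (prof a S) (C * η) (Q + 3) Ψ)
    (h : 3 * (η * prof a S (Q + 3)) + A * prof A S (Q + 3) / (S + Q + 3) ≤
      3 * (1 - θ) * prof A S (Q + 3))
    (hcr : crude ≤ C * (A * prof A S (Q + 3) / (S + Q + 3))) :
    θ * C * K * prof A S (Q + 3) ≤
      θ * C * (K - 3) * prof A S Q + 3 * (C * prof A S (Q + 3) - Ψ (Q + 3)) - crude := by
  have h1 : Ψ (Q + 3) ≤ C * η * prof a S (Q + 3) := (hΨ 0 (by norm_num) (Q + 3) (by omega)).2
  have h2 : prof A S (Q + 3) ≤ prof A S Q := prof_antitone hS hA0.le hAS (by omega)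
  have h3 : θ * C * (K - 3) * prof A S (Q + 3) ≤ θ * C * (K - 3) * prof A S Q := by
    apply mul_le_mul_of_nonneg_left h2
    have : 0 ≤ K - 3 := by linarith
    positivity
  have h4 := mul_le_mul_of_nonneg_left h hC
  nlinarith

/-- the class parameter: `C e / Q + 3 C e / (Q+3)² ≤ C e / Q` shifted; from `Q + 3` to `Q` -/
theorem eta_step {e : ℝ} (he : 0 ≤ e) {Q : ℕ} (hQ : 1 ≤ Q) :
    e / ((Q + 3 : ℕ) : ℝ) + 3 * e / ((Q + 3 : ℕ) : ℝ) ^ 2 ≤ e / Q := by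
  have hQ' : (1 : ℝ) ≤ Q := by exact_mod_cast hQ
  push_cast
  rw [div_add_div _ _ (by positivity) (by positivity), div_le_div_iff₀ (by positivity)
    (by positivity)]
  have : e * ((Q : ℝ) + 3) ^ 2 + (Q + 3) * (3 * e) = e * (Q + 3) * (Q + 6) := by ring
  rw [this]
  have h2 : e * (Q + 3) * (Q + 6) * Q ≤ e * ((Q + 3) * (Q + 3) ^ 2) := by
    have : (Q + 3) * (Q + 6) * (Q : ℝ) ≤ (Q + 3) * (Q + 3) ^ 2 := by nlinarith
    calc e * (Q + 3) * (Q + 6) * Q = e * ((Q + 3) * (Q + 6) * Q) := by ring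
      _ ≤ _ := mul_le_mul_of_nonneg_left this he
  exact h2

/-- **The abstract strong pass.** -/
theorem strong_pass (LB : ℕ → ℕ → (ℕ → ℝ) → ℝ → Prop)
    (hmono : ∀ Q K F μ μ', μ' ≤ μ → LB Q K F μ → LB Q K F μ')
    {a A S C θ e : ℝ} (ha0 : 0 ≤ a) (haA : a ≤ A) (hA0 : 0 < A) (hA2 : A ≤ 2) (hS : 400 ≤ S)
    (hC : 0 ≤ C) (hθ : 9 / 10 ≤ θ) (he : 0 ≤ e) (Q0 : ℕ) (hQ0 : 4 ≤ Q0) (crude : ℕ → ℝ)
    (hbase : ∀ Q K Ψ, 3 ∣ Q → 3 ∣ K → 3 ≤ K → Q < Q0 → Q0 ≤ Q + 3 →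
      Cls (prof a S) (C * (e / Q)) Q Ψ →
      LB Q K (fun j => C * prof A S j - Ψ j) (θ * C * K * prof A S Q))
    (hvac : ∀ Q F, 3 ∣ Q → LB Q 0 F 0)
    (hstep : ∀ Q K Ψ, 3 ∣ Q → 3 ∣ K → 3 ≤ K → Q0 ≤ Q + 3 →
      Cls (prof a S) (C * (e / (Q + 3 : ℕ))) (Q + 3) Ψ →
      ∃ eps : ℕ → ℝ, Cls (prof a S) (C * (3 * e / ((Q + 3 : ℕ) : ℝ) ^ 2)) Q eps ∧
        ∀ m1 m2, LB Q K (fun j => C * prof A S j - (Ψ j + eps j)) m1 →
          LB Q (K - 3) (fun j => C * prof A S j - (Ψ j + eps j)) m2 →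
          LB (Q + 3) K (fun j => C * prof A S j - Ψ j)
            (min (m1 - 3 * ((C * prof A S (Q + 1) - Ψ (Q + 1)) -
                (C * prof A S (Q + 3) - Ψ (Q + 3))))
              (m2 + 3 * (C * prof A S (Q + 3) - Ψ (Q + 3))) - crude (Q + 3)))
    (hcr : ∀ Q : ℕ, Q0 ≤ Q + 3 → crude (Q + 3) ≤ C * (A * prof A S (Q + 3) / (S + Q + 3)))
    (hB : ∀ Q : ℕ, Q0 ≤ Q + 3 → 3 * (e / (Q + 3 : ℕ) * prof a S (Q + 3)) +
      A * prof A S (Q + 3) / (S + Q + 3) ≤ 3 * (1 - θ) * prof A S (Q + 3)) :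
    ∀ Q K Ψ, 3 ∣ Q → 3 ∣ K → 3 ≤ K → Q0 ≤ Q + 3 → Cls (prof a S) (C * (e / Q)) Q Ψ →
      LB Q K (fun j => C * prof A S j - Ψ j) (θ * C * K * prof A S Q) := by
  intro Q
  induction Q using Nat.strong_induction_on with
  | _ Q ih =>
    intro K Ψ hQ3 hK3 hK hQ hΨ
    rcases lt_or_ge Q Q0 with h0 | h0
    · exact hbase Q K Ψ hQ3 hK3 hK h0 hQ hΨ
    obtain ⟨q, rfl⟩ : ∃ q, Q = q + 3 := ⟨Q - 3, by omega⟩
    have hq3 : 3 ∣ q := by omega
    have hq1 : 1 ≤ q := by omega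
    obtain ⟨eps, heps, hst⟩ := hstep q K Ψ hq3 hK3 hK h0 hΨ
    have hg : ∀ r ≤ 2, ∀ j, 0 ≤ DD (prof a S) r j := fun r hr j =>
      DD_prof_nonneg (by linarith) ha0 (by linarith) hr j
    have hcls : Cls (prof a S) (C * (e / q)) q (fun j => Ψ j + eps j) := by
      refine ((hΨ.restrict (by omega)).add heps).mono ?_ hg
      rw [← mul_add]
      exact mul_le_mul_of_nonneg_left (eta_step he hq1) hC
    have i1 := ih q (by omega) K (fun j => Ψ j + eps j) hq3 hK3 hK (by omega) hcls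
    have hKr : (3 : ℝ) ≤ K := by exact_mod_cast hK
    have hA' := A_branch (K := (K : ℝ)) (θ := θ) hA0 hA2 hS hC hθ hKr hΨ (hcr q h0)
    have hB' := B_branch (K := (K : ℝ)) (θ := θ) (A := A) hA0 (by linarith) (by linarith) hC
      (by linarith) hKr hΨ (hB q h0) (hcr q h0)
    rcases Nat.eq_or_lt_of_le hK with hK' | hK'
    · -- `K = 3`
      have i2 : LB q (K - 3) (fun j => C * prof A S j - (Ψ j + eps j)) 0 := by
        rw [← hK']; exact hvac q _ hq3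
      refine hmono _ _ _ _ _ ?_ (hst _ _ i1 i2)
      rw [le_sub_iff_add_le, le_min_iff]
      constructor
      · linarith
      · have : (K : ℝ) = 3 := by exact_mod_cast hK'.symm
        rw [this] at hB'
        rw [this]
        have e0 : θ * C * (3 - 3) * prof A S q = 0 := by ring
        rw [e0] at hB'
        linarith
    · have i2 := ih q (by omega) (K - 3) (fun j => Ψ j + eps j) hq3 (by omega) (by omega)
        (by omega) hcls
      refine hmono _ _ _ _ _ ?_ (hst _ _ i1 i2)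
      rw [le_sub_iff_add_le, le_min_iff]
      constructor
      · linarith
      · rw [Nat.cast_sub hK]
        push_cast
        linarith

/-! ### Verifying the scalar hypotheses -/

/-- `hB` of `strong_pass` from `20 e (1/ε + 1) ≤ S`, `ε S ≤ Q + 3`. -/
theorem hB_of {a A S θ e ε : ℝ} (ha1 : a ≤ 1) (hA1 : 1 ≤ A) (hAa : A < 1 + a)
    (hS1 : 2 * (A - 1) ≤ (1 + a - A) * S) (hS : 400 ≤ S) (hθ : θ ≤ 9 / 10) (hε : 0 < ε)
    (he : 0 ≤ e) (heS : 20 * e * (1 / ε + 1) ≤ S) {Q : ℕ} (hQ : ε * S ≤ ((Q + 3 : ℕ) : ℝ)) :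
    3 * (e / (Q + 3 : ℕ) * prof a S (Q + 3)) + A * prof A S (Q + 3) / (S + Q + 3) ≤
      3 * (1 - θ) * prof A S (Q + 3) := by
  have hS0 : 0 < S := by linarith
  have hA : A < S + 1 := by linarith
  have hp := prof_pos hS0.le hA (Q + 3)
  have hQ0 : (0 : ℝ) < ((Q + 3 : ℕ) : ℝ) := by positivity
  have h1 := rt_div_le ha1 hA1 hAa hS1 (by linarith) (Q + 3)
  have hr := rt_pos (a := a) hS0.le (by linarith) hA (Q + 3)
  have h2 := rt_mul (a := a) hS0.le hA (Q + 3)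
  -- rt / Q ≤ (1/ε + 1) / S
  have h3 : rt a A S (Q + 3) / ((Q + 3 : ℕ) : ℝ) ≤ (1 / ε + 1) / S := by
    have h4 : S + ((Q + 3 : ℕ) : ℝ) ≤ (1 / ε + 1) * ((Q + 3 : ℕ) : ℝ) := by
      have : S ≤ 1 / ε * ((Q + 3 : ℕ) : ℝ) := by
        rw [one_div, inv_mul_eq_div, le_div_iff₀ hε]; linarith
      linarith
    rw [div_le_div_iff₀ (by positivity) hS0] at h1 ⊢
    have h5 : rt a A S (Q + 3) * S ≤ (1 / ε + 1) * ((Q + 3 : ℕ) : ℝ) := by linarith
    linarith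
  have h6 : e / ((Q + 3 : ℕ) : ℝ) * prof a S (Q + 3) =
      e * (rt a A S (Q + 3) / ((Q + 3 : ℕ) : ℝ)) * prof A S (Q + 3) := by
    rw [← h2]; ring
  have h7 : e * (rt a A S (Q + 3) / ((Q + 3 : ℕ) : ℝ)) ≤ 1 / 20 := by
    have h8 : e * (rt a A S (Q + 3) / ((Q + 3 : ℕ) : ℝ)) ≤ e * ((1 / ε + 1) / S) :=
      mul_le_mul_of_nonneg_left h3 he
    refine h8.trans ?_
    rw [mul_div_assoc', div_le_div_iff₀ hS0 (by norm_num)]
    linarith
  have h9 : A * prof A S (Q + 3) / (S + Q + 3) ≤ 1 / 10 * prof A S (Q + 3) := by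
    have hQn : (0 : ℝ) ≤ Q := Nat.cast_nonneg Q
    rw [div_le_iff₀ (by positivity)]
    have : A ≤ 1 / 10 * (S + Q + 3) := by linarith
    nlinarith
  rw [h6]
  have h10 : e * (rt a A S (Q + 3) / ((Q + 3 : ℕ) : ℝ)) * prof A S (Q + 3) ≤
      1 / 20 * prof A S (Q + 3) := mul_le_mul_of_nonneg_right h7 hp.le
  nlinarith

end Crest.Agent.R340.Str735
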