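import Crest.Agent.R340.As_249

set_option autoImplicit false
open scoped BigOperators Topology
open Finset Filter

namespace Crest.Agent.R340.Kn249

open Crest.Agent.R340.Fock649 Crest.MathPhysics.Laughlin

variable {Q : ℕ}

theorem cN_of_gt {Q k : ℕ} (h : Q < k) : cN Q k = 0 := by
  unfold cN
  rw [dif_neg (by omega)]

theorem cN_anti (Q i j : ℕ) : cN Q i * cN Q j + cN Q j * cN Q i = 0 := by
  unfold cN
  split_ifs
  · exact c_c _ _
  all_goals simp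

theorem cN_anti' (Q i j : ℕ) : cN Q i * cN Q j = -(cN Q j * cN Q i) :=
  eq_neg_of_add_eq_zero_left (cN_anti Q i j)

theorem cN_sq (Q i : ℕ) : cN Q i * cN Q i = 0 := by
  have h := cN_anti Q i i
  have h2 : (2 : ℂ) • (cN Q i * cN Q i) = 0 := by rw [two_smul]; exact h
  exact (smul_eq_zero.mp h2).resolve_left two_ne_zero

theorem pv_anti (Q q i j : ℕ) : pv Q q i j = - pv Q q j i := by
  unfold pv
  by_cases h : i + j = q + 1
  · rw [if_pos h, if_pos (by omega), mul_comm ((Nat.choose Q i : ℝ)) _]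
    ring
  · rw [if_neg h, if_neg (by omega), neg_zero]

theorem sum_fin_cN (Q : ℕ) (M : ℕ) (hM : Q + 1 ≤ M) (f : ℕ → ℕ → ℂ) :
    ∑ i : Fin (Q + 1), ∑ j : Fin (Q + 1), f i j • ((c j : Op (Fin (Q + 1))) * c i) =
      ∑ i ∈ range M, ∑ j ∈ range M, f i j • (cN Q j * cN Q i) := by
  have hc : ∀ i : Fin (Q + 1), cN Q i = c i := by
    intro i; unfold cN; rw [dif_pos i.2]
  have h1 : ∀ i : ℕ, ∑ j ∈ range M, f i j • (cN Q j * cN Q i) =
      ∑ j ∈ range (Q + 1), f i j • (cN Q j * cN Q i) := by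
    intro i
    symm
    refine Finset.sum_subset (Finset.range_mono hM) fun j _ hj => ?_
    have : Q < j := by simp only [Finset.mem_range] at hj; omega
    rw [cN_of_gt this, zero_mul, smul_zero]
  have h2 : ∑ i ∈ range M, ∑ j ∈ range M, f i j • (cN Q j * cN Q i) =
      ∑ i ∈ range (Q + 1), ∑ j ∈ range M, f i j • (cN Q j * cN Q i) := by
    symm
    refine Finset.sum_subset (Finset.range_mono hM) fun i _ hi => ?_
    have : Q < i := by simp only [Finset.mem_range] at hi; omega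
    refine Finset.sum_eq_zero fun j _ => ?_
    rw [cN_of_gt this, mul_zero, smul_zero]
  rw [h2, Finset.sum_range]
  refine Finset.sum_congr rfl fun i _ => ?_
  rw [h1, Finset.sum_range]
  refine Finset.sum_congr rfl fun j _ => ?_
  rw [hc, hc]

theorem WN_eq_sum (Q q : ℕ) : WN Q q = ((Real.sqrt 2 : ℂ)⁻¹) •
    ∑ i ∈ range (q + 2), ((pv Q q i (q + 1 - i) : ℝ) : ℂ) • (cN Q (q + 1 - i) * cN Q i) := by
  unfold WN pa
  congr 1
  have h0 : ∑ i : Fin (Q + 1), ∑ j : Fin (Q + 1),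
      (starRingEnd ℂ) ((pv Q q i j : ℝ) : ℂ) • ((c j : Op (Fin (Q + 1))) * c i) =
      ∑ i : Fin (Q + 1), ∑ j : Fin (Q + 1),
      ((pv Q q i j : ℝ) : ℂ) • ((c j : Op (Fin (Q + 1))) * c i) := by
    refine Finset.sum_congr rfl fun i _ => Finset.sum_congr rfl fun j _ => ?_
    rw [Complex.conj_ofReal]
  rw [h0, sum_fin_cN Q (Q + q + 2) (by omega) (fun i j => ((pv Q q i j : ℝ) : ℂ))]
  have h1 : ∑ i ∈ range (q + 2), ((pv Q q i (q + 1 - i) : ℝ) : ℂ) •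
      (cN Q (q + 1 - i) * cN Q i) = ∑ i ∈ range (q + 2), ∑ j ∈ range (Q + q + 2),
      ((pv Q q i j : ℝ) : ℂ) • (cN Q j * cN Q i) := by
    refine Finset.sum_congr rfl fun i hi => ?_
    have hi' : i < q + 2 := by simpa using hi
    rw [Finset.sum_eq_single (q + 1 - i)]
    · intro j _ hj
      have : pv Q q i j = 0 := by
        unfold pv; rw [if_neg (by omega)]
      rw [this]; simp
    · intro h
      exfalso; apply h
      simp only [Finset.mem_range]; omega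
  rw [h1]
  symm
  refine Finset.sum_subset (Finset.range_mono (by omega)) fun i _ hi => ?_
  have hi' : q + 2 ≤ i := by simp only [Finset.mem_range] at hi; omega
  refine Finset.sum_eq_zero fun j _ => ?_
  have : pv Q q i j = 0 := by
    unfold pv; rw [if_neg (by omega)]
  rw [this]; simp

theorem sqrt2_inv (x : ℝ) : (Real.sqrt 2 : ℂ)⁻¹ * ((2 * x : ℝ) : ℂ) = ((Real.sqrt 2 * x : ℝ) : ℂ) := by
  have h : (Real.sqrt 2 : ℂ) * (Real.sqrt 2 : ℂ) = 2 := by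
    rw [← Complex.ofReal_mul, Real.mul_self_sqrt (by norm_num)]; norm_num
  have h0 : (Real.sqrt 2 : ℂ) ≠ 0 := by
    intro h1; rw [h1, zero_mul] at h; norm_num at h
  rw [inv_mul_eq_iff_eq_mul₀ h0]
  push_cast
  rw [← mul_assoc, h]

theorem WN_zero (Q : ℕ) : WN Q 0 = ((v0 Q 0 : ℝ) : ℂ) • (cN Q 1 * cN Q 0) := by
  rw [WN_eq_sum]
  simp only [Finset.sum_range_succ, Finset.sum_range_zero, zero_add, Nat.sub_zero, Nat.sub_self]
  rw [pv_anti Q 0 1 0, cN_anti' Q 0 1, Complex.ofReal_neg, smul_neg, neg_smul, neg_neg, ← two_smul ℂ,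
    smul_smul, smul_smul]
  congr 1
  unfold v0
  rw [← sqrt2_inv]
  push_cast
  ring

theorem WN_one (Q : ℕ) : WN Q 1 = ((v0 Q 1 : ℝ) : ℂ) • (cN Q 2 * cN Q 0) := by
  rw [WN_eq_sum]
  simp only [Finset.sum_range_succ, Finset.sum_range_zero, zero_add, Nat.sub_zero, Nat.sub_self,
    Nat.reduceAdd, Nat.reduceSub]
  rw [cN_sq, smul_zero, add_zero, pv_anti Q 1 2 0, cN_anti' Q 0 2, Complex.ofReal_neg, smul_neg,
    neg_smul, neg_neg, ← two_smul ℂ, smul_smul, smul_smul]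
  congr 1
  unfold v0
  rw [← sqrt2_inv]
  push_cast
  ring

theorem WN_two (Q : ℕ) : WN Q 2 = ((v0 Q 2 : ℝ) : ℂ) • (cN Q 3 * cN Q 0) +
    ((v1 Q 2 : ℝ) : ℂ) • (cN Q 2 * cN Q 1) := by
  rw [WN_eq_sum]
  simp only [Finset.sum_range_succ, Finset.sum_range_zero, zero_add, Nat.sub_zero, Nat.sub_self,
    Nat.reduceAdd, Nat.reduceSub]
  rw [pv_anti Q 2 3 0, pv_anti Q 2 2 1, cN_anti' Q 0 3, cN_anti' Q 1 2]
  unfold v0 v1
  rw [← sqrt2_inv, ← sqrt2_inv]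
  simp only [Nat.reduceAdd, Complex.ofReal_neg, Complex.ofReal_mul, Complex.ofReal_ofNat]
  module

theorem WN_three (Q : ℕ) : WN Q 3 = ((v0 Q 3 : ℝ) : ℂ) • (cN Q 4 * cN Q 0) +
    ((v1 Q 3 : ℝ) : ℂ) • (cN Q 3 * cN Q 1) := by
  rw [WN_eq_sum]
  simp only [Finset.sum_range_succ, Finset.sum_range_zero, zero_add, Nat.sub_zero, Nat.sub_self,
    Nat.reduceAdd, Nat.reduceSub]
  rw [pv_anti Q 3 4 0, pv_anti Q 3 3 1, cN_anti' Q 0 4, cN_anti' Q 1 3, cN_sq]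
  unfold v0 v1
  rw [← sqrt2_inv, ← sqrt2_inv]
  simp only [Nat.reduceAdd, Complex.ofReal_neg, Complex.ofReal_mul, Complex.ofReal_ofNat]
  module

theorem c_cc_self (Q i j : ℕ) : cN Q i * (cN Q i * cN Q j) = 0 := by
  rw [← mul_assoc, cN_sq, zero_mul]

theorem c_cc_self' (Q i j : ℕ) : cN Q i * (cN Q j * cN Q i) = 0 := by
  rw [cN_anti' Q j i, mul_neg, c_cc_self, neg_zero]

theorem t00 (Q : ℕ) : T3 Q 0 0 = 0 := by
  unfold T3; rw [WN_zero, mul_smul_comm, c_cc_self', smul_zero]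

theorem t01 (Q : ℕ) : T3 Q 0 1 = 0 := by
  unfold T3; rw [WN_zero, mul_smul_comm, c_cc_self, smul_zero]

theorem t10 (Q : ℕ) : T3 Q 1 0 = 0 := by
  unfold T3; rw [WN_one, mul_smul_comm, c_cc_self', smul_zero]

theorem t12 (Q : ℕ) : T3 Q 1 2 = 0 := by
  unfold T3; rw [WN_one, mul_smul_comm, c_cc_self, smul_zero]

theorem v0_zero (Q : ℕ) (hQ : 1 ≤ Q) : v0 Q 0 = 1 := by
  have h1 := v0_eq Q 0 hQ
  have hQ0 : (1 : ℝ) ≤ (Q : ℝ) := by exact_mod_cast hQ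
  have h2 : nuQ Q 1 = 1 := by
    unfold nuQ
    rw [Nat.choose_one_right, pow_one, div_self (by positivity), Real.sqrt_one]
  have h3 : thQ Q 0 = 1 := by
    unfold thQ pairNorm
    rw [Real.sqrt_eq_one]
    have : (2 : ℝ) * Q - 1 ≠ 0 := by linarith
    rw [zero_add, Nat.choose_one_right, pow_one, Nat.cast_one, one_mul]
    push_cast
    field_simp
  rw [h1]
  simp [h2, h3]

theorem t21 (Q : ℕ) (hQ : 1 ≤ Q) : T3 Q 2 1 = -(((v0 Q 2 : ℝ) : ℂ) • T3 Q 0 3) := by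
  unfold T3
  rw [WN_two, WN_zero, v0_zero Q hQ, mul_add, mul_smul_comm, mul_smul_comm, c_cc_self', smul_zero,
    add_zero, Complex.ofReal_one, one_smul, ← mul_assoc, cN_anti' Q 1 3, neg_mul, smul_neg, mul_assoc]

theorem t30 (Q : ℕ) (hQ : 1 ≤ Q) : T3 Q 3 0 = ((v1 Q 3 : ℝ) : ℂ) • T3 Q 0 3 := by
  unfold T3
  rw [WN_three, WN_zero, v0_zero Q hQ, mul_add, mul_smul_comm, mul_smul_comm, c_cc_self', smul_zero,
    zero_add, Complex.ofReal_one, one_smul, ← mul_assoc, cN_anti' Q 0 3, neg_mul, mul_assoc,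
    cN_anti' Q 0 1, mul_neg, neg_neg]

theorem cc_cc_zero (Q i j k : ℕ) : (cN Q i * cN Q j) * (cN Q i * cN Q k) = 0 := by
  rw [mul_assoc, ← mul_assoc (cN Q j), cN_anti' Q j i, neg_mul, mul_neg, mul_assoc,
    ← mul_assoc (cN Q i) (cN Q i), cN_sq, zero_mul, neg_zero]

theorem cc_cc_zero' (Q i j k : ℕ) : (cN Q i * cN Q j) * (cN Q k * cN Q j) = 0 := by
  rw [cN_anti' Q i j, cN_anti' Q k j, neg_mul_neg, cc_cc_zero]

theorem f00 (Q : ℕ) : T4 Q 0 0 = 0 := by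
  unfold T4; rw [WN_zero, smul_mul_assoc, mul_smul_comm, cc_cc_zero, smul_zero, smul_zero]

theorem f11 (Q : ℕ) : T4 Q 1 1 = 0 := by
  unfold T4; rw [WN_one, smul_mul_assoc, mul_smul_comm, cc_cc_zero, smul_zero, smul_zero]

theorem f02 (Q : ℕ) : T4 Q 0 2 = 0 := by
  unfold T4
  rw [WN_zero, WN_two, mul_smul_comm, add_mul, smul_mul_assoc, smul_mul_assoc]
  have h1 : (cN Q 3 * cN Q 0) * (cN Q 1 * cN Q 0) = 0 := cc_cc_zero' Q 3 0 1
  have h2 : (cN Q 2 * cN Q 1) * (cN Q 1 * cN Q 0) = 0 := by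
    rw [mul_assoc, c_cc_self, mul_zero]
  rw [h1, h2]
  simp

/-- boundedness of a real sequence that converges -/
theorem bdd_of_tendsto {f : ℕ → ℝ} {x : ℝ} (h : Tendsto f atTop (𝓝 x)) :
    ∃ C, ∀ n, |f n| ≤ C := by
  obtain ⟨C, hC⟩ := (h.norm.bddAbove_range)
  exact ⟨C, fun n => hC ⟨n, rfl⟩⟩

theorem pv_bdd (q i j : ℕ) : ∃ C, ∀ Q, |pv Q q i j| ≤ C := by
  by_cases hij : i + j = q + 1
  · have hn : Real.sqrt 2 * Real.sqrt (2 ^ q / (q.factorial : ℝ)) ≠ 0 := by positivity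
    have h1 := (((nu_lim i).mul (nu_lim j)).const_mul ((j : ℝ) - i)).div
      ((th_lim q).const_mul (Real.sqrt 2)) hn
    refine bdd_of_tendsto (h1.congr' ?_)
    filter_upwards [eventually_ge_atTop 1] with Q hQ
    have hQ0 : (0 : ℝ) < (Q : ℝ) := by exact_mod_cast hQ
    simp only [Pi.div_apply]
    unfold pv nuQ thQ
    rw [if_pos hij, Real.sqrt_mul (by norm_num : (0 : ℝ) ≤ 2), Real.sqrt_div' _ (by positivity),
      Real.sqrt_div' _ (by positivity), Real.sqrt_div' _ (by positivity),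
      Real.sqrt_mul (by positivity)]
    have h1 : Real.sqrt ((Q : ℝ) ^ (q + 1)) = Real.sqrt ((Q : ℝ) ^ i) * Real.sqrt ((Q : ℝ) ^ j) := by
      rw [← Real.sqrt_mul (by positivity), ← pow_add, hij]
    have h2 : Real.sqrt ((Q : ℝ) ^ i) ≠ 0 := by positivity
    have h3 : Real.sqrt ((Q : ℝ) ^ j) ≠ 0 := by positivity
    rw [h1]
    by_cases h4 : Real.sqrt (pairNorm Q (q + 1)) = 0
    · rw [h4]; simp
    · have h5 : Real.sqrt 2 ≠ 0 := by positivity
      field_simp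
  · exact ⟨0, fun Q => by unfold pv; rw [if_neg hij]; simp⟩

theorem Wnorm (s : ℕ) : ∃ C : ℝ, ∀ Q : ℕ, ‖WN Q s‖ ≤ C := by
  choose C hC using fun i : ℕ => pv_bdd s i (s + 1 - i)
  refine ⟨(Real.sqrt 2)⁻¹ * ∑ i ∈ range (s + 2), C i, fun Q => ?_⟩
  rw [WN_eq_sum, norm_smul]
  have h0 : ‖((Real.sqrt 2 : ℂ)⁻¹)‖ = (Real.sqrt 2)⁻¹ := by
    rw [norm_inv, Complex.norm_real, Real.norm_of_nonneg (Real.sqrt_nonneg 2)]
  rw [h0]
  refine mul_le_mul_of_nonneg_left ?_ (by positivity)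
  refine (norm_sum_le _ _).trans (Finset.sum_le_sum fun i _ => ?_)
  rw [norm_smul, Complex.norm_real, Real.norm_eq_abs]
  have h1 : ‖cN Q (s + 1 - i) * cN Q i‖ ≤ 1 := by
    refine (norm_mul_le _ _).trans ?_
    have a1 := norm_cN_le Q (s + 1 - i)
    have a2 := norm_cN_le Q i
    have a3 := norm_nonneg (cN Q (s + 1 - i))
    have a4 := norm_nonneg (cN Q i)
    nlinarith
  have h2 := hC i Q
  have h3 := abs_nonneg (pv Q s i (s + 1 - i))
  calc |pv Q s i (s + 1 - i)| * ‖cN Q (s + 1 - i) * cN Q i‖ ≤ |pv Q s i (s + 1 - i)| * 1 :=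
        mul_le_mul_of_nonneg_left h1 h3
    _ ≤ C i := by rw [mul_one]; exact h2

end Crest.Agent.R340.Kn249
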