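import Crest.Agent.R340.GeoM_986
import Crest.Agent.R340.PD3_757

/-!
# R340, (TX) part 1 (helper880): the coefficients of the pair annihilators `Bg (nuT t Q) Q p`

`tail_le`: the part of `Bg` on the pairs with an orbital `< L`, `4 L ≤ p`, is small: for every `M`
`∑_{x ∈ pairs Q p, x.1 < L} |β x| ≤ K_M (sj p)⁻ᴹ`, uniformly in `Q`, `t`, `L`, `p`;
`sum_abs_le`: `∑_{x ∈ pairs Q p} |β x| ≤ sj p`.
-/

set_option autoImplicit false

namespace Crest.Agent.R340.TX880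

open Finset
open Crest.Agent.R340.Fock649 Crest.Agent.R340.Geo986
open Crest.Agent.R340.PV341 (Adm G G_pos half mem_half)
open Crest.Agent.R340.PD757 (sj sj_sq sj_pos one_le_sj)

/-! ### 1. one step of the ratio -/

theorem pow_ratio (τ x y : ℝ) (h1 : τ ≤ 1 / 2) (hy : 0 < y) (hyx : y ≤ x) :
    ((x + 1) ^ (-τ) * y ^ (-τ)) ^ 2 * ((x + 1) * y) ≤
      (x ^ (-τ) * (y + 1) ^ (-τ)) ^ 2 * (x * (y + 1)) := by
  have hx : 0 < x := by linarith
  have e1 : ((x + 1) ^ (-τ) * y ^ (-τ)) ^ 2 * ((x + 1) * y) = ((x + 1) * y) ^ (1 - 2 * τ) := by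
    have hp : 0 < (x + 1) * y := by positivity
    rw [← Real.mul_rpow (by linarith) hy.le, ← Real.rpow_natCast, ← Real.rpow_mul hp.le,
      ← Real.rpow_add_one hp.ne']
    congr 1
    push_cast
    ring
  have e2 : (x ^ (-τ) * (y + 1) ^ (-τ)) ^ 2 * (x * (y + 1)) = (x * (y + 1)) ^ (1 - 2 * τ) := by
    have hp : 0 < x * (y + 1) := by positivity
    rw [← Real.mul_rpow hx.le (by linarith), ← Real.rpow_natCast, ← Real.rpow_mul hp.le,
      ← Real.rpow_add_one hp.ne']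
    congr 1
    push_cast
    ring
  rw [e1, e2]
  apply Real.rpow_le_rpow (by positivity) _ (by linarith)
  nlinarith

theorem G_ratio {t : Fin 3 → ℝ} (ht : Adm t) {a b : ℕ} (hab : b ≤ a) :
    (G t (a + 1) * G t b) ^ 2 * (((b : ℝ) + 1) * (a + 4)) ≤
      (G t a * G t (b + 1)) ^ 2 * (((a : ℝ) + 1) * (b + 4)) := by
  have hb0 : (0 : ℝ) ≤ b := Nat.cast_nonneg b
  have hab' : (b : ℝ) ≤ a := by exact_mod_cast hab
  have h1 : ∏ k : Fin 3, ((((a + 1 : ℕ) : ℝ) + k + 1) ^ (-(t k)) * ((b : ℝ) + k + 1) ^ (-(t k))) ^ 2 *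
      ((((a + 1 : ℕ) : ℝ) + k + 1) * ((b : ℝ) + k + 1)) ≤
      ∏ k : Fin 3, (((a : ℝ) + k + 1) ^ (-(t k)) * (((b + 1 : ℕ) : ℝ) + k + 1) ^ (-(t k))) ^ 2 *
      (((a : ℝ) + k + 1) * (((b + 1 : ℕ) : ℝ) + k + 1)) := by
    refine Finset.prod_le_prod (fun k _ => by positivity) fun k _ => ?_
    have hk : (0 : ℝ) ≤ ((k : ℕ) : ℝ) := Nat.cast_nonneg _
    have := pow_ratio (t k) ((a : ℝ) + k + 1) ((b : ℝ) + k + 1) (ht k).2
      (by positivity) (by linarith)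
    push_cast
    have e1 : (a : ℝ) + 1 + k + 1 = a + k + 1 + 1 := by ring
    have e2 : (b : ℝ) + 1 + k + 1 = b + k + 1 + 1 := by ring
    rw [e1, e2]
    exact this
  have hp2 : ∀ f g : Fin 3 → ℝ, ∏ k, (f k ^ 2 * g k) = (∏ k, f k) ^ 2 * ∏ k, g k := by
    intro f g
    rw [Finset.prod_mul_distrib, Finset.prod_pow]
  rw [hp2, hp2] at h1
  have hL : ∏ k : Fin 3, ((((a + 1 : ℕ) : ℝ) + k + 1) * ((b : ℝ) + k + 1)) =
      (((b : ℝ) + 1) * (a + 4)) * (((a : ℝ) + 2) * (a + 3) * (b + 2) * (b + 3)) := by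
    rw [Fin.prod_univ_three]
    simp only [Fin.val_zero, Fin.val_one, Fin.val_two]
    push_cast
    ring
  have hR : ∏ k : Fin 3, (((a : ℝ) + k + 1) * (((b + 1 : ℕ) : ℝ) + k + 1)) =
      (((a : ℝ) + 1) * (b + 4)) * (((a : ℝ) + 2) * (a + 3) * (b + 2) * (b + 3)) := by
    rw [Fin.prod_univ_three]
    simp only [Fin.val_zero, Fin.val_one, Fin.val_two]
    push_cast
    ring
  have hG1 : ∏ k : Fin 3, ((((a + 1 : ℕ) : ℝ) + k + 1) ^ (-(t k)) * ((b : ℝ) + k + 1) ^ (-(t k))) =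
      G t (a + 1) * G t b := by
    rw [Finset.prod_mul_distrib]; rfl
  have hG2 : ∏ k : Fin 3, (((a : ℝ) + k + 1) ^ (-(t k)) * (((b + 1 : ℕ) : ℝ) + k + 1) ^ (-(t k))) =
      G t a * G t (b + 1) := by
    rw [Finset.prod_mul_distrib]; rfl
  rw [hL, hR, hG1, hG2] at h1
  have hW : 0 < ((a : ℝ) + 2) * (a + 3) * (b + 2) * (b + 3) := by positivity
  refine le_of_mul_le_mul_right ?_ hW
  linarith [h1]

/-- `1 / ν_j²` -/
theorem inv_nuT_sq (t : Fin 3 → ℝ) {Q j : ℕ} (_hj : j ≤ Q) :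
    ((nuT t Q j) ^ 2)⁻¹ = (Q.choose j : ℝ) * G t (Q - j) ^ 2 := by
  have h0 : (0 : ℝ) ≤ (Q.choose j : ℝ) := Nat.cast_nonneg _
  have hG := G_pos t (Q - j)
  simp only [nuT, nu0, Pi.mul_apply, Pi.inv_apply]
  rw [mul_pow, inv_pow, inv_pow, Real.sq_sqrt h0, mul_inv, inv_inv, inv_inv]

/-- the squared coefficient -/
theorem bcoef_sq (t : Fin 3 → ℝ) {Q i j : ℕ} (hi : i ≤ Q) (hj : j ≤ Q) :
    bcoef (nuT t Q) i j ^ 2 = ((j : ℝ) - i) ^ 2 *
      (((Q.choose i : ℝ) * G t (Q - i) ^ 2) * ((Q.choose j : ℝ) * G t (Q - j) ^ 2)) := by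
  rw [← inv_nuT_sq t hi, ← inv_nuT_sq t hj]
  unfold bcoef
  rw [div_pow, mul_pow, div_eq_mul_inv, mul_inv]

/-- **one step**: for `3 (i+1) ≤ p`, `27 ≤ p`, the squared coefficient increases by `4/3`. -/
theorem step_ratio {t : Fin 3 → ℝ} (ht : Adm t) {Q p i : ℕ} (hp : 27 ≤ p) (hi : 3 * (i + 1) ≤ p)
    (hpQ : p - i ≤ Q) :
    bcoef (nuT t Q) i (p - i) ^ 2 ≤ 3 / 4 * bcoef (nuT t Q) (i + 1) (p - (i + 1)) ^ 2 := by
  have hiQ : i + 1 ≤ Q := by omega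
  rw [bcoef_sq t (by omega) hpQ, bcoef_sq t hiQ (by omega)]
  obtain ⟨b, hb⟩ : ∃ b, Q = p - i + b := ⟨Q - (p - i), by omega⟩
  obtain ⟨a, ha⟩ : ∃ a, Q = i + 1 + a := ⟨Q - (i + 1), by omega⟩
  have hab : b ≤ a := by omega
  have e1 : Q - i = a + 1 := by omega
  have e2 : Q - (p - i) = b := by omega
  have e3 : Q - (i + 1) = a := by omega
  have e4 : Q - (p - (i + 1)) = b + 1 := by omega
  rw [e1, e2, e3, e4]
  -- the binomials
  have c1 : (Q.choose i : ℝ) * (a + 1) = (Q.choose (i + 1) : ℝ) * (i + 1) := by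
    have h := Nat.choose_succ_right_eq Q i
    rw [e1] at h
    exact_mod_cast h.symm
  have c2 : (Q.choose (p - i) : ℝ) * (p - i : ℕ) = (Q.choose (p - (i + 1)) : ℝ) * (b + 1) := by
    have h := Nat.choose_succ_right_eq Q (p - (i + 1))
    rw [e4, show p - (i + 1) + 1 = p - i by omega] at h
    exact_mod_cast h
  have hGr := G_ratio ht hab
  have hpi : ((p - i : ℕ) : ℝ) = (p : ℝ) - i := Nat.cast_sub (by omega)
  have hpi' : ((p - (i + 1) : ℕ) : ℝ) = (p : ℝ) - (i + 1) := by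
    rw [Nat.cast_sub (by omega)]; push_cast; ring
  have h3 : 3 * ((i : ℝ) + 1) ≤ p := by exact_mod_cast hi
  have h27 : (27 : ℝ) ≤ p := by exact_mod_cast hp
  have hi0 : (0 : ℝ) ≤ i := Nat.cast_nonneg i
  have ha0 : (0 : ℝ) ≤ a := Nat.cast_nonneg a
  have hb0 : (0 : ℝ) ≤ b := Nat.cast_nonneg b
  have habr : (b : ℝ) ≤ a := by exact_mod_cast hab
  rw [hpi] at c2
  rw [hpi, hpi']
  push_cast
  set A := (Q.choose i : ℝ)
  set A' := (Q.choose (i + 1) : ℝ)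
  set B := (Q.choose (p - i) : ℝ)
  set B' := (Q.choose (p - (i + 1)) : ℝ)
  have hA' : 0 ≤ A' := Nat.cast_nonneg _
  have hB' : 0 ≤ B' := Nat.cast_nonneg _
  -- A B = A' B' (i+1)(b+1)/((a+1)(p-i))
  have hAB : A * B * (((a : ℝ) + 1) * (p - i)) = A' * B' * (((i : ℝ) + 1) * (b + 1)) := by
    calc A * B * (((a : ℝ) + 1) * (p - i)) = (A * (a + 1)) * (B * (p - i)) := by ring
      _ = _ := by rw [c1, c2]; ring
  set g := (G t (a + 1) * G t b) ^ 2 with hg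
  set g' := (G t a * G t (b + 1)) ^ 2 with hg'
  have hg0 : 0 ≤ g := sq_nonneg _
  have hg0' : 0 ≤ g' := sq_nonneg _
  have eL : ((p : ℝ) - i - i) ^ 2 * (A * G t (a + 1) ^ 2 * (B * G t b ^ 2)) =
      ((p : ℝ) - i - i) ^ 2 * (A * B * g) := by rw [hg]; ring
  have eR : 3 / 4 * (((p : ℝ) - (i + 1) - (i + 1)) ^ 2 *
      (A' * G t a ^ 2 * (B' * G t (b + 1) ^ 2))) =
      3 / 4 * ((p : ℝ) - (i + 1) - (i + 1)) ^ 2 * (A' * B' * g') := by rw [hg']; ring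
  rw [eL, eR]
  -- multiply by D = (a+1)(p-i)(a+4)
  have hD : 0 < ((a : ℝ) + 1) * (p - i) * (a + 4) := by
    have : 0 < (p : ℝ) - i := by linarith
    positivity
  refine le_of_mul_le_mul_right ?_ hD
  have s1 : A * B * g * (((a : ℝ) + 1) * (p - i) * (a + 4)) ≤
      A' * B' * g' * (((i : ℝ) + 1) * (a + 1) * (b + 4)) := by
    calc A * B * g * (((a : ℝ) + 1) * (p - i) * (a + 4))
        = (A * B * (((a : ℝ) + 1) * (p - i))) * (g * (a + 4)) := by ring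
      _ = A' * B' * ((i : ℝ) + 1) * (g * ((b + 1) * (a + 4))) := by rw [hAB]; ring
      _ ≤ A' * B' * ((i : ℝ) + 1) * (g' * ((a + 1) * (b + 4))) := by gcongr
      _ = _ := by ring
  have s2 : ((p : ℝ) - i - i) ^ 2 * (((i : ℝ) + 1) * (a + 1) * (b + 4)) ≤
      3 / 4 * ((p : ℝ) - (i + 1) - (i + 1)) ^ 2 * (((a : ℝ) + 1) * (p - i) * (a + 4)) := by
    have hx : 9 ≤ (p : ℝ) - (i + 1) - (i + 1) := by linarith
    set x := (p : ℝ) - (i + 1) - (i + 1) with hxd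
    have ex : (p : ℝ) - i - i = x + 2 := by rw [hxd]; ring
    rw [ex]
    have q1 : (x + 2) ^ 2 ≤ 3 / 2 * x ^ 2 := by nlinarith
    have q2 : (i : ℝ) + 1 ≤ 1 / 2 * ((p : ℝ) - i) := by linarith
    have q4 : 0 ≤ (p : ℝ) - i := by linarith
    have q3 : ((i : ℝ) + 1) * (a + 1) * (b + 4) ≤ (1 / 2 * ((p : ℝ) - i)) * (a + 1) * (a + 4) := by
      gcongr
    calc (x + 2) ^ 2 * (((i : ℝ) + 1) * (a + 1) * (b + 4))
        ≤ (3 / 2 * x ^ 2) * ((1 / 2 * ((p : ℝ) - i)) * (a + 1) * (a + 4)) := by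
          apply mul_le_mul q1 q3 (by positivity) (by positivity)
      _ = _ := by ring
  calc ((p : ℝ) - i - i) ^ 2 * (A * B * g) * (((a : ℝ) + 1) * (p - i) * (a + 4))
      = ((p : ℝ) - i - i) ^ 2 * (A * B * g * (((a : ℝ) + 1) * (p - i) * (a + 4))) := by ring
    _ ≤ ((p : ℝ) - i - i) ^ 2 * (A' * B' * g' * (((i : ℝ) + 1) * (a + 1) * (b + 4))) := by gcongr
    _ = A' * B' * g' * (((p : ℝ) - i - i) ^ 2 * (((i : ℝ) + 1) * (a + 1) * (b + 4))) := by ring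
    _ ≤ A' * B' * g' * (3 / 4 * ((p : ℝ) - (i + 1) - (i + 1)) ^ 2 *
        (((a : ℝ) + 1) * (p - i) * (a + 4))) := by gcongr
    _ = _ := by ring

/-! ### 2. the far pairs -/

theorem steps_ratio {t : Fin 3 → ℝ} (ht : Adm t) {Q p i : ℕ} (hp : 27 ≤ p) (hpQ : p - i ≤ Q)
    (n : ℕ) (hi : 3 * (i + n) ≤ p) :
    bcoef (nuT t Q) i (p - i) ^ 2 ≤ (3 / 4) ^ n * bcoef (nuT t Q) (i + n) (p - (i + n)) ^ 2 := by
  induction n with
  | zero => simp
  | succ n ih =>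
    refine (ih (by omega)).trans ?_
    rw [pow_succ (3 / 4 : ℝ) n, mul_assoc]
    apply mul_le_mul_of_nonneg_left _ (by positivity)
    exact step_ratio ht hp (by omega) (by omega)

/-- normalised coefficients of `Bg ν Q p` -/
noncomputable def be (ν : ℕ → ℝ) (Q p : ℕ) (x : Fin (Q + 1) × Fin (Q + 1)) : ℝ :=
  (√(nz ν Q p))⁻¹ * bcoef ν x.1 x.2

theorem Bg_eq (ν : ℕ → ℝ) (Q p : ℕ) :
    Bg ν Q p = ∑ x ∈ pairs Q p, ((be ν Q p x : ℝ) : ℂ) • (c x.2 * c x.1) := by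
  unfold Bg bz be
  rw [Finset.smul_sum]
  refine Finset.sum_congr rfl fun x _ => ?_
  rw [smul_smul, ← Complex.ofReal_mul]

theorem sum_be_sq_le (ν : ℕ → ℝ) (Q p : ℕ) : ∑ x ∈ pairs Q p, be ν Q p x ^ 2 ≤ 1 := by
  unfold be
  simp only [mul_pow]
  rw [← Finset.mul_sum]
  have h0 := nz_nonneg ν Q p
  change ((√(nz ν Q p))⁻¹) ^ 2 * nz ν Q p ≤ 1
  rw [inv_pow, Real.sq_sqrt h0]
  exact inv_mul_le_one

theorem be_sq_le_one {ν : ℕ → ℝ} {Q p : ℕ} {x : Fin (Q + 1) × Fin (Q + 1)} (hx : x ∈ pairs Q p) :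
    be ν Q p x ^ 2 ≤ 1 :=
  (Finset.single_le_sum (f := fun x => be ν Q p x ^ 2) (fun _ _ => sq_nonneg _) hx).trans
    (sum_be_sq_le ν Q p)

theorem card_pairs_le (Q p : ℕ) : (pairs Q p).card ≤ p + 1 := by
  have h : (pairs Q p).card ≤ (Finset.range (p + 1)).card := by
    refine Finset.card_le_card_of_injOn (fun x => (x.1 : ℕ)) ?_ ?_
    · intro x hx
      have h2 := (mem_pairs.1 hx).2
      simp only [Finset.coe_range, Set.mem_Iio]
      omega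
    · intro x hx y hy h
      have hx2 := (mem_pairs.1 hx).2
      have hy2 := (mem_pairs.1 hy).2
      simp only at h
      refine Prod.ext (Fin.ext h) (Fin.ext ?_)
      omega
  rwa [Finset.card_range] at h

theorem sum_abs_le (ν : ℕ → ℝ) (Q p : ℕ) : ∑ x ∈ pairs Q p, |be ν Q p x| ≤ sj p := by
  have h1 : (∑ x ∈ pairs Q p, |be ν Q p x|) ^ 2 ≤ (pairs Q p).card * ∑ x ∈ pairs Q p, |be ν Q p x| ^ 2 :=
    sq_sum_le_card_mul_sum_sq
  simp only [sq_abs] at h1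
  have h2 := sum_be_sq_le ν Q p
  have h3 : ((pairs Q p).card : ℝ) ≤ p + 1 := by exact_mod_cast card_pairs_le Q p
  have h4 : 0 ≤ ∑ x ∈ pairs Q p, be ν Q p x ^ 2 := Finset.sum_nonneg fun _ _ => sq_nonneg _
  apply Real.le_sqrt_of_sq_le
  calc _ ≤ ((pairs Q p).card : ℝ) * ∑ x ∈ pairs Q p, be ν Q p x ^ 2 := h1
    _ ≤ ((p : ℝ) + 1) * 1 := by gcongr
    _ = 1 + p := by ring

/-- a coefficient far from the diagonal is exponentially small -/
theorem be_far {t : Fin 3 → ℝ} (ht : Adm t) {Q p L : ℕ} (hp : 27 ≤ p) (hL : 4 * L ≤ p)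
    {x : Fin (Q + 1) × Fin (Q + 1)} (hx : x ∈ pairs Q p) (hxL : (x.1 : ℕ) < L) :
    |be (nuT t Q) Q p x| ≤ (7 / 8) ^ (p / 3 - p / 4 + 1) := by
  obtain ⟨hx1, hx2⟩ := mem_pairs.1 hx
  have hx1' : (x.1 : ℕ) < x.2 := hx1
  set i := (x.1 : ℕ) with hi
  set n := p / 3 - p / 4 + 1 with hn
  have hx2' : (x.2 : ℕ) = p - i := by omega
  have hQ2 := x.2.isLt
  have h1 := steps_ratio ht hp (i := i) (Q := Q) (by omega) n (by omega)
  -- the pair `i + n`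
  have hy : ((⟨i + n, by omega⟩, ⟨p - (i + n), by omega⟩) : Fin (Q + 1) × Fin (Q + 1)) ∈
      pairs Q p := by
    refine mem_pairs.2 ⟨?_, ?_⟩
    · show i + n < p - (i + n)
      omega
    · show i + n + (p - (i + n)) = p
      omega
  have h2 := be_sq_le_one (ν := nuT t Q) hy
  have h3 : be (nuT t Q) Q p x ^ 2 ≤ (3 / 4) ^ n := by
    unfold be at h2 ⊢
    rw [mul_pow] at h2 ⊢
    rw [← hi, hx2']
    calc ((√(nz (nuT t Q) Q p))⁻¹) ^ 2 * bcoef (nuT t Q) i (p - i) ^ 2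
        ≤ ((√(nz (nuT t Q) Q p))⁻¹) ^ 2 *
          ((3 / 4) ^ n * bcoef (nuT t Q) (i + n) (p - (i + n)) ^ 2) := by gcongr
      _ = (3 / 4) ^ n * (((√(nz (nuT t Q) Q p))⁻¹) ^ 2 *
          bcoef (nuT t Q) (i + n) (p - (i + n)) ^ 2) := by ring
      _ ≤ (3 / 4) ^ n * 1 := by gcongr
      _ = _ := mul_one _
  apply abs_le_of_sq_le_sq _ (by positivity)
  refine h3.trans ?_
  rw [← pow_mul, mul_comm, pow_mul]
  gcongr
  norm_num

/-- constant of `tail_le` -/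
theorem exists_tail_const (M : ℕ) : ∃ K : ℝ, 1 ≤ K ∧ ∀ p : ℕ,
    ((p : ℝ) + 1) * (7 / 8) ^ (p / 3 - p / 4 + 1) * sj p ^ M ≤ K := by
  have h := tendsto_pow_const_mul_const_pow_of_abs_lt_one (M + 1) (r := (7 / 8 : ℝ))
    (by rw [abs_of_pos (by norm_num)]; norm_num)
  obtain ⟨K, hK⟩ := h.bddAbove_range
  have hK' : ∀ n : ℕ, (n : ℝ) ^ (M + 1) * (7 / 8 : ℝ) ^ n ≤ K := fun n => hK ⟨n, rfl⟩
  refine ⟨max 1 (13 ^ (M + 1) * K), le_max_left _ _, fun p => ?_⟩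
  refine le_trans ?_ (le_max_right _ _)
  set n := p / 3 - p / 4 + 1 with hn
  have h1 : (p : ℝ) + 1 ≤ 13 * n := by
    have : p + 1 ≤ 13 * n := by omega
    exact_mod_cast this
  have h2 : sj p ≤ 13 * n := by
    have h3 := one_le_sj p
    have h4 := sj_sq p
    nlinarith
  have h0 := (sj_pos p).le
  calc ((p : ℝ) + 1) * (7 / 8) ^ n * sj p ^ M ≤ (13 * n) * (7 / 8) ^ n * (13 * n) ^ M := by gcongr
    _ = 13 ^ (M + 1) * ((n : ℝ) ^ (M + 1) * (7 / 8 : ℝ) ^ n) := by ring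
    _ ≤ _ := by
      apply mul_le_mul_of_nonneg_left (hK' n) (by positivity)

/-- **the far part of the pair annihilators** -/
theorem exists_tail (M : ℕ) : ∃ K : ℝ, 1 ≤ K ∧ ∀ (t : Fin 3 → ℝ), Adm t → ∀ Q p L : ℕ, 4 * L ≤ p →
    ∑ x ∈ (pairs Q p).filter (fun x => (x.1 : ℕ) < L), |be (nuT t Q) Q p x| ≤
      K * ((sj p)⁻¹) ^ M := by
  obtain ⟨K, hK1, hK⟩ := exists_tail_const M
  refine ⟨max K (28 * 6 ^ M), hK1.trans (le_max_left _ _), fun t ht Q p L hL => ?_⟩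
  have hs := sj_pos p
  rw [inv_pow, ← div_eq_mul_inv, le_div_iff₀ (by positivity)]
  have hcard : (((pairs Q p).filter (fun x => (x.1 : ℕ) < L)).card : ℝ) ≤ p + 1 := by
    have h1 := Finset.card_filter_le (pairs Q p) (fun x => (x.1 : ℕ) < L)
    have h2 := h1.trans (card_pairs_le Q p)
    exact_mod_cast h2
  rcases Nat.lt_or_ge p 27 with hp | hp
  · refine le_trans ?_ (le_max_right _ _)
    have hp' : (p : ℝ) + 1 ≤ 28 := by
      have : p + 1 ≤ 28 := by omega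
      exact_mod_cast this
    have h6 : sj p ≤ 6 := by
      have := sj_sq p
      nlinarith
    have h1 : ∑ x ∈ (pairs Q p).filter (fun x => (x.1 : ℕ) < L), |be (nuT t Q) Q p x| ≤
        ∑ x ∈ (pairs Q p).filter (fun x => (x.1 : ℕ) < L), (1 : ℝ) := by
      refine Finset.sum_le_sum fun x hx => ?_
      have := be_sq_le_one (ν := nuT t Q) (Finset.mem_filter.1 hx).1
      exact abs_le_of_sq_le_sq (by rwa [one_pow]) zero_le_one
    rw [Finset.sum_const, nsmul_eq_mul, mul_one] at h1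
    calc _ ≤ (28 : ℝ) * 6 ^ M := by
          apply mul_le_mul (h1.trans (hcard.trans hp')) (by gcongr) (by positivity) (by norm_num)
      _ = _ := rfl
  · refine le_trans ?_ (le_max_left _ _)
    refine le_trans ?_ (hK p)
    apply mul_le_mul_of_nonneg_right _ (by positivity)
    have h1 : ∑ x ∈ (pairs Q p).filter (fun x => (x.1 : ℕ) < L), |be (nuT t Q) Q p x| ≤
        ∑ x ∈ (pairs Q p).filter (fun x => (x.1 : ℕ) < L), (7 / 8 : ℝ) ^ (p / 3 - p / 4 + 1) := by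
      refine Finset.sum_le_sum fun x hx => ?_
      exact be_far ht hp hL (Finset.mem_filter.1 hx).1 (Finset.mem_filter.1 hx).2
    rw [Finset.sum_const, nsmul_eq_mul] at h1
    exact h1.trans (by gcongr)

end Crest.Agent.R340.TX880
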