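import Mathlib

/-!
# R340 (helper565), thinning 1: the single mode loss maps of a CAR family

`c : ι → 𝒜` satisfies the CAR in a unital C*-algebra.  For real `t`,
`phi i t A = K A K + (1 - t²) c* A c` with `K = 1 - (1 - t) c* c` (`= t ^ n`).
-/

set_option autoImplicit false
set_option linter.unusedSectionVars false

open scoped ComplexOrder

namespace Crest.Agent.R340.Thin565

/-- canonical anticommutation relations -/
structure CARel {𝒜 : Type*} [Ring 𝒜] [StarRing 𝒜] {ι : Type*} [DecidableEq ι]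
    (c : ι → 𝒜) : Prop where
  anti : ∀ i j, c i * c j + c j * c i = 0
  canti : ∀ i j, c i * star (c j) + star (c j) * c i = if i = j then 1 else 0

section alg

variable {𝒜 : Type*} [Ring 𝒜] [StarRing 𝒜] [Algebra ℂ 𝒜] [StarModule ℂ 𝒜]
variable {ι : Type*} [DecidableEq ι] {c : ι → 𝒜}

/-- the number operator of one mode -/
def nn (c : ι → 𝒜) (i : ι) : 𝒜 := star (c i) * c i

/-- `t ^ n` -/
noncomputable def KK (c : ι → 𝒜) (i : ι) (t : ℝ) : 𝒜 := 1 - ((1 - t : ℝ) : ℂ) • nn c i

lemma CARel.swap (hc : CARel c) (i j : ι) : c i * c j = -(c j * c i) :=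
  eq_neg_of_add_eq_zero_left (hc.anti i j)

lemma CARel.sq (hc : CARel c) (i : ι) : c i * c i = 0 := by
  have h := hc.anti i i
  have h2 : (2 : ℂ) • (c i * c i) = 0 := by rw [two_smul]; exact h
  have h3 := congrArg (fun x => (2 : ℂ)⁻¹ • x) h2
  simpa [smul_smul] using h3

lemma CARel.star_swap (hc : CARel c) (i j : ι) :
    star (c i) * star (c j) = -(star (c j) * star (c i)) := by
  rw [← star_mul, ← star_mul, hc.swap j i, star_neg]

lemma CARel.star_sq (hc : CARel c) (i : ι) : star (c i) * star (c i) = 0 := by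
  rw [← star_mul, hc.sq, star_zero]

lemma CARel.self (hc : CARel c) (i : ι) : c i * star (c i) = 1 - star (c i) * c i := by
  have h := hc.canti i i
  rw [if_pos rfl] at h
  exact eq_sub_of_add_eq h

lemma CARel.ne (hc : CARel c) {i j : ι} (h : i ≠ j) :
    c i * star (c j) = -(star (c j) * c i) := by
  have h1 := hc.canti i j
  rw [if_neg h] at h1
  exact eq_neg_of_add_eq_zero_left h1

lemma CARel.ne' (hc : CARel c) {i j : ι} (h : i ≠ j) :
    star (c j) * c i = -(c i * star (c j)) := by
  rw [hc.ne h, neg_neg]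

lemma CARel.nn_mul (hc : CARel c) (i : ι) : nn c i * c i = 0 := by
  unfold nn; rw [mul_assoc, hc.sq, mul_zero]

lemma CARel.mul_nn (hc : CARel c) (i : ι) : c i * nn c i = c i := by
  unfold nn
  rw [← mul_assoc, hc.self, sub_mul, one_mul, mul_assoc, hc.sq, mul_zero, sub_zero]

lemma star_nn (c : ι → 𝒜) (i : ι) : star (nn c i) = nn c i := by
  unfold nn; rw [star_mul, star_star]

lemma CARel.star_mul_nn (hc : CARel c) (i : ι) : star (c i) * nn c i = 0 := by
  rw [← star_nn, ← star_mul, hc.nn_mul, star_zero]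

lemma CARel.nn_mul_star (hc : CARel c) (i : ι) : nn c i * star (c i) = star (c i) := by
  rw [← star_nn, ← star_mul, hc.mul_nn]

lemma CARel.nn_sq (hc : CARel c) (i : ι) : nn c i * nn c i = nn c i := by
  conv_lhs => rw [show nn c i = star (c i) * c i from rfl, mul_assoc, ← nn, hc.mul_nn]
  rfl

lemma CARel.nn_comm (hc : CARel c) {i j : ι} (h : i ≠ j) : nn c i * c j = c j * nn c i := by
  unfold nn
  rw [mul_assoc, hc.swap i j, mul_neg, ← mul_assoc, ← neg_mul, ← hc.ne h.symm, mul_assoc]

lemma CARel.nn_comm_star (hc : CARel c) {i j : ι} (h : i ≠ j) :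
    nn c i * star (c j) = star (c j) * nn c i := by
  have := congrArg star (hc.nn_comm h)
  rw [star_mul, star_mul, star_nn] at this
  exact this.symm

lemma CARel.nn_comm_nn (hc : CARel c) (i j : ι) : nn c i * nn c j = nn c j * nn c i := by
  by_cases h : i = j
  · rw [h]
  · rw [show nn c j = star (c j) * c j from rfl, ← mul_assoc, hc.nn_comm_star h, mul_assoc,
      hc.nn_comm h, mul_assoc]

lemma star_KK (c : ι → 𝒜) (i : ι) (t : ℝ) : star (KK c i t) = KK c i t := by
  unfold KK
  rw [star_sub, star_one, star_smul, star_nn]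
  simp

lemma CARel.KK_mul (hc : CARel c) (i : ι) (s t : ℝ) :
    KK c i s * KK c i t = KK c i (s * t) := by
  unfold KK
  rw [sub_mul, one_mul, smul_mul_assoc, mul_sub, mul_one, mul_smul_comm, hc.nn_sq, smul_sub,
    smul_smul]
  have : ((1 - s * t : ℝ) : ℂ) = ((1 - t : ℝ) : ℂ) + (((1 - s : ℝ) : ℂ)
      - ((1 - s : ℝ) : ℂ) * ((1 - t : ℝ) : ℂ)) := by push_cast; ring
  rw [this, add_smul, sub_smul]
  abel

lemma CARel.KK_mul_c (hc : CARel c) (i : ι) (t : ℝ) : KK c i t * c i = c i := by
  unfold KK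
  rw [sub_mul, one_mul, smul_mul_assoc, hc.nn_mul, smul_zero, sub_zero]

lemma CARel.c_mul_KK (hc : CARel c) (i : ι) (t : ℝ) : c i * KK c i t = (t : ℂ) • c i := by
  unfold KK
  rw [mul_sub, mul_one, mul_smul_comm, hc.mul_nn]
  nth_rewrite 1 [← one_smul ℂ (c i)]
  rw [← sub_smul]
  congr 1
  push_cast; ring

lemma CARel.star_mul_KK (hc : CARel c) (i : ι) (t : ℝ) : star (c i) * KK c i t = star (c i) := by
  rw [← star_KK, ← star_mul, hc.KK_mul_c]

lemma CARel.KK_mul_star (hc : CARel c) (i : ι) (t : ℝ) :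
    KK c i t * star (c i) = (t : ℂ) • star (c i) := by
  rw [← star_KK, ← star_mul, hc.c_mul_KK, star_smul]
  simp

lemma CARel.KK_comm (hc : CARel c) {i j : ι} (h : i ≠ j) (t : ℝ) :
    KK c i t * c j = c j * KK c i t := by
  unfold KK
  rw [sub_mul, mul_sub, one_mul, mul_one, smul_mul_assoc, mul_smul_comm, hc.nn_comm h]

lemma CARel.KK_comm_star (hc : CARel c) {i j : ι} (h : i ≠ j) (t : ℝ) :
    KK c i t * star (c j) = star (c j) * KK c i t := by
  unfold KK
  rw [sub_mul, mul_sub, one_mul, mul_one, smul_mul_assoc, mul_smul_comm, hc.nn_comm_star h]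

lemma CARel.KK_comm_KK (hc : CARel c) (i j : ι) (s t : ℝ) :
    KK c i s * KK c j t = KK c j t * KK c i s := by
  unfold KK
  simp only [sub_mul, mul_sub, one_mul, mul_one, smul_mul_assoc, mul_smul_comm,
    hc.nn_comm_nn i j, smul_sub]
  rw [smul_comm]
  abel

lemma CARel.KK_sq (hc : CARel c) (i : ι) (t : ℝ) :
    KK c i t * KK c i t = 1 - ((1 - t ^ 2 : ℝ) : ℂ) • nn c i := by
  rw [hc.KK_mul]
  unfold KK
  rw [pow_two]

/-- `A ↦ c* A c` -/
def TT (c : ι → 𝒜) (i : ι) : Module.End ℂ 𝒜 where
  toFun A := star (c i) * A * c i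
  map_add' A B := by rw [mul_add, add_mul]
  map_smul' r A := by simp

/-- `A ↦ G A G` -/
def Ad (G : 𝒜) : Module.End ℂ 𝒜 where
  toFun A := G * A * G
  map_add' A B := by rw [mul_add, add_mul]
  map_smul' r A := by simp

@[simp] lemma TT_apply (c : ι → 𝒜) (i : ι) (A : 𝒜) : TT c i A = star (c i) * A * c i := rfl

@[simp] lemma Ad_apply (G A : 𝒜) : Ad G A = G * A * G := rfl

/-- the second factor of the single mode loss map -/
noncomputable def th (c : ι → 𝒜) (i : ι) (t : ℝ) : Module.End ℂ 𝒜 :=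
  1 + ((1 - t ^ 2 : ℝ) : ℂ) • TT c i

/-- the single mode loss map -/
noncomputable def phi (c : ι → 𝒜) (i : ι) (t : ℝ) : Module.End ℂ 𝒜 :=
  th c i t * Ad (KK c i t)

lemma th_apply (c : ι → 𝒜) (i : ι) (t : ℝ) (A : 𝒜) :
    th c i t A = A + ((1 - t ^ 2 : ℝ) : ℂ) • (star (c i) * A * c i) := rfl

lemma CARel.phi_apply (hc : CARel c) (i : ι) (t : ℝ) (A : 𝒜) :
    phi c i t A = KK c i t * A * KK c i t + ((1 - t ^ 2 : ℝ) : ℂ) • (star (c i) * A * c i) := by
  show KK c i t * A * KK c i t + ((1 - t ^ 2 : ℝ) : ℂ) •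
    (star (c i) * (KK c i t * A * KK c i t) * c i) = _
  congr 2
  rw [← mul_assoc, ← mul_assoc, hc.star_mul_KK, mul_assoc, hc.KK_mul_c]

/-! ### commutation of different modes -/

lemma CARel.TT_comm_TT (hc : CARel c) {i j : ι} (_h : i ≠ j) : Commute (TT c i) (TT c j) := by
  apply LinearMap.ext
  intro A
  show star (c i) * (star (c j) * A * c j) * c i = star (c j) * (star (c i) * A * c i) * c j
  have h1 : star (c i) * (star (c j) * A * c j) * c i
      = (star (c i) * star (c j)) * A * (c j * c i) := by noncomm_ring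
  have h2 : star (c j) * (star (c i) * A * c i) * c j
      = (star (c j) * star (c i)) * A * (c i * c j) := by noncomm_ring
  rw [h1, h2, hc.star_swap i j, hc.swap j i]
  noncomm_ring

lemma CARel.Ad_comm_TT (hc : CARel c) {i j : ι} (h : i ≠ j) (t : ℝ) :
    Commute (Ad (KK c i t)) (TT c j) := by
  apply LinearMap.ext
  intro A
  show KK c i t * (star (c j) * A * c j) * KK c i t = star (c j) * (KK c i t * A * KK c i t) * c j
  have h1 : KK c i t * (star (c j) * A * c j) * KK c i t
      = (KK c i t * star (c j)) * A * (c j * KK c i t) := by noncomm_ring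
  rw [h1, hc.KK_comm_star h, ← hc.KK_comm h]
  noncomm_ring

lemma CARel.Ad_comm_Ad (hc : CARel c) (i j : ι) (s t : ℝ) :
    Commute (Ad (KK c i s)) (Ad (KK c j t)) := by
  apply LinearMap.ext
  intro A
  show KK c i s * (KK c j t * A * KK c j t) * KK c i s
    = KK c j t * (KK c i s * A * KK c i s) * KK c j t
  have h1 : KK c i s * (KK c j t * A * KK c j t) * KK c i s
      = (KK c i s * KK c j t) * A * (KK c j t * KK c i s) := by noncomm_ring
  rw [h1, hc.KK_comm_KK i j]
  have h2 : KK c j t * (KK c i s * A * KK c i s) * KK c j t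
      = (KK c j t * KK c i s) * A * (KK c i s * KK c j t) := by noncomm_ring
  rw [h2, hc.KK_comm_KK i j]

lemma CARel.th_comm_th (hc : CARel c) {i j : ι} (h : i ≠ j) (s t : ℝ) :
    Commute (th c i s) (th c j t) := by
  unfold th
  exact (((Commute.one_left _).add_left
    ((Commute.one_right _).add_right ((hc.TT_comm_TT h).smul_left _ |>.smul_right _))))

lemma CARel.Ad_comm_th (hc : CARel c) {i j : ι} (h : i ≠ j) (s t : ℝ) :
    Commute (Ad (KK c i s)) (th c j t) := by
  unfold th
  exact (Commute.one_right _).add_right ((hc.Ad_comm_TT h s).smul_right _)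

lemma CARel.phi_comm_phi (hc : CARel c) {i j : ι} (h : i ≠ j) (s t : ℝ) :
    Commute (phi c i s) (phi c j t) := by
  unfold phi
  exact ((hc.th_comm_th h s t).mul_right (hc.Ad_comm_th h.symm t s).symm).mul_left
    ((hc.Ad_comm_th h s t).mul_right (hc.Ad_comm_Ad i j s t))

/-- semigroup law of one mode -/
lemma CARel.phi_mul (hc : CARel c) (i : ι) (s t : ℝ) :
    phi c i s * phi c i t = phi c i (s * t) := by
  apply LinearMap.ext
  intro A
  show phi c i s (phi c i t A) = _
  rw [hc.phi_apply i s, hc.phi_apply i t, hc.phi_apply i (s * t)]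
  have h1 : KK c i s * (KK c i t * A * KK c i t + ((1 - t ^ 2 : ℝ) : ℂ) •
      (star (c i) * A * c i)) * KK c i s
      = (KK c i s * KK c i t) * A * (KK c i t * KK c i s)
        + ((1 - t ^ 2 : ℝ) : ℂ) • ((KK c i s * star (c i)) * A * (c i * KK c i s)) := by
    rw [mul_add, add_mul, mul_smul_comm, smul_mul_assoc]
    noncomm_ring
  have h2 : star (c i) * (KK c i t * A * KK c i t + ((1 - t ^ 2 : ℝ) : ℂ) •
      (star (c i) * A * c i)) * c i
      = (star (c i) * KK c i t) * A * (KK c i t * c i)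
        + ((1 - t ^ 2 : ℝ) : ℂ) • ((star (c i) * star (c i)) * A * (c i * c i)) := by
    rw [mul_add, add_mul, mul_smul_comm, smul_mul_assoc]
    noncomm_ring
  rw [h1, h2, hc.KK_mul, hc.KK_mul, mul_comm t s, hc.KK_mul_star, hc.c_mul_KK, hc.star_mul_KK,
    hc.KK_mul_c, hc.sq, mul_zero, smul_zero, add_zero, smul_mul_assoc, smul_mul_assoc,
    mul_smul_comm, smul_smul, smul_smul, add_assoc, ← add_smul]
  congr 2
  push_cast; ring

lemma CARel.phi_one_right (hc : CARel c) (i : ι) : phi c i 1 = 1 := by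
  apply LinearMap.ext
  intro A
  rw [hc.phi_apply]
  simp [KK]

/-- unital -/
lemma CARel.phi_unit (hc : CARel c) (i : ι) (t : ℝ) : phi c i t 1 = 1 := by
  rw [hc.phi_apply, mul_one, mul_one, hc.KK_sq]
  simp [nn]

lemma CARel.phi_star (hc : CARel c) (i : ι) (t : ℝ) (A : 𝒜) :
    phi c i t (star A) = star (phi c i t A) := by
  rw [hc.phi_apply, hc.phi_apply, star_add, star_mul, star_mul, star_KK, star_smul, star_mul,
    star_mul, star_star, mul_assoc, mul_assoc (star (c i))]
  simp

/-- the mode does not see operators commuting with it -/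
lemma CARel.phi_eq_self (hc : CARel c) {i : ι} (t : ℝ) {A : 𝒜} (h1 : Commute A (c i))
    (h2 : Commute A (star (c i))) : phi c i t A = A := by
  have hn : Commute A (nn c i) := h2.mul_right h1
  have hK : Commute A (KK c i t) := (Commute.one_right _).sub_right (hn.smul_right _)
  rw [hc.phi_apply, ← hK.eq, mul_assoc, hc.KK_sq, ← h2.eq, mul_assoc]
  show A * (1 - _ • nn c i) + _ • (A * nn c i) = A
  rw [mul_sub, mul_one, mul_smul_comm, sub_add_cancel]

/-- the loss map of one mode preserves commutation with the other modes -/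
lemma CARel.phi_commute (hc : CARel c) {i j : ι} (h : i ≠ j) (t : ℝ) {A : 𝒜}
    (h1 : Commute A (c j)) : Commute (phi c i t A) (c j) := by
  rw [hc.phi_apply]
  have hK : Commute (KK c i t) (c j) := hc.KK_comm h t
  refine ((hK.mul_left h1).mul_left hK).add_left (Commute.smul_left ?_ _)
  show star (c i) * A * c i * c j = c j * (star (c i) * A * c i)
  have e1 : star (c i) * A * c i * c j = star (c i) * A * (c i * c j) := by noncomm_ring
  have e2 : star (c i) * A * -(c j * c i) = -(star (c i) * (A * c j) * c i) := by noncomm_ring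
  have e3 : -(star (c i) * (c j * A) * c i) = -(star (c i) * c j) * A * c i := by noncomm_ring
  rw [e1, hc.swap i j, e2, h1.eq, e3, ← hc.ne h.symm]
  noncomm_ring

lemma CARel.phi_commute_star (hc : CARel c) {i j : ι} (h : i ≠ j) (t : ℝ) {A : 𝒜}
    (h1 : Commute A (star (c j))) : Commute (phi c i t A) (star (c j)) := by
  have h2 : Commute (star A) (c j) := by
    have := h1.star_star
    rwa [star_star] at this
  have h3 := hc.phi_commute h t h2
  rw [hc.phi_star] at h3
  have := h3.star_star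
  rwa [star_star] at this

end alg

end Crest.Agent.R340.Thin565
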