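import Mathlib
import Crest.Agent.R340.Thin1_565

/-!
# R340 (helper565), thinning 2: the loss channel of a finite set of modes

`Phi hc S t = ∏_{m ∈ S} phi c m (t m)`: semigroup, unital, star, locality, invariance of the
left annihilator of the zero mode projection, action on quartic monomials.
-/

set_option autoImplicit false
set_option linter.unusedSectionVars false

open scoped ComplexOrder

namespace Crest.Agent.R340.Thin565

section alg

variable {𝒜 : Type*} [Ring 𝒜] [StarRing 𝒜] [Algebra ℂ 𝒜] [StarModule ℂ 𝒜]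
variable {ι : Type*} [DecidableEq ι] {c : ι → 𝒜}

lemma CARel.pairwise (hc : CARel c) (S : Set ι) (t : ι → ℝ) :
    S.Pairwise (Function.onFun Commute fun m => phi c m (t m)) :=
  fun _ _ _ _ h => hc.phi_comm_phi h _ _

/-- the loss channel of the modes in `S` with amplitudes `t` -/
noncomputable def Phi (hc : CARel c) (S : Finset ι) (t : ι → ℝ) : Module.End ℂ 𝒜 :=
  S.noncommProd (fun m => phi c m (t m)) (hc.pairwise _ t)

/-- operators which do not see the modes outside `S` -/
def Loc (c : ι → 𝒜) (S : Set ι) (A : 𝒜) : Prop :=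
  ∀ m, m ∉ S → Commute A (c m) ∧ Commute A (star (c m))

lemma Loc.mono {S T : Set ι} (h : S ⊆ T) {A : 𝒜} (hA : Loc c S A) : Loc c T A :=
  fun m hm => hA m (fun h' => hm (h h'))

lemma Loc.one (S : Set ι) : Loc c S (1 : 𝒜) :=
  fun _ _ => ⟨Commute.one_left _, Commute.one_left _⟩

lemma Loc.zero (S : Set ι) : Loc c S (0 : 𝒜) :=
  fun _ _ => ⟨Commute.zero_left _, Commute.zero_left _⟩

lemma Loc.add {S : Set ι} {A B : 𝒜} (hA : Loc c S A) (hB : Loc c S B) : Loc c S (A + B) :=
  fun m hm => ⟨(hA m hm).1.add_left (hB m hm).1, (hA m hm).2.add_left (hB m hm).2⟩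

lemma Loc.sub {S : Set ι} {A B : 𝒜} (hA : Loc c S A) (hB : Loc c S B) : Loc c S (A - B) :=
  fun m hm => ⟨(hA m hm).1.sub_left (hB m hm).1, (hA m hm).2.sub_left (hB m hm).2⟩

lemma Loc.mul {S : Set ι} {A B : 𝒜} (hA : Loc c S A) (hB : Loc c S B) : Loc c S (A * B) :=
  fun m hm => ⟨(hA m hm).1.mul_left (hB m hm).1, (hA m hm).2.mul_left (hB m hm).2⟩

lemma Loc.smul {S : Set ι} {A : 𝒜} (hA : Loc c S A) (r : ℂ) : Loc c S (r • A) :=
  fun m hm => ⟨(hA m hm).1.smul_left r, (hA m hm).2.smul_left r⟩

lemma Loc.star {S : Set ι} {A : 𝒜} (hA : Loc c S A) : Loc c S (star A) := by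
  intro m hm
  refine ⟨?_, ?_⟩
  · have := (hA m hm).2.star_star
    rwa [star_star] at this
  · exact (hA m hm).1.star_star

lemma Loc.sum {S : Set ι} {κ : Type*} {T : Finset κ} {A : κ → 𝒜} (hA : ∀ k ∈ T, Loc c S (A k)) :
    Loc c S (∑ k ∈ T, A k) := by
  intro m hm
  exact ⟨Commute.sum_left _ _ _ (fun k hk => (hA k hk m hm).1),
    Commute.sum_left _ _ _ (fun k hk => (hA k hk m hm).2)⟩

lemma Loc.phi (hc : CARel c) {S : Set ι} {A : 𝒜} (hA : Loc c S A) {i : ι} (hi : i ∈ S) (t : ℝ) :
    Loc c S (phi c i t A) := by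
  intro m hm
  have h : i ≠ m := fun h => hm (h ▸ hi)
  exact ⟨hc.phi_commute h t (hA m hm).1, hc.phi_commute_star h t (hA m hm).2⟩

lemma Phi_empty (hc : CARel c) (t : ι → ℝ) : Phi hc ∅ t = 1 := by
  unfold Phi; simp

lemma Phi_insert (hc : CARel c) {S : Finset ι} {a : ι} (ha : a ∉ S) (t : ι → ℝ) :
    Phi hc (insert a S) t = phi c a (t a) * Phi hc S t := by
  unfold Phi
  rw [Finset.noncommProd_insert_of_notMem _ _ _ _ ha]

lemma Phi_insert_apply (hc : CARel c) {S : Finset ι} {a : ι} (ha : a ∉ S) (t : ι → ℝ) (A : 𝒜) :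
    Phi hc (insert a S) t A = phi c a (t a) (Phi hc S t A) := by
  rw [Phi_insert hc ha]; rfl

lemma phi_comm_Phi (hc : CARel c) {S : Finset ι} {a : ι} (ha : a ∉ S) (s : ℝ) (t : ι → ℝ) :
    Commute (phi c a s) (Phi hc S t) := by
  unfold Phi
  apply Finset.noncommProd_commute
  intro x hx
  exact hc.phi_comm_phi (fun h => ha (by rw [h]; exact hx)) _ _

lemma Phi_union (hc : CARel c) {S T : Finset ι} (h : Disjoint S T) (t : ι → ℝ) :
    Phi hc (S ∪ T) t = Phi hc S t * Phi hc T t := by
  unfold Phi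
  rw [Finset.noncommProd_union_of_disjoint h]

/-- semigroup law -/
lemma Phi_mul (hc : CARel c) (S : Finset ι) (s t : ι → ℝ) :
    Phi hc S s * Phi hc S t = Phi hc S (fun m => s m * t m) := by
  induction S using Finset.induction_on with
  | empty => simp [Phi_empty]
  | insert a S ha ih =>
    rw [Phi_insert hc ha, Phi_insert hc ha, Phi_insert hc ha, ← ih, ← hc.phi_mul]
    have h := phi_comm_Phi hc ha (t a) s
    calc phi c a (s a) * Phi hc S s * (phi c a (t a) * Phi hc S t)
        = phi c a (s a) * (Phi hc S s * phi c a (t a)) * Phi hc S t := by noncomm_ring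
      _ = phi c a (s a) * (phi c a (t a) * Phi hc S s) * Phi hc S t := by rw [h.eq]
      _ = _ := by noncomm_ring

lemma Phi_one (hc : CARel c) (S : Finset ι) {t : ι → ℝ} (ht : ∀ m ∈ S, t m = 1) :
    Phi hc S t = 1 := by
  induction S using Finset.induction_on with
  | empty => simp [Phi_empty]
  | insert a S ha ih =>
    rw [Phi_insert hc ha, ih (fun m hm => ht m (Finset.mem_insert_of_mem hm)),
      ht a (Finset.mem_insert_self _ _), hc.phi_one_right, mul_one]

/-- inverse -/
lemma Phi_inv_apply (hc : CARel c) (S : Finset ι) {s t : ι → ℝ} (h : ∀ m ∈ S, s m * t m = 1)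
    (A : 𝒜) : Phi hc S s (Phi hc S t A) = A := by
  have h1 := Phi_mul hc S s t
  rw [Phi_one hc S (t := fun m => s m * t m) h] at h1
  exact congrArg (fun f : Module.End ℂ 𝒜 => f A) h1

lemma Phi_unit (hc : CARel c) (S : Finset ι) (t : ι → ℝ) : Phi hc S t 1 = 1 := by
  induction S using Finset.induction_on with
  | empty => simp [Phi_empty]
  | insert a S ha ih => rw [Phi_insert_apply hc ha, ih, hc.phi_unit]

lemma Phi_star (hc : CARel c) (S : Finset ι) (t : ι → ℝ) (A : 𝒜) :
    Phi hc S t (star A) = star (Phi hc S t A) := by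
  induction S using Finset.induction_on with
  | empty => simp [Phi_empty]
  | insert a S ha ih =>
    rw [Phi_insert_apply hc ha, ih, hc.phi_star, Phi_insert_apply hc ha]

lemma Phi_Loc (hc : CARel c) {S : Finset ι} {T : Set ι} (hST : ↑S ⊆ T) (t : ι → ℝ) {A : 𝒜}
    (hA : Loc c T A) : Loc c T (Phi hc S t A) := by
  induction S using Finset.induction_on with
  | empty => simpa [Phi_empty] using hA
  | insert a S ha ih =>
    rw [Phi_insert_apply hc ha]
    refine Loc.phi hc (ih ?_) (hST (by simp)) _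
    exact (Finset.coe_subset.mpr (Finset.subset_insert a S)).trans hST

/-- locality: modes which are not seen do nothing -/
lemma Phi_eq_self (hc : CARel c) {S : Finset ι} {T : Set ι} (hST : ∀ m ∈ S, m ∉ T) (t : ι → ℝ)
    {A : 𝒜} (hA : Loc c T A) : Phi hc S t A = A := by
  induction S using Finset.induction_on with
  | empty => simp [Phi_empty]
  | insert a S ha ih =>
    rw [Phi_insert_apply hc ha, ih (fun m hm => hST m (Finset.mem_insert_of_mem hm))]
    have h := hA a (hST a (Finset.mem_insert_self _ _))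
    exact hc.phi_eq_self _ h.1 h.2

lemma Phi_univ_eq [Fintype ι] (hc : CARel c) (S : Finset ι) (t : ι → ℝ)
    {A : 𝒜} (hA : Loc c S A) : Phi hc Finset.univ t A = Phi hc S t A := by
  have h1 : (Finset.univ : Finset ι) = S ∪ Sᶜ := by simp
  rw [h1, Phi_union hc disjoint_compl_right]
  show Phi hc S t (Phi hc Sᶜ t A) = _
  rw [Phi_eq_self hc (T := (S : Set ι)) (fun m hm => by simpa using hm) t hA]

/-! ### the channel on normal ordered quartic monomials -/

/-- the weight of a pair -/
noncomputable def wt (t : ι → ℝ) (i j m : ι) : ℝ :=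
  (if m = i then t m else 1) * (if m = j then t m else 1)

lemma prod_wt [Fintype ι] (t : ι → ℝ) (i j : ι) : ∏ m, wt t i j m = t i * t j := by
  unfold wt
  rw [Finset.prod_mul_distrib]
  simp [Finset.prod_ite_eq']

/-- `V` contains the mode `m` in the form needed -/
structure Has (c : ι → 𝒜) (m : ι) (V : 𝒜) : Prop where
  right : V * c m = 0
  nr : V * nn c m = V
  nl : nn c m * V = 0

lemma Has.KK_mul {m : ι} {V : 𝒜} (h : Has c m V) (t : ℝ) : KK c m t * V = V := by
  unfold KK
  rw [sub_mul, one_mul, smul_mul_assoc, h.nl, smul_zero, sub_zero]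

lemma Has.mul_KK {m : ι} {V : 𝒜} (h : Has c m V) (t : ℝ) : V * KK c m t = (t : ℂ) • V := by
  unfold KK
  rw [mul_sub, mul_one, mul_smul_comm, h.nr]
  nth_rewrite 1 [← one_smul ℂ V]
  rw [← sub_smul]
  congr 1
  push_cast; ring

lemma CARel.has_left (hc : CARel c) {i j : ι} (h : i ≠ j) : Has c i (c i * c j) where
  right := by rw [mul_assoc, hc.swap j i, mul_neg, ← mul_assoc, hc.sq, zero_mul, neg_zero]
  nr := by rw [mul_assoc, ← hc.nn_comm h, ← mul_assoc, hc.mul_nn]
  nl := by rw [← mul_assoc, hc.nn_mul, zero_mul]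

lemma CARel.has_right (hc : CARel c) {i j : ι} (h : i ≠ j) : Has c j (c i * c j) where
  right := by rw [mul_assoc, hc.sq, mul_zero]
  nr := by rw [mul_assoc, hc.mul_nn]
  nl := by rw [← mul_assoc, hc.nn_comm h.symm, mul_assoc, hc.nn_mul, mul_zero]

lemma CARel.pair_commute (hc : CARel c) (i j m : ι) : Commute (c i * c j) (c m) := by
  show c i * c j * c m = c m * (c i * c j)
  rw [mul_assoc, hc.swap j m, mul_neg, ← mul_assoc, hc.swap i m, neg_mul, neg_neg, mul_assoc]

lemma CARel.pair_commute_star (hc : CARel c) {i j m : ι} (h1 : i ≠ m) (h2 : j ≠ m) :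
    Commute (c i * c j) (star (c m)) := by
  show c i * c j * star (c m) = star (c m) * (c i * c j)
  rw [mul_assoc, hc.ne h2, mul_neg, ← mul_assoc, hc.ne h1, neg_mul, neg_neg, mul_assoc]

/-- the four cases -/
lemma CARel.phi_has_has (hc : CARel c) {m : ι} {U V : 𝒜} (hU : Has c m U) (hV : Has c m V)
    (t : ℝ) : phi c m t (star U * V) = ((t * t : ℝ) : ℂ) • (star U * V) := by
  rw [hc.phi_apply]
  have h1 : KK c m t * star U = (t : ℂ) • star U := by
    rw [← star_KK, ← star_mul, hU.mul_KK, star_smul]; simp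
  rw [← mul_assoc, h1, mul_assoc, hV.mul_KK]
  have h2 : star (c m) * (star U * V) * c m = 0 := by
    rw [mul_assoc, mul_assoc, hV.right, mul_zero, mul_zero]
  rw [h2, smul_zero, add_zero, mul_smul_comm, smul_mul_assoc, smul_smul]
  push_cast; rfl

lemma CARel.phi_has_loc (hc : CARel c) {m : ι} {U V : 𝒜} (hU : Has c m U)
    (h1 : Commute V (c m)) (h2 : Commute V (star (c m)))
    (t : ℝ) : phi c m t (star U * V) = (t : ℂ) • (star U * V) := by
  rw [hc.phi_apply]
  have hn : Commute V (nn c m) := h2.mul_right h1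
  have hK : Commute V (KK c m t) := (Commute.one_right _).sub_right (hn.smul_right _)
  have h3 : KK c m t * star U = (t : ℂ) • star U := by
    rw [← star_KK, ← star_mul, hU.mul_KK, star_smul]; simp
  have h4 : star U * KK c m t = star U := by
    rw [← star_KK, ← star_mul, hU.KK_mul]
  rw [← mul_assoc, h3, mul_assoc, hK.eq, smul_mul_assoc, ← mul_assoc, h4]
  have h5 : star (c m) * (star U * V) * c m = 0 := by
    rw [mul_assoc, mul_assoc, h1.eq]
    rw [← mul_assoc (star U), ← mul_assoc (star (c m)), ← mul_assoc (star (c m)), ← star_mul,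
      hU.right, star_zero, zero_mul, zero_mul]
  rw [h5, smul_zero, add_zero]

lemma CARel.phi_loc_has (hc : CARel c) {m : ι} {U V : 𝒜} (h1 : Commute U (c m))
    (h2 : Commute U (star (c m))) (hV : Has c m V)
    (t : ℝ) : phi c m t (star U * V) = (t : ℂ) • (star U * V) := by
  have h := hc.phi_has_loc hV h1 h2 t
  have h3 : star U * V = star (star V * U) := by rw [star_mul, star_star]
  rw [h3, hc.phi_star, h, star_smul]
  simp

end alg

end Crest.Agent.R340.Thin565
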