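import Mathlib
import Crest.Agent.R340.Thin2_565

/-!
# R340 (helper565), thinning 3: pair operators, zero mode projection and the loss channel
-/

set_option autoImplicit false
set_option linter.unusedSectionVars false

open scoped ComplexOrder

namespace Crest.Agent.R340.Thin565

section alg

variable {𝒜 : Type*} [Ring 𝒜] [StarRing 𝒜] [Algebra ℂ 𝒜] [StarModule ℂ 𝒜]
variable {ι : Type*} [DecidableEq ι] {c : ι → 𝒜}

lemma CARel.phi_quartic (hc : CARel c) (t : ι → ℝ) {i j k l : ι} (hij : i ≠ j) (hkl : k ≠ l)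
    (m : ι) : phi c m (t m) (star (c i * c j) * (c k * c l))
      = ((wt t i j m * wt t k l m : ℝ) : ℂ) • (star (c i * c j) * (c k * c l)) := by
  have hU : (Has c m (c i * c j) ∧ wt t i j m = t m) ∨
      ((Commute (c i * c j) (c m) ∧ Commute (c i * c j) (star (c m))) ∧ wt t i j m = 1) := by
    by_cases h1 : m = i
    · subst h1
      exact Or.inl ⟨hc.has_left hij, by unfold wt; rw [if_pos rfl, if_neg hij, mul_one]⟩
    · by_cases h2 : m = j
      · subst h2
        exact Or.inl ⟨hc.has_right hij, by unfold wt; rw [if_neg h1, if_pos rfl, one_mul]⟩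
      · exact Or.inr ⟨⟨hc.pair_commute i j m, hc.pair_commute_star (Ne.symm h1) (Ne.symm h2)⟩,
          by unfold wt; rw [if_neg h1, if_neg h2, one_mul]⟩
  have hV : (Has c m (c k * c l) ∧ wt t k l m = t m) ∨
      ((Commute (c k * c l) (c m) ∧ Commute (c k * c l) (star (c m))) ∧ wt t k l m = 1) := by
    by_cases h1 : m = k
    · subst h1
      exact Or.inl ⟨hc.has_left hkl, by unfold wt; rw [if_pos rfl, if_neg hkl, mul_one]⟩
    · by_cases h2 : m = l
      · subst h2
        exact Or.inl ⟨hc.has_right hkl, by unfold wt; rw [if_neg h1, if_pos rfl, one_mul]⟩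
      · exact Or.inr ⟨⟨hc.pair_commute k l m, hc.pair_commute_star (Ne.symm h1) (Ne.symm h2)⟩,
          by unfold wt; rw [if_neg h1, if_neg h2, one_mul]⟩
  rcases hU with ⟨hU, eU⟩ | ⟨hU, eU⟩ <;> rcases hV with ⟨hV, eV⟩ | ⟨hV, eV⟩ <;> rw [eU, eV]
  · exact hc.phi_has_has hU hV _
  · rw [mul_one]; exact hc.phi_has_loc hU hV.1 hV.2 _
  · rw [one_mul]; exact hc.phi_loc_has hU.1 hU.2 hV _
  · rw [one_mul, Complex.ofReal_one, one_smul]
    have h : Loc c ({m}ᶜ : Set ι) (star (c i * c j) * (c k * c l)) := by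
      have h1 : Loc c ({m}ᶜ : Set ι) (c i * c j) := by
        intro m' hm'
        have : m' = m := by simpa using hm'
        rw [this]; exact hU
      have h2 : Loc c ({m}ᶜ : Set ι) (c k * c l) := by
        intro m' hm'
        have : m' = m := by simpa using hm'
        rw [this]; exact hV
      exact h1.star.mul h2
    have h' := h m (by simp)
    exact hc.phi_eq_self _ h'.1 h'.2

lemma Phi_quartic (hc : CARel c) (S : Finset ι) (t : ι → ℝ) {i j k l : ι} (hij : i ≠ j)
    (hkl : k ≠ l) : Phi hc S t (star (c i * c j) * (c k * c l))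
      = ((∏ m ∈ S, (wt t i j m * wt t k l m) : ℝ) : ℂ) • (star (c i * c j) * (c k * c l)) := by
  induction S using Finset.induction_on with
  | empty => simp [Phi_empty]
  | insert a S ha ih =>
    rw [Phi_insert_apply hc ha, ih, map_smul, hc.phi_quartic t hij hkl, smul_smul,
      Finset.prod_insert ha]
    congr 1
    push_cast; ring

lemma Phi_univ_quartic [Fintype ι] (hc : CARel c) (t : ι → ℝ) {i j k l : ι} (hij : i ≠ j)
    (hkl : k ≠ l) : Phi hc Finset.univ t (star (c i * c j) * (c k * c l))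
      = ((t i * t j * (t k * t l) : ℝ) : ℂ) • (star (c i * c j) * (c k * c l)) := by
  rw [Phi_quartic hc _ t hij hkl, Finset.prod_mul_distrib, prod_wt, prod_wt]

/-- the pair operator with coefficients `β` -/
noncomputable def pr [Fintype ι] (c : ι → 𝒜) (β : ι → ι → ℂ) : 𝒜 :=
  ∑ i, ∑ j, β i j • (c i * c j)

lemma star_pr [Fintype ι] (β : ι → ι → ℂ) :
    star (pr c β) = ∑ i, ∑ j, (starRingEnd ℂ (β i j)) • star (c i * c j) := by
  unfold pr
  simp only [star_sum, star_smul]
  rfl

lemma star_pr_mul_pr [Fintype ι] (β β' : ι → ι → ℂ) :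
    star (pr c β) * pr c β' = ∑ i, ∑ j, ∑ k, ∑ l,
      (starRingEnd ℂ (β i j) * β' k l) • (star (c i * c j) * (c k * c l)) := by
  rw [star_pr]
  unfold pr
  rw [Finset.sum_mul]
  refine Finset.sum_congr rfl fun i _ => ?_
  rw [Finset.sum_mul]
  refine Finset.sum_congr rfl fun j _ => ?_
  rw [Finset.mul_sum]
  refine Finset.sum_congr rfl fun k _ => ?_
  rw [Finset.mul_sum]
  refine Finset.sum_congr rfl fun l _ => ?_
  rw [smul_mul_smul_comm]

/-- the channel on products of pair operators of fixed degree -/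
lemma Phi_pr_pr [Fintype ι] (hc : CARel c) (t : ι → ℝ) {β β' : ι → ι → ℂ} {τ τ' : ℝ}
    (h : ∀ i j, β i j ≠ 0 → t i * t j = τ) (h' : ∀ i j, β' i j ≠ 0 → t i * t j = τ') :
    Phi hc Finset.univ t (star (pr c β) * pr c β')
      = ((τ * τ' : ℝ) : ℂ) • (star (pr c β) * pr c β') := by
  rw [star_pr_mul_pr]
  simp only [map_sum, Finset.smul_sum, map_smul]
  refine Finset.sum_congr rfl fun i _ => Finset.sum_congr rfl fun j _ =>
    Finset.sum_congr rfl fun k _ => Finset.sum_congr rfl fun l _ => ?_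
  by_cases hb : β i j = 0
  · simp [hb]
  by_cases hb' : β' k l = 0
  · simp [hb']
  by_cases hij : i = j
  · subst hij
    rw [hc.sq, star_zero, zero_mul]; simp
  by_cases hkl : k = l
  · subst hkl
    rw [hc.sq, mul_zero]; simp
  rw [Phi_univ_quartic hc t hij hkl, h i j hb, h' k l hb', smul_comm]

/-- pair operators are local -/
lemma Loc_pr [Fintype ι] (hc : CARel c) {S : Set ι} {β : ι → ι → ℂ}
    (h : ∀ i j, β i j ≠ 0 → i ∈ S ∧ j ∈ S) : Loc c S (pr c β) := by
  unfold pr
  refine Loc.sum fun i _ => Loc.sum fun j _ => ?_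
  by_cases hb : β i j = 0
  · rw [hb, zero_smul]; exact Loc.zero _
  refine Loc.smul ?_ _
  intro m hm
  obtain ⟨h1, h2⟩ := h i j hb
  exact ⟨hc.pair_commute i j m, hc.pair_commute_star (fun e => hm (e ▸ h1)) (fun e => hm (e ▸ h2))⟩

/-! ### the boost `G = ∏ t_m ^ n_m` -/

lemma CARel.pairwise_KK (hc : CARel c) (S : Set ι) (t : ι → ℝ) :
    S.Pairwise (Function.onFun Commute fun m => KK c m (t m)) :=
  fun _ _ _ _ _ => hc.KK_comm_KK _ _ _ _

/-- the boost -/
noncomputable def GG (hc : CARel c) (S : Finset ι) (t : ι → ℝ) : 𝒜 :=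
  S.noncommProd (fun m => KK c m (t m)) (hc.pairwise_KK _ t)

lemma GG_empty (hc : CARel c) (t : ι → ℝ) : GG hc ∅ t = 1 := by
  unfold GG; simp

lemma GG_insert (hc : CARel c) {S : Finset ι} {a : ι} (ha : a ∉ S) (t : ι → ℝ) :
    GG hc (insert a S) t = KK c a (t a) * GG hc S t := by
  unfold GG
  rw [Finset.noncommProd_insert_of_notMem _ _ _ _ ha]

lemma KK_comm_GG (hc : CARel c) (S : Finset ι) (a : ι) (s : ℝ) (t : ι → ℝ) :
    Commute (KK c a s) (GG hc S t) := by
  unfold GG
  exact Finset.noncommProd_commute _ _ _ _ (fun x _ => hc.KK_comm_KK _ _ _ _)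

lemma GG_comm_c (hc : CARel c) {S : Finset ι} {a : ι} (ha : a ∉ S) (t : ι → ℝ) :
    Commute (GG hc S t) (c a) := by
  unfold GG
  refine (Finset.noncommProd_commute _ _ _ _ (fun x hx => ?_)).symm
  exact (hc.KK_comm (fun h => ha (by rw [← h]; exact hx)) _ : Commute _ _).symm

lemma star_GG (hc : CARel c) (S : Finset ι) (t : ι → ℝ) : star (GG hc S t) = GG hc S t := by
  induction S using Finset.induction_on with
  | empty => simp [GG_empty]
  | insert a S ha ih =>
    rw [GG_insert hc ha, star_mul, ih, star_KK, (KK_comm_GG hc S a _ t).eq]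

lemma GG_comm_c_star (hc : CARel c) {S : Finset ι} {a : ι} (ha : a ∉ S) (t : ι → ℝ) :
    Commute (GG hc S t) (star (c a)) := by
  have := (GG_comm_c hc ha t).star_star
  rwa [star_GG] at this

lemma c_mul_GG (hc : CARel c) {S : Finset ι} {a : ι} (ha : a ∈ S) (t : ι → ℝ) :
    c a * GG hc S t = (t a : ℂ) • (GG hc S t * c a) := by
  obtain ⟨T, hT, rfl⟩ : ∃ T, a ∉ T ∧ insert a T = S :=
    ⟨S.erase a, Finset.notMem_erase _ _, Finset.insert_erase ha⟩
  rw [GG_insert hc hT, ← mul_assoc, hc.c_mul_KK, smul_mul_assoc, ← (GG_comm_c hc hT t).eq,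
    mul_assoc, (GG_comm_c hc hT t).eq, ← mul_assoc, hc.KK_mul_c]

lemma pr_mul_GG [Fintype ι] (hc : CARel c) (t : ι → ℝ) {β : ι → ι → ℂ} {τ : ℝ}
    (h : ∀ i j, β i j ≠ 0 → t i * t j = τ) :
    pr c β * GG hc Finset.univ t = (τ : ℂ) • (GG hc Finset.univ t * pr c β) := by
  unfold pr
  rw [Finset.sum_mul, Finset.mul_sum, Finset.smul_sum]
  refine Finset.sum_congr rfl fun i _ => ?_
  rw [Finset.sum_mul, Finset.mul_sum, Finset.smul_sum]
  refine Finset.sum_congr rfl fun j _ => ?_
  by_cases hb : β i j = 0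
  · simp [hb]
  have e : c i * c j * GG hc Finset.univ t
      = ((t i * t j : ℝ) : ℂ) • (GG hc Finset.univ t * (c i * c j)) := by
    rw [mul_assoc, c_mul_GG hc (Finset.mem_univ j), mul_smul_comm, ← mul_assoc,
      c_mul_GG hc (Finset.mem_univ i), smul_mul_assoc, smul_smul, mul_assoc]
    congr 1
    push_cast; ring
  rw [smul_mul_assoc, e, h i j hb, mul_smul_comm, smul_comm]

/-! ### annihilation of the zero modes -/

lemma CARel.TT_comm_phi (hc : CARel c) {i j : ι} (h : i ≠ j) (t : ℝ) :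
    Commute (TT c i) (phi c j t) := by
  unfold phi th
  refine Commute.mul_right ?_ (hc.Ad_comm_TT h.symm t).symm
  exact (Commute.one_right _).add_right ((hc.TT_comm_TT h).smul_right _)

lemma CARel.Ad_comm_phi (hc : CARel c) {i j : ι} (h : i ≠ j) (s t : ℝ) :
    Commute (Ad (KK c i s)) (phi c j t) := by
  unfold phi
  exact (hc.Ad_comm_th h s t).mul_right (hc.Ad_comm_Ad i j s t)

lemma TT_comm_Phi (hc : CARel c) {S : Finset ι} {a : ι} (ha : a ∉ S) (t : ι → ℝ) :
    Commute (TT c a) (Phi hc S t) := by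
  unfold Phi
  apply Finset.noncommProd_commute
  intro x hx
  exact hc.TT_comm_phi (fun h => ha (by rw [h]; exact hx)) _

lemma Ad_comm_Phi (hc : CARel c) {S : Finset ι} {a : ι} (ha : a ∉ S) (s : ℝ) (t : ι → ℝ) :
    Commute (Ad (KK c a s)) (Phi hc S t) := by
  unfold Phi
  apply Finset.noncommProd_commute
  intro x hx
  exact hc.Ad_comm_phi (fun h => ha (by rw [h]; exact hx)) _ _

lemma Phi_mul_proj_aux (hc : CARel c) {P : 𝒜} (hcP : ∀ m, c m * P = P * c m * P)
    (S : Finset ι) (t : ι → ℝ) :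
    ∀ A : 𝒜, GG hc S t * A * GG hc S t * P = 0 → Phi hc S t A * P = 0 := by
  induction S using Finset.induction_on with
  | empty => intro A hA; simpa [Phi_empty, GG_empty] using hA
  | insert a S ha ih =>
    intro A hA
    rw [Phi_insert_apply hc ha, hc.phi_apply, add_mul, smul_mul_assoc]
    have e1 : KK c a (t a) * Phi hc S t A * KK c a (t a)
        = Phi hc S t (KK c a (t a) * A * KK c a (t a)) :=
      congrArg (fun f : Module.End ℂ 𝒜 => f A) (Ad_comm_Phi hc ha (t a) t).eq
    have e2 : star (c a) * Phi hc S t A * c a = Phi hc S t (star (c a) * A * c a) :=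
      congrArg (fun f : Module.End ℂ 𝒜 => f A) (TT_comm_Phi hc ha t).eq
    have hG := KK_comm_GG hc S a (t a) t
    set K := KK c a (t a) with hK
    set G := GG hc S t with hGdef
    have hA' : K * (G * A * G) * K * P = 0 := by
      rw [GG_insert hc ha, ← hK, ← hGdef] at hA
      have e : K * G * A * (K * G) * P = K * (G * A * G) * K * P := by
        calc K * G * A * (K * G) * P = K * G * A * (G * K) * P := by rw [hG.eq]
          _ = _ := by simp only [mul_assoc]
      rw [← e]; exact hA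
    rw [e1, e2, ih _ ?_, ih _ ?_, smul_zero, add_zero]
    · have h1 := GG_comm_c hc ha t
      have h2 := GG_comm_c_star hc ha t
      rw [← hGdef] at h1 h2
      calc G * (star (c a) * A * c a) * G * P
          = (G * star (c a)) * A * (c a * G) * P := by simp only [mul_assoc]
        _ = (star (c a) * G) * A * (G * c a) * P := by rw [h1.eq, h2.eq]
        _ = star (c a) * (G * A * G) * (c a * P) := by simp only [mul_assoc]
        _ = (star (c a) * K) * (G * A * G) * ((K * c a) * P) := by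
            rw [hc.star_mul_KK, hc.KK_mul_c]
        _ = star (c a) * (K * (G * A * G) * K) * (c a * P) := by simp only [mul_assoc]
        _ = star (c a) * (K * (G * A * G) * K) * (P * c a * P) := by rw [hcP a]
        _ = star (c a) * (K * (G * A * G) * K * P) * (c a * P) := by simp only [mul_assoc]
        _ = 0 := by rw [hA']; simp
    · calc G * (K * A * K) * G * P = (G * K) * A * (K * G) * P := by simp only [mul_assoc]
        _ = (K * G) * A * (G * K) * P := by rw [hG.eq]
        _ = K * (G * A * G) * K * P := by simp only [mul_assoc]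
        _ = 0 := hA'

/-- the loss channel preserves `A P = 0` -/
lemma Phi_mul_proj [Fintype ι] (hc : CARel c) {P : 𝒜} (hcP : ∀ m, c m * P = P * c m * P)
    (t : ι → ℝ) (hGP : GG hc Finset.univ t * P = P * GG hc Finset.univ t * P) {A : 𝒜}
    (hA : A * P = 0) : Phi hc Finset.univ t A * P = 0 := by
  apply Phi_mul_proj_aux hc hcP
  rw [mul_assoc, hGP, mul_assoc P, ← mul_assoc _ P, mul_assoc _ A, hA]
  simp

/-- `P` is the projection onto the common kernel of the `B p` -/
structure IsKer {κ : Type*} (B : κ → 𝒜) (P : 𝒜) : Prop where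
  sa : star P = P
  idem : P * P = P
  ann : ∀ p, B p * P = 0
  max : ∀ A : 𝒜, (∀ p, B p * A = 0) → P * A = A

lemma IsKer.c_mul [Fintype ι] (hc : CARel c) {κ : Type*} {β : κ → ι → ι → ℂ} {P : 𝒜}
    (h : IsKer (fun p => pr c (β p)) P) (m : ι) : c m * P = P * c m * P := by
  rw [mul_assoc]
  refine (h.max _ fun p => ?_).symm
  have h1 : Commute (pr c (β p)) (c m) := by
    unfold pr
    refine Commute.sum_left _ _ _ fun i _ => Commute.sum_left _ _ _ fun j _ => ?_
    exact (hc.pair_commute i j m).smul_left _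
  show pr c (β p) * (c m * P) = 0
  rw [← mul_assoc, h1.eq, mul_assoc, h.ann p, mul_zero]

lemma IsKer.GG_mul [Fintype ι] (hc : CARel c) {κ : Type*} {β : κ → ι → ι → ℂ} {P : 𝒜}
    (h : IsKer (fun p => pr c (β p)) P) (t : ι → ℝ) (τ : κ → ℝ)
    (ht : ∀ p i j, β p i j ≠ 0 → t i * t j = τ p) :
    GG hc Finset.univ t * P = P * GG hc Finset.univ t * P := by
  rw [mul_assoc]
  refine (h.max _ fun p => ?_).symm
  show pr c (β p) * (GG hc Finset.univ t * P) = 0
  rw [← mul_assoc, pr_mul_GG hc t (ht p), smul_mul_assoc, mul_assoc, h.ann p, mul_zero, smul_zero]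

lemma IsKer.Phi_mul [Fintype ι] (hc : CARel c) {κ : Type*} {β : κ → ι → ι → ℂ} {P : 𝒜}
    (h : IsKer (fun p => pr c (β p)) P) (t : ι → ℝ) (τ : κ → ℝ)
    (ht : ∀ p i j, β p i j ≠ 0 → t i * t j = τ p) {A : 𝒜} (hA : A * P = 0) :
    Phi hc Finset.univ t A * P = 0 :=
  Phi_mul_proj hc (h.c_mul hc) t (h.GG_mul hc t τ ht) hA

end alg

end Crest.Agent.R340.Thin565
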