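import Mathlib
import Crest.Agent.R340.Thin3_565

/-!
# R340 (helper565), thinning 4: order and norm estimates for the loss channel
-/

set_option autoImplicit false
set_option linter.unusedSectionVars false

open scoped ComplexOrder

namespace Crest.Agent.R340.Thin565

section gen

variable {𝒜 : Type*} [CStarAlgebra 𝒜]

lemma norm_one_le' : ‖(1 : 𝒜)‖ ≤ 1 := by
  have h : ‖(1 : 𝒜)‖ * ‖(1 : 𝒜)‖ = ‖(1 : 𝒜)‖ := by
    rw [← CStarRing.norm_star_mul_self, star_one, mul_one]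
  nlinarith [norm_nonneg (1 : 𝒜)]

lemma coe_smul_eq (r : ℝ) (A : 𝒜) : ((r : ℝ) : ℂ) • A = r • A := Complex.coe_smul r A

variable [PartialOrder 𝒜] [StarOrderedRing 𝒜]

lemma norm_le_of_sa {A : 𝒜} (hA : IsSelfAdjoint A) {r : ℝ}
    (h1 : A ≤ algebraMap ℝ 𝒜 r) (h2 : -algebraMap ℝ 𝒜 r ≤ A) (hr : 0 ≤ r) : ‖A‖ ≤ r := by
  by_cases! nt : Nontrivial 𝒜
  · rw [le_algebraMap_iff_spectrum_le (a := A) hA] at h1
    rw [← map_neg, algebraMap_le_iff_le_spectrum (a := A) hA] at h2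
    rcases CStarAlgebra.norm_or_neg_norm_mem_spectrum hA with h | h
    · exact h1 _ h
    · have := h2 _ h; linarith
  · have : A = 0 := Subsingleton.elim _ _
    rw [this, norm_zero]; exact hr

lemma smul_nonneg' {r : ℝ} (hr : 0 ≤ r) {A : 𝒜} (hA : 0 ≤ A) : 0 ≤ r • A := smul_nonneg hr hA

lemma smul_le_smul' {r : ℝ} (hr : 0 ≤ r) {A B : 𝒜} (h : A ≤ B) : r • A ≤ r • B :=
  smul_le_smul_of_nonneg_left h hr

lemma conj_nonneg' {A : 𝒜} (hA : 0 ≤ A) (X : 𝒜) : 0 ≤ star X * A * X :=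
  star_left_conjugate_nonneg hA X

lemma smul_le_smul_right' {r s : ℝ} (h : r ≤ s) {A : 𝒜} (hA : 0 ≤ A) : r • A ≤ s • A := by
  have : 0 ≤ (s - r) • A := smul_nonneg (sub_nonneg.mpr h) hA
  rw [sub_smul] at this
  exact sub_nonneg.mp this

end gen

section alg

variable {𝒜 : Type*} [CStarAlgebra 𝒜] [PartialOrder 𝒜] [StarOrderedRing 𝒜]
variable {ι : Type*} [DecidableEq ι] {c : ι → 𝒜}

lemma nn_nonneg (i : ι) : 0 ≤ nn c i := star_mul_self_nonneg _

lemma CARel.nn_le_one (hc : CARel c) (i : ι) : nn c i ≤ 1 := by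
  have h : 1 - nn c i = c i * star (c i) := (hc.self i).symm
  have h2 : 0 ≤ 1 - nn c i := by rw [h]; exact mul_star_self_nonneg _
  exact sub_nonneg.mp h2

lemma CARel.norm_nn (hc : CARel c) (i : ι) : ‖nn c i‖ ≤ 1 :=
  (CStarAlgebra.norm_le_one_iff_of_nonneg _ (nn_nonneg i)).2 (hc.nn_le_one i)

lemma CARel.norm_c (hc : CARel c) (i : ι) : ‖c i‖ ≤ 1 := by
  have h : ‖c i‖ * ‖c i‖ ≤ 1 := by
    rw [← CStarRing.norm_star_mul_self]; exact hc.norm_nn i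
  nlinarith [norm_nonneg (c i)]

lemma CARel.norm_one_sub_KK (hc : CARel c) (i : ι) {t : ℝ} (ht : t ≤ 1) :
    ‖1 - KK c i t‖ ≤ 1 - t := by
  unfold KK
  rw [sub_sub_cancel, norm_smul, Complex.norm_real, Real.norm_of_nonneg (by linarith)]
  exact mul_le_of_le_one_right (by linarith) (hc.norm_nn i)

lemma CARel.norm_KK_of_one_le (hc : CARel c) (i : ι) {t : ℝ} (ht : 1 ≤ t) :
    ‖KK c i t‖ ≤ t := by
  unfold KK
  have h1 : ‖(1 : 𝒜) - ((1 - t : ℝ) : ℂ) • nn c i‖ ≤ ‖(1 : 𝒜)‖ + ‖((1 - t : ℝ) : ℂ) • nn c i‖ :=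
    norm_sub_le _ _
  rw [norm_smul, Complex.norm_real, Real.norm_eq_abs, abs_of_nonpos (by linarith)] at h1
  have h2 : -(1 - t) * ‖nn c i‖ ≤ -(1 - t) :=
    mul_le_of_le_one_right (by linarith) (hc.norm_nn i)
  have h3 := norm_one_le' (𝒜 := 𝒜)
  linarith

lemma CARel.KK_nonneg (hc : CARel c) (i : ι) {t : ℝ} (ht : 0 ≤ t) : 0 ≤ KK c i t := by
  have h : KK c i t = KK c i (Real.sqrt t) * KK c i (Real.sqrt t) := by
    rw [hc.KK_mul, Real.mul_self_sqrt ht]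
  rw [h]
  nth_rewrite 1 [← star_KK]
  exact star_mul_self_nonneg _

lemma CARel.KK_le_one (_hc : CARel c) (i : ι) {t : ℝ} (ht : t ≤ 1) : KK c i t ≤ 1 := by
  unfold KK
  rw [sub_le_self_iff, coe_smul_eq]
  exact smul_nonneg (by linarith) (nn_nonneg i)

lemma CARel.norm_KK_of_le_one (hc : CARel c) (i : ι) {t : ℝ} (ht0 : 0 ≤ t) (ht : t ≤ 1) :
    ‖KK c i t‖ ≤ 1 :=
  (CStarAlgebra.norm_le_one_iff_of_nonneg _ (hc.KK_nonneg i ht0)).2 (hc.KK_le_one i ht)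

/-- positivity of the loss map -/
lemma CARel.phi_nonneg (hc : CARel c) (i : ι) {t : ℝ} (ht : t ^ 2 ≤ 1) {A : 𝒜} (hA : 0 ≤ A) :
    0 ≤ phi c i t A := by
  rw [hc.phi_apply]
  refine add_nonneg ?_ ?_
  · have := conj_nonneg' hA (KK c i t)
    rwa [star_KK] at this
  · rw [coe_smul_eq]
    exact smul_nonneg (by linarith) (conj_nonneg' hA _)

lemma CARel.norm_phi_of_one_le (hc : CARel c) (i : ι) {t : ℝ} (ht : 1 ≤ t) (A : 𝒜) :
    ‖phi c i t A‖ ≤ (2 * t ^ 2 - 1) * ‖A‖ := by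
  rw [hc.phi_apply]
  have h1 : ‖KK c i t * A * KK c i t‖ ≤ t * ‖A‖ * t := by
    refine (norm_mul_le _ _).trans ?_
    refine mul_le_mul ((norm_mul_le _ _).trans ?_) (hc.norm_KK_of_one_le i ht) (norm_nonneg _)
      (by positivity)
    exact mul_le_mul_of_nonneg_right (hc.norm_KK_of_one_le i ht) (norm_nonneg _)
  have h2 : ‖star (c i) * A * c i‖ ≤ ‖A‖ := by
    refine (norm_mul_le _ _).trans ?_
    have : ‖star (c i) * A‖ ≤ ‖A‖ := by
      refine (norm_mul_le _ _).trans ?_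
      rw [norm_star]
      exact mul_le_of_le_one_left (norm_nonneg _) (hc.norm_c i)
    calc ‖star (c i) * A‖ * ‖c i‖ ≤ ‖A‖ * 1 :=
          mul_le_mul this (hc.norm_c i) (norm_nonneg _) (norm_nonneg _)
      _ = ‖A‖ := mul_one _
  have h3 : ‖((1 - t ^ 2 : ℝ) : ℂ) • (star (c i) * A * c i)‖ ≤ (t ^ 2 - 1) * ‖A‖ := by
    rw [norm_smul, Complex.norm_real, Real.norm_eq_abs, abs_of_nonpos (by nlinarith)]
    calc -(1 - t ^ 2) * ‖star (c i) * A * c i‖ ≤ -(1 - t ^ 2) * ‖A‖ :=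
          mul_le_mul_of_nonneg_left h2 (by nlinarith)
      _ = _ := by ring
  calc _ ≤ _ := norm_add_le _ _
    _ ≤ t * ‖A‖ * t + (t ^ 2 - 1) * ‖A‖ := add_le_add h1 h3
    _ = _ := by ring

lemma CARel.norm_sub_phi (hc : CARel c) (i : ι) {t : ℝ} (ht0 : 0 ≤ t) (ht : t ≤ 1) (A : 𝒜) :
    ‖A - phi c i t A‖ ≤ 4 * (1 - t) * ‖A‖ := by
  rw [hc.phi_apply]
  set K := KK c i t with hK
  have e : A - (K * A * K + ((1 - t ^ 2 : ℝ) : ℂ) • (star (c i) * A * c i))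
      = (1 - K) * A + K * A * (1 - K) - ((1 - t ^ 2 : ℝ) : ℂ) • (star (c i) * A * c i) := by
    noncomm_ring
  have hK1 : ‖K‖ ≤ 1 := hc.norm_KK_of_le_one i ht0 ht
  have hK2 : ‖1 - K‖ ≤ 1 - t := hc.norm_one_sub_KK i ht
  have h1 : ‖(1 - K) * A‖ ≤ (1 - t) * ‖A‖ :=
    (norm_mul_le _ _).trans (mul_le_mul_of_nonneg_right hK2 (norm_nonneg _))
  have h2 : ‖K * A * (1 - K)‖ ≤ (1 - t) * ‖A‖ := by
    calc ‖K * A * (1 - K)‖ ≤ ‖K * A‖ * ‖1 - K‖ := norm_mul_le _ _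
      _ ≤ (1 * ‖A‖) * (1 - t) := by
          refine mul_le_mul ?_ hK2 (norm_nonneg _) (by positivity)
          exact (norm_mul_le _ _).trans (mul_le_mul_of_nonneg_right hK1 (norm_nonneg _))
      _ = _ := by ring
  have h3 : ‖star (c i) * A * c i‖ ≤ ‖A‖ := by
    refine (norm_mul_le _ _).trans ?_
    have : ‖star (c i) * A‖ ≤ ‖A‖ := by
      refine (norm_mul_le _ _).trans ?_
      rw [norm_star]
      exact mul_le_of_le_one_left (norm_nonneg _) (hc.norm_c i)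
    calc ‖star (c i) * A‖ * ‖c i‖ ≤ ‖A‖ * 1 :=
          mul_le_mul this (hc.norm_c i) (norm_nonneg _) (norm_nonneg _)
      _ = ‖A‖ := mul_one _
  have h4 : ‖((1 - t ^ 2 : ℝ) : ℂ) • (star (c i) * A * c i)‖ ≤ 2 * (1 - t) * ‖A‖ := by
    rw [norm_smul, Complex.norm_real, Real.norm_of_nonneg (by nlinarith)]
    exact mul_le_mul (by nlinarith) h3 (norm_nonneg _) (by linarith)
  rw [e]
  calc _ ≤ ‖(1 - K) * A + K * A * (1 - K)‖ + _ := norm_sub_le _ _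
    _ ≤ (‖(1 - K) * A‖ + ‖K * A * (1 - K)‖) + _ := by gcongr; exact norm_add_le _ _
    _ ≤ ((1 - t) * ‖A‖ + (1 - t) * ‖A‖) + 2 * (1 - t) * ‖A‖ := by gcongr
    _ = _ := by ring

/-! ### several modes -/

lemma Phi_nonneg (hc : CARel c) {S : Finset ι} {t : ι → ℝ} (ht : ∀ m ∈ S, t m ^ 2 ≤ 1) {A : 𝒜}
    (hA : 0 ≤ A) : 0 ≤ Phi hc S t A := by
  induction S using Finset.induction_on with
  | empty => simpa [Phi_empty] using hA
  | insert a S ha ih =>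
    rw [Phi_insert_apply hc ha]
    exact hc.phi_nonneg a (ht a (Finset.mem_insert_self _ _))
      (ih fun m hm => ht m (Finset.mem_insert_of_mem hm))

lemma Phi_mono (hc : CARel c) {S : Finset ι} {t : ι → ℝ} (ht : ∀ m ∈ S, t m ^ 2 ≤ 1) {A B : 𝒜}
    (h : A ≤ B) : Phi hc S t A ≤ Phi hc S t B := by
  have h1 : 0 ≤ Phi hc S t (B - A) := Phi_nonneg hc ht (sub_nonneg.mpr h)
  rw [map_sub] at h1
  exact sub_nonneg.mp h1

lemma Phi_algebraMap (hc : CARel c) (S : Finset ι) (t : ι → ℝ) (r : ℝ) :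
    Phi hc S t (algebraMap ℝ 𝒜 r) = algebraMap ℝ 𝒜 r := by
  rw [Algebra.algebraMap_eq_smul_one, ← coe_smul_eq, map_smul, Phi_unit]

lemma Phi_sa (hc : CARel c) (S : Finset ι) (t : ι → ℝ) {A : 𝒜} (hA : IsSelfAdjoint A) :
    IsSelfAdjoint (Phi hc S t A) := by
  show star (Phi hc S t A) = _
  rw [← Phi_star, hA.star_eq]

/-- the loss channel is contractive on self-adjoint operators -/
lemma norm_Phi_le (hc : CARel c) {S : Finset ι} {t : ι → ℝ} (ht : ∀ m ∈ S, t m ^ 2 ≤ 1) {A : 𝒜}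
    (hA : IsSelfAdjoint A) : ‖Phi hc S t A‖ ≤ ‖A‖ := by
  refine norm_le_of_sa (Phi_sa hc S t hA) ?_ ?_ (norm_nonneg _)
  · have := Phi_mono hc ht (IsSelfAdjoint.le_algebraMap_norm_self hA)
    rwa [Phi_algebraMap] at this
  · have := Phi_mono hc ht (IsSelfAdjoint.neg_algebraMap_norm_le_self hA)
    rwa [map_neg, Phi_algebraMap] at this

lemma norm_sub_Phi (hc : CARel c) {S : Finset ι} {t : ι → ℝ} (ht0 : ∀ m ∈ S, 0 ≤ t m)
    (ht : ∀ m ∈ S, t m ≤ 1) {A : 𝒜} (hA : IsSelfAdjoint A) :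
    ‖A - Phi hc S t A‖ ≤ (∑ m ∈ S, 4 * (1 - t m)) * ‖A‖ := by
  induction S using Finset.induction_on with
  | empty => simp [Phi_empty]
  | insert a S ha ih =>
    have h1 := ih (fun m hm => ht0 m (Finset.mem_insert_of_mem hm))
      (fun m hm => ht m (Finset.mem_insert_of_mem hm))
    have h2 := hc.norm_sub_phi a (ht0 a (Finset.mem_insert_self _ _))
      (ht a (Finset.mem_insert_self _ _)) (Phi hc S t A)
    have h3 : ‖Phi hc S t A‖ ≤ ‖A‖ := by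
      refine norm_Phi_le hc (fun m hm => ?_) hA
      have a0 := ht0 m (Finset.mem_insert_of_mem hm)
      have a1 := ht m (Finset.mem_insert_of_mem hm)
      nlinarith
    rw [Phi_insert_apply hc ha, Finset.sum_insert ha]
    have a1 := ht a (Finset.mem_insert_self _ _)
    calc ‖A - phi c a (t a) (Phi hc S t A)‖
        = ‖(A - Phi hc S t A) + (Phi hc S t A - phi c a (t a) (Phi hc S t A))‖ := by
          congr 1; abel
      _ ≤ ‖A - Phi hc S t A‖ + ‖Phi hc S t A - phi c a (t a) (Phi hc S t A)‖ := norm_add_le _ _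
      _ ≤ (∑ m ∈ S, 4 * (1 - t m)) * ‖A‖ + 4 * (1 - t a) * ‖A‖ := by
          refine add_le_add h1 (h2.trans ?_)
          exact mul_le_mul_of_nonneg_left h3 (by linarith)
      _ = _ := by ring

lemma norm_Phi_inv (hc : CARel c) {S : Finset ι} {t : ι → ℝ} (ht : ∀ m ∈ S, 1 ≤ t m) (A : 𝒜) :
    ‖Phi hc S t A‖ ≤ (∏ m ∈ S, (2 * t m ^ 2 - 1)) * ‖A‖ := by
  induction S using Finset.induction_on with
  | empty => simp [Phi_empty]
  | insert a S ha ih =>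
    rw [Phi_insert_apply hc ha, Finset.prod_insert ha, mul_assoc]
    have h := ht a (Finset.mem_insert_self _ _)
    refine (hc.norm_phi_of_one_le a h _).trans ?_
    exact mul_le_mul_of_nonneg_left (ih fun m hm => ht m (Finset.mem_insert_of_mem hm))
      (by nlinarith)

/-- the inverse of the exponential loss channel -/
lemma norm_Phi_exp (hc : CARel c) (S : Finset ι) (x : ι → ℝ) (hx : ∀ m ∈ S, 0 ≤ x m) (A : 𝒜) :
    ‖Phi hc S (fun m => Real.exp (x m)) A‖ ≤ Real.exp (4 * ∑ m ∈ S, x m) * ‖A‖ := by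
  refine (norm_Phi_inv hc (fun m hm => Real.one_le_exp (hx m hm)) A).trans ?_
  refine mul_le_mul_of_nonneg_right ?_ (norm_nonneg _)
  rw [Finset.mul_sum, Real.exp_sum]
  refine Finset.prod_le_prod (fun m hm => ?_) (fun m hm => ?_)
  · nlinarith [Real.one_le_exp (hx m hm)]
  · have h : Real.exp (4 * x m) = (Real.exp (x m) ^ 2) ^ 2 := by
      rw [← pow_mul, ← Real.exp_nat_mul]; norm_num
    rw [h]
    nlinarith [sq_nonneg (Real.exp (x m) ^ 2 - 1)]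

end alg

end Crest.Agent.R340.Thin565
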