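import Mathlib
import Crest.Agent.R340.Thin4_565

/-!
# R340 (helper565), thinning 5: the exact local relative bound (R1) for strictly local operators
-/

set_option autoImplicit false
set_option linter.unusedSectionVars false

open scoped ComplexOrder

namespace Crest.Agent.R340.Thin565

variable {𝒜 : Type*} [CStarAlgebra 𝒜] [PartialOrder 𝒜] [StarOrderedRing 𝒜]
variable {ι : Type*} [DecidableEq ι] [Fintype ι] {κ : Type*} [Fintype κ]

/-- the weighted sums of pair energies `∑ g p • B_p^* B_p` -/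
noncomputable def HW (c : ι → 𝒜) (β : κ → ι → ι → ℂ) (g : κ → ℝ) : 𝒜 :=
  ∑ p, g p • (star (pr c (β p)) * pr c (β p))

/-- the data: CAR family, degrees, pair operators, zero mode projection, gap `γ` -/
structure Geo (c : ι → 𝒜) (deg : ι → ℕ) (β : κ → ι → ι → ℂ) (dp : κ → ℕ) (P : 𝒜) (γ : ℝ) :
    Prop where
  car : CARel c
  inj : Function.Injective deg
  supp : ∀ p i j, β p i j ≠ 0 → deg i + deg j = dp p
  ker : IsKer (fun p => pr c (β p)) P
  pos : 0 < γ
  gap : γ • (1 - P) ≤ HW c β (fun _ => 1)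

lemma HW_mono (c : ι → 𝒜) (β : κ → ι → ι → ℂ) {g g' : κ → ℝ} (h : ∀ p, g p ≤ g' p) :
    HW c β g ≤ HW c β g' :=
  Finset.sum_le_sum fun p _ => smul_le_smul_right' (h p) (star_mul_self_nonneg _)

lemma HW_nonneg (c : ι → 𝒜) (β : κ → ι → ι → ℂ) {g : κ → ℝ} (h : ∀ p, 0 ≤ g p) :
    0 ≤ HW c β g :=
  Finset.sum_nonneg fun p _ => smul_nonneg (h p) (star_mul_self_nonneg _)

lemma HW_smul (c : ι → 𝒜) (β : κ → ι → ι → ℂ) (g : κ → ℝ) (r : ℝ) :
    r • HW c β g = HW c β (fun p => r * g p) := by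
  unfold HW
  rw [Finset.smul_sum]
  exact Finset.sum_congr rfl fun p _ => smul_smul _ _ _

lemma HW_add (c : ι → 𝒜) (β : κ → ι → ι → ℂ) (g g' : κ → ℝ) :
    HW c β g + HW c β g' = HW c β (fun p => g p + g' p) := by
  unfold HW
  rw [← Finset.sum_add_distrib]
  exact Finset.sum_congr rfl fun p _ => (add_smul _ _ _).symm

lemma HW_sum {ν : Type*} (T : Finset ν) (c : ι → 𝒜) (β : κ → ι → ι → ℂ) (g : ν → κ → ℝ) :
    ∑ l ∈ T, HW c β (g l) = HW c β (fun p => ∑ l ∈ T, g l p) := by
  unfold HW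
  rw [Finset.sum_comm]
  exact Finset.sum_congr rfl fun p _ => (Finset.sum_smul).symm

lemma HW_sa (c : ι → 𝒜) (β : κ → ι → ι → ℂ) (g : κ → ℝ) : IsSelfAdjoint (HW c β g) := by
  unfold HW
  refine isSelfAdjoint_sum _ fun p _ => ?_
  show star (g p • (star (pr c (β p)) * pr c (β p))) = _
  rw [star_smul, star_mul, star_star, star_trivial]

/-- action of the channel -/
lemma Phi_HW {c : ι → 𝒜} (hc : CARel c) {β : κ → ι → ι → ℂ} (t : ι → ℝ) (τ : κ → ℝ)
    (ht : ∀ p i j, β p i j ≠ 0 → t i * t j = τ p) (g : κ → ℝ) :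
    Phi hc Finset.univ t (HW c β g) = HW c β (fun p => g p * τ p ^ 2) := by
  unfold HW
  rw [map_sum]
  refine Finset.sum_congr rfl fun p _ => ?_
  rw [← coe_smul_eq, map_smul, Phi_pr_pr hc t (ht p) (ht p), smul_smul, ← coe_smul_eq]
  congr 1
  push_cast; ring

/-- construction of the kernel projection data from the gap -/
lemma isKer_of_gap {c : ι → 𝒜} {β : κ → ι → ι → ℂ} {P : 𝒜} (sa : star P = P) (idem : P * P = P)
    (ann : ∀ p, pr c (β p) * P = 0) {γ : ℝ} (hγ : 0 < γ)
    (gap : γ • (1 - P) ≤ HW c β (fun _ => 1)) : IsKer (fun p => pr c (β p)) P where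
  sa := sa
  idem := idem
  ann := ann
  max := by
    intro A hA
    have h1 : star A * (γ • (1 - P)) * A ≤ star A * HW c β (fun _ => 1) * A :=
      star_left_conjugate_le_conjugate gap _
    have h2 : star A * HW c β (fun _ => 1) * A = 0 := by
      unfold HW
      rw [Finset.mul_sum, Finset.sum_mul]
      refine Finset.sum_eq_zero fun p _ => ?_
      rw [one_smul, mul_assoc, mul_assoc (star _) _ A, hA p, mul_zero, mul_zero]
    rw [h2] at h1
    have h3 : star ((1 - P) * A) * ((1 - P) * A) = star A * (1 - P) * A := by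
      rw [star_mul, star_sub, star_one, sa]
      have : (1 - P) * (1 - P) = 1 - P := by
        rw [mul_sub, sub_mul, sub_mul, idem]; simp
      calc star A * (1 - P) * ((1 - P) * A) = star A * ((1 - P) * (1 - P)) * A := by noncomm_ring
        _ = _ := by rw [this]
    have h4 : star A * (γ • (1 - P)) * A = γ • (star A * (1 - P) * A) := by
      rw [mul_smul_comm, smul_mul_assoc]
    rw [h4, ← h3] at h1
    have h5 : star ((1 - P) * A) * ((1 - P) * A) ≤ 0 := by
      have := smul_le_smul' (inv_pos.mpr hγ).le h1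
      rwa [smul_smul, inv_mul_cancel₀ hγ.ne', one_smul, smul_zero] at this
    have h6 : star ((1 - P) * A) * ((1 - P) * A) = 0 := le_antisymm h5 (star_mul_self_nonneg _)
    have h7 : (1 - P) * A = 0 := by rwa [CStarRing.star_mul_self_eq_zero_iff] at h6
    rw [sub_mul, one_mul, sub_eq_zero] at h7
    exact h7.symm

lemma sum_deg_le {deg : ι → ℕ} (hinj : Function.Injective deg) (M : ℕ) :
    ∑ m ∈ Finset.univ.filter (fun m => deg m < M), deg m ≤ ∑ j ∈ Finset.range M, j := by
  have h : ∑ m ∈ Finset.univ.filter (fun m => deg m < M), deg m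
      = ∑ j ∈ (Finset.univ.filter (fun m => deg m < M)).image deg, j := by
    rw [Finset.sum_image (fun a _ b _ h => hinj h)]
  rw [h]
  refine Finset.sum_le_sum_of_subset ?_
  intro j hj
  rw [Finset.mem_image] at hj
  obtain ⟨m, hm, rfl⟩ := hj
  rw [Finset.mem_filter] at hm
  exact Finset.mem_range.mpr hm.2

lemma sum_deg_real_le {deg : ι → ℕ} (hinj : Function.Injective deg) (M : ℕ) :
    ∑ m ∈ Finset.univ.filter (fun m => deg m < M), (deg m : ℝ) ≤ (M : ℝ) ^ 2 / 2 := by
  have h1 := sum_deg_le hinj M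
  have h2 : ((∑ m ∈ Finset.univ.filter (fun m => deg m < M), deg m : ℕ) : ℝ)
      ≤ ((∑ j ∈ Finset.range M, j : ℕ) : ℝ) := by exact_mod_cast h1
  push_cast at h2
  refine h2.trans ?_
  have h3 : ∀ n : ℕ, ∑ j ∈ Finset.range n, (j : ℝ) ≤ (n : ℝ) ^ 2 / 2 := by
    intro n
    induction n with
    | zero => simp
    | succ n ih =>
      rw [Finset.sum_range_succ]
      push_cast
      nlinarith
  exact h3 M

/-- orbitals of degree `< M` -/
def low (deg : ι → ℕ) (M : ℕ) : Set ι := {m | deg m < M}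

lemma coe_filter_low (deg : ι → ℕ) (M : ℕ) :
    ((Finset.univ.filter (fun m => deg m < M) : Finset ι) : Set ι) = low deg M := by
  ext m; simp [low]

/-- a self-adjoint operator killing the zero modes is relatively bounded -/
lemma Geo.le_of_mul_proj {c : ι → 𝒜} {deg : ι → ℕ} {β : κ → ι → ι → ℂ} {dp : κ → ℕ} {P : 𝒜}
    {γ : ℝ} (h : Geo c deg β dp P γ) {F : 𝒜} (hF : IsSelfAdjoint F) (hFP : F * P = 0) :
    F ≤ (‖F‖ / γ) • HW c β (fun _ => 1) := by
  have hPF : P * F = 0 := by
    have := congrArg star hFP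
    rwa [star_mul, hF.star_eq, h.ker.sa, star_zero] at this
  have e : F = star (1 - P) * F * (1 - P) := by
    rw [star_sub, star_one, h.ker.sa, sub_mul, one_mul, hPF, sub_zero, mul_sub, mul_one, hFP,
      sub_zero]
  have e2 : star (1 - P) * (1 - P) = 1 - P := by
    rw [star_sub, star_one, h.ker.sa, mul_sub, sub_mul, sub_mul, h.ker.idem]; simp
  calc F = star (1 - P) * F * (1 - P) := e
    _ ≤ ‖F‖ • (star (1 - P) * (1 - P)) := CStarAlgebra.star_left_conjugate_le_norm_smul hF
    _ = ‖F‖ • (1 - P) := by rw [e2]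
    _ = (‖F‖ / γ) • (γ • (1 - P)) := by
        rw [smul_smul, div_mul_cancel₀ _ h.pos.ne']
    _ ≤ _ := smul_le_smul' (div_nonneg (norm_nonneg _) h.pos.le) h.gap

/-- **(R1) for strictly local positive operators** -/
theorem Geo.R1_pos {c : ι → 𝒜} {deg : ι → ℕ} {β : κ → ι → ι → ℂ} {dp : κ → ℕ} {P : 𝒜}
    {γ : ℝ} (h : Geo c deg β dp P γ) {M : ℕ} (hM : 0 < M) {E : 𝒜} (hE : IsSelfAdjoint E)
    (hL : Loc c (low deg M) E) (hEP : E * P = 0) :
    E ≤ (Real.exp 2 * ‖E‖ / γ) • HW c β (fun p => Real.exp (-2 * dp p / M ^ 2)) := by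
  have hM' : (0 : ℝ) < M := Nat.cast_pos.mpr hM
  set S := Finset.univ.filter (fun m => deg m < M) with hS
  set s : ι → ℝ := fun m => Real.exp (deg m / M ^ 2) with hs
  set t : ι → ℝ := fun m => Real.exp (-(deg m / M ^ 2)) with ht
  set F := Phi h.car Finset.univ s E with hF
  have hFsa : IsSelfAdjoint F := Phi_sa h.car _ _ hE
  have hFS : F = Phi h.car S s E := Phi_univ_eq h.car S s (by rw [hS, coe_filter_low]; exact hL)
  have hFP : F * P = 0 := by
    refine h.ker.Phi_mul h.car s (fun p => Real.exp (dp p / M ^ 2)) ?_ hEP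
    intro p i j hb
    rw [hs, ← h.supp p i j hb]
    simp only
    rw [← Real.exp_add]
    congr 1
    push_cast; ring
  have hFn : ‖F‖ ≤ Real.exp 2 * ‖E‖ := by
    rw [hFS]
    refine (norm_Phi_exp h.car S (fun m => deg m / M ^ 2) (fun m _ => by positivity) E).trans ?_
    refine mul_le_mul_of_nonneg_right (Real.exp_le_exp.mpr ?_) (norm_nonneg _)
    rw [← Finset.sum_div]
    have := sum_deg_real_le h.inj M
    rw [mul_div_assoc', div_le_iff₀ (by positivity)]
    linarith
  have hE' : E = Phi h.car Finset.univ t F := by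
    rw [hF, Phi_inv_apply h.car]
    intro m _
    rw [ht, hs]
    simp only
    rw [← Real.exp_add, neg_add_cancel, Real.exp_zero]
  have h1 := h.le_of_mul_proj hFsa hFP
  have h2 : Phi h.car Finset.univ t F ≤ Phi h.car Finset.univ t
      ((‖F‖ / γ) • HW c β (fun _ => 1)) := by
    refine Phi_mono h.car (fun m _ => ?_) h1
    rw [ht]
    simp only
    have h0 : Real.exp (-(deg m / M ^ 2 : ℝ)) ≤ 1 := Real.exp_le_one_iff.mpr (by
      rw [neg_nonpos]; positivity)
    nlinarith [Real.exp_pos (-(deg m / M ^ 2 : ℝ))]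
  rw [← hE', ← coe_smul_eq, map_smul, coe_smul_eq,
    Phi_HW h.car t (fun p => Real.exp (-(dp p / M ^ 2)))] at h2
  · refine h2.trans ?_
    have h3 : HW c β (fun p => 1 * Real.exp (-(dp p / M ^ 2)) ^ 2)
        = HW c β (fun p => Real.exp (-2 * dp p / M ^ 2)) := by
      congr 1
      funext p
      rw [one_mul, ← Real.exp_nat_mul]
      congr 1
      push_cast; ring
    rw [h3]
    refine smul_le_smul_right' ?_ (HW_nonneg c β fun p => (Real.exp_pos _).le)
    exact div_le_div_of_nonneg_right hFn h.pos.le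
  · intro p i j hb
    rw [ht, ← h.supp p i j hb]
    simp only
    rw [← Real.exp_add]
    congr 1
    push_cast; ring

/-- **(R1) for strictly local operators** -/
theorem Geo.R1_strict {c : ι → 𝒜} {deg : ι → ℕ} {β : κ → ι → ι → ℂ} {dp : κ → ℕ} {P : 𝒜}
    {γ : ℝ} (h : Geo c deg β dp P γ) {M : ℕ} (hM : 0 < M) {A : 𝒜}
    (hL : Loc c (low deg M) A) (hAP : A * P = 0) :
    star A * A ≤ (Real.exp 2 * ‖A‖ ^ 2 / γ) • HW c β (fun p => Real.exp (-2 * dp p / M ^ 2)) := by
  have h1 := h.R1_pos hM (IsSelfAdjoint.star_mul_self A) (hL.star.mul hL)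
    (by rw [mul_assoc, hAP, mul_zero])
  rwa [CStarRing.norm_star_mul_self, ← pow_two] at h1

end Crest.Agent.R340.Thin565
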