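import Mathlib
import Crest.Agent.R340.Thin5_565

/-!
# R340 (helper565), thinning 6: local kernel projections and Richardson extrapolation
-/

set_option autoImplicit false
set_option linter.unusedSectionVars false

open scoped ComplexOrder

namespace Crest.Agent.R340.Thin565

variable {𝒜 : Type*} [CStarAlgebra 𝒜] [PartialOrder 𝒜] [StarOrderedRing 𝒜]
variable {ι : Type*} [DecidableEq ι] [Fintype ι] {κ : Type*} [Fintype κ]

/-- projection onto the common kernel of the `B p`, `dp p < L` -/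
def IsKerL (c : ι → 𝒜) (β : κ → ι → ι → ℂ) (dp : κ → ℕ) (L : ℕ) (P : 𝒜) : Prop :=
  IsKer (fun p : {p : κ // dp p < L} => pr c (β p.1)) P

section ker

variable {c : ι → 𝒜} {deg : ι → ℕ} {β : κ → ι → ι → ℂ} {dp : κ → ℕ} {P : 𝒜} {γ : ℝ}

lemma IsKer.commute_of {ν : Type*} {B : ν → 𝒜} {P : 𝒜} (h : IsKer B P) {X : 𝒜}
    (h1 : ∀ p, Commute (B p) X) (h2 : ∀ p, Commute (B p) (star X)) : Commute P X := by
  have e1 : P * (X * P) = X * P := h.max _ fun p => by
    rw [← mul_assoc, (h1 p).eq, mul_assoc, h.ann p, mul_zero]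
  have e2 : P * (star X * P) = star X * P := h.max _ fun p => by
    rw [← mul_assoc, (h2 p).eq, mul_assoc, h.ann p, mul_zero]
  have e3 := congrArg star e2
  simp only [star_mul, star_star, h.sa] at e3
  show P * X = X * P
  rw [← e3, mul_assoc, e1]

/-- the local kernel projection is local -/
lemma IsKerL.loc (hc : CARel c) (hsupp : ∀ p i j, β p i j ≠ 0 → deg i + deg j = dp p)
    {L : ℕ} {P : 𝒜} (h : IsKerL c β dp L P) : Loc c (low deg L) P := by
  intro m hm
  have hm' : L ≤ deg m := by simpa [low] using hm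
  have key : ∀ p : {p : κ // dp p < L}, Commute (pr c (β p.1)) (c m) ∧
      Commute (pr c (β p.1)) (star (c m)) := by
    intro p
    have hl : Loc c (low deg L) (pr c (β p.1)) := by
      refine Loc_pr hc fun i j hb => ?_
      have := hsupp p.1 i j hb
      have h2 := p.2
      constructor
      · show deg i < L
        omega
      · show deg j < L
        omega
    exact hl m hm
  refine ⟨h.commute_of (fun p => (key p).1) (fun p => (key p).2),
    h.commute_of (fun p => (key p).2) (fun p => ?_)⟩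
  rw [star_star]; exact (key p).1

lemma IsKer.norm_le {ν : Type*} {B : ν → 𝒜} {P : 𝒜} (h : IsKer B P) : ‖P‖ ≤ 1 := by
  have e : ‖P‖ * ‖P‖ = ‖P‖ := by
    rw [← CStarRing.norm_star_mul_self, h.sa, h.idem]
  nlinarith [norm_nonneg P]

lemma IsKer.nonneg {ν : Type*} {B : ν → 𝒜} {P : 𝒜} (h : IsKer B P) : 0 ≤ P := by
  have : P = star P * P := by rw [h.sa, h.idem]
  rw [this]; exact star_mul_self_nonneg _

lemma IsKer.compl_idem {ν : Type*} {B : ν → 𝒜} {P : 𝒜} (h : IsKer B P) :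
    (1 - P) * (1 - P) = 1 - P := by
  rw [mul_sub, sub_mul, sub_mul, h.idem]; simp

lemma IsKer.compl_sa {ν : Type*} {B : ν → 𝒜} {P : 𝒜} (h : IsKer B P) :
    star (1 - P) = 1 - P := by rw [star_sub, star_one, h.sa]

lemma IsKer.compl_nonneg {ν : Type*} {B : ν → 𝒜} {P : 𝒜} (h : IsKer B P) : 0 ≤ 1 - P := by
  have : 1 - P = star (1 - P) * (1 - P) := by rw [h.compl_sa, h.compl_idem]
  rw [this]; exact star_mul_self_nonneg _

lemma IsKer.compl_norm {ν : Type*} {B : ν → 𝒜} {P : 𝒜} (h : IsKer B P) : ‖1 - P‖ ≤ 1 := by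
  have e : ‖1 - P‖ * ‖1 - P‖ = ‖1 - P‖ := by
    rw [← CStarRing.norm_star_mul_self, h.compl_sa, h.compl_idem]
  nlinarith [norm_nonneg (1 - P)]

lemma IsKerL.mul_ker {L : ℕ} {PL : 𝒜} (hL : IsKerL c β dp L PL)
    (h : IsKer (fun p => pr c (β p)) P) : PL * P = P :=
  hL.max P fun p => h.ann p.1

lemma IsKerL.mul_of_le {L L' : ℕ} (hLL : L ≤ L') {PL PL' : 𝒜} (hL : IsKerL c β dp L PL)
    (hL' : IsKerL c β dp L' PL') : PL * PL' = PL' :=
  hL.max PL' fun p => hL'.ann ⟨p.1, p.2.trans_le hLL⟩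

lemma IsKerL.mul_of_le' {L L' : ℕ} (hLL : L ≤ L') {PL PL' : 𝒜} (hL : IsKerL c β dp L PL)
    (hL' : IsKerL c β dp L' PL') : PL' * PL = PL' := by
  have := congrArg star (hL.mul_of_le hLL hL')
  rwa [star_mul, hL.sa, hL'.sa] at this

/-- the local kernel projections at large scale are below the zero mode projection -/
lemma IsKerL.ker_mul {L : ℕ} {PL : 𝒜} (hL : IsKerL c β dp L PL)
    (h : IsKer (fun p => pr c (β p)) P) (hbig : ∀ p, dp p < L) : P * PL = PL :=
  h.max PL fun p => hL.ann ⟨p, hbig p⟩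

/-- `1 - P_(L)` is relatively bounded -/
theorem Geo.one_sub_le (h : Geo c deg β dp P γ) {L : ℕ} (hL0 : 0 < L) {PL : 𝒜}
    (hL : IsKerL c β dp L PL) :
    1 - PL ≤ (Real.exp 2 / γ) • HW c β (fun p => Real.exp (-2 * dp p / L ^ 2)) := by
  have h1 := h.R1_pos hL0 (E := 1 - PL) hL.compl_sa
    ((Loc.one _).sub (hL.loc h.car h.supp)) (by
      rw [sub_mul, one_mul, hL.mul_ker h.ker, sub_self])
  refine h1.trans (smul_le_smul_right' ?_ (HW_nonneg c β fun p => (Real.exp_pos _).le))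
  refine div_le_div_of_nonneg_right ?_ h.pos.le
  exact mul_le_of_le_one_right (Real.exp_pos _).le hL.compl_norm

end ker

section rich

variable {c : ι → 𝒜} {deg : ι → ℕ} {β : κ → ι → ι → ℂ} {dp : κ → ℕ} {P : 𝒜} {γ : ℝ}

/-- the thinning amplitudes -/
noncomputable def ex (deg : ι → ℕ) (k : ℝ) (m : ι) : ℝ := Real.exp (-(k * deg m))

lemma ex_sq_le (deg : ι → ℕ) {k : ℝ} (hk : 0 ≤ k) (m : ι) : ex deg k m ^ 2 ≤ 1 := by
  have h0 : ex deg k m ≤ 1 := Real.exp_le_one_iff.mpr (by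
    rw [neg_nonpos]; positivity)
  nlinarith [Real.exp_pos (-(k * deg m : ℝ)), (Real.exp_pos (-(k * deg m : ℝ))).le,
    (show 0 < ex deg k m from Real.exp_pos _)]

lemma one_sub_ex_le (deg : ι → ℕ) (k : ℝ) (m : ι) : 1 - ex deg k m ≤ k * deg m := by
  have := Real.add_one_le_exp (-(k * deg m : ℝ))
  unfold ex
  linarith

/-- the thinning channel -/
noncomputable def Th (hc : CARel c) (deg : ι → ℕ) (k : ℝ) : Module.End ℂ 𝒜 :=
  Phi hc Finset.univ (ex deg k)

lemma Th_pow (hc : CARel c) (k : ℝ) (j : ℕ) :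
    Th hc deg k ^ j = Th hc deg (j * k) := by
  induction j with
  | zero =>
    rw [pow_zero]
    unfold Th
    rw [Phi_one]
    intro m _
    simp [ex]
  | succ j ih =>
    rw [pow_succ, ih]
    unfold Th
    rw [Phi_mul]
    congr 1
    funext m
    unfold ex
    rw [← Real.exp_add]
    congr 1
    push_cast; ring

lemma Th_HW (hc : CARel c) (hsupp : ∀ p i j, β p i j ≠ 0 → deg i + deg j = dp p) (k : ℝ)
    (g : κ → ℝ) :
    Th hc deg k (HW c β g) = HW c β (fun p => g p * Real.exp (-(2 * k * dp p))) := by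
  unfold Th
  rw [Phi_HW hc _ (fun p => Real.exp (-(k * dp p)))]
  · congr 1
    funext p
    rw [← Real.exp_nat_mul]
    congr 2
    push_cast; ring
  · intro p i j hb
    unfold ex
    rw [← Real.exp_add, ← hsupp p i j hb]
    congr 1
    push_cast; ring

/-- one Richardson step -/
lemma norm_one_sub_Th (hc : CARel c) (hinj : Function.Injective deg) {k : ℝ} (hk : 0 ≤ k) {M : ℕ}
    {X : 𝒜} (hX : IsSelfAdjoint X) (hL : Loc c (low deg M) X) :
    ‖(1 - Th hc deg k) X‖ ≤ (2 * k * M ^ 2) * ‖X‖ := by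
  set S := Finset.univ.filter (fun m => deg m < M) with hS
  have e : (1 - Th hc deg k) X = X - Phi hc S (ex deg k) X := by
    show X - Phi hc Finset.univ (ex deg k) X = _
    rw [Phi_univ_eq hc S _ (by rw [hS, coe_filter_low]; exact hL)]
  rw [e]
  refine (norm_sub_Phi hc (fun m _ => (Real.exp_pos _).le) (fun m _ => ?_) hX).trans ?_
  · exact Real.exp_le_one_iff.mpr (by rw [neg_nonpos]; positivity)
  refine mul_le_mul_of_nonneg_right ?_ (norm_nonneg _)
  calc ∑ m ∈ S, 4 * (1 - ex deg k m) ≤ ∑ m ∈ S, 4 * (k * deg m) :=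
        Finset.sum_le_sum fun m _ => by linarith [one_sub_ex_le deg k m]
    _ = 4 * k * ∑ m ∈ S, (deg m : ℝ) := by
        rw [Finset.mul_sum]; exact Finset.sum_congr rfl fun m _ => by ring
    _ ≤ 4 * k * ((M : ℝ) ^ 2 / 2) :=
        mul_le_mul_of_nonneg_left (sum_deg_real_le hinj M) (by positivity)
    _ = _ := by ring

lemma one_sub_Th_sa (hc : CARel c) (k : ℝ) {X : 𝒜} (hX : IsSelfAdjoint X) :
    IsSelfAdjoint ((1 - Th hc deg k) X) := by
  show IsSelfAdjoint (X - Phi hc Finset.univ (ex deg k) X)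
  exact hX.sub (Phi_sa hc _ _ hX)

lemma one_sub_Th_loc (hc : CARel c) (k : ℝ) {M : ℕ} {X : 𝒜} (hL : Loc c (low deg M) X) :
    Loc c (low deg M) ((1 - Th hc deg k) X) := by
  set S := Finset.univ.filter (fun m => deg m < M) with hS
  have e : (1 - Th hc deg k) X = X - Phi hc S (ex deg k) X := by
    show X - Phi hc Finset.univ (ex deg k) X = _
    rw [Phi_univ_eq hc S _ (by rw [hS, coe_filter_low]; exact hL)]
  rw [e]
  exact hL.sub (Phi_Loc hc (by rw [hS, coe_filter_low]) _ hL)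

lemma norm_one_sub_Th_pow (hc : CARel c) (hinj : Function.Injective deg) {k : ℝ} (hk : 0 ≤ k)
    {M : ℕ} (n : ℕ) {X : 𝒜} (hX : IsSelfAdjoint X) (hL : Loc c (low deg M) X) :
    ‖((1 - Th hc deg k) ^ n) X‖ ≤ (2 * k * M ^ 2) ^ n * ‖X‖ := by
  induction n generalizing X with
  | zero => simp
  | succ n ih =>
    have e : ((1 - Th hc deg k) ^ (n + 1)) X = ((1 - Th hc deg k) ^ n) ((1 - Th hc deg k) X) := by
      rw [pow_succ]; rfl
    rw [e]
    refine (ih (one_sub_Th_sa hc k hX) (one_sub_Th_loc hc k hL)).trans ?_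
    rw [pow_succ _ n, mul_assoc ((2 * k * (M : ℝ) ^ 2) ^ n)]
    exact mul_le_mul_of_nonneg_left (norm_one_sub_Th hc hinj hk hX hL)
      (pow_nonneg (by positivity) _)

/-- the Richardson identity -/
lemma richardson_id {R : Type*} [Ring R] (x : R) (n : ℕ) :
    (1 : R) = (1 - x) ^ n - ∑ j ∈ Finset.range n, ((-1) ^ (j + 1) * (n.choose (j + 1)) : ℤ) • x ^ (j + 1)
      := by
  have h : (1 - x) ^ n = ∑ j ∈ Finset.range (n + 1), ((-1) ^ j * (n.choose j) : ℤ) • x ^ j := by
    rw [sub_eq_neg_add, Commute.add_pow (Commute.one_right _)]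
    refine Finset.sum_congr rfl fun j _ => ?_
    rw [one_pow, mul_one, neg_pow, zsmul_eq_mul]
    push_cast
    have : Commute (x ^ j) ((n.choose j : ℕ) : R) := Nat.commute_cast _ _
    rw [mul_assoc, this.eq, mul_assoc]
  rw [h, Finset.sum_range_succ']
  simp

/-- the thinned energy of a state with `P_(L) = 1` -/
lemma norm_conj_le (hc : CARel c) (hsupp : ∀ p i j, β p i j ≠ 0 → deg i + deg j = dp p)
    {k : ℝ} {L : ℕ} {PL : 𝒜} (hL : IsKerL c β dp L PL) :
    PL * Th hc deg k (HW c β (fun _ => 1)) * PL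
      ≤ algebraMap ℝ 𝒜 (∑ p ∈ Finset.univ.filter (fun p => L ≤ dp p),
          Real.exp (-(2 * k * dp p)) * ‖pr c (β p)‖ ^ 2) := by
  rw [Th_HW hc hsupp]
  unfold HW
  rw [Finset.mul_sum, Finset.sum_mul, map_sum,
    ← Finset.sum_filter_add_sum_filter_not Finset.univ (fun p => L ≤ dp p)]
  have h0 : ∑ x ∈ Finset.univ.filter (fun p => ¬ L ≤ dp p),
      PL * (1 * Real.exp (-(2 * k * dp x))) • (star (pr c (β x)) * pr c (β x)) * PL = 0 := by
    refine Finset.sum_eq_zero fun p hp => ?_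
    rw [Finset.mem_filter, not_le] at hp
    have := hL.ann ⟨p, hp.2⟩
    simp only at this
    rw [mul_smul_comm, smul_mul_assoc, mul_assoc PL, mul_assoc (star _), this]
    simp
  rw [h0, add_zero]
  refine Finset.sum_le_sum fun p _ => ?_
  show PL * (1 * Real.exp (-(2 * k * ↑(dp p)))) • (star (pr c (β p)) * pr c (β p)) * PL ≤ _
  rw [one_mul, mul_smul_comm, smul_mul_assoc, map_mul, Algebra.algebraMap_eq_smul_one (Real.exp _),
    smul_mul_assoc, one_mul]
  refine smul_le_smul' (Real.exp_pos _).le ?_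
  have e : PL * (star (pr c (β p)) * pr c (β p)) * PL
      = star (pr c (β p) * PL) * (pr c (β p) * PL) := by
    rw [star_mul, hL.sa]; noncomm_ring
  rw [e]
  refine CStarAlgebra.star_mul_le_algebraMap_norm_sq.trans ?_
  refine algebraMap_mono 𝒜 ?_
  have h1 : ‖pr c (β p) * PL‖ ≤ ‖pr c (β p)‖ :=
    (norm_mul_le _ _).trans (mul_le_of_le_one_right (norm_nonneg _) hL.norm_le)
  exact pow_le_pow_left₀ (norm_nonneg _) h1 2

end rich

end Crest.Agent.R340.Thin565
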