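import Mathlib
import Crest.Agent.R340.Thin6_565

/-!
# R340 (helper565), thinning 7: Richardson extrapolation, strictly local and quasi-local
-/

set_option autoImplicit false
set_option linter.unusedSectionVars false

open scoped ComplexOrder

namespace Crest.Agent.R340.Thin565

variable {𝒜 : Type*} [CStarAlgebra 𝒜] [PartialOrder 𝒜] [StarOrderedRing 𝒜]
variable {ι : Type*} [DecidableEq ι] [Fintype ι] {κ : Type*} [Fintype κ]
variable {c : ι → 𝒜} {deg : ι → ℕ} {β : κ → ι → ι → ℂ} {dp : κ → ℕ} {P : 𝒜} {γ : ℝ}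

lemma star_add_mul_le (x y : 𝒜) :
    star (x + y) * (x + y) ≤ (2 : ℝ) • (star x * x) + (2 : ℝ) • (star y * y) := by
  have h : 0 ≤ star (x - y) * (x - y) := star_mul_self_nonneg _
  have e : (2 : ℝ) • (star x * x) + (2 : ℝ) • (star y * y) - star (x + y) * (x + y)
      = star (x - y) * (x - y) := by
    rw [two_smul, two_smul, star_add, star_sub]; noncomm_ring
  rw [← e] at h
  exact sub_nonneg.mp h

lemma Geo.sq_le (h : Geo c deg β dp P γ) (A : 𝒜) :
    star A * A ≤ algebraMap ℝ 𝒜 (2 * ‖A * P‖ ^ 2)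
      + (2 * ‖A‖ ^ 2 / γ) • HW c β (fun _ => 1) := by
  have e : A = A * P + A * (1 - P) := by rw [mul_sub, mul_one]; abel
  have h1 := star_add_mul_le (A * P) (A * (1 - P))
  rw [← e] at h1
  refine h1.trans (add_le_add ?_ ?_)
  · rw [map_mul, Algebra.algebraMap_eq_smul_one (2 : ℝ), smul_mul_assoc, one_mul]
    exact smul_le_smul' (by norm_num) CStarAlgebra.star_mul_le_algebraMap_norm_sq
  · have h2 : star (A * (1 - P)) * (A * (1 - P)) ≤ ‖A‖ ^ 2 • (1 - P) := by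
      have e2 : star (A * (1 - P)) * (A * (1 - P)) = star (1 - P) * (star A * A) * (1 - P) := by
        rw [star_mul]; noncomm_ring
      rw [e2]
      refine (CStarAlgebra.star_left_conjugate_le_norm_smul (IsSelfAdjoint.star_mul_self A)).trans ?_
      rw [h.ker.compl_sa, h.ker.compl_idem, CStarRing.norm_star_mul_self, ← pow_two]
    refine (smul_le_smul' (by norm_num : (0:ℝ) ≤ 2) h2).trans ?_
    have e3 : (2 : ℝ) • ‖A‖ ^ 2 • (1 - P) = (2 * ‖A‖ ^ 2 / γ) • (γ • (1 - P)) := by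
      rw [smul_smul, smul_smul, div_mul_cancel₀ _ h.pos.ne']
    rw [e3]
    exact smul_le_smul' (div_nonneg (by positivity) h.pos.le) h.gap

lemma Th_algebraMap (hc : CARel c) (k : ℝ) (r : ℝ) :
    Th hc deg k (algebraMap ℝ 𝒜 r) = algebraMap ℝ 𝒜 r := Phi_algebraMap hc _ _ r

lemma Th_mono (hc : CARel c) {k : ℝ} (hk : 0 ≤ k) {X Y : 𝒜} (h : X ≤ Y) :
    Th hc deg k X ≤ Th hc deg k Y := Phi_mono hc (fun m _ => ex_sq_le deg hk m) h

lemma Th_nonneg (hc : CARel c) {k : ℝ} (hk : 0 ≤ k) {X : 𝒜} (h : 0 ≤ X) :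
    0 ≤ Th hc deg k X := Phi_nonneg hc (fun m _ => ex_sq_le deg hk m) h

lemma Th_rsmul (hc : CARel c) (k : ℝ) (r : ℝ) (X : 𝒜) :
    Th hc deg k (r • X) = r • Th hc deg k X := by
  rw [← coe_smul_eq, map_smul, coe_smul_eq]

lemma Geo.norm_Th_conj (h : Geo c deg β dp P γ) {k : ℝ} (hk : 0 ≤ k) {L : ℕ} {PL : 𝒜}
    (hL : IsKerL c β dp L PL) (A : 𝒜) :
    ‖PL * Th h.car deg k (star A * A) * PL‖ ≤ 2 * ‖A * P‖ ^ 2 + 2 * ‖A‖ ^ 2 / γ *
      (∑ p ∈ Finset.univ.filter (fun p => L ≤ dp p),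
          Real.exp (-(2 * k * dp p)) * ‖pr c (β p)‖ ^ 2) := by
  have hγ := h.pos
  have conj : ∀ {X Y : 𝒜}, X ≤ Y → PL * X * PL ≤ PL * Y * PL := by
    intro X Y hXY
    have := star_left_conjugate_le_conjugate hXY PL
    rwa [hL.sa] at this
  have h0 : 0 ≤ PL * Th h.car deg k (star A * A) * PL := by
    have := conj (Th_nonneg (deg := deg) h.car hk (star_mul_self_nonneg A))
    simpa using this
  have hδ : 0 ≤ ∑ p ∈ Finset.univ.filter (fun p => L ≤ dp p),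
          Real.exp (-(2 * k * dp p)) * ‖pr c (β p)‖ ^ 2 :=
    Finset.sum_nonneg fun p _ => by positivity
  rw [CStarAlgebra.norm_le_iff_le_algebraMap _ (by positivity) h0]
  have h1 := conj (Th_mono (deg := deg) h.car hk (h.sq_le A))
  refine h1.trans ?_
  rw [map_add, Th_algebraMap, Th_rsmul, mul_add, add_mul, mul_smul_comm, smul_mul_assoc, map_add]
  refine add_le_add ?_ ?_
  · rw [Algebra.algebraMap_eq_smul_one, mul_smul_comm, smul_mul_assoc, mul_one, hL.idem]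
    refine smul_le_smul' (by positivity) ?_
    exact sub_nonneg.mp hL.compl_nonneg
  · have h2 := norm_conj_le h.car h.supp (k := k) hL
    refine (smul_le_smul' (div_nonneg (by positivity) hγ.le) h2).trans ?_
    rw [map_mul, Algebra.algebraMap_eq_smul_one (2 * ‖A‖ ^ 2 / γ), smul_mul_assoc, one_mul]

/-- **Richardson extrapolation** -/
theorem Geo.richardson (h : Geo c deg β dp P γ) {k : ℝ} (hk : 0 ≤ k) {L M : ℕ} (n : ℕ) {PL : 𝒜}
    (hL : IsKerL c β dp L PL) {A : 𝒜} (hA : Loc c (low deg M) A) {δ : ℝ}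
    (hδ : ∑ p ∈ Finset.univ.filter (fun p => L ≤ dp p),
          Real.exp (-(2 * k * dp p)) * ‖pr c (β p)‖ ^ 2 ≤ δ) :
    ‖A * PL‖ ^ 2 ≤ 2 ^ n * (2 * ‖A * P‖ ^ 2 + 2 * ‖A‖ ^ 2 / γ * δ)
      + (2 * k * M ^ 2) ^ n * ‖A‖ ^ 2 := by
  have hγ := h.pos
  set E := star A * A with hE
  have hEsa : IsSelfAdjoint E := IsSelfAdjoint.star_mul_self A
  have hEn : ‖E‖ = ‖A‖ ^ 2 := by rw [hE, CStarRing.norm_star_mul_self, pow_two]
  have e1 : ‖A * PL‖ ^ 2 = ‖PL * E * PL‖ := by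
    rw [pow_two, ← CStarRing.norm_star_mul_self, star_mul, hL.sa, hE]
    congr 1; noncomm_ring
  set Φ := Th h.car deg k with hΦ
  have e2 : E = ((1 - Φ) ^ n) E - ∑ j ∈ Finset.range n,
      ((-1) ^ (j + 1) * (n.choose (j + 1)) : ℤ) • (Φ ^ (j + 1)) E := by
    have := congrArg (fun f : Module.End ℂ 𝒜 => f E) (richardson_id Φ n)
    simp only [LinearMap.sub_apply, LinearMap.sum_apply] at this
    exact this
  have hδ' : ∀ j : ℕ, ∑ p ∈ Finset.univ.filter (fun p => L ≤ dp p),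
          Real.exp (-(2 * ((j + 1 : ℕ) * k) * dp p)) * ‖pr c (β p)‖ ^ 2 ≤ δ := by
    intro j
    refine le_trans (Finset.sum_le_sum fun p _ => ?_) hδ
    refine mul_le_mul_of_nonneg_right (Real.exp_le_exp.mpr ?_) (by positivity)
    have : 0 ≤ (j : ℝ) * k * dp p := by positivity
    push_cast
    nlinarith
  have h3 : ∀ j : ℕ, ‖PL * (Φ ^ (j + 1)) E * PL‖ ≤ 2 * ‖A * P‖ ^ 2 + 2 * ‖A‖ ^ 2 / γ * δ := by
    intro j
    rw [hΦ, Th_pow]
    refine (h.norm_Th_conj (by positivity) hL A).trans ?_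
    gcongr
    exact hδ' j
  have hη : 0 ≤ 2 * ‖A * P‖ ^ 2 + 2 * ‖A‖ ^ 2 / γ * δ := le_trans (norm_nonneg _) (h3 0)
  have e3 : PL * E * PL = PL * ((1 - Φ) ^ n) E * PL - ∑ j ∈ Finset.range n,
      ((-1) ^ (j + 1) * (n.choose (j + 1)) : ℤ) • (PL * (Φ ^ (j + 1)) E * PL) := by
    conv_lhs => rw [e2]
    rw [mul_sub, sub_mul, Finset.mul_sum, Finset.sum_mul]
    congr 1
    refine Finset.sum_congr rfl fun j _ => ?_
    rw [mul_smul_comm, smul_mul_assoc]
  rw [e1, e3]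
  refine (norm_sub_le _ _).trans ?_
  rw [add_comm]
  refine add_le_add ?_ ?_
  · refine (norm_sum_le _ _).trans ?_
    have h4 : ∀ j ∈ Finset.range n, ‖((-1) ^ (j + 1) * (n.choose (j + 1)) : ℤ) •
        (PL * (Φ ^ (j + 1)) E * PL)‖ ≤ (n.choose (j + 1) : ℝ) *
        (2 * ‖A * P‖ ^ 2 + 2 * ‖A‖ ^ 2 / γ * δ) := by
      intro j _
      refine (norm_zsmul_le _ _).trans ?_
      have : ‖((-1) ^ (j + 1) * (n.choose (j + 1)) : ℤ)‖ = (n.choose (j + 1) : ℝ) := by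
        rw [norm_mul, norm_pow, norm_neg, norm_one, one_pow, one_mul, Int.norm_natCast]
      rw [this]
      exact mul_le_mul_of_nonneg_left (h3 j) (Nat.cast_nonneg _)
    refine (Finset.sum_le_sum h4).trans ?_
    rw [← Finset.sum_mul]
    refine mul_le_mul_of_nonneg_right ?_ hη
    have h5 : ∑ j ∈ Finset.range n, n.choose (j + 1) ≤ 2 ^ n := by
      rw [← Nat.sum_range_choose n, Finset.sum_range_succ' _ n]
      exact Nat.le_add_right _ _
    exact_mod_cast h5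
  · have h6 : ‖PL * ((1 - Φ) ^ n) E * PL‖ ≤ ‖((1 - Φ) ^ n) E‖ := by
      refine (norm_mul_le _ _).trans ?_
      calc ‖PL * ((1 - Φ) ^ n) E‖ * ‖PL‖ ≤ ‖PL * ((1 - Φ) ^ n) E‖ * 1 :=
            mul_le_mul_of_nonneg_left hL.norm_le (norm_nonneg _)
        _ ≤ ‖PL‖ * ‖((1 - Φ) ^ n) E‖ := by rw [mul_one]; exact norm_mul_le _ _
        _ ≤ _ := mul_le_of_le_one_left (norm_nonneg _) hL.norm_le
    refine h6.trans ?_
    rw [← hEn]
    exact norm_one_sub_Th_pow h.car h.inj hk n hEsa (hA.star.mul hA)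

end Crest.Agent.R340.Thin565
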