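import Mathlib
import Crest.Agent.R340.Thin7_565

/-!
# R340 (helper565), thinning 8: scalar estimates and the quasi-local Richardson bound
-/

set_option autoImplicit false
set_option linter.unusedSectionVars false

open scoped ComplexOrder

namespace Crest.Agent.R340.Thin565

lemma sum_inv_sq_le (N : ℕ) : ∑ d ∈ Finset.range N, 1 / ((d : ℝ) + 1) ^ 2 ≤ 2 := by
  have h : ∀ N : ℕ, ∑ d ∈ Finset.range (N + 1), 1 / ((d : ℝ) + 1) ^ 2 ≤ 2 - 1 / ((N : ℝ) + 1) := by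
    intro N
    induction N with
    | zero => norm_num
    | succ N ih =>
      rw [Finset.sum_range_succ]
      have h1 : (0:ℝ) < (N : ℝ) + 1 := by positivity
      have h2 : (0:ℝ) < ((N + 1 : ℕ) : ℝ) + 1 := by positivity
      have h3 : 1 / (((N + 1 : ℕ) : ℝ) + 1) ^ 2 ≤ 1 / ((N : ℝ) + 1) - 1 / (((N + 1 : ℕ) : ℝ) + 1) := by
        rw [div_sub_div _ _ h1.ne' h2.ne', div_le_div_iff₀ (by positivity) (by positivity)]
        push_cast
        nlinarith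
      linarith
  rcases N with _ | N
  · simp
  · have := h N
    have h1 : (0:ℝ) < 1 / ((N : ℝ) + 1) := by positivity
    linarith

lemma sum_inj_le {κ : Type*} [Fintype κ] {dp : κ → ℕ} (hinj : Function.Injective dp)
    (T : Finset κ) : ∑ p ∈ T, 1 / ((dp p : ℝ) + 1) ^ 2 ≤ 2 := by
  obtain ⟨N, hN⟩ : ∃ N, ∀ p, dp p < N := by
    refine ⟨Finset.univ.sup dp + 1, fun p => Nat.lt_succ_of_le (Finset.le_sup (Finset.mem_univ p))⟩
  have h : ∑ p ∈ T, 1 / ((dp p : ℝ) + 1) ^ 2 = ∑ d ∈ T.image dp, 1 / ((d : ℝ) + 1) ^ 2 := by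
    rw [Finset.sum_image (fun a _ b _ h => hinj h)]
  rw [h]
  refine le_trans (Finset.sum_le_sum_of_subset_of_nonneg (t := Finset.range N) ?_ ?_)
    (sum_inv_sq_le N)
  · intro d hd
    rw [Finset.mem_image] at hd
    obtain ⟨p, _, rfl⟩ := hd
    exact Finset.mem_range.mpr (hN p)
  · intro d _ _
    positivity

/-- `e^{-x} (1+x)^n ≤ e n!` -/
lemma exp_neg_mul_pow_le (n : ℕ) {x : ℝ} (hx : 0 ≤ x) :
    Real.exp (-x) * (1 + x) ^ n ≤ Real.exp 1 * n.factorial := by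
  have h := Real.pow_div_factorial_le_exp (1 + x) (by linarith) n
  have hn : (0:ℝ) < n.factorial := by positivity
  rw [div_le_iff₀ hn] at h
  have h2 : Real.exp (-x) * Real.exp (1 + x) = Real.exp 1 := by
    rw [← Real.exp_add]; congr 1; ring
  calc Real.exp (-x) * (1 + x) ^ n ≤ Real.exp (-x) * (Real.exp (1 + x) * n.factorial) :=
        mul_le_mul_of_nonneg_left h (Real.exp_pos _).le
    _ = _ := by rw [← mul_assoc, h2]

lemma exp_neg_le (n : ℕ) {x : ℝ} (hx : 0 < x) :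
    Real.exp (-x) ≤ n.factorial / x ^ n := by
  have h := Real.pow_div_factorial_le_exp x hx.le n
  have hn : (0:ℝ) < n.factorial := by positivity
  rw [div_le_iff₀ hn] at h
  rw [le_div_iff₀ (by positivity), Real.exp_neg]
  rw [inv_mul_le_iff₀ (Real.exp_pos _)]
  exact h

/-- `e^{-2d/X} ≤ e n! X^n / (d+1)^n` for `X ≥ 1` -/
lemma exp_weight_le (n : ℕ) {X d : ℝ} (hX : 1 ≤ X) (hd : 0 ≤ d) :
    Real.exp (-2 * d / X) ≤ Real.exp 1 * n.factorial * X ^ n / (d + 1) ^ n := by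
  have hX0 : 0 < X := by linarith
  have h1 := exp_neg_mul_pow_le n (x := d / X) (by positivity)
  have h2 : (d + 1) ^ n ≤ X ^ n * (1 + d / X) ^ n := by
    rw [← mul_pow]
    refine pow_le_pow_left₀ (by positivity) ?_ n
    have : X * (1 + d / X) = X + d := by field_simp
    linarith
  rw [le_div_iff₀ (by positivity)]
  have h3 : Real.exp (-2 * d / X) ≤ Real.exp (-(d / X)) := by
    refine Real.exp_le_exp.mpr ?_
    have : 0 ≤ d / X := by positivity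
    have e : -2 * d / X = -2 * (d / X) := by ring
    rw [e]; linarith
  calc Real.exp (-2 * d / X) * (d + 1) ^ n
      ≤ Real.exp (-(d / X)) * (X ^ n * (1 + d / X) ^ n) :=
        mul_le_mul h3 h2 (by positivity) (Real.exp_pos _).le
    _ = X ^ n * (Real.exp (-(d / X)) * (1 + d / X) ^ n) := by ring
    _ ≤ X ^ n * (Real.exp 1 * n.factorial) := mul_le_mul_of_nonneg_left h1 (by positivity)
    _ = _ := by ring

/-- the tail of the thinned energy, one term -/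
lemma tail_term_le (m : ℕ) {q : ℕ} (hq : 1 ≤ q) {d : ℕ} (hd : q ^ 4 ≤ d) :
    Real.exp (-(2 * (1 / (q : ℝ) ^ 3) * d)) * (d + 1)
      ≤ (6 * Real.exp 1 * (2 * m + 9).factorial / (q : ℝ) ^ (2 * m)) * (1 / ((d : ℝ) + 1) ^ 2) := by
  have hq' : (1 : ℝ) ≤ q := by exact_mod_cast hq
  have hq0 : (0 : ℝ) < q := by linarith
  set x : ℝ := d / (q : ℝ) ^ 3 with hx
  have hd' : (q : ℝ) ^ 4 ≤ d := by exact_mod_cast hd
  have hxq : (q : ℝ) ≤ x := by
    rw [hx, le_div_iff₀ (by positivity)]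
    have e : (q : ℝ) * (q : ℝ) ^ 3 = (q : ℝ) ^ 4 := by ring
    rw [e]; exact hd'
  have hx0 : 0 ≤ x := by linarith
  have e1 : Real.exp (-(2 * (1 / (q : ℝ) ^ 3) * d)) = Real.exp (-x) * Real.exp (-x) := by
    rw [← Real.exp_add]; congr 1; rw [hx]; ring
  have h1 : Real.exp (-x) ≤ (2 * m + 9).factorial / (q : ℝ) ^ (2 * m + 9) :=
    (Real.exp_le_exp.mpr (by linarith)).trans (exp_neg_le (2 * m + 9) hq0)
  have h2 : ((d : ℝ) + 1) ^ 3 ≤ (q : ℝ) ^ 9 * (1 + x) ^ 3 := by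
    have : (q : ℝ) ^ 9 * (1 + x) ^ 3 = ((q : ℝ) ^ 3 + d) ^ 3 := by
      have e : (q : ℝ) ^ 3 + d = q ^ 3 * (1 + x) := by rw [hx]; field_simp
      rw [e, mul_pow]; ring
    rw [this]
    refine pow_le_pow_left₀ (by positivity) ?_ 3
    have : (1 : ℝ) ≤ (q : ℝ) ^ 3 := one_le_pow₀ hq'
    linarith
  have h3 := exp_neg_mul_pow_le 3 hx0
  have h4 : Real.exp (-x) * ((d : ℝ) + 1) ^ 3 ≤ q ^ 9 * (Real.exp 1 * 6) := by
    calc Real.exp (-x) * ((d : ℝ) + 1) ^ 3 ≤ Real.exp (-x) * ((q : ℝ) ^ 9 * (1 + x) ^ 3) :=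
          mul_le_mul_of_nonneg_left h2 (Real.exp_pos _).le
      _ = q ^ 9 * (Real.exp (-x) * (1 + x) ^ 3) := by ring
      _ ≤ q ^ 9 * (Real.exp 1 * 6) := by
          refine mul_le_mul_of_nonneg_left ?_ (by positivity)
          have : ((Nat.factorial 3 : ℕ) : ℝ) = 6 := by norm_num [Nat.factorial]
          rw [this] at h3; exact h3
  have hd1 : (0:ℝ) < (d : ℝ) + 1 := by positivity
  have e2 : Real.exp (-x) * Real.exp (-x) * ((d : ℝ) + 1)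
      = Real.exp (-x) * (Real.exp (-x) * ((d : ℝ) + 1) ^ 3) * (1 / ((d : ℝ) + 1) ^ 2) := by
    field_simp
  rw [e1, e2]
  refine mul_le_mul_of_nonneg_right ?_ (by positivity)
  calc Real.exp (-x) * (Real.exp (-x) * ((d : ℝ) + 1) ^ 3)
      ≤ ((2 * m + 9).factorial / (q : ℝ) ^ (2 * m + 9)) * (q ^ 9 * (Real.exp 1 * 6)) :=
        mul_le_mul h1 h4 (by positivity) (by positivity)
    _ = _ := by rw [pow_add]; field_simp

/-- the constant of the quasi-local Richardson bound -/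
noncomputable def C1 (m : ℕ) (γ CB : ℝ) : ℝ :=
  2 + 2 * 4 ^ m * (6 + 96 * Real.exp 1 * CB * (2 * m + 9).factorial / γ)

lemma C1_nonneg (m : ℕ) {γ CB : ℝ} (hγ : 0 < γ) (hCB : 0 ≤ CB) : 0 ≤ C1 m γ CB := by
  unfold C1; positivity

section

variable {𝒜 : Type*} [CStarAlgebra 𝒜] [PartialOrder 𝒜] [StarOrderedRing 𝒜]
variable {ι : Type*} [DecidableEq ι] [Fintype ι] {κ : Type*} [Fintype κ]
variable {c : ι → 𝒜} {deg : ι → ℕ} {β : κ → ι → ι → ℂ} {dp : κ → ℕ} {P : 𝒜} {γ : ℝ}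

lemma tail_sum_le (hinj : Function.Injective dp) {CB : ℝ} (hCB : 0 ≤ CB)
    (hB : ∀ p, ‖pr c (β p)‖ ^ 2 ≤ CB * (dp p + 1)) (m : ℕ) {q : ℕ} (hq : 1 ≤ q) :
    ∑ p ∈ Finset.univ.filter (fun p => q ^ 4 ≤ dp p),
          Real.exp (-(2 * (1 / (q : ℝ) ^ 3) * dp p)) * ‖pr c (β p)‖ ^ 2
      ≤ 12 * Real.exp 1 * CB * (2 * m + 9).factorial / (q : ℝ) ^ (2 * m) := by
  have hq0 : (0 : ℝ) < q := by exact_mod_cast hq
  have h1 : ∀ p ∈ Finset.univ.filter (fun p => q ^ 4 ≤ dp p),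
      Real.exp (-(2 * (1 / (q : ℝ) ^ 3) * dp p)) * ‖pr c (β p)‖ ^ 2
      ≤ CB * (6 * Real.exp 1 * (2 * m + 9).factorial / (q : ℝ) ^ (2 * m)) *
        (1 / ((dp p : ℝ) + 1) ^ 2) := by
    intro p hp
    rw [Finset.mem_filter] at hp
    have := tail_term_le m hq hp.2
    calc Real.exp (-(2 * (1 / (q : ℝ) ^ 3) * dp p)) * ‖pr c (β p)‖ ^ 2
        ≤ Real.exp (-(2 * (1 / (q : ℝ) ^ 3) * dp p)) * (CB * (dp p + 1)) :=
          mul_le_mul_of_nonneg_left (hB p) (Real.exp_pos _).le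
      _ = CB * (Real.exp (-(2 * (1 / (q : ℝ) ^ 3) * dp p)) * (dp p + 1)) := by ring
      _ ≤ CB * ((6 * Real.exp 1 * (2 * m + 9).factorial / (q : ℝ) ^ (2 * m)) *
        (1 / ((dp p : ℝ) + 1) ^ 2)) := mul_le_mul_of_nonneg_left this hCB
      _ = _ := by ring
  refine (Finset.sum_le_sum h1).trans ?_
  rw [← Finset.mul_sum]
  have h2 := sum_inj_le hinj (Finset.univ.filter (fun p => q ^ 4 ≤ dp p))
  calc _ ≤ CB * (6 * Real.exp 1 * (2 * m + 9).factorial / (q : ℝ) ^ (2 * m)) * 2 :=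
        mul_le_mul_of_nonneg_left h2 (by positivity)
    _ = _ := by ring

/-- **Richardson for quasi-local operators** -/
theorem Geo.norm_mul_PL (h : Geo c deg β dp P γ) (hinj : Function.Injective dp) {CB : ℝ}
    (hCB : 0 ≤ CB) (hB : ∀ p, ‖pr c (β p)‖ ^ 2 ≤ CB * (dp p + 1)) (m : ℕ) {q : ℕ} (hq : 1 ≤ q)
    {PL : 𝒜} (hL : IsKerL c β dp (q ^ 4) PL) {A Aq : 𝒜} {D : ℝ} (hAP : A * P = 0)
    (hA : ‖A‖ ≤ D) (hAq : Loc c (low deg q) Aq) (hd : ‖A - Aq‖ ≤ D / (q : ℝ) ^ m) :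
    ‖A * PL‖ ^ 2 ≤ C1 m γ CB * D ^ 2 / (q : ℝ) ^ (2 * m) := by
  have hγ := h.pos
  have hq' : (1 : ℝ) ≤ q := by exact_mod_cast hq
  have hq0 : (0 : ℝ) < q := by linarith
  have hD : 0 ≤ D := (norm_nonneg _).trans hA
  set u : ℝ := (q : ℝ) ^ m with hu
  have hu1 : 1 ≤ u := one_le_pow₀ hq'
  have hu0 : 0 < u := by linarith
  have e0 : (q : ℝ) ^ (2 * m) = u ^ 2 := by rw [hu, ← pow_mul, mul_comm]
  have hDu : D / u ≤ D := div_le_self hD hu1
  have hAq2 : ‖Aq‖ ≤ 2 * D := by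
    have e : Aq = A - (A - Aq) := by abel
    calc ‖Aq‖ = ‖A - (A - Aq)‖ := by rw [← e]
      _ ≤ ‖A‖ + ‖A - Aq‖ := norm_sub_le _ _
      _ ≤ D + D := add_le_add hA (hd.trans hDu)
      _ = _ := by ring
  have hAqP : ‖Aq * P‖ ≤ D / u := by
    have e : Aq * P = -((A - Aq) * P) := by rw [sub_mul, hAP]; abel
    rw [e, norm_neg]
    refine (norm_mul_le _ _).trans ?_
    calc ‖A - Aq‖ * ‖P‖ ≤ ‖A - Aq‖ * 1 :=
          mul_le_mul_of_nonneg_left h.ker.norm_le (norm_nonneg _)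
      _ ≤ D / u := by rw [mul_one]; exact hd
  have h1 := h.richardson (k := 1 / (q : ℝ) ^ 3) (by positivity) (2 * m) hL hAq
    (tail_sum_le (c := c) (β := β) hinj hCB hB m hq)
  have e1 : (2 * (1 / (q : ℝ) ^ 3) * (q : ℝ) ^ 2) ^ (2 * m) = 4 ^ m / u ^ 2 := by
    have : 2 * (1 / (q : ℝ) ^ 3) * (q : ℝ) ^ 2 = 2 / q := by field_simp
    rw [this, div_pow, e0, pow_mul]; norm_num
  have e2 : (2 : ℝ) ^ (2 * m) = 4 ^ m := by rw [pow_mul]; norm_num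
  rw [e1, e2, e0] at h1
  set F : ℝ := 12 * Real.exp 1 * CB * (2 * m + 9).factorial with hF
  have hF0 : 0 ≤ F := by rw [hF]; positivity
  have h2 : ‖Aq * PL‖ ^ 2 ≤ 4 ^ m * (2 * (D / u) ^ 2 + 2 * (2 * D) ^ 2 / γ * (F / u ^ 2))
      + 4 ^ m / u ^ 2 * (2 * D) ^ 2 := by
    refine h1.trans ?_
    gcongr
  have e3 : 4 ^ m * (2 * (D / u) ^ 2 + 2 * (2 * D) ^ 2 / γ * (F / u ^ 2))
      + 4 ^ m / u ^ 2 * (2 * D) ^ 2 = 4 ^ m * (6 + 8 * F / γ) * D ^ 2 / u ^ 2 := by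
    field_simp; ring
  rw [e3] at h2
  have h3 : ‖(A - Aq) * PL‖ ≤ D / u := by
    refine (norm_mul_le _ _).trans ?_
    calc ‖A - Aq‖ * ‖PL‖ ≤ ‖A - Aq‖ * 1 :=
          mul_le_mul_of_nonneg_left hL.norm_le (norm_nonneg _)
      _ ≤ D / u := by rw [mul_one]; exact hd
  have h4 : ‖A * PL‖ ≤ ‖Aq * PL‖ + ‖(A - Aq) * PL‖ := by
    have e : A * PL = Aq * PL + (A - Aq) * PL := by rw [sub_mul]; abel
    rw [e]; exact norm_add_le _ _
  have h5 : ‖A * PL‖ ^ 2 ≤ 2 * ‖Aq * PL‖ ^ 2 + 2 * (D / u) ^ 2 := by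
    have a1 := norm_nonneg (A * PL)
    have a2 := norm_nonneg (Aq * PL)
    have a3 := norm_nonneg ((A - Aq) * PL)
    nlinarith [sq_nonneg (‖Aq * PL‖ - ‖(A - Aq) * PL‖),
      mul_le_mul h3 h3 a3 (div_nonneg hD hu0.le), mul_le_mul h4 h4 a1 (by linarith)]
  refine h5.trans ?_
  rw [e0]
  calc 2 * ‖Aq * PL‖ ^ 2 + 2 * (D / u) ^ 2
      ≤ 2 * (4 ^ m * (6 + 8 * F / γ) * D ^ 2 / u ^ 2) + 2 * (D / u) ^ 2 := by gcongr
    _ = C1 m γ CB * D ^ 2 / u ^ 2 := by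
        unfold C1
        rw [hF]
        field_simp
        ring

end

end Crest.Agent.R340.Thin565
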