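import Mathlib
import Crest.Agent.R340.Thin8_565

/-!
# R340 (helper565), thinning 9: (R1) for quasi-local operators
-/

set_option autoImplicit false
set_option linter.unusedSectionVars false

open scoped ComplexOrder

namespace Crest.Agent.R340.Thin565

variable {𝒜 : Type*} [CStarAlgebra 𝒜] [PartialOrder 𝒜] [StarOrderedRing 𝒜]

/-- weighted Cauchy--Schwarz -/
lemma star_sum_mul_le (N : ℕ) (x : ℕ → 𝒜) :
    star (∑ l ∈ Finset.range N, x l) * (∑ l ∈ Finset.range N, x l)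
      ≤ ∑ l ∈ Finset.range N, (2 : ℝ) ^ (l + 1) • (star (x l) * x l) := by
  induction N generalizing x with
  | zero => simp
  | succ N ih =>
    rw [Finset.sum_range_succ', Finset.sum_range_succ']
    refine (star_add_mul_le _ _).trans ?_
    refine add_le_add ?_ (by simp)
    have h := smul_le_smul' (by norm_num : (0:ℝ) ≤ 2) (ih (fun l => x (l + 1)))
    refine h.trans (le_of_eq ?_)
    rw [Finset.smul_sum]
    refine Finset.sum_congr rfl fun l _ => ?_
    rw [smul_smul]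
    congr 1
    ring

variable {ι : Type*} [DecidableEq ι] [Fintype ι] {κ : Type*} [Fintype κ]
variable {c : ι → 𝒜} {deg : ι → ℕ} {β : κ → ι → ι → ℂ} {dp : κ → ℕ} {P : 𝒜} {γ : ℝ}

/-- one telescoping piece -/
lemma piece_le {L L' : ℕ} (hLL : L ≤ L') {PL PL' : 𝒜} (hL : IsKerL c β dp L PL)
    (hL' : IsKerL c β dp L' PL') (A : 𝒜) :
    star (A * (PL - PL')) * (A * (PL - PL')) ≤ ‖A * PL‖ ^ 2 • (1 - PL') := by
  have e1 : PL * (PL - PL') = PL - PL' := by
    rw [mul_sub, hL.idem, hL.mul_of_le hLL hL']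
  have e2 : A * (PL - PL') = A * PL * (PL - PL') := by rw [mul_assoc, e1]
  have e3 : star (PL - PL') = PL - PL' := by rw [star_sub, hL.sa, hL'.sa]
  have e4 : (PL - PL') * (PL - PL') = PL - PL' := by
    rw [sub_mul, e1, mul_sub, hL'.idem, hL.mul_of_le' hLL hL', sub_self, sub_zero]
  rw [e2, star_mul]
  have e5 : star (PL - PL') * star (A * PL) * (A * PL * (PL - PL'))
      = star (PL - PL') * (star (A * PL) * (A * PL)) * (PL - PL') := by noncomm_ring
  rw [e5]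
  refine (CStarAlgebra.star_left_conjugate_le_norm_smul (IsSelfAdjoint.star_mul_self _)).trans ?_
  rw [e3, e4, CStarRing.norm_star_mul_self, ← pow_two]
  refine smul_le_smul' (by positivity) ?_
  have : 0 ≤ (1 - PL') - (PL - PL') := by
    have := hL.compl_nonneg
    rwa [sub_sub_sub_cancel_right]
  exact sub_nonneg.mp this

lemma first_le {L' : ℕ} {PL' : 𝒜} (hL' : IsKerL c β dp L' PL') (A : 𝒜) :
    star (A * (1 - PL')) * (A * (1 - PL')) ≤ ‖A‖ ^ 2 • (1 - PL') := by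
  have e5 : star (A * (1 - PL')) * (A * (1 - PL'))
      = star (1 - PL') * (star A * A) * (1 - PL') := by rw [star_mul]; noncomm_ring
  rw [e5]
  refine (CStarAlgebra.star_left_conjugate_le_norm_smul (IsSelfAdjoint.star_mul_self _)).trans ?_
  rw [hL'.compl_sa, hL'.compl_idem, CStarRing.norm_star_mul_self, ← pow_two]

/-- the constant of (R1) -/
noncomputable def CR (n : ℕ) (γ CB : ℝ) : ℝ :=
  Real.exp 3 * n.factorial / γ * (2 + 8 * 256 ^ n * C1 (4 * n + 1) γ CB)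

lemma CR_nonneg (n : ℕ) {γ CB : ℝ} (hγ : 0 < γ) (hCB : 0 ≤ CB) : 0 ≤ CR n γ CB := by
  have := C1_nonneg (4 * n + 1) hγ hCB
  unfold CR; positivity

/-- **(R1) for quasi-local operators**: `A P_Z = 0`, `‖A‖ ≤ D`, `A` is approximated within
`D 2^{-(4n+1) l}` by operators which only see the orbitals of degree `< 2^l`. -/
theorem Geo.R1q (h : Geo c deg β dp P γ) (hinj : Function.Injective dp) {CB : ℝ}
    (hCB : 0 ≤ CB) (hB : ∀ p, ‖pr c (β p)‖ ^ 2 ≤ CB * (dp p + 1))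
    {PL : ℕ → 𝒜} (hPL : ∀ L, IsKerL c β dp L (PL L)) (n : ℕ)
    {A : 𝒜} {D : ℝ} (hAP : A * P = 0) (hA : ‖A‖ ≤ D) {App : ℕ → 𝒜}
    (hloc : ∀ l, Loc c (low deg (2 ^ l)) (App l))
    (happ : ∀ l, ‖A - App l‖ ≤ D / ((2 : ℝ) ^ l) ^ (4 * n + 1)) :
    star A * A ≤ HW c β (fun p => CR n γ CB * D ^ 2 / ((dp p : ℝ) + 1) ^ n) := by
  have hγ := h.pos
  have hD : 0 ≤ D := (norm_nonneg _).trans hA
  have hC1 := C1_nonneg (4 * n + 1) hγ hCB
  obtain ⟨N, hN⟩ : ∃ N : ℕ, ∀ p, dp p < 16 ^ N := by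
    refine ⟨Finset.univ.sup dp, fun p => ?_⟩
    exact (Finset.le_sup (f := dp) (Finset.mem_univ p)).trans_lt
      (Nat.lt_pow_self (by norm_num))
  -- decomposition
  set x : ℕ → 𝒜 := fun l => Nat.casesOn l (A * (1 - PL 1))
    (fun l => A * (PL (16 ^ l) - PL (16 ^ (l + 1)))) with hx
  have hx0 : x 0 = A * (1 - PL 1) := rfl
  have hxs : ∀ l, x (l + 1) = A * (PL (16 ^ l) - PL (16 ^ (l + 1))) := fun l => rfl
  have hsum : ∀ K : ℕ, ∑ l ∈ Finset.range (K + 1), x l = A * (1 - PL (16 ^ K)) := by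
    intro K
    induction K with
    | zero => simp [hx0]
    | succ K ih => rw [Finset.sum_range_succ, ih, hxs, ← mul_add]; congr 1; abel
  have hAN : A * PL (16 ^ N) = 0 := by
    rw [← (hPL (16 ^ N)).ker_mul h.ker hN, ← mul_assoc, hAP, zero_mul]
  have hA' : ∑ l ∈ Finset.range (N + 1), x l = A := by
    rw [hsum, mul_sub, mul_one, hAN, sub_zero]
  have h1 := star_sum_mul_le (N + 1) x
  rw [hA'] at h1
  -- the pieces
  have hp0 : star (x 0) * x 0 ≤ HW c β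
      (fun p => D ^ 2 * (Real.exp 2 / γ) * Real.exp (-2 * dp p / (1 : ℝ))) := by
    rw [hx0]
    refine (first_le (hPL 1) A).trans ?_
    refine (smul_le_smul' (by positivity) (h.one_sub_le one_pos (hPL 1))).trans ?_
    rw [smul_smul, HW_smul]
    refine HW_mono _ _ fun p => ?_
    have : (-2 * (dp p : ℝ) / ((1 : ℕ) : ℝ) ^ 2) = -2 * dp p / 1 := by norm_num
    rw [this]
    gcongr
  have hps : ∀ l, star (x (l + 1)) * x (l + 1) ≤ HW c β
      (fun p => (C1 (4 * n + 1) γ CB * D ^ 2 / ((2 : ℝ) ^ l) ^ (2 * (4 * n + 1))) *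
        (Real.exp 2 / γ) * Real.exp (-2 * dp p / (256 : ℝ) ^ (l + 1))) := by
    intro l
    rw [hxs]
    refine (piece_le (Nat.pow_le_pow_right (by norm_num) (Nat.le_succ l)) (hPL _) (hPL _) A).trans ?_
    refine (smul_le_smul' (by positivity) (h.one_sub_le (by positivity) (hPL _))).trans ?_
    rw [smul_smul, HW_smul]
    refine HW_mono _ _ fun p => ?_
    have e : ((16 ^ (l + 1) : ℕ) : ℝ) ^ 2 = (256 : ℝ) ^ (l + 1) := by
      push_cast
      rw [← pow_mul, mul_comm, pow_mul]; norm_num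
    rw [e]
    have hk : IsKerL c β dp ((2 ^ l) ^ 4) (PL (16 ^ l)) := by
      have : (2 ^ l) ^ 4 = 16 ^ l := by rw [← pow_mul, mul_comm, pow_mul]; norm_num
      rw [this]; exact hPL _
    have hh := h.norm_mul_PL hinj hCB hB (4 * n + 1) (q := 2 ^ l) Nat.one_le_two_pow hk hAP hA
      (hloc l) (by push_cast; exact happ l)
    push_cast at hh
    gcongr
  -- collect
  have h2 : star A * A ≤ HW c β (fun p => ∑ l ∈ Finset.range (N + 1), (2 : ℝ) ^ (l + 1) *
      (Nat.casesOn (motive := fun _ => ℝ) l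
        (D ^ 2 * (Real.exp 2 / γ) * Real.exp (-2 * dp p / (1 : ℝ)))
        (fun l => (C1 (4 * n + 1) γ CB * D ^ 2 / ((2 : ℝ) ^ l) ^ (2 * (4 * n + 1))) *
          (Real.exp 2 / γ) * Real.exp (-2 * dp p / (256 : ℝ) ^ (l + 1))))) := by
    rw [← HW_sum]
    refine h1.trans (Finset.sum_le_sum fun l _ => ?_)
    rw [← HW_smul]
    refine smul_le_smul' (by positivity) ?_
    rcases l with _ | l
    · exact hp0
    · exact hps l
  refine h2.trans (HW_mono _ _ fun p => ?_)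
  rw [Finset.sum_range_succ']
  set d : ℝ := (dp p : ℝ) with hd
  have hd0 : 0 ≤ d := Nat.cast_nonneg _
  have hd1 : 0 < (d + 1) ^ n := by positivity
  simp only
  -- first term
  have t0 : (2 : ℝ) ^ (0 + 1) * (D ^ 2 * (Real.exp 2 / γ) * Real.exp (-2 * d / 1))
      ≤ 2 * (D ^ 2 * (Real.exp 2 / γ) * (Real.exp 1 * n.factorial / (d + 1) ^ n)) := by
    have := exp_weight_le n (X := 1) le_rfl hd0
    rw [one_pow, mul_one] at this
    have e : (2 : ℝ) ^ (0 + 1) = 2 := by norm_num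
    rw [e]
    gcongr
  have ts : ∀ l ∈ Finset.range N, (2 : ℝ) ^ (l + 1 + 1) *
      ((C1 (4 * n + 1) γ CB * D ^ 2 / ((2 : ℝ) ^ l) ^ (2 * (4 * n + 1))) *
          (Real.exp 2 / γ) * Real.exp (-2 * d / (256 : ℝ) ^ (l + 1)))
      ≤ (4 * 256 ^ n * (C1 (4 * n + 1) γ CB * D ^ 2 * (Real.exp 2 / γ) *
        (Real.exp 1 * n.factorial / (d + 1) ^ n))) * (1 / 2) ^ l := by
    intro l _
    have h3 := exp_weight_le n (X := (256 : ℝ) ^ (l + 1)) (one_le_pow₀ (by norm_num)) hd0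
    have h4 : (2 : ℝ) ^ (l + 1 + 1) *
        ((C1 (4 * n + 1) γ CB * D ^ 2 / ((2 : ℝ) ^ l) ^ (2 * (4 * n + 1))) *
          (Real.exp 2 / γ) * Real.exp (-2 * d / (256 : ℝ) ^ (l + 1)))
        ≤ (2 : ℝ) ^ (l + 1 + 1) *
        ((C1 (4 * n + 1) γ CB * D ^ 2 / ((2 : ℝ) ^ l) ^ (2 * (4 * n + 1))) *
          (Real.exp 2 / γ) * (Real.exp 1 * n.factorial * ((256 : ℝ) ^ (l + 1)) ^ n / (d + 1) ^ n)) := by
      gcongr
    refine h4.trans (le_of_eq ?_)
    have e1 : ((256 : ℝ) ^ (l + 1)) ^ n = 256 ^ n * ((2 : ℝ) ^ l) ^ (8 * n) := by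
      have : (256 : ℝ) = 2 ^ 8 := by norm_num
      rw [this]
      simp only [← pow_mul, ← pow_add]
      congr 1; ring
    have e2 : ((2 : ℝ) ^ l) ^ (2 * (4 * n + 1)) = ((2 : ℝ) ^ l) ^ (8 * n) * ((2 : ℝ) ^ l * (2:ℝ) ^ l) := by
      rw [← pow_two ((2:ℝ) ^ l), ← pow_add]; congr 1; ring
    have e3 : (2 : ℝ) ^ (l + 1 + 1) = 4 * 2 ^ l := by rw [pow_succ, pow_succ]; ring
    have e4 : (1 / 2 : ℝ) ^ l = 1 / 2 ^ l := by rw [div_pow, one_pow]
    rw [e1, e2, e3, e4]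
    have p1 : (0:ℝ) < (2 : ℝ) ^ l := by positivity
    have p2 : (0:ℝ) < ((2 : ℝ) ^ l) ^ (8 * n) := by positivity
    field_simp
  have hgeo : ∑ l ∈ Finset.range N, (1 / 2 : ℝ) ^ l ≤ 2 := by
    have := geom_sum_eq (x := (1/2 : ℝ)) (by norm_num) N
    rw [this]
    have p : (0:ℝ) ≤ (1 / 2) ^ N := by positivity
    rw [div_le_iff_of_neg (by norm_num)]
    linarith
  have hsumle := Finset.sum_le_sum ts
  rw [← Finset.mul_sum] at hsumle
  have hfin : (4 * 256 ^ n * (C1 (4 * n + 1) γ CB * D ^ 2 * (Real.exp 2 / γ) *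
        (Real.exp 1 * n.factorial / (d + 1) ^ n))) * ∑ l ∈ Finset.range N, (1 / 2 : ℝ) ^ l
      ≤ (4 * 256 ^ n * (C1 (4 * n + 1) γ CB * D ^ 2 * (Real.exp 2 / γ) *
        (Real.exp 1 * n.factorial / (d + 1) ^ n))) * 2 := by
    gcongr
  refine (add_le_add (hsumle.trans hfin) t0).trans (le_of_eq ?_)
  unfold CR
  have e5 : Real.exp 3 = Real.exp 2 * Real.exp 1 := by rw [← Real.exp_add]; norm_num
  rw [e5]
  field_simp
  ring

end Crest.Agent.R340.Thin565
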