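import Mathlib
import Crest.Agent.R340.Thin9_565
import Crest.Agent.R340.Bridge2_649
import Crest.Agent.R340.GG_467
import Crest.Agent.R340.Prof2_385
import Crest.Agent.R340.ProfF_482

/-!
# R340 (helper565), thinning 10: (R1) on Fock space, any geometry, any frame
-/

set_option autoImplicit false
set_option linter.unusedSectionVars false

open scoped ComplexOrder

namespace Crest.Agent.R340.Thin565

/-! ### rotated frames, abstract -/

section conj

variable {𝒜 : Type*} [CStarAlgebra 𝒜] [PartialOrder 𝒜] [StarOrderedRing 𝒜]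
variable {ι : Type*} [DecidableEq ι] [Fintype ι] {κ : Type*} [Fintype κ]
variable {c : ι → 𝒜} {deg : ι → ℕ} {β : κ → ι → ι → ℂ} {dp : κ → ℕ} {P : 𝒜} {γ : ℝ}

lemma norm_conj_unitary {U : 𝒜} (hU : star U * U = 1) (A : 𝒜) :
    ‖star U * A * U‖ ≤ ‖A‖ := by
  have h1 : ‖U‖ ≤ 1 := by
    have : ‖U‖ * ‖U‖ ≤ 1 := by rw [← CStarRing.norm_star_mul_self, hU]; exact norm_one_le'
    nlinarith [norm_nonneg U]
  calc ‖star U * A * U‖ ≤ ‖star U * A‖ * ‖U‖ := norm_mul_le _ _
    _ ≤ ‖star U * A‖ * 1 := mul_le_mul_of_nonneg_left h1 (norm_nonneg _)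
    _ ≤ ‖star U‖ * ‖A‖ := by rw [mul_one]; exact norm_mul_le _ _
    _ ≤ 1 * ‖A‖ := by rw [norm_star]; exact mul_le_mul_of_nonneg_right h1 (norm_nonneg _)
    _ = ‖A‖ := one_mul _

lemma loc_conj {U : 𝒜} (hU : star U * U = 1) {S : Set ι} {B : 𝒜}
    (hloc : ∀ m, m ∉ S → Commute B (U * c m * star U) ∧ Commute B (U * star (c m) * star U)) :
    Loc c S (star U * B * U) := by
  have key : ∀ X : 𝒜, Commute B (U * X * star U) → Commute (star U * B * U) X := by
    intro X h
    show star U * B * U * X = X * (star U * B * U)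
    have e1 : star U * (B * (U * X * star U)) * U = star U * B * U * X := by
      calc star U * (B * (U * X * star U)) * U = star U * B * U * X * (star U * U) := by
            noncomm_ring
        _ = _ := by rw [hU, mul_one]
    have e2 : star U * ((U * X * star U) * B) * U = X * (star U * B * U) := by
      calc star U * ((U * X * star U) * B) * U = (star U * U) * X * (star U * B * U) := by
            noncomm_ring
        _ = _ := by rw [hU, one_mul]
    rw [← e1, h.eq, e2]
  intro m hm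
  exact ⟨key _ (hloc m hm).1, key _ (hloc m hm).2⟩

/-- `(R1)` in the frame rotated by a unitary `U` which commutes with the zero mode projection -/
theorem Geo.R1q_conj (h : Geo c deg β dp P γ) (hinj : Function.Injective dp) {CB : ℝ}
    (hCB : 0 ≤ CB) (hB : ∀ p, ‖pr c (β p)‖ ^ 2 ≤ CB * (dp p + 1))
    {PL : ℕ → 𝒜} (hPL : ∀ L, IsKerL c β dp L (PL L)) (n : ℕ)
    {U : 𝒜} (hU : star U * U = 1) (hU' : U * star U = 1) (hUP : U * P = P * U)
    {A : 𝒜} {D : ℝ} (hAP : A * P = 0) (hA : ‖A‖ ≤ D) {App : ℕ → 𝒜}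
    (hloc : ∀ l m, 2 ^ l ≤ deg m → Commute (App l) (U * c m * star U) ∧
      Commute (App l) (U * star (c m) * star U))
    (happ : ∀ l, ‖A - App l‖ ≤ D / ((2 : ℝ) ^ l) ^ (4 * n + 1)) :
    star A * A ≤ ∑ p, (CR n γ CB * D ^ 2 / ((dp p : ℝ) + 1) ^ n) •
      (star (U * pr c (β p) * star U) * (U * pr c (β p) * star U)) := by
  have h1 := h.R1q hinj hCB hB hPL n (A := star U * A * U) (D := D)
    (App := fun l => star U * App l * U) (by
      rw [mul_assoc, mul_assoc, hUP, ← mul_assoc A, hAP]; simp)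
    ((norm_conj_unitary hU A).trans hA) (fun l => loc_conj hU (fun m hm => hloc l m (by
      simpa [low] using hm)))
    (fun l => by
      have e : star U * A * U - star U * App l * U = star U * (A - App l) * U := by noncomm_ring
      rw [e]
      exact (norm_conj_unitary hU _).trans (happ l))
  have h2 := star_left_conjugate_le_conjugate h1 (star U)
  rw [star_star] at h2
  have e1 : U * (star (star U * A * U) * (star U * A * U)) * star U = star A * A := by
    rw [star_mul, star_mul, star_star]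
    calc U * (star U * (star A * U) * (star U * A * U)) * star U
        = (U * star U) * star A * (U * star U) * A * (U * star U) := by noncomm_ring
      _ = _ := by rw [hU']; simp
  rw [e1] at h2
  refine h2.trans (le_of_eq ?_)
  unfold HW
  rw [Finset.mul_sum, Finset.sum_mul]
  refine Finset.sum_congr rfl fun p _ => ?_
  rw [mul_smul_comm, smul_mul_assoc]
  congr 1
  rw [star_mul, star_mul, star_star]
  calc U * (star (pr c (β p)) * pr c (β p)) * star U
      = U * star (pr c (β p)) * 1 * pr c (β p) * star U := by noncomm_ring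
    _ = U * star (pr c (β p)) * (star U * U) * pr c (β p) * star U := by rw [hU]
    _ = _ := by noncomm_ring

end conj

/-! ### Fock space -/

open Fock649 GG467

section fock

variable {ι : Type*} [LinearOrder ι] [Fintype ι] {κ : Type*} [Fintype κ]

theorem car_fock : CARel (c : ι → Op ι) where
  anti := c_c
  canti i j := by rw [star_c]; exact c_d i j

/-- coefficients of the pair annihilator -/
noncomputable def bet (w : Matrix ι ι ℂ) (i j : ι) : ℂ :=
  (Real.sqrt 2 : ℂ)⁻¹ * (starRingEnd ℂ) (w j i)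

theorem pa_eq_pr (w : Matrix ι ι ℂ) : pa w = pr c (bet w) := by
  unfold pa pr bet
  rw [Finset.sum_comm (s := (Finset.univ : Finset ι)) (f := fun i j =>
    ((Real.sqrt 2 : ℂ)⁻¹ * (starRingEnd ℂ) (w j i)) • ((c i : Op ι) * c j)), Finset.smul_sum]
  refine Finset.sum_congr rfl fun i _ => ?_
  rw [Finset.smul_sum]
  refine Finset.sum_congr rfl fun j _ => ?_
  rw [smul_smul]

theorem bet_ne_zero {w : Matrix ι ι ℂ} {i j : ι} (h : bet w i j ≠ 0) : w j i ≠ 0 := by
  intro h0
  apply h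
  unfold bet
  rw [h0, map_zero, mul_zero]

/-- kernel projections exist on Fock space -/
theorem isKer_PK {σ : Type*} [Fintype σ] (B : σ → Op ι) : IsKer B (PK (hs B)) where
  sa := star_PK _
  idem := PK_mul_self _
  ann := mul_PK_hs B
  max := by
    intro A hA
    refine Op.ext fun v => ?_
    rw [mul_ap]
    refine pj_of_mem (mem_ker_hs.2 fun p => ?_)
    rw [← mul_ap, hA p, zero_ap]

/-- kernel projection of the pair energies of degree `< L` -/
noncomputable def PLf (w : κ → Matrix ι ι ℂ) (dp : κ → ℕ) (L : ℕ) : Op ι :=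
  PK (hs fun p : {p : κ // dp p < L} => pa (w p.1))

theorem isKerL_PLf (w : κ → Matrix ι ι ℂ) (dp : κ → ℕ) (L : ℕ) :
    IsKerL c (fun p => bet (w p)) dp L (PLf w dp L) := by
  have h := isKer_PK (fun p : {p : κ // dp p < L} => pa (w p.1))
  unfold IsKerL PLf
  simp only [← pa_eq_pr]
  exact h

/-- norm of a normalised pair annihilator of fixed degree -/
theorem norm_pa_sq_le_deg {deg : ι → ℕ} (hinj : Function.Injective deg) {w : Matrix ι ι ℂ} {d : ℕ}
    (hsupp : ∀ i j, w i j ≠ 0 → deg i + deg j = d) (hw : ∑ i, ∑ j, ‖w i j‖ ^ 2 ≤ 1) :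
    ‖pa w‖ ^ 2 ≤ 1 / 2 * (d + 1) := by
  refine (Prof482.norm_pa_sq_le w).trans ?_
  have h1 : ∀ i, ∑ j, ‖w i j‖ = if deg i ≤ d then ∑ j, ‖w i j‖ else 0 := by
    intro i
    split_ifs with h
    · rfl
    · refine Finset.sum_eq_zero fun j _ => ?_
      by_contra hne
      have := hsupp i j (fun h0 => hne (by rw [h0, norm_zero]))
      omega
  have h2 : ∀ i, (∑ j, ‖w i j‖) ^ 2 ≤ ∑ j, ‖w i j‖ ^ 2 := by
    intro i
    by_cases hex : ∃ j0, w i j0 ≠ 0
    · obtain ⟨j0, hj0⟩ := hex
      have hz : ∀ j ∈ Finset.univ, j ≠ j0 → ‖w i j‖ = 0 := by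
        intro j _ hj
        by_contra hne
        have e1 := hsupp i j (fun h0 => hne (by rw [h0, norm_zero]))
        have e2 := hsupp i j0 hj0
        exact hj (hinj (by omega))
      rw [Finset.sum_eq_single j0 hz (by simp)]
      exact Finset.single_le_sum (f := fun j => ‖w i j‖ ^ 2) (fun j _ => by positivity)
        (Finset.mem_univ j0)
    · push Not at hex
      simp [hex]
  have h3 : (∑ i, ∑ j, ‖w i j‖) ^ 2 ≤ (d + 1) * ∑ i, ∑ j, ‖w i j‖ ^ 2 := by
    have e1 : ∑ i, ∑ j, ‖w i j‖ = ∑ i ∈ Finset.univ.filter (fun i => deg i ≤ d), ∑ j, ‖w i j‖ := by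
      rw [Finset.sum_filter]
      exact Finset.sum_congr rfl fun i _ => h1 i
    rw [e1]
    refine sq_sum_le_card_mul_sum_sq.trans ?_
    have hcard : ((Finset.univ.filter (fun i => deg i ≤ d)).card : ℝ) ≤ d + 1 := by
      have : (Finset.univ.filter (fun i => deg i ≤ d)).card ≤ (Finset.range (d + 1)).card := by
        refine Finset.card_le_card_of_injOn deg ?_ (fun a _ b _ h => hinj h)
        intro i hi
        have hi' := (Finset.mem_filter.mp (Finset.mem_coe.mp hi)).2
        exact Finset.mem_coe.mpr (Finset.mem_range.mpr (by omega))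
      rw [Finset.card_range] at this
      exact_mod_cast this
    have hs1 : ∑ i ∈ Finset.univ.filter (fun i => deg i ≤ d), (∑ j, ‖w i j‖) ^ 2
        ≤ ∑ i, ∑ j, ‖w i j‖ ^ 2 := by
      refine (Finset.sum_le_sum fun i _ => h2 i).trans ?_
      exact Finset.sum_le_sum_of_subset_of_nonneg (Finset.filter_subset _ _)
        (fun i _ _ => Finset.sum_nonneg fun j _ => by positivity)
    exact mul_le_mul hcard hs1 (Finset.sum_nonneg fun i _ => by positivity) (by positivity)
  have h4 : (d + 1 : ℝ) * ∑ i, ∑ j, ‖w i j‖ ^ 2 ≤ d + 1 :=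
    mul_le_of_le_one_right (by positivity) hw
  linarith

/-- the geometry on Fock space -/
theorem geo_fock {w : κ → Matrix ι ι ℂ} {deg : ι → ℕ} {dp : κ → ℕ} (hdeg : Function.Injective deg)
    (hsupp : ∀ p i j, w p i j ≠ 0 → deg i + deg j = dp p) {γ : ℝ} (hγ : 0 < γ)
    (hgap : γ • (1 - PK (hs fun p => pa (w p))) ≤ hs fun p => pa (w p)) :
    Geo c deg (fun p => bet (w p)) dp (PK (hs fun p => pa (w p))) γ where
  car := car_fock
  inj := hdeg
  supp p i j hb := by
    rw [add_comm]; exact hsupp p j i (bet_ne_zero hb)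
  ker := by
    have h := isKer_PK (fun p => pa (w p))
    simp only [← pa_eq_pr]
    exact h
  pos := hγ
  gap := by
    have e : HW c (fun p => bet (w p)) (fun _ => 1) = hs fun p => pa (w p) := by
      unfold HW hs
      refine Finset.sum_congr rfl fun p _ => ?_
      show (1 : ℝ) • (star (pr c (bet (w p))) * pr c (bet (w p))) = star (pa (w p)) * pa (w p)
      rw [one_smul, pa_eq_pr]
    rw [e]; exact hgap

/-- **(R1) on Fock space**, any geometry, frame rotated by `U`. -/
theorem R1_fock {w : κ → Matrix ι ι ℂ} {deg : ι → ℕ} {dp : κ → ℕ} (hdeg : Function.Injective deg)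
    (hdp : Function.Injective dp) (hsupp : ∀ p i j, w p i j ≠ 0 → deg i + deg j = dp p)
    (hw : ∀ p, ∑ i, ∑ j, ‖w p i j‖ ^ 2 ≤ 1) {γ : ℝ} (hγ : 0 < γ)
    (hgap : γ • (1 - PK (hs fun p => pa (w p))) ≤ hs fun p => pa (w p)) (n : ℕ)
    {U : Op ι} (hU : star U * U = 1) (hU' : U * star U = 1)
    (hUP : U * PK (hs fun p => pa (w p)) = PK (hs fun p => pa (w p)) * U)
    {A : Op ι} {D : ℝ} (hAP : A * PK (hs fun p => pa (w p)) = 0) (hA : ‖A‖ ≤ D) {App : ℕ → Op ι}
    (hloc : ∀ l m, 2 ^ l ≤ deg m → Commute (App l) (U * c m * star U) ∧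
      Commute (App l) (U * d m * star U))
    (happ : ∀ l, ‖A - App l‖ ≤ D / ((2 : ℝ) ^ l) ^ (4 * n + 1)) :
    star A * A ≤ ∑ p, (CR n γ (1 / 2) * D ^ 2 / ((dp p : ℝ) + 1) ^ n) •
      (star (U * pa (w p) * star U) * (U * pa (w p) * star U)) := by
  have h := (geo_fock hdeg hsupp hγ hgap).R1q_conj hdp (CB := 1 / 2) (by norm_num)
    (fun p => by
      rw [← pa_eq_pr]; exact norm_pa_sq_le_deg hdeg (hsupp p) (hw p))
    (isKerL_PLf w dp) n hU hU' hUP hAP hA (fun l m hm => by
      rw [star_c]; exact hloc l m hm) happ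
  simpa only [← pa_eq_pr] using h

/-- vector form -/
theorem R1_fock_vec {w : κ → Matrix ι ι ℂ} {deg : ι → ℕ} {dp : κ → ℕ}
    (hdeg : Function.Injective deg)
    (hdp : Function.Injective dp) (hsupp : ∀ p i j, w p i j ≠ 0 → deg i + deg j = dp p)
    (hw : ∀ p, ∑ i, ∑ j, ‖w p i j‖ ^ 2 ≤ 1) {γ : ℝ} (hγ : 0 < γ)
    (hgap : γ • (1 - PK (hs fun p => pa (w p))) ≤ hs fun p => pa (w p)) (n : ℕ)
    {U : Op ι} (hU : star U * U = 1) (hU' : U * star U = 1)
    (hUP : U * PK (hs fun p => pa (w p)) = PK (hs fun p => pa (w p)) * U)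
    {A : Op ι} {D : ℝ} (hAP : A * PK (hs fun p => pa (w p)) = 0) (hA : ‖A‖ ≤ D) {App : ℕ → Op ι}
    (hloc : ∀ l m, 2 ^ l ≤ deg m → Commute (App l) (U * c m * star U) ∧
      Commute (App l) (U * d m * star U))
    (happ : ∀ l, ‖A - App l‖ ≤ D / ((2 : ℝ) ^ l) ^ (4 * n + 1)) (v : Fk ι) :
    ‖A v‖ ^ 2 ≤ ∑ p, (CR n γ (1 / 2) * D ^ 2 / ((dp p : ℝ) + 1) ^ n) *
      ‖(U * pa (w p) * star U) v‖ ^ 2 := by
  have h := R1_fock hdeg hdp hsupp hw hγ hgap n hU hU' hUP hAP hA hloc happ
  have hsa : IsSelfAdjoint (∑ p, (CR n γ (1 / 2) * D ^ 2 / ((dp p : ℝ) + 1) ^ n) •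
      (star (U * pa (w p) * star U) * (U * pa (w p) * star U))) := by
    refine isSelfAdjoint_sum _ fun p _ => ?_
    show star (_ • _) = _
    rw [star_smul, star_mul, star_star, star_trivial]
  have h2 := (Op.le_iff (IsSelfAdjoint.star_mul_self A) hsa).1 h v
  have e1 : (inner ℂ v ((star A * A) v) : ℂ).re = ‖A v‖ ^ 2 := by
    rw [inner_star_mul_self, ← Complex.ofReal_pow, Complex.ofReal_re]
  have e2 : (inner ℂ v ((∑ p, (CR n γ (1 / 2) * D ^ 2 / ((dp p : ℝ) + 1) ^ n) •
      (star (U * pa (w p) * star U) * (U * pa (w p) * star U)) : Op ι) v) : ℂ).re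
      = ∑ p, (CR n γ (1 / 2) * D ^ 2 / ((dp p : ℝ) + 1) ^ n) *
      ‖(U * pa (w p) * star U) v‖ ^ 2 := by
    rw [sum_ap, inner_sum, Complex.re_sum]
    refine Finset.sum_congr rfl fun p _ => ?_
    rw [← coe_smul_eq, smul_ap, inner_smul_right, inner_star_mul_self, ← Complex.ofReal_pow,
      ← Complex.ofReal_mul, Complex.ofReal_re]
  rwa [e1, e2] at h2

end fock

/-! ### the closed sphere -/

section sphere

open Bridge649 Crest.MathPhysics.Laughlin Prof385 PV341

theorem wM_supp {Q : ℕ} {p : Fin (2 * Q - 1)} {i j : Fin (Q + 1)} (h : wM Q p i j ≠ 0) :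
    (i : ℕ) + (j : ℕ) = (p : ℕ) + 1 := by
  by_contra hne
  apply h
  rw [wM_apply]
  unfold pairVec
  rw [if_neg hne]; simp

theorem sum_wM_sq (Q : ℕ) (p : Fin (2 * Q - 1)) : ∑ i, ∑ j, ‖wM Q p i j‖ ^ 2 ≤ 1 := by
  have hQ : 1 ≤ Q := by
    have := p.2
    omega
  have hp := p.2
  set b : ℕ := (p : ℕ) + 1 with hb
  have hpn : 2 * pairNorm Q b = mom Q b 2 := two_pairNorm_eq_mom Q p hQ
  have hmom0 : 0 ≤ mom Q b 2 := by
    unfold mom
    refine Finset.sum_nonneg fun i _ => ?_
    unfold aa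
    positivity
  -- each row
  have h1 : ∀ i : Fin (Q + 1), ∑ j, ‖wM Q p i j‖ ^ 2
      ≤ if (i : ℕ) ≤ b then aa Q b i * xx b i ^ 2 / mom Q b 2 else 0 := by
    intro i
    by_cases hex : ∃ j0 : Fin (Q + 1), (i : ℕ) + j0 = b
    · obtain ⟨j0, hj0⟩ := hex
      have hz : ∀ j ∈ Finset.univ, j ≠ j0 → ‖wM Q p i j‖ ^ 2 = 0 := by
        intro j _ hj
        have : wM Q p i j = 0 := by
          by_contra hne
          have := wM_supp hne
          exact hj (Fin.ext (by omega))
        rw [this]; simp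
      rw [Finset.sum_eq_single j0 hz (by simp), if_pos (by omega), wM_apply]
      unfold pairVec
      rw [if_pos (by omega), Complex.norm_real, Real.norm_eq_abs, sq_abs, div_pow, mul_pow,
        Real.sq_sqrt (by positivity), Real.sq_sqrt (by rw [← hb, hpn]; exact hmom0), ← hb, hpn]
      refine le_of_eq ?_
      congr 1
      unfold aa xx
      have e : b - (i : ℕ) = j0 := by omega
      rw [e]
      have e2 : (b : ℝ) = (i : ℝ) + (j0 : ℝ) := by rw [← hj0]; push_cast; ring
      rw [e2]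
      ring
    · have hz : ∑ j, ‖wM Q p i j‖ ^ 2 = 0 := by
        refine Finset.sum_eq_zero fun j _ => ?_
        have : wM Q p i j = 0 := by
          by_contra hne
          exact hex ⟨j, wM_supp hne⟩
        rw [this]; simp
      rw [hz]
      split_ifs
      · unfold aa; positivity
      · exact le_rfl
  refine (Finset.sum_le_sum fun i _ => h1 i).trans ?_
  have h2 : ∑ i : Fin (Q + 1), (if (i : ℕ) ≤ b then aa Q b i * xx b i ^ 2 / mom Q b 2 else 0)
      = ∑ i ∈ Finset.range (Q + 1), (if i ≤ b then aa Q b i * xx b i ^ 2 / mom Q b 2 else 0) :=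
    Fin.sum_univ_eq_sum_range
      (fun i : ℕ => if i ≤ b then aa Q b i * xx b i ^ 2 / mom Q b 2 else 0) (Q + 1)
  rw [h2, ← Finset.sum_filter]
  have h3 : ∑ i ∈ (Finset.range (Q + 1)).filter (fun i => i ≤ b), aa Q b i * xx b i ^ 2 / mom Q b 2
      ≤ ∑ i ∈ Finset.range (b + 1), aa Q b i * xx b i ^ 2 / mom Q b 2 := by
    refine Finset.sum_le_sum_of_subset_of_nonneg ?_ ?_
    · intro i hi
      rw [Finset.mem_filter] at hi
      exact Finset.mem_range.mpr (by omega)
    · intro i _ _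
      unfold aa; positivity
  refine h3.trans ?_
  rw [← Finset.sum_div]
  exact div_self_le_one _

/-- **(R1) on the closed sphere**, in the frame rotated by `U`. -/
theorem R1_sphere (Q : ℕ) {γ : ℝ} (hγ : 0 < γ)
    (hgap : γ • (1 - PK (HH Q)) ≤ HH Q) (n : ℕ)
    {U : Op (Fin (Q + 1))} (hU : star U * U = 1) (hU' : U * star U = 1)
    (hUP : U * PK (HH Q) = PK (HH Q) * U)
    {A : Op (Fin (Q + 1))} {D : ℝ} (hAP : A * PK (HH Q) = 0) (hA : ‖A‖ ≤ D)
    {App : ℕ → Op (Fin (Q + 1))}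
    (hloc : ∀ l (m : Fin (Q + 1)), 2 ^ l ≤ (m : ℕ) → Commute (App l) (U * c m * star U) ∧
      Commute (App l) (U * d m * star U))
    (happ : ∀ l, ‖A - App l‖ ≤ D / ((2 : ℝ) ^ l) ^ (4 * n + 1)) :
    star A * A ≤ ∑ p : Fin (2 * Q - 1), (CR n γ (1 / 2) * D ^ 2 / ((p : ℝ) + 2) ^ n) •
      (star (U * Bp Q p * star U) * (U * Bp Q p * star U)) := by
  have h := R1_fock (w := wM Q) (deg := fun i : Fin (Q + 1) => (i : ℕ))
    (dp := fun p : Fin (2 * Q - 1) => (p : ℕ) + 1) Fin.val_injective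
    (fun a b h => Fin.ext (by simpa using h)) (fun p i j hne => wM_supp hne) (sum_wM_sq Q) hγ
    hgap n hU hU' hUP hAP hA hloc happ
  refine h.trans (le_of_eq ?_)
  refine Finset.sum_congr rfl fun p _ => ?_
  have e : (((p : ℕ) + 1 : ℕ) : ℝ) + 1 = (p : ℝ) + 2 := by push_cast; ring
  rw [e]
  rfl

end sphere

end Crest.Agent.R340.Thin565
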