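import Crest.Agent.R340.Thin10_565
import Crest.Agent.R340.Rot3_303

/-!
# R340 (helper565), thinning 11: (R1) on the closed sphere about an arbitrary centre `g`
(names of `Bridge_320` and `Rot3_303`)
-/

set_option autoImplicit false
set_option linter.unusedSectionVars false

namespace Crest.Agent.R340.Thin565

open Matrix Crest.Agent.R340.Fock649 Crest.Agent.R340.GG467 Crest.Agent.R340.Rot303
  Crest.Agent.R340.CS809 Crest.Agent.R340.Gam303 Crest.Agent.R340.Br320

theorem wM320_supp {Q : ℕ} {p : Fin (2 * Q - 1)} {i j : Fin (Q + 1)} (h : wM Q p i j ≠ 0) :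
    (i : ℕ) + (j : ℕ) = (p : ℕ) + 1 := wM_supp h

theorem sum_wM320_sq (Q : ℕ) (p : Fin (2 * Q - 1)) : ∑ i, ∑ j, ‖wM Q p i j‖ ^ 2 ≤ 1 :=
  sum_wM_sq Q p

theorem PK_comm_Rg {Q : ℕ} {g : Matrix (Fin 2) (Fin 2) ℂ} (hg : g * gᴴ = 1) :
    Rg Q g * PK (HH Q) = PK (HH Q) * Rg Q g := by
  refine (commute_PK (A := HH Q) (T := Rg Q g) (Rg_mul_HH hg) ?_)
  have h1 : star (Rg Q g) * Rg Q g = 1 := star_Rg_mul hg
  have h2 : Rg Q g * star (Rg Q g) = 1 := Rg_mul_star hg
  calc star (Rg Q g) * HH Q = star (Rg Q g) * (HH Q * Rg Q g) * star (Rg Q g) := by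
        rw [mul_assoc, mul_assoc, h2, mul_one]
    _ = star (Rg Q g) * (Rg Q g * HH Q) * star (Rg Q g) := by rw [Rg_mul_HH hg]
    _ = HH Q * star (Rg Q g) := by rw [← mul_assoc, h1, one_mul]

/-- **(R1) on the closed sphere about the centre `g`**. -/
theorem R1_group (Q : ℕ) {γ : ℝ} (hγ : 0 < γ)
    (hgap : γ • (1 - PK (HH Q)) ≤ HH Q) (n : ℕ)
    {g : Matrix (Fin 2) (Fin 2) ℂ} (hg : g * gᴴ = 1)
    {A : Op (Fin (Q + 1))} {D : ℝ} (hAP : A * PK (HH Q) = 0) (hA : ‖A‖ ≤ D)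
    {App : ℕ → Op (Fin (Q + 1))}
    (hloc : ∀ l (m : Fin (Q + 1)), 2 ^ l ≤ (m : ℕ) →
      Commute (App l) (an (mv (sp Q g) (e m))) ∧ Commute (App l) (cr (mv (sp Q g) (e m))))
    (happ : ∀ l, ‖A - App l‖ ≤ D / ((2 : ℝ) ^ l) ^ (4 * n + 1)) :
    star A * A ≤ ∑ p : Fin (2 * Q - 1), (CR n γ (1 / 2) * D ^ 2 / ((p : ℝ) + 2) ^ n) •
      (star (Bg Q g p) * Bg Q g p) := by
  have h := R1_fock (w := wM Q) (deg := fun i : Fin (Q + 1) => (i : ℕ))
    (dp := fun p : Fin (2 * Q - 1) => (p : ℕ) + 1) Fin.val_injective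
    (fun a b h => Fin.ext (by simpa using h)) (fun p i j hne => wM320_supp hne)
    (sum_wM320_sq Q) hγ hgap n (U := Rg Q g) (star_Rg_mul hg) (Rg_mul_star hg) (PK_comm_Rg hg)
    hAP hA (fun l m hm => by
      have h1 : Rg Q g * c m * star (Rg Q g) = an (mv (sp Q g) (e m)) := by
        rw [← an_e m]; exact cj_an hg (e m)
      have h2 : Rg Q g * d m * star (Rg Q g) = cr (mv (sp Q g) (e m)) := by
        rw [← cr_e m]; exact cj_cr hg (e m)
      rw [h1, h2]
      exact hloc l m hm) happ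
  refine h.trans (le_of_eq ?_)
  refine Finset.sum_congr rfl fun p _ => ?_
  have e1 : (((p : ℕ) + 1 : ℕ) : ℝ) + 1 = (p : ℝ) + 2 := by push_cast; ring
  rw [e1]
  rfl

/-- strictly local version about the centre `g` -/
theorem R1_strict_group (Q : ℕ) {γ : ℝ} (hγ : 0 < γ)
    (hgap : γ • (1 - PK (HH Q)) ≤ HH Q)
    {g : Matrix (Fin 2) (Fin 2) ℂ} (hg : g * gᴴ = 1) {M : ℕ} (hM : 0 < M)
    {A : Op (Fin (Q + 1))} (hAP : A * PK (HH Q) = 0)
    (hloc : ∀ m : Fin (Q + 1), M ≤ (m : ℕ) →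
      Commute A (an (mv (sp Q g) (e m))) ∧ Commute A (cr (mv (sp Q g) (e m)))) :
    star A * A ≤ (Real.exp 2 * ‖A‖ ^ 2 / γ) • ∑ p : Fin (2 * Q - 1),
      Real.exp (-2 * (p + 1) / M ^ 2) • (star (Bg Q g p) * Bg Q g p) := by
  set U := Rg Q g with hUdef
  have hU : star U * U = 1 := star_Rg_mul hg
  have hU' : U * star U = 1 := Rg_mul_star hg
  have hUP : U * PK (HH Q) = PK (HH Q) * U := PK_comm_Rg hg
  have hgeo : Geo (c : Fin (Q + 1) → Op (Fin (Q + 1))) (fun i : Fin (Q + 1) => (i : ℕ))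
      (fun p => bet (wM Q p)) (fun p : Fin (2 * Q - 1) => (p : ℕ) + 1) (PK (HH Q)) γ :=
    geo_fock (w := wM Q) Fin.val_injective (fun p i j hne => wM320_supp hne) hγ hgap
  have h1 := hgeo.R1_strict hM (A := star U * A * U)
    (loc_conj hU (fun m hm => by
      have h1 : U * c m * star U = an (mv (sp Q g) (e m)) := by
        rw [← an_e m]; exact cj_an hg (e m)
      have h2 : U * star (c m) * star U = cr (mv (sp Q g) (e m)) := by
        rw [star_c, ← cr_e m]; exact cj_cr hg (e m)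
      rw [h1, h2]
      exact hloc m (by simpa [low] using hm)))
    (by rw [mul_assoc, mul_assoc, hUP, ← mul_assoc A, hAP]; simp)
  have h2 := star_left_conjugate_le_conjugate h1 (star U)
  rw [star_star] at h2
  have e1 : U * (star (star U * A * U) * (star U * A * U)) * star U = star A * A := by
    rw [star_mul, star_mul, star_star]
    calc U * (star U * (star A * U) * (star U * A * U)) * star U
        = (U * star U) * star A * (U * star U) * A * (U * star U) := by noncomm_ring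
      _ = _ := by rw [hU']; simp
  rw [e1] at h2
  refine h2.trans ?_
  have hn : ‖star U * A * U‖ ≤ ‖A‖ := norm_conj_unitary hU A
  have e2 : U * ((Real.exp 2 * ‖star U * A * U‖ ^ 2 / γ) • HW c (fun p => bet (wM Q p))
      (fun p => Real.exp (-2 * ((p : ℕ) + 1 : ℕ) / M ^ 2))) * star U
      = (Real.exp 2 * ‖star U * A * U‖ ^ 2 / γ) • ∑ p : Fin (2 * Q - 1),
      Real.exp (-2 * (p + 1) / M ^ 2) • (star (Bg Q g p) * Bg Q g p) := by
    rw [mul_smul_comm, smul_mul_assoc]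
    congr 1
    unfold HW
    rw [Finset.mul_sum, Finset.sum_mul]
    refine Finset.sum_congr rfl fun p _ => ?_
    rw [mul_smul_comm, smul_mul_assoc]
    have e3 : (-2 * (((p : ℕ) + 1 : ℕ) : ℝ) / M ^ 2) = -2 * ((p : ℝ) + 1) / M ^ 2 := by
      push_cast; ring
    have e4 : U * (star (pr c (bet (wM Q p))) * pr c (bet (wM Q p))) * star U
        = star (Bg Q g p) * Bg Q g p := by
      rw [← pa_eq_pr]
      show U * (star (Bp Q p) * Bp Q p) * star U
        = star (U * Bp Q p * star U) * (U * Bp Q p * star U)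
      rw [star_mul, star_mul, star_star]
      calc U * (star (Bp Q p) * Bp Q p) * star U
          = U * star (Bp Q p) * 1 * Bp Q p * star U := by noncomm_ring
        _ = U * star (Bp Q p) * (star U * U) * Bp Q p * star U := by rw [hU]
        _ = _ := by noncomm_ring
    show Real.exp (-2 * (((p : ℕ) + 1 : ℕ) : ℝ) / M ^ 2) •
      (U * (star (pr c (bet (wM Q p))) * pr c (bet (wM Q p))) * star U) = _
    rw [e4, e3]
  have hX : 0 ≤ ∑ p : Fin (2 * Q - 1),
      Real.exp (-2 * (p + 1) / M ^ 2) • (star (Bg Q g p) * Bg Q g p) :=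
    Finset.sum_nonneg fun p _ => smul_nonneg (Real.exp_pos _).le (star_mul_self_nonneg _)
  rw [e2]
  refine smul_le_smul_right' ?_ hX
  gcongr

end Crest.Agent.R340.Thin565
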