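import Crest.Agent.R340.FlowOp_644
import Crest.Agent.R340.FlowLR_644
import Crest.Agent.R340.Filt3_867

/-!
R340 (S0532), block L9d, part 1 (helper644): the top step at fixed flux.

`V = ∫ φ(g) n(g) dν(g)`, `X_s(g) = U_s^* (Fl w H_s n(g) - ρ_s(g)) U_s` is in helper856's class
`Fam`, kills `Ψ`, and `∫ φ X_s dν = U_s^* (Fl w H_s V) U_s - ⟨V⟩`; with theorem (U) and
`flow_main_op` the gap of `H + c V` is at least `3γ/4`.
-/

set_option autoImplicit false
set_option linter.unusedSectionVars false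

open scoped InnerProductSpace
open MeasureTheory Complex
open Crest.Agent.R340
open Crest.Agent.R340.LR667 (tau U Fl SS Tt IsFilter)
open Crest.Agent.R340.Fock649
open Crest.Agent.R340.QL331 (fcar Car thF)
open Crest.Agent.R340.DC867 (gen nz star_nz gen_false gen_true norm_gen_le)
open Crest.Agent.R340.Filt867 (FarB NearB FlL SSL Fl_star SS_star Fl_comm SS_comm Ev_SS)
open Crest.Agent.R340.Flow644
open Crest.Agent.R340.FlowLR644
open Crest.Agent.R340.U856 (Fam)

namespace Crest.Agent.R340.Top644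

variable {ι : Type*} [LinearOrder ι] [Fintype ι]

section cont

variable {A V : Type*} [CStarAlgebra A] [NormedAddCommGroup V] [InnerProductSpace ℂ V]
  (R : Car A V)

theorem continuous_an : Continuous R.an := by
  have h : LipschitzWith 1 R.an := by
    refine LipschitzWith.of_dist_le_mul fun v w => ?_
    rw [dist_eq_norm, dist_eq_norm, ← R.an_sub, NNReal.coe_one, one_mul]
    exact R.norm_an_le _
  exact h.continuous

theorem continuous_cr : Continuous R.cr := continuous_star.comp (continuous_an R)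

theorem continuous_nz {G : Type*} [TopologicalSpace G] {u : Fin 2 → G → V}
    (huc : ∀ k, Continuous (u k)) : Continuous (nz R u) :=
  ((continuous_cr R).comp (huc 0)).mul ((continuous_an R).comp (huc 0))

theorem norm_nz_le {G : Type*} {u : Fin 2 → G → V} (hu : ∀ k z, ‖u k z‖ ≤ 1) (z : G) :
    ‖nz R u z‖ ≤ 1 := by
  unfold DC867.nz
  have h1 := (R.norm_cr_le (u 0 z)).trans (hu 0 z)
  have h2 := (R.norm_an_le (u 0 z)).trans (hu 0 z)
  calc ‖R.cr (u 0 z) * R.an (u 0 z)‖ ≤ ‖R.cr (u 0 z)‖ * ‖R.an (u 0 z)‖ := norm_mul_le _ _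
    _ ≤ 1 * 1 := by gcongr
    _ = 1 := one_mul 1

theorem ev_nz {G : Type*} (u : Fin 2 → G → V) (z : G) : R.Ev (nz R u z) :=
  R.ev_odd_mul_odd (R.par_cr _) (R.par_an _)

end cont

section fock

theorem Nh_comm_nz {G : Type*} (u : Fin 2 → G → L ι) (z : G) :
    Commute (Nh : Op ι) (nz fcar u z) := by
  have h1 := Nh_comm_cr (ι := ι) (u 0 z)
  have h2 := Nh_comm_an (ι := ι) (u 0 z)
  have e : nz fcar u z = cr (u 0 z) * an (u 0 z) := by
    unfold DC867.nz
    rw [QL331.fcar_cr]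
    rfl
  rw [e]
  show Nh * (cr (u 0 z) * an (u 0 z)) = cr (u 0 z) * an (u 0 z) * Nh
  have h3 : Nh * cr (u 0 z) = cr (u 0 z) * Nh + cr (u 0 z) := by
    have h5 := sub_eq_iff_eq_add.1 h1
    rw [h5, add_comm]
  have h4 : Nh * an (u 0 z) = an (u 0 z) * Nh - an (u 0 z) := by
    have h5 := sub_eq_iff_eq_add.1 h2
    rw [h5]; abel
  calc Nh * (cr (u 0 z) * an (u 0 z)) = (Nh * cr (u 0 z)) * an (u 0 z) := by rw [mul_assoc]
    _ = cr (u 0 z) * (Nh * an (u 0 z)) + cr (u 0 z) * an (u 0 z) := by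
        rw [h3, add_mul, mul_assoc]
    _ = _ := by rw [h4, mul_sub, mul_assoc]; abel

/-- operators commuting with the number operator preserve the sectors -/
theorem sector_of_commute {N : ℕ} {X : Op ι} (hX : Commute Nh X) {v : Fk ι}
    (hv : v ∈ Bridge649.sector ι N) : X v ∈ Bridge649.sector ι N := by
  rw [Bridge649.mem_sector] at hv ⊢
  have h1 : Nh (X v) = X (Nh v) := by
    rw [← mul_ap, hX.eq, mul_ap]
  rw [h1, hv]
  exact X.ap.map_smul _ _

end fock

section pairing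

/-- the complex-linear functional `A ↦ ⟪x, A y⟫` -/
noncomputable def mcf (x y : Fk ι) : Op ι →L[ℂ] ℂ :=
  (innerSL ℂ x).comp (ContinuousLinearMap.apply ℂ (Fk ι) y)

theorem mcf_apply (x y : Fk ι) (A : Op ι) : mcf x y A = ⟪x, A y⟫_ℂ := rfl

end pairing

variable {G : Type*} [TopologicalSpace G] [CompactSpace G] [SecondCountableTopology G]
  [MeasurableSpace G] [BorelSpace G] (ν : Measure G) [IsFiniteMeasure ν]

theorem integrable_phi {A : Type*} [CStarAlgebra A] {φ : G → ℝ} (hφm : Measurable φ)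
    (hφ1 : ∀ g, |φ g| ≤ 1) {Y : G → A} (hY : Continuous Y) :
    Integrable (fun g => φ g • Y g) ν := by
  have hYi : Integrable (fun g => ‖Y g‖) ν := by
    exact (hY.norm).integrable_of_hasCompactSupport (HasCompactSupport.of_compactSpace _)
  refine hYi.mono' (hφm.aestronglyMeasurable.smul hY.aestronglyMeasurable) ?_
  refine Filter.Eventually.of_forall fun g => ?_
  rw [norm_smul, Real.norm_eq_abs]
  calc |φ g| * ‖Y g‖ ≤ 1 * ‖Y g‖ := by gcongr; exact hφ1 g
    _ = _ := one_mul _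

/-- the constant of the class of `X_s(g)` -/
noncomputable def cX (w : ℝ → ℝ) (K Cs Cf Cn : ℝ) (m : ℕ) : ℝ :=
  (∫ t, |w t|) + 1 + K * Real.exp (Cs * cDC K Cf Cn m)

theorem cX_pos {w : ℝ → ℝ} {K Cs Cf Cn : ℝ} {m : ℕ} (hK : 0 ≤ K) : 0 < cX w K Cs Cf Cn m := by
  have h1 : 0 ≤ ∫ t, |w t| := integral_nonneg fun t => abs_nonneg _
  have h2 : 0 ≤ K * Real.exp (Cs * cDC K Cf Cn m) := by positivity
  unfold cX
  linarith

theorem top_step {N : ℕ} {n : ℕ} (hn : 0 < n) (b : G → OrthonormalBasis (Fin n) ℂ (L ι))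
    {u : Fin 2 → G → L ι} (hu : ∀ k z, ‖u k z‖ ≤ 1) (huc : ∀ k, Continuous (u k))
    {D : G → G → ℝ} (hD0 : ∀ x y, 0 ≤ D x y) (hDs : ∀ x y, D x y = D y x)
    (hDtri : ∀ x y z, D x z ≤ D x y + D y z) (hDb : ∃ B, ∀ x y, D x y ≤ B)
    {Cs : ℝ} (hCs : 0 ≤ Cs)
    (hS : ∀ w, Integrable (fun z => 1 / (1 + D w z) ^ 3) ν ∧ ∫ z, 1 / (1 + D w z) ^ 3 ∂ν ≤ Cs)
    {m : ℕ} {Cf Cn : ℝ} (hCf : 0 ≤ Cf) (hCn : 0 ≤ Cn)
    (hfar : FarB (fcar : Car (Op ι) (L ι)) b u D (2 * m + 14) Cf)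
    (hnear : NearB (fcar : Car (Op ι) (L ι)) b u D m Cn)
    {H V : Op ι} (hH : IsSelfAdjoint H) (hHN : Commute Nh H) (hHth : Commute H thF)
    {φ : G → ℝ} (hφm : Measurable φ) (hφ1 : ∀ g, |φ g| ≤ 1)
    (hV : V = ∫ g, φ g • nz fcar u g ∂ν)
    {γ : ℝ} (hγ : 0 < γ) {w : ℝ → ℝ} (hw : IsBand w (γ / 2)) {Ψ : Fk ι}
    (h0 : HasGapS (Bridge649.sector ι N) H.ap γ 0 Ψ)
    {K : ℝ} (hK : 0 ≤ K)
    (hFl : ∀ s ∈ Set.Icc (0 : ℝ) 1, ∀ g k y,
      ‖⁅Fl w (H + s • V) (nz fcar u g), gen fcar u k y⁆‖ ≤ K / (1 + D y g) ^ m)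
    (hSS : ∀ s ∈ Set.Icc (0 : ℝ) 1, ∀ g k y,
      ‖⁅SS w (H + s • V) (nz fcar u g), gen fcar u k y⁆‖ ≤ K / (1 + D y g) ^ (2 * m + 14))
    {CU : ℝ} (hCU : 0 ≤ CU)
    (hUU : ∀ X : G → Op ι, Fam (fun k g => an (u k g)) D Nh m 1 X → (∀ x, X x Ψ = 0) →
      ∀ s : G → ℝ, Measurable s → (∀ x, |s x| ≤ 1) → ∀ χ ∈ Bridge649.sector ι N,
        |(⟪χ, (∫ x, (s x : ℂ) • X x ∂ν : Op ι) χ⟫_ℂ).re| ≤ CU * (⟪χ, H χ⟫_ℂ).re)
    {c : ℝ} (hc0 : 0 ≤ c) (hc1 : c ≤ 1) (hc : CU * cX w K Cs Cf Cn m * c ≤ 1 / 4) :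
    ∃ (e : ℝ) (ψ : Fk ι), HasGapS (Bridge649.sector ι N) (H + c • V).ap (3 * γ / 4) e ψ := by
  classical
  have hnzc : Continuous (nz (fcar : Car (Op ι) (L ι)) u) := continuous_nz _ huc
  have hVi : Integrable (fun g => φ g • nz (fcar : Car (Op ι) (L ι)) u g) ν :=
    integrable_phi ν hφm hφ1 hnzc
  have hVsa : IsSelfAdjoint V := by
    rw [isSelfAdjoint_iff, hV]
    have h := (starL' ℝ (A := Op ι)).integral_comp_comm (μ := ν)
      (fun g => φ g • nz (fcar : Car (Op ι) (L ι)) u g)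
    have h2 : ∀ a : Op ι, (starL' ℝ (A := Op ι)) a = star a := fun _ => rfl
    simp only [h2] at h
    rw [← h]
    congr 1
    funext g
    rw [star_smul, star_nz]
    simp
  have hVN : Commute Nh V := by
    rw [commute_iff_adL, hV, ← (LR667.adL (Nh : Op ι)).integral_comp_comm hVi]
    have h2 : ∀ g, LR667.adL (Nh : Op ι) (φ g • nz fcar u g) = 0 := fun g => by
      rw [map_smul, (commute_iff_adL _).1 (Nh_comm_nz u g), smul_zero]
    simp [h2]
  have hVth : Commute V thF := by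
    have h1 : Commute (thF : Op ι) V := by
      rw [commute_iff_adL, hV, ← (LR667.adL (thF : Op ι)).integral_comp_comm hVi]
      have h2 : ∀ g, LR667.adL (thF : Op ι) (φ g • nz fcar u g) = 0 := fun g => by
        have h3 : Commute (thF : Op ι) (nz fcar u g) :=
          ((Filt867.ev_iff_commute fcar).1 (ev_nz fcar u g)).symm
        rw [map_smul, (commute_iff_adL _).1 h3, smul_zero]
      simp [h2]
    exact h1.symm
  have hKsa : ∀ s : ℝ, IsSelfAdjoint (H + s • V) := fun s => isSelfAdjoint_add_smul hH hVsa s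
  have hKN : ∀ s : ℝ, Commute (Nh : Op ι) (H + s • V) := fun s =>
    hHN.add_right (hVN.smul_right s)
  have hKth : ∀ s : ℝ, Commute (H + s • V) (thF : Op ι) := fun s =>
    hHth.add_left (hVth.smul_left s)
  have hX0 := cX_pos (w := w) (K := K) (Cs := Cs) (Cf := Cf) (Cn := Cn) (m := m) hK
  refine flow_main_op (C := CU * cX w K Cs Cf Cn m) hH hVsa
    (fun x hx => sector_of_commute hHN hx) (fun x hx => sector_of_commute hVN hx) hγ hw h0 hc0
    (mul_nonneg hCU hX0.le) hc ?_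
  intro Ut hUt hUu s1 hs1 hgap χ hχ
  have hs01 : s1 ∈ Set.Icc (0 : ℝ) 1 := ⟨hs1.1, hs1.2.trans hc1⟩
  obtain ⟨e1, hg1⟩ := hgap s1 ⟨hs1.1, le_rfl⟩
  set K1 : Op ι := H + s1 • V with hK1
  have hK1sa : IsSelfAdjoint K1 := hKsa s1
  set ψ : Fk ι := Ut s1 Ψ with hψ
  -- the densities
  set ρ : G → ℝ := fun g => (⟪ψ, (nz fcar u g : Op ι) ψ⟫_ℂ).re with hρ
  have hnsa : ∀ g, IsSelfAdjoint (nz (fcar : Car (Op ι) (L ι)) u g) := fun g => star_nz _ _ _
  have hρc : ∀ g, ((ρ g : ℝ) : ℂ) = ⟪ψ, (nz fcar u g : Op ι) ψ⟫_ℂ := fun g =>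
    FlowData.inner_real (K := (nz fcar u g : Op ι).ap) (hnsa g) ψ
  have hρ1 : ∀ g, |ρ g| ≤ 1 := by
    intro g
    have h1 := re_inner_le (nz fcar u g : Op ι).ap ψ
    have h2 : ‖(nz fcar u g : Op ι).ap‖ ≤ 1 := norm_nz_le fcar hu g
    have h3 : ‖ψ‖ = 1 := hg1.2.1
    rw [h3] at h1
    calc |ρ g| ≤ ‖(nz fcar u g : Op ι).ap‖ * 1 ^ 2 := h1
      _ ≤ 1 := by rw [one_pow, mul_one]; exact h2
  have hρcont : Continuous ρ := by
    have h1 : Continuous fun g => mcf ψ ψ (nz fcar u g) := (mcf ψ ψ).continuous.comp hnzc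
    exact Complex.continuous_re.comp h1
  -- the flow commutes with the number operator
  have hDsa : ∀ s : ℝ, IsSelfAdjoint (SS w (H + s • V) V) := fun s => by
    rw [isSelfAdjoint_iff, SS_star hw.toIsFilter (hKsa s), hVsa.star_eq]
  have hDN : ∀ s : ℝ, Commute (Nh : Op ι) (SS w (H + s • V) V) := fun s =>
    (SS_comm hw.toIsFilter (hKsa s) (hKN s).symm hVN.symm).symm
  have hUN : Commute (Nh : Op ι) (Ut s1) := hUt.commute' hUu hDsa hDN s1
  have hUsN : Commute (Nh : Op ι) (star (Ut s1)) := by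
    have h1 := hUN.star_star
    have h2 : star (Nh : Op ι) = Nh := by
      rw [Nh_eq, star_diag]
      congr 1
      funext S
      simp
    rwa [h2] at h1
  have hUU1 : star (Ut s1) * Ut s1 = 1 := (Unitary.mem_iff.1 (hUu s1)).1
  -- the family
  set X : G → Op ι := fun g => star (Ut s1) *
    (Fl w K1 (nz fcar u g) - ((ρ g : ℝ) : ℂ) • (1 : Op ι)) * Ut s1 with hXdef
  have hXeq : ∀ g, X g = star (Ut s1) * Fl w K1 (nz fcar u g) * Ut s1 -
      ((ρ g : ℝ) : ℂ) • (1 : Op ι) := by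
    intro g
    simp only [hXdef, mul_sub, sub_mul, mul_smul_comm, smul_mul_assoc, mul_one, hUU1]
  have hprof : ∀ g k y, ‖⁅star (Ut s1) * Fl w K1 (nz fcar u g) * Ut s1, gen fcar u k y⁆‖ ≤
      K * Real.exp (Cs * cDC K Cf Cn m * s1) / (1 + D y g) ^ m := by
    intro g k y
    refine flow_profile (R := (fcar : Car (Op ι) (L ι))) (b := b) (μ := ν) QL331.alg_univ hn hu hD0
      hDtri hDb hCs hS hCf hCn hfar hnear hK (T := 1)
      (Dz := fun r z => SS w (H + r • V) (nz fcar u z))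
      (fun r z => Ev_SS fcar hw.toIsFilter (hKsa r) (hKth r) (ev_nz fcar u z))
      (fun r hr z k w' => hSS r hr z k w') hφ1
      (Dg := fun r => SS w (H + r • V) V) ?_ ?_ hDsa hUt hUu hK
      (fun k w' => hFl s1 hs01 g k w') hs01 k y
    · intro r _
      exact integrable_phi ν hφm hφ1
        ((SSL hw.toIsFilter (hKsa r)).continuous.comp hnzc)
    · intro r _
      have h1 := ((SSL hw.toIsFilter (hKsa r)).restrictScalars ℝ).integral_comp_comm hVi
      have h2 : ∀ Y : Op ι, ((SSL hw.toIsFilter (hKsa r)).restrictScalars ℝ) Y =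
          SS w (H + r • V) Y := fun Y => rfl
      rw [← hV, h2] at h1
      rw [← h1]
      congr 1
      funext z
      exact (ContinuousLinearMap.map_smul_of_tower
        ((SSL hw.toIsFilter (hKsa r)).restrictScalars ℝ) (φ z) (nz fcar u z))
  have hFam : Fam (fun k g => an (u k g)) D Nh m (cX w K Cs Cf Cn m) X := by
    have hI0 : 0 ≤ ∫ t, |w t| := integral_nonneg fun t => abs_nonneg _
    have hE0 : 0 ≤ K * Real.exp (Cs * cDC K Cf Cn m) := by positivity
    refine ⟨?_, ?_, ?_, ?_, ?_⟩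
    · have h1 : Continuous fun g => Fl w K1 (nz fcar u g) :=
        (FlL hw.toIsFilter hK1sa).continuous.comp hnzc
      have h2 : Continuous fun g => ((ρ g : ℝ) : ℂ) • (1 : Op ι) :=
        (Complex.continuous_ofReal.comp hρcont).smul continuous_const
      exact (continuous_const.mul (h1.sub h2)).mul continuous_const
    · intro g
      rw [isSelfAdjoint_iff, hXeq]
      rw [star_sub, star_mul, star_mul, star_star, Fl_star hw.toIsFilter hK1sa, star_nz, star_smul,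
        star_one, mul_assoc]
      simp
    · intro g
      have h1 : Commute (Nh : Op ι) (Fl w K1 (nz fcar u g)) :=
        (Fl_comm hw.toIsFilter hK1sa (hKN s1).symm (Nh_comm_nz u g).symm).symm
      have h2 : Commute (Nh : Op ι) (X g) := by
        refine (hUsN.mul_right (h1.sub_right ?_)).mul_right hUN
        exact (Commute.one_right _).smul_right _
      exact h2.eq
    · intro g
      have h1 : ‖X g‖ = ‖Fl w K1 (nz fcar u g) - ((ρ g : ℝ) : ℂ) • (1 : Op ι)‖ := by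
        simp only [hXdef]
        rw [CStarRing.norm_mul_mem_unitary _ (hUu s1),
          CStarRing.norm_mem_unitary_mul _ (Unitary.star_mem (hUu s1))]
      rw [h1]
      have h2 : ‖Fl w K1 (nz fcar u g)‖ ≤ ∫ t, |w t| := by
        refine (LR667.norm_Fl_le hK1sa _).trans ?_
        calc (∫ t, |w t|) * ‖nz (fcar : Car (Op ι) (L ι)) u g‖ ≤ (∫ t, |w t|) * 1 := by
              gcongr
              exact norm_nz_le fcar hu g
          _ = _ := mul_one _
      have h3 : ‖((ρ g : ℝ) : ℂ) • (1 : Op ι)‖ ≤ 1 := by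
        rw [norm_smul, Complex.norm_real, Real.norm_eq_abs, CStarRing.norm_one, mul_one]
        exact hρ1 g
      calc _ ≤ ‖Fl w K1 (nz fcar u g)‖ + ‖((ρ g : ℝ) : ℂ) • (1 : Op ι)‖ := norm_sub_le _ _
        _ ≤ (∫ t, |w t|) + 1 := add_le_add h2 h3
        _ ≤ _ := by unfold cX; linarith
    · intro g k y
      have h1 : X g * an (u k y) - an (u k y) * X g =
          ⁅star (Ut s1) * Fl w K1 (nz fcar u g) * Ut s1, gen fcar u (k, false) y⁆ := by
        rw [hXeq, gen_false, Ring.lie_def]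
        have h2 : (fcar : Car (Op ι) (L ι)).an (u k y) = an (u k y) := rfl
        rw [h2]
        simp only [sub_mul, mul_sub, smul_mul_assoc, mul_smul_comm, one_mul, mul_one]
        abel
      rw [h1]
      have hd : 0 < (1 + D g y) ^ m := by have := hD0 g y; positivity
      have h2 := hprof g (k, false) y
      rw [hDs y g] at h2
      refine h2.trans (div_le_div_of_nonneg_right ?_ hd.le)
      have h3 : Real.exp (Cs * cDC K Cf Cn m * s1) ≤ Real.exp (Cs * cDC K Cf Cn m) := by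
        apply Real.exp_le_exp.2
        have h4 : 0 ≤ Cs * cDC K Cf Cn m := by unfold cDC; positivity
        calc Cs * cDC K Cf Cn m * s1 ≤ Cs * cDC K Cf Cn m * 1 := by
              gcongr
              exact hs01.2
          _ = _ := mul_one _
      calc K * Real.exp (Cs * cDC K Cf Cn m * s1) ≤ K * Real.exp (Cs * cDC K Cf Cn m) := by gcongr
        _ ≤ _ := by unfold cX; linarith
  -- it kills `Ψ`
  have hproj : ∀ Y : Op ι, IsSelfAdjoint Y → Commute Nh Y →
      Commute (Bridge649.sector ι N).starProjection Y.ap := fun Y hY hYN =>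
    commute_proj (K := Y.ap) hY (fun x hx => sector_of_commute hYN hx)
  have hground : ∀ g, (Fl w K1 (nz fcar u g) : Op ι) ψ = ((ρ g : ℝ) : ℂ) • ψ := by
    intro g
    have h1 := Fl_ground (E := Fk ι) (K := K1.ap) (V := (nz fcar u g : Op ι).ap)
      (S := Bridge649.sector ι N) hK1sa (β := γ / 2) (g := γ / 2) (by positivity) le_rfl hw
      (fun x hx => sector_of_commute (hKN s1) hx)
      (hproj _ (hnsa g) (Nh_comm_nz u g)) hg1
    rw [hρc g]
    exact h1
  have hkill : ∀ g, X g Ψ = 0 := by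
    intro g
    have h1 : X g Ψ = star (Ut s1) ((Fl w K1 (nz fcar u g) : Op ι) ψ - ((ρ g : ℝ) : ℂ) • ψ) := by
      simp only [hXdef]
      rw [mul_ap, mul_ap, sub_ap, smul_ap, one_ap]
    rw [h1, hground, sub_self]
    exact (star (Ut s1)).ap.map_zero
  -- scaling
  set r : ℝ := (cX w K Cs Cf Cn m)⁻¹ with hr
  have hr0 : 0 ≤ r := by positivity
  have hFam1 : Fam (fun k g => an (u k g)) D Nh m 1 (fun x => (r : ℂ) • X x) := by
    have h1 := hFam.smul hr0
    rwa [hr, inv_mul_cancel₀ hX0.ne'] at h1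
  have hres := hUU _ hFam1 (fun x => by
    rw [smul_ap, hkill, smul_zero]) φ hφm hφ1 χ hχ
  -- the integral
  have hXi : Integrable (fun x => (φ x : ℂ) • X x) ν := by
    have h1 := integrable_phi ν hφm hφ1 hFam.cont
    exact h1.congr (Filter.Eventually.of_forall fun g => (Complex.coe_smul _ _).symm)
  have hint1 : ∫ x, (φ x : ℂ) • ((r : ℂ) • X x) ∂ν = (r : ℂ) • ∫ x, (φ x : ℂ) • X x ∂ν := by
    rw [← integral_smul]
    congr 1
    funext x
    rw [smul_comm]
  have hint2 : (⟪χ, (∫ x, (φ x : ℂ) • X x ∂ν : Op ι) χ⟫_ℂ).re =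
      (⟪χ, (star (Ut s1) * Fl w K1 V * Ut s1) χ⟫_ℂ).re - (⟪ψ, V ψ⟫_ℂ).re * ‖χ‖ ^ 2 := by
    -- both sides are integrals
    have hFi : Integrable (fun x => (φ x : ℂ) •
        (star (Ut s1) * Fl w K1 (nz fcar u x) * Ut s1)) ν := by
      have h1 : Continuous fun x => star (Ut s1) * Fl w K1 (nz fcar u x) * Ut s1 :=
        (continuous_const.mul ((FlL hw.toIsFilter hK1sa).continuous.comp hnzc)).mul
          continuous_const
      exact (integrable_phi ν hφm hφ1 h1).congr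
        (Filter.Eventually.of_forall fun g => (Complex.coe_smul _ _).symm)
    have hV' : V = ∫ x, (φ x : ℂ) • nz fcar u x ∂ν := by
      rw [hV]
      congr 1
    have hVi' : Integrable (fun x => (φ x : ℂ) • nz (fcar : Car (Op ι) (L ι)) u x) ν := by
      exact hVi.congr (Filter.Eventually.of_forall fun g => (Complex.coe_smul _ _).symm)
    set T : Op ι →L[ℂ] Op ι := ((ContinuousLinearMap.mul ℂ (Op ι) (star (Ut s1))).comp
      (((ContinuousLinearMap.mul ℂ (Op ι)).flip (Ut s1)).comp (FlL hw.toIsFilter hK1sa))) with hT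
    have hTap : ∀ Y, T Y = star (Ut s1) * Fl w K1 Y * Ut s1 := fun Y => by
      rw [hT, mul_assoc]; rfl
    have h1 : star (Ut s1) * Fl w K1 V * Ut s1 =
        ∫ x, (φ x : ℂ) • (star (Ut s1) * Fl w K1 (nz fcar u x) * Ut s1) ∂ν := by
      have h2 := T.integral_comp_comm hVi'
      rw [← hV', hTap] at h2
      rw [← h2]
      congr 1
      funext x
      rw [T.map_smul, hTap]
    have h3 : ⟪ψ, V ψ⟫_ℂ = ∫ x, (φ x : ℂ) * ((ρ x : ℝ) : ℂ) ∂ν := by
      have h2 := (mcf ψ ψ).integral_comp_comm hVi'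
      rw [← hV', mcf_apply] at h2
      rw [← h2]
      congr 1
      funext x
      rw [map_smul, mcf_apply, hρc, smul_eq_mul]
    have hρi : Integrable (fun x => (φ x : ℂ) * ((ρ x : ℝ) : ℂ)) ν := by
      have h2 := (mcf ψ ψ).integrable_comp hVi'
      refine h2.congr (Filter.Eventually.of_forall fun g => ?_)
      simp only [map_smul, mcf_apply, hρc, smul_eq_mul]
    have h4 : ∫ x, (φ x : ℂ) • X x ∂ν = star (Ut s1) * Fl w K1 V * Ut s1 -
        ⟪ψ, V ψ⟫_ℂ • (1 : Op ι) := by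
      rw [h1, h3]
      have h5 : (∫ x, (φ x : ℂ) * ((ρ x : ℝ) : ℂ) ∂ν) • (1 : Op ι) =
          ∫ x, ((φ x : ℂ) * ((ρ x : ℝ) : ℂ)) • (1 : Op ι) ∂ν :=
        (integral_smul_const (fun x => (φ x : ℂ) * ((ρ x : ℝ) : ℂ)) (1 : Op ι)).symm
      rw [h5, ← integral_sub hFi (hρi.smul_const _)]
      congr 1
      funext x
      rw [hXeq, smul_sub, smul_smul]
    rw [h4, sub_ap, smul_ap, one_ap, inner_sub_right, inner_smul_right, Complex.sub_re]
    congr 1
    have h6 : ⟪χ, χ⟫_ℂ = ((‖χ‖ ^ 2 : ℝ) : ℂ) := by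
      rw [inner_self_eq_norm_sq_to_K]; push_cast; rfl
    rw [h6, Complex.re_mul_ofReal]
  rw [hint1, smul_ap, inner_smul_right, Complex.re_ofReal_mul, hint2, abs_mul,
    abs_of_nonneg hr0, hr] at hres
  have h7 : |(⟪χ, (star (Ut s1) * Fl w K1 V * Ut s1) χ⟫_ℂ).re - (⟪ψ, V ψ⟫_ℂ).re * ‖χ‖ ^ 2| ≤
      cX w K Cs Cf Cn m * (CU * (⟪χ, H χ⟫_ℂ).re) := by
    rwa [inv_mul_le_iff₀ hX0] at hres
  refine h7.trans (le_of_eq (by ring))

end Crest.Agent.R340.Top644
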