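import Crest.Agent.R340.Fock_649
import Crest.Agent.R340.Cert_132

/-!
# Transfer of the planar local positivity to the sphere (helper132, R340, S0533)

For tables `G, B, A` with `PSD P G B A`, the operator with the same coefficients on the sphere with
flux `Q` is bounded below by `-ε_Q ∑_{q<P} ‖w_q ψ‖²` with `ε_Q → 0`.
-/

set_option autoImplicit false

namespace Crest.Agent.R340.Tr132

open Finset Crest.Agent.R340.Fock649 Crest.Agent.R340.Cert132
open scoped ComplexConjugate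

/-! ### operators -/

/-- `ν_j = sqrt (C(Q,j) / Q^j)` -/
noncomputable def nu (Q j : ℕ) : ℝ := Real.sqrt ((Q.choose j : ℝ) / (Q : ℝ) ^ j)

/-- `d_j = ν_j c_j` (zero if `j > Q`) -/
noncomputable def dQ (Q j : ℕ) : Op (Fin (Q + 1)) :=
  if h : j < Q + 1 then ((nu Q j : ℝ) : ℂ) • c (⟨j, h⟩ : Fin (Q + 1)) else 0

/-- `w_q = ∑_{i<j, i+j=q+1} (j-i) d_j d_i` -/
noncomputable def wQ (Q q : ℕ) : Op (Fin (Q + 1)) :=
  ∑ i ∈ range (q / 2 + 1), (((q : ℤ) + 1 - 2 * i : ℤ) : ℂ) • (dQ Q (q + 1 - i) * dQ Q i)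

/-- coordinates in which the operators have integer coefficients -/
noncomputable def lift (Q : ℕ) (v : Fk (Fin (Q + 1))) (S : Finset ℕ) : ℂ :=
  ((∏ i ∈ S, nu Q i : ℝ) : ℂ) * v (univ.filter fun i : Fin (Q + 1) => (i : ℕ) ∈ S)

theorem nu_eq_zero {Q j : ℕ} (h : Q < j) : nu Q j = 0 := by
  unfold nu
  rw [Nat.choose_eq_zero_of_lt h]; simp

theorem sg_toFin (Q j : ℕ) (h : j < Q + 1) (S : Finset ℕ) :
    sg (⟨j, h⟩ : Fin (Q + 1)) (univ.filter fun i : Fin (Q + 1) => (i : ℕ) ∈ S) =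
      ((sgZ j S : ℤ) : ℂ) := by
  unfold sg sgZ
  push_cast
  congr 1
  refine Finset.card_bij (fun i _ => (i : ℕ)) ?_ ?_ ?_
  · intro a ha
    simp only [mem_filter, mem_univ, true_and] at ha ⊢
    exact ⟨ha.1, ha.2⟩
  · intro a _ b _ hab
    exact Fin.ext hab
  · intro b hb
    simp only [mem_filter] at hb
    exact ⟨⟨b, by omega⟩, by simp only [mem_filter, mem_univ, true_and]; exact ⟨hb.1, hb.2⟩, rfl⟩

theorem lift_d (Q j : ℕ) (v : Fk (Fin (Q + 1))) (S : Finset ℕ) :
    lift Q (dQ Q j v) S = dl j (lift Q v) S := by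
  unfold dl
  by_cases hj : j < Q + 1
  · have hd : dQ Q j = ((nu Q j : ℝ) : ℂ) • c (⟨j, hj⟩ : Fin (Q + 1)) := by
      unfold dQ; rw [dif_pos hj]
    have hmem : ((⟨j, hj⟩ : Fin (Q + 1)) ∈ univ.filter fun i : Fin (Q + 1) => (i : ℕ) ∈ S) ↔ j ∈ S := by
      simp
    unfold lift
    rw [hd, smul_ap, PiLp.smul_apply, smul_eq_mul, c_apply]
    by_cases hS : j ∈ S
    · rw [if_pos (hmem.2 hS), if_pos hS]; simp
    · rw [if_neg (fun h => hS (hmem.1 h)), if_neg hS, Finset.prod_insert hS, sg_toFin]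
      have h1 : insert (⟨j, hj⟩ : Fin (Q + 1)) (univ.filter fun i : Fin (Q + 1) => (i : ℕ) ∈ S) =
          univ.filter fun i : Fin (Q + 1) => (i : ℕ) ∈ insert j S := by
        ext i
        simp only [mem_insert, mem_filter, mem_univ, true_and, Fin.ext_iff]
      rw [h1, zsmul_eq_mul]
      push_cast
      ring
  · have hd : dQ Q j = 0 := by
      unfold dQ; rw [dif_neg hj]
    unfold lift
    rw [hd, zero_ap]
    split_ifs with hS
    · simp
    · rw [Finset.prod_insert hS, nu_eq_zero (by omega)]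
      simp

theorem lift_add (Q : ℕ) (v w : Fk (Fin (Q + 1))) (S : Finset ℕ) :
    lift Q (v + w) S = lift Q v S + lift Q w S := by
  unfold lift; rw [PiLp.add_apply]; ring

theorem lift_smul (Q : ℕ) (a : ℂ) (v : Fk (Fin (Q + 1))) (S : Finset ℕ) :
    lift Q (a • v) S = a * lift Q v S := by
  unfold lift; rw [PiLp.smul_apply, smul_eq_mul]; ring

theorem lift_zero (Q : ℕ) (S : Finset ℕ) : lift Q 0 S = 0 := by
  unfold lift; simp

theorem lift_sum (Q : ℕ) {σ : Type*} (s : Finset σ) (v : σ → Fk (Fin (Q + 1))) (S : Finset ℕ) :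
    lift Q (∑ k ∈ s, v k) S = ∑ k ∈ s, lift Q (v k) S := by
  classical
  induction s using Finset.induction_on with
  | empty => simp [lift_zero]
  | insert a s ha ih => rw [Finset.sum_insert ha, Finset.sum_insert ha, lift_add, ih]

theorem lift_w (Q q : ℕ) (v : Fk (Fin (Q + 1))) (S : Finset ℕ) :
    lift Q (wQ Q q v) S = wl q (lift Q v) S := by
  unfold wQ wl
  rw [sum_ap, lift_sum]
  refine Finset.sum_congr rfl fun i _ => ?_
  rw [smul_ap, lift_smul, mul_ap, lift_d]
  have h1 : lift Q (dQ Q i v) = dl i (lift Q v) := funext fun T => lift_d Q i v T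
  rw [h1, zsmul_eq_mul]

/-! ### weights and inner products -/

/-- weight of a configuration: `∏ Q^i / C(Q,i)` -/
noncomputable def wt (Q : ℕ) (S : Finset ℕ) : ℝ := ∏ i ∈ S, ((Q : ℝ) ^ i / (Q.choose i : ℝ))

theorem nu_sq_mul {Q i : ℕ} (hQ : 0 < Q) (hi : i ≤ Q) :
    nu Q i ^ 2 * ((Q : ℝ) ^ i / (Q.choose i : ℝ)) = 1 := by
  unfold nu
  have h1 : (0:ℝ) < (Q.choose i : ℝ) := by exact_mod_cast Nat.choose_pos hi
  have h2 : (0:ℝ) < (Q : ℝ) ^ i := by positivity
  rw [Real.sq_sqrt (by positivity)]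
  field_simp

theorem prod_nu_sq {Q : ℕ} (hQ : 0 < Q) {S : Finset ℕ} (hS : S ⊆ range (Q + 1)) :
    wt Q S * (∏ i ∈ S, nu Q i) ^ 2 = 1 := by
  unfold wt
  rw [← Finset.prod_pow, ← Finset.prod_mul_distrib]
  refine Finset.prod_eq_one fun i hi => ?_
  have := hS hi
  rw [mul_comm]
  exact nu_sq_mul hQ (by simp at this; omega)

theorem inner_lift {Q : ℕ} (hQ : 0 < Q) (v w : Fk (Fin (Q + 1))) :
    (inner ℂ v w : ℂ) = ∑ S ∈ (range (Q + 1)).powerset,
      (wt Q S : ℂ) * (conj (lift Q v S) * lift Q w S) := by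
  have h0 : (inner ℂ v w : ℂ) = ∑ T : Finset (Fin (Q + 1)), conj (v T) * w T := by
    rw [EuclideanSpace.inner_eq_star_dotProduct]
    unfold dotProduct
    refine Finset.sum_congr rfl fun T _ => ?_
    rw [mul_comm]; rfl
  rw [h0]
  refine Finset.sum_bij (fun T _ => T.map Fin.valEmbedding) ?_ ?_ ?_ ?_
  · intro T _
    simp only [mem_powerset]
    intro i hi
    simp only [mem_map, Fin.valEmbedding_apply] at hi
    obtain ⟨a, _, rfl⟩ := hi
    exact mem_range.2 a.2
  · intro a _ b _ hab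
    exact Finset.map_injective _ hab
  · intro S hS
    simp only [mem_powerset] at hS
    refine ⟨univ.filter fun i : Fin (Q + 1) => (i : ℕ) ∈ S, mem_univ _, ?_⟩
    ext i
    simp only [mem_map, mem_filter, mem_univ, true_and, Fin.valEmbedding_apply]
    constructor
    · rintro ⟨a, ha, rfl⟩; exact ha
    · intro hi
      have := hS hi
      simp only [mem_range] at this
      exact ⟨⟨i, this⟩, hi, rfl⟩
  · intro T _
    have h1 : (univ.filter fun i : Fin (Q + 1) => (i : ℕ) ∈ T.map Fin.valEmbedding) = T := by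
      ext i
      simp only [mem_filter, mem_univ, true_and, mem_map, Fin.valEmbedding_apply]
      constructor
      · rintro ⟨a, ha, hab⟩
        rwa [← Fin.ext hab]
      · intro hi; exact ⟨i, hi, rfl⟩
    have h2 : T.map Fin.valEmbedding ⊆ range (Q + 1) := by
      intro i hi
      simp only [mem_map, Fin.valEmbedding_apply] at hi
      obtain ⟨a, _, rfl⟩ := hi
      exact mem_range.2 a.2
    have h3 := prod_nu_sq hQ h2
    unfold lift
    rw [h1, map_mul, Complex.conj_ofReal]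
    have h4 : (wt Q (T.map Fin.valEmbedding) : ℂ) *
        ((∏ i ∈ T.map Fin.valEmbedding, nu Q i : ℝ) : ℂ) ^ 2 = 1 := by
      rw [← Complex.ofReal_pow, ← Complex.ofReal_mul, h3, Complex.ofReal_one]
    calc conj (v T) * w T = ((wt Q (T.map Fin.valEmbedding) : ℂ) *
        ((∏ i ∈ T.map Fin.valEmbedding, nu Q i : ℝ) : ℂ) ^ 2) * (conj (v T) * w T) := by
          rw [h4, one_mul]
      _ = _ := by ring

/-! ### splitting off the outer orbitals -/

theorem sum_split {P Q : ℕ} (hPQ : P ≤ Q) {M : Type*} [AddCommMonoid M] (F : Finset ℕ → M) :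
    ∑ S ∈ (range (Q + 1)).powerset, F S =
      ∑ R ∈ (Ico (P + 1) (Q + 1)).powerset, ∑ T ∈ (range (P + 1)).powerset, F (T ∪ R) := by
  rw [← Finset.sum_product']
  symm
  refine Finset.sum_bij (fun x _ => x.2 ∪ x.1) ?_ ?_ ?_ ?_
  · intro x hx
    simp only [mem_product, mem_powerset] at hx ⊢
    refine union_subset (hx.2.trans ?_) (hx.1.trans ?_)
    · intro i; simp only [mem_range]; omega
    · intro i; simp only [mem_range, mem_Ico]; omega
  · intro x hx y hy hxy
    simp only [mem_product, mem_powerset] at hx hy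
    have key : ∀ z : Finset ℕ × Finset ℕ, z.1 ⊆ Ico (P + 1) (Q + 1) → z.2 ⊆ range (P + 1) →
        z.1 = (z.2 ∪ z.1).filter (fun i => P + 1 ≤ i) ∧ z.2 = (z.2 ∪ z.1).filter (fun i => i < P + 1) := by
      intro z h1 h2
      constructor
      · ext i
        simp only [mem_filter, mem_union]
        constructor
        · intro hi
          have := h1 hi; simp only [mem_Ico] at this
          exact ⟨Or.inr hi, this.1⟩
        · rintro ⟨hi | hi, h⟩
          · have := h2 hi; simp only [mem_range] at this; omega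
          · exact hi
      · ext i
        simp only [mem_filter, mem_union]
        constructor
        · intro hi
          have := h2 hi; simp only [mem_range] at this
          exact ⟨Or.inl hi, this⟩
        · rintro ⟨hi | hi, h⟩
          · exact hi
          · have := h1 hi; simp only [mem_Ico] at this; omega
    have kx := key x hx.1 hx.2
    have ky := key y hy.1 hy.2
    have hxy' : x.2 ∪ x.1 = y.2 ∪ y.1 := hxy
    refine Prod.ext ?_ ?_
    · rw [kx.1, ky.1, hxy']
    · rw [kx.2, ky.2, hxy']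
  · intro S hS
    simp only [mem_powerset] at hS
    refine ⟨(S.filter (fun i => P + 1 ≤ i), S.filter (fun i => i < P + 1)), ?_, ?_⟩
    · simp only [mem_product, mem_powerset]
      constructor
      · intro i hi
        simp only [mem_filter] at hi
        have := hS hi.1
        simp only [mem_range] at this
        simp only [mem_Ico]; omega
      · intro i hi
        simp only [mem_filter] at hi
        simp only [mem_range]; omega
    · ext i
      simp only [mem_union, mem_filter]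
      constructor
      · rintro (h | h) <;> exact h.1
      · intro h
        by_cases hi : i < P + 1
        · exact Or.inl ⟨h, hi⟩
        · exact Or.inr ⟨h, by omega⟩
  · intro x _; rfl

theorem wt_union {P Q : ℕ} {T R : Finset ℕ} (hT : T ⊆ range (P + 1))
    (hR : R ⊆ Ico (P + 1) (Q + 1)) : wt Q (T ∪ R) = wt Q T * wt Q R := by
  unfold wt
  rw [Finset.prod_union]
  rw [Finset.disjoint_left]
  intro i hi hi'
  have h1 := hT hi
  have h2 := hR hi'
  simp only [mem_range, mem_Ico] at h1 h2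
  omega

section Loc
variable {K : Type*} [AddCommGroup K]

theorem dl_union {P Q j : ℕ} (hj : j ≤ P) {R : Finset ℕ} (hR : R ⊆ Ico (P + 1) (Q + 1))
    (f : Finset ℕ → K) (T : Finset ℕ) :
    dl j f (T ∪ R) = dl j (fun T => f (T ∪ R)) T := by
  unfold dl
  have h1 : j ∉ R := fun h => by have := hR h; simp only [mem_Ico] at this; omega
  have h2 : sgZ j (T ∪ R) = sgZ j T := by
    unfold sgZ
    congr 2
    ext i
    simp only [mem_filter, mem_union]
    constructor
    · rintro ⟨h | h, hi⟩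
      · exact ⟨h, hi⟩
      · have := hR h; simp only [mem_Ico] at this; omega
    · rintro ⟨h, hi⟩
      exact ⟨Or.inl h, hi⟩
  have h3 : (j ∈ T ∪ R) ↔ j ∈ T := by simp [h1]
  rw [h2, ← Finset.insert_union]
  by_cases h : j ∈ T
  · rw [if_pos (h3.2 h), if_pos h]
  · rw [if_neg (fun h' => h (h3.1 h')), if_neg h]

theorem wl_union {P Q q : ℕ} (hq : q < P) {R : Finset ℕ} (hR : R ⊆ Ico (P + 1) (Q + 1))
    (f : Finset ℕ → K) (T : Finset ℕ) :
    wl q f (T ∪ R) = wl q (fun T => f (T ∪ R)) T := by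
  unfold wl
  refine Finset.sum_congr rfl fun i hi => ?_
  simp only [mem_range] at hi
  have hi' : i ≤ P := by omega
  have hj : q + 1 - i ≤ P := by omega
  rw [dl_union hj hR]
  congr 2
  funext T'
  exact dl_union hi' hR f T'

end Loc

/-! ### real and imaginary parts -/

theorem dl_map {K L : Type*} [AddCommGroup K] [AddCommGroup L] (φ : K →+ L) (j : ℕ)
    (f : Finset ℕ → K) (T : Finset ℕ) : φ (dl j f T) = dl j (fun T => φ (f T)) T := by
  unfold dl
  split_ifs
  · exact map_zero φ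
  · exact map_zsmul φ _ _

theorem wl_map {K L : Type*} [AddCommGroup K] [AddCommGroup L] (φ : K →+ L) (q : ℕ)
    (f : Finset ℕ → K) (T : Finset ℕ) : φ (wl q f T) = wl q (fun T => φ (f T)) T := by
  unfold wl
  rw [map_sum]
  refine Finset.sum_congr rfl fun i _ => ?_
  rw [map_zsmul, dl_map]
  congr 2
  funext T'
  exact dl_map φ i f T'

/-- the local form for complex functions -/
noncomputable def formC (G : List (ℕ × ℤ)) (B A : List (ℕ × ℕ × ℕ × ℕ × ℤ)) (f : Finset ℕ → ℂ)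
    (T : Finset ℕ) : ℝ :=
  (G.map fun x => (x.2 : ℝ) * (conj (wl x.1 f T) * wl x.1 f T).re).sum +
  (B.map fun x => (x.2.2.2.2 : ℝ) *
    (conj (dl x.2.1 (wl x.1 f) T) * dl x.2.2.2.1 (wl x.2.2.1 f) T).re).sum +
  (A.map fun x => (x.2.2.2.2 : ℝ) *
    (conj (wl x.2.1 (wl x.1 f) T) * wl x.2.2.2.1 (wl x.2.2.1 f) T).re).sum

theorem re_conj_mul (a b : ℂ) : (conj a * b).re = a.re * b.re + a.im * b.im := by
  simp [Complex.mul_re]

theorem formC_eq (G : List (ℕ × ℤ)) (B A : List (ℕ × ℕ × ℕ × ℕ × ℤ)) (f : Finset ℕ → ℂ)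
    (T : Finset ℕ) :
    formC G B A f T = form G B A (fun T => (f T).re) T + form G B A (fun T => (f T).im) T := by
  have hw : ∀ q T, (wl q f T).re = wl q (fun T => (f T).re) T := fun q T =>
    wl_map Complex.reAddGroupHom q f T
  have hw' : ∀ q T, (wl q f T).im = wl q (fun T => (f T).im) T := fun q T =>
    wl_map Complex.imAddGroupHom q f T
  have hdw : ∀ j q T, (dl j (wl q f) T).re = dl j (wl q (fun T => (f T).re)) T := fun j q T => by
    have := dl_map Complex.reAddGroupHom j (wl q f) T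
    have h2 : (fun T => Complex.reAddGroupHom (wl q f T)) = wl q (fun T => (f T).re) :=
      funext fun T => hw q T
    rw [h2] at this
    exact this
  have hdw' : ∀ j q T, (dl j (wl q f) T).im = dl j (wl q (fun T => (f T).im)) T := fun j q T => by
    have := dl_map Complex.imAddGroupHom j (wl q f) T
    have h2 : (fun T => Complex.imAddGroupHom (wl q f T)) = wl q (fun T => (f T).im) :=
      funext fun T => hw' q T
    rw [h2] at this
    exact this
  have hww : ∀ j q T, (wl j (wl q f) T).re = wl j (wl q (fun T => (f T).re)) T := fun j q T => by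
    have := wl_map Complex.reAddGroupHom j (wl q f) T
    have h2 : (fun T => Complex.reAddGroupHom (wl q f T)) = wl q (fun T => (f T).re) :=
      funext fun T => hw q T
    rw [h2] at this
    exact this
  have hww' : ∀ j q T, (wl j (wl q f) T).im = wl j (wl q (fun T => (f T).im)) T := fun j q T => by
    have := wl_map Complex.imAddGroupHom j (wl q f) T
    have h2 : (fun T => Complex.imAddGroupHom (wl q f T)) = wl q (fun T => (f T).im) :=
      funext fun T => hw' q T
    rw [h2] at this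
    exact this
  have hsum : ∀ {α : Type} (l : List α) (a b c : α → ℝ), (∀ x, a x = b x + c x) →
      (l.map a).sum = (l.map b).sum + (l.map c).sum := by
    intro α l a b c h
    induction l with
    | nil => simp
    | cons x l ih => simp only [List.map_cons, List.sum_cons, ih, h x]; ring
  unfold formC form
  rw [hsum G _ (fun x => (x.2 : ℝ) * (wl x.1 (fun T => (f T).re) T * wl x.1 (fun T => (f T).re) T))
      (fun x => (x.2 : ℝ) * (wl x.1 (fun T => (f T).im) T * wl x.1 (fun T => (f T).im) T))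
      (fun x => by rw [re_conj_mul, hw, hw']; ring),
    hsum B _ (fun x => (x.2.2.2.2 : ℝ) * (dl x.2.1 (wl x.1 (fun T => (f T).re)) T *
        dl x.2.2.2.1 (wl x.2.2.1 (fun T => (f T).re)) T))
      (fun x => (x.2.2.2.2 : ℝ) * (dl x.2.1 (wl x.1 (fun T => (f T).im)) T *
        dl x.2.2.2.1 (wl x.2.2.1 (fun T => (f T).im)) T))
      (fun x => by rw [re_conj_mul, hdw, hdw', hdw, hdw']; ring),
    hsum A _ (fun x => (x.2.2.2.2 : ℝ) * (wl x.2.1 (wl x.1 (fun T => (f T).re)) T *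
        wl x.2.2.2.1 (wl x.2.2.1 (fun T => (f T).re)) T))
      (fun x => (x.2.2.2.2 : ℝ) * (wl x.2.1 (wl x.1 (fun T => (f T).im)) T *
        wl x.2.2.2.1 (wl x.2.2.1 (fun T => (f T).im)) T))
      (fun x => by rw [re_conj_mul, hww, hww', hww, hww']; ring)]
  ring

/-- planar weight -/
noncomputable def rho (T : Finset ℕ) : ℝ := ((∏ i ∈ T, i.factorial : ℕ) : ℝ)

theorem psdC {P : ℕ} {G : List (ℕ × ℤ)} {B A : List (ℕ × ℕ × ℕ × ℕ × ℤ)} (h : PSD P G B A)
    (f : Finset ℕ → ℂ) : 0 ≤ ∑ T ∈ (range (P + 1)).powerset, rho T * formC G B A f T := by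
  have h1 := h (fun T => (f T).re)
  have h2 := h (fun T => (f T).im)
  have h3 := add_nonneg h1 h2
  rw [← Finset.sum_add_distrib] at h3
  refine le_of_le_of_eq h3 (Finset.sum_congr rfl fun T _ => ?_)
  rw [formC_eq]
  unfold rho
  ring

/-! ### bounds -/

theorem rho_nonneg (T : Finset ℕ) : 0 ≤ rho T := by unfold rho; positivity

theorem rho_le_insert {j : ℕ} {T : Finset ℕ} (h : j ∉ T) : rho T ≤ rho (insert j T) := by
  unfold rho
  rw [Finset.prod_insert h]
  exact_mod_cast Nat.le_mul_of_pos_left _ (Nat.factorial_pos j)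

/-- weighted square norm on the local configurations -/
noncomputable def nrm (P : ℕ) (f : Finset ℕ → ℂ) : ℝ :=
  ∑ T ∈ (range (P + 1)).powerset, rho T * ‖f T‖ ^ 2

theorem nrm_nonneg (P : ℕ) (f : Finset ℕ → ℂ) : 0 ≤ nrm P f :=
  Finset.sum_nonneg fun T _ => mul_nonneg (rho_nonneg T) (by positivity)

theorem norm_dl_le (j : ℕ) (f : Finset ℕ → ℂ) (T : Finset ℕ) (h : j ∉ T) :
    ‖dl j f T‖ = ‖f (insert j T)‖ := by
  unfold dl
  rw [if_neg h, zsmul_eq_mul, norm_mul]
  unfold sgZ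
  push_cast
  rw [norm_pow, norm_neg, norm_one, one_pow, one_mul]

theorem nrm_dl_le {P j : ℕ} (hj : j ≤ P) (f : Finset ℕ → ℂ) : nrm P (dl j f) ≤ nrm P f := by
  unfold nrm
  have h1 : ∑ T ∈ (range (P + 1)).powerset, rho T * ‖dl j f T‖ ^ 2 =
      ∑ T ∈ (range (P + 1)).powerset with j ∉ T, rho T * ‖f (insert j T)‖ ^ 2 := by
    rw [Finset.sum_filter]
    refine Finset.sum_congr rfl fun T _ => ?_
    by_cases h : j ∈ T
    · rw [if_neg (not_not.2 h)]; unfold dl; rw [if_pos h]; simp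
    · rw [if_pos h, norm_dl_le j f T h]
  rw [h1]
  calc ∑ T ∈ (range (P + 1)).powerset with j ∉ T, rho T * ‖f (insert j T)‖ ^ 2
      ≤ ∑ T ∈ (range (P + 1)).powerset with j ∉ T, rho (insert j T) * ‖f (insert j T)‖ ^ 2 := by
        refine Finset.sum_le_sum fun T hT => ?_
        simp only [mem_filter] at hT
        exact mul_le_mul_of_nonneg_right (rho_le_insert hT.2) (by positivity)
    _ = ∑ T ∈ (range (P + 1)).powerset with j ∈ T, rho T * ‖f T‖ ^ 2 := by
        refine Finset.sum_nbij' (fun T => insert j T) (fun T => T.erase j) ?_ ?_ ?_ ?_ ?_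
        · intro T hT
          simp only [mem_filter, mem_powerset] at hT ⊢
          refine ⟨insert_subset (by simp only [mem_range]; omega) hT.1, mem_insert_self _ _⟩
        · intro T hT
          simp only [mem_filter, mem_powerset] at hT ⊢
          exact ⟨(erase_subset _ _).trans hT.1, notMem_erase _ _⟩
        · intro T hT
          simp only [mem_filter, mem_powerset] at hT
          exact erase_insert hT.2
        · intro T hT
          simp only [mem_filter, mem_powerset] at hT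
          exact insert_erase hT.2
        · intro T _; rfl
    _ ≤ ∑ T ∈ (range (P + 1)).powerset, rho T * ‖f T‖ ^ 2 :=
        Finset.sum_le_sum_of_subset_of_nonneg (filter_subset _ _)
          fun T _ _ => mul_nonneg (rho_nonneg T) (by positivity)

theorem nrm_wl_le {P q : ℕ} (hq : q < P) (f : Finset ℕ → ℂ) :
    nrm P (wl q f) ≤ ((q + 1 : ℕ) : ℝ) ^ 4 * nrm P f := by
  have h1 : ∀ T, ‖wl q f T‖ ^ 2 ≤ ((q + 1 : ℕ) : ℝ) ^ 3 *
      ∑ i ∈ range (q / 2 + 1), ‖dl (q + 1 - i) (dl i f) T‖ ^ 2 := by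
    intro T
    have h2 : ‖wl q f T‖ ≤ ((q + 1 : ℕ) : ℝ) * ∑ i ∈ range (q / 2 + 1), ‖dl (q + 1 - i) (dl i f) T‖ := by
      unfold wl
      refine (norm_sum_le _ _).trans ?_
      rw [Finset.mul_sum]
      refine Finset.sum_le_sum fun i hi => ?_
      rw [zsmul_eq_mul, norm_mul]
      refine mul_le_mul_of_nonneg_right ?_ (norm_nonneg _)
      simp only [mem_range] at hi
      have h3 : ((((q : ℤ) + 1 - 2 * i : ℤ) : ℂ)) = ((q + 1 - 2 * i : ℕ) : ℂ) := by
        rw [Nat.cast_sub (by omega)]; push_cast; ring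
      rw [h3, Complex.norm_natCast]
      exact_mod_cast Nat.sub_le _ _
    have h3 : (∑ i ∈ range (q / 2 + 1), ‖dl (q + 1 - i) (dl i f) T‖) ^ 2 ≤
        ((q / 2 + 1 : ℕ) : ℝ) * ∑ i ∈ range (q / 2 + 1), ‖dl (q + 1 - i) (dl i f) T‖ ^ 2 := by
      have := sq_sum_le_card_mul_sum_sq (s := range (q / 2 + 1))
        (f := fun i => ‖dl (q + 1 - i) (dl i f) T‖)
      rwa [card_range] at this
    have h4 : (0:ℝ) ≤ ∑ i ∈ range (q / 2 + 1), ‖dl (q + 1 - i) (dl i f) T‖ ^ 2 :=
      Finset.sum_nonneg fun i _ => by positivity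
    calc ‖wl q f T‖ ^ 2 ≤ (((q + 1 : ℕ) : ℝ) *
          ∑ i ∈ range (q / 2 + 1), ‖dl (q + 1 - i) (dl i f) T‖) ^ 2 :=
          pow_le_pow_left₀ (norm_nonneg _) h2 2
      _ = ((q + 1 : ℕ) : ℝ) ^ 2 * (∑ i ∈ range (q / 2 + 1), ‖dl (q + 1 - i) (dl i f) T‖) ^ 2 := by
          ring
      _ ≤ ((q + 1 : ℕ) : ℝ) ^ 2 * (((q / 2 + 1 : ℕ) : ℝ) *
          ∑ i ∈ range (q / 2 + 1), ‖dl (q + 1 - i) (dl i f) T‖ ^ 2) :=
          mul_le_mul_of_nonneg_left h3 (by positivity)
      _ ≤ ((q + 1 : ℕ) : ℝ) ^ 2 * (((q + 1 : ℕ) : ℝ) *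
          ∑ i ∈ range (q / 2 + 1), ‖dl (q + 1 - i) (dl i f) T‖ ^ 2) := by
          refine mul_le_mul_of_nonneg_left (mul_le_mul_of_nonneg_right ?_ h4) (by positivity)
          exact_mod_cast (by omega : q / 2 + 1 ≤ q + 1)
      _ = _ := by ring
  calc nrm P (wl q f) ≤ ∑ T ∈ (range (P + 1)).powerset, rho T * (((q + 1 : ℕ) : ℝ) ^ 3 *
      ∑ i ∈ range (q / 2 + 1), ‖dl (q + 1 - i) (dl i f) T‖ ^ 2) := by
        unfold nrm
        exact Finset.sum_le_sum fun T _ => mul_le_mul_of_nonneg_left (h1 T) (rho_nonneg T)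
    _ = ((q + 1 : ℕ) : ℝ) ^ 3 * ∑ i ∈ range (q / 2 + 1), nrm P (dl (q + 1 - i) (dl i f)) := by
        unfold nrm
        rw [Finset.sum_comm, Finset.mul_sum]
        refine Finset.sum_congr rfl fun T _ => ?_
        rw [← Finset.mul_sum]; ring
    _ ≤ ((q + 1 : ℕ) : ℝ) ^ 3 * ∑ i ∈ range (q / 2 + 1), nrm P f := by
        refine mul_le_mul_of_nonneg_left (Finset.sum_le_sum fun i hi => ?_) (by positivity)
        simp only [mem_range] at hi
        exact (nrm_dl_le (by omega) _).trans (nrm_dl_le (by omega) _)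
    _ ≤ _ := by
        rw [Finset.sum_const, card_range, nsmul_eq_mul]
        have h5 : ((q / 2 + 1 : ℕ) : ℝ) ≤ ((q + 1 : ℕ) : ℝ) := by
          exact_mod_cast (by omega : q / 2 + 1 ≤ q + 1)
        calc ((q + 1 : ℕ) : ℝ) ^ 3 * (((q / 2 + 1 : ℕ) : ℝ) * nrm P f) ≤
            ((q + 1 : ℕ) : ℝ) ^ 3 * (((q + 1 : ℕ) : ℝ) * nrm P f) :=
              mul_le_mul_of_nonneg_left (mul_le_mul_of_nonneg_right h5 (nrm_nonneg P f))
                (by positivity)
          _ = _ := by ring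

/-- the bad part: sum of the weighted square norms of `w_q f`, `q < P` -/
noncomputable def wsum (P : ℕ) (f : Finset ℕ → ℂ) : ℝ := ∑ q ∈ range P, nrm P (wl q f)

theorem wsum_nonneg (P : ℕ) (f : Finset ℕ → ℂ) : 0 ≤ wsum P f :=
  Finset.sum_nonneg fun _ _ => nrm_nonneg _ _

/-- total mass of the tables -/
noncomputable def mass (G : List (ℕ × ℤ)) (B A : List (ℕ × ℕ × ℕ × ℕ × ℤ)) : ℝ :=
  (G.map fun x => |(x.2 : ℝ)|).sum + (B.map fun x => |(x.2.2.2.2 : ℝ)|).sum +
    (A.map fun x => |(x.2.2.2.2 : ℝ)|).sum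

theorem mass_nonneg (G : List (ℕ × ℤ)) (B A : List (ℕ × ℕ × ℕ × ℕ × ℤ)) : 0 ≤ mass G B A := by
  unfold mass
  have : ∀ {α : Type} (l : List α) (a : α → ℝ), (∀ x, 0 ≤ a x) → 0 ≤ (l.map a).sum := by
    intro α l a h
    refine List.sum_nonneg ?_
    intro y hy
    simp only [List.mem_map] at hy
    obtain ⟨x, _, rfl⟩ := hy
    exact h x
  exact add_nonneg (add_nonneg (this _ _ fun _ => abs_nonneg _) (this _ _ fun _ => abs_nonneg _))
    (this _ _ fun _ => abs_nonneg _)

theorem sum_rho_abs_le {P : ℕ} (a b : Finset ℕ → ℂ) {M : ℝ} (ha : nrm P a ≤ M) (hb : nrm P b ≤ M) :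
    ∑ T ∈ (range (P + 1)).powerset, rho T * |(conj (a T) * b T).re| ≤ M := by
  have h1 : ∀ T, |(conj (a T) * b T).re| ≤ (‖a T‖ ^ 2 + ‖b T‖ ^ 2) / 2 := by
    intro T
    refine (Complex.abs_re_le_norm _).trans ?_
    rw [norm_mul, Complex.norm_conj]
    nlinarith [sq_nonneg (‖a T‖ - ‖b T‖)]
  calc ∑ T ∈ (range (P + 1)).powerset, rho T * |(conj (a T) * b T).re|
      ≤ ∑ T ∈ (range (P + 1)).powerset, rho T * ((‖a T‖ ^ 2 + ‖b T‖ ^ 2) / 2) :=
        Finset.sum_le_sum fun T _ => mul_le_mul_of_nonneg_left (h1 T) (rho_nonneg T)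
    _ = (nrm P a + nrm P b) / 2 := by
        unfold nrm
        rw [← Finset.sum_add_distrib, Finset.sum_div]
        refine Finset.sum_congr rfl fun T _ => by ring
    _ ≤ M := by linarith

theorem abs_sum_list_le {α : Type} (l : List α) (a : α → ℝ) : |(l.map a).sum| ≤ (l.map fun x => |a x|).sum := by
  induction l with
  | nil => simp
  | cons x l ih =>
    simp only [List.map_cons, List.sum_cons]
    exact (abs_add_le _ _).trans (by linarith)

theorem sum_list_swap {α : Type} (l : List α) (s : Finset (Finset ℕ)) (F : Finset ℕ → α → ℝ) :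
    ∑ T ∈ s, (l.map (F T)).sum = (l.map fun x => ∑ T ∈ s, F T x).sum := by
  induction l with
  | nil => simp
  | cons x l ih => simp only [List.map_cons, List.sum_cons, Finset.sum_add_distrib, ih]

theorem sum_list_le {α : Type} (l : List α) (a b : α → ℝ) (h : ∀ x ∈ l, a x ≤ b x) :
    (l.map a).sum ≤ (l.map b).sum := List.sum_le_sum h

theorem formC_bound {P : ℕ} {G : List (ℕ × ℤ)} {B A : List (ℕ × ℕ × ℕ × ℕ × ℤ)} (hAdm : Adm P G B A)
    (f : Finset ℕ → ℂ) :
    ∑ T ∈ (range (P + 1)).powerset, rho T * |formC G B A f T| ≤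
      mass G B A * ((P : ℝ) + 1) ^ 4 * wsum P f := by
  set M : ℝ := ((P : ℝ) + 1) ^ 4 * wsum P f with hM
  have hP1 : (1:ℝ) ≤ ((P : ℝ) + 1) ^ 4 := by
    have : (1:ℝ) ≤ (P : ℝ) + 1 := by have := Nat.cast_nonneg (α := ℝ) P; linarith
    exact one_le_pow₀ this
  have hw : ∀ q < P, nrm P (wl q f) ≤ wsum P f := fun q hq =>
    Finset.single_le_sum (f := fun q => nrm P (wl q f)) (fun _ _ => nrm_nonneg _ _)
      (mem_range.2 hq)
  have hwM : ∀ q < P, nrm P (wl q f) ≤ M := fun q hq => by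
    refine (hw q hq).trans ?_
    rw [hM]
    nlinarith [wsum_nonneg P f]
  have hdM : ∀ q < P, ∀ j ≤ P, nrm P (dl j (wl q f)) ≤ M := fun q hq j hj =>
    (nrm_dl_le hj _).trans (hwM q hq)
  have hwwM : ∀ q < P, ∀ s < P, nrm P (wl s (wl q f)) ≤ M := fun q hq s hs => by
    refine (nrm_wl_le hs _).trans ?_
    rw [hM]
    refine mul_le_mul ?_ (hw q hq) (nrm_nonneg _ _) (by positivity)
    refine pow_le_pow_left₀ (by positivity) ?_ 4
    have : (s : ℝ) + 1 ≤ P + 1 := by
      have : (s : ℝ) ≤ P := by exact_mod_cast hs.le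
      linarith
    push_cast
    exact this
  have hterm : ∀ T, |formC G B A f T| ≤
      (G.map fun x => |(x.2 : ℝ)| * |(conj (wl x.1 f T) * wl x.1 f T).re|).sum +
      (B.map fun x => |(x.2.2.2.2 : ℝ)| *
        |(conj (dl x.2.1 (wl x.1 f) T) * dl x.2.2.2.1 (wl x.2.2.1 f) T).re|).sum +
      (A.map fun x => |(x.2.2.2.2 : ℝ)| *
        |(conj (wl x.2.1 (wl x.1 f) T) * wl x.2.2.2.1 (wl x.2.2.1 f) T).re|).sum := by
    intro T
    unfold formC
    refine (abs_add_le _ _).trans (add_le_add ((abs_add_le _ _).trans (add_le_add ?_ ?_)) ?_)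
    · refine (abs_sum_list_le _ _).trans (le_of_eq ?_)
      congr 1; refine List.map_congr_left fun x _ => abs_mul _ _
    · refine (abs_sum_list_le _ _).trans (le_of_eq ?_)
      congr 1; refine List.map_congr_left fun x _ => abs_mul _ _
    · refine (abs_sum_list_le _ _).trans (le_of_eq ?_)
      congr 1; refine List.map_congr_left fun x _ => abs_mul _ _
  refine (Finset.sum_le_sum fun T _ => mul_le_mul_of_nonneg_left (hterm T) (rho_nonneg T)).trans ?_
  have hmul : ∀ {α : Type} (l : List α) (a : α → ℝ) (c : ℝ),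
      c * (l.map a).sum = (l.map fun x => c * a x).sum := by
    intro α l a c
    exact (List.sum_map_mul_left ..).symm
  simp only [mul_add, Finset.sum_add_distrib]
  simp only [hmul]
  rw [sum_list_swap, sum_list_swap, sum_list_swap]
  have e : mass G B A * ((P : ℝ) + 1) ^ 4 * wsum P f =
      (G.map fun x => |(x.2 : ℝ)| * M).sum + (B.map fun x => |(x.2.2.2.2 : ℝ)| * M).sum +
        (A.map fun x => |(x.2.2.2.2 : ℝ)| * M).sum := by
    rw [List.sum_map_mul_right, List.sum_map_mul_right, List.sum_map_mul_right]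
    unfold mass
    rw [hM]; ring
  rw [e]
  refine add_le_add (add_le_add ?_ ?_) ?_
  · refine sum_list_le _ _ _ fun x hx => ?_
    have h1 := hAdm.1 x hx
    have h2 := sum_rho_abs_le (wl x.1 f) (wl x.1 f) (hwM _ h1) (hwM _ h1)
    calc _ = |(x.2 : ℝ)| * ∑ T ∈ (range (P + 1)).powerset,
          rho T * |(conj (wl x.1 f T) * wl x.1 f T).re| := by
          rw [Finset.mul_sum]; refine Finset.sum_congr rfl fun T _ => by ring
      _ ≤ _ := mul_le_mul_of_nonneg_left h2 (abs_nonneg _)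
  · refine sum_list_le _ _ _ fun x hx => ?_
    have h1 := hAdm.2.1 x hx
    have h2 := sum_rho_abs_le (dl x.2.1 (wl x.1 f)) (dl x.2.2.2.1 (wl x.2.2.1 f))
      (hdM _ h1.1 _ h1.2.1) (hdM _ h1.2.2.1 _ h1.2.2.2)
    calc _ = |(x.2.2.2.2 : ℝ)| * ∑ T ∈ (range (P + 1)).powerset,
          rho T * |(conj (dl x.2.1 (wl x.1 f) T) * dl x.2.2.2.1 (wl x.2.2.1 f) T).re| := by
          rw [Finset.mul_sum]; refine Finset.sum_congr rfl fun T _ => by ring
      _ ≤ _ := mul_le_mul_of_nonneg_left h2 (abs_nonneg _)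
  · refine sum_list_le _ _ _ fun x hx => ?_
    have h1 := hAdm.2.2 x hx
    have h2 := sum_rho_abs_le (wl x.2.1 (wl x.1 f)) (wl x.2.2.2.1 (wl x.2.2.1 f))
      (hwwM _ h1.1 _ h1.2.1) (hwwM _ h1.2.2.1 _ h1.2.2.2)
    calc _ = |(x.2.2.2.2 : ℝ)| * ∑ T ∈ (range (P + 1)).powerset,
          rho T * |(conj (wl x.2.1 (wl x.1 f) T) * wl x.2.2.2.1 (wl x.2.2.1 f) T).re| := by
          rw [Finset.mul_sum]; refine Finset.sum_congr rfl fun T _ => by ring
      _ ≤ _ := mul_le_mul_of_nonneg_left h2 (abs_nonneg _)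

/-! ### comparison of the weights -/

/-- the ratio `Q^i / (C(Q,i) i!)` -/
noncomputable def lam (Q i : ℕ) : ℝ := (Q : ℝ) ^ i / ((Q.choose i : ℝ) * (i.factorial : ℝ))

/-- the product of all ratios on the local orbitals -/
noncomputable def Lam (P Q : ℕ) : ℝ := ∏ i ∈ range (P + 1), lam Q i

theorem one_le_lam {Q i : ℕ} (hi : i ≤ Q) : 1 ≤ lam Q i := by
  unfold lam
  have h1 : (0:ℝ) < (Q.choose i : ℝ) := by exact_mod_cast Nat.choose_pos hi
  have h2 : (0:ℝ) < (i.factorial : ℝ) := by exact_mod_cast Nat.factorial_pos i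
  rw [one_le_div (by positivity)]
  have h3 := Nat.choose_le_pow_div i Q (α := ℝ)
  rwa [le_div_iff₀ h2] at h3

theorem wt_eq (Q : ℕ) (T : Finset ℕ) : wt Q T = rho T * ∏ i ∈ T, lam Q i := by
  unfold wt rho lam
  push_cast
  rw [← Finset.prod_mul_distrib]
  refine Finset.prod_congr rfl fun i _ => ?_
  have h2 : (i.factorial : ℝ) ≠ 0 := by exact_mod_cast (Nat.factorial_pos i).ne'
  field_simp

theorem one_le_prod_lam {P Q : ℕ} (hPQ : P ≤ Q) {T : Finset ℕ} (hT : T ⊆ range (P + 1)) :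
    1 ≤ ∏ i ∈ T, lam Q i := by
  have h : ∀ i ∈ T, 1 ≤ lam Q i := fun i hi => by
    have := hT hi; simp only [mem_range] at this
    exact one_le_lam (by omega)
  calc (1:ℝ) = ∏ i ∈ T, (1:ℝ) := by simp
    _ ≤ _ := Finset.prod_le_prod (fun _ _ => zero_le_one) h

theorem prod_lam_le {P Q : ℕ} (hPQ : P ≤ Q) {T : Finset ℕ} (hT : T ⊆ range (P + 1)) :
    ∏ i ∈ T, lam Q i ≤ Lam P Q := by
  unfold Lam
  have h : ∀ i ∈ range (P + 1), 1 ≤ lam Q i := fun i hi => by
    simp only [mem_range] at hi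
    exact one_le_lam (by omega)
  rw [← Finset.prod_sdiff hT]
  have h1 : 1 ≤ ∏ i ∈ range (P + 1) \ T, lam Q i := by
    calc (1:ℝ) = ∏ i ∈ range (P + 1) \ T, (1:ℝ) := by simp
      _ ≤ _ := Finset.prod_le_prod (fun _ _ => zero_le_one)
        (fun i hi => h i (Finset.sdiff_subset hi))
  have h2 := one_le_prod_lam hPQ hT
  nlinarith

theorem tendsto_lam (i : ℕ) : Filter.Tendsto (fun Q : ℕ => lam Q i) Filter.atTop (nhds 1) := by
  have h1 : ∀ Q : ℕ, i ≤ Q → 0 < Q → lam Q i = ∏ k ∈ range i, (1 - (k : ℝ) / Q)⁻¹ := by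
    intro Q hi hQ
    have h2 : ((Q.choose i : ℝ) * (i.factorial : ℝ)) = ∏ k ∈ range i, ((Q : ℝ) - k) := by
      have h3 := Nat.descFactorial_eq_factorial_mul_choose Q i
      have h4 := Nat.descFactorial_eq_prod_range Q i
      have h5 : ((i.factorial * Q.choose i : ℕ) : ℝ) = ((∏ k ∈ range i, (Q - k) : ℕ) : ℝ) := by
        rw [← h3, ← h4]
      push_cast at h5
      rw [mul_comm, h5]
      refine Finset.prod_congr rfl fun k hk => ?_
      simp only [mem_range] at hk
      rw [Nat.cast_sub (by omega)]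
    unfold lam
    rw [h2, ← Finset.card_range i, ← Finset.prod_const, Finset.card_range, ← Finset.prod_div_distrib]
    refine Finset.prod_congr rfl fun k hk => ?_
    simp only [mem_range] at hk
    have h6 : (0:ℝ) < Q := by exact_mod_cast hQ
    have h7 : (0:ℝ) < (Q : ℝ) - k := by
      have : (k : ℝ) < Q := by exact_mod_cast (by omega : k < Q)
      linarith
    have h8 : (1 - (k : ℝ) / Q) = ((Q : ℝ) - k) / Q := by field_simp
    rw [h8, inv_div]
  have h2 : Filter.Tendsto (fun Q : ℕ => ∏ k ∈ range i, (1 - (k : ℝ) / Q)⁻¹) Filter.atTop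
      (nhds (∏ k ∈ range i, ((1:ℝ) - 0)⁻¹)) := by
    refine tendsto_finsetProd _ fun k _ => ?_
    refine Filter.Tendsto.inv₀ (Filter.Tendsto.sub tendsto_const_nhds ?_) (by norm_num)
    exact tendsto_const_div_atTop_nhds_zero_nat (k : ℝ)
  have h3 : ∏ k ∈ range i, ((1:ℝ) - 0)⁻¹ = 1 := by simp
  rw [h3] at h2
  refine h2.congr' ?_
  filter_upwards [Filter.eventually_ge_atTop (i + 1)] with Q hQ
  exact (h1 Q (by omega) (by omega)).symm

theorem tendsto_Lam (P : ℕ) : Filter.Tendsto (fun Q : ℕ => Lam P Q) Filter.atTop (nhds 1) := by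
  have := tendsto_finsetProd (range (P + 1)) fun i (_ : i ∈ range (P + 1)) => tendsto_lam i
  simpa [Lam] using this

/-! ### the transfer theorem -/

/-- The form with tables `G, B, A` on the sphere with flux `Q`. -/
noncomputable def formQ (Q : ℕ) (G : List (ℕ × ℤ)) (B A : List (ℕ × ℕ × ℕ × ℕ × ℤ))
    (v : Fk (Fin (Q + 1))) : ℝ :=
  (G.map fun x => (x.2 : ℝ) * (inner ℂ (wQ Q x.1 v) (wQ Q x.1 v) : ℂ).re).sum +
  (B.map fun x => (x.2.2.2.2 : ℝ) *
    (inner ℂ (dQ Q x.2.1 (wQ Q x.1 v)) (dQ Q x.2.2.2.1 (wQ Q x.2.2.1 v)) : ℂ).re).sum +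
  (A.map fun x => (x.2.2.2.2 : ℝ) *
    (inner ℂ (wQ Q x.2.1 (wQ Q x.1 v)) (wQ Q x.2.2.2.1 (wQ Q x.2.2.1 v)) : ℂ).re).sum

theorem re_inner_lift {Q : ℕ} (hQ : 0 < Q) (v w : Fk (Fin (Q + 1))) :
    (inner ℂ v w : ℂ).re = ∑ S ∈ (range (Q + 1)).powerset,
      wt Q S * (conj (lift Q v S) * lift Q w S).re := by
  rw [inner_lift hQ, Complex.re_sum]
  refine Finset.sum_congr rfl fun S _ => ?_
  rw [Complex.re_ofReal_mul]

theorem formQ_eq {Q : ℕ} (hQ : 0 < Q) (G : List (ℕ × ℤ)) (B A : List (ℕ × ℕ × ℕ × ℕ × ℤ))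
    (v : Fk (Fin (Q + 1))) :
    formQ Q G B A v = ∑ S ∈ (range (Q + 1)).powerset, wt Q S * formC G B A (lift Q v) S := by
  have hL : ∀ q, (fun S => lift Q (wQ Q q v) S) = wl q (lift Q v) := fun q =>
    funext fun S => lift_w Q q v S
  have hdw : ∀ j q S, lift Q (dQ Q j (wQ Q q v)) S = dl j (wl q (lift Q v)) S := fun j q S => by
    rw [lift_d]
    exact congrArg (fun g => dl j g S) (hL q)
  have hww : ∀ j q S, lift Q (wQ Q j (wQ Q q v)) S = wl j (wl q (lift Q v)) S := fun j q S => by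
    rw [lift_w]
    exact congrArg (fun g => wl j g S) (hL q)
  have hmul : ∀ {α : Type} (l : List α) (a : α → ℝ) (c : ℝ),
      c * (l.map a).sum = (l.map fun x => c * a x).sum := by
    intro α l a c
    exact (List.sum_map_mul_left ..).symm
  unfold formQ formC
  simp only [mul_add, Finset.sum_add_distrib, hmul]
  rw [sum_list_swap, sum_list_swap, sum_list_swap]
  refine congrArg₂ (· + ·) (congrArg₂ (· + ·) ?_ ?_) ?_
  · congr 1
    refine List.map_congr_left fun x _ => ?_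
    rw [re_inner_lift hQ, Finset.mul_sum]
    refine Finset.sum_congr rfl fun S _ => ?_
    rw [lift_w]; ring
  · congr 1
    refine List.map_congr_left fun x _ => ?_
    rw [re_inner_lift hQ, Finset.mul_sum]
    refine Finset.sum_congr rfl fun S _ => ?_
    rw [hdw, hdw]; ring
  · congr 1
    refine List.map_congr_left fun x _ => ?_
    rw [re_inner_lift hQ, Finset.mul_sum]
    refine Finset.sum_congr rfl fun S _ => ?_
    rw [hww, hww]; ring

theorem formC_union {P Q : ℕ} {G : List (ℕ × ℤ)} {B A : List (ℕ × ℕ × ℕ × ℕ × ℤ)}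
    (hAdm : Adm P G B A) {R : Finset ℕ} (hR : R ⊆ Ico (P + 1) (Q + 1)) (f : Finset ℕ → ℂ)
    (T : Finset ℕ) : formC G B A f (T ∪ R) = formC G B A (fun T => f (T ∪ R)) T := by
  have hw : ∀ q < P, (fun T => wl q f (T ∪ R)) = wl q (fun T => f (T ∪ R)) := fun q hq =>
    funext fun T => wl_union hq hR f T
  have hdw : ∀ q < P, ∀ j ≤ P, dl j (wl q f) (T ∪ R) = dl j (wl q (fun T => f (T ∪ R))) T :=
    fun q hq j hj => by rw [dl_union hj hR, hw q hq]
  have hww : ∀ q < P, ∀ s < P, wl s (wl q f) (T ∪ R) = wl s (wl q (fun T => f (T ∪ R))) T :=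
    fun q hq s hs => by rw [wl_union hs hR, hw q hq]
  unfold formC
  refine congrArg₂ (· + ·) (congrArg₂ (· + ·) ?_ ?_) ?_
  · refine congrArg List.sum (List.map_congr_left fun x hx => ?_)
    rw [wl_union (hAdm.1 x hx) hR]
  · refine congrArg List.sum (List.map_congr_left fun x hx => ?_)
    have h := hAdm.2.1 x hx
    have e1 := hdw x.1 h.1 x.2.1 h.2.1
    have e2 := hdw x.2.2.1 h.2.2.1 x.2.2.2.1 h.2.2.2
    exact congrArg (fun z : ℂ => (x.2.2.2.2 : ℝ) * z.re)
      (congrArg₂ (fun a b : ℂ => conj a * b) e1 e2)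
  · refine congrArg List.sum (List.map_congr_left fun x hx => ?_)
    have h := hAdm.2.2 x hx
    have e1 := hww x.1 h.1 x.2.1 h.2.1
    have e2 := hww x.2.2.1 h.2.2.1 x.2.2.2.1 h.2.2.2
    exact congrArg (fun z : ℂ => (x.2.2.2.2 : ℝ) * z.re)
      (congrArg₂ (fun a b : ℂ => conj a * b) e1 e2)

theorem wt_nonneg (Q : ℕ) (S : Finset ℕ) : 0 ≤ wt Q S :=
  Finset.prod_nonneg fun _ _ => by positivity

set_option maxHeartbeats 2000000 in
theorem transfer {P : ℕ} {G : List (ℕ × ℤ)} {B A : List (ℕ × ℕ × ℕ × ℕ × ℤ)} (hAdm : Adm P G B A)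
    (h : PSD P G B A) {Q : ℕ} (hP : 0 < P) (hPQ : P ≤ Q) (v : Fk (Fin (Q + 1))) :
    -(mass G B A * ((P : ℝ) + 1) ^ 4 * (Lam P Q - 1) * ∑ q ∈ range P, ‖wQ Q q v‖ ^ 2) ≤
      formQ Q G B A v := by
  have hQ : 0 < Q := by omega
  set F : Finset ℕ → ℂ := lift Q v with hF
  set K : ℝ := mass G B A * ((P : ℝ) + 1) ^ 4 with hK
  have hKn : 0 ≤ K := mul_nonneg (mass_nonneg G B A) (by positivity)
  have hLam : 1 ≤ Lam P Q := one_le_prod_lam hPQ (Finset.Subset.refl _)
  -- local estimate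
  have hloc : ∀ f : Finset ℕ → ℂ, -(K * (Lam P Q - 1) *
      ∑ q ∈ range P, ∑ T ∈ (range (P + 1)).powerset, wt Q T * ‖wl q f T‖ ^ 2) ≤
      ∑ T ∈ (range (P + 1)).powerset, wt Q T * formC G B A f T := by
    intro f
    have h1 := psdC h f
    have h2 := formC_bound hAdm f
    have h3 : ∀ T ∈ (range (P + 1)).powerset,
        rho T * formC G B A f T - (Lam P Q - 1) * (rho T * |formC G B A f T|) ≤
          wt Q T * formC G B A f T := by
      intro T hT
      rw [mem_powerset] at hT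
      have h4 := one_le_prod_lam hPQ hT
      have h5 := prod_lam_le hPQ hT
      rw [wt_eq]
      set x := ∏ i ∈ T, lam Q i
      have h6 : -(|formC G B A f T|) ≤ formC G B A f T := neg_abs_le _
      have h7 := rho_nonneg T
      have h8 : 0 ≤ rho T * |formC G B A f T| := mul_nonneg h7 (abs_nonneg _)
      have h9 : rho T * x * formC G B A f T = rho T * formC G B A f T +
          (x - 1) * (rho T * formC G B A f T) := by ring
      rw [h9]
      have h10 : -((x - 1) * (rho T * |formC G B A f T|)) ≤ (x - 1) * (rho T * formC G B A f T) := by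
        have : -(rho T * |formC G B A f T|) ≤ rho T * formC G B A f T := by nlinarith
        nlinarith
      nlinarith
    have h4 := Finset.sum_le_sum h3
    rw [Finset.sum_sub_distrib, ← Finset.mul_sum] at h4
    have h5 : wsum P f ≤ ∑ q ∈ range P, ∑ T ∈ (range (P + 1)).powerset, wt Q T * ‖wl q f T‖ ^ 2 := by
      unfold wsum nrm
      refine Finset.sum_le_sum fun q _ => Finset.sum_le_sum fun T hT => ?_
      rw [mem_powerset] at hT
      rw [wt_eq]
      have h6 := one_le_prod_lam hPQ hT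
      have h7 := rho_nonneg T
      refine mul_le_mul_of_nonneg_right ?_ (by positivity)
      nlinarith
    have h6 : K * wsum P f ≤ K * ∑ q ∈ range P, ∑ T ∈ (range (P + 1)).powerset,
        wt Q T * ‖wl q f T‖ ^ 2 := mul_le_mul_of_nonneg_left h5 hKn
    have h7 : (Lam P Q - 1) * ∑ T ∈ (range (P + 1)).powerset, rho T * |formC G B A f T| ≤
        (Lam P Q - 1) * (K * ∑ q ∈ range P, ∑ T ∈ (range (P + 1)).powerset,
        wt Q T * ‖wl q f T‖ ^ 2) :=
      mul_le_mul_of_nonneg_left (h2.trans h6) (by linarith)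
    nlinarith
  -- sum over the outer configurations
  rw [formQ_eq hQ, sum_split hPQ]
  have hn : ∀ q ∈ range P, ‖wQ Q q v‖ ^ 2 = ∑ R ∈ (Ico (P + 1) (Q + 1)).powerset,
      wt Q R * ∑ T ∈ (range (P + 1)).powerset, wt Q T * ‖wl q (fun T => F (T ∪ R)) T‖ ^ 2 := by
    intro q hq
    rw [mem_range] at hq
    have h1 : ‖wQ Q q v‖ ^ 2 = (inner ℂ (wQ Q q v) (wQ Q q v) : ℂ).re := by
      rw [inner_self_eq_norm_sq_to_K]
      norm_cast
    rw [h1, re_inner_lift hQ, sum_split hPQ]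
    refine Finset.sum_congr rfl fun R hR => ?_
    rw [mem_powerset] at hR
    rw [Finset.mul_sum]
    refine Finset.sum_congr rfl fun T hT => ?_
    rw [mem_powerset] at hT
    rw [wt_union hT hR, lift_w, wl_union hq hR]
    have h2 : (conj (wl q (fun T => lift Q v (T ∪ R)) T) * wl q (fun T => lift Q v (T ∪ R)) T).re =
        ‖wl q (fun T => F (T ∪ R)) T‖ ^ 2 := by
      rw [mul_comm, Complex.mul_conj, Complex.ofReal_re, Complex.normSq_eq_norm_sq]
    rw [h2]; ring
  rw [Finset.sum_congr rfl hn, Finset.sum_comm, Finset.mul_sum, ← Finset.sum_neg_distrib]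
  refine Finset.sum_le_sum fun R hR => ?_
  rw [mem_powerset] at hR
  have h1 := hloc (fun T => F (T ∪ R))
  have h2 : ∑ T ∈ (range (P + 1)).powerset, wt Q (T ∪ R) * formC G B A (lift Q v) (T ∪ R) =
      wt Q R * ∑ T ∈ (range (P + 1)).powerset, wt Q T * formC G B A (fun T => F (T ∪ R)) T := by
    rw [Finset.mul_sum]
    refine Finset.sum_congr rfl fun T hT => ?_
    rw [mem_powerset] at hT
    rw [wt_union hT hR, formC_union hAdm hR]; ring
  rw [h2, ← Finset.mul_sum]
  have h3 := mul_le_mul_of_nonneg_left h1 (wt_nonneg Q R)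
  refine le_trans (le_of_eq ?_) h3
  ring

theorem transfer' {P : ℕ} {G : List (ℕ × ℤ)} {B A : List (ℕ × ℕ × ℕ × ℕ × ℤ)} (hAdm : Adm P G B A)
    (hP : 0 < P) (h : PSD P G B A) :
    ∃ ε : ℕ → ℝ, (∀ Q, P ≤ Q → 0 ≤ ε Q) ∧ Filter.Tendsto ε Filter.atTop (nhds 0) ∧
      ∀ Q, P ≤ Q → ∀ v : Fk (Fin (Q + 1)),
        -(ε Q * ∑ q ∈ range P, ‖wQ Q q v‖ ^ 2) ≤ formQ Q G B A v := by
  refine ⟨fun Q => mass G B A * ((P : ℝ) + 1) ^ 4 * (Lam P Q - 1), ?_, ?_, ?_⟩
  · intro Q hPQ
    have hLam : 1 ≤ Lam P Q := one_le_prod_lam hPQ (Finset.Subset.refl _)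
    exact mul_nonneg (mul_nonneg (mass_nonneg G B A) (by positivity)) (by linarith)
  · have h1 := ((tendsto_Lam P).sub_const 1).const_mul (mass G B A * ((P : ℝ) + 1) ^ 4)
    simpa using h1
  · intro Q hPQ v
    exact transfer hAdm h hP hPQ v

end Crest.Agent.R340.Tr132
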