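import Crest.Agent.R340.FiltQL_867
import Crest.Agent.R340.LR5_667

set_option autoImplicit false
set_option linter.unusedSectionVars false

/-!
# Row 340: truncations of evolved local operators (helper927)

Abstract part of (T): Lieb-Robinson bound + far sums give truncations of `τ_t X`.
Also: the projection onto a submodule as an operator.
-/

open scoped ENNReal NNReal
open MeasureTheory

namespace Crest.Agent.R340.Tth927

open Crest.Agent.R340.QL331 Crest.Agent.R340.LR667 Crest.Agent.R340.DC867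
  Crest.Agent.R340.Filt867

section abstract

variable {A V : Type*} [CStarAlgebra A] [NormedAddCommGroup V] [InnerProductSpace ℂ V]
  (R : Car A V) {G : Type*} [MeasurableSpace G] (μ : Measure G) {n : ℕ}
  (b : G → OrthonormalBasis (Fin n) ℂ V)

/-- Lieb-Robinson bound for an operator with an exponential profile about `x`. -/
theorem lr_exp {H : A} (hH : IsSelfAdjoint H) {u : Fin 2 → G → V}
    (hu : ∀ k z, ‖u k z‖ ≤ 1) {κ : G → G → ℝ≥0∞}
    (hκ : ∀ (X : A) (k : Fin 2 × Bool) (w : G),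
      ‖⁅X, ⁅H, gen R u k w⁆⁆‖ₑ ≤ ∫⁻ z, κ w z * prof (gen R u) X z ∂μ)
    {D : G → G → ℝ} (hDtri : ∀ x y z, D x z ≤ D x y + D y z) (hDb : ∃ B, ∀ x y, D x y ≤ B)
    {μ0 v : ℝ} (hμ : 0 ≤ μ0) (hv : 0 ≤ v)
    (hS : ∀ w, ∫⁻ z, κ w z * ENNReal.ofReal (Real.exp (μ0 * D w z)) ∂μ ≤ ENNReal.ofReal v)
    {X : A} {x : G} {C : ℝ} (hC : 0 ≤ C)
    (hX : ∀ k z, ‖⁅X, gen R u k z⁆‖ ≤ C * Real.exp (-μ0 * D z x))
    (t : ℝ) (k : Fin 2 × Bool) (w : G) :
    ‖⁅tau H t X, gen R u k w⁆‖ ≤ C * Real.exp (v * |t|) * Real.exp (-μ0 * D w x) := by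
  obtain ⟨B, hB⟩ := hDb
  refine lr μ hH zero_le_one (norm_gen_le R hu) hκ
    (ρ := fun z => Real.exp (-μ0 * D z x)) (δ := Real.exp (-μ0 * B)) (Real.exp_pos _) ?_ hv ?_ hC
    hX t k w
  · intro z
    apply Real.exp_le_exp.2
    have := hB z x
    nlinarith
  · intro w'
    calc ∫⁻ z, κ w' z * ENNReal.ofReal (Real.exp (-μ0 * D z x)) ∂μ
        ≤ ∫⁻ z, κ w' z * ENNReal.ofReal (Real.exp (μ0 * D w' z)) *
            ENNReal.ofReal (Real.exp (-μ0 * D w' x)) ∂μ := by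
          refine lintegral_mono fun z => ?_
          show κ w' z * _ ≤ _
          rw [mul_assoc, ← ENNReal.ofReal_mul (Real.exp_nonneg _), ← Real.exp_add]
          gcongr
          have := hDtri w' z x
          nlinarith
      _ = (∫⁻ z, κ w' z * ENNReal.ofReal (Real.exp (μ0 * D w' z)) ∂μ) *
            ENNReal.ofReal (Real.exp (-μ0 * D w' x)) :=
          lintegral_mul_const' _ _ ENNReal.ofReal_ne_top
      _ ≤ ENNReal.ofReal v * ENNReal.ofReal (Real.exp (-μ0 * D w' x)) := by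
          gcongr
          exact hS w'
      _ = _ := by rw [← ENNReal.ofReal_mul hv]

/-- polynomial profile of the evolved operator -/
theorem lr_poly {H : A} (hH : IsSelfAdjoint H) {u : Fin 2 → G → V}
    (hu : ∀ k z, ‖u k z‖ ≤ 1) {κ : G → G → ℝ≥0∞}
    (hκ : ∀ (X : A) (k : Fin 2 × Bool) (w : G),
      ‖⁅X, ⁅H, gen R u k w⁆⁆‖ₑ ≤ ∫⁻ z, κ w z * prof (gen R u) X z ∂μ)
    {D : G → G → ℝ} (hD0 : ∀ x y, 0 ≤ D x y) (hDtri : ∀ x y z, D x z ≤ D x y + D y z)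
    (hDb : ∃ B, ∀ x y, D x y ≤ B)
    {μ0 v C0 : ℝ} (hμ : 0 < μ0) (hv : 0 ≤ v) (hC0 : 0 ≤ C0)
    (hS : ∀ w, ∫⁻ z, κ w z * ENNReal.ofReal (Real.exp (μ0 * D w z)) ∂μ ≤ ENNReal.ofReal v)
    {X : A} {x : G} {K : ℝ} (hK : 0 < K) (hXn : ‖X‖ ≤ K)
    (hX : ∀ k z, ‖⁅X, gen R u k z⁆‖ ≤ K * C0 * Real.exp (-μ0 * D z x))
    (m : ℕ) (t : ℝ) (k : Fin 2 × Bool) (w : G) :
    ‖⁅tau H t X, gen R u k w⁆‖ ≤
      K * (cPoly v μ0 C0 m * (1 + |t|) ^ m) / (1 + D w x) ^ m := by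
  have h1 := lr_exp R μ hH hu hκ hDtri hDb hμ.le hv hS (mul_nonneg hK.le hC0) hX t k w
  have h2 : ‖⁅tau H t X, gen R u k w⁆‖ / K ≤ cPoly v μ0 C0 m * (1 + |t|) ^ m / (1 + D w x) ^ m := by
    refine min_le_poly hv hμ hC0 m (abs_nonneg t) (hD0 w x) ?_ ?_
    · rw [div_le_iff₀ hK]
      refine (norm_lie_le _ _).trans ?_
      rw [norm_tau hH]
      have h3 := norm_gen_le R hu k w
      nlinarith [norm_nonneg X, norm_nonneg (gen R u k w)]
    · rw [div_le_iff₀ hK]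
      refine h1.trans (le_of_eq ?_)
      ring
  rw [div_le_iff₀ hK] at h2
  refine h2.trans (le_of_eq ?_)
  ring

/-- **truncation of the evolved operator** in the frame at `x` -/
theorem norm_sub_E_tau_le {H : A} (hH : IsSelfAdjoint H) {u : Fin 2 → G → V}
    (hu : ∀ k z, ‖u k z‖ ≤ 1) {κ : G → G → ℝ≥0∞}
    (hκ : ∀ (X : A) (k : Fin 2 × Bool) (w : G),
      ‖⁅X, ⁅H, gen R u k w⁆⁆‖ₑ ≤ ∫⁻ z, κ w z * prof (gen R u) X z ∂μ)
    {D : G → G → ℝ} (hD0 : ∀ x y, 0 ≤ D x y) (hDtri : ∀ x y z, D x z ≤ D x y + D y z)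
    (hDb : ∃ B, ∀ x y, D x y ≤ B)
    {μ0 v C0 : ℝ} (hμ : 0 < μ0) (hv : 0 ≤ v) (hC0 : 0 ≤ C0)
    (hS : ∀ w, ∫⁻ z, κ w z * ENNReal.ofReal (Real.exp (μ0 * D w z)) ∂μ ≤ ENNReal.ofReal v)
    {M : ℕ} {Cf : ℝ} (hfar : FarB R b u D (M + 4) Cf)
    {X : A} {x : G} {K : ℝ} (hK : 0 < K) (hXn : ‖X‖ ≤ K)
    (hX : ∀ k z, ‖⁅X, gen R u k z⁆‖ ≤ K * C0 * Real.exp (-μ0 * D z x)) (t : ℝ) (l : ℕ) :
    ‖tau H t X - R.E (b x) (4 ^ l) (tau H t X)‖ ≤
      Cf * (K * cPoly v μ0 C0 (M + 4)) * (1 + |t|) ^ (M + 4) * ((1 / 2 : ℝ) ^ M) ^ l := by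
  have hc := cPoly_nonneg hv hμ hC0 (M + 4)
  refine (R.norm_sub_E_le (b x) (4 ^ l) _).trans ?_
  have h := hfar (tau H t X) x (K * (cPoly v μ0 C0 (M + 4) * (1 + |t|) ^ (M + 4)))
    (by positivity)
    (fun k z => lr_poly R μ hH hu hκ hD0 hDtri hDb hμ hv hC0 hS hK hXn hX (M + 4) t k z) l
  refine h.trans (le_of_eq ?_)
  rw [Nat.add_sub_cancel, ← pow_mul, one_div, inv_pow]
  ring

end abstract

section fock

open Crest.Agent.R340.Fock649

variable {ι : Type*} [Fintype ι] [LinearOrder ι] {G : Type*} [MeasurableSpace G] (μ : Measure G)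
  {n : ℕ} (b : G → OrthonormalBasis (Fin n) ℂ (L ι))

/-- **(T)** in the form consumed by `LR667.LocData`. -/
theorem trunc_tau {H : Op ι} (hH : IsSelfAdjoint H) {u : Fin 2 → G → L ι}
    (hu : ∀ k z, ‖u k z‖ ≤ 1) {κ : G → G → ℝ≥0∞}
    (hκ : ∀ (X : Op ι) (k : Fin 2 × Bool) (w : G),
      ‖⁅X, ⁅H, gen fcar u k w⁆⁆‖ₑ ≤ ∫⁻ z, κ w z * prof (gen fcar u) X z ∂μ)
    {D : G → G → ℝ} (hD0 : ∀ x y, 0 ≤ D x y) (hDtri : ∀ x y z, D x z ≤ D x y + D y z)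
    (hDb : ∃ B, ∀ x y, D x y ≤ B)
    {μ0 v C0 : ℝ} (hμ : 0 < μ0) (hv : 0 ≤ v) (hC0 : 0 ≤ C0)
    (hS : ∀ w, ∫⁻ z, κ w z * ENNReal.ofReal (Real.exp (μ0 * D w z)) ∂μ ≤ ENNReal.ofReal v)
    {M : ℕ} {Cf : ℝ} (hfar : FarB fcar b u D (M + 4) Cf)
    {X : Op ι} {x : G} {K : ℝ} (hK : 0 < K) (hXn : ‖X‖ ≤ K)
    (hX : ∀ k z, ‖⁅X, gen fcar u k z⁆‖ ≤ K * C0 * Real.exp (-μ0 * D z x)) (t : ℝ) :
    Trunc (b x) (tau H t X) (Cf * (K * cPoly v μ0 C0 (M + 4)) * (1 + |t|) ^ (M + 4)) M := by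
  intro l
  refine ⟨fcar.E (b x) (4 ^ l) (tau H t X), ?_, ?_⟩
  · intro k hk
    have hk' : 4 ^ l ≤ (k : ℕ) := by
      by_contra h
      exact hk (mem_near.2 (not_le.1 h))
    have h := fcar.E_cm (b x) (4 ^ l) (tau H t X) k hk'
    exact ⟨h.1, by have := h.2; rwa [fcar_cr] at this⟩
  · exact norm_sub_E_tau_le fcar μ b hH hu hκ hD0 hDtri hDb hμ hv hC0 hS hfar hK hXn hX t l

/-- the orthogonal projection onto `Z` as an element of `Op` -/
noncomputable def prj (Z : Submodule ℂ (Fk ι)) : Op ι := Op.of Z.starProjection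

theorem prj_ap (Z : Submodule ℂ (Fk ι)) (v : Fk ι) : prj Z v = Z.starProjection v := rfl

theorem prj_ap_mem (Z : Submodule ℂ (Fk ι)) (v : Fk ι) : prj Z v ∈ Z :=
  Submodule.starProjection_apply_mem Z v

theorem prj_ap_of_mem {Z : Submodule ℂ (Fk ι)} {v : Fk ι} (h : v ∈ Z) : prj Z v = v :=
  Submodule.starProjection_eq_self_iff.2 h

theorem isSelfAdjoint_prj (Z : Submodule ℂ (Fk ι)) : IsSelfAdjoint (prj Z) := by
  rw [IsSelfAdjoint]
  refine Op.ext fun v => ?_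
  refine ext_inner_left ℂ fun w => ?_
  rw [inner_star_right]
  exact Submodule.inner_starProjection_left_eq_right Z w v

theorem norm_prj_le (Z : Submodule ℂ (Fk ι)) : ‖prj Z‖ ≤ 1 := by
  refine Op.norm_le_of zero_le_one fun v => ?_
  rw [one_mul]
  exact Submodule.norm_starProjection_apply_le Z v

theorem prj_mul_self (Z : Submodule ℂ (Fk ι)) : prj Z * prj Z = prj Z := by
  refine Op.ext fun v => ?_
  rw [mul_ap]
  exact prj_ap_of_mem (prj_ap_mem Z v)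

theorem mul_prj_eq_zero {Z : Submodule ℂ (Fk ι)} {X : Op ι} (h : ∀ v ∈ Z, X v = 0) :
    X * prj Z = 0 := by
  refine Op.ext fun v => ?_
  rw [mul_ap, h _ (prj_ap_mem Z v)]
  rfl

/-- a self-adjoint operator preserving `Z` commutes with the projection -/
theorem commute_prj {Z : Submodule ℂ (Fk ι)} {X : Op ι} (hX : IsSelfAdjoint X)
    (h : ∀ v ∈ Z, X v ∈ Z) : Commute (prj Z) X := by
  have h1 : X * prj Z = prj Z * X * prj Z := by
    refine Op.ext fun v => ?_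
    rw [mul_ap, mul_ap, mul_ap]
    exact (prj_ap_of_mem (h _ (prj_ap_mem Z v))).symm
  have h2 : prj Z * X = prj Z * X * prj Z := by
    have h3 := congrArg star h1
    simpa only [star_mul, hX.star_eq, (isSelfAdjoint_prj Z).star_eq, ← mul_assoc] using h3
  exact h2.trans h1.symm

/-- kernel of an operator -/
noncomputable def kerO (H : Op ι) : Submodule ℂ (Fk ι) := LinearMap.ker (H.ap : Fk ι →ₗ[ℂ] Fk ι)

theorem mem_kerO {H : Op ι} {v : Fk ι} : v ∈ kerO H ↔ H v = 0 := LinearMap.mem_ker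

theorem mul_prj_kerO (H : Op ι) : H * prj (kerO H) = 0 :=
  mul_prj_eq_zero fun _ h => mem_kerO.1 h

theorem commute_prj_kerO {H X : Op ι} (hX : IsSelfAdjoint X) (h : Commute H X) :
    Commute (prj (kerO H)) X := by
  refine commute_prj hX fun v hv => ?_
  rw [mem_kerO] at hv ⊢
  have e : (H * X) v = (X * H) v := by rw [h.eq]
  rw [mul_ap, mul_ap, hv] at e
  rw [e]
  exact X.ap.map_zero

end fock

end Crest.Agent.R340.Tth927
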