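import Mathlib

/-!
# Row 340, block O10: linearisation moments of coherent vectors (helper877)

Core estimate: matrix elements of `(i - m)² x^i` between coherent vectors.
`g0 g1`, `h0 h1` are the spinors (first columns of unitary matrices `g`, `h`),
`i` = number of `0`-factors (`i = Q - j`), `m = Q ‖g0‖²` its mean in the coherent state of `g`,
`dd = ‖g0 h1 - g1 h0‖` the chordal distance (half of the chord).
-/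

set_option autoImplicit false

namespace Crest.Agent.R340.Tz877

open Finset Complex

/-! ## binomial sums -/

section binom

variable {R : Type*} [CommRing R]

theorem sum_choose (Q : ℕ) (a b : R) :
    ∑ i ∈ range (Q + 1), (Q.choose i : R) * b ^ i * a ^ (Q - i) = (a + b) ^ Q := by
  rw [add_comm a b, add_pow]
  exact sum_congr rfl fun i _ => by ring

theorem sum_choose_one (Q : ℕ) (a b : R) :
    ∑ i ∈ range (Q + 2), ((Q + 1).choose i : R) * b ^ i * a ^ (Q + 1 - i) * (i : R) =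
      (Q + 1 : ℕ) * b * (a + b) ^ Q := by
  rw [sum_range_succ', ← sum_choose Q a b, mul_sum]
  simp only [Nat.cast_zero, mul_zero, add_zero]
  refine sum_congr rfl fun i hi => ?_
  have h1 : (((Q + 1).choose (i + 1) : ℕ) : R) * ((i + 1 : ℕ) : R) = ((Q + 1 : ℕ) : R) * (Q.choose i : R) := by
    rw [← Nat.cast_mul, ← Nat.cast_mul, Nat.add_one_mul_choose_eq Q i]
  have h2 : Q + 1 - (i + 1) = Q - i := by omega
  rw [h2]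
  calc (((Q + 1).choose (i + 1) : ℕ) : R) * b ^ (i + 1) * a ^ (Q - i) * ((i + 1 : ℕ) : R)
      = ((((Q + 1).choose (i + 1) : ℕ) : R) * ((i + 1 : ℕ) : R)) * b ^ (i + 1) * a ^ (Q - i) := by ring
    _ = _ := by rw [h1]; ring

theorem sum_choose_two (Q : ℕ) (a b : R) :
    ∑ i ∈ range (Q + 3), ((Q + 2).choose i : R) * b ^ i * a ^ (Q + 2 - i) * ((i : R) * ((i : R) - 1)) =
      (Q + 2 : ℕ) * (Q + 1 : ℕ) * b ^ 2 * (a + b) ^ Q := by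
  have key := sum_choose_one Q a b
  rw [sum_range_succ']
  simp only [Nat.cast_zero, mul_zero, zero_mul, add_zero]
  have e : ((Q + 2 : ℕ) : R) * (Q + 1 : ℕ) * b ^ 2 * (a + b) ^ Q =
      ((Q + 2 : ℕ) : R) * b * ((Q + 1 : ℕ) * b * (a + b) ^ Q) := by ring
  rw [e, ← key, mul_sum]
  refine sum_congr rfl fun i hi => ?_
  have h1 : (((Q + 2).choose (i + 1) : ℕ) : R) * ((i + 1 : ℕ) : R) =
      ((Q + 2 : ℕ) : R) * ((Q + 1).choose i : R) := by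
    rw [← Nat.cast_mul, ← Nat.cast_mul, Nat.add_one_mul_choose_eq (Q + 1) i]
  have h2 : Q + 2 - (i + 1) = Q + 1 - i := by omega
  rw [h2]
  have h3 : ((i + 1 : ℕ) : R) - 1 = (i : R) := by push_cast; ring
  rw [h3]
  calc (((Q + 2).choose (i + 1) : ℕ) : R) * b ^ (i + 1) * a ^ (Q + 1 - i) * (((i + 1 : ℕ) : R) * (i : R))
      = ((((Q + 2).choose (i + 1) : ℕ) : R) * ((i + 1 : ℕ) : R)) * b ^ (i + 1) * a ^ (Q + 1 - i) * (i : R) := by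
        ring
    _ = _ := by rw [h1]; ring

/-- `∑ C(Q,i) b^i a^(Q-i) (i-m)² = (a+b)^(Q-2) ((m (a+b) - Q b)² + Q a b)` -/
theorem sum_choose_sq (Q : ℕ) (a b m : R) :
    ∑ i ∈ range (Q + 3), ((Q + 2).choose i : R) * b ^ i * a ^ (Q + 2 - i) * ((i : R) - m) ^ 2 =
      (a + b) ^ Q * ((m * (a + b) - (Q + 2 : ℕ) * b) ^ 2 + (Q + 2 : ℕ) * a * b) := by
  have h0 := sum_choose (Q + 2) a b
  have h1 := sum_choose_one (Q + 1) a b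
  have h2 := sum_choose_two Q a b
  have e : ∀ i : ℕ, ((Q + 2).choose i : R) * b ^ i * a ^ (Q + 2 - i) * ((i : R) - m) ^ 2 =
      ((Q + 2).choose i : R) * b ^ i * a ^ (Q + 2 - i) * ((i : R) * ((i : R) - 1)) +
      (1 - 2 * m) * (((Q + 2).choose i : R) * b ^ i * a ^ (Q + 2 - i) * (i : R)) +
      m ^ 2 * (((Q + 2).choose i : R) * b ^ i * a ^ (Q + 2 - i)) := fun i => by ring
  simp only [e, sum_add_distrib, ← mul_sum]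
  rw [h2]
  have h1' : ∑ i ∈ range (Q + 3), ((Q + 2).choose i : R) * b ^ i * a ^ (Q + 2 - i) * (i : R) =
      ((Q + 2 : ℕ) : R) * b * (a + b) ^ (Q + 1) := h1
  have h0' : ∑ i ∈ range (Q + 3), ((Q + 2).choose i : R) * b ^ i * a ^ (Q + 2 - i) =
      (a + b) ^ (Q + 2) := h0
  rw [h1', h0']
  push_cast
  ring

end binom

/-! ## the core estimate -/

section core

variable (g0 g1 h0 h1 : ℂ)

/-- `M00 = ⟨h, diag(x,1) g⟩` -/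
noncomputable def ov (x : ℝ) : ℂ := (starRingEnd ℂ) h1 * g1 + (starRingEnd ℂ) h0 * g0 * x

noncomputable def o10 (x : ℝ) : ℂ := h0 * g1 - x * (h1 * g0)

noncomputable def o01 (x : ℝ) : ℂ := g0 * h1 - x * (g1 * h0)

/-- chordal distance -/
noncomputable def dd : ℝ := ‖g0 * h1 - g1 * h0‖

variable {g0 g1 h0 h1}

theorem normSq_ov_add (x : ℝ) (hh : ‖h0‖ ^ 2 + ‖h1‖ ^ 2 = 1) :
    ‖ov g0 g1 h0 h1 x‖ ^ 2 + ‖o10 g0 g1 h0 h1 x‖ ^ 2 = ‖g1‖ ^ 2 + x ^ 2 * ‖g0‖ ^ 2 := by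
  have e : ∀ z : ℂ, ‖z‖ ^ 2 = z.re ^ 2 + z.im ^ 2 := fun z => by
    rw [← Complex.normSq_eq_norm_sq, Complex.normSq_apply]; ring
  simp only [e] at hh ⊢
  simp only [ov, o10, Complex.add_re, Complex.add_im, Complex.sub_re, Complex.sub_im,
    Complex.mul_re, Complex.mul_im, Complex.conj_re, Complex.conj_im, Complex.ofReal_re,
    Complex.ofReal_im]
  linear_combination (g1.re ^ 2 + g1.im ^ 2 + x ^ 2 * (g0.re ^ 2 + g0.im ^ 2)) * hh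

theorem norm_ov_sq_le {x : ℝ} (hx0 : 0 ≤ x) (hx1 : x ≤ 1) (hg : ‖g0‖ ^ 2 + ‖g1‖ ^ 2 = 1)
    (hh : ‖h0‖ ^ 2 + ‖h1‖ ^ 2 = 1) :
    ‖ov g0 g1 h0 h1 x‖ ^ 2 ≤
      Real.exp (-((1 - x) * ‖g0‖ ^ 2 + ‖o10 g0 g1 h0 h1 x‖ ^ 2)) := by
  have h := normSq_ov_add (g0 := g0) (g1 := g1) x hh
  have h1 : ‖ov g0 g1 h0 h1 x‖ ^ 2 ≤ -((1 - x) * ‖g0‖ ^ 2 + ‖o10 g0 g1 h0 h1 x‖ ^ 2) + 1 := by
    nlinarith [mul_nonneg (mul_nonneg hx0 (sub_nonneg.2 hx1)) (sq_nonneg ‖g0‖)]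
  exact h1.trans (Real.add_one_le_exp _)

/-- `‖ov‖^n ≤ exp(-(n/2)((1-x)‖g0‖² + ‖o10‖²))` -/
theorem norm_ov_pow_le {x : ℝ} (hx0 : 0 ≤ x) (hx1 : x ≤ 1) (hg : ‖g0‖ ^ 2 + ‖g1‖ ^ 2 = 1)
    (hh : ‖h0‖ ^ 2 + ‖h1‖ ^ 2 = 1) (n : ℕ) :
    ‖ov g0 g1 h0 h1 x‖ ^ n ≤
      Real.exp (-((n : ℝ) / 2 * ((1 - x) * ‖g0‖ ^ 2 + ‖o10 g0 g1 h0 h1 x‖ ^ 2))) := by
  have h := norm_ov_sq_le hx0 hx1 hg hh
  have h2 : ‖ov g0 g1 h0 h1 x‖ ≤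
      Real.exp (-((1 - x) * ‖g0‖ ^ 2 + ‖o10 g0 g1 h0 h1 x‖ ^ 2) / 2) := by
    have h3 : (Real.exp (-((1 - x) * ‖g0‖ ^ 2 + ‖o10 g0 g1 h0 h1 x‖ ^ 2) / 2)) ^ 2 =
        Real.exp (-((1 - x) * ‖g0‖ ^ 2 + ‖o10 g0 g1 h0 h1 x‖ ^ 2)) := by
      rw [← Real.exp_nat_mul]; congr 1; push_cast; ring
    rw [← h3] at h
    exact le_of_sq_le_sq h (Real.exp_pos _).le
  calc ‖ov g0 g1 h0 h1 x‖ ^ n
      ≤ (Real.exp (-((1 - x) * ‖g0‖ ^ 2 + ‖o10 g0 g1 h0 h1 x‖ ^ 2) / 2)) ^ n :=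
        pow_le_pow_left₀ (norm_nonneg _) h2 n
    _ = _ := by rw [← Real.exp_nat_mul]; congr 1; ring

/-- `m M00 - Q b x = Q g0 g1 conj(o01)` with `m = Q ‖g0‖²` -/
theorem lin_identity (x : ℝ) (hg : ‖g0‖ ^ 2 + ‖g1‖ ^ 2 = 1) (Q : ℂ) :
    Q * (‖g0‖ ^ 2 : ℝ) * ov g0 g1 h0 h1 x - Q * ((starRingEnd ℂ) h0 * g0 * x) =
      Q * (g0 * g1 * (starRingEnd ℂ) (o01 g0 g1 h0 h1 x)) := by
  have e0 : ((‖g0‖ ^ 2 : ℝ) : ℂ) = g0 * (starRingEnd ℂ) g0 := by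
    rw [Complex.mul_conj, Complex.normSq_eq_norm_sq]
  have e1 : ((‖g1‖ ^ 2 : ℝ) : ℂ) = g1 * (starRingEnd ℂ) g1 := by
    rw [Complex.mul_conj, Complex.normSq_eq_norm_sq]
  have hg' : g0 * (starRingEnd ℂ) g0 + g1 * (starRingEnd ℂ) g1 = 1 := by
    rw [← e0, ← e1, ← Complex.ofReal_add, hg, Complex.ofReal_one]
  rw [e0]
  simp only [ov, o01, map_sub, map_mul, Complex.conj_ofReal]
  linear_combination (Q * ((starRingEnd ℂ) h0 * g0 * x)) * hg'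

theorem norm_le_one_left (hg : ‖g0‖ ^ 2 + ‖g1‖ ^ 2 = 1) : ‖g0‖ ≤ 1 := by
  nlinarith [norm_nonneg g0, sq_nonneg ‖g1‖, norm_nonneg g1]

theorem norm_le_one_right (hg : ‖g0‖ ^ 2 + ‖g1‖ ^ 2 = 1) : ‖g1‖ ≤ 1 := by
  nlinarith [norm_nonneg g1, sq_nonneg ‖g0‖, norm_nonneg g0]

theorem inner_le_one (hg : ‖g0‖ ^ 2 + ‖g1‖ ^ 2 = 1) (hh : ‖h0‖ ^ 2 + ‖h1‖ ^ 2 = 1) :
    ‖(starRingEnd ℂ) g0 * h0 + (starRingEnd ℂ) g1 * h1‖ ≤ 1 := by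
  have h := normSq_ov_add (g0 := h0) (g1 := h1) (h0 := g0) (h1 := g1) 1 hg
  have e : ov h0 h1 g0 g1 1 = (starRingEnd ℂ) g0 * h0 + (starRingEnd ℂ) g1 * h1 := by
    simp [ov]; ring
  rw [e] at h
  have h2 : ‖(starRingEnd ℂ) g0 * h0 + (starRingEnd ℂ) g1 * h1‖ ^ 2 ≤ 1 := by
    nlinarith [sq_nonneg ‖o10 h0 h1 g0 g1 1‖]
  nlinarith [norm_nonneg ((starRingEnd ℂ) g0 * h0 + (starRingEnd ℂ) g1 * h1)]

/-- `‖h0‖ ≤ ‖g0‖ + dd` -/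
theorem norm_h0_le (hg : ‖g0‖ ^ 2 + ‖g1‖ ^ 2 = 1) (hh : ‖h0‖ ^ 2 + ‖h1‖ ^ 2 = 1) :
    ‖h0‖ ≤ ‖g0‖ + dd g0 g1 h0 h1 := by
  have e0 : ((‖g0‖ ^ 2 : ℝ) : ℂ) = g0 * (starRingEnd ℂ) g0 := by
    rw [Complex.mul_conj, Complex.normSq_eq_norm_sq]
  have e1 : ((‖g1‖ ^ 2 : ℝ) : ℂ) = g1 * (starRingEnd ℂ) g1 := by
    rw [Complex.mul_conj, Complex.normSq_eq_norm_sq]
  have hg' : g0 * (starRingEnd ℂ) g0 + g1 * (starRingEnd ℂ) g1 = 1 := by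
    rw [← e0, ← e1, ← Complex.ofReal_add, hg, Complex.ofReal_one]
  have e : h0 = ((starRingEnd ℂ) g0 * h0 + (starRingEnd ℂ) g1 * h1) * g0 -
      (g0 * h1 - g1 * h0) * (starRingEnd ℂ) g1 := by
    linear_combination (-h0) * hg'
  calc ‖h0‖ = ‖((starRingEnd ℂ) g0 * h0 + (starRingEnd ℂ) g1 * h1) * g0 -
      (g0 * h1 - g1 * h0) * (starRingEnd ℂ) g1‖ := by rw [← e]
    _ ≤ ‖((starRingEnd ℂ) g0 * h0 + (starRingEnd ℂ) g1 * h1) * g0‖ +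
        ‖(g0 * h1 - g1 * h0) * (starRingEnd ℂ) g1‖ := norm_sub_le _ _
    _ ≤ 1 * ‖g0‖ + dd g0 g1 h0 h1 * 1 := by
        rw [norm_mul, norm_mul, RCLike.norm_conj]
        exact add_le_add (mul_le_mul_of_nonneg_right (inner_le_one hg hh) (norm_nonneg _))
          (mul_le_mul_of_nonneg_left (norm_le_one_right hg) (norm_nonneg _))
    _ = _ := by ring

/-- `‖h1‖ ≤ ‖g1‖ + dd` -/
theorem norm_h1_le (hg : ‖g0‖ ^ 2 + ‖g1‖ ^ 2 = 1) (hh : ‖h0‖ ^ 2 + ‖h1‖ ^ 2 = 1) :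
    ‖h1‖ ≤ ‖g1‖ + dd g0 g1 h0 h1 := by
  have h := norm_h0_le (g0 := g1) (g1 := g0) (h0 := h1) (h1 := h0) (by linarith) (by linarith)
  have e : dd g1 g0 h1 h0 = dd g0 g1 h0 h1 := by
    unfold dd
    rw [← norm_neg]
    congr 1
    ring
  rwa [e] at h

theorem norm_o01_le {x : ℝ} (hx1 : x ≤ 1) (hg : ‖g0‖ ^ 2 + ‖g1‖ ^ 2 = 1) :
    ‖o01 g0 g1 h0 h1 x‖ ≤ dd g0 g1 h0 h1 + (1 - x) * ‖h0‖ := by
  have e : o01 g0 g1 h0 h1 x = (g0 * h1 - g1 * h0) + ((1 - x : ℝ) : ℂ) * (g1 * h0) := by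
    simp only [o01]; push_cast; ring
  rw [e]
  calc ‖(g0 * h1 - g1 * h0) + ((1 - x : ℝ) : ℂ) * (g1 * h0)‖
      ≤ ‖g0 * h1 - g1 * h0‖ + ‖((1 - x : ℝ) : ℂ) * (g1 * h0)‖ := norm_add_le _ _
    _ ≤ dd g0 g1 h0 h1 + (1 - x) * (1 * ‖h0‖) := by
        rw [norm_mul, norm_mul, Complex.norm_real, Real.norm_of_nonneg (sub_nonneg.2 hx1)]
        exact add_le_add le_rfl (mul_le_mul_of_nonneg_left
          (mul_le_mul_of_nonneg_right (norm_le_one_right hg) (norm_nonneg _))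
          (sub_nonneg.2 hx1))
    _ = _ := by ring

theorem dd_le {x : ℝ} (hx1 : x ≤ 1) (hh : ‖h0‖ ^ 2 + ‖h1‖ ^ 2 = 1) :
    dd g0 g1 h0 h1 ≤ ‖o10 g0 g1 h0 h1 x‖ + (1 - x) * ‖g0‖ := by
  have e : g0 * h1 - g1 * h0 = -(o10 g0 g1 h0 h1 x) + ((1 - x : ℝ) : ℂ) * (h1 * g0) := by
    simp only [o10]; push_cast; ring
  rw [dd, e]
  calc ‖-(o10 g0 g1 h0 h1 x) + ((1 - x : ℝ) : ℂ) * (h1 * g0)‖
      ≤ ‖-(o10 g0 g1 h0 h1 x)‖ + ‖((1 - x : ℝ) : ℂ) * (h1 * g0)‖ := norm_add_le _ _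
    _ ≤ ‖o10 g0 g1 h0 h1 x‖ + (1 - x) * (1 * ‖g0‖) := by
        rw [norm_neg, norm_mul, norm_mul, Complex.norm_real,
          Real.norm_of_nonneg (sub_nonneg.2 hx1)]
        exact add_le_add le_rfl (mul_le_mul_of_nonneg_left
          (mul_le_mul_of_nonneg_right (norm_le_one_right hh) (norm_nonneg _))
          (sub_nonneg.2 hx1))
    _ = _ := by ring

/-- the matrix element `⟨u₀(h), (i-m)² x^i u₀(g)⟩` -/
noncomputable def me2 (g0 g1 h0 h1 : ℂ) (Q : ℕ) (x : ℝ) : ℂ :=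
  ∑ i ∈ range (Q + 1), (Q.choose i : ℂ) * ((starRingEnd ℂ) h0 * g0 * x) ^ i *
    ((starRingEnd ℂ) h1 * g1) ^ (Q - i) * ((i : ℂ) - ((Q * ‖g0‖ ^ 2 : ℝ) : ℂ)) ^ 2

theorem norm_me2_le {x : ℝ} (hx0 : 0 ≤ x) (hx1 : x ≤ 1) (hg : ‖g0‖ ^ 2 + ‖g1‖ ^ 2 = 1)
    (hh : ‖h0‖ ^ 2 + ‖h1‖ ^ 2 = 1) {Q : ℕ} (hQ : 3 ≤ Q) {r : ℝ}
    (hr : r = Real.sqrt Q * ‖o10 g0 g1 h0 h1 x‖ + Real.sqrt Q * (1 - x) * ‖g0‖) :
    ‖me2 g0 g1 h0 h1 Q x‖ ≤ 10 * (1 + Q * ‖g0‖ ^ 2 * ‖g1‖ ^ 2) * (1 + r) ^ 2 *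
      Real.exp (-(1 - x) * (Q * ‖g0‖ ^ 2) / 12) * Real.exp (- r ^ 2 / 24) ∧
      Real.sqrt Q * dd g0 g1 h0 h1 ≤ r := by
  obtain ⟨q, rfl⟩ : ∃ q, Q = q + 2 := ⟨Q - 2, by omega⟩
  have hq : 1 ≤ q := by omega
  set s : ℝ := Real.sqrt ((q + 2 : ℕ) : ℝ) with hs
  have hs0 : 0 ≤ s := Real.sqrt_nonneg _
  have hs2 : s ^ 2 = ((q + 2 : ℕ) : ℝ) := Real.sq_sqrt (by positivity)
  set m : ℝ := ((q + 2 : ℕ) : ℝ) * ‖g0‖ ^ 2 with hm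
  have hm0 : 0 ≤ m := by positivity
  set D := dd g0 g1 h0 h1 with hD
  have hD0 : 0 ≤ D := norm_nonneg _
  set y := s * ‖o10 g0 g1 h0 h1 x‖ with hy
  set w := s * (1 - x) * ‖g0‖ with hw
  have h1x : 0 ≤ 1 - x := sub_nonneg.2 hx1
  have hy0 : 0 ≤ y := by positivity
  have hw0 : 0 ≤ w := by positivity
  have hr0 : 0 ≤ r := by rw [hr]; positivity
  -- distance
  have hdist : s * D ≤ r := by
    rw [hr]
    have := mul_le_mul_of_nonneg_left (dd_le (g0 := g0) (g1 := g1) hx1 hh) hs0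
    calc s * D ≤ s * (‖o10 g0 g1 h0 h1 x‖ + (1 - x) * ‖g0‖) := this
      _ = y + w := by rw [hy, hw]; ring
  refine ⟨?_, hdist⟩
  -- rewrite the sum
  have e : me2 g0 g1 h0 h1 (q + 2) x = ov g0 g1 h0 h1 x ^ q *
      (((m : ℂ) * ov g0 g1 h0 h1 x - (q + 2 : ℕ) * ((starRingEnd ℂ) h0 * g0 * x)) ^ 2 +
        (q + 2 : ℕ) * ((starRingEnd ℂ) h1 * g1) * ((starRingEnd ℂ) h0 * g0 * x)) := by
    rw [me2, sum_choose_sq q ((starRingEnd ℂ) h1 * g1) ((starRingEnd ℂ) h0 * g0 * x) (m : ℂ)]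
    rfl
  have e2 : (m : ℂ) * ov g0 g1 h0 h1 x - (q + 2 : ℕ) * ((starRingEnd ℂ) h0 * g0 * x) =
      ((q + 2 : ℕ) : ℂ) * (g0 * g1 * (starRingEnd ℂ) (o01 g0 g1 h0 h1 x)) := by
    rw [← lin_identity (h0 := h0) (h1 := h1) x hg, hm]
    push_cast
    ring
  have hsq : Real.sqrt m = s * ‖g0‖ := by
    rw [hm, Real.sqrt_mul (by positivity), Real.sqrt_sq (norm_nonneg _)]
  have hm2 : m = (s * ‖g0‖) ^ 2 := by rw [mul_pow, hs2]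
  have hg01 := norm_le_one_left hg
  have hg11 := norm_le_one_right hg
  have hh11 := norm_le_one_right hh
  have hh0 := norm_h0_le hg hh
  -- first term
  have ho : s * ‖o01 g0 g1 h0 h1 x‖ ≤ 3 * r := by
    have ho1 := norm_o01_le (h0 := h0) (h1 := h1) hx1 hg
    have h2 : ‖o01 g0 g1 h0 h1 x‖ ≤ D + (1 - x) * (‖g0‖ + D) :=
      ho1.trans (by gcongr)
    have h3 : s * ‖o01 g0 g1 h0 h1 x‖ ≤ s * (D + (1 - x) * (‖g0‖ + D)) :=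
      mul_le_mul_of_nonneg_left h2 hs0
    have h4 : s * (D + (1 - x) * (‖g0‖ + D)) = s * D + w + (1 - x) * (s * D) := by
      rw [hw]; ring
    have h5 : (1 - x) * (s * D) ≤ 1 * (s * D) := by
      apply mul_le_mul_of_nonneg_right _ (by positivity); linarith
    have h6 : w ≤ r := by rw [hr]; linarith
    linarith
  set σ := s * ‖g0‖ * ‖g1‖ with hσ
  have hσ0 : 0 ≤ σ := by positivity
  have hσ2 : σ ^ 2 = ((q + 2 : ℕ) : ℝ) * ‖g0‖ ^ 2 * ‖g1‖ ^ 2 := by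
    rw [hσ, mul_pow, mul_pow, hs2]
  have hA : ‖(m : ℂ) * ov g0 g1 h0 h1 x - (q + 2 : ℕ) * ((starRingEnd ℂ) h0 * g0 * x)‖ ≤
      σ * (3 * r) := by
    rw [e2, norm_mul, norm_mul, norm_mul, RCLike.norm_conj, Complex.norm_natCast]
    calc ((q + 2 : ℕ) : ℝ) * (‖g0‖ * ‖g1‖ * ‖o01 g0 g1 h0 h1 x‖)
        = (s * ‖g0‖ * ‖g1‖) * (s * ‖o01 g0 g1 h0 h1 x‖) := by rw [← hs2]; ring
      _ ≤ (s * ‖g0‖ * ‖g1‖) * (3 * r) := by gcongr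
      _ = _ := by rw [hσ]
  have hB : ‖((q + 2 : ℕ) : ℂ) * ((starRingEnd ℂ) h1 * g1) * ((starRingEnd ℂ) h0 * g0 * x)‖ ≤
      σ * (σ + 2 * r) := by
    rw [norm_mul, norm_mul, norm_mul, norm_mul, norm_mul, RCLike.norm_conj, RCLike.norm_conj,
      Complex.norm_natCast, Complex.norm_real, Real.norm_of_nonneg hx0]
    have hh1' := norm_h1_le hg hh
    have hsh : s * (‖h0‖ * ‖h1‖) ≤ σ + 2 * r := by
      have k1 : ‖h0‖ * ‖h1‖ ≤ ‖g0‖ * ‖g1‖ + 2 * D := by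
        calc ‖h0‖ * ‖h1‖ ≤ (‖g0‖ + D) * ‖h1‖ := by gcongr
          _ = ‖g0‖ * ‖h1‖ + D * ‖h1‖ := by ring
          _ ≤ ‖g0‖ * (‖g1‖ + D) + D * 1 := by gcongr
          _ = ‖g0‖ * ‖g1‖ + ‖g0‖ * D + D := by ring
          _ ≤ ‖g0‖ * ‖g1‖ + 1 * D + D := by gcongr
          _ = _ := by ring
      calc s * (‖h0‖ * ‖h1‖) ≤ s * (‖g0‖ * ‖g1‖ + 2 * D) := by gcongr
        _ = σ + 2 * (s * D) := by rw [hσ]; ring
        _ ≤ σ + 2 * r := by linarith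
    calc ((q + 2 : ℕ) : ℝ) * (‖h1‖ * ‖g1‖) * (‖h0‖ * ‖g0‖ * x)
        = σ * (s * (‖h0‖ * ‖h1‖)) * x := by rw [← hs2, hσ]; ring
      _ ≤ σ * (σ + 2 * r) * 1 := by gcongr
      _ = _ := by ring
  have hpoly : (σ * (3 * r)) ^ 2 + σ * (σ + 2 * r) ≤
      10 * (1 + ((q + 2 : ℕ) : ℝ) * ‖g0‖ ^ 2 * ‖g1‖ ^ 2) * (1 + r) ^ 2 := by
    rw [← hσ2]
    have k1 : 2 * σ * r ≤ (1 + σ ^ 2) * r := by
      apply mul_le_mul_of_nonneg_right _ hr0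
      nlinarith [sq_nonneg (σ - 1)]
    nlinarith [mul_nonneg (sq_nonneg σ) hr0, mul_nonneg (sq_nonneg σ) (sq_nonneg r),
      sq_nonneg r, sq_nonneg σ]
  have hexp : ‖ov g0 g1 h0 h1 x‖ ^ q ≤
      Real.exp (-(1 - x) * m / 12) * Real.exp (- r ^ 2 / 24) := by
    refine (norm_ov_pow_le hx0 hx1 hg hh q).trans ?_
    rw [← Real.exp_add]
    apply Real.exp_le_exp.2
    have hqr : ((q + 2 : ℕ) : ℝ) / 6 ≤ (q : ℝ) / 2 := by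
      have : (1 : ℝ) ≤ q := by exact_mod_cast hq
      push_cast; linarith
    have hX : 0 ≤ (1 - x) * ‖g0‖ ^ 2 + ‖o10 g0 g1 h0 h1 x‖ ^ 2 := by positivity
    have k1 : ((q + 2 : ℕ) : ℝ) / 6 * ((1 - x) * ‖g0‖ ^ 2 + ‖o10 g0 g1 h0 h1 x‖ ^ 2) ≤
        (q : ℝ) / 2 * ((1 - x) * ‖g0‖ ^ 2 + ‖o10 g0 g1 h0 h1 x‖ ^ 2) :=
      mul_le_mul_of_nonneg_right hqr hX
    have k2 : ((q + 2 : ℕ) : ℝ) / 6 * ((1 - x) * ‖g0‖ ^ 2 + ‖o10 g0 g1 h0 h1 x‖ ^ 2) =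
        (1 - x) * m / 6 + y ^ 2 / 6 := by
      rw [hy, mul_pow, hs2, hm]; ring
    have k3 : w ^ 2 ≤ (1 - x) * m := by
      rw [hw, hm, ← hs2]
      have : (s * (1 - x) * ‖g0‖) ^ 2 = (1 - x) * ((1 - x) * (s ^ 2 * ‖g0‖ ^ 2)) := by ring
      rw [this]
      apply mul_le_mul_of_nonneg_left _ h1x
      have k5 : (1 - x) * (s ^ 2 * ‖g0‖ ^ 2) ≤ 1 * (s ^ 2 * ‖g0‖ ^ 2) := by
        apply mul_le_mul_of_nonneg_right _ (by positivity); linarith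
      linarith
    have k4 : r ^ 2 ≤ 2 * (w ^ 2 + y ^ 2) := by
      rw [hr]; nlinarith only [sq_nonneg (y - w)]
    rw [k2] at k1
    have k6 := sq_nonneg y
    linarith only [k1, k3, k4, k6]
  rw [e, norm_mul, norm_pow]
  calc ‖ov g0 g1 h0 h1 x‖ ^ q * ‖((m : ℂ) * ov g0 g1 h0 h1 x -
        (q + 2 : ℕ) * ((starRingEnd ℂ) h0 * g0 * x)) ^ 2 +
        (q + 2 : ℕ) * ((starRingEnd ℂ) h1 * g1) * ((starRingEnd ℂ) h0 * g0 * x)‖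
      ≤ (Real.exp (-(1 - x) * m / 12) * Real.exp (- r ^ 2 / 24)) *
        (10 * (1 + ((q + 2 : ℕ) : ℝ) * ‖g0‖ ^ 2 * ‖g1‖ ^ 2) * (1 + r) ^ 2) := by
        gcongr
        refine (norm_add_le _ _).trans ?_
        rw [norm_pow]
        refine le_trans ?_ hpoly
        gcongr
    _ = _ := by ring

end core

end Crest.Agent.R340.Tz877
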