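import Crest.Agent.R340.Tz1_877

/-!
# Row 340, block O10: integrated linearisation estimate (helper877)

`lin_est`: if `G i = α + β (i-m) ± (i-m)² ∫₀¹ (1-θ) K(m+θ(i-m)) dθ` with `K y = ∫ e^{-s y} dμ(s)`
completely monotone then the matrix elements of `G - lin` between coherent vectors are
`≤ C (1+m) (K(m/24) + e^{-m/24} K 0) (1+√Q dd)^{-p}`.
-/

set_option autoImplicit false

namespace Crest.Agent.R340.Tz877

open Finset Complex MeasureTheory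

/-- Gaussian beats polynomials -/
theorem exists_gauss (p : ℕ) : ∃ C : ℝ, 0 < C ∧ ∀ r : ℝ, 0 ≤ r →
    (1 + r) ^ p * Real.exp (- r ^ 2 / 24) ≤ C := by
  -- (1+r)^p ≤ p! exp(1+r), and 1 + r - r²/24 ≤ 7
  refine ⟨p.factorial * Real.exp 7, by positivity, fun r hr => ?_⟩
  have h1 : (1 + r) ^ p / p.factorial ≤ Real.exp (1 + r) :=
    Real.pow_div_factorial_le_exp (1 + r) (by linarith) p
  have h2 : (1 + r) ^ p ≤ p.factorial * Real.exp (1 + r) := by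
    rw [div_le_iff₀ (by positivity)] at h1
    linarith
  calc (1 + r) ^ p * Real.exp (- r ^ 2 / 24)
      ≤ (p.factorial * Real.exp (1 + r)) * Real.exp (- r ^ 2 / 24) := by gcongr
    _ = p.factorial * Real.exp (1 + r + - r ^ 2 / 24) := by rw [mul_assoc, ← Real.exp_add]
    _ ≤ p.factorial * Real.exp 7 := by
        gcongr
        nlinarith [sq_nonneg (r - 12)]

/-- the pointwise core estimate with the constant `C_p` -/
theorem exists_me2 (p : ℕ) : ∃ C : ℝ, 0 < C ∧ ∀ (g0 g1 h0 h1 : ℂ),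
    ‖g0‖ ^ 2 + ‖g1‖ ^ 2 = 1 → ‖h0‖ ^ 2 + ‖h1‖ ^ 2 = 1 → ∀ Q : ℕ, 3 ≤ Q → ∀ x : ℝ,
    0 ≤ x → x ≤ 1 →
    (1 + Real.sqrt Q * dd g0 g1 h0 h1) ^ p * ‖me2 g0 g1 h0 h1 Q x‖ ≤
      C * (1 + Q * ‖g0‖ ^ 2 * ‖g1‖ ^ 2) * Real.exp (-(1 - x) * (Q * ‖g0‖ ^ 2) / 12) := by
  obtain ⟨C, hC, hC'⟩ := exists_gauss (p + 2)
  refine ⟨10 * C, by positivity, ?_⟩
  intro g0 g1 h0 h1 hg hh Q hQ x hx0 hx1
  set r := Real.sqrt Q * ‖o10 g0 g1 h0 h1 x‖ + Real.sqrt Q * (1 - x) * ‖g0‖ with hr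
  have h1x : 0 ≤ 1 - x := sub_nonneg.2 hx1
  have hr0 : 0 ≤ r := by rw [hr]; positivity
  obtain ⟨hb, hd⟩ := norm_me2_le hx0 hx1 hg hh hQ hr
  have hD0 : 0 ≤ dd g0 g1 h0 h1 := norm_nonneg _
  calc (1 + Real.sqrt Q * dd g0 g1 h0 h1) ^ p * ‖me2 g0 g1 h0 h1 Q x‖
      ≤ (1 + r) ^ p * (10 * (1 + Q * ‖g0‖ ^ 2 * ‖g1‖ ^ 2) * (1 + r) ^ 2 *
        Real.exp (-(1 - x) * (Q * ‖g0‖ ^ 2) / 12) * Real.exp (- r ^ 2 / 24)) := by
        gcongr
    _ = (10 * (1 + Q * ‖g0‖ ^ 2 * ‖g1‖ ^ 2) * Real.exp (-(1 - x) * (Q * ‖g0‖ ^ 2) / 12)) *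
        ((1 + r) ^ (p + 2) * Real.exp (- r ^ 2 / 24)) := by ring
    _ ≤ (10 * (1 + Q * ‖g0‖ ^ 2 * ‖g1‖ ^ 2) * Real.exp (-(1 - x) * (Q * ‖g0‖ ^ 2) / 12)) * C := by
        gcongr
        exact hC' r hr0
    _ = _ := by ring

/-- exponent bookkeeping -/
theorem exp_split {s θ m : ℝ} (hs : 0 ≤ s) (hθ0 : 0 ≤ θ) (hθ1 : θ ≤ 1) (hm : 0 ≤ m) :
    Real.exp (-s * ((1 - θ) * m)) * Real.exp (-(1 - Real.exp (-s * θ)) * m / 12) ≤
      Real.exp (-s * (m / 24)) + Real.exp (-m / 24) := by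
  rw [← Real.exp_add]
  have hu : 0 ≤ s * θ := mul_nonneg hs hθ0
  rcases le_total (s * θ) 1 with h | h
  · -- 1 - e^{-u} ≥ u/2
    have h1 : Real.exp (-s * θ) ≤ 1 - s * θ / 2 := by
      have h2 : (1 - s * θ / 2) * Real.exp (s * θ) ≥ 1 := by
        have h3 := Real.add_one_le_exp (s * θ)
        nlinarith
      have h4 : Real.exp (-s * θ) = (Real.exp (s * θ))⁻¹ := by
        rw [← Real.exp_neg]; congr 1; ring
      rw [h4]
      rw [inv_le_iff_one_le_mul₀ (Real.exp_pos _)]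
      exact h2
    refine le_add_of_le_of_nonneg (Real.exp_le_exp.2 ?_) (Real.exp_pos _).le
    have h5 : s * θ / 2 * m ≤ (1 - Real.exp (-s * θ)) * m :=
      mul_le_mul_of_nonneg_right (by linarith) hm
    have h6 : 0 ≤ s * (1 - θ) * m :=
      mul_nonneg (mul_nonneg hs (sub_nonneg.2 hθ1)) hm
    nlinarith
  · have h1 : Real.exp (-s * θ) ≤ 1 / 2 := by
      have h2 : (2 : ℝ) ≤ Real.exp (s * θ) := by
        have := Real.add_one_le_exp (s * θ)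
        linarith
      have h4 : Real.exp (-s * θ) = (Real.exp (s * θ))⁻¹ := by
        rw [← Real.exp_neg]; congr 1; ring
      rw [h4, one_div]
      exact inv_anti₀ (by norm_num) h2
    refine le_add_of_nonneg_of_le (Real.exp_pos _).le (Real.exp_le_exp.2 ?_)
    have h5 : 1 / 2 * m ≤ (1 - Real.exp (-s * θ)) * m :=
      mul_le_mul_of_nonneg_right (by linarith) hm
    have h6 : 0 ≤ s * ((1 - θ) * m) :=
      mul_nonneg hs (mul_nonneg (sub_nonneg.2 hθ1) hm)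
    linarith

section mix

variable {Ω : Type*} [MeasurableSpace Ω] (μ : Measure Ω) [IsFiniteMeasure μ] (s : Ω → ℝ)

/-- the Laplace transform -/
noncomputable def Kf (y : ℝ) : ℝ := ∫ ω, Real.exp (-s ω * y) ∂μ

variable {μ s}

theorem integrable_exp (hs : Measurable s) (hs0 : ∀ ω, 0 ≤ s ω) {y : ℝ} (hy : 0 ≤ y) :
    Integrable (fun ω => Real.exp (-s ω * y)) μ := by
  refine Integrable.of_bound (C := 1) ?_ ?_
  · exact ((hs.neg.mul_const y).exp).aestronglyMeasurable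
  · refine Filter.Eventually.of_forall fun ω => ?_
    rw [Real.norm_of_nonneg (Real.exp_pos _).le]
    apply Real.exp_le_one_iff.2
    have := mul_nonneg (hs0 ω) hy
    linarith

omit [IsFiniteMeasure μ] in
theorem Kf_nonneg (y : ℝ) : 0 ≤ Kf μ s y := integral_nonneg fun _ => (Real.exp_pos _).le

/-- the `θ`-slice of the linearisation error -/
theorem slice {g0 g1 h0 h1 : ℂ} (hg : ‖g0‖ ^ 2 + ‖g1‖ ^ 2 = 1) {Q : ℕ}
    (hs : Measurable s) (hs0 : ∀ ω, 0 ≤ s ω) {θ : ℝ} (hθ0 : 0 ≤ θ) (hθ1 : θ ≤ 1) :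
    ∑ i ∈ range (Q + 1), (Q.choose i : ℂ) * ((starRingEnd ℂ) h0 * g0) ^ i *
      ((starRingEnd ℂ) h1 * g1) ^ (Q - i) * (((i : ℝ) - Q * ‖g0‖ ^ 2 : ℝ) : ℂ) ^ 2 *
        (Kf μ s (Q * ‖g0‖ ^ 2 + θ * (i - Q * ‖g0‖ ^ 2)) : ℂ) =
    ∫ ω, (Real.exp (-s ω * ((1 - θ) * (Q * ‖g0‖ ^ 2))) : ℂ) *
      me2 g0 g1 h0 h1 Q (Real.exp (-s ω * θ)) ∂μ := by
  set m : ℝ := Q * ‖g0‖ ^ 2 with hm
  have hm0 : 0 ≤ m := by positivity
  have hy : ∀ i : ℕ, 0 ≤ m + θ * ((i : ℝ) - m) := fun i => by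
    have : m + θ * ((i : ℝ) - m) = (1 - θ) * m + θ * i := by ring
    rw [this]
    have := sub_nonneg.2 hθ1
    positivity
  have e1 : ∀ ω, (Real.exp (-s ω * ((1 - θ) * m)) : ℂ) *
      me2 g0 g1 h0 h1 Q (Real.exp (-s ω * θ)) =
      ∑ i ∈ range (Q + 1), (Q.choose i : ℂ) * ((starRingEnd ℂ) h0 * g0) ^ i *
      ((starRingEnd ℂ) h1 * g1) ^ (Q - i) * (((i : ℝ) - m : ℝ) : ℂ) ^ 2 *
        ((Real.exp (-s ω * (m + θ * (i - m))) : ℝ) : ℂ) := by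
    intro ω
    rw [me2, mul_sum]
    refine sum_congr rfl fun i hi => ?_
    have e2 : ((Real.exp (-s ω * (m + θ * (i - m))) : ℝ) : ℂ) =
        (Real.exp (-s ω * ((1 - θ) * m)) : ℂ) * ((Real.exp (-s ω * θ) : ℝ) : ℂ) ^ i := by
      rw [← Complex.ofReal_pow, ← Complex.ofReal_mul, ← Real.exp_nat_mul, ← Real.exp_add]
      congr 2
      ring
    have e3 : (i : ℂ) - ((Q * ‖g0‖ ^ 2 : ℝ) : ℂ) = (((i : ℝ) - m : ℝ) : ℂ) := by
      rw [hm]; push_cast; ring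
    rw [e2, e3, mul_pow]
    ring
  simp only [e1]
  rw [integral_finsetSum]
  · refine sum_congr rfl fun i hi => ?_
    rw [integral_const_mul]
    congr 1
    rw [Kf, integral_complex_ofReal]
  · intro i hi
    exact (integrable_exp hs hs0 (hy i)).ofReal.const_mul _

variable (μ s)

/-- **linearisation estimate** -/
theorem exists_lin_est (p : ℕ) : ∃ C : ℝ, 0 < C ∧
    ∀ {Ω : Type} [MeasurableSpace Ω] (μ : Measure Ω) [IsFiniteMeasure μ] (s : Ω → ℝ),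
    Measurable s → (∀ ω, 0 ≤ s ω) → ∀ (g0 g1 h0 h1 : ℂ),
    ‖g0‖ ^ 2 + ‖g1‖ ^ 2 = 1 → ‖h0‖ ^ 2 + ‖h1‖ ^ 2 = 1 → ∀ Q : ℕ, 3 ≤ Q →
    ∀ (G : ℕ → ℝ) (α β ε : ℝ), |ε| ≤ 1 →
    (∀ i ≤ Q, IntervalIntegrable (fun θ : ℝ => (1 - θ) *
      Kf μ s (Q * ‖g0‖ ^ 2 + θ * (i - Q * ‖g0‖ ^ 2))) volume 0 1) →
    (∀ i ≤ Q, G i = α + β * (i - Q * ‖g0‖ ^ 2) + ε * ((i - Q * ‖g0‖ ^ 2) ^ 2 *
      ∫ θ in (0:ℝ)..1, (1 - θ) * Kf μ s (Q * ‖g0‖ ^ 2 + θ * (i - Q * ‖g0‖ ^ 2)))) →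
    (1 + Real.sqrt Q * dd g0 g1 h0 h1) ^ p *
      ‖∑ i ∈ range (Q + 1), (Q.choose i : ℂ) * ((starRingEnd ℂ) h0 * g0) ^ i *
      ((starRingEnd ℂ) h1 * g1) ^ (Q - i) * ((G i - α - β * (i - Q * ‖g0‖ ^ 2) : ℝ) : ℂ)‖ ≤
      C * (1 + Q * ‖g0‖ ^ 2 * ‖g1‖ ^ 2) * (Kf μ s (Q * ‖g0‖ ^ 2 / 24) +
        Real.exp (-(Q * ‖g0‖ ^ 2) / 24) * Kf μ s 0) := by
  obtain ⟨C, hC, hC'⟩ := exists_me2 p
  refine ⟨C, hC, ?_⟩
  intro Ω _ μ _ s hs hs0 g0 g1 h0 h1 hg hh Q hQ G α β ε hε hint hG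
  set m : ℝ := Q * ‖g0‖ ^ 2 with hm
  have hm0 : 0 ≤ m := by positivity
  set V : ℝ := m * ‖g1‖ ^ 2 with hV
  have hV0 : 0 ≤ V := by positivity
  set W : ℝ := (1 + Real.sqrt Q * dd g0 g1 h0 h1) ^ p with hW
  have hD0 : 0 ≤ dd g0 g1 h0 h1 := norm_nonneg _
  have hW0 : 0 < W := by positivity
  -- rewrite the sum as an interval integral
  have e1 : ∑ i ∈ range (Q + 1), (Q.choose i : ℂ) * ((starRingEnd ℂ) h0 * g0) ^ i *
      ((starRingEnd ℂ) h1 * g1) ^ (Q - i) * ((G i - α - β * (i - m) : ℝ) : ℂ) =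
      (ε : ℂ) * ∫ θ in (0:ℝ)..1, ((1 - θ : ℝ) : ℂ) *
        ∑ i ∈ range (Q + 1), (Q.choose i : ℂ) * ((starRingEnd ℂ) h0 * g0) ^ i *
      ((starRingEnd ℂ) h1 * g1) ^ (Q - i) * (((i : ℝ) - m : ℝ) : ℂ) ^ 2 *
        (Kf μ s (m + θ * (i - m)) : ℂ) := by
    have e2 : ∀ θ : ℝ, ((1 - θ : ℝ) : ℂ) *
        ∑ i ∈ range (Q + 1), (Q.choose i : ℂ) * ((starRingEnd ℂ) h0 * g0) ^ i *
      ((starRingEnd ℂ) h1 * g1) ^ (Q - i) * (((i : ℝ) - m : ℝ) : ℂ) ^ 2 *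
        (Kf μ s (m + θ * (i - m)) : ℂ) =
        ∑ i ∈ range (Q + 1), ((Q.choose i : ℂ) * ((starRingEnd ℂ) h0 * g0) ^ i *
      ((starRingEnd ℂ) h1 * g1) ^ (Q - i) * (((i : ℝ) - m : ℝ) : ℂ) ^ 2) *
        (((1 - θ) * Kf μ s (m + θ * (i - m)) : ℝ) : ℂ) := by
      intro θ
      rw [mul_sum]
      refine sum_congr rfl fun i _ => ?_
      push_cast
      ring
    simp only [e2]
    rw [intervalIntegral.integral_finsetSum, mul_sum]
    · refine sum_congr rfl fun i hi => ?_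
      rw [intervalIntegral.integral_const_mul, intervalIntegral.integral_ofReal]
      have hi' : i ≤ Q := Nat.lt_succ_iff.1 (mem_range.1 hi)
      rw [hG i hi']
      push_cast
      ring
    · intro i hi
      have hi' : i ≤ Q := Nat.lt_succ_iff.1 (mem_range.1 hi)
      exact IntervalIntegrable.const_mul ⟨(hint i hi').1.ofReal, (hint i hi').2.ofReal⟩ _
  rw [e1, norm_mul]
  have hB0 : 0 ≤ C * (1 + V) * (Kf μ s (m / 24) + Real.exp (-m / 24) * Kf μ s 0) := by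
    have := Kf_nonneg (μ := μ) (s := s) (m / 24)
    have := Kf_nonneg (μ := μ) (s := s) 0
    positivity
  have hslice : ∀ θ ∈ Set.uIoc (0:ℝ) 1, ‖((1 - θ : ℝ) : ℂ) *
        ∑ i ∈ range (Q + 1), (Q.choose i : ℂ) * ((starRingEnd ℂ) h0 * g0) ^ i *
      ((starRingEnd ℂ) h1 * g1) ^ (Q - i) * (((i : ℝ) - m : ℝ) : ℂ) ^ 2 *
        (Kf μ s (m + θ * (i - m)) : ℂ)‖ ≤
        W⁻¹ * (C * (1 + V) * (Kf μ s (m / 24) + Real.exp (-m / 24) * Kf μ s 0)) := by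
    intro θ hθ
    rw [Set.uIoc_of_le zero_le_one] at hθ
    have hθ0 : 0 ≤ θ := hθ.1.le
    have hθ1 : θ ≤ 1 := hθ.2
    rw [slice hg hs hs0 hθ0 hθ1, norm_mul, Complex.norm_real,
      Real.norm_of_nonneg (sub_nonneg.2 hθ1)]
    have hb : ‖∫ ω, (Real.exp (-s ω * ((1 - θ) * m)) : ℂ) *
      me2 g0 g1 h0 h1 Q (Real.exp (-s ω * θ)) ∂μ‖ ≤
      ∫ ω, W⁻¹ * (C * (1 + V)) * (Real.exp (-s ω * (m / 24)) +
        Real.exp (-m / 24) * Real.exp (-s ω * 0)) ∂μ := by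
      refine norm_integral_le_of_norm_le ?_ (Filter.Eventually.of_forall fun ω => ?_)
      · refine Integrable.const_mul ?_ _
        exact (integrable_exp hs hs0 (by positivity)).add
          ((integrable_exp hs hs0 le_rfl).const_mul _)
      · rw [norm_mul, Complex.norm_real, Real.norm_of_nonneg (Real.exp_pos _).le]
        have hx0 : 0 ≤ Real.exp (-s ω * θ) := (Real.exp_pos _).le
        have hx1 : Real.exp (-s ω * θ) ≤ 1 := by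
          apply Real.exp_le_one_iff.2
          have := mul_nonneg (hs0 ω) hθ0
          linarith
        have hcore := hC' g0 g1 h0 h1 hg hh Q hQ _ hx0 hx1
        have h2 : ‖me2 g0 g1 h0 h1 Q (Real.exp (-s ω * θ))‖ ≤ W⁻¹ * (C * (1 + V) *
            Real.exp (-(1 - Real.exp (-s ω * θ)) * m / 12)) := by
          rw [le_inv_mul_iff₀ hW0]
          exact hcore
        have h3 := exp_split (hs0 ω) hθ0 hθ1 hm0
        calc Real.exp (-s ω * ((1 - θ) * m)) * ‖me2 g0 g1 h0 h1 Q (Real.exp (-s ω * θ))‖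
            ≤ Real.exp (-s ω * ((1 - θ) * m)) * (W⁻¹ * (C * (1 + V) *
            Real.exp (-(1 - Real.exp (-s ω * θ)) * m / 12))) := by gcongr
          _ = W⁻¹ * (C * (1 + V)) * (Real.exp (-s ω * ((1 - θ) * m)) *
              Real.exp (-(1 - Real.exp (-s ω * θ)) * m / 12)) := by ring
          _ ≤ W⁻¹ * (C * (1 + V)) * (Real.exp (-s ω * (m / 24)) + Real.exp (-m / 24)) := by
              gcongr
          _ = _ := by simp
    have e4 : ∫ ω, W⁻¹ * (C * (1 + V)) * (Real.exp (-s ω * (m / 24)) +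
        Real.exp (-m / 24) * Real.exp (-s ω * 0)) ∂μ =
        W⁻¹ * (C * (1 + V) * (Kf μ s (m / 24) + Real.exp (-m / 24) * Kf μ s 0)) := by
      rw [integral_const_mul, integral_add (integrable_exp hs hs0 (by positivity))
        ((integrable_exp hs hs0 le_rfl).const_mul _), integral_const_mul]
      simp only [Kf]
      ring
    rw [e4] at hb
    calc (1 - θ) * ‖∫ ω, (Real.exp (-s ω * ((1 - θ) * m)) : ℂ) *
      me2 g0 g1 h0 h1 Q (Real.exp (-s ω * θ)) ∂μ‖ ≤ 1 * (W⁻¹ * (C * (1 + V) *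
        (Kf μ s (m / 24) + Real.exp (-m / 24) * Kf μ s 0))) := by
          apply mul_le_mul (by linarith) hb (norm_nonneg _) zero_le_one
      _ = _ := one_mul _
  have hI := intervalIntegral.norm_integral_le_of_norm_le_const hslice
  simp only [sub_zero, abs_one, mul_one] at hI
  have hεn : ‖(ε : ℂ)‖ ≤ 1 := by rw [Complex.norm_real]; exact hε
  calc W * (‖(ε : ℂ)‖ * ‖∫ θ in (0:ℝ)..1, ((1 - θ : ℝ) : ℂ) *
        ∑ i ∈ range (Q + 1), (Q.choose i : ℂ) * ((starRingEnd ℂ) h0 * g0) ^ i *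
      ((starRingEnd ℂ) h1 * g1) ^ (Q - i) * (((i : ℝ) - m : ℝ) : ℂ) ^ 2 *
        (Kf μ s (m + θ * (i - m)) : ℂ)‖)
      ≤ W * (1 * (W⁻¹ * (C * (1 + V) * (Kf μ s (m / 24) + Real.exp (-m / 24) * Kf μ s 0)))) := by
        apply mul_le_mul_of_nonneg_left _ hW0.le
        exact mul_le_mul hεn hI (norm_nonneg _) zero_le_one
    _ = _ := by
        rw [one_mul, ← mul_assoc, mul_inv_cancel₀ hW0.ne', one_mul]

end mix

end Crest.Agent.R340.Tz877
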