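import Crest.Agent.R340.QL3_331
import Crest.Agent.R340.QL4_331
import Crest.Agent.R340.LocT2_163
import Crest.Agent.R340.LR4_667

/-!
# Row 340, block O10: profile class and one-body operators (helper877)

`PC_dG`: if `Y` is in the profile class about `z` with exponent `m+q+3` and the one-body matrix `A`
has kernel bounds of growth `q` about `z` (`KBd`), then `⁅Y, dG A⁆` is in the profile class with
exponent `m` and constant `∝ T`.
`PC_pair`: `⁅dG A, cr v0 * cr v1⁆` is in the class for `v0, v1` localised at `z`.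
-/

set_option autoImplicit false
set_option linter.unusedSectionVars false

open MeasureTheory

namespace Crest.Agent.R340.Tz877

open Crest.Agent.R340.Fock649 Crest.Agent.R340.QL331 Crest.Agent.R340.LR667
open Crest.Agent.R340.DC867 (gen gen_false gen_true)
open Crest.Agent.R340.LocT163 (Reso crL crL_apply)

variable {ι : Type*} [Fintype ι] [LinearOrder ι] {S : Type*} [MeasurableSpace S]

/-! ### generalities on the resolution of the identity -/

section reso

variable {ν : Measure S} {a0 : S → L ι} {F : Type*} [NormedAddCommGroup F] [NormedSpace ℂ F]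
  [CompleteSpace F]

theorem reso_map (h : Reso ν a0) (Φ : L ι →L[ℂ] F) (x : L ι) :
    Integrable (fun y => (inner ℂ (a0 y) x : ℂ) • Φ (a0 y)) ν ∧
      Φ x = ∫ y, (inner ℂ (a0 y) x : ℂ) • Φ (a0 y) ∂ν := by
  have h1 := Φ.integral_comp_comm (h.int x)
  have h2 := Φ.integrable_comp (h.int x)
  simp only [map_smul] at h1 h2
  rw [h.res x] at h1
  exact ⟨h2, h1.symm⟩

theorem reso_norm_le (h : Reso ν a0) (Φ : L ι →L[ℂ] F) (x : L ι) {b : S → ℝ}
    (hb : Integrable b ν) (hle : ∀ y, ‖(inner ℂ (a0 y) x : ℂ)‖ * ‖Φ (a0 y)‖ ≤ b y) :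
    ‖Φ x‖ ≤ ∫ y, b y ∂ν := by
  rw [(reso_map h Φ x).2]
  refine norm_integral_le_of_norm_le hb (Filter.Eventually.of_forall fun y => ?_)
  rw [norm_smul]
  exact hle y

/-- the matrix action as a continuous linear map -/
noncomputable def mvL (A : Matrix ι ι ℂ) : L ι →L[ℂ] L ι :=
  LinearMap.toContinuousLinearMap
    { toFun := mv A
      map_add' := fun v w => by
        ext i
        simp only [mv_apply, PiLp.add_apply, mul_add, Finset.sum_add_distrib]
      map_smul' := fun a v => by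
        ext i
        simp only [mv_apply, PiLp.smul_apply, smul_eq_mul, RingHom.id_apply, Finset.mul_sum]
        exact Finset.sum_congr rfl fun j _ => by ring }

@[simp] theorem mvL_apply (A : Matrix ι ι ℂ) (v : L ι) : mvL A v = mv A v := rfl

/-- the commutator with `X` -/
noncomputable def adC (X : Op ι) : Op ι →L[ℂ] Op ι := LocT163.adL X

@[simp] theorem adC_apply (X Y : Op ι) : adC X Y = ⁅X, Y⁆ := LocT163.adL_apply X Y

/-- right multiplication as a continuous linear map -/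
noncomputable def mulR (B : Op ι) : Op ι →L[ℂ] Op ι := (ContinuousLinearMap.mul ℂ (Op ι)).flip B

@[simp] theorem mulR_apply (B X : Op ι) : mulR B X = X * B := by simp [mulR]

theorem dG_eq_sum (A : Matrix ι ι ℂ) : dG A = ∑ j, cr (mv A (e j)) * c j := by
  have h1 : ∀ j, cr (mv A (e j)) = ∑ i, A i j • d i := by
    intro j
    unfold cr
    refine Finset.sum_congr rfl fun i _ => ?_
    congr 1
    rw [mv_apply]
    simp [e_apply]
  simp only [h1, dG, Finset.sum_mul, smul_mul_assoc]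
  exact Finset.sum_comm

theorem dG_integral (h : Reso ν a0) (A : Matrix ι ι ℂ) :
    Integrable (fun w => cr (mv A (a0 w)) * an (a0 w)) ν ∧
      dG A = ∫ w, cr (mv A (a0 w)) * an (a0 w) ∂ν := by
  have h1 : ∀ j : ι, Integrable (fun w => (inner ℂ (a0 w) (e j) : ℂ) •
      (cr (mv A (a0 w)) * c j)) ν ∧ cr (mv A (e j)) * c j =
      ∫ w, (inner ℂ (a0 w) (e j) : ℂ) • (cr (mv A (a0 w)) * c j) ∂ν := by
    intro j
    have := reso_map h ((mulR (c j)).comp (crL.comp (mvL A))) (e j)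
    simpa [crL_apply] using this
  have h2 : ∀ w, cr (mv A (a0 w)) * an (a0 w) =
      ∑ j, (inner ℂ (a0 w) (e j) : ℂ) • (cr (mv A (a0 w)) * c j) := by
    intro w
    have e1 : an (a0 w) = ∑ j, (inner ℂ (a0 w) (e j) : ℂ) • c j := by
      unfold an
      refine Finset.sum_congr rfl fun j _ => ?_
      congr 1
      rw [inner_eq_sum]
      simp [e_apply]
    conv_lhs => rw [e1]
    rw [Finset.mul_sum]
    refine Finset.sum_congr rfl fun j _ => ?_
    rw [mul_smul_comm]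
  constructor
  · simp only [h2]
    exact integrable_finsetSum _ fun j _ => (h1 j).1
  · simp only [h2]
    rw [integral_finsetSum _ fun j _ => (h1 j).1, dG_eq_sum]
    exact Finset.sum_congr rfl fun j _ => (h1 j).2

end reso

/-! ### kernel bounds -/

/-- Kernel bounds of a one-body matrix, with growth exponent `q` about `z`. -/
structure KBd (u : Fin 2 → S → L ι) (d : S → S → ℝ) (A : Matrix ι ι ℂ) (z : S) (q : ℕ) (T : ℝ)
    (c : ℕ → ℝ) : Prop where
  T_nonneg : 0 ≤ T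
  c_nonneg : ∀ M, 0 ≤ c M
  le : ∀ M w w', ‖(inner ℂ (u 0 w') (mv A (u 0 w)) : ℂ)‖ ≤
    c M * T * (1 + d w z) ^ q * (1 / (1 + d w' w) ^ M)

/-- A localised vector at `z`. -/
def LocV (u : Fin 2 → S → L ι) (d : S → S → ℝ) (v : L ι) (z : S) (c : ℕ → ℝ) : Prop :=
  ∀ M w, ‖(inner ℂ (u 0 w) v : ℂ)‖ ≤ c M * (1 / (1 + d w z) ^ M)

section bounds

variable {ν : Measure S} {u : Fin 2 → S → L ι} {d : S → S → ℝ} {Cs : ℝ} {K : ℕ → ℝ}

theorem tri_pow (hS : Schur ν u d Cs K) (m : ℕ) (x y z : S) :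
    1 / (1 + d x y) ^ m * (1 / (1 + d y z) ^ m) ≤ 1 / (1 + d x z) ^ m := by
  have p1 := hS.pos x y
  have p2 := hS.pos y z
  have p3 := hS.pos x z
  rw [one_div_mul_one_div]
  apply one_div_le_one_div_of_le (by positivity)
  rw [← mul_pow]
  exact pow_le_pow_left₀ p3.le (hS.mul_tri x y z) m

theorem reso_le3 (hS : Schur ν u d Cs K) {a0 : S → L ι} (h : Reso ν a0) {F : Type*}
    [NormedAddCommGroup F] [NormedSpace ℂ F] [CompleteSpace F]
    (Φ : L ι →L[ℂ] F) (x : L ι) (z : S) {B : ℝ} (hB : 0 ≤ B)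
    (hle : ∀ y, ‖(inner ℂ (a0 y) x : ℂ)‖ * ‖Φ (a0 y)‖ ≤ B * (1 / (1 + d z y) ^ 3)) :
    ‖Φ x‖ ≤ B * Cs := by
  refine (reso_norm_le h Φ x ((hS.int3 z).1.const_mul B) hle).trans ?_
  rw [integral_const_mul]
  exact mul_le_mul_of_nonneg_left (hS.int3 z).2 hB

variable {A : Matrix ι ι ℂ} {z : S} {q : ℕ} {T : ℝ} {c : ℕ → ℝ}

/-- `‖A u0 w‖` -/
theorem KBd.norm_le (hS : Schur ν u d Cs K) (h : Reso ν (u 0)) (hA : KBd u d A z q T c) (w : S) :
    ‖mv A (u 0 w)‖ ≤ c 3 * Cs * (T * (1 + d w z) ^ q) := by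
  have p := hS.pos w z
  have hT := hA.T_nonneg
  have hc := hA.c_nonneg 3
  have h1 := reso_le3 hS h (ContinuousLinearMap.id ℂ (L ι)) (mv A (u 0 w)) w
    (B := c 3 * T * (1 + d w z) ^ q) (by positivity) (by
      intro y
      have h2 := hA.le 3 w y
      have h3 : ‖u 0 y‖ ≤ 1 := hS.u_le 0 y
      simp only [ContinuousLinearMap.id_apply]
      have h4 := hS.pos y w
      rw [hS.d_symm w y]
      calc ‖(inner ℂ (u 0 y) (mv A (u 0 w)) : ℂ)‖ * ‖u 0 y‖
          ≤ (c 3 * T * (1 + d w z) ^ q * (1 / (1 + d y w) ^ 3)) * 1 := by gcongr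
        _ = _ := mul_one _)
  simp only [ContinuousLinearMap.id_apply] at h1
  refine h1.trans (le_of_eq ?_)
  ring

theorem norm_inner_le_kp (k l : Fin 2) (x y : S) :
    ‖(inner ℂ (u k x) (u l y) : ℂ)‖ ≤ kp u y x := by
  refine le_trans ?_ (le_kp k y x)
  fin_cases l
  · exact le_add_of_nonneg_right (norm_nonneg _)
  · exact le_add_of_nonneg_left (norm_nonneg _)

/-- overlaps of `A u0 w` with both frame vectors -/
theorem KBd.inner_le (hS : Schur ν u d Cs K) (h : Reso ν (u 0)) (hA : KBd u d A z q T c) (m : ℕ)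
    (k : Fin 2) (w x : S) :
    ‖(inner ℂ (u k x) (mv A (u 0 w)) : ℂ)‖ ≤
      c (m + 3) * K m * Cs * (T * (1 + d w z) ^ q) * (1 / (1 + d x w) ^ m) := by
  have p := hS.pos w z
  have pxw := hS.pos x w
  have hT := hA.T_nonneg
  have hc := hA.c_nonneg (m + 3)
  have hK := hS.K_nonneg m
  have h1 := reso_le3 hS h (innerSL ℂ (u k x)) (mv A (u 0 w)) w
    (B := c (m + 3) * T * (1 + d w z) ^ q * K m * (1 / (1 + d x w) ^ m)) (by positivity) (by
      intro y
      have h2 := hA.le (m + 3) w y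
      have h3 : ‖(inner ℂ (u k x) (u 0 y) : ℂ)‖ ≤ K m * (1 / (1 + d x y) ^ m) := by
        refine (norm_inner_le_kp k 0 x y).trans ?_
        have := hS.kp_le m y x
        rwa [hS.d_symm y x, ← mul_one_div] at this
      have pyw := hS.pos y w
      have pxy := hS.pos x y
      have h4 := tri_pow hS m x y w
      rw [innerSL_apply_apply, hS.d_symm w y]
      calc ‖(inner ℂ (u 0 y) (mv A (u 0 w)) : ℂ)‖ * ‖(inner ℂ (u k x) (u 0 y) : ℂ)‖
          ≤ (c (m + 3) * T * (1 + d w z) ^ q * (1 / (1 + d y w) ^ (m + 3))) *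
            (K m * (1 / (1 + d x y) ^ m)) := by gcongr
        _ = c (m + 3) * T * (1 + d w z) ^ q * K m *
            (1 / (1 + d x y) ^ m * (1 / (1 + d y w) ^ m)) * (1 / (1 + d y w) ^ 3) := by
            rw [pow_add]; field_simp
        _ ≤ c (m + 3) * T * (1 + d w z) ^ q * K m * (1 / (1 + d x w) ^ m) *
            (1 / (1 + d y w) ^ 3) := by gcongr)
  rw [innerSL_apply_apply] at h1
  refine h1.trans (le_of_eq ?_)
  ring

variable {v : L ι} {cv : ℕ → ℝ}

theorem LocV.c_nonneg (hS : Schur ν u d Cs K) (hv : LocV u d v z cv) (M : ℕ) : 0 ≤ cv M := by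
  have h1 := (norm_nonneg _).trans (hv M z)
  have p := hS.pos z z
  have h2 : 0 < 1 / (1 + d z z) ^ M := by positivity
  exact nonneg_of_mul_nonneg_left h1 h2

theorem LocV.norm_le (hS : Schur ν u d Cs K) (h : Reso ν (u 0)) (hv : LocV u d v z cv) :
    ‖v‖ ≤ cv 3 * Cs := by
  have h1 := reso_le3 hS h (ContinuousLinearMap.id ℂ (L ι)) v z (B := cv 3)
    (hv.c_nonneg hS 3) (by
      intro y
      have h2 := hv 3 y
      have h3 : ‖u 0 y‖ ≤ 1 := hS.u_le 0 y
      have h4 := hS.pos y z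
      have hc := hv.c_nonneg hS 3
      simp only [ContinuousLinearMap.id_apply]
      rw [hS.d_symm z y]
      calc ‖(inner ℂ (u 0 y) v : ℂ)‖ * ‖u 0 y‖ ≤ (cv 3 * (1 / (1 + d y z) ^ 3)) * 1 := by gcongr
        _ = _ := mul_one _)
  simpa using h1

theorem LocV.inner_le (hS : Schur ν u d Cs K) (h : Reso ν (u 0)) (hv : LocV u d v z cv) (m : ℕ)
    (k : Fin 2) (x : S) :
    ‖(inner ℂ (u k x) v : ℂ)‖ ≤ cv (m + 3) * K m * Cs * (1 / (1 + d x z) ^ m) := by
  have hK := hS.K_nonneg m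
  have hc := hv.c_nonneg hS (m + 3)
  have pxz := hS.pos x z
  have h1 := reso_le3 hS h (innerSL ℂ (u k x)) v z
    (B := cv (m + 3) * K m * (1 / (1 + d x z) ^ m)) (by positivity) (by
      intro y
      have h2 := hv (m + 3) y
      have h3 : ‖(inner ℂ (u k x) (u 0 y) : ℂ)‖ ≤ K m * (1 / (1 + d x y) ^ m) := by
        refine (norm_inner_le_kp k 0 x y).trans ?_
        have := hS.kp_le m y x
        rwa [hS.d_symm y x, ← mul_one_div] at this
      have pyz := hS.pos y z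
      have pxy := hS.pos x y
      have h4 := tri_pow hS m x y z
      rw [innerSL_apply_apply, hS.d_symm z y]
      calc ‖(inner ℂ (u 0 y) v : ℂ)‖ * ‖(inner ℂ (u k x) (u 0 y) : ℂ)‖
          ≤ (cv (m + 3) * (1 / (1 + d y z) ^ (m + 3))) * (K m * (1 / (1 + d x y) ^ m)) := by
            gcongr
        _ = cv (m + 3) * K m * (1 / (1 + d x y) ^ m * (1 / (1 + d y z) ^ m)) *
            (1 / (1 + d y z) ^ 3) := by
            rw [pow_add]; field_simp
        _ ≤ cv (m + 3) * K m * (1 / (1 + d x z) ^ m) * (1 / (1 + d y z) ^ 3) := by gcongr)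
  rw [innerSL_apply_apply] at h1
  refine h1.trans (le_of_eq ?_)
  ring

/-- `A v` for a localised vector `v` -/
theorem KBd.mv_norm_le (hS : Schur ν u d Cs K) (h : Reso ν (u 0)) (hA : KBd u d A z q T c)
    (hv : LocV u d v z cv) : ‖mv A v‖ ≤ cv (q + 3) * c 3 * Cs ^ 2 * T := by
  have hT := hA.T_nonneg
  have hc := hA.c_nonneg 3
  have hcv := hv.c_nonneg hS (q + 3)
  have hCs := hS.Cs_nonneg
  have h1 := reso_le3 hS h (mvL A) v z (B := cv (q + 3) * c 3 * Cs * T) (by positivity) (by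
      intro y
      have h2 := hv (q + 3) y
      have h3 := hA.norm_le hS h y
      have p := hS.pos y z
      rw [mvL_apply, hS.d_symm z y]
      calc ‖(inner ℂ (u 0 y) v : ℂ)‖ * ‖mv A (u 0 y)‖
          ≤ (cv (q + 3) * (1 / (1 + d y z) ^ (q + 3))) * (c 3 * Cs * (T * (1 + d y z) ^ q)) := by
            gcongr
        _ = cv (q + 3) * c 3 * Cs * T * (1 / (1 + d y z) ^ 3) := by
            rw [pow_add]; field_simp)
  rw [mvL_apply] at h1
  refine h1.trans (le_of_eq ?_)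
  ring

theorem KBd.mv_inner_le (hS : Schur ν u d Cs K) (h : Reso ν (u 0)) (hA : KBd u d A z q T c)
    (hv : LocV u d v z cv) (m : ℕ) (k : Fin 2) (x : S) :
    ‖(inner ℂ (u k x) (mv A v) : ℂ)‖ ≤
      cv (m + q + 3) * (c (m + 3) * K m * Cs) * Cs * T * (1 / (1 + d x z) ^ m) := by
  have hT := hA.T_nonneg
  have hc := hA.c_nonneg (m + 3)
  have hcv := hv.c_nonneg hS (m + q + 3)
  have hCs := hS.Cs_nonneg
  have hK := hS.K_nonneg m
  have pxz := hS.pos x z
  have h1 := reso_le3 hS h ((innerSL ℂ (u k x)).comp (mvL A)) v z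
    (B := cv (m + q + 3) * (c (m + 3) * K m * Cs) * T * (1 / (1 + d x z) ^ m)) (by positivity) (by
      intro y
      have h2 := hv (m + q + 3) y
      have h3 := hA.inner_le hS h m k y x
      have pyz := hS.pos y z
      have pxy := hS.pos x y
      have h4 := tri_pow hS m x y z
      rw [ContinuousLinearMap.comp_apply, mvL_apply, innerSL_apply_apply, hS.d_symm z y]
      calc ‖(inner ℂ (u 0 y) v : ℂ)‖ * ‖(inner ℂ (u k x) (mv A (u 0 y)) : ℂ)‖
          ≤ (cv (m + q + 3) * (1 / (1 + d y z) ^ (m + q + 3))) *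
            (c (m + 3) * K m * Cs * (T * (1 + d y z) ^ q) * (1 / (1 + d x y) ^ m)) := by
            gcongr
        _ = cv (m + q + 3) * (c (m + 3) * K m * Cs) * T *
            (1 / (1 + d x y) ^ m * (1 / (1 + d y z) ^ m)) * (1 / (1 + d y z) ^ 3) := by
            rw [pow_add, pow_add]; field_simp
        _ ≤ cv (m + q + 3) * (c (m + 3) * K m * Cs) * T * (1 / (1 + d x z) ^ m) *
            (1 / (1 + d y z) ^ 3) := by gcongr)
  rw [ContinuousLinearMap.comp_apply, mvL_apply, innerSL_apply_apply] at h1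
  refine h1.trans (le_of_eq ?_)
  ring

end bounds

/-! ### the profile class -/

section pc

variable {ν : Measure S} {u : Fin 2 → S → L ι} {d : S → S → ℝ} {Cs : ℝ} {K : ℕ → ℝ}
  {A : Matrix ι ι ℂ} {z : S} {q : ℕ} {T : ℝ} {c : ℕ → ℝ}

/-- the Fock representation -/
local notation "RF" => (fcar : Car (Op ι) (L ι))

theorem gen_eq (k : Fin 2 × Bool) (x : S) :
    gen RF u k x = if k.2 then cr (u k.1 x) else an (u k.1 x) := by
  obtain ⟨k, b⟩ := k
  cases b
  · rfl
  · simp only [gen_true, fcar_cr, if_true]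

/-- products of two smeared creators -/
theorem PC_crcr (hd : ∀ w, 0 ≤ d w z) {m : ℕ} {a b : L ι} {α β α' β' : ℝ} (ha : ‖a‖ ≤ α)
    (hb : ‖b‖ ≤ β) (ha' : ∀ k x, ‖(inner ℂ (u k x) a : ℂ)‖ ≤ α' * (1 / (1 + d x z) ^ m))
    (hb' : ∀ k x, ‖(inner ℂ (u k x) b : ℂ)‖ ≤ β' * (1 / (1 + d x z) ^ m)) :
    PC RF u d m (α * β + (α * β' + α' * β)) (cr a * cr b) z := by
  have hα : 0 ≤ α := (norm_nonneg _).trans ha
  have hβ : 0 ≤ β := (norm_nonneg _).trans hb
  have p0 : 0 < 1 / (1 + d z z) ^ m := by have := hd z; positivity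
  have hα' : 0 ≤ α' := nonneg_of_mul_nonneg_left ((norm_nonneg _).trans (ha' 0 z)) p0
  have hβ' : 0 ≤ β' := nonneg_of_mul_nonneg_left ((norm_nonneg _).trans (hb' 0 z)) p0
  constructor
  · calc ‖cr a * cr b‖ ≤ ‖cr a‖ * ‖cr b‖ := norm_mul_le _ _
      _ = ‖a‖ * ‖b‖ := by rw [norm_cr, norm_cr]
      _ ≤ α * β := by gcongr
      _ ≤ _ := by
        have : 0 ≤ α * β' + α' * β := by positivity
        linarith
  · intro k x
    have px := hd x
    have hp : 0 < 1 / (1 + d x z) ^ m := by positivity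
    obtain ⟨k, t⟩ := k
    rw [← mul_one_div]
    cases t
    · -- annihilator
      have e1 : ⁅cr a * cr b, gen RF u (k, false) x⁆ =
          (inner ℂ (u k x) b : ℂ) • cr a - (inner ℂ (u k x) a : ℂ) • cr b := by
        rw [gen_eq]
        simp only [Bool.false_eq_true, if_false]
        have h1 : cr b * an (u k x) = (inner ℂ (u k x) b : ℂ) • (1 : Op ι) - an (u k x) * cr b :=
          eq_sub_of_add_eq (Fock649.cr_an _ _)
        have h2 : an (u k x) * cr a = (inner ℂ (u k x) a : ℂ) • (1 : Op ι) - cr a * an (u k x) :=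
          eq_sub_of_add_eq (Fock649.an_cr _ _)
        rw [Ring.lie_def]
        calc cr a * cr b * an (u k x) - an (u k x) * (cr a * cr b)
            = cr a * (cr b * an (u k x)) - (an (u k x) * cr a) * cr b := by noncomm_ring
          _ = _ := by
            rw [h1, h2]
            simp only [mul_sub, sub_mul, mul_smul_comm, smul_mul_assoc, mul_one, one_mul, mul_assoc]
            abel
      rw [e1]
      calc ‖(inner ℂ (u k x) b : ℂ) • cr a - (inner ℂ (u k x) a : ℂ) • cr b‖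
          ≤ ‖(inner ℂ (u k x) b : ℂ) • cr a‖ + ‖(inner ℂ (u k x) a : ℂ) • cr b‖ := norm_sub_le _ _
        _ = ‖(inner ℂ (u k x) b : ℂ)‖ * ‖a‖ + ‖(inner ℂ (u k x) a : ℂ)‖ * ‖b‖ := by
            rw [norm_smul, norm_smul, norm_cr, norm_cr]
        _ ≤ (β' * (1 / (1 + d x z) ^ m)) * α + (α' * (1 / (1 + d x z) ^ m)) * β := by
            gcongr
            · exact hb' k x
            · exact ha' k x
        _ = (α * β' + α' * β) * (1 / (1 + d x z) ^ m) := by ring
        _ ≤ _ := by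
            have : 0 ≤ α * β := by positivity
            exact mul_le_mul_of_nonneg_right (by linarith) hp.le
    · -- creator
      have e1 : ⁅cr a * cr b, gen RF u (k, true) x⁆ = 0 := by
        rw [gen_eq]
        simp only [if_true]
        have h1 : cr b * cr (u k x) = - (cr (u k x) * cr b) := eq_neg_of_add_eq_zero_left (cr_cr _ _)
        have h2 : cr (u k x) * cr a = - (cr a * cr (u k x)) := eq_neg_of_add_eq_zero_left (cr_cr _ _)
        rw [Ring.lie_def]
        calc cr a * cr b * cr (u k x) - cr (u k x) * (cr a * cr b)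
            = cr a * (cr b * cr (u k x)) - (cr (u k x) * cr a) * cr b := by noncomm_ring
          _ = 0 := by rw [h1, h2]; noncomm_ring
      rw [e1, norm_zero]
      positivity

/-- constants for a localised pair -/
noncomputable def cPair (Cs : ℝ) (K : ℕ → ℝ) (c0 c1 : ℕ → ℝ) (m : ℕ) : ℝ :=
  (c0 3 * Cs) * (c1 3 * Cs) + ((c0 3 * Cs) * (c1 (m + 3) * K m * Cs) +
    (c0 (m + 3) * K m * Cs) * (c1 3 * Cs))

/-- the pair creator of two localised vectors -/
theorem PC_pair0 (hS : Schur ν u d Cs K) (h : Reso ν (u 0)) {v0 v1 : L ι} {c0 c1 : ℕ → ℝ}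
    (h0 : LocV u d v0 z c0) (h1 : LocV u d v1 z c1) (m : ℕ) :
    PC RF u d m (cPair Cs K c0 c1 m) (cr v0 * cr v1) z :=
  PC_crcr (fun w => hS.d_nonneg w z) (h0.norm_le hS h) (h1.norm_le hS h)
    (fun k x => h0.inner_le hS h m k x) (fun k x => h1.inner_le hS h m k x)

/-- constants for the commutator of a localised pair with a one-body operator -/
noncomputable def cPairG (Cs : ℝ) (K : ℕ → ℝ) (q : ℕ) (c c0 c1 : ℕ → ℝ) (m : ℕ) : ℝ :=
  ((c0 (q + 3) * c 3 * Cs ^ 2) * (c1 3 * Cs) +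
    ((c0 (q + 3) * c 3 * Cs ^ 2) * (c1 (m + 3) * K m * Cs) +
    (c0 (m + q + 3) * (c (m + 3) * K m * Cs) * Cs) * (c1 3 * Cs))) +
  ((c0 3 * Cs) * (c1 (q + 3) * c 3 * Cs ^ 2) +
    ((c0 3 * Cs) * (c1 (m + q + 3) * (c (m + 3) * K m * Cs) * Cs) +
    (c0 (m + 3) * K m * Cs) * (c1 (q + 3) * c 3 * Cs ^ 2)))

/-- commutator of the pair creator of two localised vectors with a one-body operator -/
theorem PC_pair (hS : Schur ν u d Cs K) (h : Reso ν (u 0)) (hA : KBd u d A z q T c)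
    {v0 v1 : L ι} {c0 c1 : ℕ → ℝ}
    (h0 : LocV u d v0 z c0) (h1 : LocV u d v1 z c1) (m : ℕ) :
    PC RF u d m (cPairG Cs K q c c0 c1 m * T) ⁅dG A, cr v0 * cr v1⁆ z := by
  have e1 : ⁅dG A, cr v0 * cr v1⁆ = cr (mv A v0) * cr v1 + cr v0 * cr (mv A v1) := by
    rw [← dG_comm_cr A v0, ← dG_comm_cr A v1, Ring.lie_def]
    noncomm_ring
  rw [e1]
  have hd : ∀ w, 0 ≤ d w z := fun w => hS.d_nonneg w z
  have hT := hA.T_nonneg
  have k1 := PC_crcr (α := c0 (q + 3) * c 3 * Cs ^ 2 * T) (β := c1 3 * Cs)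
    (α' := c0 (m + q + 3) * (c (m + 3) * K m * Cs) * Cs * T) (β' := c1 (m + 3) * K m * Cs)
    hd (hA.mv_norm_le hS h h0) (h1.norm_le hS h)
    (fun k x => hA.mv_inner_le hS h h0 m k x) (fun k x => h1.inner_le hS h m k x)
  have k2 := PC_crcr (α := c0 3 * Cs) (β := c1 (q + 3) * c 3 * Cs ^ 2 * T)
    (α' := c0 (m + 3) * K m * Cs) (β' := c1 (m + q + 3) * (c (m + 3) * K m * Cs) * Cs * T)
    hd (h0.norm_le hS h) (hA.mv_norm_le hS h h1)
    (fun k x => h0.inner_le hS h m k x) (fun k x => hA.mv_inner_le hS h h1 m k x)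
  have k3 := k1.add k2
  refine k3.mono hd (le_of_eq ?_)
  unfold cPairG
  ring

/-- the basic double commutator estimate -/
theorem norm_lie_lie_mul_le {Y a b g : Op ι} {sa sb : ℂ} (hac : a * g + g * a = sa • 1)
    (hbc : b * g + g * b = sb • 1) {α ηa ηb ηc σa σb : ℝ} (ha : ‖a‖ ≤ α) (hb : ‖b‖ ≤ 1)
    (hg : ‖g‖ ≤ 1) (hYa : ‖⁅Y, a⁆‖ ≤ ηa) (hYb : ‖⁅Y, b⁆‖ ≤ ηb) (hYc : ‖⁅Y, g⁆‖ ≤ ηc)
    (hsa : ‖sa‖ ≤ σa) (hsb : ‖sb‖ ≤ σb) :
    ‖⁅⁅Y, a * b⁆, g⁆‖ ≤ ηa * σb + 2 * min ηa (α * ηc) + 2 * (α * min ηb ηc) + σa * ηb := by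
  have hα : 0 ≤ α := (norm_nonneg _).trans ha
  have hηa : 0 ≤ ηa := (norm_nonneg _).trans hYa
  have hηb : 0 ≤ ηb := (norm_nonneg _).trans hYb
  have hηc : 0 ≤ ηc := (norm_nonneg _).trans hYc
  -- anticommutators
  have hE : ∀ (x : Op ι) (s : ℂ), x * g + g * x = s • 1 → ⁅Y, x⁆ * g + g * ⁅Y, x⁆ =
      -(x * ⁅Y, g⁆ + ⁅Y, g⁆ * x) := by
    intro x s hx
    have h1 : ⁅Y, x * g + g * x⁆ = 0 := by rw [hx, Ring.lie_def]; simp
    have h2 : ⁅Y, x * g + g * x⁆ = (⁅Y, x⁆ * g + g * ⁅Y, x⁆) + (x * ⁅Y, g⁆ + ⁅Y, g⁆ * x) := by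
      simp only [Ring.lie_def]; noncomm_ring
    rw [h1] at h2
    exact eq_neg_of_add_eq_zero_left h2.symm
  have hN : ∀ (x : Op ι) (s : ℂ) (ξ η : ℝ), x * g + g * x = s • 1 → ‖x‖ ≤ ξ → ‖⁅Y, x⁆‖ ≤ η →
      ‖⁅Y, x⁆ * g + g * ⁅Y, x⁆‖ ≤ 2 * min η (ξ * ηc) := by
    intro x s ξ η hx hξ hη
    have hξ0 : 0 ≤ ξ := (norm_nonneg _).trans hξ
    have hη0 : 0 ≤ η := (norm_nonneg _).trans hη
    rw [mul_min_of_nonneg _ _ (by norm_num : (0:ℝ) ≤ 2)]
    refine le_min ?_ ?_
    · calc ‖⁅Y, x⁆ * g + g * ⁅Y, x⁆‖ ≤ ‖⁅Y, x⁆‖ * ‖g‖ + ‖g‖ * ‖⁅Y, x⁆‖ :=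
            (norm_add_le _ _).trans (add_le_add (norm_mul_le _ _) (norm_mul_le _ _))
        _ ≤ η * 1 + 1 * η := by gcongr
        _ = 2 * η := by ring
    · rw [hE x s hx, norm_neg]
      calc ‖x * ⁅Y, g⁆ + ⁅Y, g⁆ * x‖ ≤ ‖x‖ * ‖⁅Y, g⁆‖ + ‖⁅Y, g⁆‖ * ‖x‖ :=
            (norm_add_le _ _).trans (add_le_add (norm_mul_le _ _) (norm_mul_le _ _))
        _ ≤ ξ * ηc + ηc * ξ := by gcongr
        _ = 2 * (ξ * ηc) := by ring
  have e1 : ⁅⁅Y, a * b⁆, g⁆ = (⁅Y, a⁆ * (b * g + g * b) - (⁅Y, a⁆ * g + g * ⁅Y, a⁆) * b) +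
      (a * (⁅Y, b⁆ * g + g * ⁅Y, b⁆) - (a * g + g * a) * ⁅Y, b⁆) := by
    simp only [Ring.lie_def]; noncomm_ring
  rw [e1, hac, hbc]
  have na := hN a sa α ηa hac ha hYa
  have nb := hN b sb 1 ηb hbc hb hYb
  rw [one_mul] at nb
  have hm1 : 0 ≤ min ηa (α * ηc) := le_min hηa (by positivity)
  have hm2 : 0 ≤ min ηb ηc := le_min hηb hηc
  have hσa : 0 ≤ σa := (norm_nonneg _).trans hsa
  have hσb : 0 ≤ σb := (norm_nonneg _).trans hsb
  calc ‖(⁅Y, a⁆ * (sb • (1 : Op ι)) - (⁅Y, a⁆ * g + g * ⁅Y, a⁆) * b) +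
      (a * (⁅Y, b⁆ * g + g * ⁅Y, b⁆) - (sa • (1 : Op ι)) * ⁅Y, b⁆)‖
      ≤ (‖⁅Y, a⁆ * (sb • (1 : Op ι))‖ + ‖(⁅Y, a⁆ * g + g * ⁅Y, a⁆) * b‖) +
        (‖a * (⁅Y, b⁆ * g + g * ⁅Y, b⁆)‖ + ‖(sa • (1 : Op ι)) * ⁅Y, b⁆‖) :=
        (norm_add_le _ _).trans (add_le_add (norm_sub_le _ _) (norm_sub_le _ _))
    _ ≤ (σb * ηa + (2 * min ηa (α * ηc)) * 1) + (α * (2 * min ηb ηc) + σa * ηb) := by
        refine add_le_add (add_le_add ?_ ?_) (add_le_add ?_ ?_)
        · rw [mul_smul_comm, mul_one, norm_smul]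
          gcongr
        · refine (norm_mul_le _ _).trans ?_
          gcongr
        · refine (norm_mul_le _ _).trans ?_
          gcongr
        · rw [smul_mul_assoc, one_mul, norm_smul]
          gcongr
    _ = _ := by ring

theorem min_pow_le {C a b : ℝ} (hC : 0 ≤ C) (ha : 1 ≤ a) (hb : 1 ≤ b) (m n k : ℕ) :
    min (C * a ^ k * (1 / a ^ (m + k + n))) (C * a ^ k * (1 / b ^ (m + k + n))) ≤
      C * (1 / a ^ n) * (1 / b ^ m) := by
  have ha0 : 0 < a := by linarith
  have hb0 : 0 < b := by linarith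
  rcases le_total a b with h | h
  · refine (min_le_right _ _).trans ?_
    have h1 : a ^ k * (1 / b ^ (m + k + n)) ≤ (1 / a ^ n) * (1 / b ^ m) := by
      rw [mul_one_div, one_div_mul_one_div, div_le_div_iff₀ (by positivity) (by positivity), one_mul,
        pow_add, pow_add]
      have h2 : a ^ k ≤ b ^ k := pow_le_pow_left₀ ha0.le h k
      have h3 : a ^ n ≤ b ^ n := pow_le_pow_left₀ ha0.le h n
      calc a ^ k * (a ^ n * b ^ m) ≤ b ^ k * (b ^ n * b ^ m) := by gcongr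
        _ = _ := by ring
    calc C * a ^ k * (1 / b ^ (m + k + n)) = C * (a ^ k * (1 / b ^ (m + k + n))) := by ring
      _ ≤ C * ((1 / a ^ n) * (1 / b ^ m)) := by gcongr
      _ = _ := by ring
  · refine (min_le_left _ _).trans ?_
    have h1 : a ^ k * (1 / a ^ (m + k + n)) ≤ (1 / a ^ n) * (1 / b ^ m) := by
      rw [mul_one_div, one_div_mul_one_div, div_le_div_iff₀ (by positivity) (by positivity), one_mul,
        pow_add, pow_add]
      have h2 : b ^ m ≤ a ^ m := pow_le_pow_left₀ hb0.le h m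
      calc a ^ k * (a ^ n * b ^ m) ≤ a ^ k * (a ^ n * a ^ m) := by gcongr
        _ = _ := by ring
    calc C * a ^ k * (1 / a ^ (m + k + n)) = C * (a ^ k * (1 / a ^ (m + k + n))) := by ring
      _ ≤ C * ((1 / a ^ n) * (1 / b ^ m)) := by gcongr
      _ = _ := by ring

/-- constant of `PC_dG` -/
noncomputable def cDG (Cs : ℝ) (K : ℕ → ℝ) (q : ℕ) (c : ℕ → ℝ) (m : ℕ) : ℝ :=
  ((c (m + q + 6) * Cs) * K m + 2 * (c (m + q + 6) * Cs + c 3 * Cs) + 2 * (c 3 * Cs) +
    c (m + 3) * K m * Cs) * Cs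

theorem cDG_nonneg (hS : Schur ν u d Cs K) (hc : ∀ M, 0 ≤ c M) (m : ℕ) :
    0 ≤ cDG Cs K q c m := by
  have h1 := hS.Cs_nonneg
  have h2 := hS.K_nonneg m
  have h3 := hc (m + q + 6)
  have h4 := hc 3
  have h5 := hc (m + 3)
  unfold cDG
  positivity

/-- **Commutator of a quasi-local operator with a one-body operator.** -/
theorem PC_dG (hS : Schur ν u d Cs K) (h : Reso ν (u 0)) (hA : KBd u d A z q T c) {m : ℕ}
    {C : ℝ} {Y : Op ι} (hY : PC RF u d (m + q + 3) C Y z) :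
    PC RF u d m (cDG Cs K q c m * (C * T)) ⁅Y, dG A⁆ z := by
  have hC := hY.nonneg
  have hT := hA.T_nonneg
  have hCs := hS.Cs_nonneg
  have hK := hS.K_nonneg m
  have hc3 := hA.c_nonneg 3
  have hcm := hA.c_nonneg (m + 3)
  have hcq := hA.c_nonneg (m + q + 6)
  have hd : ∀ w, 0 ≤ d w z := fun w => hS.d_nonneg w z
  obtain ⟨hI, hE⟩ := dG_integral h A
  -- commutators with the components
  have ηb : ∀ w, ‖⁅Y, an (u 0 w)⁆‖ ≤ C * (1 / (1 + d w z) ^ (m + q + 3)) := by
    intro w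
    have := hY.2 (0, false) w
    rwa [gen_false, fcar_an, ← mul_one_div] at this
  have ηc : ∀ w, ‖⁅Y, cr (u 0 w)⁆‖ ≤ C * (1 / (1 + d w z) ^ (m + q + 3)) := by
    intro w
    have := hY.2 (0, true) w
    rwa [gen_true, fcar_cr, ← mul_one_div] at this
  have ηa : ∀ w, ‖⁅Y, cr (mv A (u 0 w))⁆‖ ≤
      (c (m + q + 6) * Cs * T * C) * (1 + d w z) ^ q * (1 / (1 + d w z) ^ (m + q + 3)) := by
    intro w
    have pw := hS.pos w z
    have h1 := reso_le3 hS h ((adC Y).comp crL) (mv A (u 0 w)) w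
      (B := c (m + q + 6) * T * C * (1 + d w z) ^ q * (1 / (1 + d w z) ^ (m + q + 3)))
      (by positivity) (by
        intro y
        have h2 := hA.le (m + q + 6) w y
        have h3 := ηc y
        have pyw := hS.pos y w
        have pwy := hS.pos w y
        have pyz := hS.pos y z
        have h4 := tri_pow hS (m + q + 3) w y z
        rw [ContinuousLinearMap.comp_apply, crL_apply, adC_apply]
        calc ‖(inner ℂ (u 0 y) (mv A (u 0 w)) : ℂ)‖ * ‖⁅Y, cr (u 0 y)⁆‖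
            ≤ (c (m + q + 6) * T * (1 + d w z) ^ q * (1 / (1 + d y w) ^ (m + q + 6))) *
              (C * (1 / (1 + d y z) ^ (m + q + 3))) := by gcongr
          _ = c (m + q + 6) * T * C * (1 + d w z) ^ q *
              (1 / (1 + d w y) ^ (m + q + 3) * (1 / (1 + d y z) ^ (m + q + 3))) *
              (1 / (1 + d w y) ^ 3) := by
              rw [hS.d_symm y w, show m + q + 6 = (m + q + 3) + 3 by ring, pow_add _ (m + q + 3) 3]
              field_simp
          _ ≤ c (m + q + 6) * T * C * (1 + d w z) ^ q * (1 / (1 + d w z) ^ (m + q + 3)) *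
              (1 / (1 + d w y) ^ 3) := by gcongr)
    rw [ContinuousLinearMap.comp_apply, crL_apply, adC_apply] at h1
    refine h1.trans (le_of_eq ?_)
    ring
  have hα : ∀ w, ‖cr (mv A (u 0 w))‖ ≤ (c 3 * Cs * T) * (1 + d w z) ^ q := by
    intro w
    rw [norm_cr]
    refine (hA.norm_le hS h w).trans (le_of_eq ?_)
    ring
  have hb1 : ∀ w, ‖an (u 0 w)‖ ≤ 1 := fun w => by rw [norm_an]; exact hS.u_le 0 w
  -- the commutator as an integral
  have hI1 : Integrable (fun w => ⁅Y, cr (mv A (u 0 w)) * an (u 0 w)⁆) ν := by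
    have := (adC Y).integrable_comp hI
    simpa only [adC_apply] using this
  have hE1 : ⁅Y, dG A⁆ = ∫ w, ⁅Y, cr (mv A (u 0 w)) * an (u 0 w)⁆ ∂ν := by
    have := (adC Y).integral_comp_comm hI
    simp only [adC_apply] at this
    rw [hE, this]
  have h3z := hS.int3 z
  have pz : ∀ w, 1 ≤ 1 + d w z := fun w => hS.one_le w z
  refine ⟨?_, ?_⟩
  · rw [hE1]
    have hpt : ∀ w, ‖⁅Y, cr (mv A (u 0 w)) * an (u 0 w)⁆‖ ≤
        ((c (m + q + 6) * Cs + c 3 * Cs) * (C * T)) * (1 / (1 + d z w) ^ 3) := by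
      intro w
      have pw := hS.pos w z
      have pw1 := pz w
      have e1 : ⁅Y, cr (mv A (u 0 w)) * an (u 0 w)⁆ =
          ⁅Y, cr (mv A (u 0 w))⁆ * an (u 0 w) + cr (mv A (u 0 w)) * ⁅Y, an (u 0 w)⁆ := by
        simp only [Ring.lie_def]; noncomm_ring
      have key : (1 + d w z) ^ q * (1 / (1 + d w z) ^ (m + q + 3)) ≤ 1 / (1 + d z w) ^ 3 := by
        rw [hS.d_symm z w, mul_one_div, div_le_div_iff₀ (by positivity) (by positivity), one_mul,
          ← pow_add]
        exact pow_le_pow_right₀ pw1 (by omega)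
      rw [e1]
      calc ‖⁅Y, cr (mv A (u 0 w))⁆ * an (u 0 w) + cr (mv A (u 0 w)) * ⁅Y, an (u 0 w)⁆‖
          ≤ ‖⁅Y, cr (mv A (u 0 w))⁆‖ * ‖an (u 0 w)‖ +
            ‖cr (mv A (u 0 w))‖ * ‖⁅Y, an (u 0 w)⁆‖ :=
            (norm_add_le _ _).trans (add_le_add (norm_mul_le _ _) (norm_mul_le _ _))
        _ ≤ ((c (m + q + 6) * Cs * T * C) * (1 + d w z) ^ q *
              (1 / (1 + d w z) ^ (m + q + 3))) * 1 +
            ((c 3 * Cs * T) * (1 + d w z) ^ q) * (C * (1 / (1 + d w z) ^ (m + q + 3))) := by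
            gcongr
            · exact ηa w
            · exact hb1 w
            · exact hα w
            · exact ηb w
        _ = ((c (m + q + 6) * Cs + c 3 * Cs) * (C * T)) *
            ((1 + d w z) ^ q * (1 / (1 + d w z) ^ (m + q + 3))) := by ring
        _ ≤ _ := by gcongr
    refine (norm_integral_le_of_norm_le (h3z.1.const_mul _)
      (Filter.Eventually.of_forall hpt)).trans ?_
    rw [integral_const_mul]
    calc ((c (m + q + 6) * Cs + c 3 * Cs) * (C * T)) * ∫ y, 1 / (1 + d z y) ^ 3 ∂ν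
        ≤ ((c (m + q + 6) * Cs + c 3 * Cs) * (C * T)) * Cs := by
          gcongr
          exact h3z.2
      _ ≤ _ := by
          unfold cDG
          have e1 : 0 ≤ (c (m + q + 6) * Cs * K m + (c (m + q + 6) * Cs + c 3 * Cs) +
            2 * (c 3 * Cs) + c (m + 3) * K m * Cs) * Cs * (C * T) := by positivity
          linarith
  · intro k x
    have hI2 : ∫ w, ⁅⁅Y, cr (mv A (u 0 w)) * an (u 0 w)⁆, gen RF u k x⁆ ∂ν =
        ⁅⁅Y, dG A⁆, gen RF u k x⁆ := by
      have h1 := (adC (gen RF u k x)).integral_comp_comm hI1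
      simp only [adC_apply] at h1
      rw [← hE1] at h1
      have h2 : ∀ X : Op ι, ⁅gen RF u k x, X⁆ = -⁅X, gen RF u k x⁆ := fun X => by
        simp only [Ring.lie_def]; abel
      simp only [h2] at h1
      rw [integral_neg] at h1
      exact neg_injective h1
    rw [← hI2]
    have px := hS.pos x z
    have px1 := hS.one_le x z
    -- scalars
    have hg1 : ‖gen RF u k x‖ ≤ 1 := DC867.norm_gen_le RF hS.u_le k x
    have ηg : ‖⁅Y, gen RF u k x⁆‖ ≤ C * (1 / (1 + d x z) ^ (m + q + 3)) := by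
      have := hY.2 k x
      rwa [← mul_one_div] at this
    have hs : ∀ w, ∃ sa sb : ℂ,
        cr (mv A (u 0 w)) * gen RF u k x + gen RF u k x * cr (mv A (u 0 w)) = sa • 1 ∧
        an (u 0 w) * gen RF u k x + gen RF u k x * an (u 0 w) = sb • 1 ∧
        ‖sa‖ ≤ c (m + 3) * K m * Cs * (T * (1 + d w z) ^ q) * (1 / (1 + d x w) ^ m) ∧
        ‖sb‖ ≤ K m * (1 / (1 + d x w) ^ m) := by
      intro w
      have pxw := hS.pos x w
      have pwz := hS.pos w z
      have h1 := hA.inner_le hS h m k.1 w x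
      have h2 : ‖(inner ℂ (u 0 w) (u k.1 x) : ℂ)‖ ≤ K m * (1 / (1 + d x w) ^ m) := by
        rw [norm_inner_symm]
        refine (norm_inner_le_kp k.1 0 x w).trans ?_
        have := hS.kp_le m w x
        rwa [hS.d_symm w x, ← mul_one_div] at this
      obtain ⟨k, t⟩ := k
      cases t
      · refine ⟨inner ℂ (u k x) (mv A (u 0 w)), 0, ?_, ?_, h1, ?_⟩
        · rw [gen_false, fcar_an]; exact Fock649.cr_an _ _
        · rw [gen_false, fcar_an, zero_smul]; exact Fock649.an_an _ _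
        · rw [norm_zero]; positivity
      · refine ⟨0, inner ℂ (u 0 w) (u k x), ?_, ?_, ?_, h2⟩
        · rw [gen_true, fcar_cr, zero_smul]; exact cr_cr _ _
        · rw [gen_true, fcar_cr]; exact Fock649.an_cr _ _
        · rw [norm_zero]; positivity
    have hpt : ∀ w, ‖⁅⁅Y, cr (mv A (u 0 w)) * an (u 0 w)⁆, gen RF u k x⁆‖ ≤
        (((c (m + q + 6) * Cs) * K m + 2 * (c (m + q + 6) * Cs + c 3 * Cs) + 2 * (c 3 * Cs) +
          c (m + 3) * K m * Cs) * (C * T) * (1 / (1 + d x z) ^ m)) * (1 / (1 + d z w) ^ 3) := by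
      intro w
      obtain ⟨sa, sb, hac, hbc, hsa, hsb⟩ := hs w
      have pw := hS.pos w z
      have pw1 := pz w
      have pxw := hS.pos x w
      have h1 := norm_lie_lie_mul_le hac hbc (hα w) (hb1 w) hg1 (ηa w) (ηb w) ηg hsa hsb
      refine h1.trans ?_
      have tri := tri_pow hS m x w z
      -- the four terms
      have key : (1 + d w z) ^ q * (1 / (1 + d w z) ^ (m + q + 3)) =
          1 / (1 + d w z) ^ m * (1 / (1 + d w z) ^ 3) := by
        rw [pow_add, pow_add]; field_simp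
      have t1 : (c (m + q + 6) * Cs * T * C) * (1 + d w z) ^ q *
          (1 / (1 + d w z) ^ (m + q + 3)) * (K m * (1 / (1 + d x w) ^ m)) ≤
          (c (m + q + 6) * Cs * K m) * (C * T) * (1 / (1 + d x z) ^ m) * (1 / (1 + d w z) ^ 3) := by
        calc (c (m + q + 6) * Cs * T * C) * (1 + d w z) ^ q *
              (1 / (1 + d w z) ^ (m + q + 3)) * (K m * (1 / (1 + d x w) ^ m))
            = (c (m + q + 6) * Cs * K m) * (C * T) * (1 / (1 + d x w) ^ m *
              ((1 + d w z) ^ q * (1 / (1 + d w z) ^ (m + q + 3)))) := by ring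
          _ = (c (m + q + 6) * Cs * K m) * (C * T) *
              (1 / (1 + d x w) ^ m * (1 / (1 + d w z) ^ m)) * (1 / (1 + d w z) ^ 3) := by
              rw [key]; ring
          _ ≤ _ := by gcongr
      have t4 : c (m + 3) * K m * Cs * (T * (1 + d w z) ^ q) * (1 / (1 + d x w) ^ m) *
          (C * (1 / (1 + d w z) ^ (m + q + 3))) ≤
          (c (m + 3) * K m * Cs) * (C * T) * (1 / (1 + d x z) ^ m) * (1 / (1 + d w z) ^ 3) := by
        calc c (m + 3) * K m * Cs * (T * (1 + d w z) ^ q) * (1 / (1 + d x w) ^ m) *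
              (C * (1 / (1 + d w z) ^ (m + q + 3)))
            = (c (m + 3) * K m * Cs) * (C * T) * (1 / (1 + d x w) ^ m *
              ((1 + d w z) ^ q * (1 / (1 + d w z) ^ (m + q + 3)))) := by ring
          _ = (c (m + 3) * K m * Cs) * (C * T) *
              (1 / (1 + d x w) ^ m * (1 / (1 + d w z) ^ m)) * (1 / (1 + d w z) ^ 3) := by
              rw [key]; ring
          _ ≤ _ := by gcongr
      have t2 : min ((c (m + q + 6) * Cs * T * C) * (1 + d w z) ^ q *
            (1 / (1 + d w z) ^ (m + q + 3)))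
          ((c 3 * Cs * T) * (1 + d w z) ^ q * (C * (1 / (1 + d x z) ^ (m + q + 3)))) ≤
          (c (m + q + 6) * Cs + c 3 * Cs) * (C * T) * (1 / (1 + d x z) ^ m) *
            (1 / (1 + d w z) ^ 3) := by
        have h2 := min_pow_le (C := (c (m + q + 6) * Cs + c 3 * Cs) * (C * T)) (a := 1 + d w z)
          (b := 1 + d x z) (by positivity) pw1 px1 m 3 q
        refine le_trans (min_le_min ?_ ?_) (h2.trans (le_of_eq ?_))
        · have e1 : 0 ≤ (c 3 * Cs) * (C * T) * (1 + d w z) ^ q *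
              (1 / (1 + d w z) ^ (m + q + 3)) := by positivity
          linarith
        · have e1 : 0 ≤ (c (m + q + 6) * Cs) * (C * T) * (1 + d w z) ^ q *
              (1 / (1 + d x z) ^ (m + q + 3)) := by positivity
          linarith
        · ring
      have t3 : (c 3 * Cs * T) * (1 + d w z) ^ q *
          min (C * (1 / (1 + d w z) ^ (m + q + 3))) (C * (1 / (1 + d x z) ^ (m + q + 3))) ≤
          (c 3 * Cs) * (C * T) * (1 / (1 + d x z) ^ m) * (1 / (1 + d w z) ^ 3) := by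
        have h2 := min_pow_le (C := (c 3 * Cs) * (C * T)) (a := 1 + d w z)
          (b := 1 + d x z) (by positivity) pw1 px1 m 3 q
        have e0 : 0 ≤ (c 3 * Cs * T) * (1 + d w z) ^ q := by positivity
        rw [mul_min_of_nonneg _ _ e0]
        refine le_trans (min_le_min (le_of_eq ?_) (le_of_eq ?_)) (h2.trans (le_of_eq ?_))
        · ring
        · ring
        · ring
      rw [hS.d_symm z w]
      linarith
    refine (norm_integral_le_of_norm_le (h3z.1.const_mul _)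
      (Filter.Eventually.of_forall hpt)).trans ?_
    rw [integral_const_mul]
    calc (((c (m + q + 6) * Cs) * K m + 2 * (c (m + q + 6) * Cs + c 3 * Cs) + 2 * (c 3 * Cs) +
          c (m + 3) * K m * Cs) * (C * T) * (1 / (1 + d x z) ^ m)) *
          ∫ y, 1 / (1 + d z y) ^ 3 ∂ν
        ≤ (((c (m + q + 6) * Cs) * K m + 2 * (c (m + q + 6) * Cs + c 3 * Cs) + 2 * (c 3 * Cs) +
          c (m + 3) * K m * Cs) * (C * T) * (1 / (1 + d x z) ^ m)) * Cs := by
          gcongr
          exact h3z.2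
      _ = _ := by
          unfold cDG
          ring

end pc

end Crest.Agent.R340.Tz877
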