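import Crest.Agent.R340.Tz3_877
import Crest.Agent.R340.Filt2_867
import Crest.Agent.R340.LR5_667

/-!
# Row 340, block O10: the local operators `T_z` (helper877)

`Top g H v1 v0 X B = -i ⁅dG X, b^*⁆ ⁅b, SS g H (dG B)⁆`, `b = an v1 * an v0`.
`cluster_Top`: `P dG(G) (1-P) dG(F) P = ∫ P Top_z P dμ(z)` when `H = ∫ b_z^* b_z dμ(z)` and
`G - X_z`, `F - B_z` commute with `H, P`.
`PC_Top`: `Top_z` is in the profile class with constant `∝ T₁ T₂`.
-/

set_option autoImplicit false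
set_option linter.unusedSectionVars false

open MeasureTheory

namespace Crest.Agent.R340.Tz877

open Crest.Agent.R340.Fock649 Crest.Agent.R340.QL331 Crest.Agent.R340.LR667
open Crest.Agent.R340.DC867 (gen gen_false gen_true)
open Crest.Agent.R340.LocT163 (Reso crL crL_apply)
open Crest.Agent.R340.Filt867 (ev_iff_commute Ev_tau Ev_SS)

variable {ι : Type*} [Fintype ι] [LinearOrder ι] {S : Type*} [MeasurableSpace S]

/-- the Fock representation -/
local notation "RF" => (fcar : Car (Op ι) (L ι))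

/-! ### parity and number -/

theorem Ev_cr_an (v w : L ι) : Car.Ev RF (cr v * an w) :=
  Car.ev_odd_mul_odd RF (by rw [← fcar_cr]; exact Car.par_cr RF v)
    (by rw [← fcar_an]; exact Car.par_an RF w)

theorem Ev_an_an (v w : L ι) : Car.Ev RF (an v * an w) :=
  Car.ev_odd_mul_odd RF (by rw [← fcar_an]; exact Car.par_an RF v)
    (by rw [← fcar_an]; exact Car.par_an RF w)

theorem Ev_cr_cr (v w : L ι) : Car.Ev RF (cr v * cr w) :=
  Car.ev_odd_mul_odd RF (by rw [← fcar_cr]; exact Car.par_cr RF v)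
    (by rw [← fcar_cr]; exact Car.par_cr RF w)

theorem Ev_sum {σ : Type*} (s : Finset σ) (f : σ → Op ι) (h : ∀ k ∈ s, Car.Ev RF (f k)) :
    Car.Ev RF (∑ k ∈ s, f k) := by
  classical
  induction s using Finset.induction_on with
  | empty => rw [Finset.sum_empty]; exact Car.ev_zero RF
  | insert a s ha ih =>
    rw [Finset.sum_insert ha]
    exact Car.Ev.add (h a (Finset.mem_insert_self _ _))
      (ih fun k hk => h k (Finset.mem_insert_of_mem hk))

theorem Ev_dG (A : Matrix ι ι ℂ) : Car.Ev RF (dG A) := by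
  rw [dG_eq_sum]
  refine Ev_sum _ _ fun j _ => ?_
  rw [← an_e]
  exact Ev_cr_an _ _

theorem Ev_lie {X Y : Op ι} (hX : Car.Ev RF X) (hY : Car.Ev RF Y) : Car.Ev RF ⁅X, Y⁆ :=
  Car.Ev.br hX hY

/-! ### the filtered one-body operator -/

/-- evolution in the profile class (no loss of exponent, polynomial in time) -/
def Evo (u : Fin 2 → S → L ι) (d : S → S → ℝ) (H : Op ι) (E : ℕ → ℝ) (p : ℕ → ℕ) : Prop :=
  ∀ (m : ℕ) (C : ℝ) (X : Op ι) (x : S), Car.Ev RF X → PC RF u d m C X x →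
    ∀ t : ℝ, PC RF u d m (E m * (1 + |t|) ^ (p m) * C) (tau H t X) x

section filt

variable {ν : Measure S} {u : Fin 2 → S → L ι} {d : S → S → ℝ} {Cs : ℝ} {K : ℕ → ℝ}
  {A : Matrix ι ι ℂ} {z : S} {q : ℕ} {T : ℝ} {c : ℕ → ℝ} {g : ℝ → ℝ} {H : Op ι}
  {E : ℕ → ℝ} {p : ℕ → ℕ}

/-- commutators with evolved one-body operators -/
theorem PC_tau_dG (hS : Schur ν u d Cs K) (h : Reso ν (u 0))
    (hth : Commute H (Car.th RF)) (hE : Evo u d H E p) (hA : KBd u d A z q T c) {m : ℕ}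
    {C : ℝ} {Y : Op ι} (hYe : Car.Ev RF Y) (hY : PC RF u d (m + q + 3) C Y z) (s : ℝ) :
    PC RF u d m (E m * cDG Cs K q c m * E (m + q + 3) * (C * T) *
      (1 + |s|) ^ (p m + p (m + q + 3))) ⁅Y, tau H s (dG A)⁆ z := by
  have h1 := hE (m + q + 3) C Y z hYe hY (-s)
  have h2 := PC_dG hS h hA h1
  have h3 := hE m _ _ z (Ev_lie (Ev_tau RF hth hYe (-s)) (Ev_dG A)) h2 s
  rw [tau_lie, tau_tau_neg, abs_neg] at h3
  refine h3.mono (fun w => hS.d_nonneg w z) (le_of_eq ?_)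
  rw [pow_add]
  ring

/-- real multiples -/
theorem PC_rsmul {m : ℕ} {C : ℝ} {X : Op ι} (h : PC RF u d m C X z) (r : ℝ) :
    PC RF u d m (|r| * C) (r • X) z := by
  have e : r • X = (r : ℂ) • X := (Complex.coe_smul r X).symm
  rw [e]
  have := h.smul (r : ℂ)
  rwa [Complex.norm_real, Real.norm_eq_abs] at this

/-- interval integrals of continuous families -/
theorem PC_interval {m : ℕ} {F : ℝ → Op ι} (hF : Continuous F) {κ : ℝ} {e : ℕ}
    (hκ : 0 ≤ κ) (hd : ∀ w, 0 ≤ d w z)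
    (h : ∀ s, PC RF u d m (κ * (1 + |s|) ^ e) (F s) z) (t : ℝ) :
    PC RF u d m (κ * (|t| * (1 + |t|) ^ e)) (∫ s in (0 : ℝ)..t, F s) z := by
  have hs : ∀ s ∈ Set.uIoc (0 : ℝ) t, (1 + |s|) ^ e ≤ (1 + |t|) ^ e := by
    intro s hs
    have h1 : |s| ≤ |t| := by
      rcases Set.mem_uIoc.1 hs with h | h
      · rw [abs_of_pos h.1, abs_of_pos (h.1.trans_le h.2)]; exact h.2
      · rw [abs_of_nonpos h.2, abs_of_neg (h.1.trans_le h.2)]; linarith [h.1]
    gcongr
  refine ⟨?_, fun k x => ?_⟩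
  · have h1 := intervalIntegral.norm_integral_le_of_norm_le_const (a := 0) (b := t) (f := F)
      (C := κ * (1 + |t|) ^ e) (fun s hs' => ((h s).1).trans (by
        have := hs s hs'
        gcongr))
    rw [sub_zero] at h1
    refine h1.trans (le_of_eq ?_)
    ring
  · have px : 0 < 1 + d x z := by linarith [hd x]
    have e1 : ⁅∫ s in (0 : ℝ)..t, F s, gen RF u k x⁆ = ∫ s in (0 : ℝ)..t, ⁅F s, gen RF u k x⁆ := by
      have h1 := ContinuousLinearMap.intervalIntegral_comp_comm (μ := volume)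
        (adL (gen RF u k x)) (hF.intervalIntegrable 0 t)
      simp only [adL_apply] at h1
      have h2 : ∀ X : Op ι, ⁅gen RF u k x, X⁆ = -⁅X, gen RF u k x⁆ := fun X => by
        simp only [Ring.lie_def]; abel
      simp only [h2] at h1
      rw [intervalIntegral.integral_neg] at h1
      exact (neg_injective h1).symm
    rw [e1]
    have h1 := intervalIntegral.norm_integral_le_of_norm_le_const (a := 0) (b := t)
      (f := fun s => ⁅F s, gen RF u k x⁆)
      (C := κ * (1 + |t|) ^ e / (1 + d x z) ^ m) (fun s hs' => ((h s).2 k x).trans (by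
        have := hs s hs'
        gcongr))
    rw [sub_zero] at h1
    refine h1.trans (le_of_eq ?_)
    ring

/-- constant of `PC_SS_dG` -/
noncomputable def cSS (Cs : ℝ) (K : ℕ → ℝ) (q : ℕ) (c : ℕ → ℝ) (g : ℝ → ℝ) (E : ℕ → ℝ)
    (p : ℕ → ℕ) (m : ℕ) : ℝ :=
  E m * cDG Cs K q c m * E (m + q + 3) * gconst g (p m + p (m + q + 3))

theorem cSS_nonneg (hS : Schur ν u d Cs K) (hc : ∀ M, 0 ≤ c M) (hE0 : ∀ m, 0 ≤ E m) (m : ℕ) :
    0 ≤ cSS Cs K q c g E p m := by
  have h1 := cDG_nonneg (q := q) hS hc m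
  have h2 := hE0 m
  have h3 := hE0 (m + q + 3)
  have h4 := gconst_nonneg g (p m + p (m + q + 3))
  unfold cSS
  positivity

/-- **commutator of a quasi-local operator with the filtered primitive of a one-body operator** -/
theorem PC_SS_dG (hS : Schur ν u d Cs K) (h : Reso ν (u 0)) (hg : IsFilter g)
    (hH : IsSelfAdjoint H) (hth : Commute H (Car.th RF)) (hE0 : ∀ m, 0 ≤ E m)
    (hE : Evo u d H E p) (hA : KBd u d A z q T c) {m : ℕ}
    {C : ℝ} {Y : Op ι} (hYe : Car.Ev RF Y) (hY : PC RF u d (m + q + 3) C Y z) :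
    PC RF u d m (cSS Cs K q c g E p m * (C * T)) ⁅Y, SS g H (dG A)⁆ z := by
  have hd : ∀ w, 0 ≤ d w z := fun w => hS.d_nonneg w z
  have hC := hY.nonneg
  have hT := hA.T_nonneg
  set κ : ℝ := E m * cDG Cs K q c m * E (m + q + 3) * (C * T) with hκ
  have hκ0 : 0 ≤ κ := by
    have h1 := cDG_nonneg (q := q) hS hA.c_nonneg m
    have h2 := hE0 m
    have h3 := hE0 (m + q + 3)
    positivity
  have e1 : ∀ t, ⁅Y, Tt H t (dG A)⁆ = ∫ s in (0 : ℝ)..t, ⁅Y, tau H s (dG A)⁆ := by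
    intro t
    have h1 := ContinuousLinearMap.intervalIntegral_comp_comm (μ := volume)
      (adL Y) ((continuous_tau H (dG A)).intervalIntegrable 0 t)
    simp only [adL_apply] at h1
    rw [h1]
    rfl
  have e2 : ⁅Y, SS g H (dG A)⁆ = ∫ t, g t • ⁅Y, Tt H t (dG A)⁆ := by
    have h1 := (adL Y).integral_comp_comm (integrable_SS hg hH (dG A))
    simp only [map_smul, adL_apply] at h1
    rw [h1]
    rfl
  have hcont : Continuous fun s => ⁅Y, tau H s (dG A)⁆ := by
    have h1 := (adL Y).continuous.comp (continuous_tau H (dG A))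
    simpa only [Function.comp_def, adL_apply] using h1
  have h3 : ∀ t, PC RF u d m (|g t| * (κ * (|t| * (1 + |t|) ^ (p m + p (m + q + 3)))))
      (g t • ⁅Y, Tt H t (dG A)⁆) z := by
    intro t
    rw [e1]
    exact PC_rsmul (PC_interval hcont hκ0 hd
      (fun s => PC_tau_dG hS h hth hE hA hYe hY s) t) (g t)
  have hint : Integrable fun t => |g t| * (κ * (|t| * (1 + |t|) ^ (p m + p (m + q + 3)))) := by
    refine ((integrable_gconst hg (p m + p (m + q + 3))).const_mul κ).congr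
      (Filter.Eventually.of_forall fun t => ?_)
    simp only
    ring
  have h4 := PC_integral hd hint h3
  rw [e2]
  refine h4.mono hd (le_of_eq ?_)
  have e3 : ∫ t, |g t| * (κ * (|t| * (1 + |t|) ^ (p m + p (m + q + 3)))) =
      κ * gconst g (p m + p (m + q + 3)) := by
    unfold gconst
    rw [← integral_const_mul]
    congr 1
    funext t
    ring
  rw [e3, hκ]
  unfold cSS
  ring

end filt

/-! ### the operators `T_z` -/

/-- the local operator of the strong pass -/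
noncomputable def Top (g : ℝ → ℝ) (H : Op ι) (v1 v0 : L ι) (X B : Matrix ι ι ℂ) : Op ι :=
  -(Complex.I • (⁅dG X, star (an v1 * an v0)⁆ * ⁅an v1 * an v0, SS g H (dG B)⁆))

theorem star_pair (v1 v0 : L ι) : star (an v1 * an v0) = cr v0 * cr v1 := by
  rw [star_mul, star_an, star_an]

theorem Ev_Top {g : ℝ → ℝ} (hg : IsFilter g) {H : Op ι} (hH : IsSelfAdjoint H)
    (hth : Commute H (Car.th RF)) (v1 v0 : L ι) (X B : Matrix ι ι ℂ) :
    Car.Ev RF (Top g H v1 v0 X B) := by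
  unfold Top
  refine Car.Ev.neg (Car.Ev.smul _ (Car.Ev.mul ?_ ?_))
  · rw [star_pair]; exact Ev_lie (Ev_dG X) (Ev_cr_cr _ _)
  · exact Ev_lie (Ev_an_an _ _) (Ev_SS RF hg hH hth (Ev_dG B))

theorem SS_sub' {g : ℝ → ℝ} (hg : IsFilter g) {H : Op ι} (hH : IsSelfAdjoint H) (X Y : Op ι) :
    SS g H (X - Y) = SS g H X - SS g H Y := by
  have h := SS_add hg hH (X - Y) Y
  rw [sub_add_cancel] at h
  rw [h, add_sub_cancel_right]

section cluster

variable {μ : Measure S} {g : ℝ → ℝ} {H P : Op ι} {v1 v0 : S → L ι} {X B : Matrix ι ι ℂ}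
  {Xz Bz : S → Matrix ι ι ℂ}

/-- pointwise identity under `P` -/
theorem P_Top_P (hg : IsFilter g) (hH : IsSelfAdjoint H) (hP : IsSelfAdjoint P) {w1 w0 : L ι}
    (hbP : an w1 * an w0 * P = 0) {X' B' : Matrix ι ι ℂ}
    (hX : Commute P (dG X - dG X')) (hBH : Commute H (dG B - dG B'))
    (hBP : Commute P (dG B - dG B')) :
    P * Top g H w1 w0 X' B' * P =
      -(Complex.I • (P * ⁅dG X, star (an w1 * an w0)⁆ * (⁅an w1 * an w0, SS g H (dG B)⁆ * P))) := by
  set b := an w1 * an w0 with hb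
  have hPb : P * star b = 0 := by
    have := congrArg star hbP
    rwa [star_mul, hP.star_eq, star_zero] at this
  have e1 : P * ⁅dG X, star b⁆ = P * ⁅dG X', star b⁆ := by
    have h1 : P * ⁅dG X - dG X', star b⁆ = 0 := by
      rw [Ring.lie_def, mul_sub, ← mul_assoc, hX.eq, mul_assoc, hPb, mul_zero, ← mul_assoc, hPb,
        zero_mul, sub_zero]
    have h2 : ⁅dG X, star b⁆ = ⁅dG X - dG X', star b⁆ + ⁅dG X', star b⁆ := by
      simp only [Ring.lie_def]; noncomm_ring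
    rw [h2, mul_add, h1, zero_add]
  have e2 : ⁅b, SS g H (dG B)⁆ * P = ⁅b, SS g H (dG B')⁆ * P := by
    have h0 : SS g H (dG B) = SS g H (dG B - dG B') + SS g H (dG B') := by
      rw [← SS_add hg hH, sub_add_cancel]
    have h1 : ⁅b, SS g H (dG B - dG B')⁆ * P = 0 := by
      rw [SS_of_commute hBH, Ring.lie_def, mul_smul_comm, smul_mul_assoc, sub_mul, smul_mul_assoc,
        smul_mul_assoc, mul_assoc, ← hBP.eq, ← mul_assoc, hbP, zero_mul, smul_zero, mul_assoc,
        hbP, mul_zero, smul_zero, sub_zero]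
    have h2 : ⁅b, SS g H (dG B)⁆ = ⁅b, SS g H (dG B - dG B')⁆ + ⁅b, SS g H (dG B')⁆ := by
      rw [h0]; simp only [Ring.lie_def]; noncomm_ring
    rw [h2, add_mul, h1, zero_add]
  rw [e1, e2]
  unfold Top
  simp only [mul_neg, neg_mul, mul_smul_comm, smul_mul_assoc, mul_assoc, ← hb]

/-- **the `T_z` decomposition** -/
theorem cluster_Top (hg : IsFilter g) (hH : IsSelfAdjoint H) (hP : IsSelfAdjoint P)
    (hHP : H * P = 0) (hkill : ∫ t, g t • (U H t * (1 - P)) = 0)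
    (hb : Integrable (fun z => star (an (v1 z) * an (v0 z)) * (an (v1 z) * an (v0 z))) μ)
    (hHb : H = ∫ z, star (an (v1 z) * an (v0 z)) * (an (v1 z) * an (v0 z)) ∂μ)
    (hbP : ∀ z, an (v1 z) * an (v0 z) * P = 0)
    (hX : ∀ z, Commute P (dG X - dG (Xz z))) (hBH : ∀ z, Commute H (dG B - dG (Bz z)))
    (hBP : ∀ z, Commute P (dG B - dG (Bz z))) :
    P * dG X * (1 - P) * dG B * P =
      ∫ z, P * Top g H (v1 z) (v0 z) (Xz z) (Bz z) * P ∂μ := by
  rw [cluster_eq μ hg hH hP hHP hkill hb hHb hbP (dG X) (dG B), ← integral_smul, ← integral_neg]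
  congr 1
  funext z
  exact (P_Top_P hg hH hP (hbP z) (hX z) (hBH z) (hBP z)).symm

end cluster

section class_

variable {ν : Measure S} {u : Fin 2 → S → L ι} {d : S → S → ℝ} {Cs : ℝ} {K : ℕ → ℝ}
  {X B : Matrix ι ι ℂ} {z : S} {q : ℕ} {T1 T2 : ℝ} {c : ℕ → ℝ} {g : ℝ → ℝ} {H : Op ι}
  {E : ℕ → ℝ} {p : ℕ → ℕ} {v0 v1 : L ι} {c0 c1 : ℕ → ℝ}

/-- the constant of `PC_Top` -/
noncomputable def cTop (Cs : ℝ) (K : ℕ → ℝ) (q : ℕ) (c c0 c1 : ℕ → ℝ) (g : ℝ → ℝ) (E : ℕ → ℝ)
    (p : ℕ → ℕ) (m : ℕ) : ℝ :=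
  2 * (cPairG Cs K q c c0 c1 m * (cSS Cs K q c g E p m * cPair Cs K c0 c1 (m + q + 3)))

/-- **profile class of `T_z`** -/
theorem PC_Top (hS : Schur ν u d Cs K) (h : Reso ν (u 0)) (hg : IsFilter g)
    (hH : IsSelfAdjoint H) (hth : Commute H (Car.th RF)) (hE0 : ∀ m, 0 ≤ E m)
    (hE : Evo u d H E p) (h0 : LocV u d v0 z c0) (h1 : LocV u d v1 z c1)
    (hX : KBd u d X z q T1 c) (hB : KBd u d B z q T2 c) (m : ℕ) :
    PC RF u d m (cTop Cs K q c c0 c1 g E p m * (T1 * T2)) (Top g H v1 v0 X B) z := by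
  have hd : ∀ w, 0 ≤ d w z := fun w => hS.d_nonneg w z
  have k1 := PC_pair hS h hX h0 h1 m
  have k2 : PC RF u d (m + q + 3) (cPair Cs K c0 c1 (m + q + 3)) (an v1 * an v0) z := by
    have := (PC_pair0 hS h h0 h1 (m + q + 3)).star
    rwa [← star_pair, star_star] at this
  have k3 := PC_SS_dG hS h hg hH hth hE0 hE hB (Ev_an_an v1 v0) k2
  have k4 := (k1.mul hd k3).smul (-Complex.I)
  rw [norm_neg, Complex.norm_I, one_mul] at k4
  have e : Top g H v1 v0 X B = (-Complex.I) • (⁅dG X, cr v0 * cr v1⁆ *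
      ⁅an v1 * an v0, SS g H (dG B)⁆) := by
    unfold Top
    rw [star_pair, neg_smul]
  rw [e]
  refine k4.mono hd (le_of_eq ?_)
  unfold cTop
  ring

end class_

end Crest.Agent.R340.Tz877
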