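import Crest.Agent.R340.Tz2_877

/-!
# Row 340, block O10: kernel bounds of linearised radial functions about another centre (helper877)

`LinD Q G α β K C CL` : linearisation data of a radial function; `kb_exists`: matrix elements of
`G - α_z - β_z (i - m_z)` between coherent vectors `g, h`: growth `(1+D(z,g))^12`, decay
`(1+D(g,h))^{-M}`, size `(1+V_z) K(m_z)`.
-/

set_option autoImplicit false

namespace Crest.Agent.R340.Tz877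

open Finset Complex MeasureTheory

section basic

variable {g0 g1 h0 h1 z0 z1 : ℂ}

/-- matrix element between coherent vectors -/
noncomputable def ME (g0 g1 h0 h1 : ℂ) (Q : ℕ) (G : ℕ → ℝ) : ℂ :=
  ∑ i ∈ range (Q + 1), (Q.choose i : ℂ) * ((starRingEnd ℂ) h0 * g0) ^ i *
      ((starRingEnd ℂ) h1 * g1) ^ (Q - i) * ((G i : ℝ) : ℂ)

theorem ME_add (Q : ℕ) (G F : ℕ → ℝ) : ME g0 g1 h0 h1 Q (fun i => G i + F i) =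
    ME g0 g1 h0 h1 Q G + ME g0 g1 h0 h1 Q F := by
  unfold ME
  rw [← sum_add_distrib]
  refine sum_congr rfl fun i _ => ?_
  push_cast
  ring

theorem ME_smul (Q : ℕ) (c : ℝ) (G : ℕ → ℝ) : ME g0 g1 h0 h1 Q (fun i => c * G i) =
    (c : ℂ) * ME g0 g1 h0 h1 Q G := by
  unfold ME
  rw [mul_sum]
  refine sum_congr rfl fun i _ => ?_
  push_cast
  ring

theorem ME_congr {Q : ℕ} {G F : ℕ → ℝ} (h : ∀ i ≤ Q, G i = F i) :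
    ME g0 g1 h0 h1 Q G = ME g0 g1 h0 h1 Q F := by
  unfold ME
  refine sum_congr rfl fun i hi => ?_
  rw [h i (Nat.lt_succ_iff.1 (mem_range.1 hi))]

theorem ME_one (Q : ℕ) : ME g0 g1 h0 h1 Q (fun _ => 1) = ov g0 g1 h0 h1 1 ^ Q := by
  unfold ME ov
  rw [← sum_choose]
  refine sum_congr rfl fun i _ => ?_
  push_cast
  ring

theorem ME_lin (Q : ℕ) (hg : ‖g0‖ ^ 2 + ‖g1‖ ^ 2 = 1) :
    ME g0 g1 h0 h1 (Q + 1) (fun i => (i : ℝ) - (Q + 1 : ℕ) * ‖g0‖ ^ 2) =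
      -(ov g0 g1 h0 h1 1 ^ Q * (((Q + 1 : ℕ) : ℂ) *
        (g0 * g1 * (starRingEnd ℂ) (o01 g0 g1 h0 h1 1)))) := by
  have h1' := sum_choose_one Q ((starRingEnd ℂ) h1 * g1) ((starRingEnd ℂ) h0 * g0)
  have h0' := sum_choose (Q + 1) ((starRingEnd ℂ) h1 * g1) ((starRingEnd ℂ) h0 * g0)
  have hl := lin_identity (h0 := h0) (h1 := h1) 1 hg ((Q + 1 : ℕ) : ℂ)
  have hov : ov g0 g1 h0 h1 1 = (starRingEnd ℂ) h1 * g1 + (starRingEnd ℂ) h0 * g0 := by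
    unfold ov; push_cast; ring
  have e1 : ME g0 g1 h0 h1 (Q + 1) (fun i => (i : ℝ) - (Q + 1 : ℕ) * ‖g0‖ ^ 2) =
      (∑ i ∈ range (Q + 2), ((Q + 1).choose i : ℂ) * ((starRingEnd ℂ) h0 * g0) ^ i *
        ((starRingEnd ℂ) h1 * g1) ^ (Q + 1 - i) * (i : ℂ)) -
      (((Q + 1 : ℕ) : ℂ) * (‖g0‖ ^ 2 : ℝ)) *
      ∑ i ∈ range (Q + 1 + 1), ((Q + 1).choose i : ℂ) * ((starRingEnd ℂ) h0 * g0) ^ i *
        ((starRingEnd ℂ) h1 * g1) ^ (Q + 1 - i) := by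
    unfold ME
    rw [mul_sum, ← sum_sub_distrib]
    refine sum_congr rfl fun i _ => ?_
    push_cast
    ring
  rw [e1, h1', h0', ← hl, hov]
  push_cast
  ring

theorem norm_ov_one_pow_le (hg : ‖g0‖ ^ 2 + ‖g1‖ ^ 2 = 1) (hh : ‖h0‖ ^ 2 + ‖h1‖ ^ 2 = 1) (n : ℕ) :
    ‖ov g0 g1 h0 h1 1‖ ^ n ≤ Real.exp (-((n : ℝ) / 2 * dd g0 g1 h0 h1 ^ 2)) := by
  have h := norm_ov_pow_le (g0 := g0) (g1 := g1) (h0 := h0) (h1 := h1) zero_le_one le_rfl hg hh n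
  refine h.trans (le_of_eq ?_)
  congr 3
  have e : ‖o10 g0 g1 h0 h1 1‖ = dd g0 g1 h0 h1 := by
    unfold o10 dd
    rw [← norm_neg]
    congr 1
    push_cast
    ring
  rw [e]
  ring

theorem dd_nonneg : 0 ≤ dd g0 g1 h0 h1 := norm_nonneg _

theorem dd_le_one (hg : ‖g0‖ ^ 2 + ‖g1‖ ^ 2 = 1) (hh : ‖h0‖ ^ 2 + ‖h1‖ ^ 2 = 1) :
    dd g0 g1 h0 h1 ≤ 1 := by
  have h := normSq_ov_add (g0 := g0) (g1 := g1) 1 hh
  have e : ‖o10 g0 g1 h0 h1 1‖ = dd g0 g1 h0 h1 := by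
    unfold o10 dd
    rw [← norm_neg]
    congr 1
    push_cast
    ring
  rw [e] at h
  nlinarith [sq_nonneg ‖ov g0 g1 h0 h1 1‖, dd_nonneg (g0 := g0) (g1 := g1) (h0 := h0) (h1 := h1)]

theorem exists_basic (M : ℕ) : ∃ C : ℝ, 0 < C ∧ ∀ (g0 g1 h0 h1 : ℂ),
    ‖g0‖ ^ 2 + ‖g1‖ ^ 2 = 1 → ‖h0‖ ^ 2 + ‖h1‖ ^ 2 = 1 → ∀ Q : ℕ,
    (1 + Real.sqrt Q * dd g0 g1 h0 h1) ^ M * ‖ME g0 g1 h0 h1 Q (fun _ => 1)‖ ≤ C ∧
    (1 + Real.sqrt Q * dd g0 g1 h0 h1) ^ M *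
      ‖ME g0 g1 h0 h1 Q (fun i => (i : ℝ) - Q * ‖g0‖ ^ 2)‖ ≤
        C * Real.sqrt (Q * ‖g0‖ ^ 2 * ‖g1‖ ^ 2) := by
  obtain ⟨C, hC, hC'⟩ := exists_gauss (M + 1)
  refine ⟨C * 2 , by positivity, ?_⟩
  intro g0 g1 h0 h1 hg hh Q
  set D := Real.sqrt Q * dd g0 g1 h0 h1 with hD
  have hD0 : 0 ≤ D := mul_nonneg (Real.sqrt_nonneg _) dd_nonneg
  have hD2 : D ^ 2 = Q * dd g0 g1 h0 h1 ^ 2 := by
    rw [hD, mul_pow, Real.sq_sqrt (Nat.cast_nonneg _)]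
  have hG := hC' D hD0
  constructor
  · rw [ME_one, norm_pow]
    have k1 := norm_ov_one_pow_le hg hh Q
    calc (1 + D) ^ M * ‖ov g0 g1 h0 h1 1‖ ^ Q
        ≤ (1 + D) ^ (M + 1) * Real.exp (-D ^ 2 / 24) := by
          gcongr ?_ * ?_
          · exact pow_le_pow_right₀ (by linarith) (Nat.le_succ M)
          · refine k1.trans (Real.exp_le_exp.2 ?_)
            rw [hD2]
            nlinarith [mul_nonneg (Nat.cast_nonneg Q : (0:ℝ) ≤ Q) (sq_nonneg (dd g0 g1 h0 h1))]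
      _ ≤ C := hG
      _ ≤ C * 2 := by linarith
  · rcases Nat.eq_zero_or_pos Q with hQ | hQ
    · subst hQ
      have e : ME g0 g1 h0 h1 0 (fun i => (i : ℝ) - (0 : ℕ) * ‖g0‖ ^ 2) = 0 := by
        simp [ME]
      rw [e, norm_zero, mul_zero]
      positivity
    · obtain ⟨q, rfl⟩ : ∃ q, Q = q + 1 := ⟨Q - 1, by omega⟩
      rw [ME_lin q hg, norm_neg, norm_mul, norm_pow, norm_mul, norm_mul, norm_mul,
        RCLike.norm_conj, Complex.norm_natCast]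
      have e1 : ‖o01 g0 g1 h0 h1 1‖ = dd g0 g1 h0 h1 := by
        unfold o01 dd
        congr 1
        push_cast
        ring
      rw [e1]
      set s := Real.sqrt ((q + 1 : ℕ) : ℝ) with hs
      have hs0 : 0 ≤ s := Real.sqrt_nonneg _
      have hs2 : s ^ 2 = ((q + 1 : ℕ) : ℝ) := Real.sq_sqrt (by positivity)
      have e2 : Real.sqrt (((q + 1 : ℕ) : ℝ) * ‖g0‖ ^ 2 * ‖g1‖ ^ 2) = s * ‖g0‖ * ‖g1‖ := by
        rw [Real.sqrt_mul (by positivity), Real.sqrt_mul (by positivity),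
          Real.sqrt_sq (norm_nonneg _), Real.sqrt_sq (norm_nonneg _)]
      rw [e2]
      have k1 : ‖ov g0 g1 h0 h1 1‖ ^ q ≤ 2 * Real.exp (-D ^ 2 / 24) := by
        refine (norm_ov_one_pow_le hg hh q).trans ?_
        -- q/2 dd² ≥ D²/24 - log 2
        have hdd := dd_le_one hg hh
        have hd0 := dd_nonneg (g0 := g0) (g1 := g1) (h0 := h0) (h1 := h1)
        have hdd2 : dd g0 g1 h0 h1 ^ 2 ≤ 1 := pow_le_one₀ hd0 hdd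
        have e3 : -((q : ℝ) / 2 * dd g0 g1 h0 h1 ^ 2) ≤ 1 / 24 + -D ^ 2 / 24 := by
          rw [hD2]
          push_cast
          nlinarith [mul_nonneg (Nat.cast_nonneg q : (0:ℝ) ≤ q) (sq_nonneg (dd g0 g1 h0 h1))]
        refine (Real.exp_le_exp.2 e3).trans ?_
        rw [Real.exp_add]
        gcongr
        have h5 := Real.exp_bound_div_one_sub_of_interval (x := 1 / 24) (by norm_num) (by norm_num)
        refine h5.trans ?_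
        norm_num
      calc (1 + D) ^ M * (‖ov g0 g1 h0 h1 1‖ ^ q * (((q + 1 : ℕ) : ℝ) *
            (‖g0‖ * ‖g1‖ * dd g0 g1 h0 h1)))
          = (1 + D) ^ M * ‖ov g0 g1 h0 h1 1‖ ^ q * D * (s * ‖g0‖ * ‖g1‖) := by
            rw [← hs2, hD]; ring
        _ ≤ (1 + D) ^ M * (2 * Real.exp (-D ^ 2 / 24)) * (1 + D) * (s * ‖g0‖ * ‖g1‖) := by
            gcongr
            linarith
        _ = ((1 + D) ^ (M + 1) * Real.exp (-D ^ 2 / 24)) * 2 * (s * ‖g0‖ * ‖g1‖) := by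
            rw [pow_succ]; ring
        _ ≤ C * 2 * (s * ‖g0‖ * ‖g1‖) := by gcongr

/-- the constant of `exists_basic` -/
noncomputable def cG (M : ℕ) : ℝ := Classical.choose (exists_basic M)

theorem cG_pos (M : ℕ) : 0 < cG M := (Classical.choose_spec (exists_basic M)).1

theorem cG_spec (M : ℕ) (hg : ‖g0‖ ^ 2 + ‖g1‖ ^ 2 = 1) (hh : ‖h0‖ ^ 2 + ‖h1‖ ^ 2 = 1) (Q : ℕ) :
    (1 + Real.sqrt Q * dd g0 g1 h0 h1) ^ M * ‖ME g0 g1 h0 h1 Q (fun _ => 1)‖ ≤ cG M ∧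
    (1 + Real.sqrt Q * dd g0 g1 h0 h1) ^ M *
      ‖ME g0 g1 h0 h1 Q (fun i => (i : ℝ) - Q * ‖g0‖ ^ 2)‖ ≤
        cG M * Real.sqrt (Q * ‖g0‖ ^ 2 * ‖g1‖ ^ 2) :=
  (Classical.choose_spec (exists_basic M)).2 g0 g1 h0 h1 hg hh Q

end basic

section geom

variable {g0 g1 z0 z1 : ℂ}

theorem dd_comm (g0 g1 h0 h1 : ℂ) : dd g0 g1 h0 h1 = dd h0 h1 g0 g1 := by
  unfold dd
  rw [← norm_neg]
  congr 1
  ring

/-- `√m_z ≤ √m_g + D` in squared form -/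
theorem mean_le (hg : ‖g0‖ ^ 2 + ‖g1‖ ^ 2 = 1) (hz : ‖z0‖ ^ 2 + ‖z1‖ ^ 2 = 1) (Q : ℕ) :
    Q * ‖z0‖ ^ 2 ≤ 2 * (Q * ‖g0‖ ^ 2) + 2 * (Real.sqrt Q * dd z0 z1 g0 g1) ^ 2 := by
  have h := norm_h0_le (g0 := g0) (g1 := g1) (h0 := z0) (h1 := z1) hg hz
  rw [dd_comm] at h
  rw [mul_pow, Real.sq_sqrt (Nat.cast_nonneg _)]
  have h2 : ‖z0‖ ^ 2 ≤ 2 * ‖g0‖ ^ 2 + 2 * dd z0 z1 g0 g1 ^ 2 := by
    have h3 : ‖z0‖ ^ 2 ≤ (‖g0‖ + dd z0 z1 g0 g1) ^ 2 := pow_le_pow_left₀ (norm_nonneg _) h 2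
    nlinarith [sq_nonneg (‖g0‖ - dd z0 z1 g0 g1)]
  have hQ : (0 : ℝ) ≤ Q := Nat.cast_nonneg Q
  nlinarith [mul_le_mul_of_nonneg_left h2 hQ]

/-- `√V_g ≤ √V_z + 3 D` -/
theorem sqrtV_le (hg : ‖g0‖ ^ 2 + ‖g1‖ ^ 2 = 1) (hz : ‖z0‖ ^ 2 + ‖z1‖ ^ 2 = 1) (Q : ℕ) :
    Real.sqrt (Q * ‖g0‖ ^ 2 * ‖g1‖ ^ 2) ≤
      Real.sqrt (Q * ‖z0‖ ^ 2 * ‖z1‖ ^ 2) + 3 * (Real.sqrt Q * dd z0 z1 g0 g1) := by
  have e : ∀ a b : ℂ, Real.sqrt (Q * ‖a‖ ^ 2 * ‖b‖ ^ 2) = Real.sqrt Q * (‖a‖ * ‖b‖) := by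
    intro a b
    rw [Real.sqrt_mul (by positivity), Real.sqrt_mul (by positivity),
      Real.sqrt_sq (norm_nonneg _), Real.sqrt_sq (norm_nonneg _)]
    ring
  rw [e, e]
  have h0 := norm_h0_le (g0 := z0) (g1 := z1) (h0 := g0) (h1 := g1) hz hg
  have h1 := norm_h1_le (g0 := z0) (g1 := z1) (h0 := g0) (h1 := g1) hz hg
  have hz0 := norm_le_one_left hz
  have hz1 := norm_le_one_right hz
  have hg1 := norm_le_one_right hg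
  have hd := dd_nonneg (g0 := z0) (g1 := z1) (h0 := g0) (h1 := g1)
  have h2 : ‖g0‖ * ‖g1‖ ≤ ‖z0‖ * ‖z1‖ + 3 * dd z0 z1 g0 g1 := by
    calc ‖g0‖ * ‖g1‖ ≤ (‖z0‖ + dd z0 z1 g0 g1) * ‖g1‖ := by gcongr
      _ = ‖z0‖ * ‖g1‖ + dd z0 z1 g0 g1 * ‖g1‖ := by ring
      _ ≤ ‖z0‖ * (‖z1‖ + dd z0 z1 g0 g1) + dd z0 z1 g0 g1 * 1 := by gcongr
      _ = ‖z0‖ * ‖z1‖ + ‖z0‖ * dd z0 z1 g0 g1 + dd z0 z1 g0 g1 := by ring
      _ ≤ ‖z0‖ * ‖z1‖ + 1 * dd z0 z1 g0 g1 + dd z0 z1 g0 g1 := by gcongr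
      _ ≤ _ := by linarith
  calc Real.sqrt Q * (‖g0‖ * ‖g1‖) ≤ Real.sqrt Q * (‖z0‖ * ‖z1‖ + 3 * dd z0 z1 g0 g1) := by
        gcongr
    _ = _ := by ring

/-- `|m_g - m_z| ≤ 3 (1+√V_z) (1+D)²` -/
theorem abs_mean_sub_le (hg : ‖g0‖ ^ 2 + ‖g1‖ ^ 2 = 1) (hz : ‖z0‖ ^ 2 + ‖z1‖ ^ 2 = 1) (Q : ℕ) :
    |Q * ‖g0‖ ^ 2 - Q * ‖z0‖ ^ 2| ≤
      3 * (1 + Real.sqrt (Q * ‖z0‖ ^ 2 * ‖z1‖ ^ 2)) * (1 + Real.sqrt Q * dd z0 z1 g0 g1) ^ 2 := by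
  set s := Real.sqrt Q with hs
  have hs0 : 0 ≤ s := Real.sqrt_nonneg _
  have hs2 : s ^ 2 = Q := Real.sq_sqrt (Nat.cast_nonneg _)
  set D := dd z0 z1 g0 g1 with hD
  have hd : 0 ≤ D := dd_nonneg
  have e : Real.sqrt (Q * ‖z0‖ ^ 2 * ‖z1‖ ^ 2) = s * (‖z0‖ * ‖z1‖) := by
    rw [Real.sqrt_mul (by positivity), Real.sqrt_mul (by positivity),
      Real.sqrt_sq (norm_nonneg _), Real.sqrt_sq (norm_nonneg _)]
    ring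
  rw [e]
  have a0 := norm_h0_le (g0 := z0) (g1 := z1) (h0 := g0) (h1 := g1) hz hg
  have a1 := norm_h1_le (g0 := z0) (g1 := z1) (h0 := g0) (h1 := g1) hz hg
  have b0 := norm_h0_le (g0 := g0) (g1 := g1) (h0 := z0) (h1 := z1) hg hz
  have b1 := norm_h1_le (g0 := g0) (g1 := g1) (h0 := z0) (h1 := z1) hg hz
  rw [dd_comm g0 g1 z0 z1] at b0 b1
  rw [← hD] at a0 a1 b0 b1
  have n0 := norm_nonneg z0
  have n1 := norm_nonneg z1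
  have m0 := norm_nonneg g0
  have m1 := norm_nonneg g1
  -- two bounds
  have k0 : |‖g0‖ ^ 2 - ‖z0‖ ^ 2| ≤ D * (2 * ‖z0‖ + D) := by
    have c1 : |‖g0‖ - ‖z0‖| ≤ D := abs_sub_le_iff.2 ⟨by linarith, by linarith⟩
    have c2 : ‖g0‖ ^ 2 - ‖z0‖ ^ 2 = (‖g0‖ - ‖z0‖) * (‖g0‖ + ‖z0‖) := by ring
    rw [c2, abs_mul, abs_of_nonneg (by linarith : 0 ≤ ‖g0‖ + ‖z0‖)]
    have c3 : ‖g0‖ + ‖z0‖ ≤ 2 * ‖z0‖ + D := by linarith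
    exact mul_le_mul c1 c3 (by linarith) hd
  have k1 : |‖g0‖ ^ 2 - ‖z0‖ ^ 2| ≤ D * (2 * ‖z1‖ + D) := by
    have c1 : |‖g1‖ - ‖z1‖| ≤ D := abs_sub_le_iff.2 ⟨by linarith, by linarith⟩
    have c2 : ‖g0‖ ^ 2 - ‖z0‖ ^ 2 = -((‖g1‖ - ‖z1‖) * (‖g1‖ + ‖z1‖)) := by
      have : ‖g0‖ ^ 2 - ‖z0‖ ^ 2 = ‖z1‖ ^ 2 - ‖g1‖ ^ 2 := by linarith
      rw [this]; ring
    rw [c2, abs_neg, abs_mul, abs_of_nonneg (by linarith : 0 ≤ ‖g1‖ + ‖z1‖)]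
    have c3 : ‖g1‖ + ‖z1‖ ≤ 2 * ‖z1‖ + D := by linarith
    exact mul_le_mul c1 c3 (by linarith) hd
  -- min(‖z0‖,‖z1‖) ≤ (3/2) ‖z0‖‖z1‖
  have k2 : |‖g0‖ ^ 2 - ‖z0‖ ^ 2| ≤ D * (3 * (‖z0‖ * ‖z1‖) + D) := by
    rcases le_total ‖z0‖ ‖z1‖ with h | h
    · have c1 : (2 : ℝ) / 3 ≤ ‖z1‖ := by
        by_contra hc
        push Not at hc
        nlinarith
      refine k0.trans (mul_le_mul_of_nonneg_left ?_ hd)
      nlinarith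
    · have c1 : (2 : ℝ) / 3 ≤ ‖z0‖ := by
        by_contra hc
        push Not at hc
        nlinarith
      refine k1.trans (mul_le_mul_of_nonneg_left ?_ hd)
      nlinarith
  have hQ : |(Q : ℝ) * ‖g0‖ ^ 2 - Q * ‖z0‖ ^ 2| = s ^ 2 * |‖g0‖ ^ 2 - ‖z0‖ ^ 2| := by
    rw [hs2, ← mul_sub, abs_mul, Nat.abs_cast]
  rw [hQ]
  have hsD : 0 ≤ s * D := by positivity
  have hv : 0 ≤ s * (‖z0‖ * ‖z1‖) := by positivity
  calc s ^ 2 * |‖g0‖ ^ 2 - ‖z0‖ ^ 2| ≤ s ^ 2 * (D * (3 * (‖z0‖ * ‖z1‖) + D)) := by gcongr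
    _ = (s * D) * (3 * (s * (‖z0‖ * ‖z1‖)) + s * D) := by ring
    _ ≤ _ := by
        nlinarith [mul_nonneg hsD hv, mul_nonneg hsD hsD, mul_nonneg (mul_nonneg hsD hsD) hv]

end geom

/-- linearisation data of a radial function -/
structure LinD (Q : ℕ) (G : ℕ → ℝ) (α β K : ℝ → ℝ) (C : ℕ → ℝ) (CL : ℝ) : Prop where
  C_nonneg : ∀ p, 0 ≤ C p
  CL_nonneg : 0 ≤ CL
  K_nonneg : ∀ m, 0 ≤ m → 0 ≤ K m
  rem : ∀ (p : ℕ) (g0 g1 h0 h1 : ℂ), ‖g0‖ ^ 2 + ‖g1‖ ^ 2 = 1 → ‖h0‖ ^ 2 + ‖h1‖ ^ 2 = 1 →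
    (1 + Real.sqrt Q * dd g0 g1 h0 h1) ^ p * ‖ME g0 g1 h0 h1 Q (fun i =>
      G i - α (Q * ‖g0‖ ^ 2) - β (Q * ‖g0‖ ^ 2) * (i - Q * ‖g0‖ ^ 2))‖ ≤
      C p * (1 + Q * ‖g0‖ ^ 2 * ‖g1‖ ^ 2) * K (Q * ‖g0‖ ^ 2)
  l0 : ∀ m m', 0 ≤ m → 0 ≤ m' → |α m' - α m - β m * (m' - m)| ≤ CL * (m' - m) ^ 2 * (K m + K m')
  l1 : ∀ m m', 0 ≤ m → 0 ≤ m' → |β m' - β m| ≤ CL * |m' - m| * (K m + K m')
  grow : ∀ m m' D, 0 ≤ m → 0 ≤ m' → 0 ≤ D → m ≤ 2 * m' + 2 * D ^ 2 →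
    K m' ≤ 16 * (1 + D) ^ 8 * K m

set_option maxHeartbeats 1000000 in
/-- **kernel bounds about another centre** -/
theorem kb_exists (C : ℕ → ℝ) (CL : ℝ) (M : ℕ) : ∃ C' : ℝ, (∀ p, 0 ≤ C p) → 0 ≤ CL → 0 ≤ C' ∧
    ∀ (Q : ℕ) (G : ℕ → ℝ) (α β K : ℝ → ℝ), LinD Q G α β K C CL →
    ∀ (z0 z1 g0 g1 h0 h1 : ℂ), ‖z0‖ ^ 2 + ‖z1‖ ^ 2 = 1 → ‖g0‖ ^ 2 + ‖g1‖ ^ 2 = 1 →
    ‖h0‖ ^ 2 + ‖h1‖ ^ 2 = 1 →
    (1 + Real.sqrt Q * dd g0 g1 h0 h1) ^ M * ‖ME g0 g1 h0 h1 Q (fun i =>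
      G i - α (Q * ‖z0‖ ^ 2) - β (Q * ‖z0‖ ^ 2) * (i - Q * ‖z0‖ ^ 2))‖ ≤
      C' * ((1 + Q * ‖z0‖ ^ 2 * ‖z1‖ ^ 2) * K (Q * ‖z0‖ ^ 2)) *
        (1 + Real.sqrt Q * dd z0 z1 g0 g1) ^ 12 := by
  refine ⟨288 * C M + 612 * CL * cG M, fun hC0 hCL0 => ⟨by
    have := cG_pos M; have := hC0 M; positivity, ?_⟩⟩
  intro Q G α β K hL z0 z1 g0 g1 h0 h1 hz hg hh
  set mz : ℝ := Q * ‖z0‖ ^ 2 with hmz
  set mg : ℝ := Q * ‖g0‖ ^ 2 with hmg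
  have hmz0 : 0 ≤ mz := by positivity
  have hmg0 : 0 ≤ mg := by positivity
  set W : ℝ := (1 + Real.sqrt Q * dd g0 g1 h0 h1) ^ M with hW
  have hdd : 0 ≤ dd g0 g1 h0 h1 := dd_nonneg
  have hW0 : 0 ≤ W := by positivity
  set D : ℝ := Real.sqrt Q * dd z0 z1 g0 g1 with hD
  have hD0 : 0 ≤ D := mul_nonneg (Real.sqrt_nonneg _) dd_nonneg
  set Vz : ℝ := mz * ‖z1‖ ^ 2 with hVz
  have hVz0 : 0 ≤ Vz := by positivity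
  set Vg : ℝ := mg * ‖g1‖ ^ 2 with hVg
  have hVg0 : 0 ≤ Vg := by positivity
  have hKz := hL.K_nonneg mz hmz0
  have hKg := hL.K_nonneg mg hmg0
  set σ : ℝ := Real.sqrt Vz with hσ
  have hσ0 : 0 ≤ σ := Real.sqrt_nonneg _
  have hσ2 : σ ^ 2 = Vz := Real.sq_sqrt hVz0
  have hcG := cG_pos M
  obtain ⟨hb1, hb2⟩ := cG_spec M hg hh Q
  have hgrow : K mg ≤ 16 * (1 + D) ^ 8 * K mz :=
    hL.grow mz mg D hmz0 hmg0 hD0 (mean_le hg hz Q)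
  have hVle : Real.sqrt Vg ≤ σ + 3 * D := sqrtV_le hg hz Q
  have hVg1 : 1 + Vg ≤ 18 * (1 + Vz) * (1 + D) ^ 2 := by
    have h1 : Vg = Real.sqrt Vg ^ 2 := (Real.sq_sqrt hVg0).symm
    have h2 : Real.sqrt Vg ^ 2 ≤ (σ + 3 * D) ^ 2 := pow_le_pow_left₀ (Real.sqrt_nonneg _) hVle 2
    have h3 : (σ + 3 * D) ^ 2 ≤ 2 * σ ^ 2 + 18 * D ^ 2 := by nlinarith only [sq_nonneg (σ - 3 * D)]
    have h4 : 1 + D ^ 2 ≤ (1 + D) ^ 2 := by nlinarith only [hD0]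
    have h5 : 18 * (1 + σ ^ 2) * (1 + D ^ 2) ≤ 18 * (1 + σ ^ 2) * (1 + D) ^ 2 := by gcongr
    have h6 : 0 ≤ σ ^ 2 * D ^ 2 := by positivity
    rw [h1, ← hσ2]
    nlinarith only [h2, h3, h5, h6, sq_nonneg σ]
  have hm : |mg - mz| ≤ 3 * (1 + σ) * (1 + D) ^ 2 := abs_mean_sub_le hg hz Q
  have h1D : 1 ≤ 1 + D := by linarith
  have hp : ∀ k, k ≤ 12 → (1 + D) ^ k ≤ (1 + D) ^ 12 := fun k hk => pow_le_pow_right₀ h1D hk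
  have hKs : K mz + K mg ≤ 17 * (1 + D) ^ 8 * K mz := by
    have h1 : (1 : ℝ) ≤ (1 + D) ^ 8 := one_le_pow₀ h1D
    nlinarith [mul_le_mul_of_nonneg_right h1 hKz]
  have hσ1 : (1 + σ) ^ 2 ≤ 2 * (1 + Vz) := by
    rw [← hσ2]; nlinarith [sq_nonneg (σ - 1)]
  -- decomposition
  have e : ME g0 g1 h0 h1 Q (fun i => G i - α mz - β mz * (i - mz)) =
      ME g0 g1 h0 h1 Q (fun i => G i - α mg - β mg * (i - mg)) +
      (((α mg - α mz - β mz * (mg - mz) : ℝ) : ℂ) * ME g0 g1 h0 h1 Q (fun _ => 1) +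
      ((β mg - β mz : ℝ) : ℂ) * ME g0 g1 h0 h1 Q (fun i => (i : ℝ) - mg)) := by
    rw [← ME_smul, ← ME_smul, ← ME_add, ← ME_add]
    refine ME_congr fun i _ => ?_
    ring
  rw [e]
  have t1 : W * ‖ME g0 g1 h0 h1 Q (fun i => G i - α mg - β mg * (i - mg))‖ ≤
      288 * C M * ((1 + Vz) * K mz) * (1 + D) ^ 12 := by
    refine (hL.rem M g0 g1 h0 h1 hg hh).trans ?_
    have hCM := hC0 M
    calc C M * (1 + Vg) * K mg ≤ C M * (18 * (1 + Vz) * (1 + D) ^ 2) *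
          (16 * (1 + D) ^ 8 * K mz) := by gcongr
      _ = 288 * C M * ((1 + Vz) * K mz) * (1 + D) ^ 10 := by ring
      _ ≤ 288 * C M * ((1 + Vz) * K mz) * (1 + D) ^ 12 :=
          mul_le_mul_of_nonneg_left (hp 10 (by norm_num)) (by positivity)
  have t2 : W * ‖((α mg - α mz - β mz * (mg - mz) : ℝ) : ℂ) * ME g0 g1 h0 h1 Q (fun _ => 1)‖ ≤
      306 * CL * cG M * ((1 + Vz) * K mz) * (1 + D) ^ 12 := by
    rw [norm_mul, Complex.norm_real, Real.norm_eq_abs]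
    have k0 := hL.l0 mz mg hmz0 hmg0
    have h2 : (mg - mz) ^ 2 ≤ 18 * (1 + Vz) * (1 + D) ^ 4 := by
      rw [← sq_abs]
      calc |mg - mz| ^ 2 ≤ (3 * (1 + σ) * (1 + D) ^ 2) ^ 2 :=
            pow_le_pow_left₀ (abs_nonneg _) hm 2
        _ = 9 * (1 + σ) ^ 2 * (1 + D) ^ 4 := by ring
        _ ≤ 9 * (2 * (1 + Vz)) * (1 + D) ^ 4 := by gcongr
        _ = _ := by ring
    have hME := norm_nonneg (ME g0 g1 h0 h1 Q (fun _ => 1))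
    calc W * (|α mg - α mz - β mz * (mg - mz)| * ‖ME g0 g1 h0 h1 Q (fun _ => 1)‖)
        = |α mg - α mz - β mz * (mg - mz)| * (W * ‖ME g0 g1 h0 h1 Q (fun _ => 1)‖) := by ring
      _ ≤ (CL * (mg - mz) ^ 2 * (K mz + K mg)) * cG M := by
          gcongr
      _ ≤ (CL * (18 * (1 + Vz) * (1 + D) ^ 4) * (17 * (1 + D) ^ 8 * K mz)) * cG M := by
          gcongr
      _ = _ := by ring
  have t3 : W * ‖((β mg - β mz : ℝ) : ℂ) * ME g0 g1 h0 h1 Q (fun i => (i : ℝ) - mg)‖ ≤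
      306 * CL * cG M * ((1 + Vz) * K mz) * (1 + D) ^ 12 := by
    rw [norm_mul, Complex.norm_real, Real.norm_eq_abs]
    have k0 := hL.l1 mz mg hmz0 hmg0
    have h3 : (1 + σ) * (σ + 3 * D) ≤ 6 * (1 + Vz) * (1 + D) := by
      calc (1 + σ) * (σ + 3 * D) ≤ (1 + σ) * (3 * (1 + σ) * (1 + D)) := by
            apply mul_le_mul_of_nonneg_left _ (by positivity)
            nlinarith [mul_nonneg hσ0 hD0]
        _ = 3 * (1 + σ) ^ 2 * (1 + D) := by ring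
        _ ≤ 3 * (2 * (1 + Vz)) * (1 + D) := by gcongr
        _ = _ := by ring
    calc W * (|β mg - β mz| * ‖ME g0 g1 h0 h1 Q (fun i => (i : ℝ) - mg)‖)
        = |β mg - β mz| * (W * ‖ME g0 g1 h0 h1 Q (fun i => (i : ℝ) - mg)‖) := by ring
      _ ≤ (CL * |mg - mz| * (K mz + K mg)) * (cG M * Real.sqrt Vg) := by
          gcongr
      _ ≤ (CL * (3 * (1 + σ) * (1 + D) ^ 2) * (17 * (1 + D) ^ 8 * K mz)) *
          (cG M * (σ + 3 * D)) := by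
          gcongr
      _ = 51 * CL * cG M * K mz * (1 + D) ^ 10 * ((1 + σ) * (σ + 3 * D)) := by ring
      _ ≤ 51 * CL * cG M * K mz * (1 + D) ^ 10 * (6 * (1 + Vz) * (1 + D)) := by
          gcongr
      _ = 306 * CL * cG M * ((1 + Vz) * K mz) * (1 + D) ^ 11 := by ring
      _ ≤ 306 * CL * cG M * ((1 + Vz) * K mz) * (1 + D) ^ 12 :=
          mul_le_mul_of_nonneg_left (hp 11 (by norm_num)) (by positivity)
  calc W * ‖ME g0 g1 h0 h1 Q (fun i => G i - α mg - β mg * (i - mg)) +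
      (((α mg - α mz - β mz * (mg - mz) : ℝ) : ℂ) * ME g0 g1 h0 h1 Q (fun _ => 1) +
      ((β mg - β mz : ℝ) : ℂ) * ME g0 g1 h0 h1 Q (fun i => (i : ℝ) - mg))‖
      ≤ W * (‖ME g0 g1 h0 h1 Q (fun i => G i - α mg - β mg * (i - mg))‖ +
        (‖((α mg - α mz - β mz * (mg - mz) : ℝ) : ℂ) * ME g0 g1 h0 h1 Q (fun _ => 1)‖ +
        ‖((β mg - β mz : ℝ) : ℂ) * ME g0 g1 h0 h1 Q (fun i => (i : ℝ) - mg)‖)) := by
        gcongr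
        exact (norm_add_le _ _).trans (add_le_add le_rfl (norm_add_le _ _))
    _ ≤ _ := by
        rw [mul_add, mul_add]
        refine (add_le_add t1 (add_le_add t2 t3)).trans (le_of_eq ?_)
        ring

end Crest.Agent.R340.Tz877
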