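import Crest.Agent.R340.Tz5_877

/-!
# Row 340, block O10: linearisation data of the logarithm (helper877)
-/

set_option autoImplicit false

namespace Crest.Agent.R340.Tz877

open Finset Complex MeasureTheory

section small

variable {g0 g1 h0 h1 : ℂ}

theorem abs_inner_le_one (hg : ‖g0‖ ^ 2 + ‖g1‖ ^ 2 = 1) (hh : ‖h0‖ ^ 2 + ‖h1‖ ^ 2 = 1) :
    ‖h0‖ * ‖g0‖ + ‖h1‖ * ‖g1‖ ≤ 1 := by
  nlinarith [sq_nonneg (‖h0‖ - ‖g0‖), sq_nonneg (‖h1‖ - ‖g1‖)]

/-- trivial bound of matrix elements -/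
theorem norm_ME_le (hg : ‖g0‖ ^ 2 + ‖g1‖ ^ 2 = 1) (hh : ‖h0‖ ^ 2 + ‖h1‖ ^ 2 = 1) {Q : ℕ}
    {F : ℕ → ℝ} {B : ℝ} (hB : 0 ≤ B) (hF : ∀ i ≤ Q, |F i| ≤ B) :
    ‖ME g0 g1 h0 h1 Q F‖ ≤ B := by
  unfold ME
  calc ‖∑ i ∈ range (Q + 1), (Q.choose i : ℂ) * ((starRingEnd ℂ) h0 * g0) ^ i *
      ((starRingEnd ℂ) h1 * g1) ^ (Q - i) * ((F i : ℝ) : ℂ)‖
      ≤ ∑ i ∈ range (Q + 1), B * ((Q.choose i : ℝ) * (‖h0‖ * ‖g0‖) ^ i *
        (‖h1‖ * ‖g1‖) ^ (Q - i)) := by
        refine (norm_sum_le _ _).trans (sum_le_sum fun i hi => ?_)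
        rw [norm_mul, norm_mul, norm_mul, norm_pow, norm_pow, norm_mul, norm_mul,
          RCLike.norm_conj, RCLike.norm_conj, Complex.norm_natCast, Complex.norm_real,
          Real.norm_eq_abs]
        have h1 := hF i (Nat.lt_succ_iff.1 (mem_range.1 hi))
        calc (Q.choose i : ℝ) * (‖h0‖ * ‖g0‖) ^ i * (‖_‖ * ‖g1‖) ^ (Q - i) * |F i|
            ≤ (Q.choose i : ℝ) * (‖h0‖ * ‖g0‖) ^ i * (‖_‖ * ‖g1‖) ^ (Q - i) * B := by gcongr
          _ = _ := by ring
    _ = B * (‖h1‖ * ‖g1‖ + ‖h0‖ * ‖g0‖) ^ Q := by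
        rw [← mul_sum, sum_choose]
    _ ≤ B * 1 := by
        gcongr
        apply pow_le_one₀ (by positivity)
        have := abs_inner_le_one hg hh
        linarith
    _ = B := mul_one B

end small

/-- the linearisation estimate for every `Q` -/
theorem exists_lin_est' (p : ℕ) : ∃ C : ℝ, 0 < C ∧
    ∀ {Ω : Type} [MeasurableSpace Ω] (μ : Measure Ω) [IsFiniteMeasure μ] (s : Ω → ℝ),
    Measurable s → (∀ ω, 0 ≤ s ω) → ∀ (g0 g1 h0 h1 : ℂ),
    ‖g0‖ ^ 2 + ‖g1‖ ^ 2 = 1 → ‖h0‖ ^ 2 + ‖h1‖ ^ 2 = 1 → ∀ Q : ℕ,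
    ∀ (G : ℕ → ℝ) (α β ε : ℝ), |ε| ≤ 1 →
    (∀ i ≤ Q, IntervalIntegrable (fun θ : ℝ => (1 - θ) *
      Kf μ s (Q * ‖g0‖ ^ 2 + θ * (i - Q * ‖g0‖ ^ 2))) volume 0 1) →
    (∀ i ≤ Q, G i = α + β * (i - Q * ‖g0‖ ^ 2) + ε * ((i - Q * ‖g0‖ ^ 2) ^ 2 *
      ∫ θ in (0:ℝ)..1, (1 - θ) * Kf μ s (Q * ‖g0‖ ^ 2 + θ * (i - Q * ‖g0‖ ^ 2)))) →
    (1 + Real.sqrt Q * dd g0 g1 h0 h1) ^ p *
      ‖ME g0 g1 h0 h1 Q (fun i => G i - α - β * (i - Q * ‖g0‖ ^ 2))‖ ≤
      C * (1 + Q * ‖g0‖ ^ 2 * ‖g1‖ ^ 2) * (Kf μ s (Q * ‖g0‖ ^ 2 / 24) +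
        Real.exp (-(Q * ‖g0‖ ^ 2) / 24) * Kf μ s 0) := by
  obtain ⟨C, hC, hC'⟩ := exists_lin_est p
  refine ⟨C + 8 * 3 ^ p, by positivity, ?_⟩
  intro Ω _ μ _ s hs hs0 g0 g1 h0 h1 hg hh Q G α β ε hε hint hG
  have hK0 := Kf_nonneg (μ := μ) (s := s) (Q * ‖g0‖ ^ 2 / 24)
  have hK1 := Kf_nonneg (μ := μ) (s := s) 0
  rcases le_or_gt 3 Q with hQ | hQ
  · refine (hC' μ s hs hs0 g0 g1 h0 h1 hg hh Q hQ G α β ε hε hint hG).trans ?_
    gcongr
    have : (0 : ℝ) ≤ 8 * 3 ^ p := by positivity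
    linarith
  · set m : ℝ := Q * ‖g0‖ ^ 2 with hm
    have hm0 : 0 ≤ m := by positivity
    have hQ2 : (Q : ℝ) ≤ 2 := by exact_mod_cast Nat.lt_succ_iff.1 hQ
    have hg0 : ‖g0‖ ^ 2 ≤ 1 := by nlinarith [sq_nonneg ‖g1‖]
    have hm2 : m ≤ Q := by
      rw [hm]
      exact mul_le_of_le_one_right (Nat.cast_nonneg Q) hg0
    have hV : 0 ≤ m * ‖g1‖ ^ 2 := by positivity
    have hb1 : ∀ i ≤ Q, |G i - α - β * (i - m)| ≤ 4 * Kf μ s 0 := by
      intro i hi
      have hi' : (i : ℝ) ≤ Q := by exact_mod_cast hi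
      have hi0 : (0 : ℝ) ≤ i := Nat.cast_nonneg i
      rw [hG i hi]
      have e : α + β * (i - m) + ε * ((i - m) ^ 2 *
          ∫ θ in (0:ℝ)..1, (1 - θ) * Kf μ s (m + θ * (i - m))) - α - β * (i - m) =
          ε * ((i - m) ^ 2 * ∫ θ in (0:ℝ)..1, (1 - θ) * Kf μ s (m + θ * (i - m))) := by ring
      rw [e, abs_mul, abs_mul, abs_of_nonneg (sq_nonneg ((i : ℝ) - m))]
      have h2 : (i - m) ^ 2 ≤ 4 := by
        have a1 : (i : ℝ) - m ≤ 2 := by linarith
        have a2 : -2 ≤ (i : ℝ) - m := by linarith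
        nlinarith
      have h3 : |∫ θ in (0:ℝ)..1, (1 - θ) * Kf μ s (m + θ * (i - m))| ≤ Kf μ s 0 := by
        have h4 : ∀ θ ∈ Set.uIoc (0:ℝ) 1, ‖(1 - θ) * Kf μ s (m + θ * (i - m))‖ ≤ Kf μ s 0 := by
          intro θ hθ
          rw [Set.uIoc_of_le zero_le_one] at hθ
          have hθ0 : 0 ≤ θ := hθ.1.le
          have hθ1 : θ ≤ 1 := hθ.2
          rw [norm_mul, Real.norm_of_nonneg (sub_nonneg.2 hθ1),
            Real.norm_of_nonneg (Kf_nonneg _)]
          have hy : 0 ≤ m + θ * ((i : ℝ) - m) := by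
            have : m + θ * ((i : ℝ) - m) = (1 - θ) * m + θ * i := by ring
            rw [this]
            have := sub_nonneg.2 hθ1
            positivity
          have h5 : Kf μ s (m + θ * (i - m)) ≤ Kf μ s 0 := by
            refine integral_mono (integrable_exp hs hs0 hy) (integrable_exp hs hs0 le_rfl) ?_
            intro ω
            apply Real.exp_le_exp.2
            have := mul_nonneg (hs0 ω) hy
            simp only [mul_zero]
            linarith
          have h6 : (0 : ℝ) ≤ Kf μ s (m + θ * (i - m)) := Kf_nonneg _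
          calc (1 - θ) * Kf μ s (m + θ * (i - m)) ≤ 1 * Kf μ s 0 :=
                mul_le_mul (by linarith) h5 h6 zero_le_one
            _ = _ := one_mul _
        have h5 := intervalIntegral.norm_integral_le_of_norm_le_const h4
        simpa using h5
      calc |ε| * ((i - m) ^ 2 * |∫ θ in (0:ℝ)..1, (1 - θ) * Kf μ s (m + θ * (i - m))|)
          ≤ 1 * (4 * Kf μ s 0) := by gcongr
        _ = _ := one_mul _
    have h2 := norm_ME_le hg hh (Q := Q) (by positivity) hb1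
    have h3 : (1 + Real.sqrt Q * dd g0 g1 h0 h1) ^ p ≤ 3 ^ p := by
      apply pow_le_pow_left₀
      · have := dd_nonneg (g0 := g0) (g1 := g1) (h0 := h0) (h1 := h1)
        positivity
      · have a1 := dd_le_one hg hh
        have a2 := dd_nonneg (g0 := g0) (g1 := g1) (h0 := h0) (h1 := h1)
        have a3 : Real.sqrt Q ≤ 2 := by
          rw [Real.sqrt_le_left (by norm_num)]
          linarith
        have a4 : Real.sqrt Q * dd g0 g1 h0 h1 ≤ 2 * 1 := mul_le_mul a3 a1 a2 (by norm_num)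
        linarith
    have h4 : (1 : ℝ) / 2 ≤ Real.exp (-m / 24) := by
      have := Real.add_one_le_exp (-m / 24)
      linarith
    calc (1 + Real.sqrt Q * dd g0 g1 h0 h1) ^ p * ‖ME g0 g1 h0 h1 Q
          (fun i => G i - α - β * (i - m))‖ ≤ 3 ^ p * (4 * Kf μ s 0) := by
          apply mul_le_mul h3 h2 (norm_nonneg _) (by positivity)
      _ = (8 * 3 ^ p) * 1 * (1 / 2 * Kf μ s 0) := by ring
      _ ≤ (C + 8 * 3 ^ p) * (1 + m * ‖g1‖ ^ 2) * (Kf μ s (m / 24) +
          Real.exp (-m / 24) * Kf μ s 0) := by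
          gcongr
          · linarith
          · linarith
          · exact le_add_of_nonneg_of_le hK0 (by gcongr)

/-! ### the logarithm -/

section logarithm

/-- the measure `x e^{-kx} dx` -/
noncomputable def muK (k : ℝ) : Measure ℝ :=
  (volume.restrict (Set.Ioi (0 : ℝ))).withDensity fun x => ENNReal.ofReal (x * Real.exp (-(k * x)))

theorem integral_x_exp {r : ℝ} (hr : 0 < r) :
    ∫ x in Set.Ioi (0 : ℝ), x * Real.exp (-(r * x)) = 1 / r ^ 2 := by
  have h := Real.integral_rpow_mul_exp_neg_mul_Ioi (a := 2) (r := r) (by norm_num) hr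
  have e : ∀ x : ℝ, x ^ ((2 : ℝ) - 1) = x := fun x => by norm_num
  simp only [e] at h
  rw [h, Real.Gamma_two, mul_one, one_div, Real.inv_rpow hr.le, one_div]
  norm_num

theorem integrable_x_exp {r : ℝ} (hr : 0 < r) :
    IntegrableOn (fun x => x * Real.exp (-(r * x))) (Set.Ioi (0 : ℝ)) := by
  by_contra h
  have h1 := integral_x_exp hr
  rw [integral_undef h] at h1
  have : 0 < 1 / r ^ 2 := by positivity
  linarith

theorem isFinite_muK {k : ℝ} (hk : 0 < k) : IsFiniteMeasure (muK k) := by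
  unfold muK
  refine isFiniteMeasure_withDensity_ofReal ?_
  exact (integrable_x_exp hk).2

theorem Kf_muK {k y : ℝ} (hk : 0 < k) (hy : 0 ≤ y) :
    Kf (muK k) (fun x => |x|) y = 1 / (y + k) ^ 2 := by
  unfold Kf muK
  rw [integral_withDensity_eq_integral_toReal_smul]
  · have e : ∀ x ∈ Set.Ioi (0 : ℝ), (ENNReal.ofReal (x * Real.exp (-(k * x)))).toReal •
        Real.exp (-|x| * y) = x * Real.exp (-((y + k) * x)) := by
      intro x hx
      have hx0 : (0 : ℝ) < x := hx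
      rw [ENNReal.toReal_ofReal (by positivity), smul_eq_mul, abs_of_pos hx0, mul_assoc,
        ← Real.exp_add]
      congr 2
      ring
    rw [setIntegral_congr_fun measurableSet_Ioi e, integral_x_exp (by linarith)]
  · exact (measurable_id.mul ((measurable_id.const_mul k).neg.exp)).ennreal_ofReal
  · exact Filter.Eventually.of_forall fun x => ENNReal.ofReal_lt_top

/-- Taylor formula for the logarithm with integral remainder -/
theorem log_taylor {k m i : ℝ} (hk : 0 < k) (hm : 0 ≤ m) (hi : 0 ≤ i) :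
    Real.log (i + k) = Real.log (m + k) + 1 / (m + k) * (i - m) +
      (-1) * ((i - m) ^ 2 * ∫ θ in (0:ℝ)..1, (1 - θ) * (1 / (m + θ * (i - m) + k) ^ 2)) := by
  have hpos : ∀ θ ∈ Set.uIcc (0:ℝ) 1, 0 < m + θ * (i - m) + k := by
    intro θ hθ
    rw [Set.uIcc_of_le zero_le_one] at hθ
    have : m + θ * (i - m) + k = (1 - θ) * m + θ * i + k := by ring
    rw [this]
    have h1 := sub_nonneg.2 hθ.2
    have h2 := hθ.1
    positivity
  have hder : ∀ θ ∈ Set.uIcc (0:ℝ) 1, HasDerivAt (fun θ : ℝ => Real.log (m + θ * (i - m) + k) +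
      (1 - θ) * ((i - m) / (m + θ * (i - m) + k)))
      (-((i - m) ^ 2 * ((1 - θ) * (1 / (m + θ * (i - m) + k) ^ 2)))) θ := by
    intro θ hθ
    have hp := hpos θ hθ
    have h1 : HasDerivAt (fun θ : ℝ => m + θ * (i - m) + k) (i - m) θ := by
      have := (((hasDerivAt_id θ).mul_const (i - m)).const_add m).add_const k
      simpa using this
    have h2 := h1.log hp.ne'
    have h3 := (h1.inv hp.ne').const_mul (i - m)
    have h4 : HasDerivAt (fun θ : ℝ => 1 - θ) (-1) θ := by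
      simpa using (hasDerivAt_id θ).const_sub 1
    have h5 := h4.mul h3
    have h6 := h2.add h5
    refine h6.congr_deriv ?_ |>.congr_of_eventuallyEq (Filter.Eventually.of_forall fun θ => ?_)
    · simp only [Pi.inv_apply]
      field_simp
      ring
    · simp only [Pi.add_apply, Pi.mul_apply, div_eq_mul_inv, Pi.inv_apply]
  have hcont : ContinuousOn (fun θ : ℝ => -((i - m) ^ 2 * ((1 - θ) *
      (1 / (m + θ * (i - m) + k) ^ 2)))) (Set.uIcc 0 1) := by
    apply ContinuousOn.neg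
    apply ContinuousOn.mul continuousOn_const
    apply ContinuousOn.mul (by fun_prop)
    apply ContinuousOn.div continuousOn_const (by fun_prop)
    intro θ hθ
    exact pow_ne_zero 2 (hpos θ hθ).ne'
  have h := intervalIntegral.integral_eq_sub_of_hasDerivAt hder hcont.intervalIntegrable
  rw [intervalIntegral.integral_neg, intervalIntegral.integral_const_mul] at h
  simp only [zero_mul, sub_zero, one_mul, sub_self, add_zero] at h
  have e1 : m + (i - m) + k = i + k := by ring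
  rw [e1] at h
  have e2 : (i - m) / (m + k) = 1 / (m + k) * (i - m) := by ring
  rw [e2] at h
  linarith

theorem exp_sq_bound {m : ℝ} (hm : 0 ≤ m) : Real.exp (-m / 24) ≤ 1250 * (1 / (1 + m) ^ 2) := by
  have h1 := Real.pow_div_factorial_le_exp ((1 + m) / 24) (by positivity) 2
  have h2 : Real.exp ((1 + m) / 24) = Real.exp (1 / 24) * Real.exp (m / 24) := by
    rw [← Real.exp_add]; congr 1; ring
  have h3 : Real.exp (1 / 24) ≤ 24 / 23 := by
    have h6 := Real.exp_bound_div_one_sub_of_interval (x := 1 / 24) (by norm_num) (by norm_num)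
    refine h6.trans ?_
    norm_num
  have h4 : Real.exp (-m / 24) = (Real.exp (m / 24))⁻¹ := by
    rw [← Real.exp_neg]; congr 1; ring
  have h5 : ((1 + m) / 24) ^ 2 / ((Nat.factorial 2 : ℕ) : ℝ) ≤ 24 / 23 * Real.exp (m / 24) := by
    refine h1.trans ?_
    rw [h2]
    gcongr
  have h6 : ((Nat.factorial 2 : ℕ) : ℝ) = 2 := by norm_num [Nat.factorial]
  rw [h6] at h5
  rw [h4, mul_one_div, inv_eq_one_div, div_le_div_iff₀ (Real.exp_pos _) (by positivity)]
  nlinarith [Real.exp_pos (m / 24)]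

/-- `K(m/24) + e^{-m/24} K(0) ≤ C (1+m)^{-2}` for `K y = (y+k)^{-2}`, `k ≥ 1` -/
theorem log_K_bound {k m : ℝ} (hk : 1 ≤ k) (hm : 0 ≤ m) :
    1 / (m / 24 + k) ^ 2 + Real.exp (-m / 24) * (1 / (0 + k) ^ 2) ≤ 1826 * (1 / (1 + m) ^ 2) := by
  have h1 : 1 / (m / 24 + k) ^ 2 ≤ 576 * (1 / (1 + m) ^ 2) := by
    rw [mul_one_div, div_le_div_iff₀ (by positivity) (by positivity)]
    have h2 : (1 + m) / 24 ≤ m / 24 + k := by linarith
    have h3 : ((1 + m) / 24) ^ 2 ≤ (m / 24 + k) ^ 2 := pow_le_pow_left₀ (by positivity) h2 2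
    nlinarith
  have h2 : Real.exp (-m / 24) * (1 / (0 + k) ^ 2) ≤ 1250 * (1 / (1 + m) ^ 2) := by
    have h3 : 1 / (0 + k) ^ 2 ≤ 1 := by
      rw [zero_add, div_le_one (by positivity)]
      exact one_le_pow₀ hk
    calc Real.exp (-m / 24) * (1 / (0 + k) ^ 2) ≤ Real.exp (-m / 24) * 1 := by gcongr
      _ ≤ _ := by rw [mul_one]; exact exp_sq_bound hm
  linarith

/-- linearisation constant -/
noncomputable def cLin (p : ℕ) : ℝ := Classical.choose (exists_lin_est' p)

theorem cLin_pos (p : ℕ) : 0 < cLin p := (Classical.choose_spec (exists_lin_est' p)).1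

/-- **linearisation data of the logarithm** -/
theorem linD_log (Q : ℕ) {k : ℝ} (hk : 1 ≤ k) :
    LinD Q (fun i => Real.log (i + k)) (fun m => Real.log (m + k)) (fun m => 1 / (m + k))
      (fun m => 1 / (1 + m) ^ 2) (fun p => 1826 * cLin p) 1 where
  C_nonneg p := by have := cLin_pos p; positivity
  CL_nonneg := zero_le_one
  K_nonneg m hm := by positivity
  rem p g0 g1 h0 h1 hg hh := by
    have hk0 : 0 < k := by linarith
    have := isFinite_muK hk0
    set m : ℝ := Q * ‖g0‖ ^ 2 with hm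
    have hm0 : 0 ≤ m := by positivity
    have hV : 0 ≤ m * ‖g1‖ ^ 2 := by positivity
    have hy : ∀ i : ℕ, ∀ θ ∈ Set.uIcc (0:ℝ) 1, 0 ≤ m + θ * ((i : ℝ) - m) := by
      intro i θ hθ
      rw [Set.uIcc_of_le zero_le_one] at hθ
      have : m + θ * ((i : ℝ) - m) = (1 - θ) * m + θ * i := by ring
      rw [this]
      have := sub_nonneg.2 hθ.2
      have := hθ.1
      positivity
    have hspec := (Classical.choose_spec (exists_lin_est' p)).2 (muK k) (fun x => |x|)
      (measurable_id.abs) (fun ω => abs_nonneg ω) g0 g1 h0 h1 hg hh Q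
      (fun i => Real.log (i + k)) (Real.log (m + k)) (1 / (m + k)) (-1) (by norm_num) ?_ ?_
    · refine hspec.trans ?_
      rw [Kf_muK hk0 (by positivity), Kf_muK hk0 le_rfl]
      have h3 := log_K_bound hk hm0
      have hc : 0 < Classical.choose (exists_lin_est' p) := cLin_pos p
      calc Classical.choose (exists_lin_est' p) * (1 + m * ‖g1‖ ^ 2) *
            (1 / (m / 24 + k) ^ 2 + Real.exp (-m / 24) * (1 / (0 + k) ^ 2))
          ≤ Classical.choose (exists_lin_est' p) * (1 + m * ‖g1‖ ^ 2) *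
            (1826 * (1 / (1 + m) ^ 2)) := by gcongr
        _ = _ := by unfold cLin; ring
    · intro i hi
      have hc : ContinuousOn (fun θ : ℝ => (1 - θ) * (1 / (m + θ * (i - m) + k) ^ 2))
          (Set.uIcc 0 1) := by
        apply ContinuousOn.mul (by fun_prop)
        apply ContinuousOn.div continuousOn_const (by fun_prop)
        intro θ hθ
        have := hy i θ hθ
        positivity
      refine ContinuousOn.intervalIntegrable (hc.congr fun θ hθ => ?_)
      simp only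
      rw [Kf_muK hk0 (hy i θ hθ)]
    · intro i hi
      rw [log_taylor hk0 hm0 (Nat.cast_nonneg i)]
      congr 3
      refine intervalIntegral.integral_congr fun θ hθ => ?_
      rw [Kf_muK hk0 (hy i θ hθ)]
  l0 m m' hm hm' := by
    have hk0 : 0 < k := by linarith
    have p1 : 0 < m + k := by linarith
    have p2 : 0 < m' + k := by linarith
    have e : Real.log (m' + k) - Real.log (m + k) = Real.log ((m' + k) / (m + k)) :=
      (Real.log_div p2.ne' p1.ne').symm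
    have e2 : 1 / (m + k) * (m' - m) = (m' + k) / (m + k) - 1 := by field_simp; ring
    rw [e, e2]
    set x := (m' + k) / (m + k) with hx
    have hx0 : 0 < x := by positivity
    have u1 := Real.log_le_sub_one_of_pos hx0
    have u2 := Real.one_sub_inv_le_log_of_pos hx0
    have h1 : |Real.log x - (x - 1)| ≤ (x - 1) - (1 - x⁻¹) := by
      rw [abs_le]
      constructor <;> linarith
    refine h1.trans ?_
    have e3 : (x - 1) - (1 - x⁻¹) = (m' - m) ^ 2 * ((1 / (m + k)) * (1 / (m' + k))) := by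
      rw [hx]; field_simp; ring
    rw [e3, one_mul]
    have h2 : (1 / (m + k)) * (1 / (m' + k)) ≤ 1 / (1 + m) ^ 2 + 1 / (1 + m') ^ 2 := by
      have a1 : 1 / (m + k) ≤ 1 / (1 + m) := one_div_le_one_div_of_le (by linarith) (by linarith)
      have a2 : 1 / (m' + k) ≤ 1 / (1 + m') := one_div_le_one_div_of_le (by linarith) (by linarith)
      have a3 : 0 < 1 / (1 + m) := by positivity
      have a4 : 0 < 1 / (1 + m') := by positivity
      calc (1 / (m + k)) * (1 / (m' + k)) ≤ (1 / (1 + m)) * (1 / (1 + m')) := by gcongr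
        _ ≤ (1 / (1 + m)) ^ 2 + (1 / (1 + m')) ^ 2 := by
            nlinarith [sq_nonneg (1 / (1 + m) - 1 / (1 + m'))]
        _ = _ := by rw [one_div_pow, one_div_pow]
    gcongr
  l1 m m' hm hm' := by
    have p1 : 0 < m + k := by linarith
    have p2 : 0 < m' + k := by linarith
    have e : 1 / (m' + k) - 1 / (m + k) = (m - m') * ((1 / (m + k)) * (1 / (m' + k))) := by
      field_simp; ring
    rw [e, abs_mul, abs_sub_comm m m', one_mul,
      abs_of_nonneg (by positivity : 0 ≤ (1 / (m + k)) * (1 / (m' + k)))]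
    have h2 : (1 / (m + k)) * (1 / (m' + k)) ≤ 1 / (1 + m) ^ 2 + 1 / (1 + m') ^ 2 := by
      have a1 : 1 / (m + k) ≤ 1 / (1 + m) := one_div_le_one_div_of_le (by linarith) (by linarith)
      have a2 : 1 / (m' + k) ≤ 1 / (1 + m') := one_div_le_one_div_of_le (by linarith) (by linarith)
      have a3 : 0 < 1 / (1 + m) := by positivity
      have a4 : 0 < 1 / (1 + m') := by positivity
      calc (1 / (m + k)) * (1 / (m' + k)) ≤ (1 / (1 + m)) * (1 / (1 + m')) := by gcongr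
        _ ≤ (1 / (1 + m)) ^ 2 + (1 / (1 + m')) ^ 2 := by
            nlinarith [sq_nonneg (1 / (1 + m) - 1 / (1 + m'))]
        _ = _ := by rw [one_div_pow, one_div_pow]
    gcongr
  grow m m' D hm hm' hD h := by
    have h1 : 1 + m ≤ 2 * (1 + m') * (1 + D) ^ 2 := by
      nlinarith [mul_nonneg hm' hD, mul_nonneg hm' (sq_nonneg D)]
    have h2 : (1 + m) ^ 2 ≤ (2 * (1 + m') * (1 + D) ^ 2) ^ 2 := pow_le_pow_left₀ (by linarith) h1 2
    rw [mul_one_div, div_le_div_iff₀ (by positivity) (by positivity), one_mul]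
    have h3 : (1 + D) ^ 4 ≤ (1 + D) ^ 8 := pow_le_pow_right₀ (by linarith) (by norm_num)
    calc (1 + m) ^ 2 ≤ (2 * (1 + m') * (1 + D) ^ 2) ^ 2 := h2
      _ = 4 * (1 + D) ^ 4 * (1 + m') ^ 2 := by ring
      _ ≤ 16 * (1 + D) ^ 8 * (1 + m') ^ 2 := by
          gcongr
          norm_num

/-- sums of linearisation data -/
theorem LinD.add {Q : ℕ} {G G' : ℕ → ℝ} {α β α' β' K : ℝ → ℝ} {C C' : ℕ → ℝ} {CL CL' : ℝ}
    (h : LinD Q G α β K C CL) (h' : LinD Q G' α' β' K C' CL') :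
    LinD Q (fun i => G i + G' i) (fun m => α m + α' m) (fun m => β m + β' m) K
      (fun p => C p + C' p) (CL + CL') where
  C_nonneg p := add_nonneg (h.C_nonneg p) (h'.C_nonneg p)
  CL_nonneg := add_nonneg h.CL_nonneg h'.CL_nonneg
  K_nonneg := h.K_nonneg
  rem p g0 g1 h0 h1 hg hh := by
    have e : ME g0 g1 h0 h1 Q (fun i => G i + G' i - (α (Q * ‖g0‖ ^ 2) + α' (Q * ‖g0‖ ^ 2)) -
        (β (Q * ‖g0‖ ^ 2) + β' (Q * ‖g0‖ ^ 2)) * (i - Q * ‖g0‖ ^ 2)) =
        ME g0 g1 h0 h1 Q (fun i => G i - α (Q * ‖g0‖ ^ 2) -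
          β (Q * ‖g0‖ ^ 2) * (i - Q * ‖g0‖ ^ 2)) +
        ME g0 g1 h0 h1 Q (fun i => G' i - α' (Q * ‖g0‖ ^ 2) -
          β' (Q * ‖g0‖ ^ 2) * (i - Q * ‖g0‖ ^ 2)) := by
      rw [← ME_add]
      refine ME_congr fun i _ => ?_
      ring
    rw [e]
    have h2 := h.rem p g0 g1 h0 h1 hg hh
    have h3 := h'.rem p g0 g1 h0 h1 hg hh
    have h4 : (0 : ℝ) ≤ (1 + Real.sqrt Q * dd g0 g1 h0 h1) ^ p := by
      have := dd_nonneg (g0 := g0) (g1 := g1) (h0 := h0) (h1 := h1)
      positivity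
    refine (mul_le_mul_of_nonneg_left (norm_add_le _ _) h4).trans ?_
    rw [mul_add]
    refine (add_le_add h2 h3).trans (le_of_eq ?_)
    ring
  l0 m m' hm hm' := by
    have h2 := h.l0 m m' hm hm'
    have h3 := h'.l0 m m' hm hm'
    have e : α m' + α' m' - (α m + α' m) - (β m + β' m) * (m' - m) =
        (α m' - α m - β m * (m' - m)) + (α' m' - α' m - β' m * (m' - m)) := by ring
    rw [e]
    refine (abs_add_le _ _).trans ((add_le_add h2 h3).trans (le_of_eq ?_))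
    ring
  l1 m m' hm hm' := by
    have h2 := h.l1 m m' hm hm'
    have h3 := h'.l1 m m' hm hm'
    have e : β m' + β' m' - (β m + β' m) = (β m' - β m) + (β' m' - β' m) := by ring
    rw [e]
    refine (abs_add_le _ _).trans ((add_le_add h2 h3).trans (le_of_eq ?_))
    ring
  grow := h.grow

/-- negatives of linearisation data -/
theorem LinD.neg {Q : ℕ} {G : ℕ → ℝ} {α β K : ℝ → ℝ} {C : ℕ → ℝ} {CL : ℝ}
    (h : LinD Q G α β K C CL) :
    LinD Q (fun i => -G i) (fun m => -α m) (fun m => -β m) K C CL where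
  C_nonneg := h.C_nonneg
  CL_nonneg := h.CL_nonneg
  K_nonneg := h.K_nonneg
  rem p g0 g1 h0 h1 hg hh := by
    have e : ME g0 g1 h0 h1 Q (fun i => -G i - -α (Q * ‖g0‖ ^ 2) -
        -β (Q * ‖g0‖ ^ 2) * (i - Q * ‖g0‖ ^ 2)) =
        ((-1 : ℝ) : ℂ) * ME g0 g1 h0 h1 Q (fun i => G i - α (Q * ‖g0‖ ^ 2) -
          β (Q * ‖g0‖ ^ 2) * (i - Q * ‖g0‖ ^ 2)) := by
      rw [← ME_smul]
      refine ME_congr fun i _ => ?_
      ring
    rw [e, norm_mul, Complex.norm_real, Real.norm_eq_abs, abs_neg, abs_one, one_mul]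
    exact h.rem p g0 g1 h0 h1 hg hh
  l0 m m' hm hm' := by
    have e : -α m' - -α m - -β m * (m' - m) = -(α m' - α m - β m * (m' - m)) := by ring
    rw [e, abs_neg]
    exact h.l0 m m' hm hm'
  l1 m m' hm hm' := by
    have e : -β m' - -β m = -(β m' - β m) := by ring
    rw [e, abs_neg]
    exact h.l1 m m' hm hm'
  grow := h.grow

end logarithm

end Crest.Agent.R340.Tz877
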