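import Crest.Agent.R340.Scal_725
import Crest.Agent.R340.Tz6_877
import Mathlib.MeasureTheory.Integral.IntervalIntegral.IntegrationByParts
import Mathlib.Analysis.Calculus.ParametricIntegral
import Mathlib.MeasureTheory.Integral.IntegralEqImproper
import Mathlib.MeasureTheory.Integral.Gamma
import Mathlib.Analysis.SpecialFunctions.Gamma.Basic
import Mathlib.MeasureTheory.Integral.Prod
import Mathlib.Analysis.SpecialFunctions.Gaussian.GaussianIntegral

/-!
# R340 (helper757): the profile `prof A S` is a Laplace transform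

`prof A S j = ∫ e^{-s j} dμ(s)`, `dμ = Z⁻¹ e^{-s κ} (1 - e^{-s})^(A-1) ds` on `(0,∞)`, `κ = S + 1 - A`.
-/

set_option autoImplicit false

namespace Crest.Agent.R340.TzL757

open Finset MeasureTheory Set Filter Topology
open Crest.Agent.R340.Scal725

/-- the weight -/
noncomputable def wA (A κ s : ℝ) : ℝ := Real.exp (-s * κ) * (1 - Real.exp (-s)) ^ (A - 1)

theorem one_sub_exp_nonneg {s : ℝ} (hs : 0 ≤ s) : 0 ≤ 1 - Real.exp (-s) := by
  have := Real.exp_le_one_iff.2 (neg_nonpos.2 hs); linarith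

theorem one_sub_exp_le {s : ℝ} : 1 - Real.exp (-s) ≤ s := by
  have := Real.add_one_le_exp (-s); linarith

theorem wA_nonneg {A κ s : ℝ} (hs : 0 ≤ s) : 0 ≤ wA A κ s :=
  mul_nonneg (Real.exp_pos _).le (Real.rpow_nonneg (one_sub_exp_nonneg hs) _)

theorem continuous_wA {A κ : ℝ} (hA : 1 ≤ A) : Continuous (wA A κ) := by
  unfold wA
  have h1 : Continuous fun s : ℝ => Real.exp (-s * κ) := by fun_prop
  have h2 : Continuous fun s : ℝ => 1 - Real.exp (-s) := by fun_prop
  exact h1.mul (h2.rpow_const fun _ => Or.inr (by linarith))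

theorem wA_le {A κ s : ℝ} (hA : 1 ≤ A) (hs : 0 ≤ s) :
    wA A κ s ≤ Real.exp (-s * κ) * s ^ (A - 1) := by
  unfold wA
  have := Real.rpow_le_rpow (one_sub_exp_nonneg hs) one_sub_exp_le (by linarith : 0 ≤ A - 1)
  gcongr

theorem wA_le_exp {A κ s : ℝ} (hA : 1 ≤ A) (hs : 0 ≤ s) : wA A κ s ≤ Real.exp (-s * κ) := by
  unfold wA
  have h1 : 1 - Real.exp (-s) ≤ 1 := by have := Real.exp_pos (-s); linarith
  have := Real.rpow_le_one (one_sub_exp_nonneg hs) h1 (by linarith : 0 ≤ A - 1)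
  nlinarith [Real.exp_pos (-s * κ)]

/-- polynomial moments are integrable -/
theorem integrable_wA {A κ : ℝ} (hA : 1 ≤ A) (hκ : 0 < κ) (n : ℕ) :
    IntegrableOn (fun s => s ^ n * wA A κ s) (Ioi 0) := by
  have h1 : IntegrableOn (fun s : ℝ => s ^ (n : ℝ) * Real.exp (-κ * s)) (Ioi 0) :=
    integrableOn_rpow_mul_exp_neg_mul_rpow (s := n) (p := 1) (b := κ)
      (by have : (0:ℝ) ≤ n := Nat.cast_nonneg n; linarith) zero_lt_one hκ |>.congr_fun
      (fun s _ => by simp) measurableSet_Ioi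
  refine Integrable.mono' h1 ?_ ?_
  · exact ((continuous_id.pow n).mul (continuous_wA hA)).aestronglyMeasurable.restrict
  · refine (ae_restrict_iff' measurableSet_Ioi).2 (Filter.Eventually.of_forall fun s hs => ?_)
    have hs' : (0:ℝ) < s := hs
    rw [Real.norm_of_nonneg (mul_nonneg (by positivity) (wA_nonneg hs'.le)), Real.rpow_natCast]
    have := wA_le_exp (κ := κ) hA hs'.le
    rw [show -s * κ = -κ * s by ring] at this
    gcongr

/-- the Laplace integral -/
noncomputable def IA (A κ : ℝ) (y : ℝ) : ℝ := ∫ s in Ioi (0:ℝ), Real.exp (-s * y) * wA A κ s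

theorem exp_mul_wA (A κ y s : ℝ) : Real.exp (-s * y) * wA A κ s = wA A (κ + y) s := by
  unfold wA
  rw [← mul_assoc, ← Real.exp_add]
  congr 2
  ring

theorem integrable_exp_wA {A κ y : ℝ} (hA : 1 ≤ A) (hκ : 0 < κ + y) (n : ℕ) :
    IntegrableOn (fun s => s ^ n * (Real.exp (-s * y) * wA A κ s)) (Ioi 0) := by
  simp only [exp_mul_wA]
  exact integrable_wA hA hκ n

/-- recursion by integration by parts -/
theorem IA_succ {A κ : ℝ} (hA : 1 ≤ A) {y : ℝ} (hy : 0 < κ + y) :
    (κ + y + A) * IA A κ (y + 1) = (κ + y) * IA A κ y := by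
  set F : ℝ → ℝ := fun s => Real.exp (-s * (κ + y)) * (1 - Real.exp (-s)) ^ A with hF
  set F' : ℝ → ℝ := fun s => -(κ + y) * (Real.exp (-s * (κ + y)) * (1 - Real.exp (-s)) ^ A) +
    A * (Real.exp (-s * (κ + y)) * (1 - Real.exp (-s)) ^ (A - 1) * Real.exp (-s)) with hF'
  have hderiv : ∀ s ∈ Ioi (0:ℝ), HasDerivAt F (F' s) s := by
    intro s hs
    have hs' : (0:ℝ) < s := hs
    have h1 : HasDerivAt (fun s : ℝ => Real.exp (-s * (κ + y)))
        (Real.exp (-s * (κ + y)) * (-1 * (κ + y))) s :=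
      ((hasDerivAt_neg s).mul_const (κ + y)).exp
    have h2 : HasDerivAt (fun s : ℝ => 1 - Real.exp (-s)) (-(Real.exp (-s) * -1)) s :=
      ((hasDerivAt_neg s).exp).const_sub 1
    have hpos : 0 < 1 - Real.exp (-s) := by
      have := Real.exp_lt_one_iff.2 (neg_neg_of_pos hs'); linarith
    have h3 := h2.rpow_const (p := A) (Or.inl hpos.ne')
    have h4 := h1.mul h3
    refine h4.congr_deriv ?_
    rw [hF']
    simp only
    ring
  have hcont : ContinuousWithinAt F (Ici 0) 0 := by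
    have h1 : Continuous F := by
      rw [hF]
      have h1 : Continuous fun s : ℝ => Real.exp (-s * (κ + y)) := by fun_prop
      have h2 : Continuous fun s : ℝ => 1 - Real.exp (-s) := by fun_prop
      exact h1.mul (h2.rpow_const fun _ => Or.inr (by linarith))
    exact h1.continuousWithinAt
  -- rewrite F'
  have hF'eq : ∀ s ∈ Ioi (0:ℝ), F' s = -(κ + y) * (Real.exp (-s * y) * wA A κ s) +
      (κ + y + A) * (Real.exp (-s * (y + 1)) * wA A κ s) := by
    intro s hs
    have hs' : (0:ℝ) < s := hs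
    have hpos : 0 < 1 - Real.exp (-s) := by
      have := Real.exp_lt_one_iff.2 (neg_neg_of_pos hs'); linarith
    have e1 : (1 - Real.exp (-s)) ^ A = (1 - Real.exp (-s)) ^ (A - 1) * (1 - Real.exp (-s)) := by
      rw [← Real.rpow_add_one hpos.ne']; congr 1; ring
    have e2 : Real.exp (-s * (κ + y)) = Real.exp (-s * y) * Real.exp (-s * κ) := by
      rw [← Real.exp_add]; congr 1; ring
    have e3 : Real.exp (-s * (y + 1)) = Real.exp (-s * y) * Real.exp (-s) := by
      rw [← Real.exp_add]; congr 1; ring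
    rw [hF', wA]
    simp only
    rw [e1, e2, e3]
    ring
  have i1 : IntegrableOn (fun s => Real.exp (-s * y) * wA A κ s) (Ioi 0) := by
    have := integrable_exp_wA (κ := κ) (y := y) hA hy 0
    simpa using this
  have i2 : IntegrableOn (fun s => Real.exp (-s * (y + 1)) * wA A κ s) (Ioi 0) := by
    have := integrable_exp_wA (κ := κ) (y := y + 1) hA (by linarith) 0
    simpa using this
  have i3 : IntegrableOn F' (Ioi 0) := by
    have : IntegrableOn (fun s => -(κ + y) * (Real.exp (-s * y) * wA A κ s) +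
        (κ + y + A) * (Real.exp (-s * (y + 1)) * wA A κ s)) (Ioi 0) :=
      (i1.const_mul (-(κ + y))).add (i2.const_mul (κ + y + A))
    exact this.congr_fun (fun s hs => (hF'eq s hs).symm) measurableSet_Ioi
  have hlim : Tendsto F atTop (𝓝 0) := by
    have h1 : Tendsto (fun s : ℝ => Real.exp (-s * (κ + y))) atTop (𝓝 0) := by
      have h2 : Tendsto (fun s : ℝ => -s * (κ + y)) atTop atBot :=
        tendsto_neg_atTop_atBot.atBot_mul_const hy
      exact Real.tendsto_exp_atBot.comp h2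
    refine squeeze_zero' ?_ ?_ h1
    · filter_upwards [eventually_ge_atTop 0] with s hs
      exact mul_nonneg (Real.exp_pos _).le (Real.rpow_nonneg (one_sub_exp_nonneg hs) _)
    · filter_upwards [eventually_ge_atTop 0] with s hs
      have h2 : 1 - Real.exp (-s) ≤ 1 := by have := Real.exp_pos (-s); linarith
      have h3 := Real.rpow_le_one (one_sub_exp_nonneg hs) h2 (by linarith : 0 ≤ A)
      rw [hF]
      simp only
      nlinarith [Real.exp_pos (-s * (κ + y))]
  have key := integral_Ioi_of_hasDerivAt_of_tendsto hcont hderiv i3 hlim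
  have hF0 : F 0 = 0 := by
    rw [hF]
    simp only [neg_zero, Real.exp_zero, sub_self]
    rw [Real.zero_rpow (by linarith)]
    ring
  rw [hF0, sub_zero, setIntegral_congr_fun measurableSet_Ioi hF'eq,
    integral_add (i1.const_mul _) (i2.const_mul _), integral_const_mul, integral_const_mul] at key
  unfold IA
  linarith

theorem IA_pos {A κ : ℝ} (hA : 1 ≤ A) {y : ℝ} (hy : 0 < κ + y) : 0 < IA A κ y := by
  have i1 : IntegrableOn (fun s => Real.exp (-s * y) * wA A κ s) (Ioi 0) := by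
    have := integrable_exp_wA (κ := κ) (y := y) hA hy 0
    simpa using this
  unfold IA
  rw [setIntegral_pos_iff_support_of_nonneg_ae _ i1]
  · have h : Ioi (0:ℝ) ⊆ Function.support (fun s => Real.exp (-s * y) * wA A κ s) ∩ Ioi 0 := by
      intro s hs
      have hs' : (0:ℝ) < s := hs
      refine ⟨?_, hs⟩
      rw [Function.mem_support]
      have hpos : 0 < 1 - Real.exp (-s) := by
        have := Real.exp_lt_one_iff.2 (neg_neg_of_pos hs'); linarith
      have : 0 < wA A κ s := mul_pos (Real.exp_pos _) (Real.rpow_pos_of_pos hpos _)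
      have := Real.exp_pos (-s * y)
      positivity
    refine lt_of_lt_of_le ?_ (measure_mono h)
    simp
  · refine (ae_restrict_iff' measurableSet_Ioi).2 (Filter.Eventually.of_forall fun s hs => ?_)
    exact mul_nonneg (Real.exp_pos _).le (wA_nonneg (le_of_lt hs))

/-- **Laplace representation** -/
theorem prof_eq {A S : ℝ} (hA : 1 ≤ A) (hS : A < S + 1) (j : ℕ) :
    prof A S j = IA A (S + 1 - A) j / IA A (S + 1 - A) 0 := by
  have hκ : 0 < S + 1 - A + 0 := by linarith
  have h0 := (IA_pos hA hκ).ne'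
  rw [eq_div_iff h0]
  induction j with
  | zero => simp
  | succ j ih =>
    have hj : (0:ℝ) ≤ j := Nat.cast_nonneg j
    have h1 := IA_succ (A := A) (κ := S + 1 - A) hA (y := (j : ℝ)) (by linarith)
    have hne : S + 1 - A + (j:ℝ) + A ≠ 0 := by
      have : 0 < S + 1 - A + (j:ℝ) + A := by linarith
      exact this.ne'
    rw [prof_succ]
    push_cast
    have e : prof A S j * (1 - A / (S + j + 1)) * IA A (S + 1 - A) 0 =
        (prof A S j * IA A (S + 1 - A) 0) * (1 - A / (S + j + 1)) := by ring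
    rw [e, ih]
    have h2 : IA A (S + 1 - A) ((j:ℝ) + 1) =
        (S + 1 - A + j) * IA A (S + 1 - A) j / (S + 1 - A + j + A) := by
      rw [eq_div_iff hne]; linarith
    rw [h2]
    have h3 : S + (j:ℝ) + 1 ≠ 0 := by
      have : S + (j:ℝ) + 1 = S + 1 - A + (j:ℝ) + A := by ring
      rw [this]; exact hne
    have h4 : S + 1 - A + (j:ℝ) + A = S + j + 1 := by ring
    rw [h4]
    field_simp
    ring

/-! ### moments and derivatives -/

/-- moments of the weight -/
noncomputable def IM (A κ : ℝ) (n : ℕ) (y : ℝ) : ℝ :=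
  ∫ s in Ioi (0:ℝ), s ^ n * (Real.exp (-s * y) * wA A κ s)

theorem IM_zero (A κ y : ℝ) : IM A κ 0 y = IA A κ y := by
  unfold IM IA
  simp

theorem IM_nonneg (A κ : ℝ) (n : ℕ) (y : ℝ) : 0 ≤ IM A κ n y := by
  refine setIntegral_nonneg measurableSet_Ioi fun s hs => ?_
  have hs' : (0:ℝ) < s := hs
  have := wA_nonneg (A := A) (κ := κ) hs'.le
  positivity

theorem continuous_integrand {A κ : ℝ} (hA : 1 ≤ A) (n : ℕ) (y : ℝ) :
    Continuous fun s : ℝ => s ^ n * (Real.exp (-s * y) * wA A κ s) := by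
  have h1 : Continuous fun s : ℝ => Real.exp (-s * y) := by fun_prop
  exact (continuous_id.pow n).mul (h1.mul (continuous_wA hA))

theorem hasDerivAt_IM {A κ : ℝ} (hA : 1 ≤ A) (n : ℕ) {y : ℝ} (hy : 0 < κ + y) :
    HasDerivAt (IM A κ n) (-(IM A κ (n + 1) y)) y := by
  set r : ℝ := (κ + y) / 2 with hr
  have hr0 : 0 < r := by rw [hr]; linarith
  have key := hasDerivAt_integral_of_dominated_loc_of_deriv_le (μ := volume.restrict (Ioi 0))
    (F := fun (y : ℝ) (s : ℝ) => s ^ n * (Real.exp (-s * y) * wA A κ s))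
    (F' := fun (y : ℝ) (s : ℝ) => -(s ^ (n + 1) * (Real.exp (-s * y) * wA A κ s)))
    (bound := fun s => s ^ (n + 1) * (Real.exp (-s * (y - r)) * wA A κ s))
    (x₀ := y) (s := Metric.ball y r) (Metric.ball_mem_nhds y hr0) ?_ ?_ ?_ ?_ ?_ ?_
  · have h2 := key.2
    rw [integral_neg] at h2
    exact h2
  · exact Filter.Eventually.of_forall fun x => (continuous_integrand hA n x).aestronglyMeasurable
  · exact integrable_exp_wA hA hy n
  · exact (continuous_integrand hA (n + 1) y).neg.aestronglyMeasurable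
  · refine (ae_restrict_iff' measurableSet_Ioi).2 (Filter.Eventually.of_forall fun s hs x hx => ?_)
    have hs' : (0:ℝ) < s := hs
    rw [norm_neg, Real.norm_of_nonneg (by have := wA_nonneg (A := A) (κ := κ) hs'.le; positivity)]
    have hx' : y - r ≤ x := by
      have := (abs_lt.1 (by simpa [Real.dist_eq] using hx : |x - y| < r)).1
      linarith
    have hw := wA_nonneg (A := A) (κ := κ) hs'.le
    have he : Real.exp (-s * x) ≤ Real.exp (-s * (y - r)) := Real.exp_le_exp.2 (by nlinarith)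
    gcongr
  · exact integrable_exp_wA hA (by rw [hr]; linarith) (n + 1)
  · refine Filter.Eventually.of_forall fun s x _ => ?_
    have h1 : HasDerivAt (fun x : ℝ => Real.exp (-s * x)) (Real.exp (-s * x) * (-s * 1)) x :=
      ((hasDerivAt_id x).const_mul (-s)).exp
    have h2 := (h1.mul_const (wA A κ s)).const_mul (s ^ n)
    refine h2.congr_deriv ?_
    rw [pow_succ]
    ring

theorem continuousOn_IM {A κ : ℝ} (hA : 1 ≤ A) (hκ : 0 < κ) (n : ℕ) :
    ContinuousOn (IM A κ n) (Ici 0) := fun y hy =>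
  (hasDerivAt_IM hA n (by have : (0:ℝ) ≤ y := hy; linarith)).continuousAt.continuousWithinAt

/-! ### the measure -/

/-- the Laplace measure -/
noncomputable def muS (A κ : ℝ) (n : ℕ) (c : ℝ) : Measure ℝ :=
  (volume.restrict (Ioi 0)).withDensity fun s => ENNReal.ofReal (c * (s ^ n * wA A κ s))

/-- the exponent function -/
noncomputable def sf (s : ℝ) : ℝ := max s 0

theorem measurable_sf : Measurable sf := measurable_id.max measurable_const

theorem sf_nonneg (s : ℝ) : 0 ≤ sf s := le_max_right _ _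

theorem finite_muS {A κ : ℝ} (hA : 1 ≤ A) (hκ : 0 < κ) (n : ℕ) (c : ℝ) :
    IsFiniteMeasure (muS A κ n c) := by
  refine isFiniteMeasure_withDensity_ofReal ?_
  exact ((integrable_wA hA hκ n).const_mul c).2

theorem Kf_muS {A κ : ℝ} (hA : 1 ≤ A) {c : ℝ} (hc : 0 ≤ c) (n : ℕ) (y : ℝ) :
    Tz877.Kf (muS A κ n c) sf y = c * IM A κ n y := by
  unfold Tz877.Kf muS
  have hm : Measurable fun s : ℝ => ENNReal.ofReal (c * (s ^ n * wA A κ s)) :=
    (measurable_const.mul (((continuous_id.pow n).mul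
      (continuous_wA (κ := κ) hA)).measurable)).ennreal_ofReal
  rw [integral_withDensity_eq_integral_toReal_smul hm
    (Filter.Eventually.of_forall fun _ => ENNReal.ofReal_lt_top)]
  unfold IM
  rw [← integral_const_mul]
  refine setIntegral_congr_fun measurableSet_Ioi fun s hs => ?_
  have hs' : (0:ℝ) < s := hs
  have hw := wA_nonneg (A := A) (κ := κ) hs'.le
  have e : sf s = s := max_eq_left hs'.le
  simp only [e]
  rw [ENNReal.toReal_ofReal (by positivity), smul_eq_mul]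
  ring

/-! ### Taylor's formula -/

theorem taylor_theta {G G' K : ℝ → ℝ} {m i : ℝ} (hm : 0 ≤ m) (hi : 0 ≤ i)
    (h1 : ∀ y, 0 ≤ y → HasDerivAt G (G' y) y) (h2 : ∀ y, 0 ≤ y → HasDerivAt G' (K y) y)
    (hK : ContinuousOn K (Ici 0)) :
    IntervalIntegrable (fun θ : ℝ => (1 - θ) * K (m + θ * (i - m))) volume 0 1 ∧
    G i = G m + G' m * (i - m) +
      (i - m) ^ 2 * ∫ θ in (0:ℝ)..1, (1 - θ) * K (m + θ * (i - m)) := by
  have hpos : ∀ θ ∈ Set.uIcc (0:ℝ) 1, 0 ≤ m + θ * (i - m) := by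
    intro θ hθ
    rw [Set.uIcc_of_le zero_le_one] at hθ
    have e : m + θ * (i - m) = (1 - θ) * m + θ * i := by ring
    rw [e]
    have := hθ.1
    have := sub_nonneg.2 hθ.2
    positivity
  have hlin : ∀ θ : ℝ, HasDerivAt (fun θ : ℝ => m + θ * (i - m)) (i - m) θ := by
    intro θ
    have := ((hasDerivAt_id θ).mul_const (i - m)).const_add m
    simpa using this
  have hKc : ContinuousOn (fun θ : ℝ => K (m + θ * (i - m))) (Set.uIcc 0 1) := by
    refine hK.comp (Continuous.continuousOn (by fun_prop)) fun θ hθ => ?_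
    exact hpos θ hθ
  have hG'c : ContinuousOn (fun θ : ℝ => G' (m + θ * (i - m))) (Set.uIcc 0 1) := by
    intro θ hθ
    exact ((h2 _ (hpos θ hθ)).comp θ (hlin θ)).continuousAt.continuousWithinAt
  have hint1 : IntervalIntegrable (fun θ : ℝ => (1 - θ) * K (m + θ * (i - m))) volume 0 1 :=
    ((continuous_const.sub continuous_id).continuousOn.mul hKc).intervalIntegrable
  refine ⟨hint1, ?_⟩
  have hu : ∀ θ ∈ Set.uIcc (0:ℝ) 1, HasDerivAt (fun θ : ℝ => 1 - θ) (-1) θ := fun θ _ => by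
    simpa using (hasDerivAt_id θ).const_sub 1
  have hv : ∀ θ ∈ Set.uIcc (0:ℝ) 1, HasDerivAt (fun θ : ℝ => (i - m) * G' (m + θ * (i - m)))
      ((i - m) * (K (m + θ * (i - m)) * (i - m))) θ := fun θ hθ =>
    ((h2 _ (hpos θ hθ)).comp θ (hlin θ)).const_mul (i - m)
  have hv' : IntervalIntegrable (fun θ : ℝ => (i - m) * (K (m + θ * (i - m)) * (i - m))) volume 0 1 :=
    (continuousOn_const.mul (hKc.mul continuousOn_const)).intervalIntegrable
  have key := intervalIntegral.integral_mul_deriv_eq_deriv_mul hu hv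
    (continuous_const.intervalIntegrable _ _) hv'
  have hG : ∀ θ ∈ Set.uIcc (0:ℝ) 1, HasDerivAt (fun θ : ℝ => G (m + θ * (i - m)))
      (G' (m + θ * (i - m)) * (i - m)) θ := fun θ hθ =>
    (h1 _ (hpos θ hθ)).comp θ (hlin θ)
  have key2 := intervalIntegral.integral_eq_sub_of_hasDerivAt hG
    (hG'c.mul continuousOn_const).intervalIntegrable
  have e1 : ∫ θ in (0:ℝ)..1, (1 - θ) * ((i - m) * (K (m + θ * (i - m)) * (i - m))) =
      (i - m) ^ 2 * ∫ θ in (0:ℝ)..1, (1 - θ) * K (m + θ * (i - m)) := by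
    rw [← intervalIntegral.integral_const_mul]
    congr 1
    funext θ
    ring
  have e2 : ∫ θ in (0:ℝ)..1, -1 * ((i - m) * G' (m + θ * (i - m))) =
      -∫ θ in (0:ℝ)..1, G' (m + θ * (i - m)) * (i - m) := by
    rw [← intervalIntegral.integral_neg]
    congr 1
    funext θ
    ring
  rw [e1, e2, key2] at key
  rw [key]
  simp only [sub_self, zero_mul, sub_zero, one_mul, add_zero]
  have e3 : m + (i - m) = i := by ring
  rw [e3]
  ring

/-! ### size of the moments -/

theorem IM_two_le {A κ : ℝ} (hA : 1 ≤ A) {y : ℝ} (hy : 0 < κ + y) :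
    IM A κ 2 y ≤ Real.Gamma (A + 2) * (κ + y) ^ (-(A + 2)) := by
  have e0 := Real.integral_rpow_mul_exp_neg_mul_Ioi (a := A + 2) (r := κ + y) (by linarith) hy
  have e1 : Real.Gamma (A + 2) * (κ + y) ^ (-(A + 2)) =
      ∫ s in Ioi (0:ℝ), s ^ (A + 2 - 1) * Real.exp (-((κ + y) * s)) := by
    rw [e0, one_div, Real.inv_rpow hy.le, Real.rpow_neg hy.le]
    ring
  rw [e1]
  have hint : IntegrableOn (fun s : ℝ => s ^ (A + 2 - 1) * Real.exp (-((κ + y) * s))) (Ioi 0) := by
    have := integrableOn_rpow_mul_exp_neg_mul_rpow (s := A + 2 - 1) (p := 1) (b := κ + y)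
      (by linarith) zero_lt_one hy
    refine this.congr_fun (fun s _ => ?_) measurableSet_Ioi
    simp only [Real.rpow_one]
    rw [neg_mul]
  unfold IM
  refine setIntegral_mono_on (integrable_exp_wA hA hy 2) hint measurableSet_Ioi fun s hs => ?_
  have hs' : (0:ℝ) < s := hs
  have h1 := wA_le (κ := κ) hA hs'.le
  have e2 : s ^ (A + 2 - 1) = s ^ 2 * s ^ (A - 1) := by
    rw [show A + 2 - 1 = 2 + (A - 1) by ring, Real.rpow_add hs']
    norm_num
  have e3 : Real.exp (-((κ + y) * s)) = Real.exp (-s * y) * Real.exp (-s * κ) := by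
    rw [← Real.exp_add]; congr 1; ring
  rw [e2, e3]
  calc s ^ 2 * (Real.exp (-s * y) * wA A κ s)
      ≤ s ^ 2 * (Real.exp (-s * y) * (Real.exp (-s * κ) * s ^ (A - 1))) := by gcongr
    _ = _ := by ring

theorem IA_zero_ge {A κ : ℝ} (hA : 1 ≤ A) (hA2 : A ≤ 2) (hκ : 1 ≤ κ) :
    Real.exp (-1) / 4 * κ ^ (-A) ≤ IA A κ 0 := by
  have hκ0 : 0 < κ := by linarith
  have hκi : 0 < κ⁻¹ := inv_pos.2 hκ0
  have hκ1 : κ⁻¹ ≤ 1 := inv_le_one_of_one_le₀ hκ
  have i1 : IntegrableOn (fun s => Real.exp (-s * 0) * wA A κ s) (Ioi 0) := by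
    have := integrable_exp_wA (κ := κ) (y := 0) hA (by linarith) 0
    simpa using this
  have i2 : IntegrableOn (fun s : ℝ => Real.exp (-1) / 2 * s ^ (A - 1)) (Ioc 0 κ⁻¹) := by
    have h := (intervalIntegral.intervalIntegrable_rpow' (a := 0) (b := κ⁻¹) (r := A - 1)
      (by linarith)).const_mul (Real.exp (-1) / 2)
    rwa [intervalIntegrable_iff_integrableOn_Ioc_of_le hκi.le] at h
  have h1 : ∫ s in Ioc 0 κ⁻¹, Real.exp (-1) / 2 * s ^ (A - 1) ≤ IA A κ 0 := by
    unfold IA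
    refine le_trans ?_ (setIntegral_mono_set i1 ?_
      (Filter.Eventually.of_forall (Ioc_subset_Ioi_self : Ioc (0:ℝ) κ⁻¹ ⊆ Ioi 0)))
    · refine setIntegral_mono_on i2 (i1.mono_set Ioc_subset_Ioi_self) measurableSet_Ioc
        fun s hs => ?_
      have hs0 : 0 < s := hs.1
      have hs1 : s ≤ 1 := hs.2.trans hκ1
      have e1 : Real.exp (-1) ≤ Real.exp (-s * κ) := by
        apply Real.exp_le_exp.2
        have : s * κ ≤ κ⁻¹ * κ := by have := hs.2; gcongr
        rw [inv_mul_cancel₀ hκ0.ne'] at this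
        linarith
      have e2 : s / 2 ≤ 1 - Real.exp (-s) := by
        have h2 : Real.exp (-s) ≤ 1 - s / 2 := by
          have h3 := Real.add_one_le_exp s
          rw [Real.exp_neg, inv_le_comm₀ (Real.exp_pos s) (by linarith)]
          rw [inv_le_iff_one_le_mul₀ (by linarith)]
          nlinarith
        linarith
      have e3 : (s / 2) ^ (A - 1) ≤ (1 - Real.exp (-s)) ^ (A - 1) :=
        Real.rpow_le_rpow (by positivity) e2 (by linarith)
      have e4 : s ^ (A - 1) / 2 ≤ (s / 2) ^ (A - 1) := by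
        rw [Real.div_rpow hs0.le (by norm_num)]
        have h4 : (2:ℝ) ^ (A - 1) ≤ 2 := by
          calc (2:ℝ) ^ (A - 1) ≤ 2 ^ (1:ℝ) :=
                Real.rpow_le_rpow_of_exponent_le (by norm_num) (by linarith)
            _ = 2 := by norm_num
        have h5 : 0 ≤ s ^ (A - 1) := Real.rpow_nonneg hs0.le _
        have h6 : (0:ℝ) < 2 ^ (A - 1) := by positivity
        exact div_le_div_of_nonneg_left h5 h6 h4
      unfold wA
      rw [mul_zero, Real.exp_zero, one_mul]
      calc Real.exp (-1) / 2 * s ^ (A - 1) = Real.exp (-1) * (s ^ (A - 1) / 2) := by ring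
        _ ≤ Real.exp (-s * κ) * (1 - Real.exp (-s)) ^ (A - 1) := by
            have h5 : 0 ≤ s ^ (A - 1) := Real.rpow_nonneg hs0.le _
            have := (Real.exp_pos (-1)).le
            exact mul_le_mul e1 (e4.trans e3) (by positivity) (Real.exp_pos _).le
    · refine (ae_restrict_iff' measurableSet_Ioi).2 (Filter.Eventually.of_forall fun s hs => ?_)
      have hs' : (0:ℝ) < s := hs
      have := wA_nonneg (A := A) (κ := κ) hs'.le
      simp only [Pi.zero_apply]
      positivity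
  refine le_trans ?_ h1
  rw [integral_const_mul, ← intervalIntegral.integral_of_le hκi.le,
    integral_rpow (Or.inl (by linarith))]
  have e5 : A - 1 + 1 = A := by ring
  rw [e5, Real.zero_rpow (by linarith), sub_zero, Real.inv_rpow hκ0.le, ← Real.rpow_neg hκ0.le]
  have h7 : 0 < κ ^ (-A) := Real.rpow_pos_of_pos hκ0 _
  have h8 : κ ^ (-A) / 2 ≤ κ ^ (-A) / A := div_le_div_of_nonneg_left h7.le (by linarith) hA2
  have h9 := Real.exp_pos (-1)
  calc Real.exp (-1) / 4 * κ ^ (-A) = Real.exp (-1) / 2 * (κ ^ (-A) / 2) := by ring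
    _ ≤ _ := by gcongr

/-! ### the model size -/

/-- the size of the second derivative of the profile -/
noncomputable def KP (A S y : ℝ) : ℝ := (S / (S + y)) ^ A / (S + y) ^ 2

theorem KP_eq {A S y : ℝ} (hS : 0 < S) (hy : 0 ≤ y) :
    KP A S y = S ^ A * (S + y) ^ (-(A + 2)) := by
  have hSy : 0 < S + y := by linarith
  unfold KP
  rw [Real.div_rpow hS.le hSy.le, Real.rpow_neg hSy.le, Real.rpow_add hSy]
  norm_num
  rw [div_div, div_eq_mul_inv, mul_inv]
  ring

theorem KP_nonneg {A S y : ℝ} (hS : 0 < S) (hy : 0 ≤ y) : 0 ≤ KP A S y := by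
  rw [KP_eq hS hy]
  have hSy : 0 < S + y := by linarith
  positivity

/-- comparison of two values -/
theorem KP_le {A S y y' r : ℝ} (hA : 0 ≤ A) (hS : 0 < S) (hy : 0 ≤ y) (hy' : 0 ≤ y') (hr : 0 ≤ r)
    (h : S + y ≤ r * (S + y')) : KP A S y' ≤ r ^ (A + 2) * KP A S y := by
  have h1 : 0 < S + y := by linarith
  have h2 : 0 < S + y' := by linarith
  rw [KP_eq hS hy, KP_eq hS hy', Real.rpow_neg h1.le, Real.rpow_neg h2.le]
  have h3 : (S + y) ^ (A + 2) ≤ r ^ (A + 2) * (S + y') ^ (A + 2) := by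
    rw [← Real.mul_rpow hr h2.le]
    exact Real.rpow_le_rpow h1.le h (by linarith)
  have h4 : 0 < (S + y) ^ (A + 2) := Real.rpow_pos_of_pos h1 _
  have h5 : 0 < (S + y') ^ (A + 2) := Real.rpow_pos_of_pos h2 _
  have h6 : ((S + y') ^ (A + 2))⁻¹ ≤ r ^ (A + 2) * ((S + y) ^ (A + 2))⁻¹ := by
    rw [← div_eq_mul_inv, inv_eq_one_div, div_le_div_iff₀ h5 h4, one_mul]
    exact h3
  have h7 : 0 ≤ S ^ A := Real.rpow_nonneg hS.le _
  calc S ^ A * ((S + y') ^ (A + 2))⁻¹ ≤ S ^ A * (r ^ (A + 2) * ((S + y) ^ (A + 2))⁻¹) := by gcongr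
    _ = _ := by ring

theorem KP_anti {A S y y' : ℝ} (hA : 0 ≤ A) (hS : 0 < S) (hy : 0 ≤ y) (h : y ≤ y') :
    KP A S y' ≤ KP A S y := by
  have := KP_le (A := A) (y := y) (y' := y') (r := 1) hA hS hy (hy.trans h) zero_le_one (by linarith)
  rwa [Real.one_rpow, one_mul] at this

/-- constant -/
noncomputable def cK (A : ℝ) : ℝ := 4 * Real.exp 1 * Real.Gamma (A + 2) * 2 ^ (A + 2)

theorem cK_pos {A : ℝ} (hA : 1 ≤ A) : 0 < cK A := by
  have := Real.Gamma_pos_of_pos (by linarith : 0 < A + 2)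
  unfold cK; positivity

/-- the second derivative of the real profile -/
noncomputable def KS (A S y : ℝ) : ℝ := (IA A (S + 1 - A) 0)⁻¹ * IM A (S + 1 - A) 2 y

theorem KS_le {A S : ℝ} (hA : 1 ≤ A) (hA2 : A ≤ 2) (hS : 2 ≤ S) {y : ℝ} (hy : 0 ≤ y) :
    KS A S y ≤ cK A * KP A S y := by
  set κ : ℝ := S + 1 - A with hκ
  have hκ1 : 1 ≤ κ := by rw [hκ]; linarith
  have hκ0 : 0 < κ := by linarith
  have hS0 : 0 < S := by linarith
  have h1 := IM_two_le (κ := κ) hA (y := y) (by linarith)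
  have h2 := IA_zero_ge (κ := κ) hA hA2 hκ1
  have h3 : 0 < IA A κ 0 := IA_pos hA (by linarith)
  have hp : 0 < κ ^ (-A) := Real.rpow_pos_of_pos hκ0 _
  have hexp := Real.exp_pos (-1)
  have h4 : (IA A κ 0)⁻¹ ≤ 4 * Real.exp 1 * κ ^ A := by
    have h5 : (IA A κ 0)⁻¹ ≤ (Real.exp (-1) / 4 * κ ^ (-A))⁻¹ := inv_anti₀ (by positivity) h2
    refine h5.trans (le_of_eq ?_)
    rw [Real.rpow_neg hκ0.le, Real.exp_neg]
    have := Real.exp_pos 1
    have := Real.rpow_pos_of_pos hκ0 A
    field_simp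
  have hG := Real.Gamma_pos_of_pos (by linarith : 0 < A + 2)
  have hky : 0 < κ + y := by linarith
  have hSy : 0 < S + y := by linarith
  have h6 : (κ + y) ^ (-(A + 2)) ≤ 2 ^ (A + 2) * (S + y) ^ (-(A + 2)) := by
    rw [Real.rpow_neg hky.le, Real.rpow_neg hSy.le]
    have h7 : (S + y) ^ (A + 2) ≤ 2 ^ (A + 2) * (κ + y) ^ (A + 2) := by
      rw [← Real.mul_rpow (by norm_num) hky.le]
      exact Real.rpow_le_rpow hSy.le (by rw [hκ]; linarith) (by linarith)
    have h8 : 0 < (S + y) ^ (A + 2) := Real.rpow_pos_of_pos hSy _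
    have h9 : 0 < (κ + y) ^ (A + 2) := Real.rpow_pos_of_pos hky _
    rw [← div_eq_mul_inv, inv_eq_one_div, div_le_div_iff₀ h9 h8, one_mul]
    exact h7
  have h10 : κ ^ A ≤ S ^ A := Real.rpow_le_rpow hκ0.le (by rw [hκ]; linarith) (by linarith)
  have h11 : 0 ≤ κ ^ A := Real.rpow_nonneg hκ0.le _
  have h12 : 0 ≤ (κ + y) ^ (-(A + 2)) := Real.rpow_nonneg hky.le _
  rw [KP_eq hS0 hy]
  unfold KS
  rw [← hκ]
  calc (IA A κ 0)⁻¹ * IM A κ 2 y
      ≤ (4 * Real.exp 1 * κ ^ A) * (Real.Gamma (A + 2) * (κ + y) ^ (-(A + 2))) := by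
        have := IM_nonneg A κ 2 y
        gcongr
    _ ≤ (4 * Real.exp 1 * S ^ A) * (Real.Gamma (A + 2) * (2 ^ (A + 2) * (S + y) ^ (-(A + 2)))) := by
        gcongr
    _ = _ := by unfold cK; ring

theorem KS_nonneg {A S : ℝ} (hA : 1 ≤ A) (hS : A < S + 1) (y : ℝ) : 0 ≤ KS A S y := by
  have h3 : 0 < IA A (S + 1 - A) 0 := IA_pos hA (by linarith)
  have := IM_nonneg A (S + 1 - A) 2 y
  unfold KS
  positivity

/-! ### the linearisation data -/

/-- value of the real profile -/
noncomputable def alP (A S m : ℝ) : ℝ := (IA A (S + 1 - A) 0)⁻¹ * IM A (S + 1 - A) 0 (max m 0)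

/-- slope of the real profile -/
noncomputable def beP (A S m : ℝ) : ℝ := -((IA A (S + 1 - A) 0)⁻¹ * IM A (S + 1 - A) 1 (max m 0))

theorem continuous_IM_max {A κ : ℝ} (hA : 1 ≤ A) (hκ : 0 < κ) (n : ℕ) :
    Continuous fun m : ℝ => IM A κ n (max m 0) := by
  rw [← continuousOn_univ]
  exact (continuousOn_IM hA hκ n).comp (Continuous.continuousOn (by fun_prop))
    fun m _ => le_max_right m 0

theorem continuous_alP {A S : ℝ} (hA : 1 ≤ A) (hS : A < S + 1) : Continuous (alP A S) :=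
  continuous_const.mul (continuous_IM_max hA (by linarith) 0)

theorem continuous_beP {A S : ℝ} (hA : 1 ≤ A) (hS : A < S + 1) : Continuous (beP A S) :=
  (continuous_const.mul (continuous_IM_max hA (by linarith) 1)).neg

/-- the real profile -/
noncomputable def gP (A S y : ℝ) : ℝ := (IA A (S + 1 - A) 0)⁻¹ * IM A (S + 1 - A) 0 y
/-- its derivative -/
noncomputable def gP' (A S y : ℝ) : ℝ := -((IA A (S + 1 - A) 0)⁻¹ * IM A (S + 1 - A) 1 y)

theorem hasDerivAt_gP {A S : ℝ} (hA : 1 ≤ A) (hS : A < S + 1) {y : ℝ} (hy : 0 ≤ y) :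
    HasDerivAt (gP A S) (gP' A S y) y := by
  have := (hasDerivAt_IM (κ := S + 1 - A) hA 0 (y := y) (by linarith)).const_mul
    (IA A (S + 1 - A) 0)⁻¹
  refine this.congr_deriv ?_
  unfold gP'
  ring

theorem hasDerivAt_gP' {A S : ℝ} (hA : 1 ≤ A) (hS : A < S + 1) {y : ℝ} (hy : 0 ≤ y) :
    HasDerivAt (gP' A S) (KS A S y) y := by
  have := ((hasDerivAt_IM (κ := S + 1 - A) hA 1 (y := y) (by linarith)).const_mul
    (IA A (S + 1 - A) 0)⁻¹).neg
  refine this.congr_deriv ?_
  unfold KS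
  ring

theorem gP_nat {A S : ℝ} (hA : 1 ≤ A) (hS : A < S + 1) (j : ℕ) : gP A S j = prof A S j := by
  rw [prof_eq hA hS, gP, IM_zero]
  ring

theorem alP_eq {A S m : ℝ} (hm : 0 ≤ m) : alP A S m = gP A S m := by
  unfold alP gP; rw [max_eq_left hm]

theorem beP_eq {A S m : ℝ} (hm : 0 ≤ m) : beP A S m = gP' A S m := by
  unfold beP gP'; rw [max_eq_left hm]

theorem continuousOn_KS {A S : ℝ} (hA : 1 ≤ A) (hS : A < S + 1) : ContinuousOn (KS A S) (Ici 0) :=
  continuousOn_const.mul (continuousOn_IM hA (by linarith) 2)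

theorem Kf_eq_KS {A S : ℝ} (hA : 1 ≤ A) (hS : A < S + 1) (y : ℝ) :
    Tz877.Kf (muS A (S + 1 - A) 2 (IA A (S + 1 - A) 0)⁻¹) sf y = KS A S y := by
  have h3 : 0 < IA A (S + 1 - A) 0 := IA_pos hA (by linarith)
  rw [Kf_muS hA (by positivity)]
  rfl

/-- Taylor for the profile at real points -/
theorem taylor_gP {A S : ℝ} (hA : 1 ≤ A) (hS : A < S + 1) {m i : ℝ} (hm : 0 ≤ m) (hi : 0 ≤ i) :
    IntervalIntegrable (fun θ : ℝ => (1 - θ) * KS A S (m + θ * (i - m))) volume 0 1 ∧
    gP A S i = gP A S m + gP' A S m * (i - m) +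
      (i - m) ^ 2 * ∫ θ in (0:ℝ)..1, (1 - θ) * KS A S (m + θ * (i - m)) :=
  taylor_theta hm hi (fun _ hy => hasDerivAt_gP hA hS hy) (fun _ hy => hasDerivAt_gP' hA hS hy)
    (continuousOn_KS hA hS)

theorem KS_seg_le {A S : ℝ} (hA : 1 ≤ A) (hA2 : A ≤ 2) (hS : 2 ≤ S) {m m' θ : ℝ} (hm : 0 ≤ m)
    (hm' : 0 ≤ m') (h0 : 0 ≤ θ) (h1 : θ ≤ 1) :
    KS A S (m + θ * (m' - m)) ≤ cK A * (KP A S m + KP A S m') := by
  have hS0 : 0 < S := by linarith
  have e : m + θ * (m' - m) = (1 - θ) * m + θ * m' := by ring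
  have hy : 0 ≤ m + θ * (m' - m) := by
    rw [e]; have := sub_nonneg.2 h1; positivity
  refine (KS_le hA hA2 hS hy).trans ?_
  have hc := (cK_pos hA).le
  have k1 := KP_nonneg (A := A) hS0 hm
  have k2 := KP_nonneg (A := A) hS0 hm'
  refine mul_le_mul_of_nonneg_left ?_ hc
  rcases le_total m m' with h | h
  · have : KP A S (m + θ * (m' - m)) ≤ KP A S m := by
      refine KP_anti (by linarith) hS0 hm ?_
      have : 0 ≤ θ * (m' - m) := mul_nonneg h0 (by linarith)
      linarith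
    linarith
  · have : KP A S (m + θ * (m' - m)) ≤ KP A S m' := by
      refine KP_anti (by linarith) hS0 hm' ?_
      rw [e]
      nlinarith
    linarith

theorem prof_l0 {A S : ℝ} (hA : 1 ≤ A) (hA2 : A ≤ 2) (hS : 2 ≤ S) {m m' : ℝ} (hm : 0 ≤ m)
    (hm' : 0 ≤ m') :
    |alP A S m' - alP A S m - beP A S m * (m' - m)| ≤
      cK A * (m' - m) ^ 2 * (KP A S m + KP A S m') := by
  have hSA : A < S + 1 := by linarith
  have hS0 : 0 < S := by linarith
  rw [alP_eq hm, alP_eq hm', beP_eq hm, (taylor_gP hA hSA hm hm').2]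
  have e : gP A S m + gP' A S m * (m' - m) +
      (m' - m) ^ 2 * (∫ θ in (0:ℝ)..1, (1 - θ) * KS A S (m + θ * (m' - m))) - gP A S m -
        gP' A S m * (m' - m) =
      (m' - m) ^ 2 * ∫ θ in (0:ℝ)..1, (1 - θ) * KS A S (m + θ * (m' - m)) := by ring
  rw [e, abs_mul, abs_of_nonneg (sq_nonneg (m' - m))]
  have h := intervalIntegral.norm_integral_le_of_norm_le_const (a := (0:ℝ)) (b := 1)
    (f := fun θ => (1 - θ) * KS A S (m + θ * (m' - m)))
    (C := cK A * (KP A S m + KP A S m')) ?_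
  · simp only [sub_zero, abs_one, mul_one, Real.norm_eq_abs] at h
    calc (m' - m) ^ 2 * |∫ θ in (0:ℝ)..1, (1 - θ) * KS A S (m + θ * (m' - m))|
        ≤ (m' - m) ^ 2 * (cK A * (KP A S m + KP A S m')) := by gcongr
      _ = _ := by ring
  · intro θ hθ
    rw [Set.uIoc_of_le zero_le_one] at hθ
    have h1 := KS_seg_le hA hA2 hS hm hm' hθ.1.le hθ.2
    have h2 := KS_nonneg hA hSA (m + θ * (m' - m))
    rw [Real.norm_of_nonneg (mul_nonneg (sub_nonneg.2 hθ.2) h2)]
    have h3 : (1 - θ) * KS A S (m + θ * (m' - m)) ≤ 1 * KS A S (m + θ * (m' - m)) := by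
      have := hθ.1
      gcongr
      linarith
    linarith

theorem prof_l1 {A S : ℝ} (hA : 1 ≤ A) (hA2 : A ≤ 2) (hS : 2 ≤ S) {m m' : ℝ} (hm : 0 ≤ m)
    (hm' : 0 ≤ m') :
    |beP A S m' - beP A S m| ≤ cK A * |m' - m| * (KP A S m + KP A S m') := by
  have hSA : A < S + 1 := by linarith
  have hS0 : 0 < S := by linarith
  rw [beP_eq hm, beP_eq hm']
  have hconv : ∀ x ∈ Set.uIcc m m', 0 ≤ x := by
    intro x hx
    exact le_trans (le_min hm hm') hx.1
  have h := (convex_uIcc m m').norm_image_sub_le_of_norm_hasDerivWithin_le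
    (f := gP' A S) (f' := KS A S) (C := cK A * (KP A S m + KP A S m')) (x := m) (y := m')
    (fun x hx => (hasDerivAt_gP' hA hSA (hconv x hx)).hasDerivWithinAt) ?_
    Set.left_mem_uIcc Set.right_mem_uIcc
  · rw [Real.norm_eq_abs, Real.norm_eq_abs] at h
    refine h.trans (le_of_eq ?_)
    ring
  · intro x hx
    rw [Real.norm_of_nonneg (KS_nonneg hA hSA x)]
    rcases eq_or_ne m m' with rfl | hne
    · rw [Set.uIcc_self, Set.mem_singleton_iff] at hx
      subst hx
      have h1 := KS_seg_le hA hA2 hS hm hm le_rfl zero_le_one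
      simpa using h1
    · -- x = m + θ (m' - m)
      have hne' : m' - m ≠ 0 := sub_ne_zero.2 hne.symm
      have hx2 : x = m + (x - m) / (m' - m) * (m' - m) := by field_simp; ring
      rw [hx2]
      refine KS_seg_le hA hA2 hS hm hm' ?_ ?_
      · rcases le_total m m' with h | h
        · rw [Set.uIcc_of_le h] at hx
          exact div_nonneg (by linarith [hx.1]) (by linarith)
        · rw [Set.uIcc_of_ge h] at hx
          exact div_nonneg_of_nonpos (by linarith [hx.2]) (by linarith)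
      · rcases le_total m m' with h | h
        · rw [Set.uIcc_of_le h] at hx
          have h3 : 0 < m' - m := lt_of_le_of_ne (by linarith) (Ne.symm hne')
          rw [div_le_one h3]; linarith [hx.2]
        · rw [Set.uIcc_of_ge h] at hx
          have h3 : m' - m < 0 := lt_of_le_of_ne (by linarith) hne'
          rw [div_le_one_of_neg h3]; linarith [hx.1]

theorem prof_grow {A S : ℝ} (hA : 1 ≤ A) (hA2 : A ≤ 2) (hS : 2 ≤ S) {m m' D : ℝ} (hm : 0 ≤ m)
    (hm' : 0 ≤ m') (hD : 0 ≤ D) (h : m ≤ 2 * m' + 2 * D ^ 2) :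
    KP A S m' ≤ 16 * (1 + D) ^ 8 * KP A S m := by
  have hS0 : 0 < S := by linarith
  have h1 : S + m ≤ 2 * (1 + D) ^ 2 * (S + m') := by
    nlinarith [mul_nonneg hD hm', mul_nonneg hD hS0.le, mul_nonneg (sq_nonneg D) hm',
      mul_nonneg (sq_nonneg D) (by linarith : 0 ≤ S - 1)]
  have h2 := KP_le (A := A) (by linarith) hS0 hm hm' (r := 2 * (1 + D) ^ 2) (by positivity) h1
  refine h2.trans ?_
  have hk := KP_nonneg (A := A) hS0 hm
  refine mul_le_mul_of_nonneg_right ?_ hk
  have hr : 1 ≤ 2 * (1 + D) ^ 2 := by nlinarith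
  calc (2 * (1 + D) ^ 2) ^ (A + 2) ≤ (2 * (1 + D) ^ 2) ^ (4 : ℝ) :=
        Real.rpow_le_rpow_of_exponent_le hr (by linarith)
    _ = (2 * (1 + D) ^ 2) ^ 4 := by norm_cast
    _ = _ := by ring

/-- `KS(m/24) + e^{-m/24} KS(0) ≤ C KP(m)` -/
noncomputable def cT (A : ℝ) : ℝ := cK A * (24 ^ 4 + 24 ^ 5 * Real.exp 1)

theorem cT_nonneg {A : ℝ} (hA : 1 ≤ A) : 0 ≤ cT A := by
  have := cK_pos hA
  unfold cT; positivity

theorem KS_tail {A S : ℝ} (hA : 1 ≤ A) (hA2 : A ≤ 2) (hS : 2 ≤ S) {m : ℝ} (hm : 0 ≤ m) :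
    KS A S (m / 24) + Real.exp (-m / 24) * KS A S 0 ≤ cT A * KP A S m := by
  have hS0 : 0 < S := by linarith
  have hc := (cK_pos hA).le
  have h1 := KS_le hA hA2 hS (y := m / 24) (by positivity)
  have h2 := KS_le hA hA2 hS (y := 0) le_rfl
  have hk := KP_nonneg (A := A) hS0 hm
  have h3 : KP A S (m / 24) ≤ 24 ^ 4 * KP A S m := by
    have h4 := KP_le (A := A) (y := m) (y' := m / 24) (r := 24) (by linarith) hS0 hm
      (by positivity) (by norm_num) (by linarith)
    refine h4.trans (mul_le_mul_of_nonneg_right ?_ hk)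
    calc (24:ℝ) ^ (A + 2) ≤ 24 ^ (4 : ℝ) :=
          Real.rpow_le_rpow_of_exponent_le (by norm_num) (by linarith)
      _ = 24 ^ 4 := by norm_cast
  have h5 : KP A S 0 ≤ (1 + m) ^ 4 * KP A S m := by
    have h4 := KP_le (A := A) (y := m) (y' := 0) (r := 1 + m) (by linarith) hS0 hm
      le_rfl (by positivity) (by nlinarith)
    refine h4.trans (mul_le_mul_of_nonneg_right ?_ hk)
    calc (1 + m) ^ (A + 2) ≤ (1 + m) ^ (4 : ℝ) :=
          Real.rpow_le_rpow_of_exponent_le (by linarith) (by linarith)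
      _ = (1 + m) ^ 4 := by norm_cast
  have h6 : Real.exp (-m / 24) * (1 + m) ^ 4 ≤ 24 ^ 5 * Real.exp 1 := by
    have h7 := Real.pow_div_factorial_le_exp (1 + m / 24) (by positivity) 4
    have h8 : (1 + m / 24) ^ 4 ≤ 24 * Real.exp (1 + m / 24) := by
      rw [div_le_iff₀ (by positivity)] at h7
      have e : ((4).factorial : ℝ) = 24 := by norm_num [Nat.factorial]
      rw [e] at h7
      linarith
    have h9 : (1 + m) ^ 4 ≤ 24 ^ 4 * (1 + m / 24) ^ 4 := by
      rw [← mul_pow]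
      exact pow_le_pow_left₀ (by positivity) (by linarith) 4
    calc Real.exp (-m / 24) * (1 + m) ^ 4
        ≤ Real.exp (-m / 24) * (24 ^ 4 * (24 * Real.exp (1 + m / 24))) := by
          gcongr
          exact h9.trans (by gcongr)
      _ = 24 ^ 5 * (Real.exp (-m / 24) * Real.exp (1 + m / 24)) := by ring
      _ = _ := by
          rw [← Real.exp_add]
          congr 2
          ring
  have he := Real.exp_pos (-m / 24)
  calc KS A S (m / 24) + Real.exp (-m / 24) * KS A S 0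
      ≤ cK A * (24 ^ 4 * KP A S m) + Real.exp (-m / 24) * (cK A * ((1 + m) ^ 4 * KP A S m)) := by
        gcongr
        · exact h1.trans (by gcongr)
        · exact h2.trans (by gcongr)
    _ = cK A * (24 ^ 4 + Real.exp (-m / 24) * (1 + m) ^ 4) * KP A S m := by ring
    _ ≤ cK A * (24 ^ 4 + 24 ^ 5 * Real.exp 1) * KP A S m := by gcongr
    _ = _ := by unfold cT; ring

/-- **linearisation data of the profile** -/
theorem linD_prof {A S : ℝ} (hA : 1 ≤ A) (hA2 : A ≤ 2) (hS : 2 ≤ S) (Q : ℕ) :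
    Tz877.LinD Q (prof A S) (alP A S) (beP A S) (fun y => (S / (S + y)) ^ A / (S + y) ^ 2)
      (fun p => Tz877.cLin p * cT A) (cK A) where
  C_nonneg p := mul_nonneg (Tz877.cLin_pos p).le (cT_nonneg hA)
  CL_nonneg := (cK_pos hA).le
  K_nonneg m hm := KP_nonneg (by linarith) hm
  l0 m m' hm hm' := prof_l0 hA hA2 hS hm hm'
  l1 m m' hm hm' := prof_l1 hA hA2 hS hm hm'
  grow m m' D hm hm' hD h := prof_grow hA hA2 hS hm hm' hD h
  rem p g0 g1 h0 h1 hg hh := by
    have hSA : A < S + 1 := by linarith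
    have hκ : 0 < S + 1 - A := by linarith
    have hfin : IsFiniteMeasure (muS A (S + 1 - A) 2 (IA A (S + 1 - A) 0)⁻¹) :=
      finite_muS hA hκ 2 _
    set m : ℝ := Q * ‖g0‖ ^ 2 with hm
    have hm0 : 0 ≤ m := by positivity
    have hV : 0 ≤ m * ‖g1‖ ^ 2 := by positivity
    have hT := fun i : ℕ => taylor_gP hA hSA hm0 (Nat.cast_nonneg (α := ℝ) i)
    have hspec := (Classical.choose_spec (Tz877.exists_lin_est' p)).2
      (muS A (S + 1 - A) 2 (IA A (S + 1 - A) 0)⁻¹) sf measurable_sf sf_nonneg g0 g1 h0 h1 hg hh Q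
      (prof A S) (alP A S m) (beP A S m) 1 (by norm_num) ?_ ?_
    · refine hspec.trans ?_
      rw [Kf_eq_KS hA hSA, Kf_eq_KS hA hSA]
      have h3 := KS_tail hA hA2 hS hm0
      have hc : 0 < Classical.choose (Tz877.exists_lin_est' p) := Tz877.cLin_pos p
      calc Classical.choose (Tz877.exists_lin_est' p) * (1 + m * ‖g1‖ ^ 2) *
            (KS A S (m / 24) + Real.exp (-m / 24) * KS A S 0)
          ≤ Classical.choose (Tz877.exists_lin_est' p) * (1 + m * ‖g1‖ ^ 2) *
            (cT A * KP A S m) := by gcongr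
        _ = _ := by unfold Tz877.cLin KP; ring
    · intro i _
      simp only [Kf_eq_KS hA hSA]
      exact (hT i).1
    · intro i _
      simp only [Kf_eq_KS hA hSA]
      rw [alP_eq hm0, beP_eq hm0, ← gP_nat hA hSA i, (hT i).2, one_mul]

/-- existence form: the constants depend on `A` only -/
theorem exists_linD_prof {A : ℝ} (hA : 1 ≤ A) (hA2 : A ≤ 2) : ∃ (C : ℕ → ℝ) (CL : ℝ),
    (∀ p, 0 ≤ C p) ∧ ∀ S : ℝ, 2 ≤ S → ∃ α β : ℝ → ℝ, Continuous α ∧ Continuous β ∧
      ∀ Q : ℕ, Tz877.LinD Q (prof A S) α β (fun y => (S / (S + y)) ^ A / (S + y) ^ 2) C CL :=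
  ⟨fun p => Tz877.cLin p * cT A, cK A,
    fun p => mul_nonneg (Tz877.cLin_pos p).le (cT_nonneg hA), fun S hS =>
    ⟨alP A S, beP A S, continuous_alP hA (by linarith), continuous_beP hA (by linarith),
      fun Q => linD_prof hA hA2 hS Q⟩⟩

end Crest.Agent.R340.TzL757
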