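import Mathlib.Analysis.SpecialFunctions.Pow.Real

/-!
# R340 (helper757): the size of `T_z`
-/

set_option autoImplicit false

namespace Crest.Agent.R340.TzR757

/-- `(1 + Q t (1-t)) (Q+1) ≤ 2 (1 + Q (1-t)) (S + Q t)` -/
theorem size_aux {Q t S : ℝ} (hQ : 0 ≤ Q) (h0 : 0 ≤ t) (h1 : t ≤ 1) (hS : 1 ≤ S) :
    (1 + Q * t * (1 - t)) * (Q + 1) ≤ 2 * ((1 + Q * (1 - t)) * (S + Q * t)) := by
  have ht : 0 ≤ 1 - t := sub_nonneg.2 h1
  have e1 : 0 ≤ Q * t * (1 - t) := by positivity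
  have e2 : 0 ≤ Q ^ 2 * (t * (1 - t)) := by positivity
  have e3 : t * (1 - t) ≤ 1 := by nlinarith
  have e4 : Q * (t * (1 - t)) ≤ Q * 1 := mul_le_mul_of_nonneg_left e3 hQ
  have e5 : (1 + Q * (1 - t)) * (1 + Q * t) ≤ (1 + Q * (1 - t)) * (S + Q * t) := by
    have : 0 ≤ 1 + Q * (1 - t) := by positivity
    gcongr
  nlinarith

theorem model_eq {A S y : ℝ} (hS : 0 < S) (hy : 0 ≤ y) :
    (S / (S + y)) ^ A = (1 + y / S) ^ (-A) := by
  have h1 : 0 < S + y := by linarith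
  have e : S / (S + y) = (1 + y / S)⁻¹ := by
    have : 1 + y / S = (S + y) / S := by field_simp
    rw [this, inv_div]
  rw [e, Real.inv_rpow (by positivity), Real.rpow_neg (by positivity)]

/-- **`T₁ T₂`** -/
theorem size_le {Q t S A : ℝ} (hQ : 0 ≤ Q) (h0 : 0 ≤ t) (h1 : t ≤ 1) (hS : 1 ≤ S) :
    ((1 + Q * t * (1 - t)) * (1 / (1 + Q * (1 - t)) ^ 2)) *
      ((1 + Q * t * (1 - t)) * ((S / (S + Q * t)) ^ A / (S + Q * t) ^ 2)) ≤
      4 / (Q + 1) ^ 2 * (1 + Q * t / S) ^ (-A) := by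
  have ht : 0 ≤ 1 - t := sub_nonneg.2 h1
  have hS0 : 0 < S := by linarith
  have hy : 0 ≤ Q * t := by positivity
  have ha := size_aux hQ h0 h1 hS
  rw [model_eq hS0 hy]
  set P : ℝ := (1 + Q * t / S) ^ (-A) with hP
  have hP0 : 0 ≤ P := Real.rpow_nonneg (by positivity) _
  set x : ℝ := 1 + Q * t * (1 - t) with hx
  set u : ℝ := 1 + Q * (1 - t) with hu
  set v : ℝ := S + Q * t with hv
  have hx0 : 0 < x := by positivity
  have hu0 : 0 < u := by positivity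
  have hv0 : 0 < v := by positivity
  have key : x ^ 2 / (u ^ 2 * v ^ 2) ≤ 4 / (Q + 1) ^ 2 := by
    rw [div_le_div_iff₀ (by positivity) (by positivity)]
    have h2 : (x * (Q + 1)) ^ 2 ≤ (2 * (u * v)) ^ 2 :=
      pow_le_pow_left₀ (by positivity) ha 2
    calc x ^ 2 * (Q + 1) ^ 2 = (x * (Q + 1)) ^ 2 := by ring
      _ ≤ (2 * (u * v)) ^ 2 := h2
      _ = _ := by ring
  calc x * (1 / u ^ 2) * (x * (P / v ^ 2)) = x ^ 2 / (u ^ 2 * v ^ 2) * P := by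
        field_simp
    _ ≤ 4 / (Q + 1) ^ 2 * P := by gcongr

/-- the same with the spinor components `‖g0‖² + ‖g1‖² = 1`, `t = ‖g1‖²` -/
theorem size_spinor {S A : ℝ} (Q : ℕ) {a b : ℝ} (hab : a ^ 2 + b ^ 2 = 1) (hS : 1 ≤ S) :
    ((1 + Q * a ^ 2 * b ^ 2) * (1 / (1 + Q * a ^ 2) ^ 2)) *
      ((1 + Q * b ^ 2 * a ^ 2) * ((S / (S + Q * b ^ 2)) ^ A / (S + Q * b ^ 2) ^ 2)) ≤
      4 / ((Q : ℝ) + 1) ^ 2 * (1 + Q * b ^ 2 / S) ^ (-A) := by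
  have h := size_le (Q := (Q : ℝ)) (t := b ^ 2) (S := S) (A := A) (Nat.cast_nonneg _)
    (sq_nonneg b) (by nlinarith [sq_nonneg a]) hS
  have e : 1 - b ^ 2 = a ^ 2 := by linarith
  rw [e] at h
  have e2 : (Q : ℝ) * a ^ 2 * b ^ 2 = Q * b ^ 2 * a ^ 2 := by ring
  rw [e2]
  exact h

end Crest.Agent.R340.TzR757
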