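import Mathlib

/-!
R340, block L8 (helper856): abstract descending lemma (DL) and the induction over sectors.

`V` finite-dimensional Hilbert space (Fock space), `Sec N` the particle sectors, `H ≥ 0`,
`P` the projection on the zero modes, `W` the perturbation, `(G, ν)` a measure space with the jump
operators `B g`, `ΦH g`, `ΦW g` the images of `H`, `W` under the loss channel about `g`.
-/

set_option autoImplicit false

namespace Crest.Agent.R340.U856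

open MeasureTheory
open scoped InnerProductSpace ComplexConjugate

variable {V : Type*} [NormedAddCommGroup V] [InnerProductSpace ℂ V]

/-- quadratic form `Re ⟨ψ, A ψ⟩` -/
noncomputable def qf (A : V →L[ℂ] V) (ψ : V) : ℝ := (⟪ψ, A ψ⟫_ℂ).re

theorem qf_add (A B : V →L[ℂ] V) (ψ : V) : qf (A + B) ψ = qf A ψ + qf B ψ := by
  simp [qf]

theorem qf_sub (A B : V →L[ℂ] V) (ψ : V) : qf (A - B) ψ = qf A ψ - qf B ψ := by
  simp [qf]

theorem qf_zero (A : V →L[ℂ] V) : qf A 0 = 0 := by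
  simp [qf]

theorem qf_eigen {A : V →L[ℂ] V} {E : ℝ} {ψ : V} (h : A ψ = (E : ℂ) • ψ) :
    qf A ψ = E * ‖ψ‖ ^ 2 := by
  unfold qf
  rw [h, inner_smul_right, inner_self_eq_norm_sq_to_K, Complex.re_ofReal_mul]
  norm_cast

section CS

variable {G : Type*} [MeasurableSpace G] {ν : Measure G}

omit [InnerProductSpace ℂ V] in
/-- Cauchy-Schwarz for integrals of products of norms -/
theorem integral_norm_mul_norm_le {u v : G → V}
    (hu : MemLp u 2 ν) (hv : MemLp v 2 ν) :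
    ∫ g, ‖u g‖ * ‖v g‖ ∂ν ≤ Real.sqrt (∫ g, ‖u g‖ ^ 2 ∂ν) * Real.sqrt (∫ g, ‖v g‖ ^ 2 ∂ν) := by
  have h := integral_mul_le_Lp_mul_Lq_of_nonneg (μ := ν) (p := 2) (q := 2)
    (f := fun g => ‖u g‖) (g := fun g => ‖v g‖) ⟨by norm_num, by norm_num, by norm_num⟩
    (Filter.Eventually.of_forall fun g => norm_nonneg _)
    (Filter.Eventually.of_forall fun g => norm_nonneg _)
    (by simpa using hu.norm) (by simpa using hv.norm)
  have e : ∀ f : G → V, (∫ g, ‖f g‖ ^ (2 : ℝ) ∂ν) ^ (1 / (2 : ℝ)) =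
      Real.sqrt (∫ g, ‖f g‖ ^ 2 ∂ν) := by
    intro f
    rw [← Real.sqrt_eq_rpow]
    congr 1
    refine integral_congr_ae (Filter.Eventually.of_forall fun g => ?_)
    norm_cast
  simpa only [e] using h

end CS

section DL

variable {G : Type*} [MeasurableSpace G] {ν : Measure G}
variable {Sec : ℕ → Submodule ℂ V} {H W : V →L[ℂ] V} {B : G → (V →L[ℂ] V)}
  {ΦH ΦW : G → (V →L[ℂ] V)}

/-- **Descending lemma (DL)**, abstract form. `h = ⟨ψ, H ψ⟩`. -/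
theorem dl {c N₀ m₁ γ₂ δ δ' E : ℝ} {N : ℕ} {ψ : V}
    (hδ' : 0 ≤ δ')
    (hH : ∀ φ χ : V, ∫ g, ⟪B g φ, B g χ⟫_ℂ ∂ν = ⟪φ, H χ⟫_ℂ)
    (hB2 : ∀ φ, MemLp (fun g => B g φ) 2 ν)
    (hcom2 : ∀ φ, MemLp (fun g => (B g * W - W * B g) φ) 2 ν)
    (hΦH : Integrable (fun g => qf (ΦH g) (B g ψ)) ν)
    (hΦW : Integrable (fun g => qf (ΦW g) (B g ψ)) ν)
    (hWi : Integrable (fun g => qf W (B g ψ)) ν)
    (J1 : ∫ g, qf (ΦH g) (B g ψ) ∂ν ≤ ‖H ψ‖ ^ 2 - γ₂ * qf H ψ)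
    (J2 : ∀ g, - (c * (N₀ - N + 2 + m₁)) * ‖B g ψ‖ ^ 2 ≤ qf (ΦH g + ΦW g) (B g ψ))
    (J3 : ∀ g φ, |qf (W - ΦW g) φ| ≤ δ * ‖φ‖ ^ 2)
    (J4 : ∫ g, ‖(B g * W - W * B g) ψ‖ ^ 2 ∂ν ≤ δ' ^ 2 * qf H ψ)
    (hE : (H + W) ψ = (E : ℂ) • ψ) (hHs : ∀ φ χ : V, ⟪H φ, χ⟫_ℂ = ⟪φ, H χ⟫_ℂ) :
    - (c * (N₀ - N + 2 + m₁)) * qf H ψ ≤ (E - γ₂ + δ + δ') * qf H ψ := by
  -- `h = ∫ ‖B g ψ‖²`
  have hint : Integrable (fun g => ‖B g ψ‖ ^ 2) ν := by
    simpa using (hB2 ψ).integrable_norm_pow (by norm_num)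
  have hh : ∫ g, ‖B g ψ‖ ^ 2 ∂ν = qf H ψ := by
    have h1 := hH ψ ψ
    have h2 : ∫ g, ⟪B g ψ, B g ψ⟫_ℂ ∂ν = ((∫ g, ‖B g ψ‖ ^ 2 ∂ν : ℝ) : ℂ) := by
      rw [← integral_complex_ofReal]
      refine integral_congr_ae (Filter.Eventually.of_forall fun g => ?_)
      simp only
      rw [inner_self_eq_norm_sq_to_K]
      norm_cast
    unfold qf
    rw [← h1, h2, Complex.ofReal_re]
  have hh0 : 0 ≤ qf H ψ := by
    rw [← hh]; positivity
  -- lower bound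
  have hlow : - (c * (N₀ - N + 2 + m₁)) * qf H ψ ≤
      ∫ g, (qf (ΦH g) (B g ψ) + qf (ΦW g) (B g ψ)) ∂ν := by
    rw [← hh, ← integral_const_mul]
    refine integral_mono (hint.const_mul _) (hΦH.add hΦW) fun g => ?_
    have := J2 g
    rw [qf_add] at this
    exact this
  rw [integral_add hΦH hΦW] at hlow
  -- W-part
  have hW1 : ∫ g, qf (ΦW g) (B g ψ) ∂ν ≤ ∫ g, qf W (B g ψ) ∂ν + δ * qf H ψ := by
    rw [← hh, ← integral_const_mul, ← integral_add hWi (hint.const_mul _)]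
    refine integral_mono hΦW (hWi.add (hint.const_mul _)) fun g => ?_
    have := (abs_le.mp (J3 g (B g ψ))).1
    rw [qf_sub] at this
    have h2 := (abs_le.mp (J3 g (B g ψ))).1
    rw [qf_sub] at h2
    linarith
  -- commutator
  have hWψ : W ψ = (E : ℂ) • ψ - H ψ := by
    rw [← hE]; simp
  have hi1 : Integrable (fun g => ⟪B g ψ, B g (W ψ)⟫_ℂ) ν := by
    refine Integrable.mono' (g := fun g => ‖B g ψ‖ * ‖B g (W ψ)‖)
      ((hB2 ψ).norm.integrable_mul (hB2 (W ψ)).norm) ?_ ?_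
    · exact (hB2 ψ).aestronglyMeasurable.inner (hB2 (W ψ)).aestronglyMeasurable
    · exact Filter.Eventually.of_forall fun g => norm_inner_le_norm _ _
  have hi2 : Integrable (fun g => ⟪B g ψ, (B g * W - W * B g) ψ⟫_ℂ) ν := by
    refine Integrable.mono' (g := fun g => ‖B g ψ‖ * ‖(B g * W - W * B g) ψ‖)
      ((hB2 ψ).norm.integrable_mul (hcom2 ψ).norm) ?_ ?_
    · exact (hB2 ψ).aestronglyMeasurable.inner (hcom2 ψ).aestronglyMeasurable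
    · exact Filter.Eventually.of_forall fun g => norm_inner_le_norm _ _
  have hW2 : ∫ g, qf W (B g ψ) ∂ν ≤ (⟪H ψ, W ψ⟫_ℂ).re + δ' * qf H ψ := by
    have e1 : ∀ g, qf W (B g ψ) = (⟪B g ψ, B g (W ψ)⟫_ℂ).re
        - (⟪B g ψ, (B g * W - W * B g) ψ⟫_ℂ).re := by
      intro g
      simp [qf]
    have e2 : ∫ g, qf W (B g ψ) ∂ν = (⟪ψ, H (W ψ)⟫_ℂ).re
        - ∫ g, (⟪B g ψ, (B g * W - W * B g) ψ⟫_ℂ).re ∂ν := by
      simp only [e1]
      have h3 := integral_sub hi1.re hi2.re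
      simp only [RCLike.re_to_complex] at h3
      rw [h3]
      congr 1
      rw [← hH ψ (W ψ)]
      exact integral_re hi1
    have e3 : - ∫ g, (⟪B g ψ, (B g * W - W * B g) ψ⟫_ℂ).re ∂ν ≤ δ' * qf H ψ := by
      have h1 : - ∫ g, (⟪B g ψ, (B g * W - W * B g) ψ⟫_ℂ).re ∂ν ≤
          ∫ g, ‖B g ψ‖ * ‖(B g * W - W * B g) ψ‖ ∂ν := by
        rw [← integral_neg]
        refine integral_mono hi2.re.neg
          ((hB2 ψ).norm.integrable_mul (hcom2 ψ).norm) fun g => ?_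
        have := abs_le.mp ((Complex.abs_re_le_norm _).trans
          (norm_inner_le_norm (𝕜 := ℂ) (B g ψ) ((B g * W - W * B g) ψ)))
        linarith [this.1]
      have h2 := integral_norm_mul_norm_le (hB2 ψ) (hcom2 ψ)
      have h3 : Real.sqrt (∫ g, ‖B g ψ‖ ^ 2 ∂ν) *
          Real.sqrt (∫ g, ‖(B g * W - W * B g) ψ‖ ^ 2 ∂ν) ≤
          Real.sqrt (qf H ψ) * (δ' * Real.sqrt (qf H ψ)) := by
        rw [hh]
        refine mul_le_mul_of_nonneg_left ?_ (Real.sqrt_nonneg _)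
        calc Real.sqrt (∫ g, ‖(B g * W - W * B g) ψ‖ ^ 2 ∂ν)
            ≤ Real.sqrt (δ' ^ 2 * qf H ψ) := Real.sqrt_le_sqrt J4
          _ = δ' * Real.sqrt (qf H ψ) := by
            rw [Real.sqrt_mul (sq_nonneg _), Real.sqrt_sq hδ']
      have h4 : Real.sqrt (qf H ψ) * (δ' * Real.sqrt (qf H ψ)) = δ' * qf H ψ := by
        rw [mul_left_comm, Real.mul_self_sqrt hh0]
      linarith
    rw [e2, hHs]
    linarith
  -- conclusion
  have hfin : ‖H ψ‖ ^ 2 + (⟪H ψ, W ψ⟫_ℂ).re = E * qf H ψ := by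
    have h1 : ‖H ψ‖ ^ 2 = (⟪H ψ, H ψ⟫_ℂ).re := by
      rw [inner_self_eq_norm_sq_to_K]
      norm_cast
    rw [h1, ← Complex.add_re, ← inner_add_right]
    have h2 : H ψ + W ψ = (E : ℂ) • ψ := by rw [← hE]; simp
    rw [h2, inner_smul_right, Complex.re_ofReal_mul, hHs]
    rfl
  linarith

end DL

section IND

variable [FiniteDimensional ℂ V]

/-- minimal eigenvector of a symmetric operator on an invariant subspace -/
theorem exists_min_eigenvector (E : Submodule ℂ V) (A : V →L[ℂ] V)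
    (hA : ∀ φ χ : V, ⟪A φ, χ⟫_ℂ = ⟪φ, A χ⟫_ℂ) (hE : ∀ φ ∈ E, A φ ∈ E)
    (hne : ∃ φ ∈ E, φ ≠ 0) :
    ∃ ψ ∈ E, ψ ≠ 0 ∧ ∃ l : ℝ, A ψ = (l : ℂ) • ψ ∧ ∀ φ ∈ E, l * ‖φ‖ ^ 2 ≤ qf A φ := by
  classical
  let T : E →ₗ[ℂ] E := (A : V →ₗ[ℂ] V).restrict hE
  have hT : T.IsSymmetric := by
    intro x y
    exact hA x y
  obtain ⟨φ₀, hφ₀, hφ₀ne⟩ := hne
  have : Nontrivial E := ⟨⟨⟨φ₀, hφ₀⟩, 0, fun h => hφ₀ne (by simpa using congrArg Subtype.val h)⟩⟩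
  have hev := hT.hasEigenvalue_iInf_of_finiteDimensional
  set l : ℝ := ⨅ x : { x : E // x ≠ 0 }, RCLike.re ⟪T x, x⟫_ℂ / ‖(x : E)‖ ^ 2 with hl
  obtain ⟨x, hx⟩ := hev.exists_hasEigenvector
  refine ⟨x, x.2, fun h => hx.2 (Subtype.ext h), l, ?_, ?_⟩
  · have := hx.apply_eq_smul
    exact congrArg Subtype.val this
  · intro φ hφ
    by_cases h0 : φ = 0
    · simp [h0, qf_zero]
    have hbdd : BddBelow (Set.range fun x : { x : E // x ≠ 0 } =>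
        RCLike.re ⟪T x, x⟫_ℂ / ‖(x : E)‖ ^ 2) := by
      refine ⟨-‖A‖, ?_⟩
      rintro _ ⟨y, rfl⟩
      have hy : 0 < ‖(y : E)‖ := norm_pos_iff.mpr y.2
      have h1 : |RCLike.re ⟪T y, y⟫_ℂ| ≤ ‖A‖ * ‖(y : E)‖ ^ 2 := by
        refine (RCLike.abs_re_le_norm _).trans ?_
        refine (norm_inner_le_norm (𝕜 := ℂ) _ _).trans ?_
        have h2 : ‖T y‖ ≤ ‖A‖ * ‖(y : E)‖ := A.le_opNorm (y : V)
        nlinarith [norm_nonneg (y : E)]
      simp only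
      rw [le_div_iff₀ (by positivity)]
      linarith [(abs_le.mp h1).1]
    have h1 : l ≤ RCLike.re ⟪T ⟨φ, hφ⟩, (⟨φ, hφ⟩ : E)⟫_ℂ / ‖(⟨φ, hφ⟩ : E)‖ ^ 2 :=
      ciInf_le hbdd ⟨⟨φ, hφ⟩, fun h => h0 (by simpa using congrArg Subtype.val h)⟩
    have hpos : 0 < ‖φ‖ := norm_pos_iff.mpr h0
    rw [le_div_iff₀ (by simpa using pow_pos hpos 2)] at h1
    have h2 : (RCLike.re ⟪T ⟨φ, hφ⟩, (⟨φ, hφ⟩ : E)⟫_ℂ : ℝ) = qf A φ := by
      unfold qf
      rw [← hA]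
      rfl
    rw [h2] at h1
    simpa using h1

/-- **Induction over sectors.** `c = 3 C_F1 ε`, `γ₃ = γ₂ - δ - δ'`. -/
theorem sector_ind {Sec : ℕ → Submodule ℂ V} {H W P : V →L[ℂ] V} {c m₁ γ₀ γ₃ κ : ℝ} {N₀ : ℕ}
    (hH : ∀ φ χ : V, ⟪H φ, χ⟫_ℂ = ⟪φ, H χ⟫_ℂ)
    (hW : ∀ φ χ : V, ⟪W φ, χ⟫_ℂ = ⟪φ, W χ⟫_ℂ)
    (hP : ∀ φ χ : V, ⟪P φ, χ⟫_ℂ = ⟪φ, P χ⟫_ℂ)
    (hPP : ∀ φ, P (P φ) = P φ) (hHP : ∀ φ, H (P φ) = 0) (hWP : ∀ φ, W (P φ) = P (W φ))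
    (hHs : ∀ N, ∀ φ ∈ Sec N, H φ ∈ Sec N) (hWs : ∀ N, ∀ φ ∈ Sec N, W φ ∈ Sec N)
    (hPs : ∀ N, ∀ φ ∈ Sec N, P φ ∈ Sec N)
    (hgap : ∀ φ, P φ = 0 → γ₀ * ‖φ‖ ^ 2 ≤ qf H φ) (hγ₀ : 0 < γ₀)
    (F1 : ∀ N ≤ N₀, ∀ φ ∈ Sec N, P φ = φ → - (c * ((N₀ : ℝ) - N)) * ‖φ‖ ^ 2 ≤ qf W φ)
    (DL : ∀ N ≤ N₀, (∀ N' < N, ∀ φ ∈ Sec N', - (c * ((N₀ : ℝ) - N')) * ‖φ‖ ^ 2 ≤ qf (H + W) φ) →
      ∀ ψ ∈ Sec N, ∀ E : ℝ, (H + W) ψ = (E : ℂ) • ψ →
        - (c * ((N₀ : ℝ) - N + 2 + m₁)) * qf H ψ ≤ (E - γ₃) * qf H ψ)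
    (hc : 0 ≤ c) (hκ : 0 ≤ κ) (hc2 : c * (2 + m₁) + κ ≤ γ₃) :
    (∀ N ≤ N₀, ∀ φ ∈ Sec N, - (c * ((N₀ : ℝ) - N)) * ‖φ‖ ^ 2 ≤ qf (H + W) φ) ∧
      (∀ N ≤ N₀, ∀ φ ∈ Sec N, P φ = 0 →
        (κ - c * ((N₀ : ℝ) - N)) * ‖φ‖ ^ 2 ≤ qf (H + W) φ) := by
  classical
  have hPH : ∀ φ, P (H φ) = 0 := by
    intro φ
    have : ⟪P (H φ), P (H φ)⟫_ℂ = 0 := by
      rw [hP, hPP, hH, hHP, inner_zero_right]
    exact inner_self_eq_zero.mp this
  -- step on the orthogonal complement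
  have key : ∀ N ≤ N₀,
      (∀ N' < N, ∀ φ ∈ Sec N', - (c * ((N₀ : ℝ) - N')) * ‖φ‖ ^ 2 ≤ qf (H + W) φ) →
      ∀ φ ∈ Sec N, P φ = 0 → (κ - c * ((N₀ : ℝ) - N)) * ‖φ‖ ^ 2 ≤ qf (H + W) φ := by
    intro N hN ih φ hφ hPφ
    by_cases hne : ∃ χ ∈ Sec N ⊓ LinearMap.ker (P : V →ₗ[ℂ] V), χ ≠ 0
    · obtain ⟨ψ, hψ, hψ0, l, hl, hmin⟩ := exists_min_eigenvector
        (Sec N ⊓ LinearMap.ker (P : V →ₗ[ℂ] V)) (H + W)
        (fun a b => by simp [hH, hW])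
        (fun a ha => by
          obtain ⟨h1, h2⟩ := Submodule.mem_inf.mp ha
          have h2' : P a = 0 := h2
          refine Submodule.mem_inf.mpr ⟨?_, ?_⟩
          · exact (Sec N).add_mem (hHs N a h1) (hWs N a h1)
          · change P ((H + W) a) = 0
            simp [hPH, ← hWP, h2'])
        hne
      obtain ⟨h1, h2⟩ := Submodule.mem_inf.mp hψ
      have h2' : P ψ = 0 := h2
      have hpos : 0 < qf H ψ := by
        have := hgap ψ h2'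
        have : 0 < γ₀ * ‖ψ‖ ^ 2 := by
          have := norm_pos_iff.mpr hψ0
          positivity
        linarith
      have hd := DL N hN ih ψ h1 l hl
      have hd' : - (c * ((N₀ : ℝ) - N + 2 + m₁)) ≤ l - γ₃ := le_of_mul_le_mul_right hd hpos
      have hl2 : κ - c * ((N₀ : ℝ) - N) ≤ l := by nlinarith
      have := hmin φ (Submodule.mem_inf.mpr ⟨hφ, hPφ⟩)
      have h3 : 0 ≤ ‖φ‖ ^ 2 := by positivity
      nlinarith
    · push Not at hne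
      have : φ = 0 := hne φ (Submodule.mem_inf.mpr ⟨hφ, hPφ⟩)
      simp [this, qf_zero]
  have main : ∀ N, N ≤ N₀ → ∀ φ ∈ Sec N, - (c * ((N₀ : ℝ) - N)) * ‖φ‖ ^ 2 ≤ qf (H + W) φ := by
    intro N
    induction N using Nat.strong_induction_on with
    | _ N ih =>
      intro hN φ hφ
      have ih' : ∀ N' < N, ∀ χ ∈ Sec N', - (c * ((N₀ : ℝ) - N')) * ‖χ‖ ^ 2 ≤ qf (H + W) χ :=
        fun N' hN' χ hχ => ih N' hN' (hN'.le.trans hN) χ hχ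
      -- decomposition
      set u := P φ with hu
      set v := φ - P φ with hv
      have hus : u ∈ Sec N := hPs N φ hφ
      have hvs : v ∈ Sec N := (Sec N).sub_mem hφ hus
      have hPu : P u = u := hPP φ
      have hPv : P v = 0 := by simp [hv, hPP]
      have horth : ∀ a b : V, P a = a → P b = 0 → ⟪a, b⟫_ℂ = 0 := by
        intro a b ha hb
        rw [← ha, hP, hb, inner_zero_right]
      have hdec : φ = u + v := by simp [hu, hv]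
      have hnorm : ‖φ‖ ^ 2 = ‖u‖ ^ 2 + ‖v‖ ^ 2 := by
        rw [hdec, pow_two, pow_two, pow_two]
        exact norm_add_sq_eq_norm_sq_add_norm_sq_of_inner_eq_zero u v (horth u v hPu hPv)
      have hAu : P ((H + W) u) = (H + W) u := by
        have e1 : H u = 0 := by rw [← hPu]; exact hHP _
        simp only [add_apply, e1, zero_add]
        rw [← hWP, hPu]
      have hAv : P ((H + W) v) = 0 := by
        simp [hPH, ← hWP, hPv]
      have hq : qf (H + W) φ = qf (H + W) u + qf (H + W) v := by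
        unfold qf
        rw [hdec, map_add, inner_add_left, inner_add_right, inner_add_right,
          horth u _ hPu hAv]
        have : ⟪v, (H + W) u⟫_ℂ = 0 := by
          rw [← inner_conj_symm, horth _ _ hAu hPv, map_zero]
        rw [this]
        simp [inner_add_right]
        try ring
      have h1 : - (c * ((N₀ : ℝ) - N)) * ‖u‖ ^ 2 ≤ qf (H + W) u := by
        have e1 : H u = 0 := by rw [← hPu]; exact hHP _
        have e2 : qf (H + W) u = qf W u := by simp [qf, e1]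
        rw [e2]
        exact F1 N hN u hus hPu
      have h2 := key N hN ih' v hvs hPv
      have h3 : 0 ≤ ‖v‖ ^ 2 := by positivity
      rw [hq, hnorm]
      nlinarith
  exact ⟨main, fun N hN φ hφ hPφ =>
    key N hN (fun N' hN' χ hχ => main N' (hN'.le.trans hN) χ hχ) φ hφ hPφ⟩

end IND

end Crest.Agent.R340.U856
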