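import Crest.Agent.R340.U1_856

/-!
R340, block (U) (helper856), part 1: commutator estimate, the quadratic map `S ↦ O`, stability of the
profile class under `S ↦ O`.

`𝒜` a C*-algebra of operators (`Op ι` in the application), `π` its action on the Hilbert space `V`.
-/

set_option autoImplicit false
set_option linter.unusedSectionVars false

namespace Crest.Agent.R340.U856

open MeasureTheory
open scoped InnerProductSpace ComplexConjugate

section Comm

variable {V : Type*} [NormedAddCommGroup V] [InnerProductSpace ℂ V]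
variable {G : Type*} [MeasurableSpace G] {ν : Measure G}

/-- `|⟨φ, i[H,S] φ⟩| ≤ 2 ⟨φ,Hφ⟩^{1/2} (∫ ‖[B_g,S] φ‖²)^{1/2}` for `H = ∫ B_g^* B_g`. -/
theorem abs_qf_comm_le {H S : V →L[ℂ] V} {B : G → (V →L[ℂ] V)}
    (hH : ∀ φ χ : V, ∫ g, ⟪B g φ, B g χ⟫_ℂ ∂ν = ⟪φ, H χ⟫_ℂ)
    (hHs : ∀ φ χ : V, ⟪H φ, χ⟫_ℂ = ⟪φ, H χ⟫_ℂ)
    (hS : ∀ φ χ : V, ⟪S φ, χ⟫_ℂ = ⟪φ, S χ⟫_ℂ)
    (hB2 : ∀ φ, MemLp (fun g => B g φ) 2 ν) (φ : V) :
    |(⟪φ, (Complex.I • (H * S - S * H)) φ⟫_ℂ).re| ≤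
      2 * (Real.sqrt (qf H φ) * Real.sqrt (∫ g, ‖(B g * S - S * B g) φ‖ ^ 2 ∂ν)) := by
  have hint : ∀ χ η : V, Integrable (fun g => ⟪B g χ, B g η⟫_ℂ) ν := by
    intro χ η
    refine Integrable.mono' (g := fun g => ‖B g χ‖ * ‖B g η‖)
      ((hB2 χ).norm.integrable_mul (hB2 η).norm) ?_ ?_
    · exact (hB2 χ).aestronglyMeasurable.inner (hB2 η).aestronglyMeasurable
    · exact Filter.Eventually.of_forall fun g => norm_inner_le_norm _ _
  have hh : ∫ g, ‖B g φ‖ ^ 2 ∂ν = qf H φ := by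
    have h1 := hH φ φ
    have h2 : ∫ g, ⟪B g φ, B g φ⟫_ℂ ∂ν = ((∫ g, ‖B g φ‖ ^ 2 ∂ν : ℝ) : ℂ) := by
      rw [← integral_complex_ofReal]
      refine integral_congr_ae (Filter.Eventually.of_forall fun g => ?_)
      simp only
      rw [inner_self_eq_norm_sq_to_K]
      norm_cast
    unfold qf
    rw [← h1, h2, Complex.ofReal_re]
  have hcom2 : MemLp (fun g => (B g * S - S * B g) φ) 2 ν := by
    have h1 : MemLp (fun g => B g (S φ)) 2 ν := hB2 (S φ)
    have h2 : MemLp (fun g => S (B g φ)) 2 ν := S.comp_memLp' (hB2 φ)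
    exact h1.sub h2
  -- the exact formula
  have e1 : (⟪φ, (Complex.I • (H * S - S * H)) φ⟫_ℂ).re =
      - 2 * (⟪φ, H (S φ)⟫_ℂ).im := by
    have h1 : ⟪φ, (Complex.I • (H * S - S * H)) φ⟫_ℂ =
        Complex.I * (⟪φ, H (S φ)⟫_ℂ - conj ⟪φ, H (S φ)⟫_ℂ) := by
      have h2 : ⟪φ, S (H φ)⟫_ℂ = conj ⟪φ, H (S φ)⟫_ℂ := by
        rw [← hS, ← hHs, inner_conj_symm]
      have h3 : (Complex.I • (H * S - S * H)) φ = Complex.I • (H (S φ) - S (H φ)) := rfl
      rw [h3, inner_smul_right, inner_sub_right, h2]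
    rw [h1]
    generalize ⟪φ, H (S φ)⟫_ℂ = z
    simp [Complex.mul_re]
    ring
  have e2 : (⟪φ, H (S φ)⟫_ℂ).im = ∫ g, (⟪B g φ, (B g * S - S * B g) φ⟫_ℂ).im ∂ν := by
    rw [← hH φ (S φ)]
    have h1 : (∫ g, ⟪B g φ, B g (S φ)⟫_ℂ ∂ν).im = ∫ g, (⟪B g φ, B g (S φ)⟫_ℂ).im ∂ν :=
      (integral_im (hint φ (S φ))).symm
    rw [h1]
    refine integral_congr_ae (Filter.Eventually.of_forall fun g => ?_)
    have h2 : (⟪B g φ, S (B g φ)⟫_ℂ).im = 0 := by
      have h3 : conj ⟪B g φ, S (B g φ)⟫_ℂ = ⟪B g φ, S (B g φ)⟫_ℂ := by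
        rw [inner_conj_symm, hS]
      exact Complex.conj_eq_iff_im.mp h3
    have h4 : (B g * S - S * B g) φ = B g (S φ) - S (B g φ) := rfl
    simp only
    rw [h4, inner_sub_right, Complex.sub_im, h2, sub_zero]
  have e3 : |∫ g, (⟪B g φ, (B g * S - S * B g) φ⟫_ℂ).im ∂ν| ≤
      ∫ g, ‖B g φ‖ * ‖(B g * S - S * B g) φ‖ ∂ν := by
    rw [← Real.norm_eq_abs]
    refine (norm_integral_le_integral_norm _).trans ?_
    refine integral_mono_of_nonneg (Filter.Eventually.of_forall fun g => norm_nonneg _)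
      ((hB2 φ).norm.integrable_mul hcom2.norm)
      (Filter.Eventually.of_forall fun g => ?_)
    exact (Complex.abs_im_le_norm _).trans (norm_inner_le_norm _ _)
  have e4 := integral_norm_mul_norm_le (hB2 φ) hcom2
  rw [hh] at e4
  rw [e1, e2, abs_mul, abs_neg, abs_two]
  exact mul_le_mul_of_nonneg_left (e3.trans e4) (by norm_num)

end Comm

section Cont

variable {G : Type*} [TopologicalSpace G] [CompactSpace G] [SecondCountableTopology G]
  [MeasurableSpace G] [BorelSpace G] {ν : Measure G} [IsFiniteMeasure ν]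
variable {E : Type*} [NormedAddCommGroup E]

theorem cint {f : G → E} (hf : Continuous f) : Integrable f ν :=
  hf.integrable_of_hasCompactSupport (HasCompactSupport.of_compactSpace f)

theorem cmem {f : G → E} (hf : Continuous f) : MemLp f 2 ν := by
  obtain ⟨M, hM⟩ := isCompact_univ.exists_bound_of_continuousOn hf.continuousOn
  exact MemLp.of_bound hf.aestronglyMeasurable M
    (Filter.Eventually.of_forall fun g => hM g (Set.mem_univ g))

end Cont

section Quad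

variable {𝒜 : Type*} [CStarAlgebra 𝒜]
variable {V : Type*} [NormedAddCommGroup V] [InnerProductSpace ℂ V]

variable (𝒜 V) in
/-- an operator algebra acting on `V` -/
structure Rep where
  π : 𝒜 →L[ℂ] (V →L[ℂ] V)
  map_mul : ∀ A B, π (A * B) = π A * π B
  star_inner : ∀ (A : 𝒜) (v w : V), ⟪π (star A) v, w⟫_ℂ = ⟪v, π A w⟫_ℂ
  norm_le : ∀ A, ‖π A‖ ≤ ‖A‖

variable (R : Rep 𝒜 V)

theorem Rep.sa {A : 𝒜} (hA : IsSelfAdjoint A) (v w : V) : ⟪R.π A v, w⟫_ℂ = ⟪v, R.π A w⟫_ℂ := by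
  have := R.star_inner A v w
  rwa [hA.star_eq] at this

/-- the real-linear functional `A ↦ Re ⟨φ, A φ⟩` -/
noncomputable def Rep.q (φ : V) : 𝒜 →L[ℝ] ℝ :=
  Complex.reCLM.comp (((innerSL ℂ φ).comp ((ContinuousLinearMap.apply ℂ V φ).comp R.π)).restrictScalars ℝ)

theorem Rep.q_apply (φ : V) (A : 𝒜) : R.q φ A = qf (R.π A) φ := rfl

/-- evaluation `A ↦ A φ` -/
noncomputable def Rep.ev (φ : V) : 𝒜 →L[ℂ] V := (ContinuousLinearMap.apply ℂ V φ).comp R.π

theorem Rep.ev_apply (φ : V) (A : 𝒜) : R.ev φ A = R.π A φ := rfl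

theorem Rep.q_star_mul (φ : V) (A : 𝒜) : R.q φ (star A * A) = ‖R.π A φ‖ ^ 2 := by
  rw [Rep.q_apply, qf, R.map_mul]
  have h : ⟪φ, (R.π (star A) * R.π A) φ⟫_ℂ = ⟪R.π A φ, R.π A φ⟫_ℂ := by
    have h1 := R.star_inner (star A) φ (R.π A φ)
    rw [star_star] at h1
    exact h1.symm
  rw [h, inner_self_eq_norm_sq_to_K]
  norm_cast

variable {G : Type*}

/-- commutator `[B_g, S_x]` -/
def TT (B S : G → 𝒜) (g x : G) : 𝒜 := B g * S x - S x * B g

/-- weight `(1+d)^3` -/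
noncomputable def wt (d : G → G → ℝ) (x g : G) : ℝ := (1 + d x g) ^ 3

variable [TopologicalSpace G] [CompactSpace G] [SecondCountableTopology G]
  [MeasurableSpace G] [BorelSpace G] (ν : Measure G) [IsFiniteMeasure ν]

/-- `O_x = ∫ (1+d(x,g))^3 [B_g,S_x]^* [B_g,S_x] dν(g)` -/
noncomputable def OO (B S : G → 𝒜) (d : G → G → ℝ) (x : G) : 𝒜 :=
  ∫ g, ((wt d x g : ℝ) : ℂ) • (star (TT B S g x) * TT B S g x) ∂ν

variable {ν}

theorem continuous_TT {B S : G → 𝒜} (hB : Continuous B) (hS : Continuous S) :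
    Continuous (fun p : G × G => TT B S p.2 p.1) := by
  unfold TT
  fun_prop

theorem continuous_wt {d : G → G → ℝ} (hd : Continuous (fun p : G × G => d p.1 p.2)) :
    Continuous (fun p : G × G => wt d p.1 p.2) := by
  unfold wt
  fun_prop

theorem continuous_OO_aux {B S : G → 𝒜} {d : G → G → ℝ} (hB : Continuous B) (hS : Continuous S)
    (hd : Continuous (fun p : G × G => d p.1 p.2)) :
    Continuous (fun p : G × G =>
      ((wt d p.1 p.2 : ℝ) : ℂ) • (star (TT B S p.2 p.1) * TT B S p.2 p.1)) := by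
  have h1 := continuous_TT hB hS
  have h2 := continuous_wt hd
  exact (Complex.continuous_ofReal.comp h2).smul (h1.star.mul h1)

theorem continuous_OO [T2Space G] {B S : G → 𝒜} {d : G → G → ℝ} (hB : Continuous B)
    (hS : Continuous S) (hd : Continuous (fun p : G × G => d p.1 p.2)) :
    Continuous (OO ν B S d) := by
  have h := continuous_parametric_integral_of_continuous (μ := ν)
    (f := fun x g => ((wt d x g : ℝ) : ℂ) • (star (TT B S g x) * TT B S g x))
    (continuous_OO_aux hB hS hd) isCompact_univ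
  simp only [Measure.restrict_univ] at h
  exact h

/-- the square-root bootstrap inequality, quadratic part -/
theorem quad_le {B S : G → 𝒜} {d : G → G → ℝ} {s : G → ℝ} {Ck : ℝ}
    (hB : Continuous B) (hS : Continuous S) (hd : Continuous (fun p : G × G => d p.1 p.2))
    (hd0 : ∀ x g, 0 ≤ d x g) (hs : Measurable s) (hs1 : ∀ x, |s x| ≤ 1)
    (hCk : ∀ g, ∫ x, (wt d x g)⁻¹ ∂ν ≤ Ck) [T2Space G] [CompleteSpace V] (φ : V) :
    ∫ g, ‖(R.π (B g) * R.π (∫ x, (s x : ℂ) • S x ∂ν) -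
        R.π (∫ x, (s x : ℂ) • S x ∂ν) * R.π (B g)) φ‖ ^ 2 ∂ν ≤
      Ck * R.q φ (∫ x, OO ν B S d x ∂ν) := by
  have hwpos : ∀ x g, 0 < wt d x g := fun x g => by
    have := hd0 x g
    unfold wt; positivity
  have hsS : Integrable (fun x => (s x : ℂ) • S x) ν := by
    refine Integrable.mono' (g := fun x => ‖S x‖) (cint hS.norm) ?_ ?_
    · exact (Complex.measurable_ofReal.comp hs).aestronglyMeasurable.smul hS.aestronglyMeasurable
    · refine Filter.Eventually.of_forall fun x => ?_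
      rw [norm_smul, Complex.norm_real, Real.norm_eq_abs]
      exact mul_le_of_le_one_left (norm_nonneg _) (hs1 x)
  -- commutator of the integral
  have hcom : ∀ g, (R.π (B g) * R.π (∫ x, (s x : ℂ) • S x ∂ν) -
        R.π (∫ x, (s x : ℂ) • S x ∂ν) * R.π (B g)) φ =
      ∫ x, (s x : ℂ) • R.π (TT B S g x) φ ∂ν := by
    intro g
    have h1 : B g * (∫ x, (s x : ℂ) • S x ∂ν) - (∫ x, (s x : ℂ) • S x ∂ν) * B g =
        ∫ x, (s x : ℂ) • TT B S g x ∂ν := by
      have e1 : B g * (∫ x, (s x : ℂ) • S x ∂ν) = ∫ x, B g * ((s x : ℂ) • S x) ∂ν :=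
        ((ContinuousLinearMap.mul ℂ 𝒜 (B g)).integral_comp_comm hsS).symm
      have e2 : (∫ x, (s x : ℂ) • S x ∂ν) * B g = ∫ x, ((s x : ℂ) • S x) * B g ∂ν :=
        (((ContinuousLinearMap.mul ℂ 𝒜).flip (B g)).integral_comp_comm hsS).symm
      rw [e1, e2, ← integral_sub]
      · refine integral_congr_ae (Filter.Eventually.of_forall fun x => ?_)
        simp only [TT]
        rw [mul_smul_comm, smul_mul_assoc, ← smul_sub]
      · exact (ContinuousLinearMap.mul ℂ 𝒜 (B g)).integrable_comp hsS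
      · exact ((ContinuousLinearMap.mul ℂ 𝒜).flip (B g)).integrable_comp hsS
    have h2 : (R.π (B g) * R.π (∫ x, (s x : ℂ) • S x ∂ν) -
        R.π (∫ x, (s x : ℂ) • S x ∂ν) * R.π (B g)) =
        R.π (B g * (∫ x, (s x : ℂ) • S x ∂ν) - (∫ x, (s x : ℂ) • S x ∂ν) * B g) := by
      rw [map_sub, R.map_mul, R.map_mul]
    have hsT : Integrable (fun x => (s x : ℂ) • TT B S g x) ν := by
      have hT : Continuous (fun x => TT B S g x) := by unfold TT; fun_prop
      refine Integrable.mono' (g := fun x => ‖TT B S g x‖) (cint hT.norm) ?_ ?_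
      · exact (Complex.measurable_ofReal.comp hs).aestronglyMeasurable.smul
          hT.aestronglyMeasurable
      · refine Filter.Eventually.of_forall fun x => ?_
        rw [norm_smul, Complex.norm_real, Real.norm_eq_abs]
        exact mul_le_of_le_one_left (norm_nonneg _) (hs1 x)
    rw [h2, h1, ← Rep.ev_apply, ← (R.ev φ).integral_comp_comm hsT]
    refine integral_congr_ae (Filter.Eventually.of_forall fun x => ?_)
    simp only [map_smul, Rep.ev_apply]
  -- joint continuity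
  have hTc : Continuous (fun p : G × G => R.π (TT B S p.2 p.1) φ) := by
    have := continuous_TT hB hS
    exact (R.ev φ).continuous.comp this
  have hw : Continuous (fun p : G × G => wt d p.1 p.2) := continuous_wt hd
  -- Cauchy-Schwarz for fixed g
  have hg : ∀ g, ‖(R.π (B g) * R.π (∫ x, (s x : ℂ) • S x ∂ν) -
        R.π (∫ x, (s x : ℂ) • S x ∂ν) * R.π (B g)) φ‖ ^ 2 ≤
      Ck * ∫ x, wt d x g * ‖R.π (TT B S g x) φ‖ ^ 2 ∂ν := by
    intro g
    rw [hcom g]
    have hTg : Continuous (fun x => R.π (TT B S g x) φ) :=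
      hTc.comp (by fun_prop : Continuous fun x => ((x, g) : G × G))
    have hwg : Continuous (fun x => wt d x g) :=
      hw.comp (by fun_prop : Continuous fun x => ((x, g) : G × G))
    have h1 : ‖∫ x, (s x : ℂ) • R.π (TT B S g x) φ ∂ν‖ ≤ ∫ x, ‖R.π (TT B S g x) φ‖ ∂ν := by
      refine (norm_integral_le_integral_norm _).trans ?_
      refine integral_mono_of_nonneg (Filter.Eventually.of_forall fun g => norm_nonneg _)
        (cint hTg.norm) (Filter.Eventually.of_forall fun x => ?_)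
      simp only
      rw [norm_smul, Complex.norm_real, Real.norm_eq_abs]
      exact mul_le_of_le_one_left (norm_nonneg _) (hs1 x)
    have hu : Continuous (fun x => Real.sqrt ((wt d x g)⁻¹)) :=
      Real.continuous_sqrt.comp (hwg.inv₀ fun x => (hwpos x g).ne')
    have hv : Continuous (fun x => Real.sqrt (wt d x g) * ‖R.π (TT B S g x) φ‖) :=
      (Real.continuous_sqrt.comp hwg).mul hTg.norm
    have h2 := integral_norm_mul_norm_le (V := ℝ) (ν := ν) (cmem hu) (cmem hv)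
    have e1 : ∀ x, ‖Real.sqrt ((wt d x g)⁻¹)‖ * ‖Real.sqrt (wt d x g) * ‖R.π (TT B S g x) φ‖‖ =
        ‖R.π (TT B S g x) φ‖ := by
      intro x
      have h0 := hwpos x g
      rw [norm_mul, norm_norm, Real.norm_of_nonneg (Real.sqrt_nonneg _),
        Real.norm_of_nonneg (Real.sqrt_nonneg _), ← mul_assoc, ← Real.sqrt_mul (by positivity),
        inv_mul_cancel₀ h0.ne', Real.sqrt_one, one_mul]
    have e2 : ∀ x, ‖Real.sqrt ((wt d x g)⁻¹)‖ ^ 2 = (wt d x g)⁻¹ := by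
      intro x
      have h0 := hwpos x g
      rw [Real.norm_of_nonneg (Real.sqrt_nonneg _), Real.sq_sqrt (by positivity)]
    have e3 : ∀ x, ‖Real.sqrt (wt d x g) * ‖R.π (TT B S g x) φ‖‖ ^ 2 =
        wt d x g * ‖R.π (TT B S g x) φ‖ ^ 2 := by
      intro x
      have h0 := hwpos x g
      rw [norm_mul, norm_norm, Real.norm_of_nonneg (Real.sqrt_nonneg _), mul_pow,
        Real.sq_sqrt h0.le]
    simp only [e1, e2, e3] at h2
    have h3 : 0 ≤ ∫ x, wt d x g * ‖R.π (TT B S g x) φ‖ ^ 2 ∂ν :=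
      integral_nonneg fun x => mul_nonneg (hwpos x g).le (by positivity)
    have h4 : 0 ≤ ∫ x, (wt d x g)⁻¹ ∂ν :=
      integral_nonneg fun x => inv_nonneg.mpr (hwpos x g).le
    calc ‖∫ x, (s x : ℂ) • R.π (TT B S g x) φ ∂ν‖ ^ 2
        ≤ (∫ x, ‖R.π (TT B S g x) φ‖ ∂ν) ^ 2 := by
          exact pow_le_pow_left₀ (norm_nonneg _) h1 2
      _ ≤ (Real.sqrt (∫ x, (wt d x g)⁻¹ ∂ν) *
            Real.sqrt (∫ x, wt d x g * ‖R.π (TT B S g x) φ‖ ^ 2 ∂ν)) ^ 2 := by
          exact pow_le_pow_left₀ (integral_nonneg fun x => norm_nonneg _) h2 2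
      _ = (∫ x, (wt d x g)⁻¹ ∂ν) * ∫ x, wt d x g * ‖R.π (TT B S g x) φ‖ ^ 2 ∂ν := by
          rw [mul_pow, Real.sq_sqrt h4, Real.sq_sqrt h3]
      _ ≤ Ck * ∫ x, wt d x g * ‖R.π (TT B S g x) φ‖ ^ 2 ∂ν :=
          mul_le_mul_of_nonneg_right (hCk g) h3
  -- Fubini
  have hF : Continuous (fun p : G × G => wt d p.1 p.2 * ‖R.π (TT B S p.2 p.1) φ‖ ^ 2) :=
    hw.mul (hTc.norm.pow 2)
  have hF' : Continuous (fun p : G × G => wt d p.2 p.1 * ‖R.π (TT B S p.1 p.2) φ‖ ^ 2) :=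
    hF.comp continuous_swap
  have hswap : ∫ g, ∫ x, wt d x g * ‖R.π (TT B S g x) φ‖ ^ 2 ∂ν ∂ν =
      ∫ x, ∫ g, wt d x g * ‖R.π (TT B S g x) φ‖ ^ 2 ∂ν ∂ν :=
    integral_integral_swap (f := fun g x => wt d x g * ‖R.π (TT B S g x) φ‖ ^ 2)
      (cint hF')
  have hOq : ∀ x, ∫ g, wt d x g * ‖R.π (TT B S g x) φ‖ ^ 2 ∂ν = R.q φ (OO ν B S d x) := by
    intro x
    have hc : Continuous (fun g => ((wt d x g : ℝ) : ℂ) • (star (TT B S g x) * TT B S g x)) :=
      (continuous_OO_aux hB hS hd).comp (by fun_prop : Continuous fun g => ((x, g) : G × G))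
    rw [OO, ← (R.q φ).integral_comp_comm (cint hc)]
    refine integral_congr_ae (Filter.Eventually.of_forall fun g => ?_)
    simp only
    have h1 : (((wt d x g : ℝ) : ℂ) • (star (TT B S g x) * TT B S g x)) =
        (wt d x g) • (star (TT B S g x) * TT B S g x) := (Complex.coe_smul _ _)
    rw [h1, map_smul, R.q_star_mul, smul_eq_mul]
  calc ∫ g, ‖(R.π (B g) * R.π (∫ x, (s x : ℂ) • S x ∂ν) -
        R.π (∫ x, (s x : ℂ) • S x ∂ν) * R.π (B g)) φ‖ ^ 2 ∂ν
      ≤ ∫ g, Ck * ∫ x, wt d x g * ‖R.π (TT B S g x) φ‖ ^ 2 ∂ν ∂ν := by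
        refine integral_mono_of_nonneg (Filter.Eventually.of_forall fun g => by positivity) ?_
          (Filter.Eventually.of_forall hg)
        exact ((cint (ν := ν.prod ν) hF').integral_prod_left).const_mul _
    _ = Ck * ∫ x, ∫ g, wt d x g * ‖R.π (TT B S g x) φ‖ ^ 2 ∂ν ∂ν := by
        rw [integral_const_mul, hswap]
    _ = Ck * R.q φ (∫ x, OO ν B S d x ∂ν) := by
        simp only [hOq]
        rw [(R.q φ).integral_comp_comm (cint (continuous_OO hB hS hd))]

end Quad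

end Crest.Agent.R340.U856
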