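import Crest.Agent.R340.U3_856

/-!
R340, block (U) (helper856), part 3: the filtered case `Uf` from the abstract descending lemma, the
induction over sectors and (F1); then the combination `U_all` with `U_main`.
-/

set_option autoImplicit false
set_option linter.unusedSectionVars false

namespace Crest.Agent.R340.U856

open MeasureTheory
open scoped InnerProductSpace ComplexConjugate

variable {𝒜 : Type*} [CStarAlgebra 𝒜]
variable {V : Type*} [NormedAddCommGroup V] [InnerProductSpace ℂ V] [FiniteDimensional ℂ V]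
variable {G : Type*} [TopologicalSpace G] [CompactSpace G] [SecondCountableTopology G] [T2Space G]
  [MeasurableSpace G] [BorelSpace G] {ν : Measure G} [IsFiniteMeasure ν]
variable {a : Fin 2 → G → 𝒜} {d : G → G → ℝ} {Nh : 𝒜} {m : ℕ} {kap : G → G → ℝ} {S₁ S₂ Ck : ℝ}

/-- the data of the jump operators, zero modes and sectors -/
structure Jump (R : Rep 𝒜 V) (ν : Measure G) (a : Fin 2 → G → 𝒜) (Nh H : 𝒜)
    (Sec : ℕ → Submodule ℂ V) (P : V →L[ℂ] V) (Φ : G → 𝒜 → 𝒜) (γ₀ γ₂ m₁ : ℝ) : Prop where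
  H_sa : IsSelfAdjoint H
  H_num : Nh * H = H * Nh
  hH : ∀ φ χ : V, ∫ g, ⟪R.π (pB a g) φ, R.π (pB a g) χ⟫_ℂ ∂ν = ⟪φ, R.π H χ⟫_ℂ
  P_symm : ∀ φ χ : V, ⟪P φ, χ⟫_ℂ = ⟪φ, P χ⟫_ℂ
  P_idem : ∀ φ, P (P φ) = P φ
  HP : ∀ φ, R.π H (P φ) = 0
  P_sec : ∀ N, ∀ φ ∈ Sec N, P φ ∈ Sec N
  sec_num : ∀ A : 𝒜, Nh * A = A * Nh → ∀ N, ∀ φ ∈ Sec N, R.π A φ ∈ Sec N
  B_sec : ∀ g N, ∀ φ ∈ Sec (N + 2), R.π (pB a g) φ ∈ Sec N
  B_zero : ∀ g, ∀ N < 2, ∀ φ ∈ Sec N, R.π (pB a g) φ = 0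
  gap_pos : 0 < γ₀
  gap : ∀ φ, P φ = 0 → γ₀ * ‖φ‖ ^ 2 ≤ qf (R.π H) φ
  Φ_add : ∀ g A B, Φ g (A + B) = Φ g A + Φ g B
  Φ_smul : ∀ g (r : ℝ) A, Φ g (r • A) = r • Φ g A
  Φ_cont : ∀ A, Continuous (fun g => Φ g A)
  m₁_nonneg : 0 ≤ m₁
  J1 : ∀ ψ : V, ∫ g, qf (R.π (Φ g H)) (R.π (pB a g) ψ) ∂ν ≤
    ‖R.π H ψ‖ ^ 2 - γ₂ * qf (R.π H) ψ
  J2 : ∀ (A : 𝒜) (c K : ℝ) (M : ℕ), 0 ≤ c →
    (∀ n ≤ M, ∀ φ ∈ Sec n, - (c * (K - n)) * ‖φ‖ ^ 2 ≤ qf (R.π A) φ) →
    ∀ g, ∀ n ≤ M, ∀ φ ∈ Sec n, - (c * (K + m₁ - n)) * ‖φ‖ ^ 2 ≤ qf (R.π (Φ g A)) φ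

theorem continuous_qf_pair {R : Rep 𝒜 V} {A : G → 𝒜} {f : G → V} (hA : Continuous A)
    (hf : Continuous f) : Continuous (fun g => qf (R.π (A g)) (f g)) := by
  have h1 : Continuous (fun g => R.π (A g)) := R.π.continuous.comp hA
  unfold qf
  exact Complex.continuous_re.comp (hf.inner (h1.clm_apply hf))

/-- **filtered (U)** from DL + F1. -/
theorem Jump.Uf {R : Rep 𝒜 V} {H : 𝒜} {Sec : ℕ → Submodule ℂ V} {P : V →L[ℂ] V}
    {Φ : G → 𝒜 → 𝒜} {γ₀ γ₂ m₁ : ℝ} (J : Jump R ν a Nh H Sec P Φ γ₀ γ₂ m₁)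
    (F : Frame ν a d kap Nh m S₁ S₂ Ck) {Ψ : V} {N₀ : ℕ} {CE CR CF : ℝ}
    (hγ₂ : 0 < γ₂) (hCE : 0 ≤ CE) (hCR : 0 ≤ CR) (hCF : 0 ≤ CF)
    (J3 : ∀ W, Fam a d Nh m 1 W → ∀ s : G → ℝ, Measurable s → (∀ x, |s x| ≤ 1) →
      ∀ g φ, |R.q φ ((∫ x, (s x : ℂ) • W x ∂ν) - Φ g (∫ x, (s x : ℂ) • W x ∂ν))| ≤
        CE * ‖φ‖ ^ 2)
    (J4 : ∀ W, Fam a d Nh m 1 W → (∀ x φ, R.π (W x) (P φ) = P (R.π (W x) φ)) →
      ∀ s : G → ℝ, Measurable s → (∀ x, |s x| ≤ 1) → ∀ ψ,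
      ∫ g, ‖(R.π (pB a g) * R.π (∫ x, (s x : ℂ) • W x ∂ν) -
        R.π (∫ x, (s x : ℂ) • W x ∂ν) * R.π (pB a g)) ψ‖ ^ 2 ∂ν ≤ CR ^ 2 * qf (R.π H) ψ)
    (F1 : ∀ W, Fam a d Nh m 1 W → (∀ x φ, R.π (W x) (P φ) = P (R.π (W x) φ)) →
      (∀ x, R.π (W x) Ψ = 0) → ∀ s : G → ℝ, Measurable s → (∀ x, |s x| ≤ 1) →
      ∀ N ≤ N₀, ∀ φ ∈ Sec N, P φ = φ →
        |R.q φ (∫ x, (s x : ℂ) • W x ∂ν)| ≤ CF * ((N₀ : ℝ) - N) * ‖φ‖ ^ 2) :
    ∀ X, Fam a d Nh m 1 X → (∀ x, R.π (X x) Ψ = 0) →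
      (∀ x φ, R.π (X x) (P φ) = P (R.π (X x) φ)) →
      ∀ s : G → ℝ, Measurable s → (∀ x, |s x| ≤ 1) → ∀ φ ∈ Sec N₀,
        |R.q φ (∫ x, (s x : ℂ) • X x ∂ν)| ≤
          ((CF * (2 + m₁) + CE + CR + γ₂) / γ₂) * R.q φ H := by
  intro X hX hX0 hXP s hs hs1 φ hφ
  set Y : 𝒜 := ∫ x, (s x : ℂ) • X x ∂ν with hY
  have hYsa : IsSelfAdjoint Y := sa_integral_fam hX hs hs1
  have iX := integrable_smul_fam (ν := ν) hX hs hs1
  have hYnum : Nh * Y = Y * Nh := by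
    have a1 := ((ContinuousLinearMap.mul ℂ 𝒜 Nh).integral_comp_comm iX)
    have a2 := (((ContinuousLinearMap.mul ℂ 𝒜).flip Nh).integral_comp_comm iX)
    simp only [ContinuousLinearMap.mul_apply', ContinuousLinearMap.flip_apply] at a1 a2
    rw [hY, ← a1, ← a2]
    refine integral_congr_ae (Filter.Eventually.of_forall fun x => ?_)
    simp only
    rw [mul_smul_comm, smul_mul_assoc, hX.num x]
  have hYP : ∀ φ, R.π Y (P φ) = P (R.π Y φ) := by
    intro φ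
    have b1 : R.π Y (P φ) = ∫ x, (s x : ℂ) • R.π (X x) (P φ) ∂ν := by
      rw [hY, ← Rep.ev_apply, ← (R.ev (P φ)).integral_comp_comm iX]
      refine integral_congr_ae (Filter.Eventually.of_forall fun x => ?_)
      simp only [map_smul, Rep.ev_apply]
    have b2 : P (R.π Y φ) = ∫ x, (s x : ℂ) • P (R.π (X x) φ) ∂ν := by
      have b3 : R.π Y φ = ∫ x, (s x : ℂ) • R.π (X x) φ ∂ν := by
        rw [hY, ← Rep.ev_apply, ← (R.ev φ).integral_comp_comm iX]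
        refine integral_congr_ae (Filter.Eventually.of_forall fun x => ?_)
        simp only [map_smul, Rep.ev_apply]
      have b4 : Integrable (fun x => (s x : ℂ) • R.π (X x) φ) ν := by
        have := (R.ev φ).integrable_comp iX
        refine this.congr (Filter.Eventually.of_forall fun x => ?_)
        simp only [map_smul, Rep.ev_apply]
      rw [b3, ← P.integral_comp_comm b4]
      refine integral_congr_ae (Filter.Eventually.of_forall fun x => ?_)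
      simp only [map_smul]
    rw [b1, b2]
    refine integral_congr_ae (Filter.Eventually.of_forall fun x => ?_)
    simp only [hXP]
  set D : ℝ := CF * (2 + m₁) + CE + CR + γ₂ with hD
  have hm := J.m₁_nonneg
  have hDpos : 0 < D := by positivity
  set ε : ℝ := γ₂ / D with hε
  have hεpos : 0 < ε := by positivity
  have hcont : Continuous (fun g => R.π (pB a g)) := R.π.continuous.comp F.pB_cont
  have hBc : ∀ χ : V, Continuous (fun g => R.π (pB a g) χ) := fun χ =>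
    (R.ev χ).continuous.comp F.pB_cont
  -- the main inequality for both signs
  have main : ∀ r : ℝ, |r| = ε → 0 ≤ R.q φ (H + (r : ℂ) • Y) := by
    intro r hr
    set W : 𝒜 := (r : ℂ) • Y with hW
    have hWsa : IsSelfAdjoint W := by
      have : star W = W := by
        rw [hW, star_smul, hYsa.star_eq]
        simp
      exact this
    have hqW : ∀ χ, R.q χ W = r * R.q χ Y := by
      intro χ
      have : W = r • Y := by rw [hW]; exact Complex.coe_smul _ _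
      rw [this, map_smul, smul_eq_mul]
    have hWnum : Nh * W = W * Nh := by
      rw [hW, mul_smul_comm, smul_mul_assoc, hYnum]
    have hWP : ∀ χ, R.π W (P χ) = P (R.π W χ) := by
      intro χ
      rw [hW, map_smul]
      change (r : ℂ) • R.π Y (P χ) = P ((r : ℂ) • R.π Y χ)
      rw [map_smul, hYP]
    have hind := sector_ind (Sec := Sec) (H := R.π H) (W := R.π W) (P := P)
      (c := CF * ε) (m₁ := m₁) (γ₀ := γ₀) (γ₃ := γ₂ - CE * ε - CR * ε) (κ := 0) (N₀ := N₀)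
      (fun u v => R.sa J.H_sa u v) (fun u v => R.sa hWsa u v) J.P_symm J.P_idem J.HP hWP
      (J.sec_num H J.H_num) (J.sec_num W hWnum) J.P_sec J.gap J.gap_pos
      (by
        intro N hN χ hχ hPχ
        have h1 := F1 X hX hXP hX0 s hs hs1 N hN χ hχ hPχ
        rw [← hY] at h1
        have h2 : qf (R.π W) χ = r * R.q χ Y := hqW χ
        have h3 : |r * R.q χ Y| ≤ ε * (CF * ((N₀ : ℝ) - N) * ‖χ‖ ^ 2) := by
          rw [abs_mul, hr]
          exact mul_le_mul_of_nonneg_left h1 hεpos.le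
        rw [h2]
        have := (abs_le.mp h3).1
        nlinarith)
      (by
        intro N hN ih ψ hψ E hE
        have hW' : R.π H + R.π W = R.π (H + W) := (map_add _ _ _).symm
        have hΦWc : Continuous (fun g => qf (R.π (Φ g W)) (R.π (pB a g) ψ)) :=
          continuous_qf_pair (J.Φ_cont W) (hBc ψ)
        have hΦHc : Continuous (fun g => qf (R.π (Φ g H)) (R.π (pB a g) ψ)) :=
          continuous_qf_pair (J.Φ_cont H) (hBc ψ)
        have hWc : Continuous (fun g => qf (R.π W) (R.π (pB a g) ψ)) :=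
          continuous_qf_pair continuous_const (hBc ψ)
        have hdl := dl (ν := ν) (H := R.π H) (W := R.π W) (B := fun g => R.π (pB a g))
          (ΦH := fun g => R.π (Φ g H)) (ΦW := fun g => R.π (Φ g W))
          (c := CF * ε) (N₀ := N₀) (m₁ := m₁) (γ₂ := γ₂) (δ := CE * ε) (δ' := CR * ε) (E := E)
          (N := N) (ψ := ψ) (by positivity) J.hH (fun χ => cmem (hBc χ))
          (fun χ => cmem (by
            have h1 : Continuous (fun g => R.π (pB a g) * R.π W - R.π W * R.π (pB a g)) := by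
              fun_prop
            exact h1.clm_apply continuous_const))
          (cint hΦHc) (cint hΦWc) (cint hWc) (J.J1 ψ)
          (by
            intro g
            have e0 : R.π (Φ g H) + R.π (Φ g W) = R.π (Φ g (H + W)) := by
              rw [J.Φ_add, map_add]
            rw [e0]
            rcases Nat.lt_or_ge N 2 with hN2 | hN2
            · rw [J.B_zero g N hN2 ψ hψ]
              simp [qf_zero]
            · obtain ⟨M, rfl⟩ := Nat.exists_eq_add_of_le' hN2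
              have h1 := J.J2 (H + W) (CF * ε) N₀ M (by positivity)
                (fun n hn χ hχ => by
                  have h2 := ih n (by omega) χ hχ
                  rwa [hW'] at h2) g M le_rfl _ (J.B_sec g M ψ hψ)
              have e1 : - (CF * ε * ((N₀ : ℝ) - ((M + 2 : ℕ) : ℝ) + 2 + m₁)) =
                  - (CF * ε * ((N₀ : ℝ) + m₁ - M)) := by
                push_cast
                ring
              rw [e1]
              exact h1)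
          (by
            intro g χ
            have h1 := J3 X hX s hs hs1 g χ
            rw [← hY] at h1
            have h2 : qf (R.π W - R.π (Φ g W)) χ = r * R.q χ (Y - Φ g Y) := by
              have h3 : R.π W - R.π (Φ g W) = R.π (W - Φ g W) := (map_sub _ _ _).symm
              have h4 : W - Φ g W = r • (Y - Φ g Y) := by
                have h5 : W = r • Y := by rw [hW]; exact Complex.coe_smul _ _
                rw [h5, J.Φ_smul, smul_sub]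
              rw [h3, h4, ← Rep.q_apply, map_smul, smul_eq_mul]
            rw [h2, abs_mul, hr]
            calc ε * |R.q χ (Y - Φ g Y)| ≤ ε * (CE * ‖χ‖ ^ 2) :=
                  mul_le_mul_of_nonneg_left h1 hεpos.le
              _ = _ := by ring)
          (by
            have h1 := J4 X hX hXP s hs hs1 ψ
            rw [← hY] at h1
            have h2 : ∀ g, ‖(R.π (pB a g) * R.π W - R.π W * R.π (pB a g)) ψ‖ ^ 2 =
                ε ^ 2 * ‖(R.π (pB a g) * R.π Y - R.π Y * R.π (pB a g)) ψ‖ ^ 2 := by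
              intro g
              have h3 : R.π (pB a g) * R.π W - R.π W * R.π (pB a g) =
                  (r : ℂ) • (R.π (pB a g) * R.π Y - R.π Y * R.π (pB a g)) := by
                rw [hW, map_smul, mul_smul_comm, smul_mul_assoc, smul_sub]
              have h4 : (R.π (pB a g) * R.π W - R.π W * R.π (pB a g)) ψ =
                  (r : ℂ) • ((R.π (pB a g) * R.π Y - R.π Y * R.π (pB a g)) ψ) := by
                rw [h3]; rfl
              rw [h4, norm_smul, Complex.norm_real, Real.norm_eq_abs, hr, mul_pow]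
            simp only [h2]
            rw [integral_const_mul]
            calc ε ^ 2 * _ ≤ ε ^ 2 * (CR ^ 2 * qf (R.π H) ψ) :=
                  mul_le_mul_of_nonneg_left h1 (by positivity)
              _ = _ := by ring)
          hE (fun u v => R.sa J.H_sa u v)
        linarith)
      (by positivity) le_rfl
      (by
        have h1 : ε * D = γ₂ := by rw [hε]; field_simp
        have h2 : ε * D = CF * ε * (2 + m₁) + CE * ε + CR * ε + γ₂ * ε := by rw [hD]; ring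
        have h3 : 0 ≤ γ₂ * ε := by positivity
        linarith)
    have h1 := hind.1 N₀ le_rfl φ hφ
    have h2 : qf (R.π H + R.π W) φ = R.q φ (H + W) := by
      rw [Rep.q_apply, map_add]
    rw [h2] at h1
    simpa using h1
  have hp := main ε (abs_of_pos hεpos)
  have hn := main (-ε) (by rw [abs_neg, abs_of_pos hεpos])
  have hsm : ∀ r : ℝ, R.q φ (H + (r : ℂ) • Y) = R.q φ H + r * R.q φ Y := by
    intro r
    have : (r : ℂ) • Y = r • Y := Complex.coe_smul _ _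
    rw [this, map_add, map_smul, smul_eq_mul]
  rw [hsm] at hp hn
  rw [abs_le]
  have h1 : ε * (D / γ₂) = 1 := by rw [hε]; field_simp
  have h2 : 0 < D / γ₂ := by positivity
  constructor
  · have := mul_le_mul_of_nonneg_left hp h2.le
    nlinarith
  · have := mul_le_mul_of_nonneg_left hn h2.le
    nlinarith

/-- the a priori bound, from the gap and the uniqueness of the zero mode in the sector `N₀` -/
theorem Jump.apriori {R : Rep 𝒜 V} {H : 𝒜} {Sec : ℕ → Submodule ℂ V} {P : V →L[ℂ] V}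
    {Φ : G → 𝒜 → 𝒜} {γ₀ γ₂ m₁ : ℝ} (J : Jump R ν a Nh H Sec P Φ γ₀ γ₂ m₁)
    {Ψ : V} {N₀ : ℕ} (uniq : ∀ φ ∈ Sec N₀, ∃ z : ℂ, P φ = z • Ψ)
    (Y : 𝒜) (hY : IsSelfAdjoint Y) (hYΨ : R.π Y Ψ = 0) (φ : V) (hφ : φ ∈ Sec N₀) :
    |R.q φ Y| ≤ γ₀⁻¹ * ‖Y‖ * R.q φ H := by
  obtain ⟨z, hz⟩ := uniq φ hφ
  set u := φ - P φ with hu
  have hYP : R.π Y (P φ) = 0 := by rw [hz, map_smul, hYΨ, smul_zero]
  have hPu : P u = 0 := by rw [hu, map_sub, J.P_idem, sub_self]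
  have e1 : R.q φ Y = R.q u Y := by
    rw [Rep.q_apply, Rep.q_apply, qf, qf]
    have h1 : R.π Y φ = R.π Y u := by rw [hu, map_sub, hYP, sub_zero]
    have h2 : ⟪φ, R.π Y u⟫_ℂ = ⟪u, R.π Y u⟫_ℂ := by
      rw [← R.sa hY, h1, R.sa hY]
    rw [h1, h2]
  have e2 : R.q φ H = R.q u H := by
    rw [Rep.q_apply, Rep.q_apply, qf, qf]
    have h1 : R.π H φ = R.π H u := by rw [hu, map_sub, J.HP, sub_zero]
    have h2 : ⟪φ, R.π H u⟫_ℂ = ⟪u, R.π H u⟫_ℂ := by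
      rw [← R.sa J.H_sa, h1, R.sa J.H_sa]
    rw [h1, h2]
  rw [e1, e2]
  have h3 := J.gap u hPu
  have h4 : |R.q u Y| ≤ ‖Y‖ * ‖u‖ ^ 2 := by
    rw [Rep.q_apply, qf]
    refine (Complex.abs_re_le_norm _).trans ((norm_inner_le_norm _ _).trans ?_)
    have h5 : ‖R.π Y u‖ ≤ ‖Y‖ * ‖u‖ :=
      ((R.π Y).le_opNorm u).trans (mul_le_mul_of_nonneg_right (R.norm_le Y) (norm_nonneg _))
    nlinarith [norm_nonneg u]
  have hg := J.gap_pos
  have h6 : ‖u‖ ^ 2 ≤ γ₀⁻¹ * R.q u H := by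
    rw [inv_mul_eq_div, le_div_iff₀ hg, mul_comm]
    exact h3
  calc |R.q u Y| ≤ ‖Y‖ * ‖u‖ ^ 2 := h4
    _ ≤ ‖Y‖ * (γ₀⁻¹ * R.q u H) := mul_le_mul_of_nonneg_left h6 (norm_nonneg _)
    _ = _ := by ring

/-- the constant of theorem (U) -/
noncomputable def CU (CF CE CR γ₂ m₁ Cw Ck S₁ S₂ : ℝ) : ℝ :=
  2 * (((CF * (2 + m₁) + CE + CR + γ₂) / γ₂) * Cw) + 4 * (Ck * (8 * Cw ^ 2 * (S₁ + S₂)))

/-- **Theorem (U)**, all hypotheses on the frame, the jumps, (R1), (F1) and the filter explicit. The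
constant `CU ...` does not depend on the flux. -/
theorem U_all {R : Rep 𝒜 V} {H : 𝒜} {Sec : ℕ → Submodule ℂ V} {P : V →L[ℂ] V}
    {Φ : G → 𝒜 → 𝒜} {γ₀ γ₂ m₁ : ℝ} (J : Jump R ν a Nh H Sec P Φ γ₀ γ₂ m₁)
    (F : Frame ν a d kap Nh m S₁ S₂ Ck) {Ψ : V} {N₀ : ℕ} {CE CR CF Cw : ℝ}
    (hγ₂ : 0 < γ₂) (hCE : 0 ≤ CE) (hCR : 0 ≤ CR) (hCF : 0 ≤ CF) (hCw : 0 < Cw)
    (hBΨ : ∀ g, R.π (pB a g) Ψ = 0) (uniq : ∀ φ ∈ Sec N₀, ∃ z : ℂ, P φ = z • Ψ)
    (J3 : ∀ W, Fam a d Nh m 1 W → ∀ s : G → ℝ, Measurable s → (∀ x, |s x| ≤ 1) →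
      ∀ g φ, |R.q φ ((∫ x, (s x : ℂ) • W x ∂ν) - Φ g (∫ x, (s x : ℂ) • W x ∂ν))| ≤
        CE * ‖φ‖ ^ 2)
    (J4 : ∀ W, Fam a d Nh m 1 W → (∀ x φ, R.π (W x) (P φ) = P (R.π (W x) φ)) →
      ∀ s : G → ℝ, Measurable s → (∀ x, |s x| ≤ 1) → ∀ ψ,
      ∫ g, ‖(R.π (pB a g) * R.π (∫ x, (s x : ℂ) • W x ∂ν) -
        R.π (∫ x, (s x : ℂ) • W x ∂ν) * R.π (pB a g)) ψ‖ ^ 2 ∂ν ≤ CR ^ 2 * qf (R.π H) ψ)
    (F1 : ∀ W, Fam a d Nh m 1 W → (∀ x φ, R.π (W x) (P φ) = P (R.π (W x) φ)) →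
      (∀ x, R.π (W x) Ψ = 0) → ∀ s : G → ℝ, Measurable s → (∀ x, |s x| ≤ 1) →
      ∀ N ≤ N₀, ∀ φ ∈ Sec N, P φ = φ →
        |R.q φ (∫ x, (s x : ℂ) • W x ∂ν)| ≤ CF * ((N₀ : ℝ) - N) * ‖φ‖ ^ 2)
    (filt : ∀ X, Fam a d Nh m 1 X → (∀ x, R.π (X x) Ψ = 0) →
      ∃ Xt S, Fam a d Nh m Cw Xt ∧ Fam a d Nh m Cw S ∧
        (∀ x, X x - Xt x = Complex.I • (H * S x - S x * H)) ∧
        (∀ x, R.π (Xt x) Ψ = 0) ∧ (∀ x, R.π (S x) Ψ = 0) ∧
        (∀ x φ, R.π (Xt x) (P φ) = P (R.π (Xt x) φ))) :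
    ∀ X, Fam a d Nh m 1 X → (∀ x, R.π (X x) Ψ = 0) →
      ∀ s : G → ℝ, Measurable s → (∀ x, |s x| ≤ 1) → ∀ φ ∈ Sec N₀,
        |R.q φ (∫ x, (s x : ℂ) • X x ∂ν)| ≤ CU CF CE CR γ₂ m₁ Cw Ck S₁ S₂ * R.q φ H := by
  have hm := J.m₁_nonneg
  have hg := J.gap_pos
  refine U_main (Sec := (Sec N₀ : Set V))
    (Good := fun X => ∀ x φ, R.π (X x) (P φ) = P (R.π (X x) φ)) R F hCw (by positivity)
    (inv_nonneg.mpr hg.le) J.H_sa J.hH hBΨ
    (fun Y hY hYΨ φ hφ => J.apriori uniq Y hY hYΨ φ hφ) filt ?_ ?_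
  · intro X r hX x φ
    rw [map_smul]
    change (r : ℂ) • R.π (X x) (P φ) = P ((r : ℂ) • R.π (X x) φ)
    rw [map_smul, hX]
  · intro X hX hX0 hXP s hs hs1 φ hφ
    exact J.Uf F hγ₂ hCE hCR hCF J3 J4 F1 X hX hX0 hXP s hs hs1 φ hφ

end Crest.Agent.R340.U856
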