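import Crest.Agent.R340.Vac1_467
import Crest.Agent.R340.GeoM_986
import Crest.Agent.R340.Peel_596
import Crest.Agent.R340.Bridge_320
import Crest.Agent.R340.GapLaughlin

/-!
# Existence of the reference state, and the vacuum at `3 ∣ Q` (helper467, R340, O5 part 2)

* `mem_Zs_nu0_iff` : `ψ ∈ Zs (nu0 Q) Q ↔ ∀ p, Bp Q p ψ = 0`, `ker_HH : HH Q ψ = 0 ↔ ψ ∈ Zs (nu0 Q) Q`;
* `exists_ref` : for every positive metric and `3 (n-1) ≤ Q` there is a reference state;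
* at `Q = 3 (n-1)` the space `Zn ν Q n` is spanned by the reference state.
-/

set_option autoImplicit false

namespace Crest.Agent.R340.Vac467

open Finset Fock649 Geo986 GG467 Emb596 Peel596 Crest.MathPhysics.Laughlin
open Br320 (wM Bp HH toFk sector)

variable {Q : ℕ}

/-! ### the round metric and the pair annihilators of the statement -/

/-- constant relating `Bp` and `bz` -/
noncomputable def kB (Q p : ℕ) : ℝ := (√2)⁻¹ * 2 / √(2 * pairNorm Q (p + 1))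

theorem pairVec_antisymm (Q : ℕ) (p : Fin (2 * Q - 1)) (i j : Fin (Q + 1)) :
    pairVec Q p j i = - pairVec Q p i j := by
  unfold pairVec
  by_cases h : (i : ℕ) + j = p + 1
  · rw [if_pos h, if_pos (by omega), mul_comm ((Q.choose j : ℝ)) ((Q.choose i : ℝ))]
    ring
  · rw [if_neg h, if_neg (by omega), neg_zero]

/-- a double sum of an antisymmetric coefficient against `c j * c i` is twice the ordered sum -/
theorem sum_anti {ι : Type*} [LinearOrder ι] [Fintype ι] (w : ι → ι → ℂ)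
    (h : ∀ i j, w j i = - w i j) :
    (∑ i, ∑ j, w i j • (c j * c i : Op ι)) =
      (2 : ℂ) • ∑ x ∈ univ.filter (fun x : ι × ι => x.1 < x.2), w x.1 x.2 • (c x.2 * c x.1) := by
  have h0 : ∀ i, w i i = 0 := by
    intro i
    have := h i i
    have h2 : (2 : ℂ) * w i i = 0 := by linear_combination this
    rcases mul_eq_zero.1 h2 with h3 | h3
    · exact absurd h3 (by norm_num)
    · exact h3
  have hcc : ∀ i j : ι, (c i * c j : Op ι) = - (c j * c i) := by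
    intro a b
    rw [eq_neg_iff_add_eq_zero]; exact c_c a b
  have e1 : (∑ i, ∑ j, w i j • (c j * c i : Op ι)) =
      ∑ x : ι × ι, w x.1 x.2 • (c x.2 * c x.1) := by
    rw [← Finset.univ_product_univ, Finset.sum_product]
  rw [e1]
  have e2 : ∑ x : ι × ι, w x.1 x.2 • (c x.2 * c x.1 : Op ι) =
      ∑ x ∈ univ.filter (fun x : ι × ι => x.1 < x.2), w x.1 x.2 • (c x.2 * c x.1) +
      ∑ x ∈ univ.filter (fun x : ι × ι => ¬ x.1 < x.2), w x.1 x.2 • (c x.2 * c x.1) :=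
    (Finset.sum_filter_add_sum_filter_not univ _ _).symm
  have e3 : ∑ x ∈ univ.filter (fun x : ι × ι => ¬ x.1 < x.2), w x.1 x.2 • (c x.2 * c x.1 : Op ι) =
      ∑ x ∈ univ.filter (fun x : ι × ι => x.2 < x.1), w x.1 x.2 • (c x.2 * c x.1) := by
    symm
    refine Finset.sum_subset ?_ ?_
    · intro x hx
      rw [Finset.mem_filter] at hx ⊢
      exact ⟨hx.1, not_lt.2 hx.2.le⟩
    · intro x hx hx'
      rw [Finset.mem_filter] at hx hx'
      have hx1 : x.1 = x.2 := by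
        have h1 := not_lt.1 hx.2
        have h2 : ¬ x.2 < x.1 := fun h => hx' ⟨mem_univ _, h⟩
        exact le_antisymm (not_lt.1 h2) h1
      rw [hx1, h0, zero_smul]
  have e4 : ∑ x ∈ univ.filter (fun x : ι × ι => x.2 < x.1), w x.1 x.2 • (c x.2 * c x.1 : Op ι) =
      ∑ x ∈ univ.filter (fun x : ι × ι => x.1 < x.2), w x.1 x.2 • (c x.2 * c x.1) := by
    refine Finset.sum_bij' (fun x _ => (x.2, x.1)) (fun x _ => (x.2, x.1)) ?_ ?_ ?_ ?_ ?_
    · intro x hx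
      rw [Finset.mem_filter] at hx ⊢
      exact ⟨mem_univ _, hx.2⟩
    · intro x hx
      rw [Finset.mem_filter] at hx ⊢
      exact ⟨mem_univ _, hx.2⟩
    · intro x _; rfl
    · intro x _; rfl
    · intro x _
      show w x.1 x.2 • (c x.2 * c x.1 : Op ι) = w x.2 x.1 • (c x.1 * c x.2)
      rw [h x.1 x.2, hcc x.1 x.2, smul_neg, neg_smul, neg_neg]
  rw [e2, e3, e4, two_smul]

theorem Bp_eq_bz (Q : ℕ) (p : Fin (2 * Q - 1)) :
    Bp Q p = ((kB Q p : ℝ) : ℂ) • bz (nu0 Q) Q (p + 1) := by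
  unfold Bp pa
  have h1 : (∑ i, ∑ j, (starRingEnd ℂ) (wM Q p i j) • (c j * c i : Op (Fin (Q + 1)))) =
      ∑ i, ∑ j, ((pairVec Q p i j : ℝ) : ℂ) • (c j * c i) := by
    refine Finset.sum_congr rfl fun i _ => Finset.sum_congr rfl fun j _ => ?_
    rw [Br320.wM_apply, Complex.conj_ofReal]
  rw [h1, sum_anti (fun i j => ((pairVec Q p i j : ℝ) : ℂ)) (fun i j => by
    rw [pairVec_antisymm]; push_cast; ring)]
  unfold bz
  rw [smul_smul, Finset.smul_sum, Finset.smul_sum]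
  have h2 : ∑ x ∈ pairs Q (p + 1), (((kB Q p : ℝ) : ℂ) •
      ((bcoef (nu0 Q) x.1 x.2 : ℝ) : ℂ) • (c x.2 * c x.1 : Op (Fin (Q + 1)))) =
      ∑ x ∈ univ.filter (fun x : Fin (Q + 1) × Fin (Q + 1) => x.1 < x.2),
        (((√2 : ℝ) : ℂ)⁻¹ * 2) • ((pairVec Q p x.1 x.2 : ℝ) : ℂ) • (c x.2 * c x.1) := by
    have hsub : pairs Q (p + 1) ⊆
        univ.filter (fun x : Fin (Q + 1) × Fin (Q + 1) => x.1 < x.2) := by
      intro x hx
      rw [Finset.mem_filter]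
      exact ⟨mem_univ _, (mem_pairs.1 hx).1⟩
    rw [← Finset.sum_subset hsub]
    · refine Finset.sum_congr rfl fun x hx => ?_
      obtain ⟨_, hx2⟩ := mem_pairs.1 hx
      rw [smul_smul, smul_smul]
      congr 1
      have h3 : pairVec Q p x.1 x.2 = (((x.2 : ℕ) : ℝ) - (x.1 : ℕ)) *
          Real.sqrt ((Nat.choose Q x.1 : ℝ) * Nat.choose Q x.2) /
          Real.sqrt (2 * pairNorm Q (p + 1)) := by
        unfold pairVec
        rw [if_pos hx2]
      have h4 : bcoef (nu0 Q) x.1 x.2 = (((x.2 : ℕ) : ℝ) - (x.1 : ℕ)) *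
          Real.sqrt ((Nat.choose Q x.1 : ℝ) * Nat.choose Q x.2) := by
        unfold bcoef nu0
        rw [Real.sqrt_mul (by positivity), ← mul_inv, div_inv_eq_mul]
      rw [h3, h4]
      unfold kB
      push_cast
      ring
    · intro x hx hx'
      rw [Finset.mem_filter] at hx
      have h3 : pairVec Q p x.1 x.2 = 0 := by
        unfold pairVec
        rw [if_neg]
        intro h
        exact hx' (mem_pairs.2 ⟨hx.2, h⟩)
      rw [h3]
      simp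
  rw [h2]

theorem kB_pos {Q : ℕ} (p : Fin (2 * Q - 1)) : 0 < kB Q p := by
  have h := pairNorm_pos (q := Q) (b := p + 1) (by omega) (by omega)
  unfold kB
  positivity

theorem bz_eq_zero_of {ν : ℕ → ℝ} {p : ℕ} (h : p = 0 ∨ 2 * Q ≤ p) : bz ν Q p = 0 := by
  apply bz_eq_zero_of_empty
  rcases h with h | h
  · subst h
    refine eq_empty_of_forall_notMem fun x hx => ?_
    obtain ⟨h1, h2⟩ := mem_pairs.mp hx
    have h3 : (x.1 : ℕ) < x.2 := h1
    omega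
  · exact pairs_eq_empty_of_ge h

theorem mem_Zs_nu0_iff {ψ : Fk (Fin (Q + 1))} :
    ψ ∈ Zs (nu0 Q) Q ↔ ∀ p, Bp Q p ψ = 0 := by
  constructor
  · intro h p
    rw [Bp_eq_bz, smul_ap, h, smul_zero]
  · intro h p
    rcases Nat.eq_zero_or_pos p with h0 | h0
    · rw [bz_eq_zero_of (Or.inl h0), zero_ap]
    rcases le_or_gt (2 * Q) p with h1 | h1
    · rw [bz_eq_zero_of (Or.inr h1), zero_ap]
    · have h2 := h ⟨p - 1, by omega⟩
      rw [Bp_eq_bz, smul_ap] at h2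
      have h3 : (p - 1 : ℕ) + 1 = p := by omega
      simp only [h3] at h2
      rcases smul_eq_zero.1 h2 with h4 | h4
      · have h5 := kB_pos (Q := Q) ⟨p - 1, by omega⟩
        exact absurd (by exact_mod_cast h4) h5.ne'
      · exact h4

theorem HH_eq_hs (Q : ℕ) : HH Q = hs (Bp Q) := rfl

theorem ker_HH (Q : ℕ) : ker (HH Q) = Zs (nu0 Q) Q := by
  ext ψ
  rw [HH_eq_hs, mem_ker_hs, mem_Zs_nu0_iff]

theorem HH_eq_zero_iff {ψ : Fk (Fin (Q + 1))} : HH Q ψ = 0 ↔ ψ ∈ Zs (nu0 Q) Q := by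
  rw [← ker_HH]; rfl

theorem PK_HH (Q : ℕ) : PK (HH Q) = pj (Zs (nu0 Q) Q) := by
  unfold PK; rw [ker_HH]

/-! ### upper bound for admissible sets -/

theorem adm_upper : ∀ (n : ℕ) (S : Finset (Fin (Q + 1))), Adm S → S.card = n →
    (∀ i ∈ S, (i : ℕ) ≤ 3 * (n - 1)) → ∑ i ∈ S, (i : ℕ) ≤ lmin n := by
  intro n
  induction n with
  | zero =>
    intro S _ hc _
    have : S = ∅ := Finset.card_eq_zero.1 hc
    subst this
    simp
  | succ n ih =>
    intro S hS hc hb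
    have hne : S.Nonempty := Finset.card_pos.1 (by omega)
    obtain ⟨t, ht, hmax⟩ := Finset.exists_max_image S (fun i => (i : ℕ)) hne
    have hc' : (S.erase t).card = n := by rw [Finset.card_erase_of_mem ht, hc]; rfl
    have hS' : Adm (S.erase t) := fun i hi j hj hij =>
      hS i (Finset.mem_of_mem_erase hi) j (Finset.mem_of_mem_erase hj) hij
    have hbt := hb t ht
    have hb' : ∀ i ∈ S.erase t, (i : ℕ) ≤ 3 * (n - 1) := by
      intro i hi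
      have h1 : i < t := lt_of_le_of_ne (hmax i (Finset.mem_of_mem_erase hi))
        (Finset.ne_of_mem_erase hi)
      have h2 := hS i (Finset.mem_of_mem_erase hi) t ht h1
      omega
    have h1 := ih (S.erase t) hS' hc' hb'
    have hsum : ∑ i ∈ S, (i : ℕ) = (t : ℕ) + ∑ i ∈ S.erase t, (i : ℕ) :=
      (Finset.add_sum_erase S (fun i => (i : ℕ)) ht).symm
    rw [hsum, lmin_succ]
    have h2 : (t : ℕ) ≤ 3 * n := by simpa using hbt
    omega

/-- at `Q = 3 (n-1)` the only admissible set with `n` elements is the root -/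
theorem adm_root {n : ℕ} (hn : Q = 3 * (n - 1)) {S : Finset (Fin (Q + 1))} (hS : Adm S)
    (hc : S.card = n) : S = rootS Q n := by
  refine adm_eq_root hS hc (le_antisymm ?_ (adm_bounds n S hS hc).1)
  exact adm_upper n S hS hc (fun i _ => by have := i.2; omega)

theorem map_mem_Zn_Lz {ν : ℕ → ℝ} {n : ℕ} {ψ : Fk (Fin (Q + 1))} (h : ψ ∈ Zn ν Q n) :
    Lz Q ψ ∈ Zn ν Q n := by
  refine ⟨map_mem_Zs_of_comm (Lz_comm_bz ν) h.1, ?_⟩
  have h1 : Nh * Lz Q = Lz Q * Nh := Nh_comm_dG _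
  rw [← mul_ap, h1, mul_ap, h.2, map_smul]

/-- at `Q = 3 (n-1)`: zero modes with `n` particles have minimal angular momentum -/
theorem sec_of_Zn {ν : ℕ → ℝ} (hν : PosM ν Q) {n : ℕ} (hn : Q = 3 * (n - 1))
    {ψ : Fk (Fin (Q + 1))} (h : ψ ∈ Zn ν Q n) : Sec Q n (lmin n) ψ := by
  refine ⟨h.2, ?_⟩
  rw [← sub_eq_zero]
  set w := Lz Q ψ - (lmin n : ℂ) • ψ with hw
  have hwZ : w ∈ Zn ν Q n := Submodule.sub_mem _ (map_mem_Zn_Lz h) (Submodule.smul_mem _ _ h)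
  by_contra h0
  obtain ⟨S, hS, hadm⟩ := exists_adm hν hwZ.1 h0
  have hc : S.card = n := by
    by_contra hc
    exact hS (mem_sector_iff.1 hwZ.2 S hc)
  have hroot := adm_root hn hadm hc
  apply hS
  rw [hw, PiLp.sub_apply, PiLp.smul_apply, Lz_eq, Fock649.diag_apply, smul_eq_mul]
  have hsum : ∑ i ∈ S, (i : ℕ) = lmin n := by
    refine le_antisymm ?_ (adm_bounds n S hadm hc).1
    exact adm_upper n S hadm hc (fun i _ => by have := i.2; omega)
  rw [hsum]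
  ring

/-! ### existence -/

theorem exists_ref_base (n : ℕ) :
    ∃ ψ : Fk (Fin (3 * (n - 1) + 1)), ψ ∈ Zn (nu0 (3 * (n - 1))) (3 * (n - 1)) n ∧ ψ ≠ 0 := by
  refine ⟨toFk (laughlin (3 * (n - 1)) n), ⟨?_, ?_⟩, ?_⟩
  · rw [← HH_eq_zero_iff, ← Br320.toFk_interaction (laughlin_antisymm _ _),
      interaction_laughlin, Br320.toFk_zero]
  · rw [← Br320.mem_sector_iff_Nh]
    exact Br320.toFk_mem _
  · intro h
    have h1 : toFk (laughlin (3 * (n - 1)) n) =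
        toFk (0 : (Fin n → Fin (3 * (n - 1) + 1)) → ℂ) := by rw [h, Br320.toFk_zero]
    have h2 := Br320.toFk_inj (laughlin_antisymm _ _) (by
      intro π m; simp) h1
    exact laughlin_ne_zero n h2

theorem Gd_commute_Nh (u : Fin (Q + 1) → ℂ) : Gd u * Nh = Nh * Gd u := by
  rw [Nh_eq]
  unfold Gd
  rw [← diag_mul, ← diag_mul, mul_comm]

/-- change of metric for `Zn` -/
theorem Gd_mem_Zn {ν r : ℕ → ℝ} (hr : PosM r Q) {n : ℕ} {ψ : Fk (Fin (Q + 1))}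
    (h : ψ ∈ Zn ν Q n) : Gd (res Q r) ψ ∈ Zn (ν * r) Q n := by
  refine ⟨Gd_mem_Zs hr h.1, ?_⟩
  rw [← mul_ap, ← Gd_commute_Nh, mul_ap, h.2, map_smul]

theorem Lz_emb {Q' Q : ℕ} (h : Q' ≤ Q) (ψ : Fk (Fin (Q' + 1))) :
    Lz Q (emb (ee h) ψ) = emb (ee h) (Lz Q' ψ) := by
  rw [Lz_eq, Lz_eq, diag_emb]
  have e : (fun S : Finset (Fin (Q' + 1)) =>
      ((∑ i ∈ S.map (ee h).toEmbedding, (i : ℕ) : ℕ) : ℂ)) =
      fun S : Finset (Fin (Q' + 1)) => ((∑ i ∈ S, (i : ℕ) : ℕ) : ℂ) := by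
    funext S
    rw [Finset.sum_map]
    rfl
  rw [e]

theorem Sec_emb_iff {Q' Q n l : ℕ} (h : Q' ≤ Q) (ψ : Fk (Fin (Q' + 1))) :
    Sec Q n l (emb (ee h) ψ) ↔ Sec Q' n l ψ := by
  unfold Sec
  rw [Nh_emb_eq_iff, Lz_emb, ← map_smul (emb (ee h)) (l : ℂ) ψ, (emb_injective (ee h)).eq_iff]

theorem exists_Zn {ν : ℕ → ℝ} (hν : PosM ν Q) {n : ℕ} (hn : 3 * (n - 1) ≤ Q) :
    ∃ ψ : Fk (Fin (Q + 1)), ψ ∈ Zs ν Q ∧ Sec Q n (lmin n) ψ ∧ ψ ≠ 0 := by
  obtain ⟨φ, hφ, hφ0⟩ := exists_ref_base n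
  have hν' : PosM ν (3 * (n - 1)) := fun j hj => hν j (le_trans hj hn)
  have hν0 := posM_nu0 (3 * (n - 1))
  set r : ℕ → ℝ := ν / nu0 (3 * (n - 1)) with hr
  have hrp : PosM r (3 * (n - 1)) := fun j hj => div_pos (hν' j hj) (hν0 j hj)
  have hφ1 := Gd_mem_Zn hrp hφ
  have e1 : Zn (nu0 (3 * (n - 1)) * r) (3 * (n - 1)) n = Zn ν (3 * (n - 1)) n := by
    refine Zn_congr (fun j hj => ?_) n
    have := (hν0 j hj).ne'
    simp only [Pi.mul_apply, hr, Pi.div_apply]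
    field_simp
  rw [e1] at hφ1
  set φ1 := Gd (res (3 * (n - 1)) r) φ with hφ1def
  have hφ10 : φ1 ≠ 0 := by
    intro h
    apply hφ0
    have h2 : GdE (3 * (n - 1)) r hrp φ = 0 := h
    exact (LinearEquiv.map_eq_zero_iff _).1 h2
  have hsec := sec_of_Zn hν' rfl hφ1
  refine ⟨emb (ee hn) φ1, (emb_mem_Zs_iff hn ν φ1).2 hφ1.1, ⟨?_, ?_⟩, ?_⟩
  · exact (Nh_emb_eq_iff (ee hn) _ _).2 hφ1.2
  · rw [Lz_emb, hsec.2, map_smul]
  · intro h
    exact hφ10 (emb_injective (ee hn) (by rw [h, map_zero]))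

/-- **existence of the reference state** -/
theorem exists_ref {ν : ℕ → ℝ} (hν : PosM ν Q) {n : ℕ} (hn : 3 * (n - 1) ≤ Q) :
    ∃ Φ, IsRef ν Q n Φ := by
  obtain ⟨ψ, h1, h2, h3⟩ := exists_Zn hν hn
  have hpos : 0 < ‖ψ‖ := norm_pos_iff.2 h3
  refine ⟨((‖ψ‖⁻¹ : ℝ) : ℂ) • ψ, Submodule.smul_mem _ _ h1, h2.smul _, ?_⟩
  rw [norm_smul]
  simp [hpos.ne']

theorem IsRef.mem_Zn {ν : ℕ → ℝ} {n : ℕ} {Φ : Fk (Fin (Q + 1))} (h : IsRef ν Q n Φ) :
    Φ ∈ Zn ν Q n := ⟨h.mem, h.sec.1⟩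

/-! ### the vacuum: `Q = 3 (n-1)` -/

/-- at `Q = 3 (n-1)` every zero mode with `n` particles is a multiple of the reference state -/
theorem IsRef.span {ν : ℕ → ℝ} (hν : PosM ν Q) {n : ℕ} (hn : Q = 3 * (n - 1))
    {Φ : Fk (Fin (Q + 1))} (h : IsRef ν Q n Φ) {ψ : Fk (Fin (Q + 1))} (hψ : ψ ∈ Zn ν Q n) :
    ψ = (inner ℂ Φ ψ : ℂ) • Φ := by
  obtain ⟨a, ha⟩ := unique hν h.mem h.sec h.ne hψ.1 (sec_of_Zn hν hn hψ)
  have h1 : (inner ℂ Φ ψ : ℂ) = a := by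
    rw [ha, inner_smul_right, inner_self_eq_norm_sq_to_K, h.unit]
    simp
  rw [h1, ← ha]

/-- at `Q = 3 (n-1)`: for every number conserving `T`, `P (T Φ) = ⟪Φ, T Φ⟫ Φ` -/
theorem IsRef.proj_vac {ν : ℕ → ℝ} (hν : PosM ν Q) {n : ℕ} (hn : Q = 3 * (n - 1))
    {Φ : Fk (Fin (Q + 1))} (h : IsRef ν Q n Φ) {T : Op (Fin (Q + 1))} (hN : T * Nh = Nh * T) :
    pj (Zs ν Q) (T Φ) = (inner ℂ Φ (T Φ) : ℂ) • Φ := by
  have h2 : pj (Zs ν Q) (T Φ) ∈ Zn ν Q n := by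
    refine ⟨pj_mem _ _, ?_⟩
    have e : Nh (T Φ) = (n : ℂ) • T Φ := by
      rw [← mul_ap, ← hN, mul_ap, h.sec.1, map_smul]
    rw [← mul_ap, pj_comm_Nh, mul_ap, e, map_smul]
  have h3 := h.span hν hn h2
  have h4 : (inner ℂ Φ (pj (Zs ν Q) (T Φ)) : ℂ) = inner ℂ Φ (T Φ) := by
    have h5 := inner_star_right (pj (Zs ν Q)) Φ (T Φ)
    rw [star_pj] at h5
    rw [h5, pj_of_mem h.mem]
  rw [h3, h4]

/-- all lower bounds on `Zn` at `Q = 3 (n-1)` are about one number -/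
theorem LB_vac_iff {ν : ℕ → ℝ} (hν : PosM ν Q) {n : ℕ} (hn : Q = 3 * (n - 1))
    {Φ : Fk (Fin (Q + 1))} (h : IsRef ν Q n Φ) (D : Op (Fin (Q + 1))) (lam : ℝ) :
    LB ν Q n D lam ↔ lam ≤ (inner ℂ Φ (D Φ) : ℂ).re := by
  constructor
  · intro hLB
    have h1 := hLB Φ h.mem_Zn
    rwa [h.unit, one_pow, mul_one] at h1
  · intro hl ψ hψ
    have h1 := h.span hν hn hψ
    set a := (inner ℂ Φ ψ : ℂ)
    have h2 : (inner ℂ ψ (D ψ) : ℂ).re = ‖a‖ ^ 2 * (inner ℂ Φ (D Φ) : ℂ).re := by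
      rw [h1, map_smul, inner_smul_left, inner_smul_right, ← mul_assoc,
        ← Complex.normSq_eq_conj_mul_self, Complex.normSq_eq_norm_sq, Complex.re_ofReal_mul]
    have h3 : ‖ψ‖ ^ 2 = ‖a‖ ^ 2 := by rw [h1, norm_smul, h.unit, mul_one]
    rw [h2, h3, mul_comm]
    exact mul_le_mul_of_nonneg_left hl (by positivity)

/-- no zero modes when `Q < 3 (n-1)` -/
theorem Zn_eq_bot {ν : ℕ → ℝ} (hν : PosM ν Q) {n : ℕ} (hn : Q < 3 * (n - 1)) :
    Zn ν Q n = ⊥ := by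
  rw [Submodule.eq_bot_iff]
  intro ψ hψ
  by_contra h0
  obtain ⟨S, hS, hadm⟩ := exists_adm hν hψ.1 h0
  have hc : S.card = n := by
    by_contra hc
    exact hS (mem_sector_iff.1 hψ.2 S hc)
  have hne : S.Nonempty := Finset.card_pos.1 (by omega)
  obtain ⟨t, ht, hmax⟩ := Finset.exists_max_image S (fun i => (i : ℕ)) hne
  have := (adm_bounds n S hadm hc).2.2 t ht (fun j hj => hmax j hj)
  omega

theorem LB_of_lt {ν : ℕ → ℝ} (hν : PosM ν Q) {n : ℕ} (hn : Q < 3 * (n - 1))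
    (D : Op (Fin (Q + 1))) (lam : ℝ) : LB ν Q n D lam := by
  intro ψ hψ
  rw [Zn_eq_bot hν hn, Submodule.mem_bot] at hψ
  rw [hψ]
  simp

end Crest.Agent.R340.Vac467
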