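import Crest.Agent.R340.Vac3_467
import Crest.Agent.R340.PairNorm_986
import Crest.Agent.R340.Rot2_303

/-!
# The gap of the round metric from the statement S0533, and the vacuum `Om Q`
(helper467, R340, O7 part 2 + O5 part 4)

* `nz_nu0_eq : nz (nu0 Q) Q (p+1) = pairNorm Q (p+1)`, `Bp_eq_Bg : Bp Q p = Bg (nu0 Q) Q (p+1)`,
  `Hg_nu0 : Hg (nu0 Q) Q = HH Q`;
* `sq_of_s0533` : the inequality of S0533 on antisymmetric coefficients (all `N`) gives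
  `γ ⟪v, H v⟫ ≤ ‖H v‖²` on the whole Fock space; `GapG_of_sq`, `gap_PK_of_sq`;
* `Om Q` : the vacuum (`3 ∣ Q`), unit vector spanning `Zn (nu0 Q) Q (Q/3+1)`.
-/

set_option autoImplicit false

namespace Crest.Agent.R340.Vac467

open Finset Fock649 Geo986 GG467 Emb596 Peel596 Crest.MathPhysics.Laughlin
open Br320 (wM Bp HH toFk sector)

variable {Q : ℕ}

/-! ### normalisation of the pair annihilators -/

theorem nz_nu0_eq (Q : ℕ) (p : Fin (2 * Q - 1)) :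
    nz (nu0 Q) Q (p + 1) = pairNorm Q (p + 1) := by
  obtain ⟨p, hp⟩ := p
  obtain ⟨n, rfl⟩ : ∃ n, Q = n + 1 := ⟨Q - 1, by omega⟩
  have h1 := PV341.nrm_eq (n + 1) (p + 1)
  have h2 := Geo986.sum_sq n p
  have h3 := Rot303.pairNorm_succ n p (by omega)
  show nz (nu0 (n + 1)) (n + 1) (p + 1) = pairNorm (n + 1) (p + 1)
  rw [nz_nu0, h3]
  have h4 : PV341.mom (n + 1) (p + 1) 2 = 2 * ((n : ℝ) + 1) * ((2 * n).choose p : ℝ) := by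
    rw [← h2]
    unfold PV341.mom PV341.aa PV341.xx
    refine Finset.sum_congr rfl fun i _ => ?_
    push_cast
    ring
  rw [h4] at h1
  linarith

theorem kB_eq (Q : ℕ) (p : Fin (2 * Q - 1)) : kB Q p = (√(nz (nu0 Q) Q (p + 1)))⁻¹ := by
  have h := pairNorm_pos (q := Q) (b := p + 1) (by omega) (by omega)
  rw [nz_nu0_eq]
  unfold kB
  rw [Real.sqrt_mul (by norm_num)]
  have h2 : √2 * √2 = (2 : ℝ) := Real.mul_self_sqrt (by norm_num)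
  have h3 : (0 : ℝ) < √2 := by positivity
  have h4 : (0 : ℝ) < √(pairNorm Q (p + 1)) := by positivity
  field_simp
  nlinarith

/-- the pair annihilators of the statement are the normalised ones of the round metric -/
theorem Bp_eq_Bg (Q : ℕ) (p : Fin (2 * Q - 1)) : Bp Q p = Bg (nu0 Q) Q (p + 1) := by
  rw [Bp_eq_bz, kB_eq]
  rfl

theorem Bg_eq_zero_of {ν : ℕ → ℝ} {p : ℕ} (h : p = 0 ∨ 2 * Q ≤ p) : Bg ν Q p = 0 := by
  unfold Bg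
  rw [bz_eq_zero_of h, smul_zero]

/-- reindexing of the sums over the pair annihilators -/
theorem sum_Bg_eq {M : Type*} [AddCommMonoid M] (Q : ℕ) (F : Op (Fin (Q + 1)) → M)
    (hF : F 0 = 0) :
    ∑ p ∈ range (2 * Q), F (Bg (nu0 Q) Q p) = ∑ p : Fin (2 * Q - 1), F (Bp Q p) := by
  rcases Nat.eq_zero_or_pos Q with h0 | h0
  · subst h0
    simp
  · obtain ⟨m, hm⟩ : ∃ m, 2 * Q = m + 1 := ⟨2 * Q - 1, by omega⟩
    have e1 : 2 * Q - 1 = m := by omega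
    have e2 : range (2 * Q) = range (m + 1) := by rw [hm]
    rw [e2, Finset.sum_range_succ', Bg_eq_zero_of (Or.inl rfl), hF, add_zero,
      ← Fin.sum_univ_eq_sum_range (fun p => F (Bg (nu0 Q) Q (p + 1))) m]
    symm
    refine Fintype.sum_equiv (finCongr e1) _ _ fun p => ?_
    rw [Bp_eq_Bg]
    rfl

theorem Hg_nu0 (Q : ℕ) : Hg (nu0 Q) Q = HH Q := by
  unfold Hg
  rw [sum_Bg_eq Q (fun B => star B * B) (by simp)]
  rfl

theorem sum_norm_Bg (Q : ℕ) (ψ : Fk (Fin (Q + 1))) :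
    ∑ p ∈ range (2 * Q), ‖Bg (nu0 Q) Q p ψ‖ ^ 2 = ∑ p, ‖Bp Q p ψ‖ ^ 2 :=
  sum_Bg_eq Q (fun B => ‖B ψ‖ ^ 2) (by rw [zero_ap]; simp)

/-! ### the gap -/

/-- a positive operator on a finite dimensional space satisfies `γ A ≤ A²` for some `γ > 0` -/
theorem exists_sq {κ : Type*} [Fintype κ] {A : Op κ} (hA : star A = A)
    (hpos : ∀ v : Fk κ, 0 ≤ (inner ℂ v (A v) : ℂ).re) :
    ∃ γ : ℝ, 0 < γ ∧ ∀ v : Fk κ, γ * (inner ℂ v (A v) : ℂ).re ≤ ‖A v‖ ^ 2 := by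
  have hT : (A.ap : Fk κ →ₗ[ℂ] Fk κ).IsSymmetric := by
    intro x y
    have h := inner_star_left A x y
    rw [hA] at h
    exact h
  set n := Module.finrank ℂ (Fk κ) with hn
  set b := hT.eigenvectorBasis hn.symm with hb
  set lam := hT.eigenvalues hn.symm with hlam
  have hev : ∀ i, A (b i) = ((lam i : ℝ) : ℂ) • b i := fun i =>
    hT.apply_eigenvectorBasis hn.symm i
  have hnorm : ∀ i, inner ℂ (b i) (b i) = (1 : ℂ) := by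
    intro i
    rw [inner_self_eq_norm_sq_to_K, b.orthonormal.1 i]; simp
  have hl0 : ∀ i, 0 ≤ lam i := by
    intro i
    have h1 := hpos (b i)
    rwa [hev, inner_smul_right, hnorm, mul_one, Complex.ofReal_re] at h1
  -- the smallest nonzero eigenvalue
  have hex : ∃ γ : ℝ, 0 < γ ∧ ∀ i, γ * lam i ≤ lam i ^ 2 := by
    classical
    set S : Finset ℝ := insert 1 ((Finset.univ.image lam).filter (fun x => 0 < x)) with hS
    have hSne : S.Nonempty := ⟨1, Finset.mem_insert_self _ _⟩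
    refine ⟨S.min' hSne, ?_, fun i => ?_⟩
    · have := S.min'_mem hSne
      rcases Finset.mem_insert.1 this with h | h
      · rw [h]; norm_num
      · exact (Finset.mem_filter.1 h).2
    · rcases eq_or_lt_of_le (hl0 i) with h | h
      · rw [← h]; simp
      · have h2 : S.min' hSne ≤ lam i := by
          refine S.min'_le _ ?_
          refine Finset.mem_insert_of_mem (Finset.mem_filter.2 ⟨?_, h⟩)
          exact Finset.mem_image_of_mem _ (Finset.mem_univ i)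
        nlinarith
  obtain ⟨γ, hγ, hγl⟩ := hex
  refine ⟨γ, hγ, fun v => ?_⟩
  have hco : ∀ i, (inner ℂ (b i) (A v) : ℂ) = ((lam i : ℝ) : ℂ) * inner ℂ (b i) v := by
    intro i
    have h1 : (inner ℂ (b i) (A v) : ℂ) = inner ℂ (A (b i)) v := (hT (b i) v).symm
    rw [h1, hev, inner_smul_left, Complex.conj_ofReal]
  have hx : inner ℂ v (A v) = ∑ i, ((lam i * ‖inner ℂ (b i) v‖ ^ 2 : ℝ) : ℂ) := by
    rw [← b.sum_inner_mul_inner v (A v)]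
    refine Finset.sum_congr rfl fun i _ => ?_
    rw [hco]
    have h2 : inner ℂ v (b i) * inner ℂ (b i) v = ((‖inner ℂ (b i) v‖ ^ 2 : ℝ) : ℂ) := by
      rw [← inner_conj_symm v (b i), ← Complex.normSq_eq_conj_mul_self,
        Complex.normSq_eq_norm_sq]
    push_cast at h2 ⊢
    linear_combination ((lam i : ℝ) : ℂ) * h2
  rw [hx, ← Complex.ofReal_sum, Complex.ofReal_re, ← b.sum_sq_norm_inner_right (A v),
    Finset.mul_sum]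
  refine Finset.sum_le_sum fun i _ => ?_
  rw [hco, norm_mul, mul_pow]
  have h3 : ‖((lam i : ℝ) : ℂ)‖ ^ 2 = lam i ^ 2 := by simp
  rw [h3, ← mul_assoc]
  exact mul_le_mul_of_nonneg_right (hγl i) (by positivity)

theorem HH_comm_Nh (Q : ℕ) : HH Q * Nh = Nh * HH Q := by
  rw [HH_eq_hs]
  exact hs_pa_comm_Nh _

/-- the coefficient form of the gap (all particle numbers) gives `γ H ≤ H²` on Fock space -/
theorem sq_of_s0533 {γ : ℝ}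
    (h : ∀ N : ℕ, ∀ ψ : (Fin N → Fin (Q + 1)) → ℂ, IsAntisymmetric ψ →
      γ * (star ψ ⬝ᵥ (interaction Q N).mulVec ψ).re ≤
      (star ψ ⬝ᵥ (interaction Q N).mulVec ((interaction Q N).mulVec ψ)).re)
    (v : Fk (Fin (Q + 1))) :
    γ * (inner ℂ v (HH Q v) : ℂ).re ≤ ‖HH Q v‖ ^ 2 :=
  sq_of_sectors (HH_comm_Nh Q)
    (fun N _ hw => Br320.sector_of_sq_ge (h N) ((Br320.mem_sector_iff_Nh).2 hw)) v

/-- `γ H ≤ H²` gives the gap inequality of the round metric (the form used by the geometries) -/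
theorem GapG_of_sq {γ : ℝ}
    (h : ∀ v : Fk (Fin (Q + 1)), γ * (inner ℂ v (HH Q v) : ℂ).re ≤ ‖HH Q v‖ ^ 2) :
    GapG (nu0 Q) Q γ := by
  intro ψ hψ
  have h1 := gap_hs (B := Bp Q) h ψ
  have h2 : PK (hs (Bp Q)) ψ = 0 := by
    have h3 : PK (hs (Bp Q)) = pj (Zs (nu0 Q) Q) := PK_HH Q
    have h4 : (inner ℂ ψ (PK (hs (Bp Q)) ψ) : ℂ) = ((‖pj (ker (hs (Bp Q))) ψ‖ : ℂ)) ^ 2 :=
      inner_pj_self _ ψ
    have h5 : (inner ℂ ψ (PK (hs (Bp Q)) ψ) : ℂ) = 0 := by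
      rw [h3, ← inner_conj_symm, hψ _ (pj_mem _ ψ), map_zero]
    rw [h5] at h4
    have h6 : ‖pj (ker (hs (Bp Q))) ψ‖ = 0 := by
      have := (pow_eq_zero_iff (two_ne_zero)).1 h4.symm
      exact_mod_cast this
    exact norm_eq_zero.1 h6
  rw [h2, sub_zero] at h1
  rw [sum_norm_Bg]
  exact h1

/-- `γ H ≤ H²` gives `γ (1 - P) ≤ H` with `P` the projection on the zero modes -/
theorem gap_PK_of_sq {γ : ℝ}
    (h : ∀ v : Fk (Fin (Q + 1)), γ * (inner ℂ v (HH Q v) : ℂ).re ≤ ‖HH Q v‖ ^ 2) :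
    (γ : ℂ) • (1 - PK (HH Q)) ≤ HH Q :=
  gap_op (star_hs (Bp Q)) (inner_hs_nonneg (Bp Q)) h

/-- vector form of `gap_PK_of_sq` -/
theorem gap_vec_of_sq {γ : ℝ}
    (h : ∀ v : Fk (Fin (Q + 1)), γ * (inner ℂ v (HH Q v) : ℂ).re ≤ ‖HH Q v‖ ^ 2)
    (v : Fk (Fin (Q + 1))) :
    γ * ‖v - PK (HH Q) v‖ ^ 2 ≤ (inner ℂ v (HH Q v) : ℂ).re :=
  GG467.gap_of_sq (star_hs (Bp Q)) (inner_hs_nonneg (Bp Q)) h v

/-- a gap at fixed `Q` always exists (finite dimension) -/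
theorem exists_gap_at (Q : ℕ) : ∃ γ : ℝ, 0 < γ ∧
    ∀ v : Fk (Fin (Q + 1)), γ * (inner ℂ v (HH Q v) : ℂ).re ≤ ‖HH Q v‖ ^ 2 :=
  exists_sq (star_hs (Bp Q)) (inner_hs_nonneg (Bp Q))

theorem inner_HH_nonneg (Q : ℕ) (v : Fk (Fin (Q + 1))) : 0 ≤ (inner ℂ v (HH Q v) : ℂ).re :=
  inner_hs_nonneg (Bp Q) v

/-- a gap for all `Q ≥ Q₀` gives a gap for all `Q` -/
theorem exists_gap_all {γ : ℝ} (hγ : 0 < γ) (Q₀ : ℕ)
    (h : ∀ Q, Q₀ ≤ Q → ∀ v : Fk (Fin (Q + 1)),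
      γ * (inner ℂ v (HH Q v) : ℂ).re ≤ ‖HH Q v‖ ^ 2) :
    ∃ γ' : ℝ, 0 < γ' ∧ γ' ≤ γ ∧ ∀ (Q : ℕ) (v : Fk (Fin (Q + 1))),
      γ' * (inner ℂ v (HH Q v) : ℂ).re ≤ ‖HH Q v‖ ^ 2 := by
  induction Q₀ generalizing γ with
  | zero => exact ⟨γ, hγ, le_rfl, fun Q v => h Q (Nat.zero_le _) v⟩
  | succ m ih =>
    obtain ⟨γm, hm, hmv⟩ := exists_gap_at m
    have key : ∀ Q, m ≤ Q → ∀ v : Fk (Fin (Q + 1)),
        (min γ γm) * (inner ℂ v (HH Q v) : ℂ).re ≤ ‖HH Q v‖ ^ 2 := by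
      intro Q hQ v
      have h0 := inner_HH_nonneg Q v
      rcases eq_or_lt_of_le hQ with h1 | h1
      · subst h1
        exact (mul_le_mul_of_nonneg_right (min_le_right _ _) h0).trans (hmv v)
      · exact (mul_le_mul_of_nonneg_right (min_le_left _ _) h0).trans (h Q h1 v)
    obtain ⟨γ', h1, h2, h3⟩ := ih (lt_min hγ hm) key
    exact ⟨γ', h1, h2.trans (min_le_left _ _), h3⟩

/-- **all forms of the gap from S0533** (hypothesis = the conclusion of S0533 at one `γ`) -/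
theorem gap_forms_of_s0533 {γ : ℝ} (hγ : 0 < γ)
    (h : ∃ Q₀ : ℕ, ∀ Q : ℕ, Q₀ ≤ Q → ∀ N : ℕ, ∀ ψ : (Fin N → Fin (Q + 1)) → ℂ,
      IsAntisymmetric ψ → γ * (star ψ ⬝ᵥ (interaction Q N).mulVec ψ).re ≤
        (star ψ ⬝ᵥ (interaction Q N).mulVec ((interaction Q N).mulVec ψ)).re) :
    ∃ γ' : ℝ, 0 < γ' ∧ γ' ≤ γ ∧
      (∀ (Q : ℕ) (v : Fk (Fin (Q + 1))), γ' * (inner ℂ v (HH Q v) : ℂ).re ≤ ‖HH Q v‖ ^ 2) ∧
      (∀ Q : ℕ, GapG (nu0 Q) Q γ') ∧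
      (∀ Q : ℕ, (γ' : ℂ) • (1 - PK (HH Q)) ≤ HH Q) ∧
      (∀ (Q : ℕ) (v : Fk (Fin (Q + 1))),
        γ' * ‖v - PK (HH Q) v‖ ^ 2 ≤ (inner ℂ v (HH Q v) : ℂ).re) := by
  obtain ⟨Q₀, hQ⟩ := h
  obtain ⟨γ', h1, h2, h3⟩ := exists_gap_all hγ Q₀ (fun Q hQQ v => sq_of_s0533 (hQ Q hQQ) v)
  exact ⟨γ', h1, h2, h3, fun Q => GapG_of_sq (h3 Q), fun Q => gap_PK_of_sq (h3 Q),
    fun Q v => gap_vec_of_sq (h3 Q) v⟩

/-- the same for the large `Q` with the constant unchanged -/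
theorem gap_large_of_s0533 {γ : ℝ}
    (h : ∃ Q₀ : ℕ, ∀ Q : ℕ, Q₀ ≤ Q → ∀ N : ℕ, ∀ ψ : (Fin N → Fin (Q + 1)) → ℂ,
      IsAntisymmetric ψ → γ * (star ψ ⬝ᵥ (interaction Q N).mulVec ψ).re ≤
        (star ψ ⬝ᵥ (interaction Q N).mulVec ((interaction Q N).mulVec ψ)).re) :
    ∃ Q₀ : ℕ, ∀ Q : ℕ, Q₀ ≤ Q →
      (∀ v : Fk (Fin (Q + 1)), γ * (inner ℂ v (HH Q v) : ℂ).re ≤ ‖HH Q v‖ ^ 2) ∧
      GapG (nu0 Q) Q γ ∧ (γ : ℂ) • (1 - PK (HH Q)) ≤ HH Q ∧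
      ∀ v : Fk (Fin (Q + 1)), γ * ‖v - PK (HH Q) v‖ ^ 2 ≤ (inner ℂ v (HH Q v) : ℂ).re := by
  obtain ⟨Q₀, hQ⟩ := h
  refine ⟨Q₀, fun Q hQQ => ?_⟩
  have h1 := sq_of_s0533 (hQ Q hQQ)
  exact ⟨h1, GapG_of_sq h1, gap_PK_of_sq h1, fun v => gap_vec_of_sq h1 v⟩

/-! ### the vacuum -/

/-- the vacuum (`3 ∣ Q`): unit vector spanning `Zn (nu0 Q) Q (Q/3+1)` (any `Q` gives a reference
state with `Q/3+1` particles) -/
noncomputable def Om (Q : ℕ) : Fk (Fin (Q + 1)) :=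
  (exists_ref (posM_nu0 Q) (n := Q / 3 + 1) (by omega)).choose

theorem isRef_Om (Q : ℕ) : IsRef (nu0 Q) Q (Q / 3 + 1) (Om Q) :=
  (exists_ref (posM_nu0 Q) (n := Q / 3 + 1) (by omega)).choose_spec

theorem norm_Om (Q : ℕ) : ‖Om Q‖ = 1 := (isRef_Om Q).unit

theorem Om_mem_Zn (Q : ℕ) : Om Q ∈ Zn (nu0 Q) Q (Q / 3 + 1) := (isRef_Om Q).mem_Zn

theorem Om_mem_Zs (Q : ℕ) : Om Q ∈ Zs (nu0 Q) Q := (isRef_Om Q).mem

theorem HH_Om (Q : ℕ) : HH Q (Om Q) = 0 := HH_eq_zero_iff.2 (Om_mem_Zs Q)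

theorem PK_Om (Q : ℕ) : PK (HH Q) (Om Q) = Om Q := by
  rw [PK_HH]
  exact pj_of_mem (Om_mem_Zs Q)

theorem Nh_Om (Q : ℕ) : Nh (Om Q) = ((Q / 3 + 1 : ℕ) : ℂ) • Om Q := (isRef_Om Q).sec.1

theorem Om_span {Q : ℕ} (h3 : 3 ∣ Q) {ψ : Fk (Fin (Q + 1))}
    (hψ : ψ ∈ Zn (nu0 Q) Q (Q / 3 + 1)) : ψ = (inner ℂ (Om Q) ψ : ℂ) • Om Q :=
  (isRef_Om Q).span (posM_nu0 Q) (by omega) hψ

/-- `P (T Ω) = ⟪Ω, T Ω⟫ Ω` for every number conserving `T` (`3 ∣ Q`) -/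
theorem PK_mul_Om {Q : ℕ} (h3 : 3 ∣ Q) {T : Op (Fin (Q + 1))} (hN : T * Nh = Nh * T) :
    PK (HH Q) (T (Om Q)) = (inner ℂ (Om Q) (T (Om Q)) : ℂ) • Om Q := by
  rw [PK_HH]
  exact (isRef_Om Q).proj_vac (posM_nu0 Q) (by omega) hN

theorem inner_Om_dG {Q : ℕ} (h3 : 3 ∣ Q) (A : Matrix (Fin (Q + 1)) (Fin (Q + 1)) ℂ) :
    (inner ℂ (Om Q) (dG A (Om Q)) : ℂ) = A.trace / (Q + 1) * ((Q / 3 + 1 : ℕ) : ℂ) :=
  (isRef_Om Q).dens (by omega) A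

end Crest.Agent.R340.Vac467
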