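import Crest.Agent.R340.Vac4_467
import Crest.Agent.R340.PeelX_596

/-!
# The vacuum scalars of the peeling step (helper467, R340, O5 part 5)

`Q = 3 (n-1)`, `Φ` = vacuum of flux `Q + 3` (`n + 1` particles), `Ω` = unit vector of
`Zn (nu0 (Q+3)) Q n` (= vacuum of the end point of the path).  With `D = Dop (Q+3) s a F X`,

`|⟪Φ, D Φ⟫ - ⟪Ω, Dop Q (s - a F(Q+3)) a F X' Ω⟫| ≤ 3 (δ + η)`

where `δ` bounds the cross term and `η` the commutator.  (`vac_peel`)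
-/

set_option autoImplicit false
open scoped InnerProductSpace ComplexConjugate

namespace Crest.Agent.R340.Vac467

open Finset Fock649 Geo986 GG467 Emb596 Peel596 Crest.MathPhysics.Laughlin
open Br320 (wM Bp HH toFk sector)

variable {Q : ℕ}

/-- a unit zero mode with `n` particles at `Q = 3 (n-1)` is a reference state -/
theorem isRef_of_Zn {ν : ℕ → ℝ} (hν : PosM ν Q) {n : ℕ} (hn : Q = 3 * (n - 1))
    {Φ : Fk (Fin (Q + 1))} (h : Φ ∈ Zn ν Q n) (h1 : ‖Φ‖ = 1) : IsRef ν Q n Φ :=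
  ⟨h.1, sec_of_Zn hν hn h, h1⟩

theorem d_mul_c_eq_dG {ι : Type*} [Fintype ι] [LinearOrder ι] (k : ι) :
    (d k * c k : Op ι) = dG (Matrix.diagonal fun i => if i = k then (1 : ℂ) else 0) := by
  rw [d_mul_c, dG_diagonal]
  congr 1
  funext S
  rw [Finset.sum_ite_eq']

/-- the density of every orbital in the vacuum is `n / (Q+1)` -/
theorem IsRef.dens_orb {n : ℕ} (hn : Q = 3 * (n - 1)) {Φ : Fk (Fin (Q + 1))}
    (h : IsRef (nu0 Q) Q n Φ) (k : Fin (Q + 1)) :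
    ‖c k Φ‖ ^ 2 = (n : ℝ) / ((Q : ℝ) + 1) := by
  have h1 : (inner ℂ Φ ((d k * c k : Op (Fin (Q + 1))) Φ) : ℂ) = ((‖c k Φ‖ ^ 2 : ℝ) : ℂ) := by
    rw [← star_c, inner_star_mul_self]
    push_cast
    rfl
  rw [d_mul_c_eq_dG, h.dens hn, Matrix.trace_diagonal, Finset.sum_ite_eq' Finset.univ k] at h1
  simp only [Finset.mem_univ, if_true] at h1
  have h2 : ((‖c k Φ‖ ^ 2 : ℝ) : ℂ) = (((n : ℝ) / ((Q : ℝ) + 1) : ℝ) : ℂ) := by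
    rw [← h1]; push_cast; ring
  exact_mod_cast h2

/-- **the vacuum scalars of the peeling step** -/
theorem vac_peel {n : ℕ} (hn1 : 1 ≤ n) (hn : Q = 3 * (n - 1))
    {Φ : Fk (Fin (Q + 3 + 1))} (hΦ : Φ ∈ Zn (nu0 (Q + 3)) (Q + 3) (n + 1)) (hΦ1 : ‖Φ‖ = 1)
    {Ω : Fk (Fin (Q + 1))} (hΩ : Ω ∈ Zn (nu0 (Q + 3)) Q n) (hΩ1 : ‖Ω‖ = 1)
    (s a : ℝ) (F : ℕ → ℝ) (X : Op (Fin (Q + 3 + 1))) {δ η : ℝ}
    (hcomm : ‖c (Fin.last (Q + 3)) * X - X * c (Fin.last (Q + 3))‖ ≤ η)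
    (hcross : ∀ ψ ∈ Zn (nu0 (Q + 3)) (Q + 3) (n + 1), ∀ φ ∈ Zn (nu0 (Q + 3)) (Q + 3) (n + 1),
      ‖⟪d (Fin.last (Q + 3)) (c (Fin.last (Q + 3)) ψ) -
          (Zn (nu0 (Q + 3)) (Q + 3) (n + 1)).starProjection
            (d (Fin.last (Q + 3)) (c (Fin.last (Q + 3)) ψ)),
        Dop (Q + 3) s a F X φ⟫_ℂ‖ ≤ δ * ‖ψ‖ * ‖φ‖) :
    |(⟪Φ, Dop (Q + 3) s a F X Φ⟫_ℂ).re -
      (⟪Ω, Dop Q (s - a * F (Q + 3)) a F (cmp (ee (Nat.le_add_right Q 3)) X) Ω⟫_ℂ).re| ≤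
      3 * (δ + η) := by
  set ℓ : Fin (Q + 3 + 1) := Fin.last (Q + 3) with hℓ
  set ν : ℕ → ℝ := nu0 (Q + 3) with hν
  have hpos : PosM ν (Q + 3) := posM_nu0 (Q + 3)
  have hn' : Q + 3 = 3 * (n + 1 - 1) := by omega
  have hRΦ : IsRef ν (Q + 3) (n + 1) Φ := isRef_of_Zn hpos hn' hΦ hΦ1
  have hposQ : PosM ν Q := fun j hj => hpos j (by omega)
  have hRΩ : IsRef ν Q n Ω := isRef_of_Zn hposQ hn hΩ hΩ1
  -- the density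
  set w : ℝ := ‖c ℓ Φ‖ ^ 2 with hw
  have hwv : w = ((n + 1 : ℕ) : ℝ) / (((Q + 3 : ℕ) : ℝ) + 1) := hRΦ.dens_orb hn' ℓ
  have hQn : (Q : ℝ) = 3 * ((n : ℝ) - 1) := by
    have : ((Q : ℕ) : ℝ) = ((3 * (n - 1) : ℕ) : ℝ) := by rw [← hn]
    rw [this]; push_cast [Nat.cast_sub hn1]; ring
  have hn0 : (1 : ℝ) ≤ n := by exact_mod_cast hn1
  have hw3 : 1 / 3 ≤ w := by
    rw [hwv, div_le_div_iff₀ (by norm_num) (by positivity)]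
    push_cast
    linarith
  have hw1 : w ≤ 1 := by
    rw [hwv, div_le_one (by positivity)]
    push_cast
    linarith
  have hw0 : 0 < w := by linarith
  -- the A block
  obtain ⟨φ, hφ, hφe⟩ := Ablock hpos hΦ
  have hspan := hRΩ.span hposQ hn hφ
  set α : ℂ := (inner ℂ Ω φ : ℂ) with hα
  have hαw : ‖α‖ ^ 2 = w := by
    rw [hw, ← hφe, norm_emb, hspan, norm_smul, hΩ1, mul_one]
  set D : Op (Fin (Q + 3 + 1)) := Dop (Q + 3) s a F X with hD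
  set D' : Op (Fin (Q + 3 + 1)) := Dop (Q + 3) (s - a * F (Q + 3)) a F X with hD'
  set rD : ℝ := (⟪Φ, D Φ⟫_ℂ).re with hrD
  set rD' : ℝ := (⟪Ω, Dop Q (s - a * F (Q + 3)) a F (cmp (ee (Nat.le_add_right Q 3)) X) Ω⟫_ℂ).re
    with hrD'
  have e1 : (⟪c ℓ Φ, D' (c ℓ Φ)⟫_ℂ).re = w * rD' := by
    rw [← hφe, ← inner_cmp, hD', cmp_Dop, hspan, map_smul, inner_smul_left, inner_smul_right,
      ← mul_assoc, ← Complex.normSq_eq_conj_mul_self, Complex.normSq_eq_norm_sq,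
      Complex.re_ofReal_mul, hαw]
  -- `c D = D' c - [c, X]`
  have e2 : c ℓ * D = D' * c ℓ - (c ℓ * X - X * c ℓ) := by
    have h := c_mul_Dop (Q := Q + 3) s a F X ℓ
    rw [show (((ℓ : Fin (Q + 3 + 1)) : ℕ)) = Q + 3 from Fin.val_last _] at h
    exact h
  have e3 : D' (c ℓ Φ) = c ℓ (D Φ) + (c ℓ * X - X * c ℓ) Φ := by
    have h := congrArg (fun A : Op (Fin (Q + 3 + 1)) => A Φ) e2
    simp only [mul_ap, sub_ap] at h ⊢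
    rw [h]
    abel
  -- the projection of `n_ℓ Φ`
  set nl : Fk (Fin (Q + 3 + 1)) := d ℓ (c ℓ Φ) with hnl
  have e4 : (⟪c ℓ Φ, c ℓ (D Φ)⟫_ℂ) = ⟪nl, D Φ⟫_ℂ := by
    have h := inner_star_left (c ℓ) (c ℓ Φ) (D Φ)
    rw [star_c] at h
    exact h.symm
  have e5 : (Zn ν (Q + 3) (n + 1)).starProjection nl = ((w : ℝ) : ℂ) • Φ := by
    have hm : (Zn ν (Q + 3) (n + 1)).starProjection nl ∈ Zn ν (Q + 3) (n + 1) :=
      Submodule.starProjection_apply_mem _ _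
    have h1 := hRΦ.span hpos hn' hm
    have h2 : (inner ℂ Φ ((Zn ν (Q + 3) (n + 1)).starProjection nl) : ℂ) = inner ℂ Φ nl := by
      have h3 := Submodule.starProjection_eq_self_iff.2 hΦ
      rw [← Submodule.inner_starProjection_left_eq_right, h3]
    have h4 : (inner ℂ Φ nl : ℂ) = ((w : ℝ) : ℂ) := by
      have h5 := inner_star_mul_self (c ℓ) Φ
      rw [star_c, mul_ap] at h5
      rw [hnl, h5, hw]
      push_cast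
      rfl
    rw [h2, h4] at h1
    exact h1
  have e6 : ⟪nl, D Φ⟫_ℂ = ((w : ℝ) : ℂ) * ⟪Φ, D Φ⟫_ℂ +
      ⟪nl - (Zn ν (Q + 3) (n + 1)).starProjection nl, D Φ⟫_ℂ := by
    rw [inner_sub_left, e5, inner_smul_left, Complex.conj_ofReal]
    ring
  have key : w * rD' = w * rD + (⟪nl - (Zn ν (Q + 3) (n + 1)).starProjection nl, D Φ⟫_ℂ).re +
      (⟪c ℓ Φ, (c ℓ * X - X * c ℓ) Φ⟫_ℂ).re := by
    rw [← e1, e3, inner_add_right, e4, e6, Complex.add_re, Complex.add_re,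
      Complex.re_ofReal_mul]
  have b1 : |(⟪nl - (Zn ν (Q + 3) (n + 1)).starProjection nl, D Φ⟫_ℂ).re| ≤ δ := by
    have h := hcross Φ hΦ Φ hΦ
    rw [hΦ1, mul_one, mul_one] at h
    exact (Complex.abs_re_le_norm _).trans h
  have b2 : |(⟪c ℓ Φ, (c ℓ * X - X * c ℓ) Φ⟫_ℂ).re| ≤ η := by
    refine (Complex.abs_re_le_norm _).trans ((norm_inner_le_norm _ _).trans ?_)
    have h1 : ‖c ℓ Φ‖ ≤ 1 := by
      have : ‖c ℓ Φ‖ ^ 2 ≤ 1 := hw1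
      nlinarith [norm_nonneg (c ℓ Φ)]
    have h2 : ‖(c ℓ * X - X * c ℓ) Φ‖ ≤ η := by
      refine (Op.norm_ap_le _ _).trans ?_
      rw [hΦ1, mul_one]
      exact hcomm
    calc ‖c ℓ Φ‖ * ‖(c ℓ * X - X * c ℓ) Φ‖ ≤ 1 * η :=
          mul_le_mul h1 h2 (norm_nonneg _) zero_le_one
      _ = η := one_mul _
  have b3 : w * |rD - rD'| ≤ δ + η := by
    have e7 : w * |rD - rD'| = |w * (rD - rD')| := by rw [abs_mul, abs_of_pos hw0]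
    have : w * (rD - rD') =
        -((⟪nl - (Zn ν (Q + 3) (n + 1)).starProjection nl, D Φ⟫_ℂ).re +
          (⟪c ℓ Φ, (c ℓ * X - X * c ℓ) Φ⟫_ℂ).re) := by linarith
    rw [e7, this, abs_neg]
    exact (abs_add_le _ _).trans (add_le_add b1 b2)
  have hab := abs_nonneg (rD - rD')
  nlinarith

theorem re_inner_Dop (s a : ℝ) (F : ℕ → ℝ) (X : Op (Fin (Q + 1))) {Φ : Fk (Fin (Q + 1))}
    (h1 : ‖Φ‖ = 1) :
    (⟪Φ, Dop Q s a F X Φ⟫_ℂ).re = s - a * (⟪Φ, (dG (Matrix.diagonal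
      fun j : Fin (Q + 1) => ((F j : ℝ) : ℂ))) Φ⟫_ℂ).re - (⟪Φ, X Φ⟫_ℂ).re := by
  unfold Dop
  rw [sub_ap, sub_ap, smul_ap, smul_ap, one_ap, inner_sub_right, inner_sub_right,
    inner_smul_right, inner_smul_right, inner_self_eq_norm_sq_to_K, h1, Complex.sub_re,
    Complex.sub_re, Complex.re_ofReal_mul, Complex.re_ofReal_mul]
  simp

/-- vacuum scalars: for `3 ∣ Q` and every profile, `3 cs F Q + x - 3 dΓ(F) - X` vanishes -/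
theorem re_inner_Dop_vac {n : ℕ} (hn1 : 1 ≤ n) (hn : Q = 3 * (n - 1)) {Φ : Fk (Fin (Q + 1))}
    (hΦ : Φ ∈ Zn (nu0 Q) Q n) (h1 : ‖Φ‖ = 1) (a : ℝ) (F : ℕ → ℝ) (X : Op (Fin (Q + 1))) :
    (⟪Φ, Dop Q (a * Scal725.cs F Q + (⟪Φ, X Φ⟫_ℂ).re) a F X Φ⟫_ℂ).re = 0 := by
  have hR := isRef_of_Zn (posM_nu0 Q) hn hΦ h1
  rw [re_inner_Dop _ _ _ _ h1, hR.dens_diag hn1 hn F, Complex.ofReal_re]
  ring

/-- **the vacuum line** (735's `hvac`): any profile, any `X` -/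
theorem LB_vac {n : ℕ} (hn1 : 1 ≤ n) (hn : Q = 3 * (n - 1)) {Φ : Fk (Fin (Q + 1))}
    (hΦ : Φ ∈ Zn (nu0 Q) Q n) (h1 : ‖Φ‖ = 1) (a : ℝ) (F : ℕ → ℝ) (X : Op (Fin (Q + 1))) :
    LB (nu0 Q) Q n (Dop Q (a * Scal725.cs F Q + (⟪Φ, X Φ⟫_ℂ).re) a F X) 0 := by
  rw [LB_vac_iff (posM_nu0 Q) hn (isRef_of_Zn (posM_nu0 Q) hn hΦ h1),
    re_inner_Dop_vac hn1 hn hΦ h1]

/-- **vacuum scalars of STEP** (924's `|s - a F(Q+3) - s'|`): `s = a cs F (Q+3) + x_{Q+3}`,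
`s' = a ⟨dΓ F⟩_Ω + ⟨X'⟩_Ω`, `Ω` unit vector of `Zn (nu0 (Q+3)) Q n`, `Q = 3 (n-1)`. -/
theorem vac_scalar {n : ℕ} (hn1 : 1 ≤ n) (hn : Q = 3 * (n - 1))
    {Φ : Fk (Fin (Q + 3 + 1))} (hΦ : Φ ∈ Zn (nu0 (Q + 3)) (Q + 3) (n + 1)) (hΦ1 : ‖Φ‖ = 1)
    {Ω : Fk (Fin (Q + 1))} (hΩ : Ω ∈ Zn (nu0 (Q + 3)) Q n) (hΩ1 : ‖Ω‖ = 1)
    (s₀ a : ℝ) (F : ℕ → ℝ) (X : Op (Fin (Q + 3 + 1))) {δ η : ℝ}
    (hcomm : ‖c (Fin.last (Q + 3)) * X - X * c (Fin.last (Q + 3))‖ ≤ η)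
    (hcross : ∀ ψ ∈ Zn (nu0 (Q + 3)) (Q + 3) (n + 1), ∀ φ ∈ Zn (nu0 (Q + 3)) (Q + 3) (n + 1),
      ‖⟪d (Fin.last (Q + 3)) (c (Fin.last (Q + 3)) ψ) -
          (Zn (nu0 (Q + 3)) (Q + 3) (n + 1)).starProjection
            (d (Fin.last (Q + 3)) (c (Fin.last (Q + 3)) ψ)),
        Dop (Q + 3) s₀ a F X φ⟫_ℂ‖ ≤ δ * ‖ψ‖ * ‖φ‖) :
    |(a * Scal725.cs F (Q + 3) + (⟪Φ, X Φ⟫_ℂ).re) - a * F (Q + 3) -
      (a * (⟪Ω, (dG (Matrix.diagonal fun j : Fin (Q + 1) => ((F j : ℝ) : ℂ))) Ω⟫_ℂ).re +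
        (⟪Ω, cmp (ee (Nat.le_add_right Q 3)) X Ω⟫_ℂ).re)| ≤ 3 * (δ + η) := by
  have h := vac_peel hn1 hn hΦ hΦ1 hΩ hΩ1 s₀ a F X hcomm hcross
  have hn' : Q + 3 = 3 * (n + 1 - 1) := by omega
  have hR := isRef_of_Zn (posM_nu0 (Q + 3)) hn' hΦ hΦ1
  rw [re_inner_Dop _ _ _ _ hΦ1, re_inner_Dop _ _ _ _ hΩ1, hR.dens_diag (by omega) hn' F,
    Complex.ofReal_re] at h
  rw [← abs_neg]
  refine le_trans (le_of_eq ?_) h
  congr 1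
  ring

end Crest.Agent.R340.Vac467
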