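import Crest.Agent.R340.Bridge_320
import Crest.Agent.R340.GeoM_986
import Crest.Agent.R340.Peel_596

/-!
R340 (S0532), helper725: the zero modes of `HH Q` (Br320.Bp) are `Zs (nu0 Q) Q` (Geo986).

* `Bp_eq_bz` : `Bp Q p = (√(pairNorm Q (p+1)))⁻¹ • bz (nu0 Q) Q (p+1)`;
* `mem_Zs_nu0_iff` : `ψ ∈ Zs (nu0 Q) Q ↔ ∀ p, Bp Q p ψ = 0`;
* `mem_Zn_nu0_iff` : `ψ ∈ Zn (nu0 Q) Q n ↔ (∀ p, Bp Q p ψ = 0) ∧ Nh ψ = n • ψ`.
-/

set_option autoImplicit false

open Finset

namespace Crest.Agent.R340.ZsBp725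

open Crest.Agent.R340.Fock649 Crest.Agent.R340.Br320 Crest.Agent.R340.Geo986
open Crest.Agent.R340.Peel596
open Crest.MathPhysics.Laughlin

/-- an antisymmetric double sum over ordered pairs -/
theorem sum_anti {ι : Type*} [Fintype ι] [LinearOrder ι] {M : Type*} [AddCommGroup M] [Module ℂ M]
    (F : ι → ι → M) (hs : ∀ i j, F i j = F j i) (hd : ∀ i, F i i = 0) :
    ∑ i, ∑ j, F i j = (2 : ℂ) • ∑ x ∈ univ.filter (fun x : ι × ι => x.1 < x.2), F x.1 x.2 := by
  classical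
  have h1 : ∑ i, ∑ j, F i j = ∑ x : ι × ι, F x.1 x.2 := by
    rw [← univ_product_univ, sum_product]
  have h2 : ∑ x : ι × ι, F x.1 x.2 =
      ∑ x ∈ univ.filter (fun x : ι × ι => x.1 < x.2), F x.1 x.2 +
        ∑ x ∈ univ.filter (fun x : ι × ι => x.2 < x.1), F x.1 x.2 := by
    rw [← sum_filter_add_sum_filter_not univ (fun x : ι × ι => x.1 < x.2)]
    congr 1
    symm
    apply sum_subset_zero_on_sdiff
    · intro x hx
      simp only [mem_filter, mem_univ, true_and] at hx ⊢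
      exact not_lt.2 hx.le
    · intro x hx
      simp only [mem_sdiff, mem_filter, mem_univ, true_and, not_lt] at hx
      have : x.1 = x.2 := le_antisymm hx.2 hx.1
      rw [this, hd]
    · intro x _; rfl
  have h3 : ∑ x ∈ univ.filter (fun x : ι × ι => x.2 < x.1), F x.1 x.2 =
      ∑ x ∈ univ.filter (fun x : ι × ι => x.1 < x.2), F x.1 x.2 := by
    refine sum_bij' (fun x _ => (x.2, x.1)) (fun x _ => (x.2, x.1)) ?_ ?_ ?_ ?_ ?_
    · intro x hx
      simp only [mem_filter, mem_univ, true_and] at hx ⊢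
      exact hx
    · intro x hx
      simp only [mem_filter, mem_univ, true_and] at hx ⊢
      exact hx
    · intro x _; rfl
    · intro x _; rfl
    · intro x _; exact hs _ _
  rw [h1, h2, h3, two_smul]

variable {Q : ℕ}

theorem pairNorm_pos (p : Fin (2 * Q - 1)) : 0 < pairNorm Q ((p : ℕ) + 1) := by
  have hp := p.2
  have hQ : 1 ≤ Q := by omega
  have h1 : (1 : ℝ) ≤ Q := by exact_mod_cast hQ
  have h2 : (((p : ℕ) + 1 : ℕ) : ℝ) < 2 * Q := by exact_mod_cast (by omega : (p : ℕ) + 1 < 2 * Q)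
  have h3 : (0 : ℝ) < ((2 * Q).choose ((p : ℕ) + 1) : ℝ) := by
    exact_mod_cast Nat.choose_pos (by omega)
  have h4 : (0 : ℝ) < (((p : ℕ) + 1 : ℕ) : ℝ) := by positivity
  unfold pairNorm
  apply div_pos
  · apply mul_pos (mul_pos h4 (by linarith)) h3
  · linarith

theorem nu0_inv (i : ℕ) : (nu0 Q i)⁻¹ = √(Q.choose i : ℝ) := by
  unfold nu0; rw [inv_inv]

theorem bcoef_nu0' (i j : ℕ) :
    bcoef (nu0 Q) i j = ((j : ℝ) - i) * (√(Q.choose i : ℝ) * √(Q.choose j : ℝ)) := by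
  unfold bcoef
  rw [div_eq_mul_inv, mul_inv, nu0_inv, nu0_inv]

/-- `Bp` and `bz (nu0 Q)` -/
theorem Bp_eq_bz (p : Fin (2 * Q - 1)) :
    Bp Q p = (((√(pairNorm Q ((p : ℕ) + 1)))⁻¹ : ℝ) : ℂ) • bz (nu0 Q) Q ((p : ℕ) + 1) := by
  unfold Bp pa
  rw [sum_anti]
  · rw [smul_smul]
    unfold bz pairs
    rw [smul_sum, smul_sum]
    have hsub : univ.filter (fun x : Fin (Q + 1) × Fin (Q + 1) => x.1 < x.2 ∧
        (x.1 : ℕ) + (x.2 : ℕ) = (p : ℕ) + 1) ⊆
        univ.filter (fun x : Fin (Q + 1) × Fin (Q + 1) => x.1 < x.2) := by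
      intro x hx
      simp only [mem_filter, mem_univ, true_and] at hx ⊢
      exact hx.1
    rw [← sum_subset hsub]
    · apply sum_congr rfl
      intro x hx
      simp only [mem_filter, mem_univ, true_and] at hx
      rw [smul_smul, smul_smul]
      congr 1
      rw [wM_apply, Complex.conj_ofReal]
      unfold pairVec
      rw [if_pos hx.2, bcoef_nu0']
      have h2 : (Real.sqrt 2 : ℂ) = ((Real.sqrt 2 : ℝ) : ℂ) := rfl
      rw [h2, ← Complex.ofReal_inv]
      have h3 : (2 : ℂ) = ((2 : ℝ) : ℂ) := by norm_num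
      rw [h3, ← Complex.ofReal_mul, ← Complex.ofReal_mul, ← Complex.ofReal_mul]
      congr 1
      have hn := pairNorm_pos p
      rw [Real.sqrt_mul (by norm_num : (0 : ℝ) ≤ 2)]
      try rw [Real.sqrt_mul (Nat.cast_nonneg _)]
      have hs2 : 0 < Real.sqrt 2 := by positivity
      have hsn : 0 < Real.sqrt (pairNorm Q ((p : ℕ) + 1)) := Real.sqrt_pos.2 hn
      have h22 : Real.sqrt 2 * Real.sqrt 2 = 2 := Real.mul_self_sqrt (by norm_num)
      field_simp
      rw [sq, h22]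
    · intro x hx hx'
      simp only [mem_filter, mem_univ, true_and] at hx hx'
      have hne : ¬ ((x.1 : ℕ) + (x.2 : ℕ) = (p : ℕ) + 1) := fun h => hx' ⟨hx, h⟩
      rw [wM_apply]
      unfold pairVec
      rw [if_neg hne]
      simp
  · intro i j
    rw [wM_apply, wM_apply]
    have h1 : pairVec Q p j i = - pairVec Q p i j := by
      unfold pairVec
      by_cases h : (i : ℕ) + j = p + 1
      · rw [if_pos h, if_pos (by omega : (j : ℕ) + i = p + 1)]
        rw [mul_comm ((Q.choose j : ℕ) : ℝ)]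
        ring
      · rw [if_neg h, if_neg (by omega : ¬ ((j : ℕ) + i = p + 1))]
        simp
    rw [h1, c_c_eq j i]
    simp
  · intro i
    have : (c i * c i : Op (Fin (Q + 1))) = 0 := by
      have h := c_c_eq (ι := Fin (Q + 1)) i i
      have h2 : (2 : ℂ) • (c i * c i : Op (Fin (Q + 1))) = 0 := by
        rw [two_smul]; nth_rewrite 1 [h]; simp
      rcases smul_eq_zero.1 h2 with h3 | h3
      · norm_num at h3
      · exact h3
    rw [this, smul_zero]

/-- **Zero modes.** -/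
theorem mem_Zs_nu0_iff {ψ : Fk (Fin (Q + 1))} :
    ψ ∈ Zs (nu0 Q) Q ↔ ∀ p : Fin (2 * Q - 1), Bp Q p ψ = 0 := by
  rw [mem_Zs]
  constructor
  · intro h p
    rw [Bp_eq_bz, smul_ap, h, smul_zero]
  · intro h p
    by_cases hp : 1 ≤ p ∧ p < 2 * Q
    · have h1 := h ⟨p - 1, by omega⟩
      rw [Bp_eq_bz, smul_ap] at h1
      have h2 : p - 1 + 1 = p := by omega
      simp only [h2] at h1
      rcases smul_eq_zero.1 h1 with h3 | h3
      · exfalso
        have hn := pairNorm_pos (Q := Q) ⟨p - 1, by omega⟩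
        simp only [h2] at hn
        have : (√(pairNorm Q p))⁻¹ ≠ 0 := inv_ne_zero (Real.sqrt_pos.2 hn).ne'
        exact this (by exact_mod_cast h3)
      · exact h3
    · have h0 : bz (nu0 Q) Q p = 0 := by
        apply bz_eq_zero_of_empty
        rcases Nat.lt_or_ge p (2 * Q) with h1 | h1
        · have hp0 : p = 0 := by
            by_contra hne
            exact hp ⟨by omega, h1⟩
          subst hp0
          refine eq_empty_of_forall_notMem fun x hx => ?_
          obtain ⟨h2, h3⟩ := mem_pairs.mp hx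
          have h4 : (x.1 : ℕ) < x.2 := h2
          omega
        · exact pairs_eq_empty_of_ge h1
      rw [h0, zero_ap]

theorem mem_Zn_nu0_iff {n : ℕ} {ψ : Fk (Fin (Q + 1))} :
    ψ ∈ Zn (nu0 Q) Q n ↔ (∀ p : Fin (2 * Q - 1), Bp Q p ψ = 0) ∧ Nh ψ = (n : ℂ) • ψ := by
  rw [mem_Zn, mem_Zs_nu0_iff]

/-- zero modes and the Hamiltonian -/
theorem mem_Zs_nu0_iff_HH {ψ : Fk (Fin (Q + 1))} : ψ ∈ Zs (nu0 Q) Q ↔ HH Q ψ = 0 := by
  rw [mem_Zs_nu0_iff]
  constructor
  · intro h
    unfold HH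
    rw [sum_ap]
    apply sum_eq_zero
    intro p _
    rw [mul_ap, h p, map_zero]
  · intro h p
    have h1 : (inner ℂ ψ (HH Q ψ) : ℂ) = ∑ p, (inner ℂ (Bp Q p ψ) (Bp Q p ψ) : ℂ) := by
      unfold HH
      rw [sum_ap, inner_sum]
      apply sum_congr rfl
      intro p _
      rw [mul_ap, inner_star_right]
    rw [h, inner_zero_right] at h1
    have h2 : ∑ p, ‖Bp Q p ψ‖ ^ 2 = 0 := by
      have h3 : ((∑ p, ‖Bp Q p ψ‖ ^ 2 : ℝ) : ℂ) = 0 := by
        rw [h1]
        push_cast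
        apply sum_congr rfl
        intro p _
        rw [inner_self_eq_norm_sq_to_K]
        norm_cast
      exact_mod_cast h3
    have h3 := (sum_eq_zero_iff_of_nonneg fun p _ => sq_nonneg _).1 h2 p (mem_univ p)
    exact norm_eq_zero.1 ((pow_eq_zero_iff two_ne_zero).1 h3)

end Crest.Agent.R340.ZsBp725
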